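import Crest.Agent.R302.Forest

/-! Row 302: anti-concentration for one unit of relaxation. -/

set_option autoImplicit false

namespace Crest.Agent.R302

open Finset

namespace AC1X

/-- arcs: every set containing `u` and not `v` has slack at least `θ` -/
def Arc (n : ℕ) (sl : Finset ℕ → ℤ) (θ : ℤ) (u v : ℕ) : Prop :=
  u < n ∧ v < n ∧ ∀ S ⊆ range n, u ∈ S → v ∉ S → θ ≤ sl S

/-- closed sets -/
def Cl (G : ℕ → ℕ → Prop) (S : Finset ℕ) : Prop := ∀ u v, G u v → u ∈ S → v ∈ S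

/-- reachability, through closed sets -/
def Rch (G1 G2 : ℕ → ℕ → Prop) (u v : ℕ) : Prop :=
  ∀ B : Finset ℕ, Cl G1 B → Cl G2 B → u ∈ B → v ∈ B

/-- `c` is the `G1` part of a walk from `u` to `v` -/
def Wk (n : ℕ) (G1 G2 : ℕ → ℕ → Prop) (u v : ℕ) (c : Vec) (l : ℕ) : Prop :=
  (∀ t, n ≤ t → c t = 0) ∧ (∀ S, |sm S c| ≤ l) ∧ (∀ S, Cl G1 S → sm S c ≤ 0) ∧
    ∀ S, Cl G2 S → sm S (ev u - ev v) ≤ sm S c

section
variable {n : ℕ} {G1 G2 : ℕ → ℕ → Prop}

theorem sm_zero (S : Finset ℕ) : sm S 0 = 0 := by simp [sm]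

theorem sm_evev (S : Finset ℕ) (u v : ℕ) :
    sm S (ev u - ev v) = (if u ∈ S then 1 else 0) - if v ∈ S then 1 else 0 := by
  rw [sm_sub, sm_ev, sm_ev]

theorem abs_evev (S : Finset ℕ) (u v : ℕ) : |sm S (ev u - ev v)| ≤ 1 := by
  rw [sm_evev]; split_ifs <;> simp

theorem evev_nonpos {G : ℕ → ℕ → Prop} {S : Finset ℕ} (hS : Cl G S) {u v : ℕ} (h : G u v) :
    sm S (ev u - ev v) ≤ 0 := by
  rw [sm_evev]
  have := hS u v h
  split_ifs <;> first | omega | tauto

theorem evev_supp {u v t : ℕ} (hu : u < n) (hv : v < n) (ht : n ≤ t) : (ev u - ev v) t = 0 := by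
  rw [Pi.sub_apply, ev_apply, ev_apply, if_neg (by omega), if_neg (by omega)]; rfl

theorem evev_split (S : Finset ℕ) (u v t : ℕ) :
    sm S (ev u - ev t) = sm S (ev u - ev v) + sm S (ev v - ev t) := by
  simp only [sm_sub]; ring

theorem exists_closed (h1 : ∀ u v, G1 u v → u < n ∧ v < n) (h2 : ∀ u v, G2 u v → u < n ∧ v < n)
    {u : ℕ} (hu : u < n) (l : ℕ) : ∃ B ⊆ range n, u ∈ B ∧ (∀ v ∈ B, ∃ c, Wk n G1 G2 u v c l) ∧
      ((Cl G1 B ∧ Cl G2 B) ∨ l < B.card) := by
  induction l with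
  | zero =>
    refine ⟨{u}, by simpa using hu, mem_singleton_self u, fun v hv => ⟨0, fun _ _ => rfl,
      fun S => by simp [sm_zero], fun S _ => (sm_zero S).le, fun S _ => ?_⟩, Or.inr (by simp)⟩
    rw [mem_singleton.1 hv, sub_self]
  | succ l ih =>
    obtain ⟨B, b1, b2, b3, b4⟩ := ih
    have mono : ∀ v ∈ B, ∃ c, Wk n G1 G2 u v c (l + 1) := fun v hv => by
      obtain ⟨c, c1, c2, c3⟩ := b3 v hv
      exact ⟨c, c1, fun S => (c2 S).trans (by push_cast; omega), c3⟩
    by_cases hc : Cl G1 B ∧ Cl G2 B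
    · exact ⟨B, b1, b2, mono, Or.inl hc⟩
    have hl := b4.resolve_left hc
    obtain ⟨t, ht, htB, c, hc⟩ : ∃ t < n, t ∉ B ∧ ∃ c, Wk n G1 G2 u t c (l + 1) := by
      by_cases g1 : Cl G1 B
      · have g2 : ¬ Cl G2 B := fun g2 => hc ⟨g1, g2⟩
        simp only [Cl, not_forall] at g2
        obtain ⟨v, t, a1, a2, a3⟩ := g2
        obtain ⟨c, c1, c2, c3, c4⟩ := mono v a2
        refine ⟨t, (h2 v t a1).2, a3, c, c1, c2, c3, fun S hS => ?_⟩
        have := evev_nonpos hS a1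
        have := c4 S hS
        rw [evev_split S u v t]; omega
      · simp only [Cl, not_forall] at g1
        obtain ⟨v, t, a1, a2, a3⟩ := g1
        obtain ⟨c, c1, c2, c3, c4⟩ := b3 v a2
        refine ⟨t, (h1 v t a1).2, a3, c + (ev v - ev t), fun x hx => ?_, fun S => ?_,
          fun S hS => ?_, fun S hS => ?_⟩
        · rw [Pi.add_apply, c1 x hx, evev_supp (h1 v t a1).1 (h1 v t a1).2 hx]; rfl
        · rw [sm_add]
          have := abs_evev S v t
          have := c2 S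
          refine (abs_add_le _ _).trans ?_
          push_cast; omega
        · have := evev_nonpos hS a1
          have := c3 S hS
          rw [sm_add]; omega
        · have := c4 S hS
          rw [sm_add, evev_split S u v t]; omega
    refine ⟨insert t B, insert_subset (mem_range.2 ht) b1, mem_insert_of_mem b2, fun v hv => ?_,
      Or.inr (by rw [card_insert_of_notMem htB]; omega)⟩
    rcases mem_insert.1 hv with rfl | hv
    · exact ⟨c, hc⟩
    · exact mono v hv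

theorem exists_walk (h1 : ∀ u v, G1 u v → u < n ∧ v < n) (h2 : ∀ u v, G2 u v → u < n ∧ v < n)
    {u v : ℕ} (hu : u < n) (h : Rch G1 G2 u v) : ∃ c, Wk n G1 G2 u v c n := by
  obtain ⟨B, b1, b2, b3, b4⟩ := exists_closed h1 h2 hu n
  have := card_le_card b1
  rw [card_range] at this
  have hc := b4.resolve_right (by omega)
  exact b3 v (h B hc.1 hc.2 b2)

/-- the properties of the canonical circulation -/
def Circ (n : ℕ) (G1 G2 : ℕ → ℕ → Prop) (c : Vec) : Prop :=
  (∀ t, n ≤ t → c t = 0) ∧ (∀ S, |sm S c| ≤ 2 * (n : ℤ) ^ 3) ∧ (∀ S, Cl G1 S → sm S c ≤ 0) ∧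
    (∀ S, Cl G1 S → ∀ u v, G1 u v → Rch G1 G2 v u → u ∉ S → v ∈ S → sm S c ≤ -1) ∧
    ∀ S, Cl G2 S → 0 ≤ sm S c

theorem exists_circ (h1 : ∀ u v, G1 u v → u < n ∧ v < n) (h2 : ∀ u v, G2 u v → u < n ∧ v < n) :
    ∃ c, Circ n G1 G2 c := by
  classical
  have key : ∀ p : ℕ × ℕ, ∃ c : Vec, (∀ t, n ≤ t → c t = 0) ∧ (∀ S, |sm S c| ≤ n + 1) ∧
      (∀ S, Cl G1 S → sm S c ≤ 0) ∧
      (∀ S, Cl G1 S → G1 p.1 p.2 → Rch G1 G2 p.2 p.1 → p.1 ∉ S → p.2 ∈ S → sm S c ≤ -1) ∧
      ∀ S, Cl G2 S → 0 ≤ sm S c := by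
    rintro ⟨u, v⟩
    by_cases h : G1 u v ∧ Rch G1 G2 v u
    · obtain ⟨c, c1, c2, c3, c4⟩ := exists_walk h1 h2 (h1 u v h.1).2 h.2
      refine ⟨c + (ev u - ev v), fun x hx => ?_, fun S => ?_, fun S hS => ?_,
        fun S hS _ _ a1 a2 => ?_, fun S hS => ?_⟩
      · rw [Pi.add_apply, c1 x hx, evev_supp (h1 u v h.1).1 (h1 u v h.1).2 hx]; rfl
      · rw [sm_add]
        have := abs_evev S u v
        have := c2 S
        refine (abs_add_le _ _).trans ?_
        omega
      · have := evev_nonpos hS h.1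
        have := c3 S hS
        rw [sm_add]; omega
      · have := c3 S hS
        rw [sm_add, sm_evev, if_neg a1, if_pos a2]; omega
      · have := c4 S hS
        rw [sm_add]
        rw [sm_sub] at this ⊢; omega
    · exact ⟨0, fun _ _ => rfl, fun S => by rw [sm_zero, abs_zero]; positivity,
        fun S _ => (sm_zero S).le, fun S _ a1 a2 => absurd ⟨a1, a2⟩ h, fun S _ => (sm_zero S).ge⟩
  choose c c1 c2 c3 c4 c5 using key
  refine ⟨∑ p ∈ range n ×ˢ range n, c p, fun t ht => ?_, fun S => ?_, fun S hS => ?_,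
    fun S hS u v a1 a2 a3 a4 => ?_, fun S hS => ?_⟩
  · rw [Finset.sum_apply]; exact sum_eq_zero fun p _ => c1 p t ht
  · rw [sm_sum]
    refine (abs_sum_le_sum_abs _ _).trans ((sum_le_card_nsmul _ _ _ fun p _ => c2 p S).trans ?_)
    rw [card_product, card_range, nsmul_eq_mul]
    push_cast
    rcases Nat.eq_zero_or_pos n with rfl | hn
    · simp
    · have : (1 : ℤ) ≤ n := by exact_mod_cast hn
      nlinarith [mul_nonneg (mul_nonneg (by omega : (0 : ℤ) ≤ n) (by omega : (0 : ℤ) ≤ n))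
        (by omega : (0 : ℤ) ≤ n - 1)]
  · rw [sm_sum]; exact sum_nonpos fun p _ => c3 p S hS
  · rw [sm_sum, ← add_sum_erase _ _ (show (u, v) ∈ range n ×ˢ range n by
      simpa using h1 u v a1)]
    have := c4 (u, v) S hS a1 a2 a3 a4
    have : ∑ p ∈ (range n ×ˢ range n).erase (u, v), sm S (c p) ≤ 0 :=
      sum_nonpos fun p _ => c3 p S hS
    omega
  · rw [sm_sum]; exact sum_nonneg fun p _ => c5 p S hS

/-- closed sets have small slack -/
theorem slack_le {sl : Finset ℕ → ℤ} (hs : Submod n sl) (h0 : ∀ S ⊆ range n, 0 ≤ sl S)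
    (he : sl ∅ = 0) (hV : sl (range n) = 0) {θ : ℤ} (hθ : 0 ≤ θ) {S : Finset ℕ} (hS : S ⊆ range n)
    (hc : Cl (Arc n sl (θ + 1)) S) : sl S ≤ (n : ℤ) ^ 2 * θ := by
  have ha : ∀ u ∈ S, ∀ X : Finset ℕ, X ⊆ range n \ S →
      ∃ I ⊆ range n, u ∈ I ∧ (∀ v ∈ X, v ∉ I) ∧ sl I ≤ X.card * θ := by
    intro u hu X
    induction X using Finset.induction_on with
    | empty => intro _; exact ⟨range n, Subset.rfl, hS hu, by simp, by simp [hV]⟩
    | insert v X hv ih =>
      intro hX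
      obtain ⟨I, a1, a2, a3, a4⟩ := ih ((subset_insert _ _).trans hX)
      have hv' := mem_sdiff.1 (hX (mem_insert_self v X))
      have : ¬ Arc n sl (θ + 1) u v := fun h => hv'.2 (hc u v h hu)
      simp only [Arc, not_and, not_forall] at this
      obtain ⟨T, t1, t2, t3, t4⟩ := this (mem_range.1 (hS hu)) (mem_range.1 hv'.1)
      refine ⟨I ∩ T, inter_subset_left.trans a1, mem_inter.2 ⟨a2, t2⟩, fun x hx hx' => ?_, ?_⟩
      · rcases mem_insert.1 hx with rfl | hx
        · exact t3 (mem_inter.1 hx').2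
        · exact a3 x hx (mem_inter.1 hx').1
      · have := hs I a1 T t1
        have := h0 (I ∪ T) (union_subset a1 t1)
        rw [card_insert_of_notMem hv]
        push_cast
        linarith
  have hb : ∀ Y : Finset ℕ, Y ⊆ S → ∃ J ⊆ S, Y ⊆ J ∧ sl J ≤ Y.card * (n * θ) := by
    intro Y
    induction Y using Finset.induction_on with
    | empty => intro _; exact ⟨∅, empty_subset _, Subset.rfl, by simp [he]⟩
    | insert u Y hu ih =>
      intro hY
      obtain ⟨J, a1, a2, a3⟩ := ih ((subset_insert _ _).trans hY)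
      obtain ⟨I, b1, b2, b3, b4⟩ := ha u (hY (mem_insert_self u Y)) _ Subset.rfl
      have b5 : I ⊆ S := fun x hx => by
        by_contra hx'
        exact b3 x (mem_sdiff.2 ⟨b1 hx, hx'⟩) hx
      have b6 : ((range n \ S).card : ℤ) ≤ n := by
        have := card_le_card (sdiff_subset (s := range n) (t := S))
        rw [card_range] at this
        exact_mod_cast this
      refine ⟨J ∪ I, union_subset a1 b5, insert_subset (mem_union_right _ b2)
        (a2.trans subset_union_left), ?_⟩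
      have := hs J (a1.trans hS) I b1
      have := h0 (J ∩ I) (inter_subset_right.trans b1)
      have := mul_le_mul_of_nonneg_right b6 hθ
      rw [card_insert_of_notMem hu]
      push_cast
      linarith
  obtain ⟨J, a1, a2, a3⟩ := hb S Subset.rfl
  rw [Subset.antisymm a1 a2] at a3
  have b6 : (S.card : ℤ) ≤ n := by
    have := card_le_card hS
    rw [card_range] at this
    exact_mod_cast this
  have := mul_le_mul_of_nonneg_right b6 (mul_nonneg (Int.natCast_nonneg n) hθ)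
  linarith

/-- a closed set separating `i` from `j` that is not entered gives a thin pair -/
theorem exists_pair (h1 : ∀ u v, G1 u v → u < n ∧ v < n) (h2 : ∀ u v, G2 u v → u < n ∧ v < n)
    {i j : ℕ} (hi : i < n) (hj : j < n) {T : Finset ℕ} (hT : Cl G1 T) (hiT : i ∈ T) (hjT : j ∉ T)
    (hne : ∀ u v, G1 u v → Rch G1 G2 v u → u ∉ T → v ∉ T) :
    ∃ A ⊆ range n, ∃ A' ⊆ range n, Sep A i j ∧ Cl G1 A ∧ Cl G1 A' ∧ Cl G2 (A ∪ A') ∧
      Cl G2 (A ∩ A') := by
  classical
  have r1 : ∀ {a u v}, Rch G1 G2 a u → G1 u v → Rch G1 G2 a v :=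
    fun h g B b1 b2 b3 => b1 _ _ g (h B b1 b2 b3)
  have r2 : ∀ {a u v}, Rch G1 G2 a u → G2 u v → Rch G1 G2 a v :=
    fun h g B b1 b2 b3 => b2 _ _ g (h B b1 b2 b3)
  have l1 : ∀ {a u v}, Rch G1 G2 v a → G1 u v → Rch G1 G2 u a :=
    fun h g B b1 b2 b3 => h B b1 b2 (b1 _ _ g b3)
  have l2 : ∀ {a u v}, Rch G1 G2 v a → G2 u v → Rch G1 G2 u a :=
    fun h g B b1 b2 b3 => h B b1 b2 (b2 _ _ g b3)
  have rf : ∀ a, Rch G1 G2 a a := fun a B _ _ h => h
  have tr : ∀ {a b c}, Rch G1 G2 a b → Rch G1 G2 b c → Rch G1 G2 a c :=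
    fun h g B b1 b2 b3 => g B b1 b2 (h B b1 b2 b3)
  have hU : ∀ a, Cl G1 ((range n).filter (Rch G1 G2 a)) ∧ Cl G2 ((range n).filter (Rch G1 G2 a)) :=
    fun a => ⟨fun u v g hu => mem_filter.2 ⟨mem_range.2 (h1 u v g).2, r1 (mem_filter.1 hu).2 g⟩,
      fun u v g hu => mem_filter.2 ⟨mem_range.2 (h2 u v g).2, r2 (mem_filter.1 hu).2 g⟩⟩
  by_cases hij : Rch G1 G2 i j
  swap
  · refine ⟨_, filter_subset (Rch G1 G2 i) _, _, filter_subset (Rch G1 G2 i) _, ?_, (hU i).1,
      (hU i).1, by simpa using (hU i).2, by simpa using (hU i).2⟩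
    simp [Sep, hi, rf, hij]
  by_cases hji : Rch G1 G2 j i
  swap
  · refine ⟨_, filter_subset (Rch G1 G2 j) _, _, filter_subset (Rch G1 G2 j) _, ?_, (hU j).1,
      (hU j).1, by simpa using (hU j).2, by simpa using (hU j).2⟩
    simp [Sep, hj, rf, hji]
  refine ⟨(range n).filter fun v => Rch G1 G2 i v ∧ (Rch G1 G2 v i → v ∈ T), filter_subset _ _,
    (range n).filter fun v => Rch G1 G2 i v ∧ (Rch G1 G2 v i → v ∉ T), filter_subset _ _,
    ?_, fun u v g hu => ?_, fun u v g hu => ?_, fun u v g hu => ?_, fun u v g hu => ?_⟩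
  · simp [Sep, hi, rf, hiT, hjT, hji]
  · simp only [mem_filter, mem_range] at hu ⊢
    exact ⟨(h1 u v g).2, r1 hu.2.1 g, fun h => hT u v g (hu.2.2 (l1 h g))⟩
  · simp only [mem_filter, mem_range] at hu ⊢
    exact ⟨(h1 u v g).2, r1 hu.2.1 g, fun h => hne u v g (tr h hu.2.1) (hu.2.2 (l1 h g))⟩
  · simp only [mem_union, mem_filter, mem_range] at hu ⊢
    have a1 : Rch G1 G2 i v := r2 (hu.elim (fun h => h.2.1) fun h => h.2.1) g
    by_cases hv : v ∈ T
    · exact Or.inl ⟨(h2 u v g).2, a1, fun _ => hv⟩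
    · exact Or.inr ⟨(h2 u v g).2, a1, fun _ => hv⟩
  · simp only [mem_inter, mem_filter, mem_range] at hu ⊢
    have a1 : ¬ Rch G1 G2 v i := fun h => hu.2.2.2 (l2 h g) (hu.1.2.2 (l2 h g))
    exact ⟨⟨(h2 u v g).2, r2 hu.1.2.1 g, fun h => absurd h a1⟩,
      (h2 u v g).2, r2 hu.1.2.1 g, fun h => absurd h a1⟩

theorem arc_lt (n : ℕ) (sl : Finset ℕ → ℤ) (θ : ℤ) (u v : ℕ) (h : Arc n sl θ u v) :
    u < n ∧ v < n := ⟨h.1, h.2.1⟩

theorem arc_of_le {sl sl' : Finset ℕ → ℤ} {θ θ' : ℤ} (h : ∀ S, θ ≤ sl S → θ' ≤ sl' S) {u v : ℕ}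
    (ha : Arc n sl θ u v) : Arc n sl' θ' u v :=
  ⟨ha.1, ha.2.1, fun S a1 a2 a3 => h S (ha.2.2 S a1 a2 a3)⟩

/-- a scale without capacities -/
theorem exists_scale (n : ℕ) (sl1 sl2 : Finset ℕ → ℤ) {W : ℤ} (hW : 0 ≤ W) :
    ∃ k < 2 * n ^ 2 + 1, (∀ u v, Arc n sl1 (W * k + 1) u v → Arc n sl1 (W * k + 1 + W) u v) ∧
      ∀ u v, Arc n sl2 (W * k + 1) u v → Arc n sl2 (W * k + 1 + W) u v := by
  classical
  let F : (Finset ℕ → ℤ) → ℕ → Finset (ℕ × ℕ) := fun sl k =>
    (range n ×ˢ range n).filter fun p => Arc n sl (W * k + 1) p.1 p.2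
  have hsub : ∀ sl k, F sl (k + 1) ⊆ F sl k := fun sl k p hp => by
    refine mem_filter.2 ⟨(mem_filter.1 hp).1, arc_of_le (fun S h => ?_) (mem_filter.1 hp).2⟩
    push_cast at h
    linarith
  have hlt : ∀ sl (k : ℕ), ¬ (∀ u v, Arc n sl (W * k + 1) u v → Arc n sl (W * k + 1 + W) u v) →
      (F sl (k + 1)).card < (F sl k).card := fun sl k h => by
    simp only [not_forall] at h
    obtain ⟨u, v, a1, a2⟩ := h
    refine card_lt_card ⟨hsub sl k, fun hh => a2 ?_⟩
    have := (mem_filter.1 (hh (show (u, v) ∈ F sl k from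
      mem_filter.2 ⟨by simpa using arc_lt _ _ _ _ _ a1, a1⟩))).2
    refine arc_of_le (fun S h => ?_) this
    push_cast at h
    linarith
  by_contra hc
  have key : ∀ k ≤ 2 * n ^ 2 + 1, (F sl1 k).card + (F sl2 k).card + k ≤ 2 * n ^ 2 := by
    intro k
    induction k with
    | zero =>
      intro _
      have a1 : ∀ sl, (F sl 0).card ≤ n ^ 2 := fun sl =>
        (card_filter_le _ _).trans (by rw [card_product, card_range, sq])
      have := a1 sl1
      have := a1 sl2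
      omega
    | succ k ih =>
      intro hk
      have a0 := ih (by omega)
      have a1 := card_le_card (hsub sl1 k)
      have a2 := card_le_card (hsub sl2 k)
      by_cases c1 : ∀ u v, Arc n sl1 (W * k + 1) u v → Arc n sl1 (W * k + 1 + W) u v
      · have := hlt sl2 k fun c2 => hc ⟨k, by omega, c1, c2⟩
        omega
      · have := hlt sl1 k c1
        omega
  have := key _ le_rfl
  omega

end

/-- the canonical direction read from a point and a scale -/
noncomputable def cv (n : ℕ) (g f2 : Finset ℕ → ℤ) (D : ℤ) (w : Vec) (k : ℕ) : Vec :=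
  (exists_circ (arc_lt n (fun S => g S - sm S w) (2 * D * k + 1 + D))
    (arc_lt n (fun S => f2 S + sm S w) (2 * D * k + 1 + D))).choose

theorem cv_congr {n : ℕ} {g f2 : Finset ℕ → ℤ} {D : ℤ} {w w' : Vec} {k : ℕ}
    (h1 : Arc n (fun S => g S - sm S w) (2 * D * k + 1 + D) =
      Arc n (fun S => g S - sm S w') (2 * D * k + 1 + D))
    (h2 : Arc n (fun S => f2 S + sm S w) (2 * D * k + 1 + D) =
      Arc n (fun S => f2 S + sm S w') (2 * D * k + 1 + D)) : cv n g f2 D w k = cv n g f2 D w' k := by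
  unfold cv
  congr 1
  rw [h1, h2]

theorem main {n : ℕ} {f1 f2 : Finset ℕ → ℤ} (h : Pair n f1 f2) {i j : ℕ} (hi : i < n) (hj : j < n)
    {L : ℕ} (hL : 1 ≤ L)
    (hΦ : ∀ A ⊆ range n, ∀ A' ⊆ range n, Sep A i j → 48 * (n : ℤ) ^ 7 * L < Phi f1 f2 A A')
    {g : Finset ℕ → ℤ} (hg : g = fun S => f1 S + if i ∈ S ∧ j ∉ S then 1 else 0)
    {D : ℤ} (hD : D = 2 * (n : ℤ) ^ 3 * L) {z : Vec} (hz : z ∈ PS n g f2) :
    ∃ k < 2 * n ^ 2 + 1, ∀ m : ℕ, 1 ≤ m → m ≤ L →
      z + (m : ℤ) • cv n g f2 D z k ∈ PS n f1 f2 ∧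
        cv n g f2 D (z + (m : ℤ) • cv n g f2 D z k) k = cv n g f2 D z k := by
  have hD0 : 0 ≤ D := by rw [hD]; positivity
  have hD1 : 1 ≤ D := by
    have a1 : (1 : ℤ) ≤ n := by exact_mod_cast (by omega : 1 ≤ n)
    have a2 : (1 : ℤ) ≤ L := by exact_mod_cast hL
    have a3 : (1 : ℤ) ≤ (n : ℤ) ^ 3 := one_le_pow₀ a1
    rw [hD]; nlinarith
  obtain ⟨k, hk, s1, s2⟩ := exists_scale n (fun S => g S - sm S z) (fun S => f2 S + sm S z)
    (W := 2 * D) (by omega)
  have hDk : 0 ≤ 2 * D * k := by positivity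
  obtain ⟨c1, c2, c3, c4, c5⟩ : Circ n _ _ (cv n g f2 D z k) := (exists_circ
    (arc_lt n (fun S => g S - sm S z) (2 * D * k + 1 + D))
    (arc_lt n (fun S => f2 S + sm S z) (2 * D * k + 1 + D))).choose_spec
  generalize hc : cv n g f2 D z k = c at c1 c2 c3 c4 c5
  have e1 : Arc n (fun S => g S - sm S z) (2 * D * k + 1 + D) =
      Arc n (fun S => g S - sm S z) (2 * D * k + 1) := by
    funext u v
    exact propext ⟨arc_of_le fun S h => by omega, fun h => arc_of_le (fun S h => by omega) (s1 u v h)⟩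
  have e2 : Arc n (fun S => f2 S + sm S z) (2 * D * k + 1 + D) =
      Arc n (fun S => f2 S + sm S z) (2 * D * k + 1) := by
    funext u v
    exact propext ⟨arc_of_le fun S h => by omega, fun h => arc_of_le (fun S h => by omega) (s2 u v h)⟩
  have hgV : g (range n) = f1 (range n) := by simp [hg, hj]
  have hzV : sm (range n) z = f1 (range n) := by
    have := hz.2 _ Subset.rfl
    have := h.tot
    omega
  have hsub1 : Submod n fun S => g S - sm S z := fun A hA B hB => by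
    have a1 := h.s1 A hA B hB
    have a2 := sm_union_inter A B z
    have a3 : ((if i ∈ A ∪ B ∧ j ∉ A ∪ B then 1 else 0) + if i ∈ A ∩ B ∧ j ∉ A ∩ B then 1 else 0 : ℤ)
        ≤ (if i ∈ A ∧ j ∉ A then 1 else 0) + if i ∈ B ∧ j ∉ B then 1 else 0 := by
      by_cases a : i ∈ A <;> by_cases b : i ∈ B <;> by_cases c : j ∈ A <;> by_cases d : j ∈ B <;>
        simp [a, b, c, d]
    simp only [hg]
    linarith
  have hsub2 : Submod n fun S => f2 S + sm S z := fun A hA B hB => by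
    have a1 := h.s2 A hA B hB
    have a2 := sm_union_inter A B z
    simp only
    linarith
  have b1 : ∀ S ⊆ range n, Cl (Arc n (fun S => g S - sm S z) (2 * D * k + 1)) S →
      g S - sm S z ≤ (n : ℤ) ^ 2 * (2 * D * k) := fun S hS hc =>
    slack_le hsub1 (fun S hS => by have := (hz.2 S hS).1; omega) (by simp [hg, h.z1, sm])
      (by simp only [hgV, hzV, sub_self]) hDk hS hc
  have b2 : ∀ S ⊆ range n, Cl (Arc n (fun S => f2 S + sm S z) (2 * D * k + 1)) S →
      f2 S + sm S z ≤ (n : ℤ) ^ 2 * (2 * D * k) := fun S hS hc =>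
    slack_le hsub2 (fun S hS => by have := (hz.2 S hS).2; omega) (by simp [h.z2, sm])
      (by have := h.tot; simp only [hzV]; omega) hDk hS hc
  rw [e1, e2] at c4
  rw [e1] at c3
  rw [e2] at c5
  have ent : ∀ T, Cl (Arc n (fun S => g S - sm S z) (2 * D * k + 1)) T → i ∈ T → j ∉ T →
      sm T c ≤ -1 := by
    intro T hT hiT hjT
    by_contra hcc
    obtain ⟨A, hA, A', hA', a1, a2, a3, a4, a5⟩ := exists_pair (arc_lt _ _ _) (arc_lt _ _ _) hi hj
      hT hiT hjT fun u v d1 d2 d3 d4 => hcc (c4 T hT u v d1 d2 d3 d4)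
    have t0 := hΦ A hA A' hA' a1
    have t1 := b1 A hA a2
    have t2 := b1 A' hA' a3
    have t3 := b2 _ (union_subset hA hA') a4
    have t4 := b2 _ (inter_subset_left.trans hA) a5
    have t5 := sm_union_inter A A' z
    have t6 : ∀ S, f1 S ≤ g S := fun S => by simp only [hg]; split_ifs <;> omega
    have t7 := t6 A
    have t8 := t6 A'
    have t9 : (k : ℤ) ≤ 2 * (n : ℤ) ^ 2 := by exact_mod_cast (by omega : k ≤ 2 * n ^ 2)
    have t10 : (n : ℤ) ^ 2 * (2 * D * k) ≤ (n : ℤ) ^ 2 * (2 * D * (2 * (n : ℤ) ^ 2)) := by gcongr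
    have t11 : (n : ℤ) ^ 2 * (2 * D * (2 * (n : ℤ) ^ 2)) = 8 * (n : ℤ) ^ 7 * L := by rw [hD]; ring
    have t12 : 0 ≤ (n : ℤ) ^ 7 * L := by positivity
    unfold Phi at t0
    linarith
  refine ⟨k, hk, fun m hm1 hmL => ?_⟩
  rw [hc]
  have hm1' : (1 : ℤ) ≤ m := by exact_mod_cast hm1
  have hmD : ∀ S, -D ≤ (m : ℤ) * sm S c ∧ (m : ℤ) * sm S c ≤ D := fun S => by
    refine abs_le.1 ?_
    have a1 : (m : ℤ) ≤ L := by exact_mod_cast hmL
    rw [abs_mul, abs_of_nonneg (by omega : (0 : ℤ) ≤ m), hD, mul_comm]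
    exact mul_le_mul (c2 S) a1 (by omega) (by positivity)
  have hsm : ∀ S, sm S (z + (m : ℤ) • c) = sm S z + m * sm S c := fun S => by
    rw [sm_add, sm_smul]
  refine ⟨⟨fun t ht => ?_, fun S hS => ⟨?_, ?_⟩⟩, ?_⟩
  · rw [Pi.add_apply, Pi.smul_apply, hz.1 t ht, c1 t ht]; simp
  · rw [hsm]
    have a0 := hmD S
    have a1 := (hz.2 S hS).1
    have a2 : g S = f1 S + if i ∈ S ∧ j ∉ S then 1 else 0 := by rw [hg]
    by_cases hcl : Cl (Arc n (fun S => g S - sm S z) (2 * D * k + 1)) S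
    · by_cases hij : i ∈ S ∧ j ∉ S
      · have a3 := ent S hcl hij.1 hij.2
        rw [if_pos hij] at a2
        nlinarith
      · have a3 := c3 S hcl
        rw [if_neg hij] at a2
        nlinarith
    · simp only [Cl, not_forall] at hcl
      obtain ⟨u, v, d1, d2, d3⟩ := hcl
      have a3 := (s1 u v d1).2.2 S hS d2 d3
      simp only at a3
      split_ifs at a2 <;> omega
  · rw [hsm]
    have a0 := hmD S
    have a1 := (hz.2 S hS).2
    by_cases hcl : Cl (Arc n (fun S => f2 S + sm S z) (2 * D * k + 1)) S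
    · have a3 := c5 S hcl
      nlinarith
    · simp only [Cl, not_forall] at hcl
      obtain ⟨u, v, d1, d2, d3⟩ := hcl
      have a3 := (s2 u v d1).2.2 S hS d2 d3
      simp only at a3
      omega
  · rw [← hc]
    refine cv_congr ?_ ?_
    · funext u v
      refine propext ⟨fun h => ?_, fun h => ?_⟩
      · refine arc_of_le (fun S h => by omega) (s1 u v (arc_of_le (fun S h => ?_) h))
        have a0 := hmD S
        rw [hc, hsm] at h
        omega
      · refine arc_of_le (fun S h => ?_) (s1 u v (arc_of_le (fun S h => by omega) h))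
        have a0 := hmD S
        rw [hc, hsm]
        omega
    · funext u v
      refine propext ⟨fun h => ?_, fun h => ?_⟩
      · refine arc_of_le (fun S h => by omega) (s2 u v (arc_of_le (fun S h => ?_) h))
        have a0 := hmD S
        rw [hc, hsm] at h
        omega
      · refine arc_of_le (fun S h => ?_) (s2 u v (arc_of_le (fun S h => by omega) h))
        have a0 := hmD S
        rw [hc, hsm]
        omega

end AC1X

open AC1X in
theorem ac_one {n : ℕ} {f1 f2 : Finset ℕ → ℤ} (h : Pair n f1 f2) {i j : ℕ} (hi : i < n) (hj : j < n)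
    (hij : i ≠ j) {L : ℕ} (hL : 1 ≤ L)
    (hΦ : ∀ A ⊆ range n, ∀ A' ⊆ range n, Sep A i j → 48 * (n : ℤ) ^ 7 * L < Phi f1 f2 A A') :
    L * (PS n (fun S => f1 S + if i ∈ S ∧ j ∉ S then 1 else 0) f2).ncard ≤
      (L + 3 * n ^ 2) * (PS n f1 f2).ncard := by
  classical
  generalize hg : (fun S => f1 S + if i ∈ S ∧ j ∉ S then 1 else 0) = g
  choose! k hk hm using fun z (hz : z ∈ PS n g f2) =>
    main h hi hj hL hΦ hg.symm (D := 2 * (n : ℤ) ^ 3 * L) rfl hz
  generalize (2 * (n : ℤ) ^ 3 * L) = D at hm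
  have hsub : PS n f1 f2 ⊆ PS n g f2 := fun z hz => by
    refine ⟨hz.1, fun S hS => ⟨(hz.2 S hS).1.trans ?_, (hz.2 S hS).2⟩⟩
    rw [← hg]
    simp only
    split_ifs <;> omega
  have hF := PS_finite n f1 f2
  have hG := PS_finite n g f2
  have hcard : ((hG.toFinset \ hF.toFinset) ×ˢ Icc 1 L).card ≤
      (hF.toFinset ×ˢ range (2 * n ^ 2 + 1)).card := by
    refine card_le_card_of_injOn (fun p => (p.1 + (p.2 : ℤ) • cv n g f2 D p.1 (k p.1), k p.1))
      (fun p hp => ?_) ?_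
    · simp only [coe_product, Set.mem_prod, mem_coe, mem_sdiff, Set.Finite.mem_toFinset, mem_Icc,
        mem_range] at hp ⊢
      exact ⟨(hm _ hp.1.1 _ hp.2.1 hp.2.2).1, hk _ hp.1.1⟩
    · have aux : ∀ z z' m m', z ∈ PS n g f2 → z' ∈ PS n g f2 → z ∉ PS n f1 f2 → 1 ≤ m → m ≤ m' →
          m' ≤ L → z + (m : ℤ) • cv n g f2 D z (k z) = z' + (m' : ℤ) • cv n g f2 D z' (k z') →
          k z = k z' → z = z' ∧ m = m' := by
        intro z z' m m' a1 a2 a3 a4 a5 a6 a7 a8
        have b1 := (hm z a1 m a4 (a5.trans a6)).2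
        have b2 := (hm z' a2 m' (a4.trans a5) a6).2
        have b3 : cv n g f2 D z (k z) = cv n g f2 D z' (k z') := by rw [← b1, a7, a8, b2]
        rw [b3] at a7
        rcases a5.eq_or_lt with rfl | a5
        · exact ⟨add_right_cancel a7, rfl⟩
        · exfalso
          have b4 := (hm z' a2 (m' - m) (by omega) (by omega)).1
          refine a3 ?_
          convert b4 using 1
          rw [Nat.cast_sub a5.le, sub_smul, ← add_sub_assoc, ← a7, add_sub_cancel_right]
      rintro ⟨z, m⟩ hp ⟨z', m'⟩ hp' he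
      simp only [coe_product, Set.mem_prod, mem_coe, mem_sdiff, Set.Finite.mem_toFinset,
        mem_Icc] at hp hp'
      simp only [Prod.mk.injEq] at he ⊢
      rcases le_total m m' with hle | hle
      · exact aux z z' m m' hp.1.1 hp'.1.1 hp.1.2 hp.2.1 hle hp'.2.2 he.1 he.2
      · have := aux z' z m' m hp'.1.1 hp.1.1 hp'.1.2 hp'.2.1 hle hp.2.2 he.1.symm he.2.symm
        exact ⟨this.1.symm, this.2.symm⟩
  have hs : hF.toFinset ⊆ hG.toFinset := fun z hz => by
    simp only [Set.Finite.mem_toFinset] at hz ⊢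
    exact hsub hz
  rw [card_product, card_product, Nat.card_Icc, card_range, Nat.add_sub_cancel] at hcard
  have e := card_sdiff_add_card_eq_card hs
  rw [Set.ncard_eq_toFinset_card _ hF, Set.ncard_eq_toFinset_card _ hG, ← e]
  have hn : 1 ≤ n ^ 2 := Nat.one_le_pow _ _ (by omega)
  have := Nat.mul_le_mul_left hF.toFinset.card (show 2 * n ^ 2 + 1 ≤ 3 * n ^ 2 by omega)
  nlinarith

end Crest.Agent.R302
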