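import Crest.Agent.R302.Forest

/-! Row 302: bases, the sandwich theorem, and elementary properties of the soft energy. -/

set_option autoImplicit false

namespace Crest.Agent.R302

open Finset

namespace BaseX

theorem ins_sub {m : ℕ} {A : Finset ℕ} (h : A ⊆ range m) : insert m A ⊆ range (m + 1) := by
  rw [range_add_one]
  exact insert_subset_insert _ h

theorem sub_succ {m : ℕ} {A : Finset ℕ} (h : A ⊆ range m) : A ⊆ range (m + 1) :=
  h.trans (range_mono (Nat.le_succ m))

theorem not_mem {m : ℕ} {A : Finset ℕ} (h : A ⊆ range m) : m ∉ A := fun hm =>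
  lt_irrefl _ (mem_range.1 (h hm))

theorem mixed {m : ℕ} {f : Finset ℕ → ℤ} (hf : Submod (m + 1) f) {A B : Finset ℕ}
    (hA : A ⊆ range m) (hB : B ⊆ range m) :
    f (insert m (A ∪ B)) + f (A ∩ B) ≤ f (insert m A) + f B := by
  have := hf _ (ins_sub hA) _ (sub_succ hB)
  rwa [insert_union, insert_inter_of_notMem (not_mem hB)] at this

theorem contr {m : ℕ} {f : Finset ℕ → ℤ} (hf : Submod (m + 1) f) (v : ℤ) :
    Submod m fun S => min (f S) (f (insert m S) - v) := by
  intro A hA B hB
  have h1 := hf _ (sub_succ hA) _ (sub_succ hB)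
  have h2 := mixed hf hA hB
  have h3 := mixed hf hB hA
  have h4 := hf _ (ins_sub hA) _ (ins_sub hB)
  rw [union_comm, inter_comm] at h3
  rw [← insert_union_distrib, ← insert_inter_distrib] at h4
  simp only
  omega

theorem sm_compl {m : ℕ} {S : Finset ℕ} (hS : S ⊆ range m) (b : Vec) :
    sm (range m \ S) b + sm S b = sm (range m) b := sum_sdiff hS

theorem bdd (m : ℕ) (F : Finset ℕ → ℤ) (p cst : ℕ → ℕ) (ζ y : Vec) (h : (Bs m F).Finite) :
    BddBelow {v | ∃ b ∈ Bs m F, v = -dot m ζ b + cost m p cst (y - b)} := by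
  refine Set.Finite.bddBelow ((h.image fun b => -dot m ζ b + cost m p cst (y - b)).subset ?_)
  rintro v ⟨b, hb, rfl⟩
  exact ⟨b, hb, rfl⟩

end BaseX

open BaseX

/-- Frank's sandwich theorem -/
theorem sandwich (m : ℕ) (f g : Finset ℕ → ℤ) (hf : Submod m f) (hg : Submod m fun S => -g S)
    (f0 : f ∅ = 0) (g0 : g ∅ = 0) (h : ∀ S ⊆ range m, g S ≤ f S) :
    ∃ x : Vec, (∀ i, m ≤ i → x i = 0) ∧ ∀ S ⊆ range m, g S ≤ sm S x ∧ sm S x ≤ f S := by
  induction m generalizing f g with
  | zero =>
      refine ⟨0, fun _ _ => rfl, fun S hS => ?_⟩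
      obtain rfl : S = ∅ := by simpa using hS
      simp [sm, f0, g0]
  | succ m ih =>
      obtain ⟨X, hX, hmax⟩ := exists_max_image (range m).powerset
        (fun X => g (insert m X) - f X) ⟨∅, empty_mem_powerset _⟩
      rw [mem_powerset] at hX
      set v := g (insert m X) - f X with hv
      have lo : ∀ S ⊆ range m, g (insert m S) - f S ≤ v := fun S hS => hmax S (mem_powerset.2 hS)
      have hi : ∀ S ⊆ range m, v ≤ f (insert m S) - g S := by
        intro S hS
        have h1 := mixed hg hX hS
        have h2 := mixed hf hS hX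
        have h3 := h _ (ins_sub (union_subset hX hS))
        have h4 := h _ (sub_succ (inter_subset_left.trans hX : X ∩ S ⊆ range m))
        rw [union_comm, inter_comm] at h2
        omega
      obtain ⟨x, hx0, hx⟩ := ih (fun S => min (f S) (f (insert m S) - v))
        (fun S => max (g S) (g (insert m S) - v)) (contr hf v)
        (by
          have := contr hg (-v)
          intro A hA B hB
          have := this A hA B hB
          simp only at this ⊢
          omega)
        (by
          have := hi ∅ (empty_subset _)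
          omega)
        (by
          have := lo ∅ (empty_subset _)
          omega)
        (fun S hS => by
          have h1 := lo S hS
          have h2 := hi S hS
          have h3 := h _ (sub_succ hS)
          have h4 := h _ (ins_sub hS)
          omega)
      have e : ∀ S ⊆ range m, sm S (Function.update x m v) = sm S x := fun S hS =>
        sum_congr rfl fun i hi => Function.update_of_ne (mem_range.1 (hS hi)).ne _ _
      refine ⟨Function.update x m v, fun i hi => ?_, fun S hS => ?_⟩
      · rw [Function.update_of_ne (by omega)]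
        exact hx0 i (by omega)
      · have hS' : S.erase m ⊆ range m := fun i hi => by
          have h1 := mem_erase.1 hi
          have h2 := mem_range.1 (hS h1.2)
          exact mem_range.2 (by omega)
        have h1 := hx _ hS'
        by_cases hm : m ∈ S
        · have e2 : sm S (Function.update x m v) = v + sm (S.erase m) x := by
            rw [← e _ hS', sm, ← add_sum_erase _ _ hm, Function.update_self]
            rfl
          rw [insert_erase hm] at h1
          omega
        · rw [erase_eq_of_notMem hm] at h1 hS'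
          rw [e _ hS']
          omega

section
variable {m : ℕ} {F : Finset ℕ → ℤ} {p cst : ℕ → ℕ} {ζ : Vec}

theorem Bs_nonempty (hF : Submod m F) (h0 : F ∅ = 0) : (Bs m F).Nonempty := by
  obtain ⟨x, hx0, hx⟩ := sandwich m F (fun S => F (range m) - F (range m \ S)) hF
    (fun A _ B _ => by
      have := hF (range m \ A) sdiff_subset (range m \ B) sdiff_subset
      rw [← sdiff_inter_distrib_right, ← sdiff_union_distrib] at this
      simp only
      omega) h0 (by simp)
    (fun S hS => by
      have := hF S hS (range m \ S) sdiff_subset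
      rw [union_sdiff_of_subset hS, inter_sdiff_self] at this
      omega)
  refine ⟨x, hx0, fun S hS => (hx S hS).2, ?_⟩
  have := hx _ subset_rfl
  simp only [sdiff_self, bot_eq_empty] at this
  omega

theorem Bs_finite (m : ℕ) (F : Finset ℕ → ℤ) : (Bs m F).Finite := by
  refine Set.Finite.of_injOn (f := fun (b : Vec) (i : Fin m) => b i)
    (t := {g | ∀ i : Fin m, g i ∈ Set.Icc (F (range m) - F (range m \ {i.val})) (F {i.val})})
    ?_ ?_ (Set.Finite.pi' fun i => Set.finite_Icc _ _)
  · rintro b ⟨-, h1, h2⟩ i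
    have hi : ({i.val} : Finset ℕ) ⊆ range m := by simp
    have h3 := h1 _ hi
    have h4 := h1 (range m \ {i.val}) sdiff_subset
    have h5 := sm_compl hi b
    have h6 : sm {i.val} b = b i := sum_singleton _ _
    constructor <;> simp only <;> omega
  · intro b hb b' hb' h
    funext i
    by_cases hi : i < m
    · exact congrFun h ⟨i, hi⟩
    · rw [hb.1 i (not_lt.1 hi), hb'.1 i (not_lt.1 hi)]

theorem Bs_bound {B : ℤ} (hB : ∀ S ⊆ range m, |F S| ≤ B) {b : Vec} (hb : b ∈ Bs m F)
    {S : Finset ℕ} (hS : S ⊆ range m) : |sm S b| ≤ 2 * B := by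
  obtain ⟨-, h1, h2⟩ := hb
  have h3 := h1 S hS
  have h4 := h1 (range m \ S) sdiff_subset
  have h5 := sm_compl hS b
  have h6 := abs_le.1 (hB S hS)
  have h7 := abs_le.1 (hB (range m \ S) sdiff_subset)
  have h8 := abs_le.1 (hB _ subset_rfl)
  rw [abs_le]
  omega

theorem cost_nonneg (z : Vec) : 0 ≤ cost m p cst z := by
  exact sum_nonneg fun a _ => mul_nonneg (Int.natCast_nonneg _) (abs_nonneg _)

theorem cost_add_le (z z' : Vec) : cost m p cst (z + z') ≤ cost m p cst z + cost m p cst z' := by
  unfold cost
  rw [← sum_add_distrib]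
  refine sum_le_sum fun a _ => ?_
  rw [sm_add, ← mul_add]
  exact mul_le_mul_of_nonneg_left (abs_add_le _ _) (Int.natCast_nonneg _)

theorem cost_neg (z : Vec) : cost m p cst (-z) = cost m p cst z := by
  unfold cost
  simp only [sm_neg, abs_neg]

theorem Fo.cost_bb (hp : Fo p) {a : ℕ} (ha : a < m) (t : ℤ) :
    cost m p cst (t • bb p a) = cst a * |t| := by
  unfold cost
  rw [sum_eq_single a]
  · rw [sm_smul, hp.sm_sub_bb ha, if_pos rfl, mul_one]
  · intro b _ hb
    rw [sm_smul, hp.sm_sub_bb ha, if_neg hb, mul_zero, abs_zero, mul_zero]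
  · intro h
    exact absurd (mem_range.2 ha) h

theorem nu_le {b : Vec} (hb : b ∈ Bs m F) (y : Vec) :
    nu m F p cst ζ y ≤ -dot m ζ b + cost m p cst (y - b) := by
  exact csInf_le (bdd m F p cst ζ y (Bs_finite m F)) ⟨b, hb, rfl⟩

theorem exists_nu_eq (hF : Submod m F) (h0 : F ∅ = 0) (y : Vec) :
    ∃ b ∈ Bs m F, nu m F p cst ζ y = -dot m ζ b + cost m p cst (y - b) := by
  obtain ⟨b, hb⟩ := Bs_nonempty hF h0
  exact Int.csInf_mem (s := {v | ∃ b ∈ Bs m F, v = -dot m ζ b + cost m p cst (y - b)})
    ⟨_, b, hb, rfl⟩ (bdd m F p cst ζ y (Bs_finite m F))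

/-- Lipschitz property -/
theorem nu_add_le (hF : Submod m F) (h0 : F ∅ = 0) (y z : Vec) :
    nu m F p cst ζ (y + z) ≤ nu m F p cst ζ y + cost m p cst z := by
  obtain ⟨b, hb, e⟩ := exists_nu_eq (p := p) (cst := cst) (ζ := ζ) hF h0 y
  have h1 := nu_le (p := p) (cst := cst) (ζ := ζ) hb (y + z)
  have h2 := cost_add_le (m := m) (p := p) (cst := cst) (y - b) z
  rw [add_sub_right_comm] at h1
  omega

theorem nu_congr {cst' : ℕ → ℕ} {ζ' y y' : Vec} (h1 : ∀ a < m, cst a = cst' a)
    (h2 : ∀ i < m, ζ i = ζ' i) (h3 : ∀ i < m, y i = y' i) :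
    nu m F p cst ζ y = nu m F p cst' ζ' y' := by
  have e : ∀ b, -dot m ζ b + cost m p cst (y - b) = -dot m ζ' b + cost m p cst' (y' - b) := by
    intro b
    congr 1
    · congr 1
      exact sum_congr rfl fun i hi => by rw [h2 i (mem_range.1 hi)]
    · refine sum_congr rfl fun a ha => ?_
      rw [h1 a (mem_range.1 ha)]
      congr 2
      refine sum_congr rfl fun i hi => ?_
      rw [Pi.sub_apply, Pi.sub_apply, h3 i (mem_range.1 (filter_subset _ _ hi))]
  unfold nu
  simp only [e]

end

end Crest.Agent.R302
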