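import Crest.Agent.R302.AC1
import Crest.Agent.R302.Base

/-! Row 302: the hard model has mass comparable to the number of points. -/

set_option autoImplicit false

namespace Crest.Agent.R302

open Finset

namespace AC2X

/-- directed cut unit -/
def cut (i j : ℕ) (S : Finset ℕ) : ℤ := if i ∈ S ∧ j ∉ S then 1 else 0

theorem cut_nonneg (i j : ℕ) (S : Finset ℕ) : 0 ≤ cut i j S := by
  unfold cut; split_ifs <;> norm_num

theorem cut_self (i : ℕ) (S : Finset ℕ) : cut i i S = 0 := by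
  unfold cut; rw [if_neg (by tauto)]

variable {n : ℕ} {f1 f2 : Finset ℕ → ℤ}

theorem pair_cut (h : Pair n f1 f2) (i : ℕ) {j : ℕ} (hj : j < n) :
    Pair n (fun S => f1 S + cut i j S) f2 := by
  refine ⟨fun A hA B hB => ?_, h.s2, ?_, h.z2, ?_⟩
  · have := h.s1 A hA B hB
    have h2 : cut i j (A ∪ B) + cut i j (A ∩ B) ≤ cut i j A + cut i j B := by
      unfold cut
      by_cases a1 : i ∈ A <;> by_cases a2 : i ∈ B <;> by_cases a3 : j ∈ A <;>
        by_cases a4 : j ∈ B <;> simp [a1, a2, a3, a4]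
    omega
  · simp [cut, h.z1]
  · have := h.tot
    simp only [cut, mem_range, hj, not_true, and_false, if_false]
    omega

/-- `g` relaxes `f1` at the price of the factor `exp x` -/
def Ext (n : ℕ) (f1 f2 : Finset ℕ → ℤ) (x : ℝ) (g : Finset ℕ → ℤ) : Prop :=
  Pair n g f2 ∧ (∀ S, f1 S ≤ g S) ∧
    ((PS n g f2).ncard : ℝ) ≤ Real.exp x * (PS n f1 f2).ncard

theorem Ext.one {x : ℝ} {g : Finset ℕ → ℤ} (h : Ext n f1 f2 x g) {i j : ℕ} (hi : i < n)
    (hj : j < n) (hij : i ≠ j) {L : ℕ} (hL : 1 ≤ L)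
    (hΦ : ∀ A ⊆ range n, ∀ A' ⊆ range n, Sep A i j → 48 * (n : ℤ) ^ 7 * L < Phi f1 f2 A A') :
    Ext n f1 f2 (x + 3 * n ^ 2 / L) fun S => g S + cut i j S := by
  obtain ⟨h1, h2, h3⟩ := h
  refine ⟨pair_cut h1 i hj, fun S => le_add_of_le_of_nonneg (h2 S) (cut_nonneg _ _ _), ?_⟩
  have h4 := ac_one h1 hi hj hij hL (fun A hA A' hA' hs => (hΦ A hA A' hA' hs).trans_le (by
    have a1 := h2 A
    have a2 := h2 A'
    unfold Phi
    omega))
  have hL' : (0 : ℝ) < L := by exact_mod_cast hL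
  change L * (PS n (fun S => g S + cut i j S) f2).ncard ≤ _ at h4
  have h5 : (L : ℝ) * (PS n (fun S => g S + cut i j S) f2).ncard ≤
      (L + 3 * n ^ 2) * (PS n g f2).ncard := by exact_mod_cast h4
  have h6 : ((PS n (fun S => g S + cut i j S) f2).ncard : ℝ) ≤
      (3 * n ^ 2 / L + 1) * (PS n g f2).ncard := by
    refine le_of_mul_le_mul_left (h5.trans (le_of_eq ?_)) hL'
    field_simp
    ring
  have h7 := Real.add_one_le_exp (3 * n ^ 2 / L)
  refine h6.trans ?_
  rw [add_comm x, Real.exp_add, mul_assoc]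
  exact mul_le_mul h7 h3 (by positivity) (by positivity)

theorem Ext.many {x : ℝ} {g : Finset ℕ → ℤ} (h : Ext n f1 f2 x g) {i j : ℕ} (hi : i < n)
    (hj : j < n) (hij : i ≠ j) {L : ℕ} (hL : 1 ≤ L)
    (hΦ : ∀ A ⊆ range n, ∀ A' ⊆ range n, Sep A i j → 48 * (n : ℤ) ^ 7 * L < Phi f1 f2 A A')
    (c : ℕ) : Ext n f1 f2 (x + c * (3 * n ^ 2 / L)) fun S => g S + c * cut i j S := by
  induction c with
  | zero => simpa using h
  | succ c ih =>
    have := ih.one hi hj hij hL hΦ
    convert this using 1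
    · push_cast; ring
    · funext S; push_cast; ring

theorem Ext.mono {x y : ℝ} {g : Finset ℕ → ℤ} (h : Ext n f1 f2 x g) (hxy : x ≤ y) :
    Ext n f1 f2 y g :=
  ⟨h.1, h.2.1, h.2.2.trans (mul_le_mul_of_nonneg_right (Real.exp_le_exp.2 hxy) (by positivity))⟩

/-- relaxation along the first `k` edges of a forest -/
def rl (k : ℕ) (f : Finset ℕ → ℤ) (p c : ℕ → ℕ) (S : Finset ℕ) : ℤ :=
  f S + ∑ a ∈ range k, (c a : ℤ) * (cut a (p a) S + cut (p a) a S)

theorem relax (h : Pair n f1 f2) {p : ℕ → ℕ} (hp : Fo p) (t L : ℕ → ℕ) (mm : ℕ)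
    (hL : ∀ a < n, p a ≠ a → 1 ≤ L a ∧ 48 * n ^ 3 * t a ≤ L a)
    (hΦ : ∀ a < n, p a ≠ a → ∀ A ⊆ range n, ∀ A' ⊆ range n, Sep A a (p a) →
      48 * (n : ℤ) ^ 7 * L a < Phi f1 f2 A A') (k : ℕ) (hk : k ≤ n) :
    Ext n f1 f2 (k * (mm / (8 * n))) (rl k f1 p fun a => mm * t a) := by
  induction k with
  | zero =>
    have : (rl 0 f1 p fun a => mm * t a) = f1 := by funext S; simp [rl]
    rw [this]
    exact ⟨h, fun S => le_rfl, by simp⟩
  | succ k ih =>
    have ih := ih (by omega)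
    have hkn : k < n := hk
    have hn : (0 : ℝ) < n := by exact_mod_cast (by omega : 0 < n)
    by_cases hr : p k = k
    · have : (rl (k + 1) f1 p fun a => mm * t a) = rl k f1 p fun a => mm * t a := by
        funext S
        simp [rl, sum_range_succ, hr, cut_self]
      rw [this]
      refine ih.mono ?_
      push_cast
      have : (0 : ℝ) ≤ mm / (8 * n) := by positivity
      linarith
    · obtain ⟨a1, a2⟩ := hL k hkn hr
      have hpk : p k < n := (hp k).trans_lt hkn
      have b1 := ih.many hkn hpk (Ne.symm hr) a1 (hΦ k hkn hr) (mm * t k)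
      have b2 := b1.many hpk hkn hr a1 (fun A hA A' hA' hs => hΦ k hkn hr A hA A' hA'
        (by unfold Sep at hs ⊢; tauto)) (mm * t k)
      have : (rl (k + 1) f1 p fun a => mm * t a) = fun S =>
          (rl k f1 p (fun a => mm * t a) S + (mm * t k : ℕ) * cut k (p k) S)
            + (mm * t k : ℕ) * cut (p k) k S := by
        funext S
        simp only [rl, sum_range_succ]
        ring
      rw [this]
      refine b2.mono ?_
      have hL' : (0 : ℝ) < L k := by exact_mod_cast a1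
      have a3 : (48 : ℝ) * n ^ 3 * t k ≤ L k := by exact_mod_cast a2
      have a4 : 2 * (((mm * t k : ℕ) : ℝ) * (3 * n ^ 2 / L k)) ≤ mm / (8 * n) := by
        push_cast
        rw [show 2 * ((mm : ℝ) * t k * (3 * n ^ 2 / L k)) = mm * (6 * n ^ 2 * t k) / L k by ring,
          div_le_div_iff₀ hL' (by positivity)]
        have : (0 : ℝ) ≤ mm := by positivity
        nlinarith
      push_cast at a4 ⊢
      linarith

theorem relax' (h : Pair n f1 f2) {p : ℕ → ℕ} (hp : Fo p) (t L : ℕ → ℕ) (mm : ℕ)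
    (hL : ∀ a < n, p a ≠ a → 1 ≤ L a ∧ 48 * n ^ 3 * t a ≤ L a)
    (hΦ : ∀ a < n, p a ≠ a → ∀ A ⊆ range n, ∀ A' ⊆ range n, Sep A a (p a) →
      48 * (n : ℤ) ^ 7 * L a < Phi f1 f2 A A') :
    Ext n f1 f2 (mm / 8) (rl n f1 p fun a => mm * t a) := by
  refine (relax h hp t L mm hL hΦ n le_rfl).mono ?_
  rcases Nat.eq_zero_or_pos n with rfl | hn
  · simp; positivity
  · have hn' : (0 : ℝ) < n := by exact_mod_cast hn
    refine le_of_eq ?_
    field_simp

theorem sm_le {m : ℕ} {p : ℕ → ℕ} (hp : Fo p) {z : Vec} (hz : ∀ i, m ≤ i → z i = 0) (c : ℕ → ℕ)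
    (h0 : ∀ a < m, p a = a → sm (sub m p a) z = 0)
    (h1 : ∀ a < m, p a ≠ a → |sm (sub m p a) z| ≤ c a) (T : Finset ℕ) :
    sm T z ≤ ∑ a ∈ range m, (c a : ℤ) * (cut a (p a) T + cut (p a) a T) := by
  conv_lhs => rw [hp.expand hz]
  rw [sm_sum]
  refine sum_le_sum fun a ha => ?_
  have ha := mem_range.1 ha
  rw [sm_smul]
  by_cases hr : p a = a
  · rw [h0 a ha hr, hr, cut_self]; simp
  · have := abs_le.1 (h1 a ha hr)
    unfold bb cut
    rw [if_neg hr, sm_sub, sm_ev, sm_ev]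
    by_cases a1 : a ∈ T <;> by_cases a2 : p a ∈ T <;> simp [a1, a2] <;> linarith [this.1, this.2]

theorem mem_rl (h : Pair n f1 f2) {p1 p2 : ℕ → ℕ} (h1 : Fo p1) (h2 : Fo p2) {x b : Vec}
    (hx : ∀ i, n ≤ i → x i = 0) (hb : b ∈ Bs (2 * n) (dsum n f1 f2)) (c : ℕ → ℕ)
    (h0 : ∀ a < 2 * n, pp n p1 p2 a = a → sm (sub (2 * n) (pp n p1 p2) a) (dg n x - b) = 0)
    (hc : ∀ a < 2 * n, pp n p1 p2 a ≠ a → |sm (sub (2 * n) (pp n p1 p2) a) (dg n x - b)| ≤ c a) :
    x ∈ PS n (rl n f1 p1 c) (rl n f2 p2 fun a => c (n + a)) := by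
  have hz : ∀ i, 2 * n ≤ i → (dg n x - b) i = 0 := by
    intro i hi
    rw [Pi.sub_apply, hb.1 i hi]
    unfold dg
    rw [if_neg (by omega), if_neg (by omega), sub_zero]
  have key := sm_le (fo_pp h1 h2) hz c h0 hc
  have ppl : ∀ a < n, pp n p1 p2 a = p1 a := fun a ha => if_pos ha
  have ppr : ∀ a < n, pp n p1 p2 (n + a) = n + p2 a := by
    intro a ha
    unfold pp
    rw [if_neg (by omega), if_pos (by omega), Nat.add_sub_cancel_left]
  refine ⟨hx, fun S hS => ⟨?_, ?_⟩⟩
  · have a1 := key S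
    have hS' : ∀ i, n + i ∉ S := fun i hi => by have := mem_range.1 (hS hi); omega
    rw [two_mul, sum_range_add, sm_sub] at a1
    have a2 : ∑ a ∈ range n, (c (n + a) : ℤ) * (cut (n + a) (pp n p1 p2 (n + a)) S +
        cut (pp n p1 p2 (n + a)) (n + a) S) = 0 := by
      refine sum_eq_zero fun a ha => ?_
      rw [ppr a (mem_range.1 ha)]
      simp [cut, hS']
    have a3 : ∑ a ∈ range n, (c a : ℤ) * (cut a (pp n p1 p2 a) S + cut (pp n p1 p2 a) a S)
        = ∑ a ∈ range n, (c a : ℤ) * (cut a (p1 a) S + cut (p1 a) a S) :=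
      sum_congr rfl fun a ha => by rw [ppl a (mem_range.1 ha)]
    have a4 : sm S (dg n x) = sm S x :=
      sum_congr rfl fun i hi => if_pos (mem_range.1 (hS hi))
    have a5 := hb.2.1 S (hS.trans (range_subset_range.2 (by omega)))
    have a6 : dsum n f1 f2 S = f1 S := by
      unfold dsum
      have e1 : (range n).filter (fun i => i ∈ S) = S := by
        ext i; simp only [mem_filter]; exact ⟨fun h => h.2, fun h => ⟨hS h, h⟩⟩
      have e2 : (range n).filter (fun i => n + i ∈ S) = ∅ := by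
        ext i; simp [hS']
      rw [e1, e2, h.z2, add_zero]
    unfold rl
    omega
  · set S' := S.image (fun i => n + i) with hS'def
    have m1 : ∀ i, n + i ∈ S' ↔ i ∈ S := by
      intro i
      simp [hS'def]
    have m2 : ∀ i < n, i ∉ S' := by
      intro i hi hi'
      obtain ⟨j, -, e⟩ := mem_image.1 hi'
      omega
    have a1 := key S'
    rw [two_mul, sum_range_add, sm_sub] at a1
    have a2 : ∑ a ∈ range n, (c (n + a) : ℤ) * (cut (n + a) (pp n p1 p2 (n + a)) S' +
        cut (pp n p1 p2 (n + a)) (n + a) S') =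
        ∑ a ∈ range n, (c (n + a) : ℤ) * (cut a (p2 a) S + cut (p2 a) a S) := by
      refine sum_congr rfl fun a ha => ?_
      rw [ppr a (mem_range.1 ha)]
      simp only [cut, m1]
    have a3 : ∑ a ∈ range n, (c a : ℤ) * (cut a (pp n p1 p2 a) S' + cut (pp n p1 p2 a) a S')
        = 0 := by
      refine sum_eq_zero fun a ha => ?_
      have ha := mem_range.1 ha
      rw [ppl a ha]
      simp [cut, m2 a ha, m2 (p1 a) ((h1 a).trans_lt ha)]
    have a4 : sm S' (dg n x) = -sm S x := by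
      unfold sm
      rw [hS'def, sum_image (fun i _ j _ e => by simpa using e), ← sum_neg_distrib]
      refine sum_congr rfl fun i hi => ?_
      have := mem_range.1 (hS hi)
      unfold dg
      rw [if_neg (by omega), if_pos (by omega), Nat.add_sub_cancel_left]
    have a5 := hb.2.1 S' (fun i hi => by
      obtain ⟨j, hj, e⟩ := mem_image.1 hi
      have := mem_range.1 (hS hj)
      rw [mem_range]; omega)
    have a6 : dsum n f1 f2 S' = f2 S := by
      unfold dsum
      have e1 : (range n).filter (fun i => i ∈ S') = ∅ := by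
        ext i
        simp only [mem_filter, mem_range, notMem_empty, iff_false, not_and]
        exact m2 i
      have e2 : (range n).filter (fun i => n + i ∈ S') = S := by
        ext i; simp only [mem_filter, m1]; exact ⟨fun h => h.2, fun h => ⟨hS h, h⟩⟩
      rw [e1, e2, h.z1, zero_add]
    simp only [rl]
    omega

theorem wle {D : ℕ} (hD : 0 < D) {v : ℤ} {j : ℕ} (h : (j : ℤ) * D ≤ v) :
    (2 : ℝ) ^ (-(v : ℝ) / D) ≤ (1 / 2) ^ j := by
  have hD' : (0 : ℝ) < D := by exact_mod_cast hD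
  have h' : (j : ℝ) * D ≤ v := by exact_mod_cast h
  have h1 : -(v : ℝ) / D ≤ -(j : ℝ) := by
    rw [div_le_iff₀ hD']; linarith
  refine (Real.rpow_le_rpow_of_exponent_le (by norm_num) h1).trans (le_of_eq ?_)
  rw [Real.rpow_neg (by norm_num), Real.rpow_natCast, one_div, inv_pow]

theorem geo (M : ℕ) : ∑ i ∈ range M, (2 / 3 : ℝ) ^ i ≤ 3 := by
  have : ∑ i ∈ range M, (2 / 3 : ℝ) ^ i = 3 - 3 * (2 / 3) ^ M := by
    induction M with
    | zero => simp
    | succ M ih => rw [sum_range_succ, ih]; ring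
  rw [this]
  have : (0 : ℝ) ≤ (2 / 3) ^ M := by positivity
  linarith

end AC2X

open AC2X in
/-- `t a` is the softness scale and `L a` the anti-concentration scale of the port edge `a` -/
theorem hard_mass {n : ℕ} {f1 f2 : Finset ℕ → ℤ} (h : Pair n f1 f2) (hne : (PS n f1 f2).Nonempty)
    {p1 p2 : ℕ → ℕ} (h1 : Fo p1) (h2 : Fo p2) (t L cst : ℕ → ℕ) (D : ℕ) (hD : 0 < D)
    (hL : ∀ a < 2 * n, pp n p1 p2 a ≠ a → 1 ≤ L a ∧ 1 ≤ t a ∧ D ≤ cst a * t a ∧
      48 * n ^ 3 * t a ≤ L a)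
    (hΦ1 : ∀ a < n, p1 a ≠ a → ∀ A ⊆ range n, ∀ A' ⊆ range n, Sep A a (p1 a) →
      48 * (n : ℤ) ^ 7 * L a < Phi f1 f2 A A')
    (hΦ2 : ∀ a < n, p2 a ≠ a → ∀ A ⊆ range n, ∀ A' ⊆ range n, Sep A a (p2 a) →
      48 * (n : ℤ) ^ 7 * L (n + a) < Phi f2 f1 A A')
    (X : Finset Vec) (hX : ∀ x ∈ X, ∀ i, n ≤ i → x i = 0) (k : ℕ) (hk : X.card ≤ 2 ^ k)
    (hroot : ∀ a < 2 * n, pp n p1 p2 a = a → k * D ≤ cst a) :
    ∑ x ∈ X, (2 : ℝ) ^ (-(nu (2 * n) (dsum n f1 f2) (pp n p1 p2) cst 0 (dg n x) : ℝ) / D) ≤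
      8 * (PS n f1 f2).ncard := by
  classical
  set W : Vec → ℝ := fun x =>
    (2 : ℝ) ^ (-(nu (2 * n) (dsum n f1 f2) (pp n p1 p2) cst 0 (dg n x) : ℝ) / D) with hW
  set P : ℕ → Set Vec := fun mm =>
    PS n (rl n f1 p1 fun a => mm * t a) (rl n f2 p2 fun a => mm * t (n + a)) with hP
  have ppl : ∀ a < n, pp n p1 p2 a = p1 a := fun a ha => if_pos ha
  have ppr : ∀ a < n, pp n p1 p2 (n + a) = n + p2 a := by
    intro a ha
    unfold pp
    rw [if_neg (by omega), if_pos (by omega), Nat.add_sub_cancel_left]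
  have hN : (1 : ℝ) ≤ (PS n f1 f2).ncard := by
    exact_mod_cast (Set.ncard_pos (PS_finite n f1 f2)).2 hne
  have hcard : ∀ mm : ℕ, ((P mm).ncard : ℝ) ≤ (4 / 3) ^ mm * (PS n f1 f2).ncard := by
    intro mm
    have e1 := relax' h h1 t L mm (fun a ha hr => by
      have := hL a (by omega) (by rw [ppl a ha]; exact hr)
      exact ⟨this.1, this.2.2.2⟩) hΦ1
    have e2 := relax' e1.1.symm h2 (fun a => t (n + a)) (fun a => L (n + a)) mm (fun a ha hr => by
      have := hL (n + a) (by omega) (by rw [ppr a ha]; omega)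
      exact ⟨this.1, this.2.2.2⟩) (fun a ha hr A hA A' hA' hs =>
        (hΦ2 a ha hr A hA A' hA' hs).trans_le (by
          have a1 := e1.2.1 (A ∪ A')
          have a2 := e1.2.1 (A ∩ A')
          unfold Phi
          omega))
    have e3 := e2.2.2
    rw [ncard_PS_symm, ncard_PS_symm n _ f2] at e3
    have e4 : Real.exp (mm / 8) * Real.exp (mm / 8) ≤ (4 / 3) ^ mm := by
      rw [← Real.exp_add, show (mm : ℝ) / 8 + mm / 8 = mm * (1 / 4) by ring, Real.exp_nat_mul]
      refine pow_le_pow_left₀ (Real.exp_pos _).le ?_ mm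
      refine (Real.exp_bound_div_one_sub_of_interval (by norm_num) (by norm_num)).trans ?_
      norm_num
    calc ((P mm).ncard : ℝ) ≤ _ := e3
      _ ≤ Real.exp (mm / 8) * (Real.exp (mm / 8) * (PS n f1 f2).ncard) :=
        mul_le_mul_of_nonneg_left e1.2.2 (Real.exp_pos _).le
      _ ≤ _ := by
        rw [← mul_assoc]; exact mul_le_mul_of_nonneg_right e4 (by positivity)
  have key : ∀ x : Vec, ∃ mm : ℕ, x ∈ X →
      (W x ≤ (1 / 2) ^ k ∨ (W x ≤ 2 * (1 / 2) ^ mm ∧ x ∈ P mm)) := by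
    intro x
    by_cases hx : x ∈ X
    swap
    · exact ⟨0, fun h => absurd h hx⟩
    obtain ⟨b, hb, e⟩ := exists_nu_eq (p := pp n p1 p2) (cst := cst) (ζ := 0) h.submod h.dsum_empty
      (dg n x)
    have e0 : dot (2 * n) 0 b = 0 := by simp [dot]
    rw [e0, neg_zero, zero_add] at e
    set ξ : ℕ → ℤ := fun a => sm (sub (2 * n) (pp n p1 p2) a) (dg n x - b) with hξ
    have low : ∀ a < 2 * n, (cst a : ℤ) * |ξ a| ≤
        nu (2 * n) (dsum n f1 f2) (pp n p1 p2) cst 0 (dg n x) := by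
      intro a ha
      rw [e]
      exact single_le_sum (f := fun a => (cst a : ℤ) * |ξ a|) (fun _ _ => by positivity)
        (mem_range.2 ha)
    by_cases hr : ∀ a < 2 * n, pp n p1 p2 a = a → ξ a = 0
    · have hex : ∃ mm : ℕ, ∀ a < 2 * n, pp n p1 p2 a ≠ a → |ξ a| ≤ (mm * t a : ℕ) := by
        refine ⟨∑ a ∈ range (2 * n), (ξ a).natAbs, fun a ha hra => ?_⟩
        have a1 : (ξ a).natAbs ≤ ∑ a ∈ range (2 * n), (ξ a).natAbs :=
          single_le_sum (f := fun a => (ξ a).natAbs) (fun _ _ => Nat.zero_le _) (mem_range.2 ha)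
        have a2 := (hL a ha hra).2.1
        have a3 : (ξ a).natAbs ≤ (∑ a ∈ range (2 * n), (ξ a).natAbs) * t a :=
          a1.trans (Nat.le_mul_of_pos_right _ a2)
        rw [← Int.natCast_natAbs]
        exact_mod_cast a3
      refine ⟨Nat.find hex, fun _ => Or.inr ⟨?_, ?_⟩⟩
      · rcases Nat.eq_zero_or_pos (Nat.find hex) with h0 | h0
        · rw [h0]
          have := wle hD (j := 0) (v := nu (2 * n) (dsum n f1 f2) (pp n p1 p2) cst 0 (dg n x))
            (by rw [e]; simpa using cost_nonneg _)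
          simp only [hW]
          norm_num at this ⊢
          linarith
        · obtain ⟨j, hj⟩ : ∃ j, Nat.find hex = j + 1 := ⟨Nat.find hex - 1, by omega⟩
          have a1 := Nat.find_min hex (m := j) (by omega)
          push Not at a1
          obtain ⟨a, ha, hra, a2⟩ := a1
          have a3 : (D : ℤ) ≤ cst a * t a := by exact_mod_cast (hL a ha hra).2.2.1
          have a4 := low a ha
          have a5 : (j : ℤ) * D ≤ nu (2 * n) (dsum n f1 f2) (pp n p1 p2) cst 0 (dg n x) := by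
            push_cast at a2
            have b1 : (j : ℤ) * D ≤ j * (cst a * t a) :=
              mul_le_mul_of_nonneg_left a3 (by positivity)
            have b2 : (cst a : ℤ) * (j * t a) ≤ cst a * |ξ a| :=
              mul_le_mul_of_nonneg_left a2.le (by positivity)
            linarith
          have := wle hD a5
          rw [hj, pow_succ]
          simp only [hW]
          linarith
      · exact mem_rl h h1 h2 (hX x hx) hb (fun a => Nat.find hex * t a) hr (Nat.find_spec hex)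
    · push Not at hr
      obtain ⟨a, ha, hra, a1⟩ := hr
      refine ⟨0, fun _ => Or.inl (wle hD ?_)⟩
      have a2 : (k : ℤ) * D ≤ cst a := by exact_mod_cast hroot a ha hra
      have a3 : (cst a : ℤ) * 1 ≤ cst a * |ξ a| :=
        mul_le_mul_of_nonneg_left (Int.one_le_abs a1) (by positivity)
      have a4 := low a ha
      linarith
  choose mf hmf using key
  set M := X.sup mf + 1 with hM
  have h3 : ∀ x ∈ X, W x ≤ (1 / 2) ^ k +
      ∑ mm ∈ range M, if x ∈ P mm then 2 * (1 / 2 : ℝ) ^ mm else 0 := by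
    intro x hx
    have nn : ∀ mm ∈ range M, (0 : ℝ) ≤ if x ∈ P mm then 2 * (1 / 2 : ℝ) ^ mm else 0 := by
      intro mm _
      split_ifs <;> positivity
    rcases hmf x hx with a1 | ⟨a1, a2⟩
    · exact le_add_of_le_of_nonneg a1 (sum_nonneg nn)
    · have a3 : mf x ∈ range M := mem_range.2 (Nat.lt_succ_of_le (le_sup hx))
      have a4 := single_le_sum nn a3
      rw [if_pos a2] at a4
      exact le_add_of_nonneg_of_le (by positivity) (a1.trans a4)
  refine (sum_le_sum h3).trans ?_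
  rw [sum_add_distrib, sum_comm, sum_const, nsmul_eq_mul]
  have h4 : (X.card : ℝ) * (1 / 2) ^ k ≤ 1 := by
    have a1 : (X.card : ℝ) ≤ 2 ^ k := by exact_mod_cast hk
    refine (mul_le_mul_of_nonneg_right a1 (by positivity)).trans (le_of_eq ?_)
    rw [← mul_pow]; norm_num
  have h5 : ∀ mm ∈ range M, (∑ x ∈ X, if x ∈ P mm then 2 * (1 / 2 : ℝ) ^ mm else 0) ≤
      (2 / 3) ^ mm * (2 * (PS n f1 f2).ncard) := by
    intro mm _
    rw [← sum_filter, sum_const, nsmul_eq_mul]
    have a1 : (X.filter fun x => x ∈ P mm).card ≤ (P mm).ncard := by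
      rw [← Set.ncard_coe_finset]
      exact Set.ncard_le_ncard (fun x hx => (mem_filter.1 hx).2) (PS_finite _ _ _)
    have a2 : ((X.filter fun x => x ∈ P mm).card : ℝ) ≤ (4 / 3) ^ mm * (PS n f1 f2).ncard :=
      le_trans (by exact_mod_cast a1) (hcard mm)
    refine (mul_le_mul_of_nonneg_right a2 (by positivity)).trans (le_of_eq ?_)
    rw [show (2 / 3 : ℝ) = 4 / 3 * (1 / 2) by norm_num, mul_pow]
    ring
  have h6 := sum_le_sum h5
  rw [← sum_mul] at h6
  have h7 := mul_le_mul_of_nonneg_right (geo M) (by positivity : (0 : ℝ) ≤ 2 * (PS n f1 f2).ncard)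
  linarith

end Crest.Agent.R302
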