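import Crest.Agent.R302.Mod

/-! Row 302: the parameters and vectors of the model are computable in polynomial time. -/

set_option autoImplicit false

namespace Crest.Agent.R302

open Crest.Agent.PT Crest.Agent.R309 Finset

namespace AlgX

variable {β γ : Type} [Rp β] [Rp γ]

theorem iabs {f : β → ℤ} (hf : PTime f) : PTime fun a => |f a| :=
  hf.natAbs.natCast.congr fun a => (Int.natCast_natAbs _).symm

theorem imin {f g : β → ℤ} (hf : PTime f) (hg : PTime g) : PTime fun a => min (f a) (g a) :=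
  (PTime.ite (hf.ile hg) hf hg).congr fun a => min_def _ _

theorem ediv_eq (x : ℤ) (d : ℕ) : x / d =
    if 0 ≤ x then ((x.toNat / d : ℕ) : ℤ) else -((((-x).toNat + d - 1) / d : ℕ) : ℤ) := by
  rcases Nat.eq_zero_or_pos d with rfl | hd
  · simp
  split_ifs with hx
  · obtain ⟨m, rfl⟩ := Int.eq_ofNat_of_zero_le hx
    simp
  · obtain ⟨m, rfl⟩ := Int.eq_negSucc_of_lt_zero (not_le.1 hx)
    rw [Int.negSucc_ediv m (by exact_mod_cast hd)]
    have e : (-Int.negSucc m).toNat + d - 1 = m + d := by omega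
    rw [e, Nat.add_div_right _ hd]
    push_cast
    rfl

theorem idiv {f : β → ℤ} {d : β → ℕ} (hf : PTime f) (hd : PTime d) :
    PTime fun a => f a / d a :=
  PTime.congr (f := fun a => if 0 ≤ f a then (((f a).toNat / d a : ℕ) : ℤ)
    else -((((-f a).toNat + d a - 1) / d a : ℕ) : ℤ)) (by fun_prop) fun a => ediv_eq _ _

theorem pt_pf {l : β → List ℕ} {i : β → ℕ} (hl : PTime l) (hi : PTime i) :
    PTime fun a => pf (l a) (i a) := by
  unfold pf
  exact PTime.ite (hi.lt (lengthN hl).ptime) (getDN hl hi) hi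

/-- the sum of a list -/
def ls (l : List ℕ) : ℕ := ∑ j ∈ range l.length, l.getD j 0

theorem pt_ls {l : β → List ℕ} (hl : PTime l) : PTime fun a => ls (l a) :=
  PTime.sum_range (g := fun a j => (l a).getD j 0) (lengthN hl) (by fun_prop)

theorem pf_le (l : List ℕ) (i : ℕ) : pf l i ≤ max i (ls l) := by
  unfold pf
  split_ifs with h
  · exact le_max_of_le_right
      (single_le_sum (f := fun j => l.getD j 0) (fun _ _ => Nat.zero_le _) (mem_range.2 h))
  · exact le_max_left _ _

theorem p_le (S : Mod) {i M : ℕ} (h : i ≤ M) (hM : S.n + ls S.l1 + ls S.l2 ≤ M) : S.p i ≤ M := by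
  unfold Mod.p pp
  have h1 := pf_le S.l1 i
  have h2 := pf_le S.l2 (i - S.n)
  split_ifs <;> omega

theorem iter_le (S : Mod) (i t : ℕ) : S.p^[t] i ≤ i + (S.n + ls S.l1 + ls S.l2) := by
  induction t with
  | zero => simp
  | succ t ih => rw [Function.iterate_succ_apply']; exact p_le S ih (by omega)

/-- vector-valued functions -/
def VT (Y : β → Vec) : Prop := PTime fun q : β × ℕ => Y q.1 q.2

theorem VT.app {Y : β → Vec} (h : VT Y) {f : γ → β} {i : γ → ℕ} (hf : PTime f) (hi : PTime i) :
    PTime fun c => Y (f c) (i c) := PTime.comp (g := fun q : β × ℕ => Y q.1 q.2) h (hf.pair hi)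

theorem VT.comp {Y : β → Vec} (h : VT Y) {f : γ → β} (hf : PTime f) : VT fun c => Y (f c) :=
  h.app (hf.comp PTime.fst') PTime.snd'

theorem VT.list {Y : β → Vec} (h : VT Y) {m : β → ℕ} (hm : PU m) :
    PTime fun a => (List.range (m a)).map (Y a) :=
  rangeMapZ hm (h.app PTime.fst' (PTime.val PTime.snd'))

theorem VT.dg {Y : β → Vec} (h : VT Y) {n : β → ℕ} (hn : PTime n) : VT fun a => dg (n a) (Y a) := by
  have h1 : PTime fun q : β × ℕ => n q.1 := hn.comp PTime.fst'
  unfold VT R302.dg
  exact PTime.ite (PTime.lt PTime.snd' h1) h (PTime.ite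
    (PTime.lt PTime.snd' ((PTime.const 2).mul h1))
      (h.app PTime.fst' (PTime.sub PTime.snd' h1)).ineg (PTime.const _))

/-- families of models whose data are computable -/
structure PC (A : β → Mod) : Prop where
  n : PU fun a => (A a).n
  q : PU fun a => (A a).q
  Q : PU fun a => 2 ^ (A a).q
  B : PU fun a => (A a).B
  l1 : PTime fun a => (A a).l1
  l2 : PTime fun a => (A a).l2
  jl : PTime fun a => (A a).jl
  lol : PTime fun a => (A a).lol
  b : PTime fun a => (A a).b

namespace PC

variable {A : β → Mod}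

theorem comp (h : PC A) {f : γ → β} (hf : PTime f) : PC fun c => A (f c) :=
  ⟨h.n.comp hf, h.q.comp hf, h.Q.comp hf, h.B.comp hf, h.l1.comp hf, h.l2.comp hf, h.jl.comp hf,
    h.lol.comp hf, h.b.comp hf⟩

theorem fst (h : PC A) : PC fun c : β × γ => A c.1 := h.comp PTime.fst'

theorem n2 (h : PC A) : PU fun a => 2 * (A a).n := (PU.const 2).mul h.n
theorem g (h : PC A) : PU fun a => (A a).g := (PU.const 150).mul h.q
theorem J (h : PC A) : PU fun a => (A a).J := (h.g.add h.B).add (PU.const 2)
theorem dd (h : PC A) : PU fun a => (A a).dd :=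
  ((PU.const 4).mul h.J).add ((PU.const 7000).mul h.q)
theorem D (h : PC A) : PTime fun a => (A a).D := (PTime.const 2).pow h.dd
theorem M (h : PC A) : PTime fun a => (A a).M := (PTime.const 2).pow ((PU.const 144).mul h.q)
theorem T (h : PC A) : PTime fun a => (A a).T :=
  (PTime.const 2).pow (((PU.const 11).mul h.q).add ((PU.const 2).mul h.g))
theorem nf (h : PC A) : PU fun a => (A a).b.nf := Bas.pu_nf h.b
theorem nt (h : PC A) : PU fun a => (A a).b.nt := Bas.pu_nt h.b
theorem KW (h : PC A) : PTime fun a => (A a).KW :=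
  (PTime.const 2).pow (h.dd.sub (((PU.const 7).mul h.q).add ((PU.const 2).mul h.g)))
theorem rH (h : PC A) : PTime fun a => (A a).rH :=
  (h.q.ptime.add (PTime.const 1)).mul
    ((PTime.const 2).pow (((PU.const 7).mul h.q).add ((PU.const 2).mul h.g)))

variable {i e : β → ℕ}

theorem p (h : PC A) (hi : PTime i) : PTime fun a => (A a).p (i a) := by
  unfold Mod.p pp
  exact PTime.ite (hi.lt h.n.ptime) (pt_pf h.l1 hi) (PTime.ite (hi.lt h.n2.ptime)
    (h.n.ptime.add (pt_pf h.l2 (hi.sub h.n.ptime))) hi)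

theorem j (h : PC A) (hi : PTime i) : PTime fun a => (A a).j (i a) := getDN h.jl hi
theorem lo (h : PC A) (hi : PTime i) : PTime fun a => (A a).lo (i a) := getDZ h.lol hi
theorem je (h : PC A) (hi : PTime i) : PTime fun a => (A a).b.je (i a) :=
  getDN (Bas.ptime_jeL h.b) hi
theorem el (h : PC A) (hi : PTime i) : PTime fun a => (A a).b.el (i a) :=
  getDN (Bas.ptime_elL h.b) hi
theorem lab (h : PC A) (hi : PTime i) : PTime fun a => (A a).b.lab (i a) :=
  getDN (Bas.ptime_labL h.b) hi
theorem Mf (h : PC A) (he : PTime e) (hi : PTime i) :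
    PTime fun a => (A a).b.Mf (A a).n (e a) (i a) :=
  getDZ (Bas.ptime_MfL h.b) ((he.mul h.n2.ptime).add hi)
theorem Mt (h : PC A) (he : PTime e) (hi : PTime i) :
    PTime fun a => (A a).b.Mt (A a).n (e a) (i a) :=
  getDZ (Bas.ptime_MtL h.b) ((he.mul h.n2.ptime).add hi)
theorem z (h : PC A) (he : PTime e) (hi : PTime i) :
    PTime fun a => (A a).b.z (A a).n (e a) (i a) := by
  unfold Bas.z
  exact PTime.ite (hi.lt h.n.ptime) (getDZ (Bas.ptime_zL h.b) ((he.mul h.n.ptime).add hi))
    (PTime.const _)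

theorem cst (h : PC A) (hi : PTime i) : PTime fun a => (A a).cst (i a) := by
  unfold Mod.cst
  exact PTime.ite ((h.p hi).eq hi) (((PTime.const 2).mul h.q.ptime).mul h.D)
    ((PTime.const 2).pow ((h.dd.add ((PU.const 12).mul h.q)).sub' (h.j hi)))

theorem Ka (h : PC A) (hi : PTime i) : PTime fun a => (A a).Ka (i a) :=
  (PTime.const 2).pow ((h.dd.add ((PU.const 43).mul h.q)).sub'
    (((PTime.const 2).mul h.g.ptime).add ((PTime.const 2).mul (h.j hi))))

theorem tau (h : PC A) (he : PTime e) : PTime fun a => (A a).tau (e a) :=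
  (PTime.const 2).pow ((PU.min_right (h.je he) h.J).sub ((PU.const 138).mul h.q))

theorem tauP (h : PC A) : PTime fun a => (A a).tauP :=
  PTime.prod_range (g := fun a e => (A a).tau e) h.nf (h.fst.tau (PTime.val PTime.snd'))

theorem rho (h : PC A) : PTime fun a => (A a).rho :=
  appendN (replicateN h.nf h.M) (replicateN h.nt ((PTime.const 2).mul h.T))

theorem Hub (h : PC A) {u : β → ℤ} (hu : PTime u) : PTime fun a => (A a).Hub (u a) := by
  unfold Mod.Hub
  have h1 := h.KW.natCast
  have h2 := h.rH.natCast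
  exact PTime.ite ((iabs hu).ile h2) (h1.imul (hu.ipow (PU.const 2)))
    (h1.imul ((((PTime.const 2).imul h2).imul (iabs hu)).isub (h2.ipow (PU.const 2))))

theorem mar (h : PC A) (hi : PTime i) {u : β → ℤ} (hu : PTime u) :
    PTime fun a => (A a).mar (i a) (u a) := by
  unfold Mod.mar
  exact PTime.ite ((h.p hi).eq hi) (h.Hub hu) ((h.Ka hi).natCast.imul (hu.ipow (PU.const 2)))

theorem iter (h : PC A) {t : β → ℕ} (ht : PU t) (hi : PTime i) :
    PTime fun a => (A a).p^[t a] (i a) :=
  PTime.iter (step := fun a s => (A a).p s) (h.fst.p PTime.snd') hi ht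
    (hi.add ((h.n.ptime.add (pt_ls h.l1)).add (pt_ls h.l2))).sz
    fun a k _ => sz_nat_mono (iter_le (A a) (i a) k)

theorem anc (h : PC A) (he : PTime e) (hi : PU i) : PTime fun a => anc (A a).p (e a) (i a) :=
  (PTime.exists_lt (c := fun a t => (A a).p^[t] (i a) = e a) (hi.add (PU.const 1))
    ((h.fst.iter (PU.val PTime.snd') (hi.ptime.comp PTime.fst')).eq (he.comp PTime.fst'))).congr
      fun a => by simp only [R302.anc, Nat.lt_succ_iff]

theorem X (h : PC A) (he : PTime e) {Y : β → Vec} (hY : VT Y) :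
    PTime fun a => (A a).X (e a) (Y a) :=
  (PTime.isum_range (g := fun a i => if R302.anc (A a).p (e a) i then Y a i else 0) h.n2
    (PTime.ite (h.fst.anc (he.comp PTime.fst') (PU.val PTime.snd'))
      (hY.app PTime.fst' (PTime.val PTime.snd')) (PTime.const _))).congr
    fun a => by rw [Mod.X, sm, sub, sum_filter]

theorem Mar (h : PC A) {Y : β → Vec} (hY : VT Y) : PTime fun a => (A a).Mar (Y a) :=
  PTime.isum_range (g := fun a i => (A a).mar i ((A a).X i (Y a) - (A a).lo i)) h.n2
    (h.fst.mar (PTime.val PTime.snd') ((h.fst.X (PTime.val PTime.snd') (hY.comp PTime.fst')).isub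
      (h.fst.lo (PTime.val PTime.snd'))))

theorem gc (h : PC A) (he : PTime e) : PTime fun a => (A a).gc (e a) :=
  PTime.isum_range (g := fun a i => (A a).b.Mf (A a).n (e a) i * (A a).lo i) h.n2
    ((h.fst.Mf (he.comp PTime.fst') (PTime.val PTime.snd')).imul (h.fst.lo (PTime.val PTime.snd')))

theorem th0 (h : PC A) (he : PTime e) : PTime fun a => (A a).th0 (e a) :=
  PTime.isum_range (g := fun a i => (A a).b.Mt (A a).n (e a) i * (A a).lo i) h.n2
    ((h.fst.Mt (he.comp PTime.fst') (PTime.val PTime.snd')).imul (h.fst.lo (PTime.val PTime.snd')))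

theorem g0 (h : PC A) (he : PTime e) : PTime fun a => (A a).g0 (e a) :=
  (h.gc he).isub ((h.tau he).natCast.imul
    ((PTime.const 2).ipow (((PU.const 144).mul h.q).sub (PU.const 1))))

theorem zsum (h : PC A) {u : β → Vec} (hu : VT u) :
    VT fun a => ∑ e ∈ range (A a).b.nf, u a e • (A a).b.z (A a).n e :=
  (PTime.isum_range (g := fun (c : β × ℕ) e => u c.1 e * (A c.1).b.z (A c.1).n e c.2) h.fst.nf
    ((hu.app PTime.fst'.fst (PTime.val PTime.snd')).imul
      (h.fst.fst.z (PTime.val PTime.snd') PTime.fst'.snd))).congr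
    fun c => by simp only [Finset.sum_apply, Pi.smul_apply, smul_eq_mul]

theorem pt (h : PC A) {u v : β → Vec} (hu : VT u) (hv : VT v) :
    VT fun a => (A a).b.pt (A a).n (u a) (v a) :=
  ((h.zsum hu).iadd (PTime.isum_range
    (g := fun (c : β × ℕ) e => if c.2 = (A c.1).b.el e then v c.1 e else 0) h.fst.nt
    (PTime.ite (PTime.fst'.snd.eq (h.fst.fst.el (PTime.val PTime.snd')))
      (hv.app PTime.fst'.fst (PTime.val PTime.snd')) (PTime.const _)))).congr
    fun c => by
      simp only [Bas.pt, Pi.add_apply, Finset.sum_apply, Pi.smul_apply, smul_eq_mul, ev,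
        Pi.single_apply, mul_ite, mul_one, mul_zero]

theorem y (h : PC A) {k : β → List ℕ} (hk : PTime k) : VT fun a => (A a).y (k a) :=
  h.pt (u := fun a e => (A a).g0 e + (A a).tau e * (k a).getD e 0)
    (v := fun a i => (A a).th0 i - (A a).T + (k a).getD ((A a).b.nf + i) 0)
    ((h.fst.g0 PTime.snd').iadd ((h.fst.tau PTime.snd').natCast.imul
      (getDN (hk.comp PTime.fst') PTime.snd').natCast))
    (((h.fst.th0 PTime.snd').isub h.fst.T.natCast).iadd
      (getDN (hk.comp PTime.fst') (h.fst.nf.ptime.add PTime.snd')).natCast)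

theorem xo (h : PC A) {k : β → List ℕ} {r : β → Word} (hk : PTime k) (hr : PTime r) :
    VT fun a => (A a).xo (k a) (r a) :=
  ((h.y hk).iadd (PTime.isum_range (g := fun (c : β × ℕ) e =>
      ((ofB (blk (A c.1).J e (r c.1)) % (A c.1).tau e : ℕ) : ℤ) * (A c.1).b.z (A c.1).n e c.2)
    h.fst.nf (((ptime_ofB (ptime_blk h.fst.fst.J (PU.val PTime.snd') (hr.comp PTime.fst'.fst))).mod
      (h.fst.fst.tau (PTime.val PTime.snd'))).natCast.imul
        (h.fst.fst.z (PTime.val PTime.snd') PTime.fst'.snd)))).congr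
    fun c => by simp only [Mod.xo, Pi.add_apply, Finset.sum_apply, Pi.smul_apply, smul_eq_mul]

end PC

end AlgX

end Crest.Agent.R302
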