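import Crest.Agent.R302.Nu

/-! Row 302: computing an optimal base, and membership. -/

set_option autoImplicit false

namespace Crest.Agent.R302

open Crest.Agent.PT Crest.Agent.R309 Finset

namespace SgX

theorem sum_lt {β : ℕ} (d : ℕ → ℕ) (m : ℕ) (h : ∀ i < m, d i < β) :
    ∑ i ∈ range m, β ^ i * d i < β ^ m := by
  induction m with
  | zero => simp
  | succ m ih =>
    have h1 := ih fun i hi => h i (by omega)
    have h2 : β ^ m * (d m + 1) ≤ β ^ m * β := Nat.mul_le_mul_left _ (h m (by omega))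
    rw [sum_range_succ, pow_succ]
    rw [mul_add, mul_one] at h2
    omega

theorem digit {β : ℕ} (hβ : 0 < β) (d : ℕ → ℕ) (m : ℕ) (h : ∀ i < m, d i < β) :
    ∀ i < m, (∑ j ∈ range m, β ^ j * d j) / β ^ i % β = d i := by
  induction m with
  | zero => intro i hi; omega
  | succ m ih =>
    intro i hi
    have h' : ∀ i < m, d i < β := fun i hi => h i (by omega)
    rw [sum_range_succ]
    rcases Nat.lt_succ_iff_lt_or_eq.1 hi with c | rfl
    · obtain ⟨t, rfl⟩ := Nat.exists_eq_add_of_lt c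
      rw [show β ^ (i + t + 1) * d (i + t + 1) = β ^ i * (β * (β ^ t * d (i + t + 1))) by ring,
        Nat.add_mul_div_left _ _ (by positivity), Nat.add_mul_mod_self_left, ih h' i c]
    · rw [Nat.add_mul_div_left _ _ (by positivity), Nat.div_eq_of_lt (sum_lt d _ h'), zero_add,
        Nat.mod_eq_of_lt (h _ hi)]

theorem main {m B : ℕ} {F : Finset ℕ → ℤ} {p cst cst' : ℕ → ℕ} {ζ ζ' y : Vec} (hF : Submod m F)
    (h0 : F ∅ = 0) (hB : ∀ S ⊆ range m, |F S| < 2 ^ B) {β K : ℕ} (hβ : β = 2 ^ (B + 3))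
    (hK : K = β ^ (m + 1)) (hc : ∀ i < m, cst' i = K * cst i)
    (hζ : ∀ i < m, ζ' i = K * ζ i + (β ^ i : ℕ)) :
    ∃ b ∈ Bs m F, (∀ i < m, (((K * nu m F p cst ζ y - nu m F p cst' ζ' y +
        ((2 ^ (B + 2) * ∑ i ∈ range m, β ^ i : ℕ) : ℤ)).toNat / β ^ i % β : ℕ) : ℤ) - 2 ^ (B + 2)
          = b i) ∧
      nu m F p cst ζ y = -dot m ζ b + cost m p cst (y - b) := by
  have hβ0 : 0 < β := by rw [hβ]; positivity
  have e : ∀ b : Vec, -dot m ζ' b + cost m p cst' (y - b) =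
      K * (-dot m ζ b + cost m p cst (y - b)) - ∑ i ∈ range m, ((β ^ i : ℕ) : ℤ) * b i := by
    intro b
    have e1 : dot m ζ' b = K * dot m ζ b + ∑ i ∈ range m, ((β ^ i : ℕ) : ℤ) * b i := by
      unfold dot
      rw [mul_sum, ← sum_add_distrib]
      exact sum_congr rfl fun i hi => by rw [hζ i (mem_range.1 hi)]; ring
    have e2 : cost m p cst' (y - b) = K * cost m p cst (y - b) := by
      unfold cost
      rw [mul_sum]
      exact sum_congr rfl fun i hi => by rw [hc i (mem_range.1 hi)]; push_cast; ring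
    rw [e1, e2]; ring
  have dg : ∀ b ∈ Bs m F, ∃ d : ℕ → ℕ, (∀ i < m, d i < β ∧ (d i : ℤ) = b i + 2 ^ (B + 2)) ∧
      ((∑ i ∈ range m, β ^ i * d i : ℕ) : ℤ) = ∑ i ∈ range m, ((β ^ i : ℕ) : ℤ) * b i +
        ((2 ^ (B + 2) * ∑ i ∈ range m, β ^ i : ℕ) : ℤ) := by
    intro b hb
    have h1 : ∀ i < m, (b i + 2 ^ (B + 2)).toNat < β ∧
        ((b i + 2 ^ (B + 2)).toNat : ℤ) = b i + 2 ^ (B + 2) := by
      intro i hi
      have h2 := Bs_bound (fun S hS => (hB S hS).le) hb (singleton_subset_iff.2 (mem_range.2 hi))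
      rw [sm, sum_singleton, abs_le] at h2
      have h3 : (β : ℤ) = 8 * 2 ^ B := by rw [hβ]; push_cast; ring
      have h4 : (2 : ℤ) ^ (B + 2) = 4 * 2 ^ B := by ring
      have h5 : (0 : ℤ) < 2 ^ B := by positivity
      omega
    refine ⟨fun i => (b i + 2 ^ (B + 2)).toNat, h1, ?_⟩
    rw [mul_sum, Nat.cast_sum, Nat.cast_sum, ← sum_add_distrib]
    refine sum_congr rfl fun i hi => ?_
    rw [Nat.cast_mul, (h1 i (mem_range.1 hi)).2]
    push_cast; ring
  obtain ⟨b, hb, eb⟩ := exists_nu_eq (p := p) (cst := cst') (ζ := ζ') hF h0 y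
  obtain ⟨b0, hb0, eb0⟩ := exists_nu_eq (p := p) (cst := cst) (ζ := ζ) hF h0 y
  obtain ⟨d, hd, ed⟩ := dg b hb
  obtain ⟨d0, -, ed0⟩ := dg b0 hb0
  have l1 := nu_le (p := p) (cst := cst) (ζ := ζ) hb y
  have l2 := nu_le (p := p) (cst := cst') (ζ := ζ') hb0 y
  rw [e] at eb l2
  have l3 : ((∑ i ∈ range m, β ^ i * d i : ℕ) : ℤ) < K := by
    have := (sum_lt d m fun i hi => (hd i hi).1).trans_le
      (Nat.pow_le_pow_right hβ0 (Nat.le_succ m))
    rw [hK]
    exact_mod_cast this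
  have l4 : (0 : ℤ) ≤ ((∑ i ∈ range m, β ^ i * d0 i : ℕ) : ℤ) := Int.natCast_nonneg _
  have l5 : nu m F p cst ζ y = -dot m ζ b + cost m p cst (y - b) := by
    by_contra c
    have : (K : ℤ) * (nu m F p cst ζ y + 1) ≤ K * (-dot m ζ b + cost m p cst (y - b)) :=
      mul_le_mul_of_nonneg_left (by omega) (Int.natCast_nonneg _)
    rw [← eb0] at l2
    linarith
  refine ⟨b, hb, fun i hi => ?_, l5⟩
  have : K * nu m F p cst ζ y - nu m F p cst' ζ' y +
      ((2 ^ (B + 2) * ∑ i ∈ range m, β ^ i : ℕ) : ℤ) =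
      ((∑ i ∈ range m, β ^ i * d i : ℕ) : ℤ) := by rw [ed, eb, ← l5]; ring
  rw [this, Int.toNat_natCast, digit hβ0 d m (fun i hi => (hd i hi).1) i hi, (hd i hi).2]
  ring

theorem exists_min {α : Type} [Rp α] [HasO α] (n : α → ℕ) (hn : PU n)
    (f : α → Finset ℕ → ℤ) (h : OT fun p : α × Word => f p.1 (st (n p.1) p.2))
    (x : α → List ℤ) (hx : OT x) (σ : ℤ) :
    ∃ c : α → ℤ, OT c ∧ ∀ a, Submod (n a) (f a) →
      (0 ≤ c a ↔ ∀ S ⊆ range (n a), σ * sm S (fun i => (x a).getD i 0) ≤ f a S) := by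
  have hn' : PU fun r : (α × List ℤ) × Word => n r.1.1 := by fun_prop
  have s1 : PTime fun r : (α × List ℤ) × Word => ∑ i ∈ range (n r.1.1),
      if r.2.getD i false = true then r.1.2.getD i 0 else 0 :=
    PTime.isum_range (g := fun (r : (α × List ℤ) × Word) i =>
      if r.2.getD i false = true then r.1.2.getD i 0 else 0) hn' (by fun_prop)
  have h1 := h.pre (α := (α × List ℤ) × Word) (f := fun r => (r.1.1, r.2)) (by fun_prop)
    fun _ => rfl
  have h2 := OT.pcomp (g := fun z : ℤ × ℤ => z.1 - σ * z.2) (by fun_prop)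
    (h1.pair (OT.of_ptime s1))
  have h3 : OT fun r : (α × List ℤ) × Word => f r.1.1 (st (n r.1.1) r.2) -
      σ * sm (st (n r.1.1) r.2) (fun i => r.1.2.getD i 0) := h2.congr fun r => by
    simp only [sm, st, sum_filter]
  obtain ⟨g, hg, eg⟩ := exists_sfm (α := α × List ℤ) (fun r => n r.1) (by fun_prop)
    (fun r S => f r.1 S - σ * sm S (fun i => r.2.getD i 0)) h3
  refine ⟨_, OT.bind (OT.bind h3 hg) hx, fun a hs => ?_⟩
  have := (eg (a, x a)).2 (fun A hA B hB => by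
    have a1 := hs A hA B hB
    have a2 := congrArg (σ * ·) (sm_union_inter A B fun i => (x a).getD i 0)
    simp only [mul_add] at a2 ⊢
    omega)
  dsimp only at this ⊢
  refine ⟨fun c S hS => ?_, fun c => ?_⟩
  · have := this.2 S hS
    dsimp only at this
    omega
  · have := c _ this.1
    omega

end SgX

theorem exists_argnu {α : Type} [Rp α] [HasO α] (m B : α → ℕ) (hm : PU m) (hB : PU B)
    (F : α → Finset ℕ → ℤ) (hF : OT fun p : α × Word => F p.1 (st (m p.1) p.2))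
    (p cst : α → List ℕ) (ζ y : α → List ℤ) (hp : OT p) (hc : OT cst) (hζ : OT ζ) (hy : OT y) :
    ∃ v : α → List ℤ, OT v ∧ ∀ a, Submod (m a) (F a) → F a ∅ = 0 → Fo (pf (p a)) →
      (∀ S ⊆ range (m a), |F a S| < 2 ^ B a) →
      (∀ i < m a, (cst a).getD i 0 < 2 ^ B a ∧ |(ζ a).getD i 0| < 2 ^ B a ∧
        |(y a).getD i 0| < 2 ^ B a) →
      ∃ b ∈ Bs (m a) (F a), (∀ i < m a, (v a).getD i 0 = b i) ∧
        nu (m a) (F a) (pf (p a)) (fun i => (cst a).getD i 0) (fun i => (ζ a).getD i 0)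
          (fun i => (y a).getD i 0) = -dot (m a) (fun i => (ζ a).getD i 0) b +
            cost (m a) (pf (p a)) (fun i => (cst a).getD i 0) ((fun i => (y a).getD i 0) - b) := by
  have hm' := hm.ptime
  obtain ⟨β, hβ, eβ⟩ : ∃ β : α → ℕ, PTime β ∧ ∀ a, β a = 2 ^ (B a + 3) :=
    ⟨_, by fun_prop, fun _ => rfl⟩
  obtain ⟨K, hK, eK⟩ : ∃ K : α → ℕ, PTime K ∧ ∀ a, K a = β a ^ (m a + 1) :=
    ⟨_, by fun_prop, fun _ => rfl⟩
  have hc' := OT.map (E := fun q : α × List ℕ => (List.range (m q.1)).map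
    fun i => K q.1 * q.2.getD i 0) (rangeMapN (g := fun (q : α × List ℕ) i => K q.1 * q.2.getD i 0)
      (by fun_prop) (by fun_prop)) hc
  have hζ' := OT.map (E := fun q : α × List ℤ => (List.range (m q.1)).map
    fun i => K q.1 * q.2.getD i 0 + ((β q.1 ^ i : ℕ) : ℤ))
    (rangeMapZ (g := fun (q : α × List ℤ) i => K q.1 * q.2.getD i 0 + ((β q.1 ^ i : ℕ) : ℤ))
      (by fun_prop) (by fun_prop)) hζ
  obtain ⟨v, hv, ev⟩ := exists_nu_alg m B hm hB F hF p cst ζ y hp hc hζ hy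
  obtain ⟨v', hv', ev'⟩ := exists_nu_alg m (fun a => (B a + 3) * (m a + 1) + B a) hm (by fun_prop)
    F hF p _ _ y hp hc' hζ' hy
  have s1 : PTime fun a => ∑ i ∈ range (m a), β a ^ i :=
    PTime.sum_range (g := fun a i => β a ^ i) hm (by fun_prop)
  obtain ⟨Z, hZ, eZ⟩ : ∃ Z : α → ℕ, PTime Z ∧ ∀ a, Z a = 2 ^ (B a + 2) * ∑ i ∈ range (m a), β a ^ i :=
    ⟨_, PTime.mul (by fun_prop) s1, fun _ => rfl⟩
  have hV := OT.map (E := fun q : α × ℤ × ℤ => (List.range (m q.1)).map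
    fun i => (((K q.1 * q.2.1 - q.2.2 + Z q.1).toNat / β q.1 ^ i % β q.1 : ℕ) : ℤ) - 2 ^ (B q.1 + 2))
    (rangeMapZ (g := fun (q : α × ℤ × ℤ) i =>
      (((K q.1 * q.2.1 - q.2.2 + Z q.1).toNat / β q.1 ^ i % β q.1 : ℕ) : ℤ) - 2 ^ (B q.1 + 2))
      (by fun_prop) (by fun_prop)) (hv.pair hv')
  refine ⟨_, hV, fun a h1 h2 h3 h4 h5 => ?_⟩
  have eK' : K a = 2 ^ ((B a + 3) * (m a + 1)) := by rw [eK, eβ, ← pow_mul]
  have hle : (2 : ℤ) ^ B a ≤ 2 ^ ((B a + 3) * (m a + 1) + B a) :=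
    pow_le_pow_right₀ (by norm_num) (Nat.le_add_left _ _)
  have g1 : ∀ i < m a, ((List.range (m a)).map fun i => K a * (cst a).getD i 0).getD i 0 =
      K a * (cst a).getD i 0 := fun i hi => by simp [List.getD_eq_getElem?_getD, hi]
  have g2 : ∀ i < m a, ((List.range (m a)).map
      fun i => K a * (ζ a).getD i 0 + ((β a ^ i : ℕ) : ℤ)).getD i 0 =
      K a * (ζ a).getD i 0 + ((β a ^ i : ℕ) : ℤ) := fun i hi => by
    simp [List.getD_eq_getElem?_getD, hi]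
  have e1 := ev a h1 h2 h3 h4 h5
  have e2 := ev' a h1 h2 h3 (fun S hS => (h4 S hS).trans_le hle) fun i hi => by
    obtain ⟨a1, a2, a3⟩ := h5 i hi
    refine ⟨?_, ?_, a3.trans_le hle⟩
    · rw [g1 i hi, pow_add, ← eK']
      exact Nat.mul_lt_mul_of_pos_left a1 (by rw [eK']; positivity)
    · have b1 : β a ^ i < K a := by
        rw [eK]
        exact Nat.pow_lt_pow_right (by rw [eβ]; exact Nat.one_lt_two_pow (by omega)) (by omega)
      have b2 : ((β a ^ i : ℕ) : ℤ) < K a := by exact_mod_cast b1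
      have b3 : (2 : ℤ) ^ ((B a + 3) * (m a + 1)) = K a := by rw [eK']; push_cast; rfl
      have b4 : (K a : ℤ) * (|(ζ a).getD i 0| + 1) ≤ K a * 2 ^ B a :=
        mul_le_mul_of_nonneg_left (by omega) (Int.natCast_nonneg _)
      rw [g2 i hi, pow_add, b3]
      refine (abs_add_le _ _).trans_lt ?_
      rw [abs_mul, Nat.abs_cast, Nat.abs_cast]
      linarith
  obtain ⟨b, hb, e3, e4⟩ := SgX.main (p := pf (p a)) (y := fun i => (y a).getD i 0) h1 h2 h4 (eβ a)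
    (eK a) g1 g2
  refine ⟨b, hb, fun i hi => ?_, e4⟩
  rw [← e3 i hi, ← e1, ← e2, ← eZ]
  simp [List.getD_eq_getElem?_getD, hi]

theorem exists_mem {α : Type} [Rp α] [HasO α] (n : α → ℕ) (hn : PU n)
    (f1 f2 : α → Finset ℕ → ℤ) (h1 : OT fun p : α × Word => f1 p.1 (st (n p.1) p.2))
    (h2 : OT fun p : α × Word => f2 p.1 (st (n p.1) p.2)) (x : α → List ℤ) (hx : OT x) :
    ∃ c : α → Bool, OT c ∧ ∀ a, Submod (n a) (f1 a) → Submod (n a) (f2 a) →
      (c a = true ↔ (fun i => if i < n a then (x a).getD i 0 else 0) ∈ PS (n a) (f1 a) (f2 a)) := by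
  obtain ⟨c1, hc1, e1⟩ := SgX.exists_min n hn f1 h1 x hx 1
  obtain ⟨c2, hc2, e2⟩ := SgX.exists_min n hn f2 h2 x hx (-1)
  refine ⟨_, OT.pcomp (g := fun z : ℤ × ℤ => decide (0 ≤ z.1 ∧ 0 ≤ z.2)) (by fun_prop)
    (hc1.pair hc2), fun a s1 s2 => ?_⟩
  have e : ∀ S ⊆ range (n a), sm S (fun i => if i < n a then (x a).getD i 0 else 0) =
      sm S (fun i => (x a).getD i 0) := fun S hS =>
    sum_congr rfl fun i hi => if_pos (mem_range.1 (hS hi))
  rw [decide_eq_true_eq, e1 a s1, e2 a s2]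
  simp only [one_mul, neg_mul]
  refine ⟨fun h => ⟨fun i hi => if_neg (by omega), fun S hS => ?_⟩, fun h => ⟨fun S hS => ?_,
    fun S hS => ?_⟩⟩
  · rw [e S hS]; exact ⟨h.1 S hS, h.2 S hS⟩
  · rw [← e S hS]; exact (h.2 S hS).1
  · rw [← e S hS]; exact (h.2 S hS).2

end Crest.Agent.R302
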