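import Crest.Agent.R302.Reg
import Crest.Agent.R302.Sg
import Crest.Agent.R302.AlgA

/-! Row 302: the model is computable. -/

set_option autoImplicit false

namespace Crest.Agent.R302

open Crest.Agent.PT Crest.Agent.R309 Finset

namespace AlgX

theorem getD_map {τ : Type} {n : ℕ} (g : ℕ → τ) (d : τ) {i : ℕ} (hi : i < n) :
    ((List.range n).map g).getD i d = g i := by
  simp [List.getD_eq_getElem?_getD, hi]

/-- the forest as a list -/
def pL (S : Mod) : List ℕ := (List.range (2 * S.n)).map S.p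
/-- the costs as a list -/
def cL (S : Mod) : List ℕ := (List.range (2 * S.n)).map S.cst
/-- the field as a list -/
def zL (S : Mod) (ζ : List ℤ) : List ℤ := (List.range (2 * S.n)).map fun a => ζ.getD (S.b.lab a) 0
/-- the point as a list -/
def yL (S : Mod) (k : List ℕ) : List ℤ := (List.range (2 * S.n)).map (dg S.n (S.y k))
/-- the number of bits -/
def bB (S : Mod) : ℕ := S.dd + 2001 * S.q + 2 * 2 ^ S.q + S.B + 3

theorem pf_pL (S : Mod) : pf (pL S) = S.p := by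
  funext i
  unfold pf pL
  rw [List.length_map, List.length_range]
  split_ifs with h
  · exact getD_map _ _ h
  · unfold Mod.p pp
    rw [if_neg (by omega), if_neg h]

theorem F_st (S : Mod) (w : Word) :
    S.F (st (2 * S.n) w) = S.f1 (st S.n w) + S.f2 (st S.n (w.drop S.n)) := by
  unfold Mod.F dsum
  congr 2
  · ext i
    simp only [mem_filter, mem_range, mem_st]
    exact ⟨fun h => ⟨h.1, h.2.2⟩, fun h => ⟨h.1, by omega, h.2⟩⟩
  · ext i
    have e : (w.drop S.n).getD i false = w.getD (S.n + i) false := by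
      simp [List.getD_eq_getElem?_getD]
    simp only [mem_filter, mem_range, mem_st, e]
    exact ⟨fun h => ⟨h.1, h.2.2⟩, fun h => ⟨h.1, by omega, h.2⟩⟩

theorem y_bd {S : Mod} (h : S.OK) {k : List ℕ} (hk : ∀ e < S.E, k.getD e 0 ≤ S.rho.getD e 0)
    (i : ℕ) : |S.y k i| ≤ 2 ^ (2 * S.Q) := by
  refine h.pt_bd _ _ (fun e he => ?_) (fun i hi => ?_) i
  · have h1 := hk e (by unfold Mod.E; omega)
    rw [Mod.rho_getD_f he, Mod.M_eq] at h1
    have h2 := h.g0_eq e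
    rw [Mod.M_eq] at h2
    have h3 : (S.tau e : ℤ) * (S.Q : ℤ) ^ 138 = 2 ^ S.b.je e := by exact_mod_cast h.tau_mul he
    have h4 : (k.getD e 0 : ℤ) ≤ (S.Q : ℤ) ^ 144 := by exact_mod_cast h1
    have h5 : (1 : ℤ) ≤ S.Q := by exact_mod_cast Mod.Q_pos
    have h6 : (S.tau e : ℤ) * k.getD e 0 ≤ S.tau e * (S.Q : ℤ) ^ 144 :=
      mul_le_mul_of_nonneg_left h4 (by positivity)
    have h7 : (0 : ℤ) ≤ S.tau e * k.getD e 0 := by positivity
    have h8 : (S.tau e : ℤ) * (S.Q : ℤ) ^ 144 ≤ (S.Q : ℤ) ^ 7 * 2 ^ S.b.je e := by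
      rw [← h3, mul_left_comm, ← pow_add]
      exact mul_le_mul_of_nonneg_left (pow_le_pow_right₀ h5 (by norm_num)) (by positivity)
    push_cast at h2
    rw [abs_le]
    constructor <;> linarith
  · have h1 := hk (S.b.nf + i) (by unfold Mod.E; omega)
    rw [Mod.rho_getD_t hi] at h1
    rw [abs_le]
    constructor <;> omega

theorem bits {S : Mod} (h : S.OK) {ζ : List ℤ} (hζ : Bd (2 * S.n) (S.Q ^ 2000 * S.D) ζ)
    {k : List ℕ} (hk : ∀ e < S.E, k.getD e 0 ≤ S.rho.getD e 0) :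
    (∀ A ⊆ range (2 * S.n), |S.F A| < 2 ^ bB S) ∧ ∀ i < 2 * S.n, (cL S).getD i 0 < 2 ^ bB S ∧
      |(zL S ζ).getD i 0| < 2 ^ bB S ∧ |(yL S k).getD i 0| < 2 ^ bB S := by
  have hq := h.q_ge
  refine ⟨fun A _ => h.F_bd.trans_le (pow_le_pow_right₀ (by norm_num) (by unfold bB; omega)),
    fun i hi => ⟨?_, ?_, ?_⟩⟩
  · rw [cL, getD_map _ _ hi, Mod.cst]
    split_ifs
    · have h1 : S.q < 2 ^ S.q := Nat.lt_two_pow_self
      calc 2 * S.q * S.D < 2 * 2 ^ S.q * S.D := Nat.mul_lt_mul_of_pos_right (by omega) Mod.D_pos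
        _ = 2 ^ (1 + S.q + S.dd) := by rw [Mod.D, pow_add, pow_add, pow_one]
        _ ≤ _ := Nat.pow_le_pow_right (by norm_num) (by unfold bB; omega)
    · exact Nat.pow_lt_pow_right (by norm_num) (by unfold bB; omega)
  · rw [zL, getD_map _ _ hi, ← Int.natCast_natAbs]
    have h1 := hζ.2 (S.b.lab i)
    rw [Mod.Q, Mod.D, ← pow_mul, ← pow_add] at h1
    have h2 : (ζ.getD (S.b.lab i) 0).natAbs < 2 ^ bB S :=
      h1.trans_lt (Nat.pow_lt_pow_right (by norm_num) (by unfold bB; omega))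
    exact_mod_cast h2
  · rw [yL, getD_map _ _ hi]
    have h2 : (2 : ℤ) ^ (2 * S.Q) < 2 ^ bB S :=
      pow_lt_pow_right₀ (by norm_num) (by unfold bB Mod.Q; omega)
    unfold dg
    split_ifs
    · exact (y_bd h hk _).trans_lt h2
    · rw [abs_neg]; exact (y_bd h hk _).trans_lt h2

theorem nu_L (S : Mod) (ζ : List ℤ) (k : List ℕ) :
    nu (2 * S.n) S.F (pf (pL S)) (fun i => (cL S).getD i 0) (fun i => (zL S ζ).getD i 0)
      (fun i => (yL S k).getD i 0) = S.nz (fun p => ζ.getD p 0) (dg S.n (S.y k)) := by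
  rw [pf_pL]
  exact nu_congr (fun _ hi => getD_map _ _ hi) (fun _ hi => getD_map _ _ hi)
    fun _ hi => getD_map _ _ hi

theorem val_L (S : Mod) (ζ : List ℤ) (k : List ℕ) (b : Vec) :
    -dot (2 * S.n) (fun i => (zL S ζ).getD i 0) b + cost (2 * S.n) (pf (pL S))
      (fun i => (cL S).getD i 0) ((fun i => (yL S k).getD i 0) - b) =
    -dot (2 * S.n) (fun c => ζ.getD (S.b.lab c) 0) b +
      cost (2 * S.n) S.p S.cst (dg S.n (S.y k) - b) := by
  rw [pf_pL]
  congr 1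
  · congr 1
    exact sum_congr rfl fun i hi => by
      beta_reduce
      rw [zL, getD_map _ _ (mem_range.1 hi)]
  · refine sum_congr rfl fun a ha => ?_
    beta_reduce
    rw [cL, getD_map _ _ (mem_range.1 ha)]
    congr 2
    refine sum_congr rfl fun i hi => ?_
    rw [Pi.sub_apply, Pi.sub_apply, yL, getD_map _ _ (mem_range.1 (mem_filter.1 hi).1)]

theorem xo_supp {S : Mod} (h : S.OK) (k : List ℕ) (r : Word) {i : ℕ} (hi : S.n ≤ i) :
    S.xo k r i = 0 := by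
  rw [Mod.xo, Pi.add_apply, Mod.y, h.pt_supp _ _ hi, zero_add, Finset.sum_apply]
  refine sum_eq_zero fun e _ => ?_
  rw [Pi.smul_apply, Bas.z, if_neg (by omega), smul_zero]

section
variable {β : Type} [Rp β] {A : β → Mod}

theorem PC.pL (h : PC A) : PTime fun a => pL (A a) :=
  rangeMapN h.n2 (h.fst.p (PTime.val PTime.snd'))
theorem PC.cL (h : PC A) : PTime fun a => cL (A a) :=
  rangeMapN h.n2 (h.fst.cst (PTime.val PTime.snd'))
theorem PC.zL (h : PC A) {ζ : β → List ℤ} (hζ : PTime ζ) : PTime fun a => zL (A a) (ζ a) :=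
  rangeMapZ (g := fun a c => (ζ a).getD ((A a).b.lab c) 0) h.n2
    (getDZ (hζ.comp PTime.fst') (h.fst.lab (PTime.val PTime.snd')))
theorem PC.yL (h : PC A) {k : β → List ℕ} (hk : PTime k) : PTime fun a => yL (A a) (k a) :=
  ((h.y hk).dg h.n.ptime).list h.n2
theorem PC.bB (h : PC A) : PU fun a => bB (A a) :=
  (((h.dd.add ((PU.const 2001).mul h.q)).add ((PU.const 2).mul h.Q)).add h.B).add (PU.const 3)

end

end AlgX

namespace Mod.Comp

open AlgX

variable {α : Type} [Rp α] [HasO α] {A : α → Mod}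

theorem pc (h : Comp A) : PC A := ⟨h.n, h.q, h.Q, h.B, h.l1, h.l2, h.jl, h.lol, h.b⟩

theorem fst {β : Type} [Rp β] (h : Comp A) : Comp fun p : α × β => A p.1 :=
  ⟨h.n.comp PTime.fst', h.q.comp PTime.fst', h.Q.comp PTime.fst', h.B.comp PTime.fst',
    h.f1.pre (f := fun r : (α × β) × Word => (r.1.1, r.2)) (by fun_prop) fun _ => rfl,
    h.f2.pre (f := fun r : (α × β) × Word => (r.1.1, r.2)) (by fun_prop) fun _ => rfl,
    h.l1.comp PTime.fst', h.l2.comp PTime.fst', h.jl.comp PTime.fst', h.lol.comp PTime.fst',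
    h.b.comp PTime.fst'⟩
theorem pu_Q (h : Comp A) (c : ℕ) : PU fun a => (A a).Q ^ c := h.Q.pow_const c
theorem pu_E (h : Comp A) : PU fun a => (A a).E := h.pc.nf.add h.pc.nt
theorem pt_D (h : Comp A) : PTime fun a => (A a).D := h.pc.D
theorem pt_rho (h : Comp A) : PTime fun a => (A a).rho := h.pc.rho
theorem pt_tauP (h : Comp A) : PTime fun a => (A a).tauP := h.pc.tauP

theorem ot_F (h : Comp A) : OT fun p : α × Word => (A p.1).F (st (2 * (A p.1).n) p.2) :=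
  (OT.pcomp (g := fun z : ℤ × ℤ => z.1 + z.2) (by fun_prop) (h.f1.pair
    (h.f2.pre (f := fun r : α × Word => (r.1, r.2.drop (A r.1).n))
      (PTime.fst'.pair (PTime.drop (h.n.comp PTime.fst') PTime.snd')) fun _ => rfl))).congr
    fun p => F_st _ _

theorem exists_En (h : Comp A) {ζ : α → List ℤ} {k : α → List ℕ} (hζ : PTime ζ) (hk : PTime k) :
    ∃ v : α → ℤ, OT v ∧ ∀ a, (A a).OK → Bd (2 * (A a).n) ((A a).Q ^ 2000 * (A a).D) (ζ a) →
      (∀ e < (A a).E, (k a).getD e 0 ≤ (A a).rho.getD e 0) →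
      v a = (A a).En (fun p => (ζ a).getD p 0) (dg (A a).n ((A a).y (k a))) := by
  obtain ⟨v, hv, ev⟩ := exists_nu_alg (fun a => 2 * (A a).n) (fun a => bB (A a)) h.pc.n2 h.pc.bB
    (fun a => (A a).F) h.ot_F _ _ _ _ (OT.of_ptime h.pc.pL) (OT.of_ptime h.pc.cL)
    (OT.of_ptime (h.pc.zL hζ)) (OT.of_ptime (h.pc.yL hk))
  refine ⟨_, OT.pcomp (g := fun z : ℤ × ℤ => z.1 + z.2) (by fun_prop)
    (hv.pair (OT.of_ptime (h.pc.Mar ((h.pc.y hk).dg h.n.ptime)))), fun a ho h1 h2 => ?_⟩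
  obtain ⟨b1, b2⟩ := bits ho h1 h2
  rw [ev a ho.submod ho.F_empty (by rw [pf_pL]; exact ho.fo) b1 b2, nu_L]
  rfl

theorem exists_en (h : Comp A) : ∃ en : α → List ℤ → List ℕ → ℤ,
    (OT fun p : α × List ℤ × List ℕ => en p.1 p.2.1 p.2.2) ∧ ∀ a, (A a).OK →
      ∀ ζ, Bd (2 * (A a).n) ((A a).Q ^ 2000 * (A a).D) ζ → ∀ k ∈ bx (A a).E [] (A a).rho,
        en a ζ k = (A a).en ζ k := by
  have h' := h.fst (β := List ℤ × List ℕ)
  obtain ⟨v, hv, ev⟩ := h'.exists_En PTime.snd'.fst PTime.snd'.snd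
  obtain ⟨u, hu, eu⟩ := h'.exists_En (k := fun _ => []) PTime.snd'.fst (PTime.const _)
  have hE : PTime fun z : (α × List ℤ × List ℕ) × ℤ × ℤ => z.2.1 / (A z.1.1).D -
      min 0 (z.2.2 / (A z.1.1).D + ((A z.1.1).Q : ℤ) ^ 3) :=
    (idiv PTime.snd'.fst h'.pc.fst.D).isub (imin (PTime.const _)
      ((idiv PTime.snd'.snd h'.pc.fst.D).iadd (h'.pc.fst.Q.ptime.natCast.ipow (PU.const 3))))
  refine ⟨fun a ζ k => v (a, ζ, k) / (A a).D - min 0 (u (a, ζ, k) / (A a).D + ((A a).Q : ℤ) ^ 3),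
    OT.map hE (hv.pair hu), fun a ho ζ hζ k hk => ?_⟩
  simp only
  rw [ev (a, ζ, k) ho hζ fun e he => ((mem_bx.1 hk).2 e he).2,
    eu (a, ζ, k) ho hζ fun e _ => Nat.zero_le _]
  rfl

theorem exists_sg (h : Comp A) : ∃ sg : α → List ℤ → List ℕ → List ℤ,
    (OT fun p : α × List ℤ × List ℕ => sg p.1 p.2.1 p.2.2) ∧ ∀ a, (A a).OK →
      ∀ ζ, Bd (2 * (A a).n) ((A a).Q ^ 2000 * (A a).D) ζ → ∀ k ∈ bx (A a).E [] (A a).rho,
        ∃ b ∈ Bs (2 * (A a).n) (A a).F,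
          (A a).nz (fun p => ζ.getD p 0) (dg (A a).n ((A a).y k)) =
            -dot (2 * (A a).n) (fun c => ζ.getD ((A a).b.lab c) 0) b +
              cost (2 * (A a).n) (A a).p (A a).cst (dg (A a).n ((A a).y k) - b) ∧
          ∀ p < 2 * (A a).n, (sg a ζ k).getD p 0 =
            ∑ c ∈ (range (2 * (A a).n)).filter (fun c => (A a).b.lab c = p), b c := by
  have h' := h.fst (β := List ℤ × List ℕ)
  obtain ⟨v, hv, ev⟩ := exists_argnu (fun x : α × List ℤ × List ℕ => 2 * (A x.1).n)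
    (fun x => bB (A x.1)) h'.pc.n2 h'.pc.bB (fun x => (A x.1).F) h'.ot_F _ _ _ _
    (OT.of_ptime h'.pc.pL) (OT.of_ptime h'.pc.cL) (OT.of_ptime (h'.pc.zL PTime.snd'.fst))
    (OT.of_ptime (h'.pc.yL PTime.snd'.snd))
  have h2 := h'.pc.fst (γ := List ℤ)
  have hE : PTime fun z : (α × List ℤ × List ℕ) × List ℤ => (List.range (2 * (A z.1.1).n)).map
      fun p => ∑ c ∈ range (2 * (A z.1.1).n), if (A z.1.1).b.lab c = p then z.2.getD c 0 else 0 :=
    rangeMapZ h2.n2 (PTime.isum_range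
      (g := fun (z : ((α × List ℤ × List ℕ) × List ℤ) × Un) c =>
        if (A z.1.1.1).b.lab c = z.2.val then z.1.2.getD c 0 else 0) h2.fst.n2
      (PTime.ite ((h2.fst.fst.lab (PTime.val PTime.snd')).eq (PTime.val PTime.fst'.snd))
        (getDZ PTime.fst'.fst.snd (PTime.val PTime.snd')) (PTime.const _)))
  refine ⟨fun a ζ k => (List.range (2 * (A a).n)).map fun p => ∑ c ∈ range (2 * (A a).n),
    if (A a).b.lab c = p then (v (a, ζ, k)).getD c 0 else 0, OT.map hE hv,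
    fun a ho ζ hζ k hk => ?_⟩
  obtain ⟨b1, b2⟩ := bits ho hζ fun e he => ((mem_bx.1 hk).2 e he).2
  obtain ⟨b, hb, e1, e2⟩ := ev (a, ζ, k) ho.submod ho.F_empty (by rw [pf_pL]; exact ho.fo) b1 b2
  refine ⟨b, hb, (nu_L _ ζ k).symm.trans (e2.trans (val_L _ ζ k b)), fun p hp => ?_⟩
  rw [getD_map _ _ hp, sum_filter]
  exact sum_congr rfl fun c hc => by rw [e1 c (mem_range.1 hc)]

theorem exists_acc (h : Comp A) : ∃ acc : α → List ℕ → Word → Bool,
    (OT fun p : α × List ℕ × Word => acc p.1 p.2.1 p.2.2) ∧ ∀ a,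
      (Pair (A a).n (A a).f1 (A a).f2 → ∀ k r, acc a k r = true →
        (PS (A a).n (A a).f1 (A a).f2).Nonempty) ∧
      ((A a).OK → ∀ k r, acc a k r = true ↔ (A a).xo k r ∈ PS (A a).n (A a).f1 (A a).f2) := by
  have h' := h.fst (β := List ℕ × Word)
  obtain ⟨c, hc, ec⟩ := exists_mem (fun x : α × List ℕ × Word => (A x.1).n) h'.n
    (fun x => (A x.1).f1) (fun x => (A x.1).f2) h'.f1 h'.f2 _
    (OT.of_ptime ((h'.pc.xo PTime.snd'.fst PTime.snd'.snd).list h'.n))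
  refine ⟨fun a k r => c (a, k, r), hc, fun a => ⟨fun hp k r hk => ⟨_, (ec _ hp.s1 hp.s2).1 hk⟩,
    fun ho k r => (ec (a, k, r) ho.pair.s1 ho.pair.s2).trans ?_⟩⟩
  refine iff_of_eq (congrArg (· ∈ _) (funext fun i => ?_))
  split_ifs with hi
  · exact getD_map _ _ hi
  · exact (xo_supp ho k r (not_lt.1 hi)).symm

end Mod.Comp

end Crest.Agent.R302
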