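import Crest.Agent.R302.BasisB

/-! Row 302: computing the adapted basis. -/

set_option autoImplicit false

namespace Crest.Agent.R302

open Crest.Agent.PT Crest.Agent.R309 Crest.Enc Finset

namespace BX

theorem pow_lt_aux (m : ℕ) (hm : 200 ≤ m) : 2 ^ 63 * m ^ 13 < 2 ^ m := by
  induction m, hm using Nat.le_induction with
  | base => norm_num
  | succ m hm ih =>
    have h1 : 200 * (m + 1) ≤ 201 * m := by omega
    have h2 : (200 * (m + 1)) ^ 13 ≤ (201 * m) ^ 13 := Nat.pow_le_pow_left h1 13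
    rw [mul_pow, mul_pow] at h2
    have h3 : (m + 1) ^ 13 ≤ 2 * m ^ 13 := by
      generalize (m + 1) ^ 13 = A at h2 ⊢
      generalize m ^ 13 = B at h2 ⊢
      norm_num at h2
      omega
    rw [pow_succ 2 m]
    generalize (m + 1) ^ 13 = A at h3 ⊢
    generalize m ^ 13 = B at h3 ih ⊢
    generalize 2 ^ m = C at ih ⊢
    norm_num at ih ⊢
    omega

theorem cap_lt {m t : ℕ} (hm : 200 ≤ m) (ht : t ≤ m) : pM (2 * m) * 2 ^ t < 2 ^ (2 * m) := by
  have h1 : pM (2 * m) = 2 ^ 63 * m ^ 13 := by unfold pM pW; ring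
  rw [h1, two_mul, pow_add]
  exact Nat.mul_lt_mul_of_lt_of_le (pow_lt_aux m hm) (Nat.pow_le_pow_right (by norm_num) ht)
    (by positivity)

theorem getD_rm {β : Type} {m i : ℕ} (g : ℕ → β) (h : i < m) (d : β) :
    ((List.range m).map g).getD i d = g i := by
  simp [List.getD_eq_getElem?_getD, h]

theorem getD_rm2 {β : Type} {k m e i : ℕ} (g : ℕ → ℕ → β) (he : e < k) (hi : i < m) (d : β) :
    ((List.range (k * m)).map fun t => g (t / m) (t % m)).getD (e * m + i) d = g e i := by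
  have h1 : e * m + i < k * m := by
    calc e * m + i < (e + 1) * m := by rw [add_mul, one_mul]; omega
      _ ≤ k * m := Nat.mul_le_mul_right _ he
  have h2 : (e * m + i) / m = e := by
    rw [mul_comm, Nat.mul_add_div (by omega), Nat.div_eq_of_lt hi, add_zero]
  have h3 : (e * m + i) % m = i := by
    rw [mul_comm, Nat.mul_add_mod, Nat.mod_eq_of_lt hi]
  rw [getD_rm _ h1, h2, h3]

section pt
variable {α : Type} [Rp α]

theorem filterN {m : α → ℕ} {c : α → ℕ → Bool} (hm : PU m)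
    (hc : PTime fun q : α × Un => c q.1 q.2.val) :
    PTime fun a => (List.range (m a)).filter (c a) := by
  refine PTLX.iffN.2 <| (PTime.flatRange
    (g := fun a k => if c a k = true then natCode k else []) hm ?_).congr fun a => ?_
  · exact PTime.ite (hc.beq (PTime.const true)) (by fun_prop) (PTime.const _)
  · generalize List.range (m a) = l
    induction l with
    | nil => rfl
    | cons x l ih =>
      rw [List.filter_cons, List.map_cons, List.flatten_cons, ← ih]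
      split_ifs
      · rfl
      · rfl

theorem exists_kf {V E J : α → ℕ} {s d τ : α → ℕ → ℕ} (hV : PU V) (hE : PU E) (hJ : PU J)
    (hs : PTime fun q : α × Un => s q.1 q.2.val) (hd : PTime fun q : α × Un => d q.1 q.2.val)
    (hτ : PTime fun q : α × Un => τ q.1 q.2.val) :
    ∃ (T : α → ℕ → Bool) (lab : α → ℕ → ℕ) (u : α → ℕ → ℕ → Bool),
      (PTime fun q : α × ℕ => T q.1 q.2) ∧ (PTime fun q : α × ℕ => lab q.1 q.2) ∧
      (PTime fun q : α × ℕ × ℕ => u q.1 q.2.1 q.2.2) ∧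
      ∀ a, (∀ e < E a, s a e < V a ∧ d a e < V a ∧ τ a e ≤ J a) →
        KF (V a) (E a) (s a) (d a) (τ a) (T a) (lab a) (u a) := by
  obtain ⟨kr, hk, sk⟩ := exists_kr
  let P : α → ℕ := fun a => 2 * (J a + V a + E a + 200)
  let N : α → Net := fun a =>
    ⟨(List.range (E a)).map (s a), (List.range (E a)).map (d a), List.replicate (V a) 0⟩
  let cap : α → List ℕ := fun a =>
    (List.range (E a)).map fun e => pM (P a) * 2 ^ min (τ a e) (J a)
  let D : α → Dat := fun a => ⟨N a, cap a, (kr (N a, cap a, ⟨P a⟩)).1,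
    (kr (N a, cap a, ⟨P a⟩)).2.1, (kr (N a, cap a, ⟨P a⟩)).2.2, P a⟩
  have hP : PU P := (PU.const 2).mul (((hJ.add hV).add hE).add (PU.const 200))
  have hN : PTime N := Net.ptime_mk (rangeMapN hE hs) (rangeMapN hE hd)
    (replicateZ hV (PTime.const 0))
  have hcap : PTime cap := rangeMapN (g := fun a e => pM (P a) * 2 ^ min (τ a e) (J a)) hE
    (((KrusX.pu_pM' hP).ptime.comp PTime.fst').mul
      ((PTime.const 2).pow (PU.min_right hτ (hJ.comp PTime.fst'))))
  have hk' : PTime fun a => kr (N a, cap a, ⟨P a⟩) :=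
    hk.comp (hN.pair (hcap.pair (PTime.unMk hP)))
  have hD : PTime D := Dat.ptime_mk hN hcap hk'.fst hk'.snd.fst hk'.snd.snd hP
  refine ⟨fun a => (D a).T, fun a => (D a).lab, fun a => (D a).u,
    KrusX.pt_T (hD.comp PTime.fst') PTime.snd', KrusX.pt_lab (hD.comp PTime.fst') PTime.snd',
    KrusX.pt_u (hD.comp PTime.fst') PTime.snd'.fst PTime.snd'.snd, fun a ha => ?_⟩
  have eE : (N a).E = E a := by simp [N, Net.E]
  have eV : (N a).V = V a := by simp [N, Net.V]
  have es : ∀ e < E a, (N a).s e = s a e := fun e he => getD_rm _ he _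
  have ed : ∀ e < E a, (N a).d e = d a e := fun e he => getD_rm _ he _
  have ec : ∀ e < E a, (D a).c e = pM (P a) * 2 ^ τ a e := fun e he => by
    have h1 : (D a).c e = pM (P a) * 2 ^ min (τ a e) (J a) := getD_rm _ he _
    rw [h1, min_eq_left (ha e he).2.2]
  have hM : 0 < pM (P a) := by
    have : 0 < P a := by simp only [P]; omega
    unfold pM pW; positivity
  have eτ : ∀ e < E a, (D a).τ e = τ a e := fun e he => by
    have h1 : (D a).τ e = ((D a).c e / pM (P a)).size - 1 := rfl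
    rw [h1, ec e he, Nat.mul_div_cancel_left _ hM, Nat.size_pow, Nat.add_sub_cancel]
  have hwf : (N a).WF := fun e he => by
    rw [eE] at he
    rw [es e he, ed e he, eV]
    exact ⟨(ha e he).1, (ha e he).2.1⟩
  have hsm : (N a).Small (cap a) (P a) := by
    refine ⟨by simp only [P]; omega, by rw [eE]; simp only [P]; omega,
      by rw [eV]; simp only [P]; omega, fun e he => ?_⟩
    rw [eE] at he
    have h1 : (cap a).getD e 0 = pM (P a) * 2 ^ τ a e := ec e he
    have h2 := (ha e he).2.2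
    rw [h1]
    exact cap_lt (by omega) (by omega)
  have hF : (D a).Forest := sk _ _ _ hwf hsm
  have eE' : (D a).N.E = E a := eE
  have eV' : (D a).N.V = V a := eV
  have es' : ∀ e < E a, (D a).N.s e = s a e := es
  have ed' : ∀ e < E a, (D a).N.d e = d a e := ed
  refine ⟨fun e he => ⟨(ha e he).1, (ha e he).2.1⟩, fun e he => ?_, fun w hw => ?_,
    fun f hf hT => ?_, fun f hf hT => ?_, fun f hf hT w hw hu => ?_,
    fun f hf hT e he hTe hne => ?_, fun f hf hT e he hne => ?_, fun r h1 h2 w hw => ?_⟩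
  · rw [← es' e he, ← ed' e he]
    refine hF.large_K e (eE' ▸ he) ?_
    rw [ec e he]
    exact Nat.le_mul_of_pos_right _ (by positivity)
  · exact eV' ▸ hF.lab_lt w (eV' ▸ hw)
  · rw [← es' f hf]; exact hF.u_src f (eE' ▸ hf) hT
  · rw [← ed' f hf]; exact hF.u_dst f (eE' ▸ hf) hT
  · rw [← es' f hf]; exact hF.u_K f (eE' ▸ hf) hT w (eV' ▸ hw) hu
  · rw [← es' e he, ← ed' e he]; exact hF.u_tr f (eE' ▸ hf) hT e (eE' ▸ he) hTe hne
  · rw [← es' e he, ← ed' e he] at hne
    rw [← eτ e he, ← eτ f hf]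
    exact hF.u_τ f (eE' ▸ hf) hT e (eE' ▸ he) hne
  · refine hF.span r (fun K hK => ?_) (fun f hf hT => ?_) w (eV' ▸ hw)
    · rw [eV'] at hK ⊢
      simpa only [iz, mul_ite, mul_one, mul_zero] using h1 K hK
    · rw [eE'] at hf
      rw [eV']
      simpa only [bz, mul_ite, mul_one, mul_zero] using h2 f hf hT

theorem pt_iz {x y : α → ℕ} (hx : PTime x) (hy : PTime y) : PTime fun a => iz (x a) (y a) :=
  PTime.ite (hx.eq hy) (PTime.const _) (PTime.const _)

theorem pt_bz {x : α → Bool} (hx : PTime x) : PTime fun a => bz (x a) :=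
  PTime.ite (hx.beq (PTime.const true)) (PTime.const _) (PTime.const _)

theorem pt_md {x y : α → ℕ} (hx : PTime x) (hy : PTime y) : PTime fun a => md (x a) (y a) :=
  PTime.ite (hy.lt hx) hy (hy.sub hx)

theorem pt_app {β γ : Type} [Rp β] [Rp γ] {F : α → ℕ → γ} (hF : PTime fun q : α × ℕ => F q.1 q.2)
    {f : β → α} {x : β → ℕ} (hf : PTime f) (hx : PTime x) : PTime fun b => F (f b) (x b) :=
  hF.comp (hf.pair hx)

theorem pt_app2 {β γ : Type} [Rp β] [Rp γ] {F : α → ℕ → ℕ → γ}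
    (hF : PTime fun q : α × ℕ × ℕ => F q.1 q.2.1 q.2.2)
    {f : β → α} {x y : β → ℕ} (hf : PTime f) (hx : PTime x) (hy : PTime y) :
    PTime fun b => F (f b) (x b) (y b) :=
  hF.comp (hf.pair (hx.pair hy))

theorem pt_iter {p : α → ℕ → ℕ} (hp : PTime fun q : α × ℕ => p q.1 q.2) (hf : ∀ a, Fo (p a))
    {β : Type} [Rp β] {f : β → α} {t x : β → ℕ} (hf' : PTime f) (ht : PU t) (hx : PTime x) :
    PTime fun b => (p (f b))^[t b] (x b) :=
  PTime.iter (step := fun b k => p (f b) k) (pt_app hp (hf'.comp PTime.fst') PTime.snd') hx ht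
    hx.sz fun b k _ => sz_nat_mono ((hf (f b)).iterate_le k (x b))

end pt

/-- computable ancestor test -/
def an' (m : ℕ) (p : ℕ → ℕ) (c a : ℕ) : ℤ := if ∃ t < m, p^[t] a = c then 1 else 0

theorem an'_eq {m : ℕ} {p : ℕ → ℕ} (hp : Fo p) (c : ℕ) {a : ℕ} (ha : a < m) :
    an' m p c a = if anc p c a then 1 else 0 := by
  have : (∃ t < m, p^[t] a = c) ↔ anc p c a :=
    ⟨fun ⟨t, _, h⟩ => hp.anc_iff'.2 ⟨t, h⟩, fun ⟨t, h1, h⟩ => ⟨t, by omega, h⟩⟩
  simp only [an', this]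

/-- the basis from two forests -/
def mkB (n : ℕ) (p j : ℕ → ℕ) (T1 : ℕ → Bool) (lab1 : ℕ → ℕ) (u1 : ℕ → ℕ → Bool)
    (u2 : ℕ → ℕ → Bool) (cL eL : List ℕ) : Bas where
  nf := cL.length
  nt := eL.length
  zL := (List.range (cL.length * n)).map fun t =>
    zv n p (ph n p T1 u1 (cL.getD (t / n) 0)) (t % n)
  jeL := (List.range cL.length).map fun e => j (cL.getD e 0)
  anL := cL
  MfL := (List.range (cL.length * (2 * n))).map fun t =>
    iz (t % (2 * n)) (cL.getD (t / (2 * n)) 0) - ∑ i ∈ range eL.length,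
      (an' (2 * n) p (cL.getD (t / (2 * n)) 0) (eL.getD i 0) -
        an' (2 * n) p (cL.getD (t / (2 * n)) 0) (n + eL.getD i 0)) *
          mt p u2 (eL.getD i 0) (t % (2 * n))
  elL := eL
  MtL := (List.range (eL.length * (2 * n))).map fun t =>
    mt p u2 (eL.getD (t / (2 * n)) 0) (t % (2 * n))
  labL := (List.range (2 * n)).map fun a => lab1 (md n a)

theorem mkB_ok {n g J : ℕ} {p j : ℕ → ℕ} {T1 T2 : ℕ → Bool} {lab1 lab2 : ℕ → ℕ}
    {u1 u2 : ℕ → ℕ → Bool} (hp : Fo p) (hp2 : ∀ a, n ≤ a → n ≤ p a)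
    (hj : ∀ a < 2 * n, g ≤ j a ∧ j a ≤ J ∧ (p a = a → j a = g))
    (k1 : KF n (2 * n) (md n) (fun a => md n (p a)) j T1 lab1 u1)
    (k2 : KF (2 * n) n (rt (2 * n) p) (fun i => rt (2 * n) p (n + i)) (fun _ => 0) T2 lab2 u2) :
    (mkB n p j T1 lab1 u1 u2 ((List.range (2 * n)).filter fun c => !T1 c && !decide (p c = c))
      ((List.range n).filter T2)).OK n g J p j := by
  have en2 := en_filter n T2
  refine Hyp.ok (T1 := T1) (lab1 := lab1) (u1 := u1) (T2 := T2) (lab2 := lab2) (u2 := u2)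
    ⟨hp, hp2, hj, k1, k2, en_filter _ _, en2, fun e he => getD_rm _ he _, fun e he i hi => ?_,
      fun i hi a ha => ?_, fun e he a ha => ?_, fun a ha => getD_rm _ ha _⟩
  · rw [Bas.z, if_pos hi]
    exact getD_rm2 (fun e i => zv n p (ph n p T1 u1 (List.getD _ e 0)) i) he hi _
  · exact getD_rm2 (fun i a => mt p u2 (List.getD _ i 0) a) hi ha _
  · refine (getD_rm2 (fun e a => iz a (List.getD _ e 0) - ∑ i ∈ range _,
      (an' (2 * n) p (List.getD _ e 0) (List.getD _ i 0) -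
        an' (2 * n) p (List.getD _ e 0) (n + List.getD _ i 0)) *
          mt p u2 (List.getD _ i 0) a) he ha _).trans ?_
    refine congrArg _ (sum_congr rfl fun i hi => ?_)
    have h1 := (en2.mem i (mem_range.1 hi)).1
    rw [an'_eq hp _ (by omega), an'_eq hp _ (by omega), ← X_ev h1]
    rfl

section pt
variable {α : Type} [Rp α] {n : α → ℕ} {p j lab1 : α → ℕ → ℕ} {T1 : α → ℕ → Bool}
  {u1 u2 : α → ℕ → ℕ → Bool} {cL eL : α → List ℕ}

theorem pt_ph (hn : PU n) (hp : PTime fun q : α × ℕ => p q.1 q.2)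
    (hT : PTime fun q : α × ℕ => T1 q.1 q.2) (hu : PTime fun q : α × ℕ × ℕ => u1 q.1 q.2.1 q.2.2) :
    PTime fun q : α × ℕ × ℕ => ph (n q.1) (p q.1) (T1 q.1) (u1 q.1) q.2.1 q.2.2 := by
  have h0 : PTime fun q : α × ℕ × ℕ => n q.1 := hn.ptime.comp PTime.fst'
  have h1 : PTime fun q : α × ℕ × ℕ => q.2.1 := PTime.snd'.fst
  have h2 : PTime fun q : α × ℕ × ℕ => q.2.2 := PTime.snd'.snd
  exact (pt_iz h2 h1).isub (PTime.ite ((pt_app hT PTime.fst' h2).beq (PTime.const true))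
    ((pt_bz (pt_app2 hu PTime.fst' h2 (pt_md h0 h1))).isub
      (pt_bz (pt_app2 hu PTime.fst' h2 (pt_md h0 (pt_app hp PTime.fst' h1))))) (PTime.const _))

theorem pt_mt (hp : PTime fun q : α × ℕ => p q.1 q.2)
    (hu : PTime fun q : α × ℕ × ℕ => u2 q.1 q.2.1 q.2.2) :
    PTime fun q : α × ℕ × ℕ => mt (p q.1) (u2 q.1) q.2.1 q.2.2 := by
  have h2 : PTime fun q : α × ℕ × ℕ => q.2.2 := PTime.snd'.snd
  exact PTime.ite ((pt_app hp PTime.fst' h2).eq h2) (pt_bz hu) (PTime.const _)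

theorem pt_an' (hn : PU n) (hp : PTime fun q : α × ℕ => p q.1 q.2) (hf : ∀ a, Fo (p a)) :
    PTime fun q : α × ℕ × ℕ => an' (2 * n q.1) (p q.1) q.2.1 q.2.2 := by
  refine PTime.ite (PTime.exists_lt (c := fun (q : α × ℕ × ℕ) t => (p q.1)^[t] q.2.2 = q.2.1)
    ((PU.const 2).mul (hn.comp PTime.fst')) ?_) (PTime.const _) (PTime.const _)
  exact (pt_iter hp hf (β := (α × ℕ × ℕ) × Un) PTime.fst'.fst (PU.val PTime.snd')
    PTime.fst'.snd.snd).eq PTime.fst'.snd.fst

theorem pt_zv (hn : PU n) (hp : PTime fun q : α × ℕ => p q.1 q.2)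
    (hT : PTime fun q : α × ℕ => T1 q.1 q.2) (hu : PTime fun q : α × ℕ × ℕ => u1 q.1 q.2.1 q.2.2) :
    PTime fun q : α × ℕ × ℕ =>
      zv (n q.1) (p q.1) (ph (n q.1) (p q.1) (T1 q.1) (u1 q.1) q.2.1) q.2.2 := by
  refine PTime.isum_range (g := fun (q : α × ℕ × ℕ) a =>
    ph (n q.1) (p q.1) (T1 q.1) (u1 q.1) q.2.1 a *
      (iz (md (n q.1) a) q.2.2 - iz (md (n q.1) (p q.1 a)) q.2.2)) (hn.comp PTime.fst') ?_
  have h0 : PTime fun q : (α × ℕ × ℕ) × Un => q.1.1 := PTime.fst'.fst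
  have h1 : PTime fun q : (α × ℕ × ℕ) × Un => n q.1.1 := hn.ptime.comp h0
  have h2 : PTime fun q : (α × ℕ × ℕ) × Un => q.2.val := PTime.val PTime.snd'
  exact (pt_app2 (F := fun a => ph (n a) (p a) (T1 a) (u1 a)) (pt_ph hn hp hT hu) h0
    PTime.fst'.snd.fst h2).imul ((pt_iz (pt_md h1 h2) PTime.fst'.snd.snd).isub
      (pt_iz (pt_md h1 (pt_app hp h0 h2)) PTime.fst'.snd.snd))

theorem pt_mkB (hn : PU n) (hp : PTime fun q : α × ℕ => p q.1 q.2) (hf : ∀ a, Fo (p a))
    (hj : PTime fun q : α × ℕ => j q.1 q.2) (hT : PTime fun q : α × ℕ => T1 q.1 q.2)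
    (hl : PTime fun q : α × ℕ => lab1 q.1 q.2)
    (hu : PTime fun q : α × ℕ × ℕ => u1 q.1 q.2.1 q.2.2)
    (hu2 : PTime fun q : α × ℕ × ℕ => u2 q.1 q.2.1 q.2.2) (hc : PTime cL) (he : PTime eL) :
    PTime fun a => mkB (n a) (p a) (j a) (T1 a) (lab1 a) (u1 a) (u2 a) (cL a) (eL a) := by
  have hn2 : PU fun a => 2 * n a := (PU.const 2).mul hn
  have f0 : PTime fun q : α × Un => q.1 := PTime.fst'
  have f1 : PTime fun q : α × Un => q.2.val := PTime.val PTime.snd'
  have f2 : PTime fun q : α × Un => n q.1 := hn.ptime.comp f0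
  have f3 : PTime fun q : α × Un => 2 * n q.1 := hn2.ptime.comp f0
  have f4 : PTime fun q : α × Un => cL q.1 := hc.comp f0
  have f5 : PTime fun q : α × Un => eL q.1 := he.comp f0
  refine Bas.ptime_iff.2 ((PTime.unMk (lengthN hc)).pair ((PTime.unMk (lengthN he)).pair
    (PTime.pair ?_ (PTime.pair ?_ (hc.pair (PTime.pair ?_ (he.pair (PTime.pair ?_ ?_))))))))
  · exact rangeMapZ (g := fun a t => zv (n a) (p a) (ph (n a) (p a) (T1 a) (u1 a)
      ((cL a).getD (t / n a) 0)) (t % n a)) ((lengthN hc).mul hn)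
      (pt_app2 (F := fun a c i => zv (n a) (p a) (ph (n a) (p a) (T1 a) (u1 a) c) i)
        (pt_zv hn hp hT hu) f0 (getDN f4 (f1.div f2)) (f1.mod f2))
  · exact rangeMapN (g := fun a e => j a ((cL a).getD e 0)) (lengthN hc)
      (pt_app hj f0 (getDN f4 f1))
  · refine rangeMapZ (g := fun a t =>
      iz (t % (2 * n a)) ((cL a).getD (t / (2 * n a)) 0) - ∑ i ∈ range (eL a).length,
        (an' (2 * n a) (p a) ((cL a).getD (t / (2 * n a)) 0) ((eL a).getD i 0) -
          an' (2 * n a) (p a) ((cL a).getD (t / (2 * n a)) 0) (n a + (eL a).getD i 0)) *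
            mt (p a) (u2 a) ((eL a).getD i 0) (t % (2 * n a))) ((lengthN hc).mul hn2)
      ((pt_iz (f1.mod f3) (getDN f4 (f1.div f3))).isub ?_)
    refine PTime.isum_range (g := fun (q : α × Un) i =>
      (an' (2 * n q.1) (p q.1) ((cL q.1).getD (q.2.val / (2 * n q.1)) 0) ((eL q.1).getD i 0) -
        an' (2 * n q.1) (p q.1) ((cL q.1).getD (q.2.val / (2 * n q.1)) 0)
          (n q.1 + (eL q.1).getD i 0)) *
        mt (p q.1) (u2 q.1) ((eL q.1).getD i 0) (q.2.val % (2 * n q.1))) (lengthN f5) ?_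
    have g0 : PTime fun q : (α × Un) × Un => q.1.1 := PTime.fst'.fst
    have g1 : PTime fun q : (α × Un) × Un => (cL q.1.1).getD (q.1.2.val / (2 * n q.1.1)) 0 :=
      (getDN f4 (f1.div f3)).comp PTime.fst'
    have g2 : PTime fun q : (α × Un) × Un => (eL q.1.1).getD q.2.val 0 :=
      getDN (he.comp g0) (PTime.val PTime.snd')
    have g3 : PTime fun q : (α × Un) × Un => q.1.2.val % (2 * n q.1.1) :=
      (f1.mod f3).comp PTime.fst'
    exact ((pt_app2 (F := fun a => an' (2 * n a) (p a)) (pt_an' hn hp hf) g0 g1 g2).isub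
      (pt_app2 (F := fun a => an' (2 * n a) (p a)) (pt_an' hn hp hf) g0 g1
        ((hn.ptime.comp g0).add g2))).imul
      (pt_app2 (F := fun a => mt (p a) (u2 a)) (pt_mt hp hu2) g0 g2 g3)
  · exact rangeMapZ (g := fun a t => mt (p a) (u2 a) ((eL a).getD (t / (2 * n a)) 0)
      (t % (2 * n a))) ((lengthN he).mul hn2)
      (pt_app2 (F := fun a => mt (p a) (u2 a)) (pt_mt hp hu2) f0 (getDN f5 (f1.div f3))
        (f1.mod f3))
  · exact rangeMapN (g := fun a k => lab1 a (md (n a) k)) hn2 (pt_app hl f0 (pt_md f2 f1))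

end pt

/-- the truncated parent function -/
def qf (x : Un × Un × List ℕ × List ℕ × List ℕ) (k : ℕ) : ℕ :=
  min (pp x.1.val (pf x.2.2.1) (pf x.2.2.2.1) k) k

theorem fo_qf (x : Un × Un × List ℕ × List ℕ × List ℕ) : Fo (qf x) := fun _ => min_le_right _ _

theorem pt_qf : PTime fun q : (Un × Un × List ℕ × List ℕ × List ℕ) × ℕ => qf q.1 q.2 := by
  have h1 : PTime fun q : (Un × Un × List ℕ × List ℕ × List ℕ) × ℕ => q.1.2.2.1.length :=
    (lengthN PTime.fst'.snd.snd.fst).ptime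
  have h2 : PTime fun q : (Un × Un × List ℕ × List ℕ × List ℕ) × ℕ => q.1.2.2.2.1.length :=
    (lengthN PTime.fst'.snd.snd.snd.fst).ptime
  unfold qf pp pf
  fun_prop

end BX

open BX

/-- the arguments are `n`, `J`, the two parent lists and the list of the `2 n` scales -/
theorem exists_basis : ∃ bs : Un × Un × List ℕ × List ℕ × List ℕ → Bas, PTime bs ∧
    ∀ (n g J : ℕ) (l1 l2 jl : List ℕ), Fo (pf l1) → Fo (pf l2) →
      (∀ a < 2 * n, g ≤ jl.getD a 0 ∧ jl.getD a 0 ≤ J ∧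
        (pp n (pf l1) (pf l2) a = a → jl.getD a 0 = g)) →
      (bs (⟨n⟩, ⟨J⟩, l1, l2, jl)).OK n g J (pp n (pf l1) (pf l2)) fun a => jl.getD a 0 := by
  have hn : PU fun x : Un × Un × List ℕ × List ℕ × List ℕ => x.1.val := PU.val PTime.fst'
  have hn2 : PU fun x : Un × Un × List ℕ × List ℕ × List ℕ => 2 * x.1.val := (PU.const 2).mul hn
  have hJ : PU fun x : Un × Un × List ℕ × List ℕ × List ℕ => x.2.1.val := PU.val PTime.snd'.fst
  have f0 : PTime fun q : (Un × Un × List ℕ × List ℕ × List ℕ) × Un => q.1 := PTime.fst'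
  have f1 : PTime fun q : (Un × Un × List ℕ × List ℕ × List ℕ) × Un => q.2.val :=
    PTime.val PTime.snd'
  have f2 : PTime fun q : (Un × Un × List ℕ × List ℕ × List ℕ) × Un => q.1.1.val :=
    hn.ptime.comp f0
  have f3 : PTime fun q : (Un × Un × List ℕ × List ℕ × List ℕ) × Un => qf q.1 q.2.val :=
    pt_app pt_qf f0 f1
  obtain ⟨T1, lab1, u1, hT1, hl1, hu1, k1⟩ := exists_kf
    (s := fun x k => md x.1.val k) (d := fun x k => md x.1.val (qf x k))
    (τ := fun x k => x.2.2.2.2.getD k 0) hn hn2 hJ (pt_md f2 f1) (pt_md f2 f3)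
    (getDN f0.snd.snd.snd.snd f1)
  obtain ⟨T2, lab2, u2, hT2, hl2, hu2, k2⟩ := exists_kf
    (s := fun x k => rt (2 * x.1.val) (qf x) k)
    (d := fun x k => rt (2 * x.1.val) (qf x) (x.1.val + k))
    (τ := fun _ _ => 0) hn2 hn (PU.const 0) (pt_iter pt_qf fo_qf f0 (hn2.comp f0) f1)
    (pt_iter pt_qf fo_qf f0 (hn2.comp f0) (f2.add f1)) (PTime.const 0)
  refine ⟨fun x => mkB x.1.val (qf x) (fun k => x.2.2.2.2.getD k 0) (T1 x) (lab1 x) (u1 x) (u2 x)
    ((List.range (2 * x.1.val)).filter fun c => !T1 x c && !decide (qf x c = c))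
    ((List.range x.1.val).filter (T2 x)), ?_, fun n g J l1 l2 jl h1 h2 hj => ?_⟩
  · have c1 : PTime fun q : (Un × Un × List ℕ × List ℕ × List ℕ) × Un => T1 q.1 q.2.val :=
      pt_app hT1 f0 f1
    have c2 : PTime fun q : (Un × Un × List ℕ × List ℕ × List ℕ) × Un =>
        decide (qf q.1 q.2.val = q.2.val) := PTime.decide (f3.eq f1)
    have c3 : PTime fun x : Un × Un × List ℕ × List ℕ × List ℕ =>
        (List.range (2 * x.1.val)).filter fun c => !T1 x c && !decide (qf x c = c) :=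
      filterN (c := fun x c => !T1 x c && !decide (qf x c = c)) hn2 (c1.bnot.band c2.bnot)
    have c4 : PTime fun x : Un × Un × List ℕ × List ℕ × List ℕ =>
        (List.range x.1.val).filter (T2 x) := filterN hn (pt_app hT2 f0 f1)
    have c5 : PTime fun q : (Un × Un × List ℕ × List ℕ × List ℕ) × ℕ =>
        q.1.2.2.2.2.getD q.2 0 := getDN PTime.fst'.snd.snd.snd.snd PTime.snd'
    have c6 := pt_mkB (p := qf) (j := fun x k => x.2.2.2.2.getD k 0) (lab1 := lab1) (T1 := T1)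
      (u1 := u1) (u2 := u2) hn pt_qf fo_qf c5 hT1 hl1 hu1 hu2 c3 c4
    exact c6
  · have hp := fo_pp (n := n) h1 h2
    have e : qf (⟨n⟩, ⟨J⟩, l1, l2, jl) = pp n (pf l1) (pf l2) :=
      funext fun k => min_eq_left (hp k)
    have a1 := k1 (⟨n⟩, ⟨J⟩, l1, l2, jl) fun a ha =>
      ⟨md_lt ha, md_lt (lt_of_le_of_lt (fo_qf _ a) ha), (hj a ha).2.1⟩
    have a2 := k2 (⟨n⟩, ⟨J⟩, l1, l2, jl) fun i hi =>
      ⟨lt_of_le_of_lt (rt_le (fo_qf _) _) (by simp only at hi ⊢; omega),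
        lt_of_le_of_lt (rt_le (fo_qf _) _) (by simp only at hi ⊢; omega), le_rfl⟩
    simp only [e] at a1 a2 ⊢
    refine mkB_ok hp (fun a ha => ?_) hj a1 a2
    unfold pp
    split_ifs <;> omega

end Crest.Agent.R302
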