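import Crest.Agent.R302.Geo
import Crest.Agent.R309.Krus

/-! Row 302: spanning forests in abstract form and tree coordinates (for `Basis`). -/

set_option autoImplicit false

namespace Crest.Agent.R302.BX

open Crest.Agent.PT Crest.Agent.R309 Finset

/-- `0/1` value of a boolean -/
def bz (b : Bool) : ℤ := if b then 1 else 0

/-- `0/1` value of an equation -/
def iz (a b : ℕ) : ℤ := if a = b then 1 else 0

theorem bz_sub_le (b c : Bool) : |bz b - bz c| ≤ 1 := by
  cases b <;> cases c <;> simp [bz]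

theorem iz_sub_le (a b c d : ℕ) : |iz a b - iz c d| ≤ 1 := by
  unfold iz; split_ifs <;> simp

theorem sum_iz {G : Type} [AddCommGroup G] {m x : ℕ} (hx : x < m) (F : ℕ → G) :
    ∑ v ∈ range m, iz x v • F v = F x := by
  simp only [iz, ite_smul, one_smul, zero_smul, sum_ite_eq, mem_range, if_pos hx]

/-- a maximum spanning forest with labels and sides -/
structure KF (V E : ℕ) (s d τ : ℕ → ℕ) (T : ℕ → Bool) (lab : ℕ → ℕ) (u : ℕ → ℕ → Bool) : Prop where
  wf : ∀ e < E, s e < V ∧ d e < V
  K : ∀ e < E, lab (s e) = lab (d e)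
  lab_lt : ∀ w < V, lab w < V
  u_src : ∀ f < E, T f = true → u f (s f) = true
  u_dst : ∀ f < E, T f = true → u f (d f) = false
  u_K : ∀ f < E, T f = true → ∀ w < V, u f w = true → lab w = lab (s f)
  u_tr : ∀ f < E, T f = true → ∀ e < E, T e = true → e ≠ f → u f (s e) = u f (d e)
  u_τ : ∀ f < E, T f = true → ∀ e < E, u f (s e) ≠ u f (d e) → τ e ≤ τ f
  span : ∀ r : ℕ → ℤ, (∀ K < V, ∑ w ∈ range V, r w * iz (lab w) K = 0) →
    (∀ f < E, T f = true → ∑ w ∈ range V, r w * bz (u f w) = 0) → ∀ w < V, r w = 0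

section path
variable {V E : ℕ} {s d τ : ℕ → ℕ} {T : ℕ → Bool} {lab : ℕ → ℕ} {u : ℕ → ℕ → Bool}

theorem KF.pair (h : KF V E s d τ T lab u) {w w' : ℕ} (hw : w < V) (hw' : w' < V) (c : ℕ → ℤ)
    {G : Type} [AddCommGroup G] (F : ℕ → G) :
    ∑ v ∈ range V, (iz w v - iz w' v - ∑ f ∈ range E, c f * (iz (s f) v - iz (d f) v)) • F v =
      F w - F w' - ∑ f ∈ range E, c f • (F (s f) - F (d f)) := by
  simp only [sub_smul, sum_sub_distrib, Finset.sum_smul]
  rw [sum_iz hw, sum_iz hw', sum_comm]
  congr 1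
  refine sum_congr rfl fun f hf => ?_
  obtain ⟨h1, h2⟩ := h.wf f (mem_range.1 hf)
  simp only [mul_smul, ← Finset.smul_sum, sub_smul, sum_sub_distrib]
  rw [sum_iz h1, sum_iz h2]

/-- the tree path between two vertices with the same label -/
theorem KF.path (h : KF V E s d τ T lab u) {w w' : ℕ} (hw : w < V) (hw' : w' < V)
    (hl : lab w = lab w') {G : Type} [AddCommGroup G] (F : ℕ → G) :
    F w - F w' = ∑ f ∈ range E,
      (if T f = true then bz (u f w) - bz (u f w') else 0) • (F (s f) - F (d f)) := by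
  set c : ℕ → ℤ := fun f => if T f = true then bz (u f w) - bz (u f w') else 0 with hc
  have h0 := h.span
    (fun v => iz w v - iz w' v - ∑ f ∈ range E, c f * (iz (s f) v - iz (d f) v)) ?_ ?_
  · have h1 := h.pair hw hw' c F
    rw [sum_eq_zero fun v hv => by rw [h0 v (mem_range.1 hv), zero_smul]] at h1
    exact sub_eq_zero.1 h1.symm
  · intro K _
    have h1 := h.pair hw hw' c fun v => iz (lab v) K
    simp only [smul_eq_mul] at h1
    rw [h1, hl, sub_self, sum_eq_zero, sub_zero]
    intro f hf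
    rw [h.K f (mem_range.1 hf), sub_self, mul_zero]
  · intro f0 hf0 hT
    have h1 := h.pair hw hw' c fun v => bz (u f0 v)
    simp only [smul_eq_mul] at h1
    rw [h1, sum_eq_single f0]
    · rw [h.u_src f0 hf0 hT, h.u_dst f0 hf0 hT, hc]
      simp [hT, bz]
    · intro f hf hne
      by_cases hTf : T f = true
      · rw [h.u_tr f0 hf0 hT f (mem_range.1 hf) hTf hne, sub_self, mul_zero]
      · simp [hc, hTf]
    · intro hf
      exact absurd (mem_range.2 hf0) hf

theorem KF.ne (h : KF V E s d τ T lab u) {f : ℕ} (hf : f < E) (hT : T f = true) : s f ≠ d f := by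
  intro he
  have h1 := h.u_src f hf hT
  rw [he, h.u_dst f hf hT] at h1
  exact Bool.false_ne_true h1

end path

/-- `f` enumerates the `x < m` with `c x` -/
structure En (m : ℕ) (c : ℕ → Bool) (k : ℕ) (f : ℕ → ℕ) : Prop where
  le : k ≤ m
  mem : ∀ i < k, f i < m ∧ c (f i) = true
  inj : ∀ i < k, ∀ i' < k, f i = f i' → i = i'
  surj : ∀ x < m, c x = true → ∃ i < k, f i = x

theorem En.sum {m k : ℕ} {c : ℕ → Bool} {f : ℕ → ℕ} (h : En m c k f) {G : Type} [AddCommGroup G]
    (F : ℕ → G) : ∑ i ∈ range k, F (f i) = ∑ x ∈ range m, if c x = true then F x else 0 := by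
  rw [← sum_filter]
  refine sum_bij (fun i _ => f i) ?_ ?_ ?_ fun _ _ => rfl
  · intro i hi
    obtain ⟨h1, h2⟩ := h.mem i (mem_range.1 hi)
    exact mem_filter.2 ⟨mem_range.2 h1, h2⟩
  · intro i hi i' hi' he
    exact h.inj i (mem_range.1 hi) i' (mem_range.1 hi') he
  · intro x hx
    obtain ⟨h1, h2⟩ := mem_filter.1 hx
    obtain ⟨i, hi, rfl⟩ := h.surj x (mem_range.1 h1) h2
    exact ⟨i, mem_range.2 hi, rfl⟩

theorem en_filter (m : ℕ) (c : ℕ → Bool) :
    En m c ((List.range m).filter c).length fun i => ((List.range m).filter c).getD i 0 := by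
  have hnd : ((List.range m).filter c).Nodup := List.nodup_range.filter _
  refine ⟨?_, ?_, ?_, ?_⟩
  · exact (List.length_filter_le _ _).trans List.length_range.le
  · intro i hi
    have := List.getElem_mem hi
    rw [List.mem_filter, List.mem_range] at this
    rw [List.getD_eq_getElem _ _ hi]
    exact this
  · intro i hi i' hi' he
    rw [List.getD_eq_getElem _ _ hi, List.getD_eq_getElem _ _ hi'] at he
    exact (hnd.getElem_inj_iff).1 he
  · intro x hx hc
    have : x ∈ (List.range m).filter c := List.mem_filter.2 ⟨List.mem_range.2 hx, hc⟩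
    obtain ⟨i, hi, rfl⟩ := List.getElem_of_mem this
    exact ⟨i, hi, List.getD_eq_getElem _ _ hi⟩

/-- the element of a port -/
def md (n a : ℕ) : ℕ := if a < n then a else a - n

theorem md_lt {n a : ℕ} (h : a < 2 * n) : md n a < n := by unfold md; split_ifs <;> omega
theorem md_left {n a : ℕ} (h : a < n) : md n a = a := if_pos h
theorem md_right (n a : ℕ) : md n (n + a) = a := by unfold md; split_ifs <;> omega

/-- the root above `a` -/
def rt (m : ℕ) (p : ℕ → ℕ) (a : ℕ) : ℕ := p^[m] a

section rt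
variable {m : ℕ} {p : ℕ → ℕ}

theorem rt_spec (hp : Fo p) {a : ℕ} (ha : a ≤ m) : p (rt m p a) = rt m p a ∧ anc p (rt m p a) a ∧
    ∀ r, p r = r → anc p r a → r = rt m p a := by
  obtain ⟨r, h1, h2, h3⟩ := hp.exists_root a
  have : rt m p a = r := by
    obtain ⟨t, ht, h4⟩ := h2
    obtain ⟨k, rfl⟩ : ∃ k, m = k + t := ⟨m - t, by omega⟩
    rw [rt, Function.iterate_add_apply, h4, Function.iterate_fixed h1]
  rw [this]
  exact ⟨h1, h2, h3⟩

theorem rt_le (hp : Fo p) (a : ℕ) : rt m p a ≤ a := hp.iterate_le m a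

theorem rt_root {a : ℕ} (h : p a = a) : rt m p a = a := Function.iterate_fixed h m

theorem rt_p (hp : Fo p) {a : ℕ} (ha : a ≤ m) : rt m p (p a) = rt m p a := by
  have h1 := (rt_spec hp ha).1
  rw [rt, ← Function.iterate_succ_apply, Function.iterate_succ_apply']
  exact h1

end rt

/-- tree coordinates -/
def X (n : ℕ) (p : ℕ → ℕ) (a : ℕ) (x : Vec) : ℤ := sm (sub (2 * n) p a) (dg n x)

section X
variable {n : ℕ} {p : ℕ → ℕ}

theorem dg_expand (hp : Fo p) (x : Vec) : dg n x = ∑ a ∈ range (2 * n), X n p a x • bb p a :=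
  hp.expand fun i hi => by rw [dg, if_neg (by omega), if_neg (by omega)]

theorem X_sub (a : ℕ) (x y : Vec) : X n p a (x - y) = X n p a x - X n p a y := by
  rw [X, dg_sub, sm_sub]; rfl

theorem X_ev {k : ℕ} (hk : k < n) (a : ℕ) :
    X n p a (ev k) = (if anc p a k then 1 else 0) - if anc p a (n + k) then 1 else 0 := by
  rw [X, dg_ev hk, sm_sub, sm_ev, sm_ev]
  simp only [mem_sub, show k < 2 * n by omega, show n + k < 2 * n by omega, true_and]

theorem X_ev_le {k : ℕ} (hk : k < n) (a : ℕ) : |X n p a (ev k)| ≤ 1 := by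
  rw [X_ev hk]; split_ifs <;> simp

theorem X_pt (b : Bas) (γ θ : ℕ → ℤ) (a : ℕ) : X n p a (b.pt n γ θ) =
    ∑ e ∈ range b.nf, γ e * X n p a (b.z n e) + ∑ i ∈ range b.nt, θ i * X n p a (ev (b.el i)) := by
  simp only [X, Bas.pt, dg_add, dg_sum, dg_smul, sm_add, sm_sum, sm_smul]

theorem bb_pair (hp : Fo p) {m a : ℕ} (ha : a < m) (F : ℕ → ℤ) :
    ∑ i ∈ range m, bb p a i * F i = F a - if p a = a then 0 else F (p a) := by
  have hpa : p a < m := lt_of_le_of_lt (hp a) ha
  unfold bb
  split_ifs with h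
  · simp [ev_apply, ha]
  · simp [ev_apply, sub_mul, sum_sub_distrib, ha, hpa]

/-- pairing of `dg x` with a function on the ports -/
theorem key (hp : Fo p) (x : Vec) (F : ℕ → ℤ) :
    ∑ k ∈ range n, x k * (F k - F (n + k)) =
      ∑ a ∈ range (2 * n), X n p a x * (F a - if p a = a then 0 else F (p a)) := by
  have h1 : ∑ i ∈ range (2 * n), dg n x i * F i = ∑ k ∈ range n, x k * (F k - F (n + k)) := by
    rw [two_mul, sum_range_add, ← sum_add_distrib]
    refine sum_congr rfl fun k hk => ?_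
    have := mem_range.1 hk
    rw [dg, dg, if_pos this, if_neg (by omega), if_pos (by omega), Nat.add_sub_cancel_left]
    ring
  rw [← h1, dg_expand hp x]
  simp only [Finset.sum_apply, Pi.smul_apply, smul_eq_mul, sum_mul]
  rw [sum_comm]
  refine sum_congr rfl fun a ha => ?_
  rw [← bb_pair hp (mem_range.1 ha) F, mul_sum]
  exact sum_congr rfl fun i _ => mul_assoc _ _ _

/-- pairing with a function of the root -/
theorem key_rt (hp : Fo p) (x : Vec) (F : ℕ → ℤ) :
    ∑ k ∈ range n, x k * (F (rt (2 * n) p k) - F (rt (2 * n) p (n + k))) =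
      ∑ a ∈ range (2 * n), (if p a = a then X n p a x else 0) * F a := by
  rw [key hp x fun a => F (rt (2 * n) p a)]
  refine sum_congr rfl fun a ha => ?_
  have := mem_range.1 ha
  split_ifs with h
  · rw [rt_root h, sub_zero]
  · rw [rt_p hp this.le, sub_self, mul_zero, zero_mul]

/-- pairing with a function of the element -/
theorem key_md (hp : Fo p) (x : Vec) (F : ℕ → ℤ) :
    ∑ a ∈ range (2 * n), X n p a x * (F (md n a) - if p a = a then 0 else F (md n (p a))) = 0 := by
  rw [← key hp x fun a => F (md n a)]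
  refine sum_eq_zero fun k hk => ?_
  rw [md_left (mem_range.1 hk), md_right, sub_self, mul_zero]

/-- the vector of a cycle -/
def zv (n : ℕ) (p : ℕ → ℕ) (φ : ℕ → ℤ) (i : ℕ) : ℤ :=
  ∑ a ∈ range n, φ a * (iz (md n a) i - iz (md n (p a)) i)

theorem zv_le {φ : ℕ → ℤ} (hφ : ∀ a, |φ a| ≤ 1) (i : ℕ) : |zv n p φ i| ≤ n := by
  unfold zv
  refine (abs_sum_le_sum_abs _ _).trans ?_
  calc _ ≤ ∑ a ∈ range n, (1 : ℤ) := by
        refine sum_le_sum fun a _ => ?_
        rw [abs_mul]
        exact mul_le_one₀ (hφ a) (abs_nonneg _) (iz_sub_le _ _ _ _)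
    _ = n := by simp

theorem X_cycle (hp : Fo p) (hp2 : ∀ a, n ≤ a → n ≤ p a) {φ : ℕ → ℤ}
    (h0 : ∀ a < 2 * n, p a = a → φ a = 0)
    (h1 : ∀ i, ∑ a ∈ range (2 * n), φ a * (iz (md n a) i - iz (md n (p a)) i) = 0)
    {z : Vec} (hz : ∀ i < n, z i = zv n p φ i) {a : ℕ} (ha : a < 2 * n) : X n p a z = φ a := by
  have h2 : dg n z = ∑ c ∈ range (2 * n), φ c • bb p c := by
    funext i
    have h3 : ∀ c ∈ range (2 * n), (φ c • bb p c) i = φ c * (iz c i - iz (p c) i) := by
      intro c hc
      by_cases h : p c = c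
      · simp [h0 c (mem_range.1 hc) h]
      · rw [bb, if_neg h]
        simp only [Pi.smul_apply, Pi.sub_apply, ev_apply, smul_eq_mul, iz, eq_comm]
    rw [Finset.sum_apply, sum_congr rfl h3, two_mul, sum_range_add]
    have h4 := h1 (i - n)
    rw [two_mul, sum_range_add] at h4
    by_cases hi : i < n
    · rw [dg, if_pos hi, hz i hi, zv, sum_eq_zero (s := range n) (f := fun c =>
        φ (n + c) * (iz (n + c) i - iz (p (n + c)) i)), add_zero]
      · refine sum_congr rfl fun c hc => ?_
        have h5 := mem_range.1 hc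
        rw [md_left h5, md_left (lt_of_le_of_lt (hp c) h5)]
      · intro c _
        have h5 := hp2 (n + c) (by omega)
        rw [iz, iz, if_neg (by omega), if_neg (by omega), sub_self, mul_zero]
    · have h6 : ∑ c ∈ range n, φ c * (iz c i - iz (p c) i) = 0 := by
        refine sum_eq_zero fun c hc => ?_
        have h5 := mem_range.1 hc
        have h7 := hp c
        rw [iz, iz, if_neg (by omega), if_neg (by omega), sub_self, mul_zero]
      rw [h6, zero_add, dg, if_neg hi]
      by_cases hi2 : i < 2 * n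
      · rw [if_pos hi2, hz _ (by omega), zv]
        have h8 : ∑ c ∈ range n, φ (n + c) * (iz (n + c) i - iz (p (n + c)) i) =
            ∑ c ∈ range n, φ (n + c) * (iz (md n (n + c)) (i - n) -
              iz (md n (p (n + c))) (i - n)) := by
          refine sum_congr rfl fun c hc => ?_
          have h5 := hp2 (n + c) (by omega)
          have e1 : (n + c = i) ↔ (c = i - n) := by omega
          have e2 : (p (n + c) = i) ↔ (p (n + c) - n = i - n) := by omega
          rw [md_right, md, if_neg (by omega)]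
          simp only [iz, e1, e2]
        rw [h8]
        linarith
      · rw [if_neg hi2]
        refine (sum_eq_zero fun c hc => ?_).symm
        have h5 := mem_range.1 hc
        have h7 := hp (n + c)
        rw [iz, iz, if_neg (by omega), if_neg (by omega), sub_self, mul_zero]
  rw [X, h2, sm_sum, sum_eq_single a]
  · rw [sm_smul, hp.sm_sub_bb ha, if_pos rfl, mul_one]
  · intro c hc hne
    rw [sm_smul, hp.sm_sub_bb (mem_range.1 hc), if_neg (Ne.symm hne), mul_zero]
  · intro h
    exact absurd (mem_range.2 ha) h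

/-- the path from `a` to its root -/
def al (p : ℕ → ℕ) (c a : ℕ) : ℤ := if anc p c a ∧ p c ≠ c then 1 else 0

theorem al_sub_le (c a a' : ℕ) : |al p c a - al p c a'| ≤ 1 := by
  unfold al; split_ifs <;> simp

theorem al_root {c : ℕ} (h : p c = c) (a : ℕ) : al p c a = 0 := if_neg fun h' => h'.2 h

theorem ev_sub_rt (hp : Fo p) {m a : ℕ} (ha : a < m) :
    ev a - ev (rt m p a) = ∑ c ∈ range m, al p c a • bb p c := by
  obtain ⟨h1, h2, h3⟩ := rt_spec hp ha.le
  have h4 : rt m p a < m := lt_of_le_of_lt (rt_le hp a) ha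
  rw [sub_eq_iff_eq_add, hp.ev_eq ha, sum_filter, ← sum_iz h4 ev, ← sum_add_distrib]
  refine sum_congr rfl fun c _ => ?_
  by_cases hc : rt m p a = c
  · subst hc
    rw [if_pos h2, al_root h1, iz, if_pos rfl, bb, if_pos h1]
    simp
  · rw [iz, if_neg hc, zero_smul, add_zero, al]
    by_cases h5 : anc p c a
    · have h6 : p c ≠ c := fun h => hc (h3 c h h5).symm
      rw [if_pos h5, if_pos ⟨h5, h6⟩, one_smul]
    · rw [if_neg h5, if_neg fun h => h5 h.1, zero_smul]

end X

end Crest.Agent.R302.BX
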