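import Crest.Agent.R302.BasisA

/-! Row 302: the adapted basis from two spanning forests. -/

set_option autoImplicit false

namespace Crest.Agent.R302.BX

open Crest.Agent.PT Crest.Agent.R309 Finset

/-- the coefficients of the cycle of the port `c` -/
def ph (n : ℕ) (p : ℕ → ℕ) (T : ℕ → Bool) (u : ℕ → ℕ → Bool) (c a : ℕ) : ℤ :=
  iz a c - if T a = true then bz (u a (md n c)) - bz (u a (md n (p c))) else 0

/-- the functional reading the coefficient of the element `f` -/
def mt (p : ℕ → ℕ) (u : ℕ → ℕ → Bool) (f a : ℕ) : ℤ := if p a = a then bz (u f a) else 0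

/-- a linear functional -/
def LL (n : ℕ) (p : ℕ → ℕ) (M : ℕ → ℤ) (x : Vec) : ℤ := ∑ a ∈ range (2 * n), M a * X n p a x

section
variable {n : ℕ} {p : ℕ → ℕ}

theorem LL_sub (M : ℕ → ℤ) (x y : Vec) : LL n p M (x - y) = LL n p M x - LL n p M y := by
  simp only [LL, X_sub, mul_sub, sum_sub_distrib]

theorem LL_pt (M : ℕ → ℤ) (b : Bas) (γ θ : ℕ → ℤ) : LL n p M (b.pt n γ θ) =
    ∑ e ∈ range b.nf, γ e * LL n p M (b.z n e) +
      ∑ i ∈ range b.nt, θ i * LL n p M (ev (b.el i)) := by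
  simp only [LL, X_pt, mul_add, sum_add_distrib, mul_sum]
  congr 1
  · rw [sum_comm]
    exact sum_congr rfl fun e _ => sum_congr rfl fun a _ => by ring
  · rw [sum_comm]
    exact sum_congr rfl fun e _ => sum_congr rfl fun a _ => by ring

end

/-- all the data -/
structure Hyp (n g J : ℕ) (p j : ℕ → ℕ) (T1 : ℕ → Bool) (lab1 : ℕ → ℕ) (u1 : ℕ → ℕ → Bool)
    (T2 : ℕ → Bool) (lab2 : ℕ → ℕ) (u2 : ℕ → ℕ → Bool) (b : Bas) : Prop where
  hp : Fo p
  hp2 : ∀ a, n ≤ a → n ≤ p a
  hj : ∀ a < 2 * n, g ≤ j a ∧ j a ≤ J ∧ (p a = a → j a = g)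
  k1 : KF n (2 * n) (md n) (fun a => md n (p a)) j T1 lab1 u1
  k2 : KF (2 * n) n (rt (2 * n) p) (fun i => rt (2 * n) p (n + i)) (fun _ => 0) T2 lab2 u2
  en1 : En (2 * n) (fun c => !T1 c && !decide (p c = c)) b.nf b.an
  en2 : En n T2 b.nt b.el
  je : ∀ e < b.nf, b.je e = j (b.an e)
  z : ∀ e < b.nf, ∀ i < n, b.z n e i = zv n p (ph n p T1 u1 (b.an e)) i
  Mt : ∀ i < b.nt, ∀ a < 2 * n, b.Mt n i a = mt p u2 (b.el i) a
  Mf : ∀ e < b.nf, ∀ a < 2 * n, b.Mf n e a =
    iz a (b.an e) - ∑ i ∈ range b.nt, X n p (b.an e) (ev (b.el i)) * mt p u2 (b.el i) a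
  lab : ∀ a < 2 * n, b.lab a = lab1 (md n a)

namespace Hyp

variable {n g J : ℕ} {p j : ℕ → ℕ} {T1 T2 : ℕ → Bool} {lab1 lab2 : ℕ → ℕ} {u1 u2 : ℕ → ℕ → Bool}
  {b : Bas} (h : Hyp n g J p j T1 lab1 u1 T2 lab2 u2 b)
include h

theorem an_spec {e : ℕ} (he : e < b.nf) :
    b.an e < 2 * n ∧ T1 (b.an e) = false ∧ p (b.an e) ≠ b.an e := by
  obtain ⟨h1, h2⟩ := h.en1.mem e he
  simp only [Bool.and_eq_true, Bool.not_eq_true', decide_eq_false_iff_not] at h2
  exact ⟨h1, h2.1, h2.2⟩

theorem T1_ne {a : ℕ} (ha : a < 2 * n) (hT : T1 a = true) : p a ≠ a := fun he =>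
  h.k1.ne ha hT (by simp only [he])

theorem ph_le {e : ℕ} (he : e < b.nf) (a : ℕ) : |ph n p T1 u1 (b.an e) a| ≤ 1 := by
  obtain ⟨-, h2, -⟩ := h.an_spec he
  unfold ph
  by_cases hT : T1 a = true
  · have : a ≠ b.an e := fun h => by rw [h, h2] at hT; exact Bool.false_ne_true hT
    rw [if_pos hT, iz, if_neg this, zero_sub, abs_neg]
    exact bz_sub_le _ _
  · rw [if_neg hT, sub_zero, iz]
    split_ifs <;> simp

theorem ph_root {e : ℕ} (he : e < b.nf) {a : ℕ} (ha : a < 2 * n) (hr : p a = a) :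
    ph n p T1 u1 (b.an e) a = 0 := by
  obtain ⟨-, -, h3⟩ := h.an_spec he
  have h4 : a ≠ b.an e := fun h => h3 (h ▸ hr)
  rw [ph, iz, if_neg h4, if_neg fun hT => h.T1_ne ha hT hr, sub_self]

theorem X_z {e : ℕ} (he : e < b.nf) {a : ℕ} (ha : a < 2 * n) :
    X n p a (b.z n e) = ph n p T1 u1 (b.an e) a := by
  obtain ⟨h1, -, -⟩ := h.an_spec he
  refine X_cycle h.hp h.hp2 (fun c hc hr => h.ph_root he hc hr) (fun i => ?_) (h.z e he) ha
  have h2 := h.k1.path (h.k1.wf _ h1).1 (h.k1.wf _ h1).2 (h.k1.K _ h1) fun v => iz v i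
  have h3 := sum_iz h1 fun c => iz (md n c) i - iz (md n (p c)) i
  simp only [smul_eq_mul] at h2 h3
  simp only [ph, sub_mul (iz _ _), sum_sub_distrib]
  rw [← h2, ← h3, sub_eq_zero]
  refine sum_congr rfl fun c _ => ?_
  simp only [iz, eq_comm]

theorem X_z_an {e e' : ℕ} (he : e < b.nf) (he' : e' < b.nf) :
    X n p (b.an e) (b.z n e') = if e' = e then 1 else 0 := by
  obtain ⟨h1, h2, -⟩ := h.an_spec he
  rw [h.X_z he' h1, ph, h2, if_neg Bool.false_ne_true, sub_zero, iz]
  by_cases hee : e' = e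
  · rw [if_pos hee, if_pos (by rw [hee])]
  · rw [if_neg hee, if_neg fun h3 => hee (h.en1.inj e he e' he' h3).symm]

theorem LL_Mt {i : ℕ} (hi : i < b.nt) (x : Vec) : LL n p (b.Mt n i) x =
    ∑ a ∈ range (2 * n), (if p a = a then X n p a x else 0) * bz (u2 (b.el i) a) := by
  refine sum_congr rfl fun a ha => ?_
  rw [h.Mt i hi a (mem_range.1 ha), mt]
  split_ifs
  · ring
  · ring

theorem LL_Mt_z {i e : ℕ} (hi : i < b.nt) (he : e < b.nf) : LL n p (b.Mt n i) (b.z n e) = 0 := by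
  rw [h.LL_Mt hi]
  refine sum_eq_zero fun a ha => ?_
  split_ifs with hr
  · rw [h.X_z he (mem_range.1 ha), h.ph_root he (mem_range.1 ha) hr, zero_mul]
  · rw [zero_mul]

theorem LL_Mt_ev {i i' : ℕ} (hi : i < b.nt) (hi' : i' < b.nt) :
    LL n p (b.Mt n i) (ev (b.el i')) = if i' = i then 1 else 0 := by
  obtain ⟨h1, h2⟩ := h.en2.mem i hi
  obtain ⟨h3, h4⟩ := h.en2.mem i' hi'
  rw [h.LL_Mt hi, ← key_rt h.hp _ fun a => bz (u2 (b.el i) a), sum_eq_single (b.el i')]
  · rw [ev_apply, if_pos rfl, one_mul]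
    by_cases hii : i' = i
    · have h5 := h.k2.u_dst _ h1 h2
      rw [if_pos hii, hii, h.k2.u_src _ h1 h2, h5]
      simp [bz]
    · have h5 := h.k2.u_tr _ h1 h2 _ h3 h4 fun h6 => hii (h.en2.inj i' hi' i hi h6)
      rw [if_neg hii, h5, sub_self]
  · intro k _ hk
    rw [ev_apply, if_neg hk, zero_mul]
  · intro h5
    exact absurd (mem_range.2 h3) h5

theorem uniqt (γ θ : ℕ → ℤ) {i : ℕ} (hi : i < b.nt) : LL n p (b.Mt n i) (b.pt n γ θ) = θ i := by
  rw [LL_pt, sum_eq_zero fun e he => by rw [h.LL_Mt_z hi (mem_range.1 he), mul_zero], zero_add,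
    sum_congr rfl fun i' hi' => by rw [h.LL_Mt_ev hi (mem_range.1 hi')]]
  simp [hi]

theorem LL_Mf {e : ℕ} (he : e < b.nf) (x : Vec) : LL n p (b.Mf n e) x =
    X n p (b.an e) x -
      ∑ i ∈ range b.nt, X n p (b.an e) (ev (b.el i)) * LL n p (b.Mt n i) x := by
  obtain ⟨h1, -, -⟩ := h.an_spec he
  have h2 := sum_iz h1 fun a => X n p a x
  simp only [smul_eq_mul] at h2
  rw [← h2]
  simp only [LL, mul_sum]
  rw [sum_comm, ← sum_sub_distrib]
  refine sum_congr rfl fun a ha => ?_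
  rw [h.Mf e he a (mem_range.1 ha), sub_mul, sum_mul]
  congr 1
  · simp only [iz, eq_comm]
  · refine sum_congr rfl fun i hi => ?_
    rw [h.Mt i (mem_range.1 hi) a (mem_range.1 ha), mul_assoc]

theorem uniqf (γ θ : ℕ → ℤ) {e : ℕ} (he : e < b.nf) : LL n p (b.Mf n e) (b.pt n γ θ) = γ e := by
  rw [h.LL_Mf he, X_pt, sum_congr rfl fun e' he' => by rw [h.X_z_an he (mem_range.1 he')],
    sum_congr rfl (s₁ := range b.nt) (f := fun i => X n p (b.an e) (ev (b.el i)) *
      LL n p (b.Mt n i) (b.pt n γ θ)) (g := fun i => θ i * X n p (b.an e) (ev (b.el i)))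
      fun i hi => by rw [h.uniqt γ θ (mem_range.1 hi), mul_comm]]
  simp [he]

/-- a vector with vanishing coordinates vanishes -/
theorem zero {y : Vec} (h1 : ∀ i < b.nt, LL n p (b.Mt n i) y = 0)
    (h2 : ∀ e < b.nf, LL n p (b.Mf n e) y = 0) {i : ℕ} (hi : i < n) : y i = 0 := by
  have h3 : ∀ a < 2 * n, T1 a = false → p a ≠ a → X n p a y = 0 := by
    intro a ha hT hr
    obtain ⟨e, he, rfl⟩ := h.en1.surj a ha (by simp [hT, hr])
    have h4 := h2 e he
    rwa [h.LL_Mf he, sum_eq_zero fun i hi => by rw [h1 i (mem_range.1 hi), mul_zero],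
      sub_zero] at h4
  have h4 : ∀ a < 2 * n, p a = a → X n p a y = 0 := by
    intro a ha hr
    have h5 := h.k2.span (fun a => if p a = a then X n p a y else 0) ?_ ?_ a ha
    · simpa only [if_pos hr] using h5
    · intro K _
      rw [← key_rt h.hp y fun a => iz (lab2 a) K]
      refine sum_eq_zero fun k hk => ?_
      have h6 := h.k2.K k (mem_range.1 hk)
      rw [h6, sub_self, mul_zero]
    · intro f hf hT
      obtain ⟨i, hi, rfl⟩ := h.en2.surj f hf hT
      rw [← h.LL_Mt hi]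
      exact h1 i hi
  have h5 : ∀ a < 2 * n, X n p a y = 0 := by
    intro f hf
    by_cases hT : T1 f = true
    · have h6 := key_md (n := n) h.hp y fun v => bz (u1 f v)
      rw [sum_eq_single f] at h6
      · have h7 := h.k1.u_dst f hf hT
        rw [if_neg (h.T1_ne hf hT), h.k1.u_src f hf hT, h7] at h6
        simpa [bz] using h6
      · intro a ha hne
        have ha' := mem_range.1 ha
        by_cases hr : p a = a
        · rw [h4 a ha' hr, zero_mul]
        · by_cases hTa : T1 a = true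
          · have h7 := h.k1.u_tr f hf hT a ha' hTa hne
            rw [if_neg hr, h7, sub_self, mul_zero]
          · rw [h3 a ha' (by simpa using hTa) hr, zero_mul]
      · intro h7
        exact absurd (mem_range.2 hf) h7
    · by_cases hr : p f = f
      · exact h4 f hf hr
      · exact h3 f hf (by simpa using hT) hr
  have h6 := congrFun (dg_expand (n := n) h.hp y) i
  rw [sum_eq_zero fun a ha => by rw [h5 a (mem_range.1 ha), zero_smul], dg, if_pos hi] at h6
  exact h6

theorem coord (x : Vec) (hx : ∀ i, n ≤ i → x i = 0) :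
    x = b.pt n (fun e => LL n p (b.Mf n e) x) (fun i => LL n p (b.Mt n i) x) := by
  funext i
  by_cases hi : i < n
  · rw [← sub_eq_zero]
    refine h.zero (y := x - b.pt n (fun e => LL n p (b.Mf n e) x) (fun i => LL n p (b.Mt n i) x))
      (fun i hi => ?_) (fun e he => ?_) hi
    · rw [LL_sub, h.uniqt _ _ hi, sub_self]
    · rw [LL_sub, h.uniqf _ _ he, sub_self]
  · rw [hx i (by omega), Bas.pt, Pi.add_apply, Finset.sum_apply, Finset.sum_apply, sum_eq_zero,
      sum_eq_zero, add_zero]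
    · intro k hk
      have := (h.en2.mem k (mem_range.1 hk)).1
      rw [Pi.smul_apply, ev_apply, if_neg (by omega), smul_zero]
    · intro e _
      rw [Pi.smul_apply, Bas.z, if_neg hi, smul_zero]

theorem lab2_md {a : ℕ} (ha : a < 2 * n) :
    lab2 (rt (2 * n) p (md n a)) = lab2 (rt (2 * n) p a) := by
  by_cases h1 : a < n
  · rw [md_left h1]
  · obtain ⟨k, rfl⟩ : ∃ k, a = n + k := ⟨a - n, by omega⟩
    rw [md_right]
    exact h.k2.K k (by omega)

theorem lab2_eq {a a' : ℕ} (ha : a < 2 * n) (ha' : a' < 2 * n)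
    (hl : lab1 (md n a) = lab1 (md n a')) :
    lab2 (rt (2 * n) p a) = lab2 (rt (2 * n) p a') := by
  have h1 := h.k1.path (md_lt ha) (md_lt ha') hl fun v => (lab2 (rt (2 * n) p v) : ℤ)
  rw [sum_eq_zero, h.lab2_md ha, h.lab2_md ha', sub_eq_zero] at h1
  · exact_mod_cast h1
  · intro f hf
    have hf' := mem_range.1 hf
    rw [h.lab2_md hf', h.lab2_md (lt_of_le_of_lt (h.hp f) hf'), rt_p h.hp hf'.le, sub_self,
      smul_zero]

theorem link {a a' : ℕ} (ha : a < 2 * n) (ha' : a' < 2 * n) (hl : b.lab a = b.lab a') :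
    ∃ s t : ℕ → ℤ, ev a - ev a' = ∑ c ∈ range (2 * n), s c • bb p c +
        ∑ i ∈ range b.nt, t i • dg n (ev (b.el i)) ∧
      (∀ c, |s c| ≤ n + 2 ∧ (s c ≠ 0 → p c ≠ c)) ∧ ∀ i, |t i| ≤ 1 := by
  rw [h.lab a ha, h.lab a' ha'] at hl
  have h1 := h.k2.path (lt_of_le_of_lt (rt_le h.hp a) ha) (lt_of_le_of_lt (rt_le h.hp a') ha')
    (h.lab2_eq ha ha' hl) ev
  set t : ℕ → ℤ := fun f => if T2 f = true then
    bz (u2 f (rt (2 * n) p a)) - bz (u2 f (rt (2 * n) p a')) else 0 with ht
  have ht1 : ∀ f, |t f| ≤ 1 := fun f => by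
    rw [ht]
    simp only
    split_ifs
    · exact bz_sub_le _ _
    · simp
  refine ⟨fun c => al p c a - al p c a' + ∑ f ∈ range n, t f * (al p c (n + f) - al p c f),
    fun i => t (b.el i), ?_, fun c => ⟨?_, ?_⟩, fun i => ht1 _⟩
  · have h2 : ∑ i ∈ range b.nt, t (b.el i) • dg n (ev (b.el i)) =
        ∑ f ∈ range n, t f • (ev f - ev (n + f)) := by
      rw [h.en2.sum fun f => t f • dg n (ev f)]
      refine sum_congr rfl fun f hf => ?_
      rw [dg_ev (mem_range.1 hf)]
      split_ifs with hT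
      · rfl
      · simp [ht, hT]
    have h3 : ∑ c ∈ range (2 * n), (al p c a - al p c a' +
        ∑ f ∈ range n, t f * (al p c (n + f) - al p c f)) • bb p c =
        (ev a - ev (rt (2 * n) p a)) - (ev a' - ev (rt (2 * n) p a')) +
          ∑ f ∈ range n, t f • ((ev (n + f) - ev (rt (2 * n) p (n + f))) -
            (ev f - ev (rt (2 * n) p f))) := by
      rw [ev_sub_rt h.hp ha, ev_sub_rt h.hp ha']
      simp only [add_smul, sub_smul, sum_add_distrib, sum_sub_distrib, Finset.sum_smul]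
      congr 1
      rw [sum_comm]
      refine sum_congr rfl fun f hf => ?_
      have := mem_range.1 hf
      rw [ev_sub_rt h.hp (show n + f < 2 * n by omega), ev_sub_rt h.hp (show f < 2 * n by omega),
        ← sum_sub_distrib, Finset.smul_sum]
      refine sum_congr rfl fun c _ => ?_
      rw [mul_smul, sub_smul]
    rw [h2, h3, add_assoc, ← sum_add_distrib]
    have h4 : ∑ f ∈ range n, (t f • ((ev (n + f) - ev (rt (2 * n) p (n + f))) -
        (ev f - ev (rt (2 * n) p f))) + t f • (ev f - ev (n + f))) =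
        ∑ f ∈ range n, t f • (ev (rt (2 * n) p f) - ev (rt (2 * n) p (n + f))) := by
      refine sum_congr rfl fun f _ => ?_
      rw [← smul_add]
      congr 1
      abel
    rw [h4, ← h1]
    abel
  · have h2 : |∑ f ∈ range n, t f * (al p c (n + f) - al p c f)| ≤ n := by
      refine (abs_sum_le_sum_abs _ _).trans ?_
      calc _ ≤ ∑ a ∈ range n, (1 : ℤ) := by
            refine sum_le_sum fun f _ => ?_
            rw [abs_mul]
            exact mul_le_one₀ (ht1 f) (abs_nonneg _) (al_sub_le _ _ _)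
        _ = n := by simp
    have h3 := al_sub_le (p := p) c a a'
    have h4 := abs_add_le (al p c a - al p c a')
      (∑ f ∈ range n, t f * (al p c (n + f) - al p c f))
    simp only
    linarith
  · intro h2 hr
    exact h2 (by simp [al_root hr])

theorem mt_le (f a : ℕ) : |mt p u2 f a| ≤ 1 := by
  have := h.hp
  unfold mt bz
  split_ifs <;> simp

theorem ok : b.OK n g J p j where
  nf_le := h.en1.le
  nt_le := h.en2.le
  el_lt i hi := (h.en2.mem i hi).1
  an_lt e he := (h.an_spec he).1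
  je_ge e he := by rw [h.je e he]; exact (h.hj _ (h.an_spec he).1).1
  je_le e he := by rw [h.je e he]; exact (h.hj _ (h.an_spec he).1).2.1
  z_bd e he i := by
    by_cases hi : i < n
    · rw [h.z e he i hi]; exact zv_le (h.ph_le he) i
    · rw [Bas.z, if_neg hi]; simp
  cyc e he a ha := by
    obtain ⟨h1, h2, h3⟩ := h.an_spec he
    have h4 : sm (sub (2 * n) p a) (dg n (b.z n e)) = ph n p T1 u1 (b.an e) a := h.X_z he ha
    rw [h4]
    refine ⟨h.ph_le he a, fun h5 => ?_⟩
    by_cases hac : a = b.an e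
    · rw [h.je e he, hac]
      exact ⟨h3, le_rfl, rfl⟩
    · rw [ph, iz, if_neg hac] at h5
      have hT : T1 a = true := by
        by_contra hT
        exact h5 (by rw [if_neg hT, sub_zero])
      have h6 : u1 a (md n (b.an e)) ≠ u1 a (md n (p (b.an e))) := by
        intro h6
        exact h5 (by rw [if_pos hT, h6, sub_self, sub_zero])
      refine ⟨h.T1_ne ha hT, ?_, ?_⟩
      · rw [h.je e he]
        exact h.k1.u_τ a ha hT _ h1 h6
      · rw [h.lab a ha, h.lab _ h1]
        have h7 := h.k1.K _ h1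
        by_cases h8 : u1 a (md n (b.an e)) = true
        · exact (h.k1.u_K a ha hT _ (h.k1.wf _ h1).1 h8).symm
        · have h9 : u1 a (md n (p (b.an e))) = true := by
            revert h6 h8
            cases u1 a (md n (b.an e)) <;> cases u1 a (md n (p (b.an e))) <;> simp
          rw [h7]
          exact (h.k1.u_K a ha hT _ (h.k1.wf _ h1).2 h9).symm
  coord := h.coord
  uniqf γ θ _ he := h.uniqf γ θ he
  uniqt γ θ _ hi := h.uniqt γ θ hi
  Mf_bd e he a ha := by
    obtain ⟨h1, h2, h3⟩ := h.an_spec he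
    rw [h.Mf e he a ha, h.je e he]
    by_cases hr : p a = a
    · have hac : a ≠ b.an e := fun h4 => h3 (h4 ▸ hr)
      rw [iz, if_neg hac, zero_sub, abs_neg]
      refine ⟨(abs_sum_le_sum_abs _ _).trans ?_, fun _ => ?_⟩
      · calc _ ≤ ∑ a ∈ range b.nt, (1 : ℤ) := by
              refine sum_le_sum fun i hi => ?_
              rw [abs_mul]
              exact mul_le_one₀ (X_ev_le (h.en2.mem i (mem_range.1 hi)).1 _) (abs_nonneg _)
                (h.mt_le _ _)
          _ ≤ n := by simpa using h.en2.le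
      · rw [(h.hj a ha).2.2 hr]
        exact (h.hj _ h1).1
    · rw [sum_eq_zero fun i _ => by rw [mt, if_neg hr, mul_zero], sub_zero, iz]
      split_ifs with hac
      · refine ⟨?_, fun _ => hac ▸ le_rfl⟩
        rw [abs_one]
        omega
      · simp
  Mt_bd i hi a ha := by
    rw [h.Mt i hi a ha]
    refine ⟨h.mt_le _ _, fun h1 => ?_⟩
    by_contra hr
    exact h1 (if_neg hr)
  lab_lt a ha := by
    have := h.k1.lab_lt _ (md_lt ha)
    rw [h.lab a ha]
    omega
  lab_p a ha := by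
    rw [h.lab a ha, h.lab _ (lt_of_le_of_lt (h.hp a) ha)]
    exact (h.k1.K a ha).symm
  lab_gl i hi := by
    rw [h.lab _ (by omega), h.lab _ (by omega), md_right, md_left hi]
  link a ha a' ha' hl := h.link ha ha' hl

end Hyp

end Crest.Agent.R302.BX
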