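import Crest.Agent.R302.Forest

/-! Row 302: the algebra of coarse-graining with laminar margins. -/

set_option autoImplicit false

namespace Crest.Agent.R302

open Finset

namespace CGalgX

/-- the telescoping weights -/
noncomputable def be (n : ℕ) (p : ℕ → ℕ) (k : ℕ → ℝ) (g : ℕ) : ℝ :=
  (1 - Real.exp (-k g)) * Real.exp (-∑ a ∈ (range n).filter (fun a => anc p a g ∧ a < g), k a)

theorem exp_eq {n : ℕ} {p : ℕ → ℕ} (hp : Fo p) (k : ℕ → ℝ) (i j : ℕ) :
    Real.exp (-∑ a ∈ (range n).filter (fun a => anc p a i ∧ anc p a j), k a) =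
      1 - ∑ g ∈ (range n).filter (fun a => anc p a i ∧ anc p a j), be n p k g := by
  set T := (range n).filter (fun a => anc p a i ∧ anc p a j) with hT
  have h := Finset.prod_one_sub_ordered T (fun a => 1 - Real.exp (-k a))
  simp only [sub_sub_cancel] at h
  rw [← Finset.sum_neg_distrib, Real.exp_sum, h]
  congr 1
  apply Finset.sum_congr rfl
  intro g hg
  unfold be
  congr 1
  rw [← Finset.sum_neg_distrib, Real.exp_sum]
  apply Finset.prod_congr _ (fun _ _ => rfl)
  ext a
  simp only [hT, mem_filter, mem_range] at hg ⊢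
  constructor
  · rintro ⟨⟨h1, h2, -⟩, h4⟩
    refine ⟨h1, ?_, h4⟩
    rcases hp.anc_total h2 hg.2.1 with h | h
    · exact h
    · have := hp.anc_le h; omega
  · rintro ⟨h1, h2, h3⟩
    exact ⟨⟨h1, hp.anc_trans h2 hg.2.1, hp.anc_trans h2 hg.2.2⟩, h3⟩

theorem be_le {n : ℕ} (p : ℕ → ℕ) {k : ℕ → ℝ} (hk : ∀ a < n, 0 ≤ k a) {g : ℕ} (hg : g < n) :
    be n p k g ≤ k g := by
  unfold be
  have h1 : 1 - Real.exp (-k g) ≤ k g := by have := Real.add_one_le_exp (-k g); linarith
  have h2 : Real.exp (-∑ a ∈ (range n).filter (fun a => anc p a g ∧ a < g), k a) ≤ 1 := by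
    rw [Real.exp_le_one_iff, neg_nonpos]
    exact Finset.sum_nonneg fun a ha => hk a (mem_range.1 (mem_filter.1 ha).1)
  calc _ ≤ k g * Real.exp (-∑ a ∈ (range n).filter (fun a => anc p a g ∧ a < g), k a) :=
        mul_le_mul_of_nonneg_right h1 (Real.exp_pos _).le
    _ ≤ k g * 1 := mul_le_mul_of_nonneg_left h2 (hk g hg)
    _ = k g := mul_one _

theorem le_be {n : ℕ} (p : ℕ → ℕ) {k : ℕ → ℝ} (hk : ∀ a < n, 0 ≤ k a)
    (hks : ∑ a ∈ range n, k a ≤ 1 / 4) {g : ℕ} (hg : g < n) : k g / 2 ≤ be n p k g := by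
  unfold be
  have hs : ∀ T : Finset ℕ, T ⊆ range n → 3 / 4 ≤ Real.exp (-∑ a ∈ T, k a) := by
    intro T hT
    have h1 : ∑ a ∈ T, k a ≤ ∑ a ∈ range n, k a :=
      Finset.sum_le_sum_of_subset_of_nonneg hT fun a ha _ => hk a (mem_range.1 ha)
    have := Real.add_one_le_exp (-∑ a ∈ T, k a)
    linarith
  have h1 : 3 / 4 ≤ Real.exp (-k g) := by
    have := hs {g} (by simpa using hg)
    simpa using this
  have h2 := hs ((range n).filter (fun a => anc p a g ∧ a < g)) (filter_subset _ _)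
  have h3 : k g * (3 / 4) ≤ 1 - Real.exp (-k g) := by
    have h4 := Real.add_one_le_exp (k g)
    have h5 : Real.exp (k g) * Real.exp (-k g) = 1 := by rw [← Real.exp_add]; simp
    have h6 : (k g + 1) * Real.exp (-k g) ≤ 1 := by
      exact (mul_le_mul_of_nonneg_right h4 (Real.exp_pos _).le).trans h5.le
    have h7 : k g * (3 / 4) ≤ k g * Real.exp (-k g) := mul_le_mul_of_nonneg_left h1 (hk g hg)
    nlinarith
  have hk0 := hk g hg
  calc k g / 2 ≤ (k g * (3 / 4)) * (3 / 4) := by linarith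
    _ ≤ _ := mul_le_mul h3 h2 (by norm_num) (by nlinarith)

/-- Abel summation twice -/
theorem abel2 {n : ℕ} {p : ℕ → ℕ} (hp : Fo p) (v : ℕ → ℝ) (c : ℕ → ℕ → ℝ) :
    ∑ i ∈ range n, ∑ j ∈ range n, v i * v j * c i j =
      ∑ a ∈ range n, ∑ b ∈ range n, (∑ i ∈ sub n p a, v i) * (∑ i ∈ sub n p b, v i) *
        DD p (fun i => DD p (fun j => c i j) b) a := by
  calc ∑ i ∈ range n, ∑ j ∈ range n, v i * v j * c i j
      = ∑ i ∈ range n, v i * ∑ b ∈ range n, (∑ i ∈ sub n p b, v i) * DD p (fun j => c i j) b := by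
        apply Finset.sum_congr rfl
        intro i _
        rw [← hp.abel v (fun j => c i j), Finset.mul_sum]
        exact Finset.sum_congr rfl fun j _ => by ring
    _ = ∑ b ∈ range n, (∑ i ∈ sub n p b, v i) * ∑ i ∈ range n, v i * DD p (fun j => c i j) b := by
        simp only [Finset.mul_sum]
        rw [Finset.sum_comm]
        exact Finset.sum_congr rfl fun _ _ => Finset.sum_congr rfl fun _ _ => by ring
    _ = ∑ b ∈ range n, ∑ a ∈ range n, (∑ i ∈ sub n p a, v i) * (∑ i ∈ sub n p b, v i) *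
        DD p (fun i => DD p (fun j => c i j) b) a := by
        apply Finset.sum_congr rfl
        intro b _
        rw [hp.abel v (fun i => DD p (fun j => c i j) b), Finset.mul_sum]
        exact Finset.sum_congr rfl fun j _ => by ring
    _ = _ := Finset.sum_comm

theorem abel2_sub {n : ℕ} {p : ℕ → ℕ} (hp : Fo p) (v : ℕ → ℝ) (c : ℕ → ℕ → ℝ)
    (hsym : ∀ i j, c i j = c j i) {g : ℕ} (hg : g < n) :
    ∑ i ∈ sub n p g, ∑ j ∈ sub n p g, v i * v j * c i j =
      (∑ i ∈ sub n p g, v i) ^ 2 * c g g +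
      2 * (∑ i ∈ sub n p g, v i) *
        (∑ a ∈ (sub n p g).erase g, (∑ i ∈ sub n p a, v i) * DD p (fun i => c i g) a) +
      ∑ b ∈ (sub n p g).erase g, ∑ a ∈ (sub n p g).erase g,
        (∑ i ∈ sub n p a, v i) * (∑ i ∈ sub n p b, v i) *
          DD p (fun i => DD p (fun j => c i j) b) a := by
  have hc : (fun j => c g j) = fun i => c i g := funext fun j => hsym g j
  calc ∑ i ∈ sub n p g, ∑ j ∈ sub n p g, v i * v j * c i j
      = ∑ i ∈ sub n p g, v i * ((∑ i ∈ sub n p g, v i) * c i g +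
          ∑ b ∈ (sub n p g).erase g, (∑ i ∈ sub n p b, v i) * DD p (fun j => c i j) b) := by
        apply Finset.sum_congr rfl
        intro i _
        rw [← hp.abel_sub v (fun j => c i j) hg, Finset.mul_sum]
        exact Finset.sum_congr rfl fun j _ => by ring
    _ = (∑ i ∈ sub n p g, v i) * (∑ i ∈ sub n p g, v i * c i g) +
          ∑ b ∈ (sub n p g).erase g, (∑ i ∈ sub n p b, v i) *
            ∑ i ∈ sub n p g, v i * DD p (fun j => c i j) b := by
        simp only [mul_add, Finset.sum_add_distrib]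
        congr 1
        · rw [Finset.mul_sum]
          exact Finset.sum_congr rfl fun _ _ => by ring
        · simp only [Finset.mul_sum]
          rw [Finset.sum_comm]
          exact Finset.sum_congr rfl fun _ _ => Finset.sum_congr rfl fun _ _ => by ring
    _ = (∑ i ∈ sub n p g, v i) * ((∑ i ∈ sub n p g, v i) * c g g +
          ∑ a ∈ (sub n p g).erase g, (∑ i ∈ sub n p a, v i) * DD p (fun i => c i g) a) +
          ∑ b ∈ (sub n p g).erase g, ((∑ i ∈ sub n p g, v i) * ((∑ i ∈ sub n p b, v i) *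
            DD p (fun i => c i g) b) + ∑ a ∈ (sub n p g).erase g,
              (∑ i ∈ sub n p a, v i) * (∑ i ∈ sub n p b, v i) *
                DD p (fun i => DD p (fun j => c i j) b) a) := by
        rw [hp.abel_sub v (fun i => c i g) hg]
        congr 1
        apply Finset.sum_congr rfl
        intro b _
        rw [hp.abel_sub v (fun i => DD p (fun j => c i j) b) hg, hc, mul_add, Finset.mul_sum]
        congr 1
        · ring
        · exact Finset.sum_congr rfl fun _ _ => by ring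
    _ = _ := by
        rw [Finset.sum_add_distrib, ← Finset.mul_sum]
        ring

theorem cs (n : ℕ) (x y : ℕ → ℝ) {t : ℝ} (ht : 0 ≤ t) (h : ∀ a < n, t * x a ^ 2 ≤ y a) :
    t * (∑ a ∈ range n, x a) ^ 2 ≤ n * ∑ a ∈ range n, y a := by
  have h1 := sq_sum_le_card_mul_sum_sq (s := range n) (f := x)
  rw [card_range] at h1
  calc t * (∑ a ∈ range n, x a) ^ 2 ≤ t * (n * ∑ a ∈ range n, x a ^ 2) :=
        mul_le_mul_of_nonneg_left h1 ht
    _ = n * ∑ a ∈ range n, t * x a ^ 2 := by rw [← Finset.mul_sum]; ring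
    _ ≤ _ := by
        apply mul_le_mul_of_nonneg_left _ (Nat.cast_nonneg n)
        exact Finset.sum_le_sum fun a ha => h a (mem_range.1 ha)

/-- the final numerical inequality -/
theorem num {n L η θ κ α r S K : ℝ} (hn : 0 < n) (_hη : 0 ≤ η) (hL : 1 ≤ L) (_hθ : 0 < θ)
    (hS : 0 ≤ S) (h1 : θ * α ^ 2 ≤ n * S) (h2 : κ * r ^ 2 ≤ n * S) (hκ : 0 ≤ κ)
    (c1 : 24 * L * η * n ≤ θ) (c2 : (24 * L * η * n) ^ 2 ≤ θ * κ) (c3 : 36 * L ^ 4 * n * K ≤ θ) :
    2 * η * α * (α + r) + 3 * L ^ 3 * α ^ 2 * K ≤ S / (4 * L) := by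
  have hL0 : 0 < L := by linarith
  have a1 : 24 * L * η * α ^ 2 ≤ S := by
    have : n * (24 * L * η * α ^ 2) ≤ n * S := by
      calc n * (24 * L * η * α ^ 2) = (24 * L * η * n) * α ^ 2 := by ring
        _ ≤ θ * α ^ 2 := mul_le_mul_of_nonneg_right c1 (sq_nonneg _)
        _ ≤ _ := h1
    exact le_of_mul_le_mul_left this hn
  have a2 : 24 * L * η * (α * r) ≤ S := by
    have h3 : (n * (24 * L * η * (α * r))) ^ 2 ≤ (n * S) ^ 2 := by
      calc (n * (24 * L * η * (α * r))) ^ 2 = (24 * L * η * n) ^ 2 * (α * r) ^ 2 := by ring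
        _ ≤ θ * κ * (α * r) ^ 2 := mul_le_mul_of_nonneg_right c2 (sq_nonneg _)
        _ = (θ * α ^ 2) * (κ * r ^ 2) := by ring
        _ ≤ (n * S) * (n * S) := mul_le_mul h1 h2 (by positivity) (by positivity)
        _ = _ := by ring
    have h4 := le_of_sq_le_sq h3 (by positivity) |> fun h => h
    exact le_of_mul_le_mul_left h4 hn
  have a3 : 36 * L ^ 4 * K * α ^ 2 ≤ S := by
    have : n * (36 * L ^ 4 * K * α ^ 2) ≤ n * S := by
      calc n * (36 * L ^ 4 * K * α ^ 2) = (36 * L ^ 4 * n * K) * α ^ 2 := by ring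
        _ ≤ θ * α ^ 2 := mul_le_mul_of_nonneg_right c3 (sq_nonneg _)
        _ ≤ _ := h1
    exact le_of_mul_le_mul_left this hn
  rw [le_div_iff₀ (by positivity)]
  nlinarith

end CGalgX

open CGalgX in
theorem cg_alg {n : ℕ} {p : ℕ → ℕ} (hp : Fo p) {c0 : ℝ} (hc0 : 0 < c0) (c1 : ℕ → ℝ)
    (c2 A' : ℕ → ℕ → ℝ) (hsym : ∀ i j, c2 i j = c2 j i) (δ k : ℕ → ℝ) {η L θ κ : ℝ}
    (hA : ∀ ω : ℕ → ℝ, ∑ a ∈ range n, ∑ b ∈ range n, ω a * ω b * A' a b ≤ 0)
    (H1 : ∀ a < n, ∀ b < n,
      |c0 * DD p (fun i => DD p (fun j => c2 i j) b) a - DD p c1 a * DD p c1 b - A' a b| ≤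
        η * ((if p a = a then 0 else δ a) * (if p b = b then 1 else δ b) +
          (if p a = a then 1 else δ a) * (if p b = b then 0 else δ b)) * c0 ^ 2)
    (H2 : ∀ g < n, c0 ≤ L * c2 g g)
    (H3 : ∀ a < n, p a ≠ a → ∀ g < n, |DD p (fun i => c2 i g) a| ≤ L * δ a * c0)
    (H4 : ∀ a < n, p a ≠ a → ∀ b < n, p b ≠ b →
      |DD p (fun i => DD p (fun j => c2 i j) b) a| ≤ L * δ a * δ b * c0)
    (hδ : ∀ a, 0 ≤ δ a) (hη : 0 ≤ η) (hL : 1 ≤ L) (hθ : 0 < θ) (hκ : 0 ≤ κ)
    (hk : ∀ a < n, if p a = a then κ ≤ k a else θ * δ a ^ 2 ≤ k a)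
    (hks : ∑ a ∈ range n, k a ≤ 1 / 4)
    (c1' : 24 * L * η * n ≤ θ) (c2' : (24 * L * η * n) ^ 2 ≤ θ * κ)
    (c3' : 36 * L ^ 4 * n * ∑ a ∈ range n, k a ≤ θ) (v : ℕ → ℝ) :
    ∑ i ∈ range n, ∑ j ∈ range n, v i * v j * (c2 i j * c0 *
      Real.exp (-∑ a ∈ (range n).filter (fun a => anc p a i ∧ anc p a j), k a) - c1 i * c1 j) ≤ 0 := by
  rcases Nat.eq_zero_or_pos n with rfl | hn
  · simp
  have hL0 : 0 < L := by linarith
  have hk0 : ∀ a < n, 0 ≤ k a := by
    intro a ha
    have := hk a ha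
    split_ifs at this
    · linarith
    · exact le_trans (by positivity) this
  set w : ℕ → ℝ := fun a => ∑ i ∈ sub n p a, v i with hw
  set dN : ℕ → ℝ := fun a => if p a = a then 0 else δ a with hdN
  set dR : ℕ → ℝ := fun a => if p a = a then 1 else δ a with hdR
  set α : ℝ := ∑ a ∈ range n, |w a| * dN a with hα
  set r : ℝ := ∑ a ∈ range n, |w a| * (if p a = a then 1 else 0) with hr
  set S : ℝ := ∑ a ∈ range n, k a * w a ^ 2 with hS
  have hdN0 : ∀ a, 0 ≤ dN a := fun a => by
    simp only [hdN]; split_ifs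
    · exact le_rfl
    · exact hδ a
  have hα0 : 0 ≤ α := Finset.sum_nonneg fun a _ => mul_nonneg (abs_nonneg _) (hdN0 a)
  have hβ : ∑ a ∈ range n, |w a| * dR a = α + r := by
    rw [hα, hr, ← Finset.sum_add_distrib]
    apply Finset.sum_congr rfl
    intro a _
    simp only [hdN, hdR]
    split_ifs <;> ring
  have hS0 : 0 ≤ S := Finset.sum_nonneg fun a ha => mul_nonneg (hk0 a (mem_range.1 ha)) (sq_nonneg _)
  have h1 : θ * α ^ 2 ≤ n * S := by
    apply cs n _ _ hθ.le
    intro a ha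
    have := hk a ha
    have h0 := hk0 a ha
    simp only [hdN]
    split_ifs at this ⊢
    · simp only [mul_zero, ne_eq, OfNat.ofNat_ne_zero, not_false_eq_true, zero_pow]; positivity
    · rw [mul_pow, sq_abs]
      nlinarith [sq_nonneg (w a)]
  have h2 : κ * r ^ 2 ≤ n * S := by
    apply cs n _ _ hκ
    intro a ha
    have := hk a ha
    have h0 := hk0 a ha
    split_ifs at this ⊢
    · rw [mul_one, sq_abs]
      exact mul_le_mul_of_nonneg_right this (sq_nonneg _)
    · simp only [mul_zero, ne_eq, OfNat.ofNat_ne_zero, not_false_eq_true, zero_pow]; positivity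
  have hnum := num (K := ∑ a ∈ range n, k a) (by exact_mod_cast hn : (0 : ℝ) < n) hη hL hθ hS0 h1 h2 hκ
    c1' c2' c3'
  -- the main part
  have hM : c0 * ∑ i ∈ range n, ∑ j ∈ range n, v i * v j * c2 i j -
      ∑ i ∈ range n, ∑ j ∈ range n, v i * v j * (c1 i * c1 j) ≤ 2 * η * α * (α + r) * c0 ^ 2 := by
    have e1 : ∑ i ∈ range n, ∑ j ∈ range n, v i * v j * (c1 i * c1 j) =
        ∑ a ∈ range n, ∑ b ∈ range n, w a * w b * (DD p c1 a * DD p c1 b) := by
      calc _ = (∑ i ∈ range n, v i * c1 i) * (∑ i ∈ range n, v i * c1 i) := by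
            rw [Finset.sum_mul_sum]
            exact Finset.sum_congr rfl fun _ _ => Finset.sum_congr rfl fun _ _ => by ring
        _ = _ := by
            rw [hp.abel v c1, Finset.sum_mul_sum]
            exact Finset.sum_congr rfl fun _ _ => Finset.sum_congr rfl fun _ _ => by
              simp only [hw]; ring
    rw [abel2 hp v c2, e1]
    have e2 : c0 * ∑ a ∈ range n, ∑ b ∈ range n, w a * w b * DD p (fun i => DD p (fun j => c2 i j) b) a -
        ∑ a ∈ range n, ∑ b ∈ range n, w a * w b * (DD p c1 a * DD p c1 b) =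
        ∑ a ∈ range n, ∑ b ∈ range n, w a * w b * A' a b +
        ∑ a ∈ range n, ∑ b ∈ range n, w a * w b *
          (c0 * DD p (fun i => DD p (fun j => c2 i j) b) a - DD p c1 a * DD p c1 b - A' a b) := by
      simp only [Finset.mul_sum, ← Finset.sum_sub_distrib, ← Finset.sum_add_distrib]
      exact Finset.sum_congr rfl fun _ _ => Finset.sum_congr rfl fun _ _ => by ring
    have e3 : ∑ a ∈ range n, ∑ b ∈ range n, w a * w b *
          (c0 * DD p (fun i => DD p (fun j => c2 i j) b) a - DD p c1 a * DD p c1 b - A' a b) ≤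
        ∑ a ∈ range n, ∑ b ∈ range n, (η * c0 ^ 2) * ((|w a| * dN a) * (|w b| * dR b) +
          (|w a| * dR a) * (|w b| * dN b)) := by
      apply Finset.sum_le_sum; intro a ha
      apply Finset.sum_le_sum; intro b hb
      have := H1 a (mem_range.1 ha) b (mem_range.1 hb)
      calc _ ≤ _ := le_abs_self _
        _ = |w a| * |w b| * _ := by rw [abs_mul, abs_mul]
        _ ≤ |w a| * |w b| * (η * (dN a * dR b + dR a * dN b) * c0 ^ 2) :=
            mul_le_mul_of_nonneg_left this (by positivity)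
        _ = _ := by ring
    have e4 : ∑ a ∈ range n, ∑ b ∈ range n, (η * c0 ^ 2) * ((|w a| * dN a) * (|w b| * dR b) +
          (|w a| * dR a) * (|w b| * dN b)) = 2 * η * α * (α + r) * c0 ^ 2 := by
      simp only [← Finset.mul_sum, Finset.sum_add_distrib, ← Finset.sum_mul]
      rw [hβ]; ring
    have e5 := hA w
    change c0 * ∑ a ∈ range n, ∑ b ∈ range n, w a * w b * DD p (fun i => DD p (fun j => c2 i j) b) a - _ ≤ _
    rw [e2]
    linarith
  -- the subtree parts
  have hQ : ∀ g < n, (w g ^ 2 / (2 * L) - 3 * L ^ 3 * α ^ 2) * c0 ≤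
      ∑ i ∈ sub n p g, ∑ j ∈ sub n p g, v i * v j * c2 i j := by
    intro g hg
    rw [abel2_sub hp v c2 hsym hg]
    have hE : ∀ a ∈ (sub n p g).erase g, a < n ∧ p a ≠ a := by
      intro a ha
      obtain ⟨h3, h4⟩ := mem_erase.1 ha
      obtain ⟨h5, h6⟩ := mem_sub.1 h4
      refine ⟨h5, ?_⟩
      rcases hp.anc_iff.1 h6 with h | h
      · exact absurd h.symm h3
      · exact h.1
    set α' : ℝ := ∑ a ∈ (sub n p g).erase g, |w a| * δ a with hα'
    have hα'0 : 0 ≤ α' := Finset.sum_nonneg fun a _ => mul_nonneg (abs_nonneg _) (hδ a)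
    have hα'1 : α' ≤ α := by
      calc α' = ∑ a ∈ (sub n p g).erase g, |w a| * dN a := by
            apply Finset.sum_congr rfl
            intro a ha
            simp only [hdN, if_neg (hE a ha).2]
        _ ≤ α := Finset.sum_le_sum_of_subset_of_nonneg (fun a ha => mem_range.2 (hE a ha).1)
            fun a _ _ => mul_nonneg (abs_nonneg _) (hdN0 a)
    have b1 : |∑ a ∈ (sub n p g).erase g, w a * DD p (fun i => c2 i g) a| ≤ L * c0 * α := by
      calc _ ≤ _ := Finset.abs_sum_le_sum_abs _ _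
        _ ≤ ∑ a ∈ (sub n p g).erase g, L * c0 * (|w a| * δ a) := by
            apply Finset.sum_le_sum; intro a ha
            rw [abs_mul]
            calc _ ≤ |w a| * (L * δ a * c0) :=
                  mul_le_mul_of_nonneg_left (H3 a (hE a ha).1 (hE a ha).2 g hg) (abs_nonneg _)
              _ = _ := by ring
        _ = L * c0 * α' := by rw [← Finset.mul_sum]
        _ ≤ _ := by gcongr
    have b2 : -(L * c0 * α ^ 2) ≤ ∑ b ∈ (sub n p g).erase g, ∑ a ∈ (sub n p g).erase g,
        w a * w b * DD p (fun i => DD p (fun j => c2 i j) b) a := by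
      calc -(L * c0 * α ^ 2) ≤ -(L * c0 * α' ^ 2) := by gcongr
        _ = ∑ b ∈ (sub n p g).erase g, ∑ a ∈ (sub n p g).erase g,
            -(L * c0 * ((|w b| * δ b) * (|w a| * δ a))) := by
            simp only [Finset.sum_neg_distrib, ← Finset.mul_sum, ← Finset.sum_mul]
            rw [← hα']; ring
        _ ≤ _ := by
            apply Finset.sum_le_sum; intro b hb
            apply Finset.sum_le_sum; intro a ha
            apply le_trans _ (neg_abs_le _)
            rw [neg_le_neg_iff, abs_mul, abs_mul]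
            calc _ ≤ |w a| * |w b| * (L * δ a * δ b * c0) :=
                  mul_le_mul_of_nonneg_left
                    (H4 a (hE a ha).1 (hE a ha).2 b (hE b hb).1 (hE b hb).2) (by positivity)
              _ = _ := by ring
    have b3 : w g ^ 2 * (c0 / L) ≤ w g ^ 2 * c2 g g := by
      apply mul_le_mul_of_nonneg_left _ (sq_nonneg _)
      rw [div_le_iff₀ hL0, mul_comm]; exact H2 g hg
    have b4 : -(2 * |w g| * (L * c0 * α)) ≤
        2 * w g * ∑ a ∈ (sub n p g).erase g, w a * DD p (fun i => c2 i g) a := by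
      apply le_trans _ (neg_abs_le _)
      rw [neg_le_neg_iff, abs_mul, abs_mul, abs_two]
      exact mul_le_mul_of_nonneg_left b1 (by positivity)
    have b5 : 2 * |w g| * (L * α) ≤ w g ^ 2 / (2 * L) + 2 * L ^ 3 * α ^ 2 := by
      have : w g ^ 2 / (2 * L) + 2 * L ^ 3 * α ^ 2 - 2 * |w g| * (L * α) =
          (|w g| - 2 * L ^ 2 * α) ^ 2 / (2 * L) := by
        rw [← sq_abs (w g)]; field_simp; ring
      have h0 : 0 ≤ (|w g| - 2 * L ^ 2 * α) ^ 2 / (2 * L) := by positivity
      linarith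
    have b6 : L * α ^ 2 ≤ L ^ 3 * α ^ 2 := by
      apply mul_le_mul_of_nonneg_right _ (sq_nonneg _)
      calc L = L ^ 1 := (pow_one L).symm
        _ ≤ L ^ 3 := pow_le_pow_right₀ hL (by norm_num)
    have b7 : w g ^ 2 * (c0 / L) = 2 * (w g ^ 2 / (2 * L)) * c0 := by field_simp
    have b8 := mul_le_mul_of_nonneg_right b5 hc0.le
    have b9 := mul_le_mul_of_nonneg_right b6 hc0.le
    change _ ≤ w g ^ 2 * c2 g g + 2 * w g * (∑ a ∈ (sub n p g).erase g, w a * DD p (fun i => c2 i g) a) +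
      ∑ b ∈ (sub n p g).erase g, ∑ a ∈ (sub n p g).erase g,
        w a * w b * DD p (fun i => DD p (fun j => c2 i j) b) a
    nlinarith
  -- splitting
  have hsplit : ∑ i ∈ range n, ∑ j ∈ range n, v i * v j * (c2 i j * c0 *
      Real.exp (-∑ a ∈ (range n).filter (fun a => anc p a i ∧ anc p a j), k a) - c1 i * c1 j) =
      (c0 * ∑ i ∈ range n, ∑ j ∈ range n, v i * v j * c2 i j -
        ∑ i ∈ range n, ∑ j ∈ range n, v i * v j * (c1 i * c1 j)) -
      c0 * ∑ g ∈ range n, be n p k g * ∑ i ∈ sub n p g, ∑ j ∈ sub n p g, v i * v j * c2 i j := by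
    have e1 : ∑ g ∈ range n, be n p k g * ∑ i ∈ sub n p g, ∑ j ∈ sub n p g, v i * v j * c2 i j =
        ∑ i ∈ range n, ∑ j ∈ range n, v i * v j * c2 i j *
          ∑ g ∈ (range n).filter (fun a => anc p a i ∧ anc p a j), be n p k g := by
      simp only [sub, Finset.sum_filter, Finset.mul_sum]
      rw [Finset.sum_comm]
      apply Finset.sum_congr rfl; intro i _
      symm
      rw [Finset.sum_comm]
      apply Finset.sum_congr rfl; intro g _
      by_cases hi : anc p g i
      · simp only [hi, true_and, if_true, Finset.mul_sum]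
        apply Finset.sum_congr rfl; intro j _
        split_ifs <;> ring
      · simp [hi]
    rw [e1]
    simp only [exp_eq hp k, Finset.mul_sum (range n), ← Finset.sum_sub_distrib]
    exact Finset.sum_congr rfl fun _ _ => Finset.sum_congr rfl fun _ _ => by ring
  have hlow : (S / (4 * L) - 3 * L ^ 3 * α ^ 2 * ∑ a ∈ range n, k a) * c0 ≤
      ∑ g ∈ range n, be n p k g * ∑ i ∈ sub n p g, ∑ j ∈ sub n p g, v i * v j * c2 i j := by
    calc _ = ∑ g ∈ range n, (k g / 2 * (w g ^ 2 / (2 * L)) - k g * (3 * L ^ 3 * α ^ 2)) * c0 := by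
          rw [← Finset.sum_mul, Finset.sum_sub_distrib, ← Finset.sum_mul, hS, Finset.sum_div]
          congr 2
          · exact Finset.sum_congr rfl fun _ _ => by field_simp; ring
          · ring
      _ ≤ _ := by
          apply Finset.sum_le_sum; intro g hg
          have hg := mem_range.1 hg
          have l1 := le_be p hk0 hks hg
          have l2 := be_le p hk0 hg
          have l3 : 0 ≤ be n p k g := le_trans (by have := hk0 g hg; positivity) l1
          calc _ ≤ (be n p k g * (w g ^ 2 / (2 * L)) - be n p k g * (3 * L ^ 3 * α ^ 2)) * c0 := by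
                gcongr
            _ = be n p k g * ((w g ^ 2 / (2 * L) - 3 * L ^ 3 * α ^ 2) * c0) := by ring
            _ ≤ _ := mul_le_mul_of_nonneg_left (hQ g hg) l3
  rw [hsplit]
  have f1 := mul_le_mul_of_nonneg_left hlow hc0.le
  have f2 := mul_le_mul_of_nonneg_right hnum (sq_nonneg c0)
  nlinarith

end Crest.Agent.R302
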