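import Crest.Agent.R302.SmL
import Crest.Agent.R302.CGalg

/-! Row 302: coarse graining. -/

set_option autoImplicit false

namespace Crest.Agent.R302

open Crest.Agent.PT Crest.Agent.R309 Finset

/-- the coarse directions -/
def cd (an : ℕ → ℕ) (V : ℕ → Vec) (i : ℕ) : Vec :=
  ev (an (i / 2)) + if i % 2 = 1 then V (i / 2) else 0

namespace CoarseX

/-- the linearised difference along a list of elementary moves -/
def TT (L : List (ℕ × ℕ × ℝ)) (F : ℕ → ℝ) : ℝ := (L.map fun z => F z.1 - F z.2.1).sum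

theorem TT_cons (z : ℕ × ℕ × ℝ) (L : List (ℕ × ℕ × ℝ)) (F : ℕ → ℝ) :
    TT (z :: L) F = F z.1 - F z.2.1 + TT L F := by simp [TT]

theorem TT_sub (L : List (ℕ × ℕ × ℝ)) (F G : ℕ → ℝ) :
    TT L (fun i => F i - G i) = TT L F - TT L G := by
  induction L with
  | nil => simp [TT]
  | cons z L ih => rw [TT_cons, TT_cons, TT_cons, ih]; ring

theorem TT_bd (L : List (ℕ × ℕ × ℝ)) (F : ℕ → ℝ) {B : ℝ}
    (h : ∀ z ∈ L, |F z.1 - F z.2.1| ≤ B * z.2.2) :
    |TT L F| ≤ B * (L.map fun z => z.2.2).sum := by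
  induction L with
  | nil => simp [TT]
  | cons z L ih =>
    rw [TT_cons, List.map_cons, List.sum_cons, mul_add]
    exact (abs_add_le _ _).trans (add_le_add (h z List.mem_cons_self)
      (ih fun w hw => h w (List.mem_cons_of_mem _ hw)))

theorem single_rep {m s : ℕ} (hs : s < m) (F : ℕ → ℝ) :
    F s = ∑ i ∈ range m, (if i = s then 1 else 0) * F i := by
  simp [hs]

theorem TT_rep {m : ℕ} (L : List (ℕ × ℕ × ℝ)) (h : ∀ z ∈ L, z.1 < m ∧ z.2.1 < m) :
    ∃ U : ℕ → ℝ, ∀ F, TT L F = ∑ i ∈ range m, U i * F i := by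
  induction L with
  | nil => exact ⟨0, fun F => by simp [TT]⟩
  | cons z L ih =>
    obtain ⟨U, hU⟩ := ih fun w hw => h w (List.mem_cons_of_mem _ hw)
    obtain ⟨h1, h2⟩ := h z List.mem_cons_self
    refine ⟨fun i => (if i = z.1 then 1 else 0) - (if i = z.2.1 then 1 else 0) + U i, fun F => ?_⟩
    rw [TT_cons, hU, single_rep h1 F, single_rep h2 F, ← sum_sub_distrib, ← sum_add_distrib]
    exact sum_congr rfl fun i _ => by ring

/-- the data of a coarse direction -/
structure Gd (m : ℕ) (Mv : Set (Vec × ℝ)) (x : ℝ) (s : ℕ) (L : List (ℕ × ℕ × ℝ)) (V : Vec) :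
    Prop where
  lt : s < m
  mem : ∀ z ∈ L, z.1 < m ∧ z.2.1 < m ∧ (ev z.1 - ev z.2.1, z.2.2) ∈ Mv ∧
    Cmp Mv (ev s - ev z.2.1) x
  sum : (L.map fun z => z.2.2).sum ≤ x
  eq : V = (L.map fun z => ev z.1 - ev z.2.1).sum

variable {m : ℕ} {Mv : Set (Vec × ℝ)} {x : ℝ}

theorem Gd.cmp {s : ℕ} {L : List (ℕ × ℕ × ℝ)} {V : Vec} (H : Gd m Mv x s L V) : Cmp Mv V x := by
  refine ⟨L.map fun z => (ev z.1 - ev z.2.1, z.2.2), ?_, ?_, ?_⟩
  · intro w hw
    obtain ⟨z, hz, rfl⟩ := List.mem_map.1 hw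
    exact (H.mem z hz).2.2.1
  · rw [List.map_map, H.eq]; rfl
  · rw [List.map_map]; exact H.sum

theorem Gd.rate (hM : ∀ z ∈ Mv, 0 ≤ z.2) {s : ℕ} {L : List (ℕ × ℕ × ℝ)} {V : Vec}
    (H : Gd m Mv x s L V) {z : ℕ × ℕ × ℝ} (hz : z ∈ L) : 0 ≤ z.2.2 ∧ z.2.2 ≤ x := by
  refine ⟨hM _ (H.mem z hz).2.2.1, le_trans (List.single_le_sum ?_ _
    (List.mem_map_of_mem (f := fun z : ℕ × ℕ × ℝ => z.2.2) hz)) H.sum⟩
  intro t ht
  obtain ⟨w, hw, rfl⟩ := List.mem_map.1 ht
  exact hM _ (H.mem w hw).2.2.1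

theorem tele_aux (hM : ∀ z ∈ Mv, 0 ≤ z.2) (g : Vec → ℝ) (W : Vec) (s : ℕ) {B : ℝ}
    (L : List (ℕ × ℕ × ℝ)) : ∀ (P : Vec) (ρ : ℝ), Cmp Mv P ρ →
    ρ + (L.map fun z => z.2.2).sum ≤ x →
    (∀ z ∈ L, (ev z.1 - ev z.2.1, z.2.2) ∈ Mv ∧ Cmp Mv (ev s - ev z.2.1) x) →
    (∀ z ∈ L, ∀ σ, Cmp Mv σ (2 * x) →
      |dl [σ, ev z.1 - ev z.2.1] g (W + ev z.2.1)| ≤ B * z.2.2) →
    |g (W + ev s + P + (L.map fun z => ev z.1 - ev z.2.1).sum) - g (W + ev s + P) -
      TT L (fun i => g (W + ev i))| ≤ B * (L.map fun z => z.2.2).sum := by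
  induction L with
  | nil => intro P ρ _ _ _ _; simp [TT]
  | cons z L ih =>
    intro P ρ hP hρ hL hB
    obtain ⟨h1, h2⟩ := hL z List.mem_cons_self
    have hn : 0 ≤ (L.map fun z => z.2.2).sum := List.sum_nonneg fun t ht => by
      obtain ⟨w, hw, rfl⟩ := List.mem_map.1 ht
      exact hM _ (hL w (List.mem_cons_of_mem _ hw)).1
    have hz : 0 ≤ z.2.2 := hM _ h1
    rw [List.map_cons, List.sum_cons] at hρ
    have i1 := ih (P + (ev z.1 - ev z.2.1)) (ρ + z.2.2) (hP.add (Cmp.single h1)) (by linarith)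
      (fun w hw => hL w (List.mem_cons_of_mem _ hw)) (fun w hw => hB w (List.mem_cons_of_mem _ hw))
    have i2 := hB z List.mem_cons_self (ev s - ev z.2.1 + P) ((h2.add hP).mono (by linarith))
    simp only [dl] at i2
    have e1 : W + ev z.2.1 + (ev s - ev z.2.1 + P) + (ev z.1 - ev z.2.1) =
        W + ev s + (P + (ev z.1 - ev z.2.1)) := by abel
    have e2 : W + ev z.2.1 + (ev s - ev z.2.1 + P) = W + ev s + P := by abel
    have e3 : W + ev z.2.1 + (ev z.1 - ev z.2.1) = W + ev z.1 := by abel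
    rw [e1, e2, e3] at i2
    have e4 : W + ev s + P + (ev z.1 - ev z.2.1 + (L.map fun z => ev z.1 - ev z.2.1).sum) =
        W + ev s + (P + (ev z.1 - ev z.2.1)) + (L.map fun z => ev z.1 - ev z.2.1).sum := by abel
    rw [TT_cons, List.map_cons, List.sum_cons, List.map_cons, List.sum_cons, mul_add, e4]
    rw [abs_le] at i1 i2 ⊢
    constructor <;> linarith [i1.1, i1.2, i2.1, i2.2]

theorem Gd.tele (hM : ∀ z ∈ Mv, 0 ≤ z.2) {s : ℕ} {L : List (ℕ × ℕ × ℝ)} {V : Vec}
    (H : Gd m Mv x s L V) (g : Vec → ℝ) (W : Vec) {B : ℝ} (hB0 : 0 ≤ B)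
    (hB : ∀ z ∈ L, ∀ σ, Cmp Mv σ (2 * x) →
      |dl [σ, ev z.1 - ev z.2.1] g (W + ev z.2.1)| ≤ B * z.2.2) :
    |g (W + ev s + V) - g (W + ev s) - TT L (fun i => g (W + ev i))| ≤ B * x := by
  have := tele_aux hM g W s L 0 0 (Cmp.zero Mv le_rfl) (by rw [zero_add]; exact H.sum)
    (fun z hz => (H.mem z hz).2.2) hB
  rw [add_zero, ← H.eq] at this
  exact this.trans (mul_le_mul_of_nonneg_left H.sum hB0)

/-- bounds on differences at a base point -/
def Bd (Mv : Set (Vec × ℝ)) (h : Vec → ℝ) (y : Vec) (C : ℝ) : Prop :=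
  ∀ l : List (Vec × ℝ), l.length ≤ 3 → (∀ z ∈ l, Cmp Mv z.1 z.2) → (l.map Prod.snd).sum ≤ 1 / 2 →
    |dl (l.map Prod.fst) h y| ≤ 2 * (l.map Prod.snd).prod * C

theorem bd_of {h : Vec → ℝ} (hpos : ∀ Y, 0 < h Y) (hM : ∀ z ∈ Mv, 0 ≤ z.2) {y : Vec} {C : ℝ}
    (hs : ∀ v, Cmp Mv v 1 → Sm Mv h (y + v)) (hC : h y ≤ C) : Bd Mv h y C := by
  intro l hl hm hsum
  refine (Sm.cmp hpos hM le_rfl (fun v hv => hs v (hv.mono (by norm_num))) l hl hm hsum).trans ?_
  refine mul_le_mul_of_nonneg_left hC (mul_nonneg zero_le_two (List.prod_nonneg fun t ht => ?_))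
  obtain ⟨w, hw, rfl⟩ := List.mem_map.1 ht
  exact (hm w hw).nonneg hM

variable {h : Vec → ℝ} {y : Vec} {C : ℝ}

theorem Bd.one (H : Bd Mv h y C) {v : Vec} {a : ℝ} (hv : Cmp Mv v a) (ha : a ≤ 1 / 2) :
    |dl [v] h y| ≤ 2 * a * C := by
  simpa using H [(v, a)] (by simp) (by simpa using hv) (by simpa using ha)

theorem Bd.two (H : Bd Mv h y C) {v w : Vec} {a b : ℝ} (hv : Cmp Mv v a) (hw : Cmp Mv w b)
    (ha : a + b ≤ 1 / 2) : |dl [v, w] h y| ≤ 2 * (a * b) * C := by
  simpa using H [(v, a), (w, b)] (by simp) (by simpa using ⟨hv, hw⟩) (by simpa using ha)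

theorem Bd.three (H : Bd Mv h y C) {u v w : Vec} {a b c : ℝ} (hu : Cmp Mv u a) (hv : Cmp Mv v b)
    (hw : Cmp Mv w c) (ha : a + (b + c) ≤ 1 / 2) :
    |dl [u, v, w] h y| ≤ 2 * (a * (b * c)) * C := by
  simpa using H [(u, a), (v, b), (w, c)] (by simp) (by simpa using ⟨hu, hv, hw⟩) (by simpa using ha)

/-- first order linearisation -/
theorem first (hM : ∀ z ∈ Mv, 0 ≤ z.2) (hx : 0 < x) (hx1 : x ≤ 1 / 100) {s : ℕ}
    {L : List (ℕ × ℕ × ℝ)} {V : Vec} (H : Gd m Mv x s L V) {W : Vec} (hC : 0 ≤ C)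
    (hb : ∀ i < m, Bd Mv h (W + ev i) C) :
    |h (W + ev s + V) - h (W + ev s) - TT L (fun i => h (W + ev i))| ≤ 4 * x * C * x := by
  refine H.tele hM h W (by positivity) fun z hz σ hσ => ?_
  have := (hb _ (H.mem z hz).2.1).two hσ (Cmp.single (H.mem z hz).2.2.1)
    (by linarith [(H.rate hM hz).2])
  exact this.trans (le_of_eq (by ring))

/-- second order linearisation -/
theorem second (hM : ∀ z ∈ Mv, 0 ≤ z.2) (hx : 0 < x) (hx1 : x ≤ 1 / 100) {s s' : ℕ}
    {L L' : List (ℕ × ℕ × ℝ)} {V V' : Vec} (H : Gd m Mv x s L V) (H' : Gd m Mv x s' L' V')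
    {Y : Vec} (hC : 0 ≤ C) (hb : ∀ i < m, ∀ j < m, Bd Mv h (Y + ev i + ev j) C) :
    |(h (Y + ev s + V + ev s' + V') - h (Y + ev s + V + ev s')) -
      (h (Y + ev s + ev s' + V') - h (Y + ev s + ev s')) -
      TT L (fun i => TT L' (fun j => h (Y + ev i + ev j)))| ≤ 8 * x ^ 3 * C := by
  have i1 := H.tele hM (fun y => h (y + ev s' + V') - h (y + ev s')) Y (B := 4 * x ^ 2 * C)
    (by positivity) fun z hz σ hσ => by
      have := (hb _ (H.mem z hz).2.1 _ H'.lt).three hσ (Cmp.single (H.mem z hz).2.2.1) H'.cmp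
        (by linarith [(H.rate hM hz).2])
      simp only [dl] at this ⊢
      simp only [add_right_comm _ (ev s') _] at this ⊢
      exact this.trans (le_of_eq (by ring))
  have i2 := TT_bd L (fun i => (h (Y + ev i + ev s' + V') - h (Y + ev i + ev s')) -
      TT L' (fun j => h (Y + ev i + ev j))) (B := 4 * x ^ 2 * C) fun z hz => by
    have hr := H.rate hM hz
    have hr0 := hr.1
    have j1 := H'.tele hM (fun y => h (y + ev z.1) - h (y + ev z.2.1)) Y (B := 4 * x * z.2.2 * C)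
      (by positivity) fun z' hz' σ hσ => by
        have := (hb _ (H'.mem z' hz').2.1 _ (H.mem z hz).2.1).three hσ
          (Cmp.single (H'.mem z' hz').2.2.1) (Cmp.single (H.mem z hz).2.2.1)
          (by linarith [(H'.rate hM hz').2, hr.2])
        have e : ∀ t : Vec, t + ev z.1 = t + ev z.2.1 + (ev z.1 - ev z.2.1) := fun t => by abel
        simp only [dl] at this ⊢
        rw [e (Y + ev z'.2.1 + σ + (ev z'.1 - ev z'.2.1)), e (Y + ev z'.2.1 + σ),
          e (Y + ev z'.2.1 + (ev z'.1 - ev z'.2.1)), e (Y + ev z'.2.1)]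
        have a1 : Y + ev z'.2.1 + σ + (ev z'.1 - ev z'.2.1) + ev z.2.1 =
          Y + ev z'.2.1 + ev z.2.1 + σ + (ev z'.1 - ev z'.2.1) := by abel
        have a2 : Y + ev z'.2.1 + σ + ev z.2.1 = Y + ev z'.2.1 + ev z.2.1 + σ := by abel
        have a3 : Y + ev z'.2.1 + (ev z'.1 - ev z'.2.1) + ev z.2.1 =
          Y + ev z'.2.1 + ev z.2.1 + (ev z'.1 - ev z'.2.1) := by abel
        rw [a1, a2, a3]
        exact this.trans (le_of_eq (by ring))
    rw [TT_sub] at j1
    have b1 : ∀ i, Y + ev s' + V' + ev i = Y + ev i + ev s' + V' := fun i => by abel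
    have b2 : ∀ i j, Y + ev j + ev i = Y + ev i + ev j := fun i j => add_right_comm _ _ _
    simp only [b1, b2 z.1, b2 z.2.1] at j1
    rw [abs_le] at j1 ⊢
    constructor <;> nlinarith [j1.1, j1.2]
  rw [TT_sub] at i2
  have i3 := i2.trans (mul_le_mul_of_nonneg_left H.sum (by positivity))
  rw [abs_le] at i1 i3 ⊢
  constructor <;> nlinarith [i1.1, i1.2, i3.1, i3.2]

theorem sum_k (r : ℕ) (κ kc : ℝ) :
    ∑ a ∈ range (2 * r), (if a % 2 = 1 then kc else κ) = r * (κ + kc) := by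
  induction r with
  | zero => simp
  | succ r ih =>
    rw [show 2 * (r + 1) = 2 * r + 1 + 1 from rfl, sum_range_succ, sum_range_succ, ih,
      if_neg (by omega), if_pos (by omega)]
    push_cast
    ring

theorem fo : Fo fun a => 2 * (a / 2) := fun a => Nat.mul_div_le a 2

theorem anc_iff (a i : ℕ) : anc (fun a => 2 * (a / 2)) a i ↔ a = i ∨ a = 2 * (i / 2) := by
  rw [fo.anc_iff, fo.anc_iff (i := 2 * (i / 2))]
  constructor
  · rintro (h | ⟨_, h | ⟨h, _⟩⟩)
    · exact Or.inl h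
    · exact Or.inr h
    · exact absurd (by omega) h
  · rintro (h | h)
    · exact Or.inl h
    · by_cases h' : 2 * (i / 2) = i
      · exact Or.inl (h.trans h')
      · exact Or.inr ⟨h', Or.inl h⟩

theorem expo {n i j : ℕ} (hi : i < n) (κ kc : ℝ) :
    ∑ a ∈ (range n).filter (fun a => anc (fun a => 2 * (a / 2)) a i ∧ anc (fun a => 2 * (a / 2)) a j),
      (if a % 2 = 1 then kc else κ) =
      if i / 2 = j / 2 then κ + if i % 2 = 1 ∧ j % 2 = 1 then kc else 0 else 0 := by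
  by_cases h1 : i / 2 = j / 2
  · rw [if_pos h1]
    by_cases h2 : i % 2 = 1 ∧ j % 2 = 1
    · have : (range n).filter (fun a => anc (fun a => 2 * (a / 2)) a i ∧
          anc (fun a => 2 * (a / 2)) a j) = {2 * (i / 2), i} := by
        ext a
        simp only [mem_filter, mem_range, anc_iff, mem_insert, mem_singleton]
        omega
      rw [this, sum_pair (by omega), if_neg (by omega), if_pos h2.1, if_pos h2]
    · have : (range n).filter (fun a => anc (fun a => 2 * (a / 2)) a i ∧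
          anc (fun a => 2 * (a / 2)) a j) = {2 * (i / 2)} := by
        ext a
        simp only [mem_filter, mem_range, anc_iff, mem_singleton]
        omega
      rw [this, sum_singleton, if_neg (by omega), if_neg h2, add_zero]
  · have : (range n).filter (fun a => anc (fun a => 2 * (a / 2)) a i ∧
        anc (fun a => 2 * (a / 2)) a j) = ∅ := by
      ext a
      simp only [mem_filter, mem_range, anc_iff, notMem_empty, iff_false]
      omega
    rw [this, sum_empty, if_neg h1]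

end CoarseX

open CoarseX in
theorem coarse_form {m r : ℕ} {h : Vec → ℝ} (hpos : ∀ Y, 0 < h Y) {Mv : Set (Vec × ℝ)}
    (hM : ∀ z ∈ Mv, 0 ≤ z.2) {Y : Vec} (hsl : SLa m ev h Y) {an : ℕ → ℕ} {V : ℕ → Vec}
    {x K θ κ kc : ℝ}
    (hV : ∀ e < r, an e < m ∧ ∃ L : List (ℕ × ℕ × ℝ),
      (∀ z ∈ L, z.1 < m ∧ z.2.1 < m ∧ (ev z.1 - ev z.2.1, z.2.2) ∈ Mv ∧
        Cmp Mv (ev (an e) - ev z.2.1) x) ∧
      (L.map fun z => z.2.2).sum ≤ x ∧ V e = (L.map fun z => ev z.1 - ev z.2.1).sum)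
    (hsm : ∀ i < m, ∀ j < m, ∀ v, Cmp Mv v 1 →
      Sm Mv h (Y + ev i + v) ∧ Sm Mv h (Y + ev i + ev j + v))
    (hK : ∀ i < m, h (Y + ev i) ≤ K * h Y ∧ ∀ j < m, h (Y + ev i + ev j) ≤ K ^ 2 * h Y ∧
      h Y ≤ K ^ 2 * h (Y + ev i + ev j))
    (hx : 0 < x) (hx1 : x ≤ 1 / 100) (hK1 : 1 ≤ K) (hθ : 0 < θ) (hκ : 0 ≤ κ)
    (h1 : 4 * θ * x ^ 2 ≤ kc) (h2 : r * (κ + kc) ≤ 1 / 4) (h3 : 4000 * K ^ 4 * x * r ≤ θ)
    (h4 : (4000 * K ^ 4 * x * r) ^ 2 ≤ θ * κ) (h5 : 20000 * K ^ 8 * r ^ 2 * (κ + kc) ≤ θ)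
    (v : ℕ → ℝ) :
    ∑ i ∈ range (2 * r), ∑ j ∈ range (2 * r), v i * v j *
      (h (Y + cd an V i + cd an V j) * h Y *
        Real.exp (-(if i / 2 = j / 2 then κ + if i % 2 = 1 ∧ j % 2 = 1 then kc else 0 else 0)) -
        h (Y + cd an V i) * h (Y + cd an V j)) ≤ 0 := by
  have hV' : ∀ e, ∃ L : List (ℕ × ℕ × ℝ), e < r → Gd m Mv x (an e) L (V e) := by
    intro e
    by_cases he : e < r
    · obtain ⟨h0, L, a1, a2, a3⟩ := hV e he
      exact ⟨L, fun _ => ⟨h0, a1, a2, a3⟩⟩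
    · exact ⟨[], fun h' => absurd h' he⟩
  choose Ls hLs using hV'
  have hG : ∀ a < 2 * r, Gd m Mv x (an (a / 2)) (Ls (a / 2)) (V (a / 2)) :=
    fun a ha => hLs _ (by omega)
  set c0 := h Y with hc0
  have c0p : 0 < c0 := hpos Y
  have hK0 : 0 ≤ K := by linarith
  have hB1 : ∀ i < m, Bd Mv h (Y + ev i) (K * c0) := fun i hi =>
    bd_of hpos hM (fun v hv => (hsm i hi i hi v hv).1) (hK i hi).1
  have hB2 : ∀ i < m, ∀ j < m, Bd Mv h (Y + ev i + ev j) (K ^ 2 * c0) := fun i hi j hj =>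
    bd_of hpos hM (fun v hv => (hsm i hi j hj v hv).2) ((hK i hi).2 j hj).1
  -- the linearised operators
  let T : ℕ → (ℕ → ℝ) → ℝ := fun a F => if a % 2 = 1 then TT (Ls (a / 2)) F else F (an (a / 2))
  have hT : ∀ a, ∃ U : ℕ → ℝ, a < 2 * r → ∀ F, T a F = ∑ i ∈ range m, U i * F i := by
    intro a
    by_cases ha : a < 2 * r
    · by_cases ho : a % 2 = 1
      · obtain ⟨U, hU⟩ := TT_rep (m := m) (Ls (a / 2))
          fun z hz => ⟨((hG a ha).mem z hz).1, ((hG a ha).mem z hz).2.1⟩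
        exact ⟨U, fun _ F => by simp only [T, if_pos ho, hU]⟩
      · exact ⟨_, fun _ F => by simp only [T, if_neg ho]; exact single_rep (hG a ha).lt F⟩
    · exact ⟨0, fun h' => absurd h' ha⟩
  choose U hU using hT
  have cde : ∀ a, ¬ a % 2 = 1 → cd an V a = ev (an (a / 2)) := fun a ha => by
    rw [cd, if_neg ha, add_zero]
  have cdo : ∀ a, a % 2 = 1 → cd an V a = ev (an (a / 2)) + V (a / 2) := fun a ha => by
    rw [cd, if_pos ha]
  have cdp : ∀ a, cd an V (2 * (a / 2)) = ev (an (a / 2)) := fun a => by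
    rw [cde _ (by omega), Nat.mul_div_cancel_left _ two_pos]
  have DDe : ∀ a, ¬ a % 2 = 1 → ∀ F : ℕ → ℝ, DD (fun a => 2 * (a / 2)) F a = F a := fun a ha F => by
    rw [DD, if_pos (by omega), sub_zero]
  have DDo : ∀ a, a % 2 = 1 → ∀ F : ℕ → ℝ,
      DD (fun a => 2 * (a / 2)) F a = F a - F (2 * (a / 2)) := fun a ha F => by
    rw [DD, if_neg (by omega)]
  have hW : ∀ g < 2 * r, ∃ W, Cmp Mv W x ∧ cd an V g = ev (an (g / 2)) + W := by
    intro g hg
    by_cases ho : g % 2 = 1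
    · exact ⟨_, (hG g hg).cmp, cdo g ho⟩
    · exact ⟨0, Cmp.zero Mv hx.le, by rw [cde g ho, add_zero]⟩
  -- first order facts at `Y`
  have f1 : ∀ a < 2 * r, |h (Y + ev (an (a / 2)) + V (a / 2)) - h (Y + ev (an (a / 2))) -
      TT (Ls (a / 2)) (fun i => h (Y + ev i))| ≤ 4 * x * (K * c0) * x := fun a ha =>
    first hM hx hx1 (hG a ha) (by positivity) hB1
  have f2 : ∀ a < 2 * r, |h (Y + ev (an (a / 2)) + V (a / 2)) - h (Y + ev (an (a / 2)))| ≤
      2 * x * (K * c0) := fun a ha => (hB1 _ (hG a ha).lt).one (hG a ha).cmp (by linarith)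
  have f3 : ∀ s < m, ∀ b < 2 * r, |c0 * (h (Y + ev s + ev (an (b / 2)) + V (b / 2)) -
      h (Y + ev s + ev (an (b / 2)))) - h (Y + ev s) * (h (Y + ev (an (b / 2)) + V (b / 2)) -
      h (Y + ev (an (b / 2)))) - (c0 * TT (Ls (b / 2)) (fun j => h (Y + ev s + ev j)) -
      h (Y + ev s) * TT (Ls (b / 2)) (fun j => h (Y + ev j)))| ≤
      10 * K ^ 2 * x * (2 * x) * c0 ^ 2 := by
    intro s hs b hb
    have a1 := first hM hx hx1 (hG b hb) (W := Y + ev s) (by positivity) (hB2 s hs)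
    have a2 := f1 b hb
    have a3 := (hK s hs).1
    have a4 := hpos (Y + ev s)
    generalize h (Y + ev s + ev (an (b / 2)) + V (b / 2)) - h (Y + ev s + ev (an (b / 2))) = A at *
    generalize h (Y + ev (an (b / 2)) + V (b / 2)) - h (Y + ev (an (b / 2))) = A' at *
    generalize TT (Ls (b / 2)) (fun j => h (Y + ev s + ev j)) = B at *
    generalize TT (Ls (b / 2)) (fun j => h (Y + ev j)) = B' at *
    generalize h (Y + ev s) = t at *
    have e : c0 * A - t * A' - (c0 * B - t * B') = c0 * (A - B) - t * (A' - B') := by ring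
    rw [e]
    refine (abs_sub _ _).trans ?_
    rw [abs_mul, abs_mul, abs_of_pos c0p, abs_of_pos a4]
    have b1 := mul_le_mul_of_nonneg_left a1 c0p.le
    have b2 := mul_le_mul a3 a2 (abs_nonneg _) (by positivity)
    have b3 : 0 ≤ K ^ 2 * x ^ 2 * c0 ^ 2 := by positivity
    nlinarith
  have hkc : 0 ≤ kc := le_trans (by positivity) h1
  have key := cg_alg (n := 2 * r) fo c0p (fun i => h (Y + cd an V i))
    (fun i j => h (Y + cd an V i + cd an V j))
    (fun a b => c0 * T a (fun i => T b fun j => h (Y + ev i + ev j)) -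
      T a (fun i => h (Y + ev i)) * T b (fun i => h (Y + ev i)))
    (fun i j => by rw [add_right_comm]) (fun _ => 2 * x) (fun a => if a % 2 = 1 then kc else κ)
    (η := 10 * K ^ 2 * x) (L := 2 * K ^ 2) (θ := θ) (κ := κ) ?_ ?_ ?_ ?_ ?_
    (fun _ => by positivity) (by positivity) (by nlinarith) hθ hκ ?_ ?_ ?_ ?_ ?_ v
  · refine le_of_eq_of_le (sum_congr rfl fun i hi => sum_congr rfl fun j _ => ?_) key
    rw [expo (mem_range.1 hi)]
  · intro ω
    have := hsl fun i => ∑ a ∈ range (2 * r), ω a * U a i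
    refine le_of_eq_of_le ?_ this
    calc _ = ∑ a ∈ range (2 * r), ∑ b ∈ range (2 * r), ∑ i ∈ range m, ∑ j ∈ range m,
          ω a * U a i * (ω b * U b j) *
            (h (Y + ev i + ev j) * c0 - h (Y + ev i) * h (Y + ev j)) := by
          refine sum_congr rfl fun a ha => sum_congr rfl fun b hb => ?_
          simp only [hU a (mem_range.1 ha), hU b (mem_range.1 hb)]
          rw [sum_mul_sum]
          simp only [mul_sum, ← sum_sub_distrib]
          exact sum_congr rfl fun i _ => sum_congr rfl fun j _ => by ring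
      _ = ∑ a ∈ range (2 * r), ∑ i ∈ range m, ∑ b ∈ range (2 * r), ∑ j ∈ range m,
          ω a * U a i * (ω b * U b j) *
            (h (Y + ev i + ev j) * c0 - h (Y + ev i) * h (Y + ev j)) :=
          sum_congr rfl fun a _ => sum_comm
      _ = ∑ i ∈ range m, ∑ a ∈ range (2 * r), ∑ j ∈ range m, ∑ b ∈ range (2 * r),
          ω a * U a i * (ω b * U b j) *
            (h (Y + ev i + ev j) * c0 - h (Y + ev i) * h (Y + ev j)) := by
          rw [sum_comm]
          exact sum_congr rfl fun i _ => sum_congr rfl fun a _ => sum_comm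
      _ = _ := by
          refine sum_congr rfl fun i _ => ?_
          rw [sum_comm]
          refine sum_congr rfl fun j _ => ?_
          rw [sum_mul_sum, sum_mul]
          exact sum_congr rfl fun a _ => by rw [sum_mul]
  · intro a ha b hb
    by_cases oa : a % 2 = 1 <;> by_cases ob : b % 2 = 1
    · -- child, child
      rw [if_neg (by omega : ¬ 2 * (a / 2) = a), if_neg (by omega : ¬ 2 * (b / 2) = b),
        if_neg (by omega : ¬ 2 * (a / 2) = a), if_neg (by omega : ¬ 2 * (b / 2) = b)]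
      simp only [DDo a oa, DDo b ob, cdo a oa, cdo b ob, cdp, T, if_pos oa, if_pos ob, ← add_assoc]
      have a1 := second hM hx hx1 (hG a ha) (hG b hb) (by positivity) hB2
      have a2 := f1 a ha
      have a3 := f1 b hb
      have a4 := f2 a ha
      have a5 := f2 b hb
      generalize h (Y + ev (an (a / 2)) + V (a / 2) + ev (an (b / 2)) + V (b / 2)) -
        h (Y + ev (an (a / 2)) + V (a / 2) + ev (an (b / 2))) -
        (h (Y + ev (an (a / 2)) + ev (an (b / 2)) + V (b / 2)) -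
          h (Y + ev (an (a / 2)) + ev (an (b / 2)))) = E at *
      generalize TT (Ls (a / 2)) (fun i => TT (Ls (b / 2)) fun j => h (Y + ev i + ev j)) = E' at *
      generalize h (Y + ev (an (a / 2)) + V (a / 2)) - h (Y + ev (an (a / 2))) = α at a2 a4 ⊢
      generalize h (Y + ev (an (b / 2)) + V (b / 2)) - h (Y + ev (an (b / 2))) = β at a3 a5 ⊢
      generalize TT (Ls (a / 2)) (fun i => h (Y + ev i)) = α' at a2 ⊢
      generalize TT (Ls (b / 2)) (fun i => h (Y + ev i)) = β' at a3 ⊢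
      have hxK : 0 < x * (K * c0) := by positivity
      have a6 : |β'| ≤ 3 * x * (K * c0) := by
        have : β' = β - (β - β') := by ring
        rw [this]
        refine (abs_sub _ _).trans ?_
        nlinarith
      have e : c0 * E - α * β - (c0 * E' - α' * β') =
        c0 * (E - E') - (α * (β - β') + (α - α') * β') := by ring
      rw [e]
      refine (abs_sub _ _).trans ((add_le_add_right (abs_add_le _ _) _).trans ?_)
      rw [abs_mul, abs_mul, abs_mul, abs_of_pos c0p]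
      have b1 := mul_le_mul_of_nonneg_left a1 c0p.le
      have b2 := mul_le_mul a4 a3 (abs_nonneg _) (by positivity)
      have b3 := mul_le_mul a2 a6 (abs_nonneg _) (by positivity)
      have b4 : 0 ≤ K ^ 2 * x ^ 3 * c0 ^ 2 := by positivity
      nlinarith
    · -- child, root
      rw [if_neg (by omega : ¬ 2 * (a / 2) = a), if_pos (by omega : 2 * (b / 2) = b),
        if_neg (by omega : ¬ 2 * (a / 2) = a), if_pos (by omega : 2 * (b / 2) = b)]
      simp only [DDo a oa, DDe b ob, cdo a oa, cde b ob, cdp, T, if_pos oa, if_neg ob, ← add_assoc]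
      have a1 := f3 _ (hG b hb).lt a ha
      have e1 : Y + ev (an (a / 2)) + V (a / 2) + ev (an (b / 2)) =
        Y + ev (an (b / 2)) + ev (an (a / 2)) + V (a / 2) := by abel
      have e2 : ∀ i, Y + ev i + ev (an (b / 2)) = Y + ev (an (b / 2)) + ev i :=
        fun i => add_right_comm _ _ _
      rw [e1]
      simp only [e2]
      refine le_of_eq_of_le ?_ (a1.trans (le_of_eq (by ring)))
      congr 1
      ring
    · -- root, child
      rw [if_pos (by omega : 2 * (a / 2) = a), if_neg (by omega : ¬ 2 * (b / 2) = b),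
        if_pos (by omega : 2 * (a / 2) = a), if_neg (by omega : ¬ 2 * (b / 2) = b)]
      simp only [DDe a oa, DDo b ob, cde a oa, cdo b ob, cdp, T, if_neg oa, if_pos ob, ← add_assoc]
      exact (f3 _ (hG a ha).lt b hb).trans (le_of_eq (by ring))
    · rw [if_pos (by omega : 2 * (a / 2) = a), if_pos (by omega : 2 * (b / 2) = b),
        if_pos (by omega : 2 * (a / 2) = a), if_pos (by omega : 2 * (b / 2) = b)]
      simp only [DDe a oa, DDe b ob, cde a oa, cde b ob, T, if_neg oa, if_neg ob]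
      simp
  · intro g hg
    obtain ⟨W, hW1, hW2⟩ := hW g hg
    have hs := (hG g hg).lt
    have a1 := (Sm.ratio hpos hM le_rfl
      (fun v hv => (hsm _ hs _ hs v (hv.mono (by norm_num))).2)
      ((hW1.add hW1).mono (by linarith))).2
    have e : Y + cd an V g + cd an V g = Y + ev (an (g / 2)) + ev (an (g / 2)) + (W + W) := by
      rw [hW2]; abel
    show c0 ≤ 2 * K ^ 2 * h (Y + cd an V g + cd an V g)
    rw [e]
    have a2 := ((hK _ hs).2 _ hs).2
    have a3 := mul_le_mul_of_nonneg_left a1 (sq_nonneg K)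
    linarith
  · intro a ha hpa g hg
    have oa : a % 2 = 1 := by
      have : 2 * (a / 2) ≠ a := hpa
      omega
    obtain ⟨W, hW1, hW2⟩ := hW g hg
    have hb := hB2 _ (hG a ha).lt _ (hG g hg).lt
    have a1 := hb.two hW1 (hG a ha).cmp (by linarith)
    have a2 := hb.one (hG a ha).cmp (by linarith)
    simp only [dl] at a1 a2
    rw [DDo a oa, cdo a oa, cdp, hW2]
    have e1 : Y + (ev (an (a / 2)) + V (a / 2)) + (ev (an (g / 2)) + W) =
      Y + ev (an (a / 2)) + ev (an (g / 2)) + W + V (a / 2) := by abel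
    rw [e1, ← add_assoc]
    have b1 : x * x * (K ^ 2 * c0) ≤ x * (K ^ 2 * c0) :=
      mul_le_mul_of_nonneg_right (by nlinarith) (by positivity)
    rw [abs_le] at a1 a2 ⊢
    constructor <;> nlinarith [a1.1, a1.2, a2.1, a2.2]
  · intro a ha hpa b hb hpb
    have oa : a % 2 = 1 := by
      have : 2 * (a / 2) ≠ a := hpa
      omega
    have ob : b % 2 = 1 := by
      have : 2 * (b / 2) ≠ b := hpb
      omega
    have a1 := (hB2 _ (hG a ha).lt _ (hG b hb).lt).two (hG a ha).cmp (hG b hb).cmp (by linarith)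
    simp only [dl] at a1
    simp only [DDo a oa, DDo b ob, cdo a oa, cdo b ob, cdp, ← add_assoc]
    have e1 : Y + ev (an (a / 2)) + V (a / 2) + ev (an (b / 2)) =
      Y + ev (an (a / 2)) + ev (an (b / 2)) + V (a / 2) := add_right_comm _ _ _
    rw [e1]
    have b1 : 0 ≤ x * x * (K ^ 2 * c0) := by positivity
    nlinarith
  · intro a _
    by_cases oa : a % 2 = 1
    · rw [if_neg (by omega : ¬ 2 * (a / 2) = a), if_pos oa]
      linarith
    · rw [if_pos (by omega : 2 * (a / 2) = a), if_neg oa]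
  · rw [sum_k]; exact h2
  · have : 0 ≤ K ^ 4 * x * r := by positivity
    push_cast
    nlinarith
  · refine le_trans (pow_le_pow_left₀ (by positivity) ?_ 2) h4
    have : 0 ≤ K ^ 4 * x * r := by positivity
    push_cast
    nlinarith
  · rw [sum_k]
    have : 0 ≤ K ^ 8 * r ^ 2 * (κ + kc) := by positivity
    push_cast
    nlinarith

end Crest.Agent.R302
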