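import Crest.Agent.R302.Nice

/-! Row 302: sources of Poincaré inequalities. -/

set_option autoImplicit false

namespace Crest.Agent.R302

open Crest.Agent.PT Crest.Agent.R309 Finset

namespace PoiX

theorem var_eq {σ : Type} (Ω : Finset σ) (w f : σ → ℝ) :
    2 * ((∑ a ∈ Ω, w a) * (∑ a ∈ Ω, w a * f a ^ 2) - (∑ a ∈ Ω, w a * f a) ^ 2)
      = ∑ a ∈ Ω, ∑ b ∈ Ω, w a * w b * (f a - f b) ^ 2 := by
  have e1 : (∑ a ∈ Ω, w a) * (∑ a ∈ Ω, w a * f a ^ 2) = ∑ a ∈ Ω, ∑ b ∈ Ω, w a * (w b * f b ^ 2) :=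
    sum_mul_sum _ _ _ _
  have e2 : (∑ a ∈ Ω, w a) * (∑ a ∈ Ω, w a * f a ^ 2) = ∑ a ∈ Ω, ∑ b ∈ Ω, w a * f a ^ 2 * w b := by
    rw [mul_comm]; exact sum_mul_sum _ _ _ _
  have e3 : (∑ a ∈ Ω, w a * f a) ^ 2 = ∑ a ∈ Ω, ∑ b ∈ Ω, w a * f a * (w b * f b) := by
    rw [sq]; exact sum_mul_sum _ _ _ _
  have e4 : ∑ a ∈ Ω, ∑ b ∈ Ω, w a * w b * (f a - f b) ^ 2 =
      ∑ a ∈ Ω, ∑ b ∈ Ω, w a * (w b * f b ^ 2) + ∑ a ∈ Ω, ∑ b ∈ Ω, w a * f a ^ 2 * w b -
        2 * ∑ a ∈ Ω, ∑ b ∈ Ω, w a * f a * (w b * f b) := by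
    simp only [mul_sum, ← sum_add_distrib, ← sum_sub_distrib]
    exact sum_congr rfl fun a _ => sum_congr rfl fun b _ => by ring
  linarith

theorem var_le {σ : Type} (Ω : Finset σ) (w c f : σ → ℝ) (K : ℝ) (h0 : ∀ a ∈ Ω, 0 ≤ w a)
    (h : ∀ a ∈ Ω, w a ≤ K * c a) :
    (∑ a ∈ Ω, w a) * (∑ a ∈ Ω, w a * f a ^ 2) - (∑ a ∈ Ω, w a * f a) ^ 2
      ≤ K ^ 2 * ((∑ a ∈ Ω, c a) * (∑ a ∈ Ω, c a * f a ^ 2) - (∑ a ∈ Ω, c a * f a) ^ 2) := by
  have e1 := var_eq Ω w f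
  have e2 := var_eq Ω c f
  have e3 : ∑ a ∈ Ω, ∑ b ∈ Ω, w a * w b * (f a - f b) ^ 2
      ≤ K ^ 2 * ∑ a ∈ Ω, ∑ b ∈ Ω, c a * c b * (f a - f b) ^ 2 := by
    simp only [mul_sum]
    refine sum_le_sum fun a ha => sum_le_sum fun b hb => ?_
    have h1 : w a * w b ≤ K * c a * (K * c b) :=
      mul_le_mul (h a ha) (h b hb) (h0 b hb) ((h0 a ha).trans (h a ha))
    have h2 := mul_le_mul_of_nonneg_right h1 (sq_nonneg (f a - f b))
    linarith
  rw [← e1, ← e2] at e3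
  linarith

theorem sq_exp {σ : Type} (Ω : Finset σ) (w f : σ → ℝ) (c : ℝ) :
    ∑ a ∈ Ω, w a * (f a - c) ^ 2 =
      ∑ a ∈ Ω, w a * f a ^ 2 - 2 * c * ∑ a ∈ Ω, w a * f a + c ^ 2 * ∑ a ∈ Ω, w a := by
  simp only [mul_sum, ← sum_add_distrib, ← sum_sub_distrib]
  exact sum_congr rfl fun a _ => by ring

theorem getD_inc {a : List ℕ} {e : ℕ} (he : e < a.length) (i : ℕ) :
    (inc a e).getD i 0 = if i = e then a.getD e 0 + 1 else a.getD i 0 := by
  unfold inc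
  split_ifs with h
  · subst h; simp [List.getD_eq_getElem?_getD, he]
  · simp [List.getD_eq_getElem?_getD, List.getElem?_set_ne (Ne.symm h)]

theorem inc_mem {E : ℕ} {lo hi a : List ℕ} (ha : a ∈ bx E lo hi) {e : ℕ} (he : e < E)
    (h : a.getD e 0 < hi.getD e 0) : inc a e ∈ bx E lo hi := by
  obtain ⟨h1, h2⟩ := mem_bx.1 ha
  refine mem_bx.2 ⟨by simp [inc, h1], fun i hi => ?_⟩
  rw [getD_inc (by omega)]
  have := h2 i hi
  split_ifs with e1
  · subst e1; omega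
  · exact this

theorem getD_drop (l : List ℕ) (n i : ℕ) : (l.drop n).getD i 0 = l.getD (n + i) 0 := by
  simp [List.getD_eq_getElem?_getD]

theorem getD_app_left {k : List ℕ} (a : List ℕ) {e : ℕ} (he : e < k.length) :
    (k ++ a).getD e 0 = k.getD e 0 := List.getD_append _ _ _ _ he

theorem getD_app_right (k a : List ℕ) (e : ℕ) : (k ++ a).getD (k.length + e) 0 = a.getD e 0 := by
  rw [List.getD_append_right _ _ _ _ (Nat.le_add_right _ _), Nat.add_sub_cancel_left]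

theorem inc_app_left {k : List ℕ} (a : List ℕ) {e : ℕ} (he : e < k.length) :
    inc (k ++ a) e = inc k e ++ a := by
  unfold inc
  rw [getD_app_left a he, List.set_append, if_pos he]

theorem inc_app_right (k a : List ℕ) (e : ℕ) : inc (k ++ a) (k.length + e) = k ++ inc a e := by
  unfold inc
  rw [getD_app_right, List.set_append, if_neg (by omega), Nat.add_sub_cancel_left]

theorem app_mem {E1 E2 : ℕ} {lo hi k a : List ℕ} (hk : k.length = E1) :
    k ++ a ∈ bx (E1 + E2) lo hi ↔ k ∈ bx E1 lo hi ∧ a ∈ bx E2 (lo.drop E1) (hi.drop E1) := by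
  subst hk
  simp only [mem_bx, List.length_append, add_right_inj, true_and, getD_drop]
  constructor
  · rintro ⟨h1, h2⟩
    refine ⟨fun i hi => ?_, h1, fun i hi => ?_⟩
    · have := h2 i (by omega)
      rwa [getD_app_left a hi] at this
    · have := h2 (k.length + i) (by omega)
      rwa [getD_app_right] at this
  · rintro ⟨h1, h2, h3⟩
    refine ⟨h2, fun i hi => ?_⟩
    rcases Nat.lt_or_ge i k.length with h | h
    · rw [getD_app_left a h]; exact h1 i h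
    · obtain ⟨j, rfl⟩ := Nat.exists_eq_add_of_le h
      rw [getD_app_right]; exact h3 j (by omega)

theorem sum_bx_add (E1 E2 : ℕ) (lo hi : List ℕ) (G : List ℕ → ℝ) :
    ∑ x ∈ bx (E1 + E2) lo hi, G x =
      ∑ k ∈ bx E1 lo hi, ∑ a ∈ bx E2 (lo.drop E1) (hi.drop E1), G (k ++ a) := by
  rw [← sum_product' (f := fun k a => G (k ++ a))]
  refine sum_nbij' (fun x => (x.take E1, x.drop E1)) (fun p => p.1 ++ p.2) (fun x hx => ?_)
    (fun p hp => ?_) (fun x _ => List.take_append_drop _ _) (fun p hp => ?_) fun x _ => ?_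
  · have hl := (mem_bx.1 hx).1
    rw [← List.take_append_drop E1 x, app_mem (by rw [List.length_take]; omega)] at hx
    exact mem_product.2 hx
  · have := mem_product.1 hp
    exact (app_mem (mem_bx.1 this.1).1).2 this
  · have := (mem_bx.1 (mem_product.1 hp).1).1
    rw [List.take_left' this, List.drop_left' this]
  · rw [List.take_append_drop]

/-- change of the fibre mean along one move -/
theorem mean_step {σ : Type} (B : Finset σ) (w1 w2 f1 f2 : σ → ℝ) (F1 F2 : ℝ)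
    (h2 : ∀ a ∈ B, 0 ≤ w2 a) (h21 : ∀ a ∈ B, w2 a ≤ 2 * w1 a)
    (hF : ∑ a ∈ B, w2 a * f2 a = (∑ a ∈ B, w2 a) * F2) :
    (∑ a ∈ B, w2 a) * (F2 - F1) ^ 2 ≤ 4 * ∑ a ∈ B, min (w1 a) (w2 a) * (f2 a - f1 a) ^ 2 +
      4 * ∑ a ∈ B, w1 a * (f1 a - F1) ^ 2 := by
  have e1 := sq_exp B w2 f2 F1
  have e2 := sq_exp B w2 f2 F2
  have e3 : 0 ≤ ∑ a ∈ B, w2 a * (f2 a - F2) ^ 2 :=
    sum_nonneg fun a ha => mul_nonneg (h2 a ha) (sq_nonneg _)
  have e4 : (∑ a ∈ B, w2 a) * (F2 - F1) ^ 2 ≤ ∑ a ∈ B, w2 a * (f2 a - F1) ^ 2 := by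
    rw [hF] at e1 e2
    linarith
  refine e4.trans ?_
  rw [mul_sum, mul_sum, ← sum_add_distrib]
  refine sum_le_sum fun a ha => ?_
  have a0 := h2 a ha
  have a1 := h21 a ha
  have a2 : w2 a ≤ 2 * min (w1 a) (w2 a) := by
    rcases le_total (w1 a) (w2 a) with h | h
    · rw [min_eq_left h]; exact a1
    · rw [min_eq_right h]; linarith
  have a3 : (f2 a - F1) ^ 2 ≤ 2 * (f2 a - f1 a) ^ 2 + 2 * (f1 a - F1) ^ 2 := by
    nlinarith [sq_nonneg (f2 a - f1 a - (f1 a - F1))]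
  have a4 := mul_le_mul_of_nonneg_left a3 a0
  have a5 := mul_le_mul_of_nonneg_right a2 (sq_nonneg (f2 a - f1 a))
  have a6 := mul_le_mul_of_nonneg_right a1 (sq_nonneg (f1 a - F1))
  linarith

end PoiX

open PoiX

/-- comparison of weights -/
theorem Poi.cmp {E : ℕ} {lo hi : List ℕ} {C κ : ℝ} {c w : List ℕ → ℝ} (h : Poi E lo hi C c)
    (hC : 0 ≤ C) (hκ : 1 ≤ κ) (hc : ∀ a ∈ bx E lo hi, 0 < c a)
    (h1 : ∀ a ∈ bx E lo hi, c a ≤ κ * w a) (h2 : ∀ a ∈ bx E lo hi, w a ≤ κ * c a) :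
    Poi E lo hi (κ ^ 4 * C) w := by
  intro f
  have hκ0 : 0 < κ := by linarith
  have w0 : ∀ a ∈ bx E lo hi, 0 ≤ w a := fun a ha =>
    ((mul_pos_iff_of_pos_left hκ0).1 ((hc a ha).trans_le (h1 a ha))).le
  have a1 := var_le (bx E lo hi) w c f κ w0 h2
  have a2 := h f
  have a3 : ∑ a ∈ bx E lo hi, c a ≤ κ * ∑ a ∈ bx E lo hi, w a := by
    rw [mul_sum]; exact sum_le_sum h1
  have a4 : ∑ e ∈ range E, ∑ a ∈ (bx E lo hi).filter (fun a => a.getD e 0 < hi.getD e 0),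
        min (c a) (c (inc a e)) * (f (inc a e) - f a) ^ 2 ≤
      κ * ∑ e ∈ range E, ∑ a ∈ (bx E lo hi).filter (fun a => a.getD e 0 < hi.getD e 0),
        min (w a) (w (inc a e)) * (f (inc a e) - f a) ^ 2 := by
    simp only [mul_sum]
    refine sum_le_sum fun e he => sum_le_sum fun a ha => ?_
    obtain ⟨ha1, ha2⟩ := mem_filter.1 ha
    rw [← mul_assoc, mul_min_of_nonneg _ _ hκ0.le]
    exact mul_le_mul_of_nonneg_right (min_le_min (h1 a ha1)
      (h1 _ (inc_mem ha1 (mem_range.1 he) ha2))) (sq_nonneg _)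
  have a5 : 0 ≤ ∑ e ∈ range E, ∑ a ∈ (bx E lo hi).filter (fun a => a.getD e 0 < hi.getD e 0),
        min (c a) (c (inc a e)) * (f (inc a e) - f a) ^ 2 :=
    sum_nonneg fun e he => sum_nonneg fun a ha => by
      obtain ⟨ha1, ha2⟩ := mem_filter.1 ha
      exact mul_nonneg (le_min (hc a ha1).le (hc _ (inc_mem ha1 (mem_range.1 he) ha2)).le)
        (sq_nonneg _)
  have a6 : 0 ≤ ∑ a ∈ bx E lo hi, w a := sum_nonneg w0
  have a7 := mul_le_mul (mul_le_mul_of_nonneg_left a3 hC) a4 a5 (by positivity)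
  refine a1.trans ((mul_le_mul_of_nonneg_left (a2.trans a7) (sq_nonneg κ)).trans_eq ?_)
  ring

/-- a box with one point -/
theorem Poi.point {E : ℕ} {lo hi : List ℕ} {C : ℝ} {w : List ℕ → ℝ} (hC : 0 ≤ C)
    (hw : ∀ a, 0 ≤ w a) (h : ∀ e < E, lo.getD e 0 = hi.getD e 0) : Poi E lo hi C w := by
  intro f
  have e1 := var_eq (bx E lo hi) w f
  have e2 : ∑ a ∈ bx E lo hi, ∑ b ∈ bx E lo hi, w a * w b * (f a - f b) ^ 2 = 0 := by
    refine sum_eq_zero fun a ha => sum_eq_zero fun b hb => ?_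
    obtain ⟨a1, a2⟩ := mem_bx.1 ha
    obtain ⟨b1, b2⟩ := mem_bx.1 hb
    have : a = b := List.ext_getElem (a1.trans b1.symm) fun i i1 i2 => by
      have c1 := a2 i (by omega)
      have c2 := b2 i (by omega)
      have c3 := h i (by omega)
      rw [List.getD_eq_getElem _ _ i1] at c1
      rw [List.getD_eq_getElem _ _ i2] at c2
      omega
    rw [this]; simp
  have e3 : 0 ≤ C * (∑ a ∈ bx E lo hi, w a) *
      ∑ e ∈ range E, ∑ a ∈ (bx E lo hi).filter (fun a => a.getD e 0 < hi.getD e 0),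
        min (w a) (w (inc a e)) * (f (inc a e) - f a) ^ 2 :=
    mul_nonneg (mul_nonneg hC (sum_nonneg fun a _ => hw a)) (sum_nonneg fun e _ =>
      sum_nonneg fun a _ => mul_nonneg (le_min (hw _) (hw _)) (sq_nonneg _))
  linarith

/-- locally Lorentzian weights -/
theorem Poi.of_SL {E : ℕ} {c : Cfg → ℝ} (hpos : ∀ β, 0 < c β) {U : ℕ} (hU : 2 ≤ U)
    (hS : ∀ β : Cfg, (∀ i, β i ≤ U) → SL (dirs E) c β) {K : ℝ} (hK : 1 ≤ K)
    (hr : ∀ β : Cfg, (∀ i, β i ≤ U) → ∀ i ∈ dirs E,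
      c (β + uv i) ≤ K * c β ∧ c β ≤ K * c (β + uv i))
    {ρ lo hi : List ℕ} (hρ : ∀ e < E, ρ.getD e 0 + 2 ≤ U) (h : Sub E ρ lo hi) :
    Poi E lo hi (10 * ((E : ℝ) + 1) ^ 2 * (U : ℝ) ^ 4 * K ^ 4) fun a => c (cfgOf E ρ 0 a) := by
  intro f
  exact poincare_bx hpos hS hK (fun _ => 1) (fun _ => one_pos)
    (fun β hβ i hi => by simpa using hr β hβ i hi) ρ 0 lo hi (by omega) hρ h f

/-- fibres and marginal -/
theorem Poi.two {E1 E2 : ℕ} {lo hi : List ℕ} {C1 C2 : ℝ} {w : List ℕ → ℝ} (hw : ∀ a, 0 < w a)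
    (hC1 : 1 ≤ C1) (hC2 : 1 ≤ C2)
    (h1 : ∀ k ∈ bx E1 lo hi, Poi E2 (lo.drop E1) (hi.drop E1) C1 fun a => w (k ++ a))
    (h2 : Poi E1 lo hi C2 fun k => ∑ a ∈ bx E2 (lo.drop E1) (hi.drop E1), w (k ++ a))
    (h3 : ∀ k ∈ bx E1 lo hi, ∀ e < E1, k.getD e 0 < hi.getD e 0 →
      ∀ a ∈ bx E2 (lo.drop E1) (hi.drop E1),
        w (inc k e ++ a) ≤ 2 * w (k ++ a) ∧ w (k ++ a) ≤ 2 * w (inc k e ++ a)) :
    Poi (E1 + E2) lo hi (100 * ((E1 : ℝ) + 1) * C1 * C2) w := by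
  intro f
  set A := bx E1 lo hi with hA
  set B := bx E2 (lo.drop E1) (hi.drop E1) with hB
  set W : List ℕ → ℝ := fun k => ∑ a ∈ B, w (k ++ a) with hW
  set F : List ℕ → ℝ := fun k => (∑ a ∈ B, w (k ++ a) * f (k ++ a)) / W k with hF
  set v : List ℕ → ℝ := fun k => ∑ a ∈ B, w (k ++ a) * (f (k ++ a) - F k) ^ 2 with hv
  set X : ℕ → List ℕ → ℝ := fun e k =>
    ∑ a ∈ B, min (w (k ++ a)) (w (inc k e ++ a)) * (f (inc k e ++ a) - f (k ++ a)) ^ 2 with hX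
  set Y : List ℕ → ℝ := fun k => ∑ e ∈ range E2,
    ∑ a ∈ B.filter (fun a => a.getD e 0 < (hi.drop E1).getD e 0),
      min (w (k ++ a)) (w (k ++ inc a e)) * (f (k ++ inc a e) - f (k ++ a)) ^ 2 with hY
  have W0 : ∀ k, 0 ≤ W k := fun k => sum_nonneg fun a _ => (hw _).le
  have v0 : ∀ k, 0 ≤ v k := fun k => sum_nonneg fun a _ => mul_nonneg (hw _).le (sq_nonneg _)
  have X0 : ∀ e k, 0 ≤ X e k := fun e k => sum_nonneg fun a _ =>
    mul_nonneg (le_min (hw _).le (hw _).le) (sq_nonneg _)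
  have Y0 : ∀ k, 0 ≤ Y k := fun k => sum_nonneg fun e _ => sum_nonneg fun a _ =>
    mul_nonneg (le_min (hw _).le (hw _).le) (sq_nonneg _)
  have hWF : ∀ k, ∑ a ∈ B, w (k ++ a) * f (k ++ a) = W k * F k := fun k => by
    rcases B.eq_empty_or_nonempty with h | h
    · simp [hW, h]
    · have : 0 < W k := sum_pos (fun a _ => hw _) h
      simp only [hF]
      field_simp
  have hsq : ∀ k, ∑ a ∈ B, w (k ++ a) * f (k ++ a) ^ 2 = v k + W k * F k ^ 2 := fun k => by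
    have := sq_exp B (fun a => w (k ++ a)) (fun a => f (k ++ a)) (F k)
    simp only [hWF k] at this
    simp only [hv, hW] at this ⊢
    linarith
  have hvY : ∀ k ∈ A, v k ≤ C1 * Y k := fun k hk => by
    rcases B.eq_empty_or_nonempty with h | h
    · simp [hv, hY, h]
    · have hp : 0 < W k := sum_pos (fun a _ => hw _) h
      have := h1 k hk fun a => f (k ++ a)
      simp only [← hB] at this
      rw [hWF k, hsq k] at this
      refine le_of_mul_le_mul_left ?_ hp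
      change W k * (v k + W k * F k ^ 2) - (W k * F k) ^ 2 ≤ C1 * W k * Y k at this
      linarith
  have hD : ∑ e ∈ range (E1 + E2), ∑ a ∈ (bx (E1 + E2) lo hi).filter
        (fun a => a.getD e 0 < hi.getD e 0), min (w a) (w (inc a e)) * (f (inc a e) - f a) ^ 2 =
      ∑ e ∈ range E1, ∑ k ∈ A.filter (fun k => k.getD e 0 < hi.getD e 0), X e k + ∑ k ∈ A, Y k := by
    rw [sum_range_add]
    congr 1
    · refine sum_congr rfl fun e he => ?_
      rw [sum_filter, sum_filter, sum_bx_add]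
      refine sum_congr rfl fun k hk => ?_
      have hl : e < k.length := by rw [(mem_bx.1 hk).1]; exact mem_range.1 he
      simp only [getD_app_left _ hl, inc_app_left _ hl]
      split_ifs
      · rfl
      · simp
    · simp only [hY]
      rw [sum_comm]
      refine sum_congr rfl fun e _ => ?_
      rw [sum_filter, sum_bx_add]
      refine sum_congr rfl fun k hk => ?_
      have hl := (mem_bx.1 hk).1
      rw [sum_filter]
      refine sum_congr rfl fun a _ => ?_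
      rw [getD_drop, ← hl, getD_app_right, inc_app_right]
  have hM : ∑ e ∈ range E1, ∑ k ∈ A.filter (fun k => k.getD e 0 < hi.getD e 0),
        min (W k) (W (inc k e)) * (F (inc k e) - F k) ^ 2 ≤
      4 * ∑ e ∈ range E1, ∑ k ∈ A.filter (fun k => k.getD e 0 < hi.getD e 0), X e k +
        4 * E1 * ∑ k ∈ A, v k := by
    have e1 : 4 * (E1 : ℝ) * ∑ k ∈ A, v k = ∑ _e ∈ range E1, 4 * ∑ k ∈ A, v k := by
      rw [sum_const, card_range, nsmul_eq_mul]; ring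
    rw [e1, mul_sum, ← sum_add_distrib]
    refine sum_le_sum fun e he => ?_
    have e2 : ∑ k ∈ A.filter (fun k => k.getD e 0 < hi.getD e 0), v k ≤ ∑ k ∈ A, v k :=
      sum_le_sum_of_subset_of_nonneg (filter_subset _ _) fun k _ _ => v0 k
    refine le_trans ?_ (add_le_add_right (mul_le_mul_of_nonneg_left e2 (by norm_num)) _)
    rw [mul_sum, mul_sum, ← sum_add_distrib]
    refine sum_le_sum fun k hk => ?_
    obtain ⟨hk1, hk2⟩ := mem_filter.1 hk
    refine (mul_le_mul_of_nonneg_right (min_le_right _ _) (sq_nonneg _)).trans ?_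
    exact mean_step B (fun a => w (k ++ a)) (fun a => w (inc k e ++ a)) (fun a => f (k ++ a))
      (fun a => f (inc k e ++ a)) (F k) (F (inc k e)) (fun a _ => (hw _).le)
      (fun a ha => (h3 k hk1 e (mem_range.1 he) hk2 a ha).1) (hWF _)
  have hP := h2 F
  simp only [← hA] at hP
  have hvs : ∑ k ∈ A, v k ≤ C1 * ∑ k ∈ A, Y k := by
    rw [mul_sum]; exact sum_le_sum hvY
  have s1 : ∑ x ∈ bx (E1 + E2) lo hi, w x = ∑ k ∈ A, W k := sum_bx_add E1 E2 lo hi w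
  have s2 : ∑ x ∈ bx (E1 + E2) lo hi, w x * f x = ∑ k ∈ A, W k * F k := by
    rw [sum_bx_add]; exact sum_congr rfl fun k _ => hWF k
  have s3 : ∑ x ∈ bx (E1 + E2) lo hi, w x * f x ^ 2 =
      ∑ k ∈ A, v k + ∑ k ∈ A, W k * F k ^ 2 := by
    rw [sum_bx_add, ← sum_add_distrib]; exact sum_congr rfl fun k _ => hsq k
  rw [s1, s2, s3, hD]
  have Z0 : 0 ≤ ∑ k ∈ A, W k := sum_nonneg fun k _ => W0 k
  have D1 : 0 ≤ ∑ e ∈ range E1, ∑ k ∈ A.filter (fun k => k.getD e 0 < hi.getD e 0), X e k :=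
    sum_nonneg fun e _ => sum_nonneg fun k _ => X0 e k
  have D2 : 0 ≤ ∑ k ∈ A, Y k := sum_nonneg fun k _ => Y0 k
  have hP' := hP.trans (mul_le_mul_of_nonneg_left hM (mul_nonneg (by linarith) Z0))
  generalize ∑ e ∈ range E1, ∑ k ∈ A.filter (fun k => k.getD e 0 < hi.getD e 0), X e k = x at *
  generalize ∑ k ∈ A, Y k = y at *
  generalize ∑ k ∈ A, v k = u at *
  generalize ∑ k ∈ A, W k = Z at *
  have n0 : (0 : ℝ) ≤ E1 := Nat.cast_nonneg _
  have b1 : u + C2 * (4 * x + 4 * E1 * u) ≤ 100 * ((E1 : ℝ) + 1) * C1 * C2 * (x + y) := by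
    have c1 : 1 + C2 * (4 * E1) ≤ 100 * ((E1 : ℝ) + 1) * C2 := by nlinarith
    have c2 : (1 + C2 * (4 * E1)) * u ≤ 100 * ((E1 : ℝ) + 1) * C2 * (C1 * y) :=
      (mul_le_mul_of_nonneg_left hvs (by positivity)).trans
        (mul_le_mul_of_nonneg_right c1 (by positivity))
    have c3 : 4 ≤ 100 * ((E1 : ℝ) + 1) * C1 := by nlinarith
    have c4 : 4 * (C2 * x) ≤ 100 * ((E1 : ℝ) + 1) * C1 * (C2 * x) :=
      mul_le_mul_of_nonneg_right c3 (by positivity)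
    linarith
  have b2 := mul_le_mul_of_nonneg_left b1 Z0
  linarith

end Crest.Agent.R302
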