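import Crest.Agent.R302.Reg
import Crest.Agent.R302.CoarseA
import Crest.Agent.R302.Poi

/-! Row 302: Poincaré inequality of the fat marginal. -/

set_option autoImplicit false

namespace Crest.Agent.R302

open Crest.Agent.PT Crest.Agent.R309 Finset

namespace CoB

/-- the invariant directions -/
def inv (H : Vec → ℝ) : AddSubgroup Vec where
  carrier := {v | ∀ y, H (y + v) = H y}
  zero_mem' := fun y => by rw [add_zero]
  add_mem' := fun {a b} ha hb y => by rw [← add_assoc, hb, ha]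
  neg_mem' := fun {a} ha y => by rw [← ha (y + -a), neg_add_cancel_right]

/-- the moves -/
def Mv (S : Mod) (H : Vec → ℝ) : Set (Vec × ℝ) :=
  mvs (2 * S.n) S.p (fun a => 16 * S.eps a) ∪ {z | z.1 ∈ (inv H : Set Vec) ∧ z.2 = 0}

variable {S : Mod} {C H : Vec → ℝ}

theorem Mv_nonneg : ∀ z ∈ Mv S H, 0 ≤ z.2 := by
  rintro z (⟨a, -, -, -, h⟩ | h)
  · rw [h]; have := Mod.eps_pos (S := S) a; positivity
  · exact h.2.ge

theorem split (h : S.OK) (L : List (Vec × ℝ)) (hL : ∀ z ∈ L, z ∈ Mv S H) :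
    ∃ v u : Vec, (L.map Prod.fst).sum = v + u ∧ u ∈ inv H ∧
      ∀ a, 16 * S.eps a * |(S.X a v : ℝ)| ≤ (L.map Prod.snd).sum := by
  induction L with
  | nil =>
    refine ⟨0, 0, by simp, zero_mem _, fun a => ?_⟩
    simp [Mod.X, sm]
  | cons z L ih =>
    obtain ⟨v, u, h1, h2, h3⟩ := ih fun z hz => hL z (List.mem_cons_of_mem _ hz)
    rcases hL z List.mem_cons_self with ⟨c, hc, -, hz, hz2⟩ | hz
    · refine ⟨z.1 + v, u, by rw [List.map_cons, List.sum_cons, h1, add_assoc], h2, fun a => ?_⟩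
      rw [List.map_cons, List.sum_cons, hz2, Mod.X_add]
      have e := Mod.eps_pos (S := S) a
      have e' := Mod.eps_pos (S := S) c
      have hX : 16 * S.eps a * |(S.X a z.1 : ℝ)| ≤ 16 * S.eps c := by
        have hb := h.X_bb (a := a) hc
        have hn : S.X a (-bb S.p c) = -S.X a (bb S.p c) := by
          rw [← neg_one_smul ℤ (bb S.p c), Mod.X_smul]; ring
        rcases hz with hz | hz <;> rw [hz] <;> [skip; rw [hn]] <;> rw [hb] <;> split_ifs with hac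
        · subst hac; simp
        · simp; positivity
        · subst hac; simp
        · simp; positivity
      push_cast
      have := mul_le_mul_of_nonneg_left (abs_add_le (S.X a z.1 : ℝ) (S.X a v))
        (by positivity : 0 ≤ 16 * S.eps a)
      have := h3 a
      linarith
    · refine ⟨v, z.1 + u, by rw [List.map_cons, List.sum_cons, h1]; abel, add_mem hz.1 h2, fun a => ?_⟩
      rw [List.map_cons, List.sum_cons, hz.2, zero_add]
      exact h3 a

theorem Q1 (h : S.OK) : (4096 : ℝ) ≤ S.Q := by exact_mod_cast h.Q_ge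

theorem sm_at (h : S.OK) (hH : S.Marg C H) {r : ℕ} {Y : Vec} (hY : S.Om r Y) (hr : r + 1 ≤ S.Q ^ 10)
    {v : Vec} (hv : Cmp (Mv S H) v 1) : Sm (Mv S H) H (Y + v) := by
  obtain ⟨L, hL, rfl, hs⟩ := hv
  obtain ⟨v, u, h1, h2, h3⟩ := split h L hL
  rw [h1, ← add_assoc]
  refine Sm.shift h2 (Sm.glue (fun v hv => hv) (hH.sm _ ((hY.add (r' := 1) fun a _ => ?_).mono hr)))
  have h4 := (h3 a).trans hs
  have hQ := Q1 h
  have h5 : (1 : ℝ) ≤ (S.Q : ℝ) ^ 14 := one_le_pow₀ (by linarith)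
  have h6 : (0 : ℝ) < 2 ^ S.j a := by positivity
  have h7 : |(S.X a v : ℝ)| ≤ 2 ^ S.j a := by
    unfold Mod.eps at h4
    rw [← mul_div_assoc, div_mul_eq_mul_div, div_le_one h6] at h4
    nlinarith [abs_nonneg (S.X a v : ℝ)]
  rw [Nat.cast_one, one_mul]
  exact_mod_cast h7

theorem bb_mem {a : ℕ} (ha : a < 2 * S.n) (hp : S.p a ≠ a) :
    (bb S.p a, 16 * S.eps a) ∈ Mv S H ∧ (-bb S.p a, 16 * S.eps a) ∈ Mv S H :=
  ⟨Or.inl ⟨a, ha, hp, Or.inl rfl, rfl⟩, Or.inl ⟨a, ha, hp, Or.inr rfl, rfl⟩⟩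

theorem nQ (h : S.OK) : 2048 * (S.n : ℝ) ≤ S.Q := by exact_mod_cast h.nQ

theorem cmp_link (h : S.OK) (hH : S.Marg C H) {a a' : ℕ} (ha : a < 2 * S.n) (ha' : a' < 2 * S.n)
    (hl : S.b.lab a = S.b.lab a') : Cmp (Mv S H) (ev a - ev a') (1 / (S.Q : ℝ) ^ 123) := by
  obtain ⟨s, t, h1, h2, -⟩ := h.bas.link a ha a' ha' hl
  have hQ := Q1 h
  have hn := nQ h
  have hQ0 : (0 : ℝ) < S.Q := by linarith
  have e1 : Cmp (Mv S H) (∑ c ∈ range (2 * S.n), s c • bb S.p c)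
      (∑ _c ∈ range (2 * S.n), ((S.n : ℝ) + 2) * (16 / (S.Q : ℝ) ^ 136)) := by
    refine Cmp.sum _ fun c hc => ?_
    have hc' := mem_range.1 hc
    by_cases h0 : s c = 0
    · rw [h0, zero_smul]; exact Cmp.zero _ (by positivity)
    · have hb := bb_mem (H := H) hc' ((h2 c).2 h0)
      refine ((Cmp.single hb.1).zsmul (Cmp.single hb.2) (s c)).mono ?_
      have e := Mod.eps_pos (S := S) c
      have e2 : S.eps c ≤ 1 / (S.Q : ℝ) ^ 136 := by
        rw [le_div_iff₀ (by positivity)]; exact h.eps_le hc'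
      have e3 : |(s c : ℝ)| ≤ (S.n : ℝ) + 2 := by exact_mod_cast (h2 c).1
      refine mul_le_mul e3 ?_ (by positivity) (by positivity)
      rw [div_eq_mul_one_div]; linarith
  have e2 : Cmp (Mv S H) (∑ i ∈ range S.b.nt, t i • dg S.n (ev (S.b.el i))) 0 := by
    refine Cmp.single (Or.inr ⟨?_, rfl⟩)
    exact (inv H).sum_mem fun i hi => (inv H).zsmul_mem (fun y => hH.gl y i (mem_range.1 hi)) _
  rw [h1]
  refine (e1.add e2).mono ?_
  rw [sum_const, card_range, nsmul_eq_mul, add_zero, ← mul_assoc, ← mul_div_assoc,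
    div_le_div_iff₀ (by positivity) (by positivity)]
  have e4 : ((2 * S.n : ℕ) : ℝ) * (S.n + 2) * 16 ≤ (S.Q : ℝ) ^ 13 := by
    push_cast
    have h0 : (0 : ℝ) ≤ S.n := by positivity
    calc 2 * (S.n : ℝ) * (S.n + 2) * 16 = (32 * S.n) * (S.n + 2) := by ring
      _ ≤ S.Q * S.Q := by gcongr <;> linarith
      _ = (S.Q : ℝ) ^ 2 := by ring
      _ ≤ _ := pow_le_pow_right₀ (by linarith) (by norm_num)
  calc _ ≤ (S.Q : ℝ) ^ 13 * (S.Q : ℝ) ^ 123 := by gcongr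
    _ = _ := by ring

/-- sums of edge moves with a side condition -/
def Gd (P : ℕ × ℕ × ℝ → Prop) (v : Vec) (x : ℝ) : Prop :=
  ∃ L : List (ℕ × ℕ × ℝ), (∀ z ∈ L, P z) ∧ (L.map fun z => z.2.2).sum ≤ x ∧
    v = (L.map fun z => ev z.1 - ev z.2.1).sum

section
variable {P : ℕ × ℕ × ℝ → Prop}

theorem Gd.zero {x : ℝ} (hx : 0 ≤ x) : Gd P 0 x := ⟨[], by simp, by simpa, by simp⟩

theorem Gd.add {v v' : Vec} {x x' : ℝ} (h : Gd P v x) (h' : Gd P v' x') : Gd P (v + v') (x + x') := by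
  obtain ⟨L, h1, h2, h3⟩ := h
  obtain ⟨L', h1', h2', h3'⟩ := h'
  refine ⟨L ++ L', fun z hz => (List.mem_append.1 hz).elim (h1 z) (h1' z), ?_, ?_⟩
  · rw [List.map_append, List.sum_append]; linarith
  · rw [List.map_append, List.sum_append, h3, h3']

theorem Gd.mono {v : Vec} {x x' : ℝ} (h : Gd P v x) (hx : x ≤ x') : Gd P v x' := by
  obtain ⟨L, h1, h2, h3⟩ := h
  exact ⟨L, h1, h2.trans hx, h3⟩

theorem Gd.single {a b : ℕ} {x : ℝ} (h : P (a, b, x)) : Gd P (ev a - ev b) x :=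
  ⟨[(a, b, x)], by simpa, by simp, by simp⟩

theorem Gd.sum {ι : Type} (A : Finset ι) {v : ι → Vec} {x : ι → ℝ} (h : ∀ i ∈ A, Gd P (v i) (x i)) :
    Gd P (∑ i ∈ A, v i) (∑ i ∈ A, x i) := by
  classical
  induction A using Finset.induction_on with
  | empty => simpa using Gd.zero le_rfl
  | insert a A ha ih =>
    rw [sum_insert ha, sum_insert ha]
    exact (h a (mem_insert_self _ _)).add (ih fun i hi => h i (mem_insert_of_mem hi))

theorem Gd.nsmul {v : Vec} {x : ℝ} (h : Gd P v x) (t : ℕ) : Gd P ((t : ℤ) • v) (t * x) := by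
  have := Gd.sum (range t) (v := fun _ => v) (x := fun _ => x) fun _ _ => h
  rwa [sum_const, sum_const, card_range, nsmul_eq_mul t x, ← natCast_zsmul] at this

theorem Gd.cmp {M : Set (Vec × ℝ)} (hP : ∀ z, P z → (ev z.1 - ev z.2.1, z.2.2) ∈ M) {v : Vec} {x : ℝ}
    (h : Gd P v x) : Cmp M v x := by
  obtain ⟨L, h1, h2, h3⟩ := h
  refine ⟨L.map fun z => (ev z.1 - ev z.2.1, z.2.2), fun z hz => ?_, ?_, ?_⟩
  · obtain ⟨z', hz', rfl⟩ := List.mem_map.1 hz
    exact hP z' (h1 z' hz')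
  · rw [List.map_map, h3]; rfl
  · rw [List.map_map]; exact h2

end

/-- the fat steps -/
def VV (S : Mod) (e : ℕ) : Vec := (S.tau e : ℤ) • dg S.n (S.b.z S.n e)

theorem gd_VV (h : S.OK) (hH : S.Marg C H) {e : ℕ} (he : e < S.b.nf) :
    Gd (fun z => z.1 < 2 * S.n ∧ z.2.1 < 2 * S.n ∧ (ev z.1 - ev z.2.1, z.2.2) ∈ Mv S H ∧
        Cmp (Mv S H) (ev (S.b.an e) - ev z.2.1) (1 / (S.Q : ℝ) ^ 123)) (VV S e)
      (1 / (S.Q : ℝ) ^ 123) := by
  have hQ := Q1 h
  have hn := nQ h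
  have hQ0 : (0 : ℝ) < S.Q := by linarith
  have hz : ∀ i, 2 * S.n ≤ i → dg S.n (S.b.z S.n e) i = 0 := fun i hi => by
    unfold dg; rw [if_neg (by omega), if_neg (by omega)]
  have hexp := h.fo.expand hz
  have hτ : (S.tau e : ℝ) * (S.Q : ℝ) ^ 138 = 2 ^ S.b.je e := by exact_mod_cast h.tau_mul he
  have hτ0 : (0 : ℝ) < S.tau e := by exact_mod_cast Mod.tau_pos e
  have han := h.bas.an_lt e he
  unfold VV
  rw [hexp]
  refine ((Gd.sum (range (2 * S.n)) (x := fun _ => 16 * (S.Q : ℝ) ^ 14 / 2 ^ S.b.je e)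
    fun a ha => ?_).nsmul (S.tau e)).mono ?_
  · have ha' := mem_range.1 ha
    obtain ⟨h1, h2⟩ := h.bas.cyc e he a ha'
    by_cases h0 : sm (sub (2 * S.n) S.p a) (dg S.n (S.b.z S.n e)) = 0
    · rw [h0, zero_smul]; exact Gd.zero (by positivity)
    · obtain ⟨h3, h4, h5⟩ := h2 h0
      have hpa : S.p a < 2 * S.n := (h.fo a).trans_lt ha'
      have hb := bb_mem (H := H) ha' h3
      have hbb : bb S.p a = ev a - ev (S.p a) := by unfold bb; rw [if_neg h3]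
      have hr : 16 * S.eps a ≤ 16 * (S.Q : ℝ) ^ 14 / 2 ^ S.b.je e := by
        unfold Mod.eps
        rw [mul_div_assoc]
        gcongr
        norm_num
      have h6 : sm (sub (2 * S.n) S.p a) (dg S.n (S.b.z S.n e)) = 1 ∨
          sm (sub (2 * S.n) S.p a) (dg S.n (S.b.z S.n e)) = -1 := by
        have := abs_le.1 h1; omega
      rcases h6 with h6 | h6 <;> rw [h6]
      · rw [one_smul, hbb]
        refine (Gd.single (x := 16 * S.eps a) ⟨ha', hpa, hbb ▸ hb.1, ?_⟩).mono hr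
        exact cmp_link h hH han hpa (by rw [h.bas.lab_p a ha', h5])
      · rw [neg_one_smul, hbb, neg_sub]
        refine (Gd.single (x := 16 * S.eps a) ⟨hpa, ha', ?_, ?_⟩).mono hr
        · have := hb.2; rwa [hbb, neg_sub] at this
        · exact cmp_link h hH han ha' h5.symm
  · rw [sum_const, card_range, nsmul_eq_mul, ← hτ]
    have : (S.tau e : ℝ) * (((2 * S.n : ℕ) : ℝ) * (16 * (S.Q : ℝ) ^ 14 / (S.tau e * (S.Q : ℝ) ^ 138))) =
        (32 * S.n / S.Q) * (1 / (S.Q : ℝ) ^ 123) := by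
      push_cast; field_simp; ring
    rw [this]
    refine mul_le_of_le_one_left (by positivity) ?_
    rw [div_le_one hQ0]
    have : (0 : ℝ) ≤ S.n := by positivity
    linarith

/-- the point of a configuration -/
def PP (S : Mod) (β : Cfg) : Vec :=
  dg S.n (S.b.pt S.n (fun e => S.g0 e + S.tau e * (β (e, true) : ℕ)) S.th0) +
    ∑ e ∈ range S.b.nf, ((β (e, true) : ℤ) + β (e, false) - S.M) • ev (S.b.an e)

theorem uv_apply (i j : ℕ × Bool) : uv i j = if j = i then 1 else 0 := by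
  unfold uv; rw [Pi.single_apply]

theorem PP_add (β : Cfg) {e : ℕ} (he : e < S.b.nf) (b : Bool) :
    PP S (β + uv (e, b)) = PP S β + (ev (S.b.an e) + if b then VV S e else 0) := by
  have h1 : S.b.pt S.n (fun e' => S.g0 e' + S.tau e' * ((β + uv (e, b)) (e', true) : ℕ)) S.th0 =
      S.b.pt S.n (fun e => S.g0 e + S.tau e * (β (e, true) : ℕ)) S.th0 +
        if b then (S.tau e : ℤ) • S.b.z S.n e else 0 := by
    unfold Bas.pt
    have : ∀ e' ∈ range S.b.nf, (S.g0 e' + S.tau e' * ((β + uv (e, b)) (e', true) : ℕ)) • S.b.z S.n e' =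
        (S.g0 e' + S.tau e' * (β (e', true) : ℕ)) • S.b.z S.n e' +
          if e' = e then (if b then (S.tau e : ℤ) • S.b.z S.n e else 0) else 0 := by
      intro e' _
      rw [Pi.add_apply, uv_apply]
      by_cases h1 : e' = e
      · subst h1
        cases b
        · simp
        · simp [mul_add, add_smul, add_assoc]
      · simp [h1]
    rw [sum_congr rfl this, sum_add_distrib, sum_ite_eq', if_pos (mem_range.2 he)]
    abel
  have h2 : ∑ e' ∈ range S.b.nf, ((((β + uv (e, b)) (e', true) : ℕ) : ℤ) +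
        ((β + uv (e, b)) (e', false) : ℕ) - S.M) • ev (S.b.an e') =
      ∑ e ∈ range S.b.nf, ((β (e, true) : ℤ) + β (e, false) - S.M) • ev (S.b.an e) + ev (S.b.an e) := by
    have : ∀ e' ∈ range S.b.nf, ((((β + uv (e, b)) (e', true) : ℕ) : ℤ) +
        ((β + uv (e, b)) (e', false) : ℕ) - S.M) • ev (S.b.an e') =
        ((β (e', true) : ℤ) + β (e', false) - S.M) • ev (S.b.an e') +
          if e' = e then ev (S.b.an e) else 0 := by
      intro e' _
      rw [Pi.add_apply, Pi.add_apply, uv_apply, uv_apply]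
      by_cases h1 : e' = e
      · subst h1
        rw [if_pos rfl, ← one_smul ℤ (ev (S.b.an e')), smul_smul, smul_smul, ← add_smul]
        congr 1
        cases b <;> simp <;> ring
      · simp [h1]
    rw [sum_congr rfl this, sum_add_distrib, sum_ite_eq', if_pos (mem_range.2 he)]
  unfold PP
  rw [h1, h2, dg_add]
  have h3 : dg S.n (if b then (S.tau e : ℤ) • S.b.z S.n e else 0) = if b then VV S e else 0 := by
    cases b
    · simp only [Bool.false_eq_true, if_false]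
      funext i; simp [dg]
    · simp only [if_true]; rw [dg_smul]; rfl
  rw [h3]
  abel

theorem rf_getD {e : ℕ} (he : e < S.b.nf) : S.rf.getD e 0 = S.M := by
  simp [Mod.rf, List.getD_eq_getElem?_getD, he]

theorem PP_cfg {k : List ℕ} (hk : ∀ e < S.b.nf, k.getD e 0 ≤ S.M) :
    PP S (cfgOf S.b.nf S.rf 0 k) = dg S.n (S.yc k) := by
  unfold PP Mod.yc
  rw [sum_eq_zero, add_zero]
  · congr 1
    unfold Bas.pt
    congr 1
    refine sum_congr rfl fun e he => ?_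
    simp [cfgOf, mem_range.1 he]
  · intro e he
    have he' := mem_range.1 he
    have := hk e he'
    have h1 : ((cfgOf S.b.nf S.rf 0 k (e, true) : ℕ) : ℤ) + (cfgOf S.b.nf S.rf 0 k (e, false) : ℕ) - S.M = 0 := by
      simp only [cfgOf, he', if_true, Bool.false_eq_true, if_false, rf_getD he']
      omega
    rw [h1, zero_smul]

theorem PP_om (h : S.OK) {β : Cfg} (hβ : ∀ i, β i ≤ S.M + 2) : S.Om (S.Q ^ 9) (PP S β) := by
  have hQ := h.Q_ge
  have hn := h.nQ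
  have hM : 4096 ≤ S.M := by
    rw [Mod.M_eq]; exact hQ.trans (Nat.le_self_pow (by norm_num) _)
  have h1 := h.om_pt (fun e => S.g0 e + S.tau e * (β (e, true) : ℕ)) S.th0 (S.Q ^ 6) 0
    (fun e he => by
      have e1 := h.g0_eq e
      have e2 : (S.tau e : ℤ) * S.M = ((S.Q ^ 6 : ℕ) : ℤ) * 2 ^ S.b.je e := by
        have := h.tau_mul he
        have e3 : S.tau e * S.M = S.Q ^ 6 * 2 ^ S.b.je e := by rw [← this, Mod.M_eq]; ring
        exact_mod_cast e3
      rw [← e2]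
      have e4 : ((β (e, true) : ℕ) : ℤ) ≤ S.M + 2 := by exact_mod_cast hβ _
      have e5 : (4096 : ℤ) ≤ S.M := by exact_mod_cast hM
      have e6 : (0 : ℤ) ≤ S.tau e := by positivity
      have e7 : (0 : ℤ) ≤ ((β (e, true) : ℕ) : ℤ) := by positivity
      rw [abs_le]
      constructor <;> nlinarith)
    (fun i _ => by simp)
  refine (h1.add (r' := 1) fun a ha => ?_).mono ?_
  · rw [Mod.X_sum]
    refine (abs_sum_le_sum_abs _ _).trans ?_
    have e1 : ∀ e ∈ range S.b.nf,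
        |S.X a (((β (e, true) : ℤ) + β (e, false) - S.M) • ev (S.b.an e))| ≤ ((2 * S.M : ℕ) : ℤ) := by
      intro e _
      rw [Mod.X_smul, abs_mul]
      have e2 := Mod.X_ev (S := S) a (S.b.an e)
      have e3 := hβ (e, true)
      have e4 := hβ (e, false)
      have e5 : |(β (e, true) : ℤ) + β (e, false) - S.M| ≤ ((2 * S.M : ℕ) : ℤ) := by
        rw [abs_le]; constructor <;> omega
      calc _ ≤ ((2 * S.M : ℕ) : ℤ) * 1 :=
            mul_le_mul e5 (by rw [abs_of_nonneg e2.1]; exact e2.2) (abs_nonneg _) (by positivity)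
        _ = _ := mul_one _
    refine (sum_le_card_nsmul _ _ _ e1).trans ?_
    rw [card_range, nsmul_eq_mul, Nat.cast_one, one_mul]
    have e2 : S.b.nf * (2 * S.M) ≤ 2 ^ S.j a := by
      refine le_trans ?_ (h.two_j ha)
      have := h.bas.nf_le
      calc S.b.nf * (2 * S.M) = (2 * S.b.nf) * S.Q ^ 144 := by rw [Mod.M_eq]; ring
        _ ≤ S.Q * S.Q ^ 144 := by gcongr; omega
        _ = S.Q ^ 145 := by ring
        _ ≤ _ := Nat.pow_le_pow_right (by omega) (by norm_num)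
    exact_mod_cast e2
  · have e1 : S.Q ^ 6 ≤ S.Q ^ 8 := Nat.pow_le_pow_right (by omega) (by norm_num)
    have e2 : S.Q ^ 7 ≤ S.Q ^ 8 := Nat.pow_le_pow_right (by omega) (by norm_num)
    have e3 : 1 ≤ S.Q ^ 8 := Nat.one_le_pow _ _ (by omega)
    have e4 : S.Q * (S.Q ^ 6 + 0) = S.Q ^ 7 := by ring
    have e5 : 3 * S.Q ^ 8 ≤ S.Q ^ 9 := by
      rw [pow_succ S.Q 8, mul_comm 3]; gcongr; omega
    omega

/-- the quadratic margin -/
noncomputable def Ph (r : ℕ) (kc κ M : ℝ) (β : Cfg) : ℝ :=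
  ∑ e ∈ range r, (kc / 2 * (β (e, true) : ℝ) ^ 2 + κ / 2 * ((β (e, true) : ℝ) + β (e, false) - M) ^ 2)

theorem Ph_add {r : ℕ} (kc κ M : ℝ) (β : Cfg) {e : ℕ} (he : e < r) (b : Bool) :
    Ph r kc κ M (β + uv (e, b)) = Ph r kc κ M β + ((if b then kc * ((β (e, true) : ℝ) + 1 / 2) else 0) +
      κ * ((β (e, true) : ℝ) + β (e, false) - M + 1 / 2)) := by
  unfold Ph
  have : ∀ e' ∈ range r, kc / 2 * (((β + uv (e, b)) (e', true) : ℕ) : ℝ) ^ 2 +
      κ / 2 * ((((β + uv (e, b)) (e', true) : ℕ) : ℝ) + ((β + uv (e, b)) (e', false) : ℕ) - M) ^ 2 =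
      (kc / 2 * (β (e', true) : ℝ) ^ 2 + κ / 2 * ((β (e', true) : ℝ) + β (e', false) - M) ^ 2) +
        if e' = e then ((if b then kc * ((β (e, true) : ℝ) + 1 / 2) else 0) +
          κ * ((β (e, true) : ℝ) + β (e, false) - M + 1 / 2)) else 0 := by
    intro e' _
    rw [Pi.add_apply, Pi.add_apply, uv_apply, uv_apply]
    by_cases h1 : e' = e
    · subst h1
      cases b <;> simp <;> ring
    · simp [h1]
  rw [sum_congr rfl this, sum_add_distrib, sum_ite_eq', if_pos (mem_range.2 he)]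

theorem Ph_two {r : ℕ} (kc κ M : ℝ) (β : Cfg) {e e' : ℕ} (he : e < r) (he' : e' < r) (b b' : Bool) :
    Ph r kc κ M (β + uv (e, b) + uv (e', b')) + Ph r kc κ M β =
      Ph r kc κ M (β + uv (e, b)) + Ph r kc κ M (β + uv (e', b')) +
        if e = e' then κ + if b = true ∧ b' = true then kc else 0 else 0 := by
  rw [Ph_add kc κ M _ he', Ph_add kc κ M β he', Pi.add_apply, Pi.add_apply, uv_apply, uv_apply]
  by_cases h1 : e = e'
  · subst h1
    cases b <;> cases b' <;> simp <;> ring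
  · have h2 : e' ≠ e := Ne.symm h1
    simp [h1, h2]
    ring

theorem sum_dirs (r : ℕ) (F : ℕ × Bool → ℝ) :
    ∑ i ∈ dirs r, F i = ∑ i ∈ range (2 * r), F (i / 2, decide (i % 2 = 1)) := by
  unfold dirs
  rw [sum_product]
  induction r with
  | zero => simp
  | succ r ih =>
    rw [sum_range_succ, ih, show 2 * (r + 1) = 2 * r + 1 + 1 by ring, sum_range_succ, sum_range_succ]
    have e1 : 2 * r / 2 = r := by omega
    have e2 : (2 * r + 1) / 2 = r := by omega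
    have e3 : ¬ (2 * r % 2 = 1) := by omega
    have e4 : (2 * r + 1) % 2 = 1 := by omega
    simp only [e1, e2, e3, e4, Fintype.sum_bool, decide_true, decide_false]
    ring

/-- the auxiliary weight -/
noncomputable def cc (S : Mod) (H : Vec → ℝ) (β : Cfg) : ℝ :=
  H (PP S β) * Real.exp (-Ph S.b.nf (1 / (S.Q : ℝ) ^ 289) (1 / (S.Q : ℝ) ^ 145) S.M β)

theorem r_le (h : S.OK) : 1024 * (S.b.nf : ℝ) ≤ S.Q := by
  have := h.bas.nf_le
  have := h.nQ
  have : 1024 * S.b.nf ≤ S.Q := by omega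
  exact_mod_cast this

theorem num {q r : ℝ} (hq : 4096 ≤ q) (hr0 : 0 ≤ r) (hr : 1024 * r ≤ q) :
    1 / q ^ 123 ≤ 1 / 100 ∧ 4 * (1 / q ^ 44) * (1 / q ^ 123) ^ 2 ≤ 1 / q ^ 289 ∧
    r * (1 / q ^ 145 + 1 / q ^ 289) ≤ 1 / 4 ∧ 4000 * (q ^ 6) ^ 4 * (1 / q ^ 123) * r ≤ 1 / q ^ 44 ∧
    (4000 * (q ^ 6) ^ 4 * (1 / q ^ 123) * r) ^ 2 ≤ 1 / q ^ 44 * (1 / q ^ 145) ∧
    20000 * (q ^ 6) ^ 8 * r ^ 2 * (1 / q ^ 145 + 1 / q ^ 289) ≤ 1 / q ^ 44 := by
  have hq0 : 0 < q := by linarith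
  have hq1 : 1 ≤ q := by linarith
  have mono : ∀ a b : ℕ, a ≤ b → 1 / q ^ b ≤ 1 / q ^ a := fun a b hab => by
    gcongr
  have hk : 1 / q ^ 145 + 1 / q ^ 289 ≤ q / q ^ 145 := by
    have := mono 145 289 (by norm_num)
    have e : (2 : ℝ) / q ^ 145 ≤ q / q ^ 145 := by gcongr; linarith
    have e2 : (2 : ℝ) / q ^ 145 = 1 / q ^ 145 + 1 / q ^ 145 := by ring
    linarith
  have hrq : r ≤ q := by linarith
  have h3 : 4000 * (q ^ 6) ^ 4 * (1 / q ^ 123) * r ≤ 1 / q ^ 97 := by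
    calc _ ≤ q * (q ^ 6) ^ 4 * (1 / q ^ 123) * q := by gcongr; linarith
      _ = _ := by field_simp
  refine ⟨?_, ?_, ?_, h3.trans (mono _ _ (by norm_num)), ?_, ?_⟩
  · refine (mono 1 123 (by norm_num)).trans ?_
    rw [pow_one]; gcongr; linarith
  · calc _ ≤ q * (1 / q ^ 44) * (1 / q ^ 123) ^ 2 := by gcongr; linarith
      _ = _ := by field_simp
  · calc _ ≤ q * (q / q ^ 145) := by gcongr
      _ = 1 / q ^ 143 := by field_simp
      _ ≤ 1 / q ^ 1 := mono _ _ (by norm_num)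
      _ ≤ _ := by rw [pow_one]; gcongr; linarith
  · calc _ ≤ (1 / q ^ 97) ^ 2 := by gcongr
      _ = 1 / q ^ 194 := by field_simp
      _ ≤ 1 / q ^ 189 := mono _ _ (by norm_num)
      _ = _ := by field_simp
  · calc _ ≤ q ^ 2 * (q ^ 6) ^ 8 * q ^ 2 * (q / q ^ 145) := by gcongr; nlinarith
      _ = 1 / q ^ 92 := by field_simp
      _ ≤ _ := mono _ _ (by norm_num)

theorem pw9 (h : S.OK) : S.Q ^ 9 + 3 ≤ S.Q ^ 10 := by
  have hQ := h.Q_ge
  have e3 : 1 ≤ S.Q ^ 9 := Nat.one_le_pow _ _ (by omega)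
  have e5 : 4 * S.Q ^ 9 ≤ S.Q ^ 10 := by
    rw [pow_succ S.Q 9, mul_comm 4]; gcongr; omega
  omega

theorem cc_sl (h : S.OK) (hH : S.Marg C H) {β : Cfg} (hβ : ∀ i, β i ≤ S.M + 2) :
    SL (dirs S.b.nf) (cc S H) β := by
  intro w
  have hY := PP_om h hβ
  have hQ := Q1 h
  have hQ0 : (0 : ℝ) < S.Q := by linarith
  have h9 := pw9 h
  obtain ⟨n1, n2, n3, n4, n5, n6⟩ := num hQ (Nat.cast_nonneg S.b.nf) (r_le h)
  set Φ := Ph S.b.nf (1 / (S.Q : ℝ) ^ 289) (1 / (S.Q : ℝ) ^ 145) S.M with hΦ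
  have key := coarse_form (m := 2 * S.n) (r := S.b.nf) hH.pos (Mv_nonneg (S := S) (H := H))
    (hH.sl (PP S β)) (an := S.b.an) (V := VV S) (x := 1 / (S.Q : ℝ) ^ 123) (K := (S.Q : ℝ) ^ 6)
    (θ := 1 / (S.Q : ℝ) ^ 44) (κ := 1 / (S.Q : ℝ) ^ 145) (kc := 1 / (S.Q : ℝ) ^ 289)
    (fun e he => ⟨h.bas.an_lt e he, gd_VV h hH he⟩)
    (fun i _ j _ v hv => ⟨sm_at h hH (h.om_ev hY i) (by omega) hv,
      sm_at h hH (h.om_ev (h.om_ev hY i) j) (by omega) hv⟩)
    (fun i hi => by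
      have a1 := hH.rat _ (hY.mono (by omega)) i hi
      refine ⟨a1.1, fun j hj => ?_⟩
      have a2 := hH.rat _ ((h.om_ev hY i).mono (by omega)) j hj
      have a3 : (0 : ℝ) ≤ (S.Q : ℝ) ^ 6 := by positivity
      constructor
      · refine a2.1.trans ((mul_le_mul_of_nonneg_left a1.1 a3).trans_eq ?_)
        rw [← mul_assoc, ← sq]
      · refine a1.2.trans ((mul_le_mul_of_nonneg_left a2.2 a3).trans_eq ?_)
        rw [← mul_assoc, ← sq])
    (by positivity) n1 (one_le_pow₀ (by linarith)) (by positivity) (by positivity) n2 n3 n4 n5 n6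
    (fun i => w (i / 2, decide (i % 2 = 1)) * Real.exp (-Φ (β + uv (i / 2, decide (i % 2 = 1)))))
  rw [sum_dirs]
  simp only [sum_dirs]
  refine le_of_eq_of_le (sum_congr rfl fun i hi => sum_congr rfl fun j hj => ?_) key
  have hi' : i / 2 < S.b.nf := by have := mem_range.1 hi; omega
  have hj' : j / 2 < S.b.nf := by have := mem_range.1 hj; omega
  have hcd : ∀ i, (ev (S.b.an (i / 2)) + if decide (i % 2 = 1) = true then VV S (i / 2) else 0) =
      cd S.b.an (VV S) i := fun i => by simp [cd]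
  have e1 := Ph_two (1 / (S.Q : ℝ) ^ 289) (1 / (S.Q : ℝ) ^ 145) S.M β hi' hj'
    (decide (i % 2 = 1)) (decide (j % 2 = 1))
  rw [← hΦ] at e1
  simp only [decide_eq_true_eq] at e1
  unfold cc
  rw [← hΦ, PP_add _ hj', PP_add _ hi', PP_add _ hj', hcd, hcd]
  set δ : ℝ := if i / 2 = j / 2 then 1 / (S.Q : ℝ) ^ 145 +
    if i % 2 = 1 ∧ j % 2 = 1 then 1 / (S.Q : ℝ) ^ 289 else 0 else 0
  have e2 : Real.exp (-Φ (β + uv (i / 2, decide (i % 2 = 1)) + uv (j / 2, decide (j % 2 = 1)))) *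
      Real.exp (-Φ β) = Real.exp (-Φ (β + uv (i / 2, decide (i % 2 = 1)))) *
        Real.exp (-Φ (β + uv (j / 2, decide (j % 2 = 1)))) * Real.exp (-δ) := by
    rw [← Real.exp_add, ← Real.exp_add, ← Real.exp_add]; congr 1; linarith
  linear_combination (w (i / 2, decide (i % 2 = 1)) * w (j / 2, decide (j % 2 = 1)) *
    H (PP S β + cd S.b.an (VV S) i + cd S.b.an (VV S) j) * H (PP S β)) * e2

theorem exp_half {t : ℝ} (ht : t ≤ 1 / 2) : Real.exp t ≤ 2 := by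
  have h1 := Real.add_one_le_exp (-t)
  have h2 : Real.exp t * Real.exp (-t) = 1 := by rw [← Real.exp_add]; simp
  nlinarith [Real.exp_pos t]

theorem cc_ratio (h : S.OK) (hH : S.Marg C H) {β : Cfg} (hβ : ∀ i, β i ≤ S.M + 2) {i : ℕ × Bool}
    (hi : i ∈ dirs S.b.nf) :
    cc S H (β + uv i) ≤ (S.Q : ℝ) ^ 7 * cc S H β ∧ cc S H β ≤ (S.Q : ℝ) ^ 7 * cc S H (β + uv i) := by
  obtain ⟨e, b⟩ := i
  have he : e < S.b.nf := mem_range.1 (mem_product.1 hi).1
  have hY := PP_om h hβ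
  have hQ := Q1 h
  have hQ0 : (0 : ℝ) < S.Q := by linarith
  have h9 := pw9 h
  have n1 := (num hQ (Nat.cast_nonneg S.b.nf) (r_le h)).1
  have a1 := hH.rat _ (hY.mono (by omega)) _ (h.bas.an_lt e he)
  have a2 : Cmp (Mv S H) (if b then VV S e else 0) (1 / 2) := by
    cases b
    · exact Cmp.zero _ (by norm_num)
    · exact ((gd_VV h hH he).cmp fun z hz => hz.2.2.1).mono (by linarith)
  have a3 := Sm.ratio (y := PP S β + ev (S.b.an e)) hH.pos (Mv_nonneg (S := S) (H := H)) le_rfl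
    (fun v hv => sm_at h hH (h.om_ev hY _) (by omega) (hv.mono (by norm_num))) a2
  unfold cc
  rw [PP_add _ he, Ph_add _ _ _ _ he, ← add_assoc]
  set δ : ℝ := (if b then 1 / (S.Q : ℝ) ^ 289 * ((β (e, true) : ℝ) + 1 / 2) else 0) +
    1 / (S.Q : ℝ) ^ 145 * ((β (e, true) : ℝ) + β (e, false) - S.M + 1 / 2) with hδ
  have hM : (S.M : ℝ) = (S.Q : ℝ) ^ 144 := by exact_mod_cast Mod.M_eq
  have hM1 : (4096 : ℝ) ≤ S.M := by
    rw [hM]; exact hQ.trans (le_self_pow₀ (by linarith) (by norm_num))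
  have b1 : (β (e, true) : ℝ) ≤ S.M + 2 := by exact_mod_cast hβ _
  have b2 : (β (e, false) : ℝ) ≤ S.M + 2 := by exact_mod_cast hβ _
  have b3 : (0 : ℝ) ≤ β (e, true) := by positivity
  have b4 : (0 : ℝ) ≤ β (e, false) := by positivity
  have k1 : 1 / (S.Q : ℝ) ^ 145 * S.M ≤ 1 / 4096 := by
    rw [hM, show 1 / (S.Q : ℝ) ^ 145 * (S.Q : ℝ) ^ 144 = 1 / S.Q by field_simp]
    gcongr
  have k2 : 1 / (S.Q : ℝ) ^ 289 ≤ 1 / (S.Q : ℝ) ^ 145 := by
    gcongr
    · linarith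
    · norm_num
  have k3 : (0 : ℝ) ≤ 1 / (S.Q : ℝ) ^ 289 := by positivity
  have hδ' : -(1 / 2) ≤ δ ∧ δ ≤ 1 / 2 := by
    rw [hδ]
    generalize 1 / (S.Q : ℝ) ^ 289 = kc at *
    generalize 1 / (S.Q : ℝ) ^ 145 = κ at *
    have c1 : kc * ((β (e, true) : ℝ) + 1 / 2) ≤ κ * (2 * S.M) :=
      mul_le_mul k2 (by linarith) (by linarith) (by linarith)
    have c2 : 0 ≤ kc * ((β (e, true) : ℝ) + 1 / 2) := by positivity
    have c3 : κ * ((β (e, true) : ℝ) + β (e, false) - S.M + 1 / 2) ≤ κ * (2 * S.M) :=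
      mul_le_mul_of_nonneg_left (by linarith) (by linarith)
    have c4 : κ * (-S.M) ≤ κ * ((β (e, true) : ℝ) + β (e, false) - S.M + 1 / 2) :=
      mul_le_mul_of_nonneg_left (by linarith) (by linarith)
    split_ifs <;> constructor <;> linarith
  have d1 : Real.exp (-δ) ≤ 2 := exp_half (by linarith)
  have d2 : Real.exp δ ≤ 2 := exp_half hδ'.2
  set φ := Ph S.b.nf (1 / (S.Q : ℝ) ^ 289) (1 / (S.Q : ℝ) ^ 145) S.M β
  have d3 : Real.exp (-(φ + δ)) ≤ 2 * Real.exp (-φ) := by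
    rw [neg_add, Real.exp_add, mul_comm]; gcongr
  have d4 : Real.exp (-φ) ≤ 2 * Real.exp (-(φ + δ)) := by
    rw [show -φ = δ + -(φ + δ) by ring, Real.exp_add]; gcongr
  have p1 := hH.pos (PP S β)
  have p2 := hH.pos (PP S β + ev (S.b.an e))
  have p3 := hH.pos (PP S β + ev (S.b.an e) + if b then VV S e else 0)
  have q7 : 4 * (S.Q : ℝ) ^ 6 ≤ (S.Q : ℝ) ^ 7 := by
    rw [pow_succ _ 6, mul_comm 4]; gcongr; linarith
  constructor
  · calc _ ≤ (2 * ((S.Q : ℝ) ^ 6 * H (PP S β))) * (2 * Real.exp (-φ)) :=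
          mul_le_mul (a3.1.trans (by linarith [a1.1])) d3 (by positivity) (by positivity)
      _ = 4 * (S.Q : ℝ) ^ 6 * (H (PP S β) * Real.exp (-φ)) := by ring
      _ ≤ _ := by gcongr
  · calc _ ≤ ((S.Q : ℝ) ^ 6 * (2 * H (PP S β + ev (S.b.an e) + if b then VV S e else 0))) *
          (2 * Real.exp (-(φ + δ))) :=
          mul_le_mul (a1.2.trans (by gcongr; exact a3.2)) d4 (by positivity) (by positivity)
      _ = 4 * (S.Q : ℝ) ^ 6 * (H (PP S β + ev (S.b.an e) + if b then VV S e else 0) *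
          Real.exp (-(φ + δ))) := by ring
      _ ≤ _ := by gcongr

theorem Ph_cfg (h : S.OK) {k : List ℕ} (hk : ∀ e < S.b.nf, k.getD e 0 ≤ S.M) :
    0 ≤ Ph S.b.nf (1 / (S.Q : ℝ) ^ 289) (1 / (S.Q : ℝ) ^ 145) S.M (cfgOf S.b.nf S.rf 0 k) ∧
      Ph S.b.nf (1 / (S.Q : ℝ) ^ 289) (1 / (S.Q : ℝ) ^ 145) S.M (cfgOf S.b.nf S.rf 0 k) ≤ 1 / 2 := by
  have hQ := Q1 h
  have hQ0 : (0 : ℝ) < S.Q := by linarith
  have hM : (S.M : ℝ) = (S.Q : ℝ) ^ 144 := by exact_mod_cast Mod.M_eq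
  refine ⟨sum_nonneg fun e _ => by positivity, ?_⟩
  have : ∀ e ∈ range S.b.nf, 1 / (S.Q : ℝ) ^ 289 / 2 * (cfgOf S.b.nf S.rf 0 k (e, true) : ℝ) ^ 2 +
      1 / (S.Q : ℝ) ^ 145 / 2 * ((cfgOf S.b.nf S.rf 0 k (e, true) : ℝ) +
        cfgOf S.b.nf S.rf 0 k (e, false) - S.M) ^ 2 ≤ 1 / (2 * S.Q) := by
    intro e he
    have he' := mem_range.1 he
    have h1 := hk e he'
    simp only [cfgOf, he', if_true, Bool.false_eq_true, if_false, rf_getD he']
    rw [Nat.cast_sub h1, show ((k.getD e 0 : ℕ) : ℝ) + ((S.M : ℝ) - (k.getD e 0 : ℕ)) - S.M = 0 by ring]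
    have h2 : ((k.getD e 0 : ℕ) : ℝ) ≤ (S.Q : ℝ) ^ 144 := by rw [← hM]; exact_mod_cast h1
    calc _ = 1 / (S.Q : ℝ) ^ 289 / 2 * ((k.getD e 0 : ℕ) : ℝ) ^ 2 := by ring
      _ ≤ 1 / (S.Q : ℝ) ^ 289 / 2 * ((S.Q : ℝ) ^ 144) ^ 2 := by gcongr
      _ = _ := by field_simp
  refine (sum_le_card_nsmul _ _ _ this).trans ?_
  rw [card_range, nsmul_eq_mul, mul_one_div, div_le_div_iff₀ (by positivity) (by norm_num)]
  have := r_le h
  have : (0 : ℝ) ≤ S.b.nf := by positivity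
  linarith

end CoB

open CoB in
theorem Mod.OK.coarse_poi {S : Mod} (h : S.OK) {C H : Vec → ℝ} (hH : S.Marg C H) {lo hi : List ℕ}
    (hs : Sub S.b.nf S.rf lo hi) :
    Poi S.b.nf lo hi ((S.Q : ℝ) ^ 620) fun k => H (dg S.n (S.yc k)) := by
  have hQ := Q1 h
  have hQ0 : (0 : ℝ) < S.Q := by linarith
  have hQ1 : (1 : ℝ) ≤ S.Q := by linarith
  have hpos : ∀ β, 0 < cc S H β := fun β => mul_pos (hH.pos _) (Real.exp_pos _)
  have h1 := Poi.of_SL (E := S.b.nf) hpos (U := S.M + 2) (by omega) (fun β hβ => cc_sl h hH hβ)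
    (K := (S.Q : ℝ) ^ 7) (one_le_pow₀ hQ1) (fun β hβ i hi => cc_ratio h hH hβ hi)
    (ρ := S.rf) (fun e he => by rw [rf_getD he]) hs
  have hk : ∀ k ∈ bx S.b.nf lo hi, ∀ e < S.b.nf, k.getD e 0 ≤ S.M := fun k hk e he => by
    have a1 := ((mem_bx.1 hk).2 e he).2
    have a2 := (hs e he).2
    rw [rf_getD he] at a2
    omega
  have h2 := h1.cmp (κ := 2) (w := fun k => H (dg S.n (S.yc k))) (by positivity) (by norm_num)
    (fun a _ => hpos _) (fun k hk' => ?_) (fun k hk' => ?_)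
  · refine h2.mono (fun a => (hH.pos _).le) ?_
    have hM : (S.M : ℝ) = (S.Q : ℝ) ^ 144 := by exact_mod_cast Mod.M_eq
    have a1 : (S.b.nf : ℝ) + 1 ≤ S.Q := by
      have := r_le h
      have : (0 : ℝ) ≤ S.b.nf := by positivity
      linarith
    have a2 : ((S.M + 2 : ℕ) : ℝ) ≤ (S.Q : ℝ) ^ 145 := by
      push_cast
      rw [hM, pow_succ _ 144]
      have : (1 : ℝ) ≤ (S.Q : ℝ) ^ 144 := one_le_pow₀ hQ1
      nlinarith
    calc _ = 160 * ((S.b.nf : ℝ) + 1) ^ 2 * ((S.M + 2 : ℕ) : ℝ) ^ 4 * ((S.Q : ℝ) ^ 7) ^ 4 := by ring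
      _ ≤ S.Q * (S.Q : ℝ) ^ 2 * ((S.Q : ℝ) ^ 145) ^ 4 * ((S.Q : ℝ) ^ 7) ^ 4 := by gcongr; linarith
      _ = (S.Q : ℝ) ^ 611 := by ring
      _ ≤ _ := pow_le_pow_right₀ hQ1 (by norm_num)
  · have a1 := Ph_cfg h (hk k hk')
    have a2 := hH.pos (dg S.n (S.yc k))
    unfold cc
    rw [PP_cfg (hk k hk'), mul_comm]
    exact mul_le_mul_of_nonneg_right (exp_half (by linarith [a1.1])) a2.le
  · have a1 := Ph_cfg h (hk k hk')
    have a2 := hH.pos (dg S.n (S.yc k))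
    unfold cc
    rw [PP_cfg (hk k hk')]
    have a3 := Real.add_one_le_exp
      (-Ph S.b.nf (1 / (S.Q : ℝ) ^ 289) (1 / (S.Q : ℝ) ^ 145) S.M (cfgOf S.b.nf S.rf 0 k))
    nlinarith [a1.2]

end Crest.Agent.R302
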