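import Crest.Agent.R302.Conv

/-! Row 302: the three-point condition and strong log-concavity. -/

set_option autoImplicit false

namespace Crest.Agent.R302

open Finset

namespace P3aX

open Classical in
/-- the form of a partial equivalence relation is a sum of squares -/
theorem per_psd (m : ℕ) (R : ℕ → ℕ → Prop) (hs : ∀ p q, R p q → R q p)
    (ht : ∀ p < m, ∀ q < m, ∀ r < m, R p r → R q r → R p q) (w : ℕ → ℝ) :
    0 ≤ ∑ p ∈ range m, ∑ q ∈ range m, w p * w q * (if R p q then 1 else 0) := by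
  let S : ℕ → Finset ℕ := fun p => (range m).filter (R p)
  let a : ℕ → Finset ℕ → ℝ := fun p T => if S p = T ∧ R p p then 1 else 0
  have key : ∀ p ∈ range m, ∀ q ∈ range m,
      (if R p q then 1 else 0 : ℝ) = ∑ T ∈ (range m).image S, a p T * a q T := by
    intro p hp q hq
    have hp' := mem_range.1 hp
    have hq' := mem_range.1 hq
    rw [sum_eq_single_of_mem (S p) (mem_image_of_mem S hp) fun T _ hT => by
      simp only [a, if_neg fun h : S p = T ∧ R p p => hT h.1.symm, zero_mul]]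
    simp only [a, true_and]
    by_cases h : R p q
    · have e : S q = S p := filter_congr fun r hr =>
        ⟨fun h' => ht p hp' r (mem_range.1 hr) q hq' h (hs _ _ h'),
          fun h' => ht q hq' r (mem_range.1 hr) p hp' (hs _ _ h) (hs _ _ h')⟩
      rw [if_pos h, if_pos (ht p hp' p hp' q hq' h h),
        if_pos ⟨e, ht q hq' q hq' p hp' (hs _ _ h) (hs _ _ h)⟩, mul_one]
    · rw [if_neg h, if_neg (c := S q = S p ∧ R q q), mul_zero]
      rintro ⟨e, h'⟩
      have : q ∈ S q := mem_filter.2 ⟨hq, h'⟩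
      rw [e] at this
      exact h (mem_filter.1 this).2
  calc (0 : ℝ) ≤ ∑ T ∈ (range m).image S, (∑ p ∈ range m, w p * a p T) ^ 2 :=
        sum_nonneg fun _ _ => sq_nonneg _
    _ = ∑ T ∈ (range m).image S, ∑ p ∈ range m, ∑ q ∈ range m, w p * w q * (a p T * a q T) := by
        refine sum_congr rfl fun T _ => ?_
        rw [sq, sum_mul_sum]
        exact sum_congr rfl fun p _ => sum_congr rfl fun q _ => by ring
    _ = _ := by
        rw [sum_comm]
        refine sum_congr rfl fun p hp => ?_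
        rw [sum_comm]
        refine sum_congr rfl fun q hq => ?_
        rw [key p hp q hq, mul_sum]

theorem three {G : Type} [AddCommGroup G] {m : ℕ} {d : ℕ → G} {c : G → ℝ} {y : G}
    (h : SLa m d c y) (hc : ∀ z, 0 < c z) {d1 d2 d3 : G} (h1 : d1 = 0 ∨ ∃ j < m, d1 = d j)
    (h2 : d2 = 0 ∨ ∃ j < m, d2 = d j) (h3 : d3 = 0 ∨ ∃ j < m, d3 = d j) :
    c (y + d3) * c (y + d1 + d2) ≤
      2 * (c (y + d2) * c (y + d1 + d3) + c (y + d1) * c (y + d2 + d3)) := by
  have h4 := h.reindex (m' := 3) (d' := fun i => if i = 0 then d1 else if i = 1 then d2 else d3)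
    (fun i _ => by split_ifs <;> assumption)
    fun i => if i = 0 then c (y + d2) * c (y + d3) else if i = 1 then c (y + d1) * c (y + d3)
      else -2 * (c (y + d1) * c (y + d2))
  simp only [sum_range_succ, range_zero, sum_empty, if_true, zero_add, one_ne_zero, if_false,
    OfNat.ofNat_ne_zero, OfNat.ofNat_ne_one] at h4
  rw [add_right_comm y d2 d1, add_right_comm y d3 d1, add_right_comm y d3 d2] at h4
  have p0 := hc y
  have p1 := hc (y + d1)
  have p2 := hc (y + d2)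
  have p3 := hc (y + d3)
  have p11 := hc (y + d1 + d1)
  have p22 := hc (y + d2 + d2)
  have p33 := hc (y + d3 + d3)
  generalize c y = c0 at *
  generalize c (y + d1 + d1) = c11 at *
  generalize c (y + d2 + d2) = c22 at *
  generalize c (y + d3 + d3) = c33 at *
  generalize c (y + d1 + d2) = c12 at *
  generalize c (y + d1 + d3) = c13 at *
  generalize c (y + d2 + d3) = c23 at *
  generalize c (y + d1) = c1 at *
  generalize c (y + d2) = c2 at *
  generalize c (y + d3) = c3 at *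
  have q : 0 ≤ ((c2 * c3) ^ 2 * c11 + (c1 * c3) ^ 2 * c22 + 4 * (c1 * c2) ^ 2 * c33) * c0 := by
    positivity
  refine le_of_mul_le_mul_left ?_ (a := 2 * c1 * c2 * c3 * c0) (by positivity)
  linarith

theorem trop {m : ℕ} {ν ν' : Vec → ℤ}
    (h : ∀ β : ℝ, 0 ≤ β → SLv m ev fun y => Real.exp (-(β * ν y))) {b : Vec} (hb : IsB m ev b)
    (k : ℕ) (h' : ∀ y, IsLeast {v | ∃ t : ℤ, v = (k : ℤ) * |t| + ν (y + t • b)} (ν' y)) (y : Vec)
    {d1 d2 d3 : Vec} (h1 : d1 = 0 ∨ ∃ j < m, d1 = ev j) (h2 : d2 = 0 ∨ ∃ j < m, d2 = ev j)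
    (h3 : d3 = 0 ∨ ∃ j < m, d3 = ev j) :
    ν' (y + d2) + ν' (y + d1 + d3) ≤ ν' (y + d3) + ν' (y + d1 + d2) ∨
      ν' (y + d1) + ν' (y + d2 + d3) ≤ ν' (y + d3) + ν' (y + d1 + d2) := by
  by_contra hcon
  rw [not_or, not_le, not_le] at hcon
  obtain ⟨t1, e1⟩ := (h' (y + d3)).1
  obtain ⟨t2, e2⟩ := (h' (y + d1 + d2)).1
  have m1 : t1 ∈ Icc (min t1 t2) (max t1 t2) := mem_Icc.2 ⟨min_le_left _ _, le_max_left _ _⟩
  have m2 : t2 ∈ Icc (min t1 t2) (max t1 t2) := mem_Icc.2 ⟨min_le_right _ _, le_max_right _ _⟩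
  obtain ⟨K, hK⟩ : ∃ K : ℝ, K = (Icc (min t1 t2) (max t1 t2)).card := ⟨_, rfl⟩
  have K0 : 0 ≤ K := hK ▸ Nat.cast_nonneg _
  obtain ⟨β, hβ⟩ : ∃ β : ℝ, β = 4 * K ^ 2 := ⟨_, rfl⟩
  have β0 : 0 ≤ β := by rw [hβ]; positivity
  have hC := (h β β0).conv (fun _ => Real.exp_pos _) hb
    (χ := fun t => Real.exp (-(β * ((k : ℤ) * |t| : ℤ)))) (fun _ => Real.exp_pos _)
    (fun t => by
      rw [← Real.exp_add, sq, ← Real.exp_add, Real.exp_le_exp]
      have a1 : 2 * |t + 1| ≤ |t + 2| + |t| := by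
        have := abs_add_le (t + 2) t
        rw [show t + 2 + t = 2 * (t + 1) by ring, abs_mul] at this
        exact this
      have a2 : (k : ℤ) * (2 * |t + 1|) ≤ k * (|t + 2| + |t|) :=
        mul_le_mul_of_nonneg_left a1 (Nat.cast_nonneg k)
      have a3 : (((k : ℤ) * |t + 1| : ℤ) : ℝ) + ((k : ℤ) * |t + 1| : ℤ) ≤
          ((k : ℤ) * |t + 2| : ℤ) + ((k : ℤ) * |t| : ℤ) := by
        rw [← Int.cast_add, ← Int.cast_add, Int.cast_le]
        linarith
      have := mul_le_mul_of_nonneg_left a3 β0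
      linarith) (min t1 t2) (max t1 t2)
  have eC : ∀ (z : Vec) (t : ℤ), Real.exp (-(β * ((k : ℤ) * |t| : ℤ))) *
      Real.exp (-(β * ν (z + t • b))) = Real.exp (-(β * ((k : ℤ) * |t| + ν (z + t • b) : ℤ))) := by
    intro z t
    rw [← Real.exp_add, Int.cast_add]
    congr 1
    ring
  simp only [eC] at hC
  obtain ⟨C, hCe⟩ : ∃ C : Vec → ℝ, C = fun z => ∑ t ∈ Icc (min t1 t2) (max t1 t2),
    Real.exp (-(β * ((k : ℤ) * |t| + ν (z + t • b) : ℤ))) := ⟨_, rfl⟩
  rw [← hCe] at hC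
  have C0 : ∀ z, 0 < C z := fun z => by
    rw [hCe]; exact sum_pos (fun _ _ => Real.exp_pos _) ⟨t1, m1⟩
  have up : ∀ z, C z ≤ K * Real.exp (-(β * ν' z)) := fun z => by
    rw [hCe, hK, ← nsmul_eq_mul]
    refine sum_le_card_nsmul _ _ _ fun t _ => Real.exp_le_exp.2 (neg_le_neg ?_)
    exact mul_le_mul_of_nonneg_left (Int.cast_le.2 ((h' z).2 ⟨t, rfl⟩)) β0
  have lw : ∀ z, ∀ t ∈ Icc (min t1 t2) (max t1 t2), ν' z = (k : ℤ) * |t| + ν (z + t • b) →
      Real.exp (-(β * ν' z)) ≤ C z := fun z t ht e => by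
    rw [hCe, e]
    exact single_le_sum (f := fun t : ℤ => Real.exp (-(β * ((k : ℤ) * |t| + ν (z + t • b) : ℤ))))
      (fun _ _ => (Real.exp_pos _).le) ht
  have h4 := three (hC y) C0 h1 h2 h3
  obtain ⟨X, hX⟩ : ∃ X : ℤ, X = ν' (y + d3) + ν' (y + d1 + d2) := ⟨_, rfl⟩
  have l1 : Real.exp (-(β * X)) ≤ C (y + d3) * C (y + d1 + d2) := by
    refine le_trans (le_of_eq ?_)
      (mul_le_mul (lw _ t1 m1 e1) (lw _ t2 m2 e2) (Real.exp_pos _).le (C0 _).le)
    rw [← Real.exp_add, hX, Int.cast_add]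
    congr 1
    ring
  have u1 : ∀ z z', X < ν' z + ν' z' →
      C z * C z' ≤ K ^ 2 * (Real.exp (-(β * X)) * Real.exp (-β)) := fun z z' hz => by
    refine (mul_le_mul (up z) (up z') (C0 _).le (by positivity)).trans ?_
    rw [mul_mul_mul_comm, ← sq, ← Real.exp_add, ← Real.exp_add]
    refine mul_le_mul_of_nonneg_left (Real.exp_le_exp.2 ?_) (by positivity)
    have a1 : ((X + 1 : ℤ) : ℝ) ≤ (ν' z + ν' z' : ℤ) := Int.cast_le.2 hz
    push_cast at a1
    have := mul_le_mul_of_nonneg_left a1 β0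
    linarith
  have u2 := u1 _ _ (hX ▸ hcon.1)
  have u3 := u1 _ _ (hX ▸ hcon.2)
  have a1 : Real.exp (-(β * X)) * 1 ≤ Real.exp (-(β * X)) * (β * Real.exp (-β)) := by
    rw [hβ] at *
    linarith
  have a2 := le_of_mul_le_mul_left a1 (Real.exp_pos _)
  have a3 := Real.add_one_le_exp β
  rw [Real.exp_neg, ← div_eq_mul_inv, le_div_iff₀ (Real.exp_pos _)] at a2
  linarith

end P3aX

/-- ultrametric matrices are positive semidefinite -/
theorem ultra_psd (m : ℕ) (A : ℕ → ℕ → ℝ) (hs : ∀ p q, A p q = A q p)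
    (h0 : ∀ p < m, ∀ q < m, 0 ≤ A p q)
    (hu : ∀ p < m, ∀ q < m, ∀ r < m, min (A p r) (A q r) ≤ A p q) (w : ℕ → ℝ) :
    0 ≤ ∑ p ∈ range m, ∑ q ∈ range m, w p * w q * A p q := by
  classical
  induction hn : ((range m ×ˢ range m).filter fun x => 0 < A x.1 x.2).card
    using Nat.strong_induction_on generalizing A with
  | _ n ih =>
  rcases ((range m ×ˢ range m).filter fun x => 0 < A x.1 x.2).eq_empty_or_nonempty with he | hne
  · refine le_of_eq (sum_eq_zero fun p hp => sum_eq_zero fun q hq => ?_).symm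
    have h1 : ¬ 0 < A p q := fun h =>
      notMem_empty (p, q) (he ▸ mem_filter.2 ⟨mem_product.2 ⟨hp, hq⟩, h⟩)
    rw [le_antisymm (not_lt.1 h1) (h0 p (mem_range.1 hp) q (mem_range.1 hq)), mul_zero]
  obtain ⟨x, hx, hmin⟩ := exists_min_image _ (fun x : ℕ × ℕ => A x.1 x.2) hne
  have a0 := (mem_filter.1 hx).2
  have h1 := ih _ ?_ (fun p q => max (A p q - A x.1 x.2) 0) (fun p q => by rw [hs p q])
    (fun p _ q _ => le_max_right _ _) (fun p hp q hq r hr => ?_) rfl
  · have h2 := P3aX.per_psd m (fun p q => 0 < A p q) (fun p q h => hs p q ▸ h)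
      (fun p hp q hq r hr a b => (lt_min a b).trans_le (hu p hp q hq r hr)) w
    refine (add_nonneg h1 (mul_nonneg a0.le h2)).trans (le_of_eq ?_)
    rw [mul_sum, ← sum_add_distrib]
    refine sum_congr rfl fun p hp => ?_
    rw [mul_sum, ← sum_add_distrib]
    refine sum_congr rfl fun q hq => ?_
    by_cases h : 0 < A p q
    · have := hmin (p, q) (mem_filter.2 ⟨mem_product.2 ⟨hp, hq⟩, h⟩)
      rw [if_pos h, max_eq_left (by simp only at this; linarith)]
      ring
    · have := le_antisymm (not_lt.1 h) (h0 p (mem_range.1 hp) q (mem_range.1 hq))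
      rw [if_neg h, this, max_eq_right (by linarith)]
      ring
  · rw [← hn]
    refine card_lt_card ⟨fun z hz => ?_, fun hsub => ?_⟩
    · obtain ⟨z1, z2⟩ := mem_filter.1 hz
      refine mem_filter.2 ⟨z1, ?_⟩
      rcases lt_max_iff.1 z2 with h | h <;> linarith
    · have := (mem_filter.1 (hsub hx)).2
      simp at this
  · rcases min_le_iff.1 (hu p hp q hq r hr) with h | h
    · exact (min_le_left _ _).trans (max_le_max (by linarith) le_rfl)
    · exact (min_le_right _ _).trans (max_le_max (by linarith) le_rfl)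

theorem P3.slv {m : ℕ} {ν : Vec → ℤ} (h : P3 m ν) {β : ℝ} (hβ : 0 ≤ β) :
    SLv m ev fun y => Real.exp (-(β * ν y)) := by
  intro y w
  have mono : ∀ a b : ℤ, a ≤ b → 1 - Real.exp (-(β * a)) ≤ 1 - Real.exp (-(β * b)) :=
    fun a b hab => sub_le_sub_left (Real.exp_le_exp.2
      (neg_le_neg (mul_le_mul_of_nonneg_left (Int.cast_le.2 hab) hβ))) _
  have h1 := ultra_psd m (fun p q => 1 - Real.exp (-(β * uu ν y p q)))
    (fun p q => by
      have : uu ν y p q = uu ν y q p := by unfold uu; rw [add_right_comm y]; ring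
      rw [this])
    (fun p hp q hq => by simpa using mono 0 _ (h y p hp q hq).1)
    (fun p hp q hq r hr => by
      rcases min_le_iff.1 ((h y p hp q hq).2 r hr) with h | h
      · exact (min_le_left _ _).trans (mono _ _ h)
      · exact (min_le_right _ _).trans (mono _ _ h))
    fun p => w p * Real.exp (-(β * ν (y + ev p)))
  rw [← neg_nonneg, ← sum_neg_distrib]
  refine h1.trans (le_of_eq (sum_congr rfl fun p _ => ?_))
  rw [← sum_neg_distrib]
  refine sum_congr rfl fun q _ => ?_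
  have e : Real.exp (-(β * ν (y + ev p + ev q))) * Real.exp (-(β * ν y)) =
      Real.exp (-(β * ν (y + ev p))) * Real.exp (-(β * ν (y + ev q))) *
        Real.exp (-(β * uu ν y p q)) := by
    rw [← Real.exp_add, ← Real.exp_add, ← Real.exp_add]
    congr 1
    unfold uu
    push_cast
    ring
  simp only
  rw [e]
  ring

/-- infimal convolution along `b` keeps the three-point condition -/
theorem P3.infconv {m : ℕ} {ν ν' : Vec → ℤ} (h : P3 m ν) {b : Vec} (hb : IsB m ev b) (k : ℕ)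
    (h' : ∀ y, IsLeast {v | ∃ t : ℤ, v = (k : ℤ) * |t| + ν (y + t • b)} (ν' y)) : P3 m ν' := by
  intro y p hp q hq
  have h1 : ev p = 0 ∨ ∃ j < m, ev p = ev j := Or.inr ⟨p, hp, rfl⟩
  have h2 : ev q = 0 ∨ ∃ j < m, ev q = ev j := Or.inr ⟨q, hq, rfl⟩
  refine ⟨?_, fun r hr => ?_⟩
  · have := P3aX.trop (fun β hβ => h.slv hβ) hb k h' y h1 h2 (Or.inl rfl)
    simp only [add_zero] at this
    unfold uu
    omega
  · have := P3aX.trop (fun β hβ => h.slv hβ) hb k h' y h1 h2 (Or.inr ⟨r, hr, rfl⟩)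
    unfold uu
    omega

end Crest.Agent.R302
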