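import Crest.Agent.R302.P3a
import Crest.Agent.R302.Base

/-! Row 302: the soft energy satisfies the three-point condition. -/

set_option autoImplicit false

namespace Crest.Agent.R302

open Finset

namespace P3bX

/-- excess of a set -/
def ph (F : Finset ℕ → ℤ) (y : Vec) (S : Finset ℕ) : ℤ := sm S y - F S

/-- maximal excess -/
def ex (m : ℕ) (F : Finset ℕ → ℤ) (y : Vec) : ℤ :=
  (range m).powerset.sup' ⟨∅, empty_mem_powerset _⟩ (ph F y)

/-- `i` lies in a maximiser -/
def MM (m : ℕ) (F : Finset ℕ → ℤ) (y : Vec) (i : ℕ) : Prop :=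
  ∃ S ⊆ range m, i ∈ S ∧ ph F y S = ex m F y

/-- the pair lies in an almost maximiser and in no maximiser -/
def TT (m : ℕ) (F : Finset ℕ → ℤ) (y : Vec) (i j : ℕ) : Prop :=
  ¬ MM m F y i ∧ ¬ MM m F y j ∧ ∃ S ⊆ range m, i ∈ S ∧ j ∈ S ∧ ph F y S = ex m F y - 1

variable {m : ℕ} {F : Finset ℕ → ℤ}

theorem ph_le (y : Vec) {S : Finset ℕ} (hS : S ⊆ range m) : ph F y S ≤ ex m F y :=
  le_sup' (ph F y) (mem_powerset.2 hS)

theorem ex_att (m : ℕ) (F : Finset ℕ → ℤ) (y : Vec) : ∃ S ⊆ range m, ph F y S = ex m F y := by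
  obtain ⟨S, hS, h⟩ := exists_mem_eq_sup' ⟨∅, empty_mem_powerset (range m)⟩ (ph F y)
  exact ⟨S, mem_powerset.1 hS, h.symm⟩

theorem ex_nonneg (h0 : F ∅ = 0) (y : Vec) : 0 ≤ ex m F y := by
  have := ph_le (m := m) (F := F) y (empty_subset _)
  simpa [ph, sm, h0] using this

theorem ph_add (y : Vec) (S : Finset ℕ) (i : ℕ) :
    ph F (y + ev i) S = ph F y S + if i ∈ S then 1 else 0 := by
  unfold ph
  rw [sm_add, sm_ev]
  ring

theorem ph_sub (y : Vec) (S : Finset ℕ) (i : ℕ) :
    ph F (y - ev i) S = ph F y S - if i ∈ S then 1 else 0 := by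
  unfold ph
  rw [sm_sub, sm_ev]
  ring

theorem ph_super (hF : Submod m F) (y : Vec) {S T : Finset ℕ} (hS : S ⊆ range m)
    (hT : T ⊆ range m) : ph F y S + ph F y T ≤ ph F y (S ∪ T) + ph F y (S ∩ T) := by
  have h1 := hF S hS T hT
  have h2 := sm_union_inter S T y
  unfold ph
  omega

theorem lt_of_not_MM {y : Vec} {i : ℕ} (h : ¬ MM m F y i) {S : Finset ℕ} (hS : S ⊆ range m)
    (hi : i ∈ S) : ph F y S ≤ ex m F y - 1 := by
  have h1 := ph_le (F := F) y hS
  have h2 : ph F y S ≠ ex m F y := fun e => h ⟨S, hS, hi, e⟩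
  omega

theorem ex_add_MM {y : Vec} {i : ℕ} (h : MM m F y i) : ex m F (y + ev i) = ex m F y + 1 := by
  obtain ⟨S, hS, hi, e⟩ := h
  obtain ⟨T, hT, e'⟩ := ex_att m F (y + ev i)
  have h1 := ph_le (F := F) (y + ev i) hS
  have h2 := ph_le (F := F) y hT
  rw [ph_add] at h1 e'
  rw [if_pos hi] at h1
  split_ifs at e' <;> omega

theorem ex_add_nMM {y : Vec} {i : ℕ} (h : ¬ MM m F y i) : ex m F (y + ev i) = ex m F y := by
  obtain ⟨S, hS, e⟩ := ex_att m F y
  obtain ⟨T, hT, e'⟩ := ex_att m F (y + ev i)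
  have h1 := ph_le (F := F) (y + ev i) hS
  have h2 := ph_le (F := F) y hT
  rw [ph_add] at h1 e'
  by_cases hi : i ∈ T
  · have := lt_of_not_MM h hT hi
    rw [if_pos hi] at e'
    split_ifs at h1 <;> omega
  · rw [if_neg hi] at e'
    split_ifs at h1 <;> omega

theorem uu_TT {y : Vec} {i j : ℕ} (h : TT m F y i j) : uu (ex m F) y i j = 1 := by
  obtain ⟨hi, hj, S, hS, hiS, hjS, e⟩ := h
  unfold uu
  rw [ex_add_nMM hi, ex_add_nMM hj]
  obtain ⟨T, hT, e'⟩ := ex_att m F (y + ev i + ev j)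
  have h1 := ph_le (F := F) (y + ev i + ev j) hS
  have h2 := ph_le (F := F) y hT
  rw [ph_add, ph_add] at h1 e'
  rw [if_pos hiS, if_pos hjS] at h1
  by_cases hiT : i ∈ T
  · have := lt_of_not_MM hi hT hiT
    split_ifs at e' <;> omega
  · rw [if_neg hiT] at e'
    split_ifs at e' <;> omega

theorem uu_nTT (hF : Submod m F) {y : Vec} {i j : ℕ} (h : ¬ TT m F y i j) :
    uu (ex m F) y i j = 0 := by
  unfold uu
  obtain ⟨T, hT, e'⟩ := ex_att m F (y + ev i + ev j)
  have h2 := ph_le (F := F) y hT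
  rw [ph_add, ph_add] at e'
  by_cases hi : MM m F y i <;> by_cases hj : MM m F y j
  · rw [ex_add_MM hi, ex_add_MM hj]
    obtain ⟨S, hS, hiS, e⟩ := hi
    obtain ⟨S', hS', hjS, e2⟩ := hj
    have h3 := ph_super hF y hS hS'
    have h4 := ph_le (F := F) y (inter_subset_left.trans hS : S ∩ S' ⊆ range m)
    have h1 := ph_le (F := F) (y + ev i + ev j) (union_subset hS hS')
    rw [ph_add, ph_add, if_pos (mem_union_left _ hiS), if_pos (mem_union_right _ hjS)] at h1
    split_ifs at e' <;> omega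
  · rw [ex_add_MM hi, ex_add_nMM hj]
    obtain ⟨S, hS, hiS, e⟩ := hi
    have h1 := ph_le (F := F) (y + ev i + ev j) hS
    rw [ph_add, ph_add, if_pos hiS] at h1
    by_cases hjT : j ∈ T
    · have := lt_of_not_MM hj hT hjT
      split_ifs at e' h1 <;> omega
    · rw [if_neg hjT] at e'
      split_ifs at e' h1 <;> omega
  · rw [ex_add_nMM hi, ex_add_MM hj]
    obtain ⟨S, hS, hjS, e⟩ := hj
    have h1 := ph_le (F := F) (y + ev i + ev j) hS
    rw [ph_add, ph_add, if_pos hjS] at h1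
    by_cases hiT : i ∈ T
    · have := lt_of_not_MM hi hT hiT
      split_ifs at e' h1 <;> omega
    · rw [if_neg hiT] at e'
      split_ifs at e' h1 <;> omega
  · rw [ex_add_nMM hi, ex_add_nMM hj]
    obtain ⟨S, hS, e⟩ := ex_att m F y
    have h1 := ph_le (F := F) (y + ev i + ev j) hS
    rw [ph_add, ph_add] at h1
    by_cases hiT : i ∈ T
    · have h5 := lt_of_not_MM hi hT hiT
      by_cases hjT : j ∈ T
      · have h6 : ph F y T ≠ ex m F y - 1 := fun e3 => h ⟨hi, hj, T, hT, hiT, hjT, e3⟩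
        split_ifs at e' h1 <;> omega
      · rw [if_neg hjT] at e'
        split_ifs at e' h1 <;> omega
    · rw [if_neg hiT] at e'
      by_cases hjT : j ∈ T
      · have h5 := lt_of_not_MM hj hT hjT
        split_ifs at e' h1 <;> omega
      · rw [if_neg hjT] at e'
        split_ifs at h1 <;> omega

theorem TT_trans (hF : Submod m F) {y : Vec} {i j r : ℕ} (h : TT m F y i r) (h' : TT m F y j r) :
    TT m F y i j := by
  obtain ⟨hi, hr, S, hS, hiS, hrS, e⟩ := h
  obtain ⟨hj, -, S', hS', hjS, hrS', e'⟩ := h'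
  refine ⟨hi, hj, S ∪ S', union_subset hS hS', mem_union_left _ hiS, mem_union_right _ hjS, ?_⟩
  have h1 := ph_super hF y hS hS'
  have h2 := lt_of_not_MM hr (inter_subset_left.trans hS : S ∩ S' ⊆ range m)
    (mem_inter.2 ⟨hrS, hrS'⟩)
  have h3 := lt_of_not_MM hi (union_subset hS hS') (mem_union_left _ hiS)
  omega

theorem ex_P3 (hF : Submod m F) : P3 m (ex m F) := by
  have nn : ∀ y i j, 0 ≤ uu (ex m F) y i j := by
    intro y i j
    by_cases h : TT m F y i j
    · rw [uu_TT h]; norm_num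
    · rw [uu_nTT hF h]
  intro y i _ j _
  refine ⟨nn y i j, fun r _ => ?_⟩
  by_cases h : TT m F y i r
  · by_cases h' : TT m F y j r
    · rw [uu_TT h, uu_TT h', uu_TT (TT_trans hF h h')]; norm_num
    · rw [uu_nTT hF h']
      exact (min_le_right _ _).trans (nn y i j)
  · rw [uu_nTT hF h]
    exact (min_le_left _ _).trans (nn y i j)

/-- the distance bound -/
def QQ (m : ℕ) (F : Finset ℕ → ℤ) (y : Vec) : ℤ := 2 * ex m F y + F (range m) - sm (range m) y

theorem QQ_nonneg (h0 : F ∅ = 0) (y : Vec) : 0 ≤ QQ m F y := by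
  have h1 := ex_nonneg (m := m) h0 y
  have h2 := ph_le (F := F) y (Subset.refl (range m))
  unfold QQ ph at *
  omega

theorem abs_step (y b : Vec) {i : ℕ} (hi : i < m) (s : ℤ) (hs : |s| = 1) :
    ∑ j ∈ range m, |y j - b j| ≤ ∑ j ∈ range m, |(y + s • ev i) j - b j| + 1 := by
  have h1 : ∀ j ∈ range m, |y j - b j| ≤ |(y + s • ev i) j - b j| + if j = i then 1 else 0 := by
    intro j _
    simp only [Pi.add_apply, Pi.smul_apply, ev_apply, smul_eq_mul]
    split_ifs with h
    · have := abs_sub (y j + s * 1 - b j) s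
      have e : y j + s * 1 - b j - s = y j - b j := by ring
      rw [e, hs] at this
      exact this
    · simp
  refine (sum_le_sum h1).trans ?_
  rw [sum_add_distrib, sum_ite_eq' (range m) i, if_pos (mem_range.2 hi)]

theorem step (hF : Submod m F) (h0 : F ∅ = 0) (y : Vec) (hy : 0 < QQ m F y) :
    ∃ i < m, ∃ s : ℤ, |s| = 1 ∧ QQ m F (y + s • ev i) + 1 ≤ QQ m F y := by
  classical
  have hne : ((range m).powerset.filter fun S => ph F y S = ex m F y).Nonempty := by
    obtain ⟨S, hS, e⟩ := ex_att m F y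
    exact ⟨S, mem_filter.2 ⟨mem_powerset.2 hS, e⟩⟩
  rcases (ex_nonneg (m := m) h0 y).lt_or_eq with hpos | hz
  · obtain ⟨S0, hS0, hmin⟩ := exists_min_image _ card hne
    obtain ⟨hS0, e0⟩ := mem_filter.1 hS0
    rw [mem_powerset] at hS0
    have hne0 : S0.Nonempty := by
      rw [nonempty_iff_ne_empty]
      rintro rfl
      simp only [ph, sm, sum_empty, h0] at e0
      omega
    obtain ⟨i, hi⟩ := hne0
    have him : i < m := mem_range.1 (hS0 hi)
    refine ⟨i, him, -1, by norm_num, ?_⟩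
    have e1 : y + (-1 : ℤ) • ev i = y - ev i := by
      rw [neg_smul, one_smul, sub_eq_add_neg]
    rw [e1]
    obtain ⟨T, hT, e'⟩ := ex_att m F (y - ev i)
    rw [ph_sub] at e'
    have h2 := ph_le (F := F) y hT
    have key : ex m F (y - ev i) + 1 ≤ ex m F y := by
      by_cases hiT : i ∈ T
      · rw [if_pos hiT] at e'; omega
      · rw [if_neg hiT] at e'
        by_contra hc
        have eT : ph F y T = ex m F y := by omega
        have h3 := ph_super hF y hS0 hT
        have h4 := ph_le (F := F) y (union_subset hS0 hT)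
        have h5 := ph_le (F := F) y (inter_subset_left.trans hS0 : S0 ∩ T ⊆ range m)
        have h6 := hmin (S0 ∩ T) (mem_filter.2
          ⟨mem_powerset.2 (inter_subset_left.trans hS0), by omega⟩)
        have h7 : S0 ∩ T = S0 := eq_of_subset_of_card_le inter_subset_left h6
        exact hiT (mem_inter.1 (h7 ▸ hi)).2
    unfold QQ
    rw [sm_sub, sm_ev, if_pos (mem_range.2 him)]
    omega
  · obtain ⟨S1, hS1, hmax⟩ := exists_max_image _ card hne
    obtain ⟨hS1, e1⟩ := mem_filter.1 hS1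
    rw [mem_powerset] at hS1
    have hne1 : ¬ range m ⊆ S1 := by
      intro h
      have : S1 = range m := Subset.antisymm hS1 h
      rw [this] at e1
      unfold QQ at hy
      unfold ph at e1
      omega
    obtain ⟨i, hi, hi1⟩ := not_subset.1 hne1
    refine ⟨i, mem_range.1 hi, 1, by norm_num, ?_⟩
    have hn : ¬ MM m F y i := by
      rintro ⟨T, hT, hiT, eT⟩
      have h3 := ph_super hF y hS1 hT
      have h4 := ph_le (F := F) y (union_subset hS1 hT)
      have h5 := ph_le (F := F) y (inter_subset_left.trans hS1 : S1 ∩ T ⊆ range m)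
      have h6 := hmax (S1 ∪ T) (mem_filter.2
        ⟨mem_powerset.2 (union_subset hS1 hT), by omega⟩)
      have h7 : S1 = S1 ∪ T := eq_of_subset_of_card_le subset_union_left h6
      exact hi1 (h7 ▸ mem_union_right _ hiT)
    rw [one_smul]
    unfold QQ
    rw [ex_add_nMM hn, sm_add, sm_ev, if_pos hi]
    omega

theorem sm_congr {S : Finset ℕ} (hS : S ⊆ range m) {y y' : Vec} (h : ∀ i < m, y i = y' i) :
    sm S y = sm S y' :=
  sum_congr rfl fun i hi => h i (mem_range.1 (hS hi))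

theorem proj (hF : Submod m F) (h0 : F ∅ = 0) (n : ℕ) : ∀ y : Vec, QQ m F y ≤ n →
    ∃ b ∈ Bs m F, ∑ j ∈ range m, |y j - b j| ≤ QQ m F y := by
  have base : ∀ y : Vec, QQ m F y = 0 →
      ∃ b ∈ Bs m F, ∑ j ∈ range m, |y j - b j| ≤ QQ m F y := by
    intro y hy
    have h1 := ex_nonneg (m := m) h0 y
    have h2 := ph_le (F := F) y (Subset.refl (range m))
    have hc : ∀ i < m, (fun i => if i < m then y i else 0 : Vec) i = y i := by
      intro i hi; simp [hi]
    refine ⟨fun i => if i < m then y i else 0, ⟨fun i hi => if_neg (by omega), fun S hS => ?_, ?_⟩,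
      ?_⟩
    · have h3 := ph_le (F := F) y hS
      rw [sm_congr hS hc]
      unfold QQ ph at *
      omega
    · rw [sm_congr (Subset.refl _) hc]
      unfold QQ ph at *
      omega
    · rw [hy]
      refine le_of_eq (sum_eq_zero fun j hj => ?_)
      simp [mem_range.1 hj]
  induction n with
  | zero =>
    intro y hy
    exact base y (le_antisymm (by simpa using hy) (QQ_nonneg h0 y))
  | succ n ih =>
    intro y hy
    rcases (QQ_nonneg (m := m) h0 y).lt_or_eq with hpos | hz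
    · obtain ⟨i, hi, s, hs, hq⟩ := step hF h0 y hpos
      obtain ⟨b, hb, hd⟩ := ih (y + s • ev i) (by push_cast at hy; omega)
      refine ⟨b, hb, ?_⟩
      have := abs_step y b hi s hs
      omega
    · exact base y hz.symm

/-- the penalised linear energy -/
def nu0 (m : ℕ) (F : Finset ℕ → ℤ) (cst : ℕ → ℕ) (ζ y : Vec) : ℤ :=
  -dot m ζ y + (∑ i ∈ range m, |ζ i| + ∑ a ∈ range m, (cst a : ℤ)) * QQ m F y

theorem dot_add (u y z : Vec) : dot m u (y + z) = dot m u y + dot m u z := by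
  simp only [dot, Pi.add_apply, mul_add, sum_add_distrib]

theorem nu0_P3 (hF : Submod m F) (cst : ℕ → ℕ) (ζ : Vec) : P3 m (nu0 m F cst ζ) := by
  set L : ℤ := ∑ i ∈ range m, |ζ i| + ∑ a ∈ range m, (cst a : ℤ) with hL
  have hL0 : 0 ≤ 2 * L := by positivity
  have e : ∀ y i j, uu (nu0 m F cst ζ) y i j = 2 * L * uu (ex m F) y i j := by
    intro y i j
    simp only [uu, nu0, QQ, dot_add, sm_add, ← hL]
    ring
  intro y i hi j hj
  obtain ⟨h1, h2⟩ := ex_P3 hF y i hi j hj
  refine ⟨by rw [e]; exact mul_nonneg hL0 h1, fun r hr => ?_⟩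
  rw [e, e, e, ← mul_min_of_nonneg _ _ hL0]
  exact mul_le_mul_of_nonneg_left (h2 r hr) hL0

theorem nu_le_nu0 (hF : Submod m F) (h0 : F ∅ = 0) (p cst : ℕ → ℕ) (ζ y : Vec) :
    nu m F p cst ζ y ≤ nu0 m F cst ζ y := by
  obtain ⟨b, hb, hd⟩ := proj hF h0 (QQ m F y).toNat y (Int.self_le_toNat _)
  refine (nu_le hb y).trans ?_
  set D : ℤ := ∑ j ∈ range m, |y j - b j| with hD
  have hs : ∀ S ⊆ range m, |sm S (y - b)| ≤ D := by
    intro S hS
    refine (abs_sum_le_sum_abs _ _).trans ?_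
    exact sum_le_sum_of_subset_of_nonneg hS fun _ _ _ => abs_nonneg _
  have h1 : cost m p cst (y - b) ≤ (∑ a ∈ range m, (cst a : ℤ)) * D := by
    unfold cost
    rw [sum_mul]
    exact sum_le_sum fun a _ =>
      mul_le_mul_of_nonneg_left (hs _ (filter_subset _ _)) (Nat.cast_nonneg _)
  have h2 : dot m ζ (y - b) ≤ (∑ i ∈ range m, |ζ i|) * D := by
    unfold dot
    rw [sum_mul]
    refine sum_le_sum fun i hi => (le_abs_self _).trans ?_
    rw [abs_mul]
    refine mul_le_mul_of_nonneg_left ?_ (abs_nonneg _)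
    exact single_le_sum (f := fun j => |y j - b j|) (fun _ _ => abs_nonneg _) hi
  have h3 : dot m ζ y = dot m ζ b + dot m ζ (y - b) := by
    rw [← dot_add]; congr 1; abel
  have h4 : (∑ i ∈ range m, |ζ i| + ∑ a ∈ range m, (cst a : ℤ)) * D ≤
      (∑ i ∈ range m, |ζ i| + ∑ a ∈ range m, (cst a : ℤ)) * QQ m F y :=
    mul_le_mul_of_nonneg_left hd (by positivity)
  unfold nu0
  linarith

theorem nu0_base (h0 : F ∅ = 0) (cst : ℕ → ℕ) (ζ : Vec) {b y : Vec} (hb : b ∈ Bs m F)
    (h : ∀ i < m, y i = b i) : nu0 m F cst ζ y = -dot m ζ b := by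
  have h1 := ex_nonneg (m := m) h0 y
  obtain ⟨S, hS, e⟩ := ex_att m F y
  have h2 := hb.2.1 S hS
  have h3 := hb.2.2
  have h4 : QQ m F y = 0 := by
    unfold QQ
    unfold ph at e
    rw [sm_congr hS h] at e
    rw [sm_congr (Subset.refl _) h]
    omega
  have h5 : dot m ζ y = dot m ζ b :=
    sum_congr rfl fun i hi => by rw [h i (mem_range.1 hi)]
  unfold nu0
  rw [h4, h5]
  ring

theorem isB_bb {p : ℕ → ℕ} (hp : Fo p) {a : ℕ} (ha : a < m) : IsB m ev (bb p a) := by
  unfold bb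
  split_ifs with h
  · exact Or.inl ⟨a, ha, Or.inl (sub_zero _)⟩
  · exact Or.inr ⟨a, ha, p a, (hp a).trans_lt ha, rfl⟩

theorem iter (hF : Submod m F) (h0 : F ∅ = 0) {p : ℕ → ℕ} (hp : Fo p) (cst : ℕ → ℕ) (ζ : Vec)
    (k : ℕ) (hk : k ≤ m) : ∃ ν : Vec → ℤ, P3 m ν ∧ (∀ y, nu m F p cst ζ y ≤ ν y) ∧
      ∀ (y : Vec) (t : ℕ → ℤ), ν y ≤ ∑ a ∈ range k, (cst a : ℤ) * |t a|
        + nu0 m F cst ζ (y + ∑ a ∈ range k, t a • bb p a) := by
  induction k with
  | zero => exact ⟨nu0 m F cst ζ, nu0_P3 hF cst ζ, nu_le_nu0 hF h0 p cst ζ, fun y t => by simp⟩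
  | succ k ih =>
    obtain ⟨ν, h1, h2, h3⟩ := ih (by omega)
    have hkm : k < m := hk
    have low : ∀ (y : Vec) (t : ℤ), nu m F p cst ζ y ≤ (cst k : ℤ) * |t| + ν (y + t • bb p k) := by
      intro y t
      have a1 := nu_add_le (p := p) (cst := cst) (ζ := ζ) hF h0 (y + t • bb p k) (-(t • bb p k))
      rw [add_neg_cancel_right, cost_neg, hp.cost_bb hkm] at a1
      have a2 := h2 (y + t • bb p k)
      linarith
    have hex : ∀ y : Vec, ∃ v : ℤ,
        IsLeast {v | ∃ t : ℤ, v = (cst k : ℤ) * |t| + ν (y + t • bb p k)} v := by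
      intro y
      obtain ⟨v, hv, hl⟩ := Int.exists_least_of_bdd
        (P := fun v => ∃ t : ℤ, v = (cst k : ℤ) * |t| + ν (y + t • bb p k))
        ⟨nu m F p cst ζ y, by rintro z ⟨t, rfl⟩; exact low y t⟩ ⟨_, 0, rfl⟩
      exact ⟨v, hv, fun z hz => hl z hz⟩
    choose ν' hν' using hex
    refine ⟨ν', h1.infconv (isB_bb hp hkm) (cst k) hν', fun y => ?_, fun y t => ?_⟩
    · obtain ⟨t, ht⟩ := (hν' y).1
      rw [ht]
      exact low y t
    · have a1 := (hν' y).2 ⟨t k, rfl⟩
      have a2 := h3 (y + t k • bb p k) t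
      rw [sum_range_succ, sum_range_succ]
      have e : y + (∑ a ∈ range k, t a • bb p a + t k • bb p k)
          = y + t k • bb p k + ∑ a ∈ range k, t a • bb p a := by abel
      rw [e]
      linarith

end P3bX

open P3bX in
theorem nu_P3 {m : ℕ} {F : Finset ℕ → ℤ} (hF : Submod m F) (h0 : F ∅ = 0) {p : ℕ → ℕ} (hp : Fo p)
    (cst : ℕ → ℕ) (ζ : Vec) : P3 m (nu m F p cst ζ) := by
  obtain ⟨ν, h1, h2, h3⟩ := iter hF h0 hp cst ζ m le_rfl
  have e : nu m F p cst ζ = ν := by
    funext y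
    refine le_antisymm (h2 y) ?_
    obtain ⟨b, hb, e⟩ := exists_nu_eq (p := p) (cst := cst) (ζ := ζ) hF h0 y
    set z : Vec := fun i => if i < m then b i - y i else 0 with hz
    have hz0 : ∀ i, m ≤ i → z i = 0 := fun i hi => if_neg (by omega)
    have a1 := h3 y fun a => sm (sub m p a) z
    rw [← hp.expand hz0, nu0_base h0 cst ζ hb (fun i hi => by simp [hz, hi])] at a1
    have a2 : ∑ a ∈ range m, (cst a : ℤ) * |sm (sub m p a) z| = cost m p cst (y - b) := by
      rw [← cost_neg]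
      refine sum_congr rfl fun a _ => ?_
      have hsub : sub m p a ⊆ range m := filter_subset _ _
      rw [sm_congr hsub (y := z) (y' := -(y - b)) (fun i hi => by simp [hz, hi])]
    rw [e]
    linarith
  rw [e]
  exact h1

end Crest.Agent.R302
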