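import Crest.Agent.R302.Smooth

/-! Row 302: calculus of smoothness. -/

set_option autoImplicit false

namespace Crest.Agent.R302

open Crest.Agent.PT Crest.Agent.R309 Finset

variable {G : Type} [AddCommGroup G] {M : Set (G × ℝ)} {c : G → ℝ} {y : G}

theorem Cmp.zero (M : Set (G × ℝ)) {x : ℝ} (hx : 0 ≤ x) : Cmp M 0 x :=
  ⟨[], by simp, by simp, by simpa using hx⟩
theorem Cmp.single {v : G} {x : ℝ} (h : (v, x) ∈ M) : Cmp M v x :=
  ⟨[(v, x)], by simpa using h, by simp, by simp⟩
theorem Cmp.add {v v' : G} {x x' : ℝ} (h : Cmp M v x) (h' : Cmp M v' x') :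
    Cmp M (v + v') (x + x') := by
  obtain ⟨L, h1, h2, h3⟩ := h
  obtain ⟨L', h1', h2', h3'⟩ := h'
  refine ⟨L ++ L', ?_, by simp [h2, h2'], ?_⟩
  · intro z hz
    rcases List.mem_append.1 hz with hz | hz
    exacts [h1 z hz, h1' z hz]
  · rw [List.map_append, List.sum_append]; linarith
theorem Cmp.mono {v : G} {x x' : ℝ} (h : Cmp M v x) (hx : x ≤ x') : Cmp M v x' := by
  obtain ⟨L, h1, h2, h3⟩ := h
  exact ⟨L, h1, h2, h3.trans hx⟩
theorem Cmp.nonneg (hM : ∀ z ∈ M, 0 ≤ z.2) {v : G} {x : ℝ} (h : Cmp M v x) : 0 ≤ x := by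
  obtain ⟨L, h1, -, h3⟩ := h
  refine le_trans (List.sum_nonneg ?_) h3
  intro r hr
  obtain ⟨z, hz, rfl⟩ := List.mem_map.1 hr
  exact hM z (h1 z hz)
theorem Cmp.sum {ι : Type} (A : Finset ι) {v : ι → G} {x : ι → ℝ} (h : ∀ i ∈ A, Cmp M (v i) (x i)) :
    Cmp M (∑ i ∈ A, v i) (∑ i ∈ A, x i) := by
  classical
  induction A using Finset.induction_on with
  | empty => simpa using Cmp.zero M le_rfl
  | insert j A hj ih =>
    rw [Finset.sum_insert hj, Finset.sum_insert hj]
    exact (h j (Finset.mem_insert_self _ _)).add (ih fun i hi => h i (Finset.mem_insert_of_mem hi))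

theorem Cmp.nsmul {v : G} {x : ℝ} (h : Cmp M v x) (n : ℕ) : Cmp M (n • v) ((n : ℝ) * x) := by
  induction n with
  | zero => simpa using Cmp.zero M le_rfl
  | succ n ih =>
    have := ih.add h
    rw [succ_nsmul]
    push_cast
    rwa [add_mul, one_mul]

theorem Cmp.zsmul {v : G} {x : ℝ} (h : Cmp M v x) (h' : Cmp M (-v) x) (t : ℤ) :
    Cmp M (t • v) (|(t : ℝ)| * x) := by
  obtain ⟨n, rfl | rfl⟩ := Int.eq_nat_or_neg t
  · simpa using h.nsmul n
  · simpa using h'.nsmul n

namespace SmLX

theorem dl_shift (l : List G) (f : G → ℝ) (v y : G) :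
    dl l f (y + v) = dl l (fun y => f (y + v)) y := by
  induction l generalizing y with
  | nil => rfl
  | cons u l ih =>
    show dl l f (y + v + u) - dl l f (y + v) = dl l _ (y + u) - dl l _ y
    rw [add_right_comm, ih, ih]

theorem dl_add (l : List G) (f g : G → ℝ) (y : G) :
    dl l (fun y => f y + g y) y = dl l f y + dl l g y := by
  induction l generalizing y with
  | nil => rfl
  | cons u l ih =>
    show dl l _ (y + u) - dl l _ y = (dl l f (y + u) - dl l f y) + (dl l g (y + u) - dl l g y)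
    rw [ih, ih]; ring

theorem dl_sub (l : List G) (f g : G → ℝ) (y : G) :
    dl l (fun y => f y - g y) y = dl l f y - dl l g y := by
  induction l generalizing y with
  | nil => rfl
  | cons u l ih =>
    show dl l _ (y + u) - dl l _ y = (dl l f (y + u) - dl l f y) - (dl l g (y + u) - dl l g y)
    rw [ih, ih]; ring

theorem dl_cons (v : G) (l : List G) (f : G → ℝ) (y : G) :
    dl (v :: l) f y = dl l f (y + v) - dl l f y := rfl

theorem dl_cons' (v : G) (l : List G) (f : G → ℝ) (y : G) :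
    dl (v :: l) f y = dl l (fun y => f (y + v) - f y) y := by
  rw [dl_cons, dl_shift, dl_sub l (fun y => f (y + v)) f]

theorem dl_add_head (u v : G) (l : List G) (f : G → ℝ) (y : G) :
    dl ((v + u) :: l) f y = dl (u :: l) f (y + v) + dl (v :: l) f y := by
  simp only [dl_cons, add_assoc]; ring

theorem dl_inv {v : G} {f : G → ℝ} (hv : ∀ y, f (y + v) = f y) (l : List G) (y : G) :
    dl l f (y + v) = dl l f y := by
  rw [dl_shift]; simp only [hv]

theorem step (h : Sm M c y) {z : G × ℝ} (hz : z ∈ M) : |c (y + z.1) - c y| ≤ z.2 * c y := by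
  have := h [z] (by simp) (by simpa using hz)
  simpa [dl] using this

theorem snd_nonneg (hM : ∀ z ∈ M, 0 ≤ z.2) {L : List (G × ℝ)} (h1 : ∀ z ∈ L, z ∈ M) :
    0 ≤ (L.map Prod.snd).sum := by
  refine List.sum_nonneg ?_
  intro r hr
  obtain ⟨z, hz, rfl⟩ := List.mem_map.1 hr
  exact hM z (h1 z hz)

theorem ratio_aux (hc : ∀ y, 0 < c y) (hM : ∀ z ∈ M, 0 ≤ z.2) {R : ℝ} (hR : R ≤ 1 / 2)
    (h : ∀ v, Cmp M v R → Sm M c (y + v)) (L : List (G × ℝ)) (hL : ∀ z ∈ L, z ∈ M)
    (u : G) (x : ℝ) (hu : Cmp M u x) (hx : x + (L.map Prod.snd).sum ≤ R) :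
    (1 - (L.map Prod.snd).sum) * c (y + u + (L.map Prod.fst).sum) ≤ c (y + u) ∧
      (1 - (L.map Prod.snd).sum) * c (y + u) ≤ c (y + u + (L.map Prod.fst).sum) := by
  induction L generalizing u x with
  | nil => simp
  | cons z L ih =>
    have hz : z ∈ M := hL z (by simp)
    have hL' : ∀ z ∈ L, z ∈ M := fun w hw => hL w (by simp [hw])
    have hS := snd_nonneg hM hL'
    have hr := hM z hz
    have hx0 := hu.nonneg hM
    simp only [List.map_cons, List.sum_cons] at hx ⊢
    obtain ⟨i1, i2⟩ := ih hL' (u + z.1) (x + z.2) (hu.add (Cmp.single hz)) (by linarith)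
    have hs := abs_le.1 (step (h u (hu.mono (by linarith))) hz)
    rw [← add_assoc] at i1 i2
    rw [← add_assoc]
    set S := (L.map Prod.snd).sum
    have p0 := hc (y + u)
    have p1 := hc (y + u + z.1)
    have p2 := hc (y + u + z.1 + (L.map Prod.fst).sum)
    set X := c (y + u + z.1 + (L.map Prod.fst).sum)
    constructor
    · have h1 : (1 - (z.2 + S)) * X * (1 + z.2) ≤ c (y + u) * (1 + z.2) := by
        have : (1 - (z.2 + S)) * (1 + z.2) ≤ 1 - S := by nlinarith [mul_nonneg hr hr, mul_nonneg hr hS]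
        nlinarith [mul_le_mul_of_nonneg_right this p2.le]
      exact le_of_mul_le_mul_right h1 (by linarith)
    · have h1 : (1 - S) * ((1 - z.2) * c (y + u)) ≤ (1 - S) * c (y + u + z.1) :=
        mul_le_mul_of_nonneg_left (by linarith) (by linarith)
      nlinarith [mul_nonneg (mul_nonneg hr hS) p0.le]

end SmLX

open SmLX

/-- composite moves change the weight by a factor at most two -/
theorem Sm.ratio (hc : ∀ y, 0 < c y) (hM : ∀ z ∈ M, 0 ≤ z.2) {R : ℝ} (hR : R ≤ 1 / 2)
    (h : ∀ v, Cmp M v R → Sm M c (y + v)) {v : G} (hv : Cmp M v R) :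
    c (y + v) ≤ 2 * c y ∧ c y ≤ 2 * c (y + v) := by
  obtain ⟨L, h1, rfl, h3⟩ := hv
  obtain ⟨i1, i2⟩ := ratio_aux hc hM hR h L h1 0 0 (Cmp.zero M le_rfl) (by linarith)
  rw [add_zero] at i1 i2
  have p0 := hc y
  have p1 := hc (y + (L.map Prod.fst).sum)
  constructor <;> nlinarith

theorem SmLX.cmp_aux (hc : ∀ y, 0 < c y) (hM : ∀ z ∈ M, 0 ≤ z.2) {R : ℝ} (hR : R ≤ 1 / 2)
    (h : ∀ v, Cmp M v R → Sm M c (y + v)) (l : List (G × ℝ)) (hm : ∀ z ∈ l, Cmp M z.1 z.2)
    (e : List (G × ℝ)) (he : ∀ z ∈ e, z ∈ M) (hl : l.length + e.length ≤ 3)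
    (u : G) (x : ℝ) (hu : Cmp M u x) (hs : x + (l.map Prod.snd).sum ≤ R) :
    |dl (l.map Prod.fst ++ e.map Prod.fst) c (y + u)| ≤
      2 * (l.map Prod.snd).prod * (e.map Prod.snd).prod * c y := by
  induction l generalizing e u x with
  | nil =>
    simp only [List.map_nil, List.sum_nil, add_zero, List.nil_append, List.prod_nil, mul_one,
      List.length_nil, zero_add] at hs hl ⊢
    have h1 := h u (hu.mono hs) e hl he
    have h2 := (Sm.ratio hc hM hR h (hu.mono hs)).1
    have h3 : 0 ≤ (e.map Prod.snd).prod := by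
      refine List.prod_nonneg ?_
      intro r hr
      obtain ⟨z, hz, rfl⟩ := List.mem_map.1 hr
      exact hM z (he z hz)
    nlinarith [mul_le_mul_of_nonneg_left h2 h3]
  | cons z l ih =>
    have hm' : ∀ z ∈ l, Cmp M z.1 z.2 := fun w hw => hm w (by simp [hw])
    obtain ⟨L, h1, h2, h3⟩ := hm z (by simp)
    simp only [List.map_cons, List.sum_cons, List.prod_cons, List.length_cons, List.cons_append]
      at hs hl ⊢
    have inner : ∀ (L : List (G × ℝ)), (∀ z ∈ L, z ∈ M) → ∀ (u : G) (x : ℝ), Cmp M u x →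
        x + (L.map Prod.snd).sum + (l.map Prod.snd).sum ≤ R →
        |dl ((L.map Prod.fst).sum :: (l.map Prod.fst ++ e.map Prod.fst)) c (y + u)| ≤
          2 * ((L.map Prod.snd).sum * (l.map Prod.snd).prod) * (e.map Prod.snd).prod * c y := by
      intro L
      induction L with
      | nil => intro _ u x _ _; simp [dl_cons]
      | cons w L ih2 =>
        intro hL u x hu hx
        have hw : w ∈ M := hL w (by simp)
        have hL' : ∀ z ∈ L, z ∈ M := fun w hw => hL w (by simp [hw])
        have hS := snd_nonneg hM hL'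
        have hr := hM w hw
        simp only [List.map_cons, List.sum_cons] at hx ⊢
        rw [dl_add_head]
        have j1 := ih2 hL' (u + w.1) (x + w.2) (hu.add (Cmp.single hw)) (by linarith)
        rw [← add_assoc] at j1
        have j2 := ih hm' (w :: e) (by
          intro z hz
          rcases List.mem_cons.1 hz with rfl | hz
          exacts [hw, he z hz]) (by simp only [List.length_cons]; omega) u x hu (by linarith)
        simp only [List.map_cons, List.prod_cons] at j2
        rw [SmoothX.dl_perm (List.perm_middle)] at j2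
        refine (abs_add_le _ _).trans ?_
        linarith
    have hP : 0 ≤ (l.map Prod.snd).prod := by
      refine List.prod_nonneg ?_
      intro r hr
      obtain ⟨z, hz, rfl⟩ := List.mem_map.1 hr
      exact (hm' z hz).nonneg hM
    have hE : 0 ≤ (e.map Prod.snd).prod := by
      refine List.prod_nonneg ?_
      intro r hr
      obtain ⟨z, hz, rfl⟩ := List.mem_map.1 hr
      exact hM z (he z hz)
    have := inner L h1 u x hu (by linarith)
    rw [h2] at this
    refine this.trans ?_
    have p0 := (hc y).le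
    gcongr

/-- smoothness along composite moves -/
theorem Sm.cmp (hc : ∀ y, 0 < c y) (hM : ∀ z ∈ M, 0 ≤ z.2) {R : ℝ} (hR : R ≤ 1 / 2)
    (h : ∀ v, Cmp M v R → Sm M c (y + v)) (l : List (G × ℝ)) (hl : l.length ≤ 3)
    (hm : ∀ z ∈ l, Cmp M z.1 z.2) (hs : (l.map Prod.snd).sum ≤ R) :
    |dl (l.map Prod.fst) c y| ≤ 2 * (l.map Prod.snd).prod * c y := by
  have := SmLX.cmp_aux hc hM hR h l hm [] (by simp) (by simpa using hl) 0 0 (Cmp.zero M le_rfl)
    (by linarith)
  simpa using this

/-- invariant directions are moves of rate zero -/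
theorem Sm.glue {H : Set G} (hH : ∀ v ∈ H, ∀ y, c (y + v) = c y) (h : Sm M c y) :
    Sm (M ∪ {z | z.1 ∈ H ∧ z.2 = 0}) c y := by
  intro l hl hm
  by_cases hall : ∀ z ∈ l, z ∈ M
  · exact h l hl hall
  · push Not at hall
    obtain ⟨z, hz, hzM⟩ := hall
    have hz2 : z.1 ∈ H ∧ z.2 = 0 := (hm z hz).resolve_left hzM
    obtain ⟨l1, l2, rfl⟩ := List.append_of_mem hz
    have e1 : dl ((l1 ++ z :: l2).map Prod.fst) c y = 0 := by
      rw [List.map_append, List.map_cons, SmoothX.dl_perm (List.perm_middle), dl_cons,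
        dl_inv (hH _ hz2.1), sub_self]
    rw [e1]
    simp [hz2.2]

theorem Sm.shift {v : G} (hv : ∀ y, c (y + v) = c y) (h : Sm M c y) : Sm M c (y + v) := by
  intro l hl hm
  rw [dl_inv hv, hv]
  exact h l hl hm

theorem SmLX.mul_aux {ι : Type} {I : Set ι} {v : ι → G} {ε : ι → ℝ} {c' : G → ℝ} (hc : ∀ y, 0 < c y)
    (hc' : 0 < c' y) (hε : ∀ i ∈ I, 0 ≤ ε i ∧ ε i ≤ 1 / 4)
    (h : ∀ y, Sm {z | ∃ i ∈ I, z = (v i, ε i)} c y)
    (h' : Sm {z | ∃ i ∈ I, z = (v i, 4 * ε i)} c' y) (l A T : List ι) (hl : ∀ i ∈ l, i ∈ I)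
    (hA : ∀ i ∈ A, i ∈ I) (hT : ∀ i ∈ T, i ∈ I) (hlen : l.length + A.length + T.length ≤ 3) :
    |dl (l.map v) (fun y => dl (A.map v) c (y + (T.map v).sum) * dl (T.map v) c' y) y| ≤
      (l.map fun i => 8 * ε i).prod * (A.map ε).prod * (T.map fun i => 5 * ε i).prod *
        (c y * c' y) := by
  have nn : ∀ (k : ℝ) (L : List ι), 0 ≤ k → (∀ i ∈ L, i ∈ I) → 0 ≤ (L.map fun i => k * ε i).prod := by
    intro k L hk hL
    refine List.prod_nonneg ?_
    intro r hr
    obtain ⟨i, hi, rfl⟩ := List.mem_map.1 hr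
    exact mul_nonneg hk (hε i (hL i hi)).1
  have nn1 : ∀ (L : List ι), (∀ i ∈ L, i ∈ I) → 0 ≤ (L.map ε).prod := by
    intro L hL
    simpa using nn 1 L zero_le_one hL
  induction l generalizing A T with
  | nil =>
    simp only [List.map_nil, List.prod_nil, one_mul, List.length_nil, zero_add] at hlen ⊢
    show |dl (A.map v) c (y + (T.map v).sum) * dl (T.map v) c' y| ≤ _
    have h1 := h (y + (T.map v).sum) (A.map fun i => (v i, ε i)) (by simp; omega) (by
      intro z hz
      obtain ⟨i, hi, rfl⟩ := List.mem_map.1 hz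
      exact ⟨i, hA i hi, rfl⟩)
    have h2 := h' (T.map fun i => (v i, 4 * ε i)) (by simp; omega) (by
      intro z hz
      obtain ⟨i, hi, rfl⟩ := List.mem_map.1 hz
      exact ⟨i, hT i hi, rfl⟩)
    simp only [List.map_map, Function.comp_def] at h1 h2
    have h3 : ∀ (T : List ι), (∀ i ∈ T, i ∈ I) → ∀ y,
        (T.map fun i => 4 * ε i).prod * c (y + (T.map v).sum) ≤
          (T.map fun i => 5 * ε i).prod * c y := by
      intro T
      induction T with
      | nil => intro _ y; simp
      | cons i T ih =>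
        intro hT y
        have hi := hT i (by simp)
        have hT' : ∀ i ∈ T, i ∈ I := fun j hj => hT j (by simp [hj])
        simp only [List.map_cons, List.prod_cons, List.sum_cons]
        have j1 := ih hT' (y + v i)
        have j2 := (abs_le.1 (step (h y) (z := (v i, ε i)) ⟨i, hi, rfl⟩)).2
        simp only at j2
        have j3 := nn 5 T (by norm_num) hT'
        obtain ⟨e0, e1⟩ := hε i hi
        have j4 : c (y + v i) ≤ 5 / 4 * c y := by nlinarith [hc y]
        rw [← add_assoc]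
        calc 4 * ε i * (T.map fun i => 4 * ε i).prod * c (y + v i + (T.map v).sum)
            = 4 * ε i * ((T.map fun i => 4 * ε i).prod * c (y + v i + (T.map v).sum)) := by ring
          _ ≤ 4 * ε i * ((T.map fun i => 5 * ε i).prod * (5 / 4 * c y)) := by
              refine mul_le_mul_of_nonneg_left (j1.trans ?_) (by positivity)
              exact mul_le_mul_of_nonneg_left j4 j3
          _ = _ := by ring
    have h4 := h3 T hT y
    have a0 := nn1 A hA
    rw [abs_mul]
    calc _ ≤ ((A.map ε).prod * c (y + (T.map v).sum)) * ((T.map fun i => 4 * ε i).prod * c' y) :=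
          mul_le_mul h1 h2 (abs_nonneg _) (mul_nonneg a0 (hc _).le)
      _ = (A.map ε).prod * c' y * ((T.map fun i => 4 * ε i).prod * c (y + (T.map v).sum)) := by ring
      _ ≤ (A.map ε).prod * c' y * ((T.map fun i => 5 * ε i).prod * c y) :=
          mul_le_mul_of_nonneg_left h4 (mul_nonneg a0 hc'.le)
      _ = _ := by ring
  | cons i l ih =>
    have hi := hl i (by simp)
    have hl' : ∀ i ∈ l, i ∈ I := fun j hj => hl j (by simp [hj])
    have hcons : ∀ L : List ι, (∀ j ∈ L, j ∈ I) → ∀ j ∈ i :: L, j ∈ I := by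
      intro L hL j hj
      rcases List.mem_cons.1 hj with rfl | hj
      exacts [hi, hL j hj]
    simp only [List.length_cons] at hlen
    have j1 := ih A (i :: T) hl' hA (hcons T hT) (by simp only [List.length_cons]; omega)
    have j2 := ih (i :: A) T hl' (hcons A hA) hT (by simp only [List.length_cons]; omega)
    simp only [List.map_cons, List.prod_cons, List.sum_cons] at j1 j2 ⊢
    rw [dl_cons']
    have e : (fun y => dl (A.map v) c (y + v i + (T.map v).sum) * dl (T.map v) c' (y + v i) -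
        dl (A.map v) c (y + (T.map v).sum) * dl (T.map v) c' y) =
        fun y => dl (A.map v) c (y + (v i + (T.map v).sum)) * dl (v i :: T.map v) c' y +
          dl (v i :: A.map v) c (y + (T.map v).sum) * dl (T.map v) c' y := by
      funext y
      rw [dl_cons, dl_cons, ← add_assoc, add_right_comm y (T.map v).sum]
      ring
    rw [e, dl_add]
    refine (abs_add_le _ _).trans ((add_le_add j1 j2).trans ?_)
    have a0 := nn1 A hA
    have a1 := nn 5 T (by norm_num) hT
    have a2 := nn 8 l (by norm_num) hl'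
    have a3 := (hε i hi).1
    have a4 : 0 ≤ c y * c' y := mul_nonneg (hc y).le hc'.le
    have a5 := mul_nonneg a3 (mul_nonneg (mul_nonneg (mul_nonneg a2 a0) a1) a4)
    nlinarith

/-- products -/
theorem Sm.mul {ι : Type} {I : Set ι} {v : ι → G} {ε : ι → ℝ} {c' : G → ℝ} (hc : ∀ y, 0 < c y)
    (hc' : 0 < c' y) (hε : ∀ i ∈ I, 0 ≤ ε i ∧ ε i ≤ 1 / 4)
    (h : ∀ y, Sm {z | ∃ i ∈ I, z = (v i, ε i)} c y)
    (h' : Sm {z | ∃ i ∈ I, z = (v i, 4 * ε i)} c' y) :
    Sm {z | ∃ i ∈ I, z = (v i, 8 * ε i)} (fun y => c y * c' y) y := by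
  intro l hl hm
  obtain ⟨L, hL, rfl⟩ : ∃ L : List ι, (∀ i ∈ L, i ∈ I) ∧ l = L.map fun i => (v i, 8 * ε i) := by
    clear hl
    induction l with
    | nil => exact ⟨[], by simp, rfl⟩
    | cons z l ih =>
      obtain ⟨L, hL, rfl⟩ := ih fun x hx => hm x (by simp [hx])
      obtain ⟨i, hi, rfl⟩ := hm z (by simp)
      refine ⟨i :: L, ?_, rfl⟩
      intro j hj
      rcases List.mem_cons.1 hj with rfl | hj
      exacts [hi, hL j hj]
  have := SmLX.mul_aux hc hc' hε h h' L [] [] hL (by simp) (by simp) (by simpa using hl)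
  simpa [dl, List.map_map, Function.comp_def] using this

end Crest.Agent.R302
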