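import Crest.Agent.R302.Reg
import Crest.Agent.R302.SmL
import Crest.Agent.R302.CGalg
import Crest.Agent.R302.P3a
import Crest.Agent.R302.P3b

/-! Row 302: the confined smooth weight. -/

set_option autoImplicit false

namespace Crest.Agent.R302

open Crest.Agent.PT Crest.Agent.R309 Finset

namespace ConfX

theorem amul {a b A B : ℝ} (ha : |a| ≤ A) (hb : |b| ≤ B) : |a * b| ≤ A * B := by
  rw [abs_mul]; exact mul_le_mul ha hb (abs_nonneg _) ((abs_nonneg _).trans ha)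

/-- Gaussian-type weights are smooth -/
theorem gauss {V ι : Type} [AddCommGroup V] {I : Set ι} {v : ι → V} {ε : ι → ℝ} {G : V → ℝ}
    (A : ι → V → ℝ) (B : ι → ι → ℝ) (hG : ∀ i ∈ I, ∀ y, G (y + v i) = G y * Real.exp (A i y))
    (hA : ∀ i ∈ I, ∀ j ∈ I, ∀ y, A i (y + v j) = A i y + B i j) {y : V} (h0 : 0 < G y)
    (hε : ∀ i ∈ I, 0 ≤ ε i ∧ ε i ≤ 1 / 4) (h1 : ∀ i ∈ I, |A i y| ≤ ε i / 2)
    (h2 : ∀ i ∈ I, ∀ j ∈ I, |B i j| ≤ ε i * ε j / 2) :
    Sm {z | ∃ i ∈ I, z = (v i, 4 * ε i)} G y := by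
  have x1 : ∀ i ∈ I, |Real.exp (A i y) - 1| ≤ ε i := fun i hi => by
    have := h1 i hi
    have := Real.abs_exp_sub_one_le (x := A i y) (by linarith [(hε i hi).2])
    linarith
  have x2 : ∀ i ∈ I, |Real.exp (A i y)| ≤ 2 := fun i hi => by
    have := abs_le.1 (x1 i hi)
    rw [abs_of_pos (Real.exp_pos _)]
    linarith [(hε i hi).2]
  have ee : ∀ i ∈ I, ∀ j ∈ I, ε i * ε j ≤ ε i ∧ ε i * ε j ≤ ε j := fun i hi j hj =>
    ⟨mul_le_of_le_one_right (hε i hi).1 (by linarith [(hε j hj).2]),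
      mul_le_of_le_one_left (hε j hj).1 (by linarith [(hε i hi).2])⟩
  have y1 : ∀ i ∈ I, ∀ j ∈ I, |Real.exp (B i j) - 1| ≤ ε i * ε j := fun i hi j hj => by
    have := h2 i hi j hj
    have := Real.abs_exp_sub_one_le (x := B i j) (by linarith [(hε i hi).2, (ee i hi j hj).1])
    linarith
  have fin : ∀ {t P : ℝ}, |t| ≤ P → |G y * t| ≤ P * G y := fun h => by
    rw [abs_mul, abs_of_pos h0, mul_comm]; exact mul_le_mul_of_nonneg_right h h0.le
  intro l hl hm
  rcases l with _ | ⟨z1, _ | ⟨z2, _ | ⟨z3, _ | ⟨z4, l⟩⟩⟩⟩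
  · simp [dl, abs_of_pos h0]
  · obtain ⟨i, hi, rfl⟩ := hm z1 (by simp)
    simp only [List.map, dl, List.prod_cons, List.prod_nil, hG i hi]
    rw [show G y * Real.exp (A i y) - G y = G y * (Real.exp (A i y) - 1) by ring]
    exact fin (by linarith [x1 i hi, (hε i hi).1])
  · obtain ⟨i, hi, rfl⟩ := hm z1 (by simp)
    obtain ⟨j, hj, rfl⟩ := hm z2 (by simp)
    simp only [List.map, dl, List.prod_cons, List.prod_nil, hG i hi, hG j hj, hA j hj i hi,
      Real.exp_add]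
    have a1 := abs_le.1 (amul (x1 i hi) (x1 j hj))
    have a2 := abs_le.1 (amul (amul (x2 i hi) (x2 j hj)) (y1 j hj i hi))
    have a3 := mul_nonneg (hε i hi).1 (hε j hj).1
    refine le_trans (le_of_eq (congrArg _ ?_)) (fin (t := (Real.exp (A i y) - 1) *
      (Real.exp (A j y) - 1) + Real.exp (A i y) * Real.exp (A j y) * (Real.exp (B j i) - 1)) ?_)
    · ring
    · rw [abs_le]; constructor <;> linarith
  · obtain ⟨i, hi, rfl⟩ := hm z1 (by simp)
    obtain ⟨j, hj, rfl⟩ := hm z2 (by simp)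
    obtain ⟨k, hk, rfl⟩ := hm z3 (by simp)
    simp only [List.map, dl, List.prod_cons, List.prod_nil, hG i hi, hG j hj, hG k hk, hA j hj i hi,
      hA k hk j hj, hA k hk i hi, Real.exp_add]
    have p1 := y1 j hj i hi
    have p2 := y1 k hk i hi
    have p3 := y1 k hk j hj
    have a3 := amul (amul (x2 i hi) (x2 j hj)) (x2 k hk)
    have b0 := abs_le.1 (amul (amul (x1 i hi) (x1 j hj)) (x1 k hk))
    have b1 := abs_le.1 (amul (amul (amul (x2 i hi) (x2 j hj)) (x1 k hk)) p1)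
    have b2 := abs_le.1 (amul (amul (amul (x2 i hi) (x2 k hk)) (x1 j hj)) p2)
    have b3 := abs_le.1 (amul (amul (amul (x2 j hj) (x2 k hk)) (x1 i hi)) p3)
    have b4 := abs_le.1 (amul (amul a3 p1) (p2.trans (ee k hk i hi).1))
    have b5 := abs_le.1 (amul (amul a3 p1) (p3.trans (ee k hk j hj).1))
    have b6 := abs_le.1 (amul (amul a3 p2) (p3.trans (ee k hk j hj).2))
    have b7 := abs_le.1 (amul (amul (amul a3 p1) (p2.trans (ee k hk i hi).1))
      (p3.trans ((ee k hk j hj).1.trans (show ε k ≤ 1 by linarith [(hε k hk).2]))))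
    have a4 := mul_nonneg (mul_nonneg (hε i hi).1 (hε j hj).1) (hε k hk).1
    generalize Real.exp (A i y) = a at *
    generalize Real.exp (A j y) = b at *
    generalize Real.exp (A k y) = c at *
    generalize Real.exp (B j i) = d at *
    generalize Real.exp (B k i) = e at *
    generalize Real.exp (B k j) = f at *
    refine le_trans (le_of_eq (congrArg _ ?_)) (fin (t := (a - 1) * (b - 1) * (c - 1) +
      a * b * (c - 1) * (d - 1) + a * c * (b - 1) * (e - 1) + b * c * (a - 1) * (f - 1) +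
      a * b * c * (d - 1) * (e - 1) + a * b * c * (d - 1) * (f - 1) + a * b * c * (e - 1) * (f - 1) +
      a * b * c * (d - 1) * (e - 1) * (f - 1)) ?_)
    · ring
    · rw [abs_le]; constructor <;> linarith
  · simp only [List.length_cons] at hl
    omega

/-- sign -/
def sg (s : Bool) : ℤ := if s then 1 else -1

theorem sg_sq (s : Bool) : sg s * sg s = 1 := by cases s <;> rfl
theorem abs_sg (s : Bool) : |(sg s : ℝ)| = 1 := by cases s <;> simp [sg]

theorem mvs_eq (m : ℕ) (p : ℕ → ℕ) (ε : ℕ → ℝ) : mvs m p ε =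
    {z | ∃ i ∈ {i : ℕ × Bool | i.1 < m ∧ p i.1 ≠ i.1}, z = (sg i.2 • bb p i.1, ε i.1)} := by
  ext ⟨v, x⟩
  constructor
  · rintro ⟨a, h1, h2, h3 | h3, h4⟩
    · exact ⟨(a, true), ⟨h1, h2⟩, by simp only at h3 h4; simp [sg, h3, h4]⟩
    · exact ⟨(a, false), ⟨h1, h2⟩, by simp only at h3 h4; simp [sg, h3, h4]⟩
  · rintro ⟨⟨a, s⟩, ⟨h1, h2⟩, h3⟩
    obtain ⟨rfl, rfl⟩ := Prod.mk.inj h3
    exact ⟨a, h1, h2, by cases s <;> simp [sg], rfl⟩

variable {S : Mod}

/-- inverse temperature -/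
noncomputable def be (S : Mod) : ℝ := Real.log 2 / S.D

theorem D0 : (0 : ℝ) < S.D := by exact_mod_cast Mod.D_pos
theorem Q0 : (0 : ℝ) < S.Q := by exact_mod_cast Mod.Q_pos
theorem be_pos : 0 < be S := div_pos (Real.log_pos one_lt_two) D0
theorem be_D : be S * S.D = Real.log 2 := div_mul_cancel₀ _ D0.ne'
theorem log_le : Real.log 2 ≤ 1 := by linarith [Real.log_two_lt_d9]
theorem log_ge : 1 ≤ 2 * Real.log 2 := by linarith [Real.log_two_gt_d9]

theorem QR (h : S.OK) : (4096 : ℝ) ≤ S.Q ∧ 1024 * ((2 * S.n : ℕ) : ℝ) ≤ S.Q := by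
  have h1 := h.Q_ge
  have h2 : 1024 * (2 * S.n) ≤ S.Q := by have := h.nQ; omega
  exact ⟨by exact_mod_cast h1, by exact_mod_cast h2⟩

theorem cst_eq (h : S.OK) {a : ℕ} (ha : a < 2 * S.n) (hp : S.p a ≠ a) :
    be S * S.cst a = Real.log 2 * (S.Q : ℝ) ^ 12 / 2 ^ S.j a := by
  have e : (S.cst a : ℝ) * 2 ^ S.j a = S.D * (S.Q : ℝ) ^ 12 := by exact_mod_cast h.cst_mul ha hp
  rw [eq_div_iff (by positivity), mul_assoc, e, ← mul_assoc, be_D]

theorem kap_eq (h : S.OK) {a : ℕ} (ha : a < 2 * S.n) :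
    be S * S.Ka a = Real.log 2 / ((S.Q : ℝ) ^ 257 * (2 ^ S.j a) ^ 2) := by
  have e : (S.Ka a : ℝ) * ((S.Q : ℝ) ^ 300 * (2 ^ S.j a) ^ 2) = S.D * (S.Q : ℝ) ^ 43 := by
    exact_mod_cast h.Ka_mul ha
  have := Q0 (S := S)
  rw [eq_div_iff (by positivity), ← be_D (S := S), mul_assoc]
  refine congrArg (be S * ·) (mul_right_cancel₀ (pow_pos this 43).ne' ?_)
  linear_combination e

theorem kw_eq : be S * S.KW = Real.log 2 / (S.Q : ℝ) ^ 307 := by
  have e : (S.KW : ℝ) * (S.Q : ℝ) ^ 307 = S.D := by exact_mod_cast Mod.KW_mul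
  have := Q0 (S := S)
  rw [eq_div_iff (by positivity), mul_assoc, e, be_D]

theorem two_j (h : S.OK) {a : ℕ} (ha : a < 2 * S.n) : (S.Q : ℝ) ^ 150 ≤ 2 ^ S.j a := by
  exact_mod_cast h.two_j ha

theorem eps_le (h : S.OK) {a : ℕ} (ha : a < 2 * S.n) : S.eps a ≤ 1 / 4 := by
  have h1 := h.eps_le ha
  have h2 : (4 : ℝ) ≤ (S.Q : ℝ) ^ 136 :=
    le_trans (by linarith [(QR h).1]) (le_self_pow₀ (by linarith [(QR h).1]) (by norm_num))
  have := mul_le_mul_of_nonneg_left h2 (Mod.eps_pos (S := S) a).le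
  linarith

/-- the hard weight -/
noncomputable def cc (S : Mod) (ζ : ℕ → ℤ) (Y : Vec) : ℝ := Real.exp (-(be S * S.nz ζ Y))
/-- the margin weight -/
noncomputable def GG (S : Mod) (Y : Vec) : ℝ := Real.exp (-(be S * S.Mar Y))

theorem w_eq (ζ : ℕ → ℤ) (Y : Vec) : S.w ζ Y = cc S ζ Y * GG S Y := by
  unfold Mod.w cc GG Mod.En be
  rw [Real.rpow_def_of_pos two_pos, ← Real.exp_add]
  congr 1
  push_cast
  ring

theorem lip (h : S.OK) (ζ : ℕ → ℤ) (y z : Vec) {t : ℝ}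
    (ht : be S * cost (2 * S.n) S.p S.cst z ≤ t) :
    cc S ζ (y + z) ≤ Real.exp t * cc S ζ y ∧ cc S ζ y ≤ Real.exp t * cc S ζ (y + z) := by
  have h1 : S.nz ζ (y + z) ≤ S.nz ζ y + cost (2 * S.n) S.p S.cst z :=
    nu_add_le h.submod h.F_empty y z
  have h2 : S.nz ζ (y + z + -z) ≤ S.nz ζ (y + z) + cost (2 * S.n) S.p S.cst (-z) :=
    nu_add_le h.submod h.F_empty _ _
  rw [add_neg_cancel_right, cost_neg] at h2
  have h3 : (S.nz ζ (y + z) : ℝ) ≤ S.nz ζ y + cost (2 * S.n) S.p S.cst z := by exact_mod_cast h1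
  have h4 : (S.nz ζ y : ℝ) ≤ S.nz ζ (y + z) + cost (2 * S.n) S.p S.cst z := by exact_mod_cast h2
  have h5 := mul_le_mul_of_nonneg_left h3 (be_pos (S := S)).le
  have h6 := mul_le_mul_of_nonneg_left h4 (be_pos (S := S)).le
  unfold cc
  rw [← Real.exp_add, ← Real.exp_add]
  exact ⟨Real.exp_le_exp.2 (by linarith), Real.exp_le_exp.2 (by linarith)⟩

theorem cost_ev (h : S.OK) (g : ℕ) :
    be S * cost (2 * S.n) S.p S.cst (ev g) ≤ Real.log 2 * (2 * S.q + 1 : ℕ) := by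
  obtain ⟨r, -, -, hr⟩ := h.fo.exists_root g
  obtain ⟨q1, q2⟩ := QR h
  have l0 := Real.log_pos one_lt_two
  have q0 := Q0 (S := S)
  unfold cost
  push_cast
  rw [mul_sum]
  refine (sum_le_sum (g := fun a => (if a = r then Real.log 2 * (2 * S.q) else 0) +
    Real.log 2 / S.Q) fun a ha => ?_).trans ?_
  · have ha := mem_range.1 ha
    have a0 : 0 ≤ Real.log 2 / S.Q := by positivity
    have a1 : 0 ≤ (if a = r then Real.log 2 * (2 * (S.q : ℝ)) else 0) := by
      split_ifs <;> positivity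
    rw [sm_ev]
    by_cases hg : g ∈ sub (2 * S.n) S.p a
    · rw [if_pos hg, Int.cast_one, abs_one, mul_one]
      by_cases hp : S.p a = a
      · rw [if_pos (hr a hp (mem_sub.1 hg).2), Mod.cst_root hp]
        push_cast
        rw [mul_left_comm, be_D]
        linarith
      · rw [cst_eq h ha hp]
        refine le_add_of_nonneg_of_le a1 ?_
        rw [div_le_div_iff₀ (by positivity) q0, mul_assoc, ← pow_succ]
        exact mul_le_mul_of_nonneg_left ((pow_le_pow_right₀ (by linarith) (by norm_num)).trans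
          (two_j h ha)) l0.le
    · rw [if_neg hg, Int.cast_zero, abs_zero, mul_zero, mul_zero]
      positivity
  · rw [sum_add_distrib, sum_ite_eq', sum_const, card_range, nsmul_eq_mul]
    have a1 : ((2 * S.n : ℕ) : ℝ) * (Real.log 2 / S.Q) ≤ Real.log 2 := by
      rw [mul_div_assoc', div_le_iff₀ q0, mul_comm]
      exact mul_le_mul_of_nonneg_left (by linarith [Nat.cast_nonneg (α := ℝ) (2 * S.n)]) l0.le
    have a2 : 0 ≤ Real.log 2 * (2 * (S.q : ℝ)) := by positivity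
    split_ifs <;> linarith

theorem lip_ev (h : S.OK) (ζ : ℕ → ℤ) (y : Vec) (g : ℕ) :
    cc S ζ (y + ev g) ≤ 2 * (S.Q : ℝ) ^ 2 * cc S ζ y ∧
      cc S ζ y ≤ 2 * (S.Q : ℝ) ^ 2 * cc S ζ (y + ev g) := by
  have e : Real.exp (Real.log 2 * (2 * S.q + 1 : ℕ)) = 2 * (S.Q : ℝ) ^ 2 := by
    rw [mul_comm, Real.exp_nat_mul, Real.exp_log two_pos, Mod.Q]
    push_cast
    ring
  exact e ▸ lip h ζ y (ev g) (cost_ev h g)

theorem exists_c' (h : S.OK) (ζ : ℕ → ℤ) : ∃ c' : Vec → ℝ, SLv (2 * S.n) ev c' ∧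
    (∀ y, cc S ζ y ≤ 2 * c' y ∧ c' y ≤ 2 * cc S ζ y) ∧ ∀ y, Sm (mvs (2 * S.n) S.p S.eps) c' y := by
  obtain ⟨q1, q2⟩ := QR h
  refine exists_smooth h.fo (fun _ => Real.exp_pos _)
    ((nu_P3 h.submod h.F_empty h.fo S.cst _).slv be_pos.le) S.eps (fun a => be S * S.cst a)
    (fun a ha hp => ⟨Mod.eps_pos a, by linarith [eps_le h ha],
      mul_nonneg be_pos.le (Nat.cast_nonneg _), ?_⟩) fun a ha _ y => lip h ζ y _ (le_of_eq ?_)
  · rw [cst_eq h ha hp, Mod.eps, mul_div_assoc']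
    refine div_le_div_of_nonneg_right ?_ (by positivity)
    have a1 : 64 * ((2 * S.n : ℕ) : ℝ) * Real.log 2 ≤ (S.Q : ℝ) ^ 2 := by
      have := mul_le_of_le_one_right (show 0 ≤ 64 * ((2 * S.n : ℕ) : ℝ) by positivity) log_le
      nlinarith [Nat.cast_nonneg (α := ℝ) (2 * S.n)]
    rw [← mul_assoc, show (14 : ℕ) = 2 + 12 from rfl, pow_add]
    exact mul_le_mul_of_nonneg_right a1 (by positivity)
  · have := h.fo.cost_bb (cst := S.cst) ha 1
    rw [one_smul] at this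
    rw [this]
    simp

theorem mar_bb (h : S.OK) {a : ℕ} (ha : a < 2 * S.n) (hp : S.p a ≠ a) (s : Bool) (Y : Vec) :
    S.Mar (Y + sg s • bb S.p a) = S.Mar Y + S.Ka a * (2 * sg s * (S.X a Y - S.lo a) + 1) := by
  unfold Mod.Mar
  rw [← sub_eq_iff_eq_add', ← sum_sub_distrib, sum_eq_single_of_mem a (mem_range.2 ha)]
  · rw [Mod.X_add, Mod.X_smul, h.X_bb ha, if_pos rfl, Mod.mar, Mod.mar, if_neg hp, if_neg hp]
    linear_combination (S.Ka a : ℤ) * sg_sq s
  · intro b _ hb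
    rw [Mod.X_add, Mod.X_smul, h.X_bb ha, if_neg hb]
    simp

theorem sm_G (h : S.OK) {Y : Vec} (hY : S.Om (S.Q ^ 200) Y) :
    Sm {z | ∃ i ∈ {i : ℕ × Bool | i.1 < 2 * S.n ∧ S.p i.1 ≠ i.1},
      z = (sg i.2 • bb S.p i.1, 4 * S.eps i.1)} (GG S) Y := by
  obtain ⟨q1, -⟩ := QR h
  have q0 := Q0 (S := S)
  have l0 := Real.log_pos one_lt_two
  refine gauss (v := fun i : ℕ × Bool => sg i.2 • bb S.p i.1) (ε := fun i => S.eps i.1)
    (fun i y => -(be S * S.Ka i.1 * (2 * sg i.2 * ((S.X i.1 y - S.lo i.1 : ℤ) : ℝ) + 1)))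
    (fun i j => if i.1 = j.1 then -(2 * (be S * S.Ka i.1) * (sg i.2 * sg j.2)) else 0)
    (fun i hi y => ?_) (fun i _ j hj y => ?_) (Real.exp_pos _)
    (fun i hi => ⟨(Mod.eps_pos _).le, ConfX.eps_le h hi.1⟩) (fun i hi => ?_) fun i hi j _ => ?_
  · unfold GG
    rw [mar_bb h hi.1 hi.2, ← Real.exp_add]
    congr 1
    push_cast
    ring
  · rw [Mod.X_add, Mod.X_smul, h.X_bb hj.1]
    split_ifs <;> push_cast <;> ring
  · have a1 : |((S.X i.1 Y - S.lo i.1 : ℤ) : ℝ)| ≤ (S.Q : ℝ) ^ 200 * 2 ^ S.j i.1 := by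
      exact_mod_cast hY i.1 hi.1
    have a2 : (1 : ℝ) ≤ (S.Q : ℝ) ^ 200 * 2 ^ S.j i.1 :=
      one_le_mul_of_one_le_of_one_le (one_le_pow₀ (by linarith)) (one_le_pow₀ one_le_two)
    have a3 : |2 * sg i.2 * ((S.X i.1 Y - S.lo i.1 : ℤ) : ℝ) + 1| ≤
        3 * ((S.Q : ℝ) ^ 200 * 2 ^ S.j i.1) := by
      refine (abs_add_le _ _).trans ?_
      rw [abs_mul, abs_mul, abs_sg, abs_one, abs_two]
      linarith
    rw [abs_neg, kap_eq h hi.1]
    refine (amul (abs_of_pos (by positivity)).le a3).trans ?_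
    unfold Mod.eps
    have a4 : 6 * (S.Q : ℝ) ^ 200 ≤ (S.Q : ℝ) ^ 14 * (S.Q : ℝ) ^ 257 := by
      rw [← pow_add]
      refine le_trans ?_ (pow_le_pow_right₀ (by linarith) (show 200 + 1 ≤ 14 + 257 by norm_num))
      rw [pow_succ, mul_comm]
      exact mul_le_mul_of_nonneg_left (by linarith) (by positivity)
    have a5 := mul_le_of_le_one_left (show 0 ≤ (S.Q : ℝ) ^ 200 by positivity) log_le
    have x0 : (0 : ℝ) < 2 ^ S.j i.1 := by positivity
    have y0 : (0 : ℝ) < (S.Q : ℝ) ^ 257 := by positivity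
    generalize (2 : ℝ) ^ S.j i.1 = x at *
    generalize (S.Q : ℝ) ^ 257 = y at *
    generalize (S.Q : ℝ) ^ 200 = u at *
    generalize (S.Q : ℝ) ^ 14 = t at *
    rw [show Real.log 2 / (y * x ^ 2) * (3 * (u * x)) = 6 * (Real.log 2 * u) / y / x / 2 by
      field_simp; ring]
    refine div_le_div_of_nonneg_right (div_le_div_of_nonneg_right ?_ x0.le) (by norm_num)
    rw [div_le_iff₀ y0]
    linarith
  · split_ifs with e
    · rw [← e, abs_neg, abs_mul, abs_mul (sg i.2 : ℝ), abs_sg, abs_sg, kap_eq h hi.1,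
        abs_of_pos (by positivity)]
      unfold Mod.eps
      have a1 : (4 : ℝ) ≤ (S.Q : ℝ) ^ 14 :=
        le_trans (by linarith) (le_self_pow₀ (by linarith) (by norm_num))
      have a2 : (1 : ℝ) ≤ (S.Q : ℝ) ^ 257 := one_le_pow₀ (by linarith)
      have x0 : (0 : ℝ) < 2 ^ S.j i.1 := by positivity
      generalize (2 : ℝ) ^ S.j i.1 = x at *
      generalize (S.Q : ℝ) ^ 257 = y at *
      generalize (S.Q : ℝ) ^ 14 = t at *
      rw [show 2 * (Real.log 2 / (y * x ^ 2)) * (1 * 1) = 2 * (Real.log 2 / y) / x ^ 2 by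
        field_simp, show t / x * (t / x) / 2 = t * t / 2 / x ^ 2 by field_simp]
      refine div_le_div_of_nonneg_right ?_ (by positivity)
      have a3 : Real.log 2 / y ≤ 1 := (div_le_self l0.le a2).trans log_le
      nlinarith
    · rw [abs_zero]
      exact div_nonneg (mul_pos (Mod.eps_pos _) (Mod.eps_pos _)).le zero_le_two

/-- curvature of the margin -/
def KK (S : Mod) (Y : Vec) (a : ℕ) : ℤ :=
  S.mar a (S.X a Y - S.lo a + 2) + S.mar a (S.X a Y - S.lo a) - 2 * S.mar a (S.X a Y - S.lo a + 1)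

theorem G_id (Y : Vec) {i j : ℕ} (hi : i < 2 * S.n) (hj : j < 2 * S.n) :
    GG S (Y + ev i + ev j) * GG S Y = GG S (Y + ev i) * GG S (Y + ev j) *
      Real.exp (-∑ a ∈ (range (2 * S.n)).filter (fun a => anc S.p a i ∧ anc S.p a j),
        be S * KK S Y a) := by
  have e : S.Mar (Y + ev i + ev j) + S.Mar Y = S.Mar (Y + ev i) + S.Mar (Y + ev j) +
      ∑ a ∈ (range (2 * S.n)).filter (fun a => anc S.p a i ∧ anc S.p a j), KK S Y a := by
    unfold Mod.Mar
    rw [sum_filter, ← sum_add_distrib, ← sum_add_distrib, ← sum_add_distrib]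
    refine sum_congr rfl fun a _ => ?_
    have x : ∀ i < 2 * S.n, S.X a (ev i) = if anc S.p a i then 1 else 0 := fun i hi => by
      unfold Mod.X
      rw [sm_ev]
      simp only [mem_sub, hi, true_and]
    rw [Mod.X_add, Mod.X_add, Mod.X_add, x i hi, x j hj, KK]
    simp only [add_sub_right_comm _ _ (S.lo a)]
    generalize S.X a Y - S.lo a = u
    by_cases h1 : anc S.p a i <;> by_cases h2 : anc S.p a j <;>
      simp only [h1, h2, if_true, if_false, and_self, and_true, and_false, add_zero]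
    · rw [show u + 1 + 1 = u + 2 by ring]; ring
    · exact add_comm _ _
  unfold GG
  rw [← Real.exp_add, ← Real.exp_add, ← Real.exp_add, ← mul_sum]
  congr 1
  have e' := congrArg (Int.cast : ℤ → ℝ) e
  push_cast at e'
  linear_combination (-be S) * e'

theorem KK_bd (h : S.OK) (Y : Vec) {a : ℕ} (ha : a < 2 * S.n) :
    (if S.p a = a then 0 ≤ be S * KK S Y a
      else 1 / (S.Q : ℝ) ^ 285 * S.eps a ^ 2 ≤ be S * KK S Y a) ∧
    be S * KK S Y a ≤ 2 / (S.Q : ℝ) ^ 307 := by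
  obtain ⟨q1, -⟩ := QR h
  have q0 := Q0 (S := S)
  unfold KK Mod.mar
  by_cases hp : S.p a = a
  · simp only [hp, if_true]
    obtain ⟨h1, h2⟩ := Mod.Hub_conv (S := S) (S.X a Y - S.lo a)
    generalize S.Hub (S.X a Y - S.lo a + 2) + S.Hub (S.X a Y - S.lo a) -
      2 * S.Hub (S.X a Y - S.lo a + 1) = K at h1 h2
    have h3 : (K : ℝ) ≤ 2 * S.KW := by exact_mod_cast h2
    refine ⟨mul_nonneg be_pos.le (by exact_mod_cast h1),
      (mul_le_mul_of_nonneg_left h3 be_pos.le).trans ?_⟩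
    rw [mul_left_comm, kw_eq, mul_div_assoc']
    exact div_le_div_of_nonneg_right (by linarith [log_le]) (by positivity)
  · simp only [hp, if_false]
    generalize S.X a Y - S.lo a = u
    have e : be S * ((S.Ka a * (u + 2) ^ 2 + S.Ka a * u ^ 2 - 2 * (S.Ka a * (u + 1) ^ 2) : ℤ) : ℝ) =
        2 * Real.log 2 / ((S.Q : ℝ) ^ 257 * (2 ^ S.j a) ^ 2) := by
      rw [mul_div_assoc, ← kap_eq h ha]; push_cast; ring
    rw [e]
    constructor
    · refine le_trans (le_of_eq ?_) (div_le_div_of_nonneg_right log_ge (by positivity))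
      unfold Mod.eps
      rw [show (285 : ℕ) = 257 + 14 * 2 from rfl, pow_add, pow_mul]
      have t0 : (0 : ℝ) < (S.Q : ℝ) ^ 14 := by positivity
      generalize (S.Q : ℝ) ^ 257 = y
      generalize (S.Q : ℝ) ^ 14 = t at t0
      field_simp
    · refine div_le_div₀ zero_le_two (by linarith [log_le]) (by positivity) ?_
      refine le_trans ?_ (mul_le_mul_of_nonneg_left (pow_le_pow_left₀ (by positivity) (two_j h ha) 2)
        (by positivity))
      rw [← pow_mul, ← pow_add]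
      exact pow_le_pow_right₀ (by linarith) (by norm_num)

theorem sl_C (h : S.OK) {c' : Vec → ℝ} (hc : ∀ y, 0 < c' y) (hs : SLv (2 * S.n) ev c')
    (hr : ∀ y i j, c' (y + ev i + ev j) ≤ (S.Q : ℝ) ^ 5 * c' y ∧
      c' y ≤ (S.Q : ℝ) ^ 5 * c' (y + ev i + ev j))
    (hm : ∀ y, Sm (mvs (2 * S.n) S.p S.eps) c' y) :
    SLv (2 * S.n) ev fun y => c' y * GG S y := by
  intro Y w
  obtain ⟨q1, q2⟩ := QR h
  have q0 := Q0 (S := S)
  have n0 := Nat.cast_nonneg (α := ℝ) (2 * S.n)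
  have hb : ∀ a, S.p a ≠ a → bb S.p a = ev a - ev (S.p a) := fun a hp => by rw [bb, if_neg hp]
  have hk : ∑ a ∈ range (2 * S.n), be S * KK S Y a ≤ (2 * S.n : ℕ) * (2 / (S.Q : ℝ) ^ 307) := by
    refine (sum_le_sum fun a ha => (KK_bd h Y (mem_range.1 ha)).2).trans_eq ?_
    rw [sum_const, card_range, nsmul_eq_mul]
  have key := cg_alg (n := 2 * S.n) h.fo (hc Y) (fun i => c' (Y + ev i))
    (fun i j => c' (Y + ev i + ev j))
    (fun a b => c' Y * DD S.p (fun i => DD S.p (fun j => c' (Y + ev i + ev j)) b) a -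
      DD S.p (fun i => c' (Y + ev i)) a * DD S.p (fun i => c' (Y + ev i)) b)
    (fun i j => by rw [add_right_comm]) S.eps (fun a => be S * KK S Y a) (η := 0)
    (L := (S.Q : ℝ) ^ 5) (θ := 1 / (S.Q : ℝ) ^ 285) (κ := 0) (fun ω => ?_) (fun a _ b _ => by simp)
    (fun g _ => (hr Y g g).2) (fun a ha hp g _ => ?_) (fun a ha hp b hb' hp' => ?_)
    (fun a => (Mod.eps_pos a).le) le_rfl (one_le_pow₀ (by linarith)) (by positivity) le_rfl
    (fun a ha => (KK_bd h Y ha).1) (hk.trans ?_) (by simp) (by simp)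
    ((mul_le_mul_of_nonneg_left hk (by positivity)).trans ?_) fun i => w i * GG S (Y + ev i)
  · refine le_trans (le_of_eq (sum_congr rfl fun i hi => sum_congr rfl fun j hj => ?_)) key
    have := G_id Y (mem_range.1 hi) (mem_range.1 hj)
    linear_combination (w i * w j * c' (Y + ev i + ev j) * c' Y) * this
  · obtain ⟨v, hv⟩ := h.fo.exists_sums (m := 2 * S.n) ω
    have a1 := CGalgX.abel2 (n := 2 * S.n) h.fo v fun i j => c' (Y + ev i + ev j)
    have a2 := h.fo.abel (m := 2 * S.n) v fun i => c' (Y + ev i)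
    replace a1 := a1.trans (sum_congr rfl (g := fun a => ∑ b ∈ range (2 * S.n), ω a * ω b *
      DD S.p (fun i => DD S.p (fun j => c' (Y + ev i + ev j)) b) a) fun a ha =>
        sum_congr rfl fun b hb => by rw [hv a (mem_range.1 ha), hv b (mem_range.1 hb)])
    rw [sum_congr rfl (s₂ := range (2 * S.n)) (f := fun a => (∑ i ∈ sub (2 * S.n) S.p a, v i) *
      DD S.p (fun i => c' (Y + ev i)) a) fun a ha => by rw [hv a (mem_range.1 ha)]] at a2
    have a3 := hs Y v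
    have e : ∀ (x F : ℕ → ℝ) (H : ℕ → ℕ → ℝ), ∑ a ∈ range (2 * S.n), ∑ b ∈ range (2 * S.n),
        x a * x b * (c' Y * H a b - F a * F b) =
        c' Y * ∑ a ∈ range (2 * S.n), ∑ b ∈ range (2 * S.n), x a * x b * H a b -
          (∑ a ∈ range (2 * S.n), x a * F a) * ∑ a ∈ range (2 * S.n), x a * F a := fun x F H => by
      rw [sum_mul_sum, mul_sum, ← sum_sub_distrib]
      refine sum_congr rfl fun a _ => ?_
      rw [mul_sum, ← sum_sub_distrib]
      exact sum_congr rfl fun b _ => by ring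
    simp only [mul_comm _ (c' Y)] at a3
    rw [e v (fun i => c' (Y + ev i)) fun i j => c' (Y + ev i + ev j), a1, a2] at a3
    rw [e]
    exact a3
  · have a1 := hm (Y + ev (S.p a) + ev g) [(bb S.p a, S.eps a)] (by simp)
      (fun x hx => by rw [List.mem_singleton.1 hx]; exact ⟨a, ha, hp, Or.inl rfl, rfl⟩)
    simp only [List.map, dl, List.prod_cons, List.prod_nil, mul_one] at a1
    rw [show Y + ev (S.p a) + ev g + bb S.p a = Y + ev a + ev g by rw [hb a hp]; abel] at a1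
    rw [DD, if_neg hp]
    refine a1.trans ((mul_le_mul_of_nonneg_left (hr Y _ _).1 (Mod.eps_pos a).le).trans_eq ?_)
    ring
  · have a1 := hm (Y + ev (S.p a) + ev (S.p b)) [(bb S.p a, S.eps a), (bb S.p b, S.eps b)] (by simp)
      (fun x hx => by
        rcases List.mem_pair.1 hx with rfl | rfl
        · exact ⟨a, ha, hp, Or.inl rfl, rfl⟩
        · exact ⟨b, hb', hp', Or.inl rfl, rfl⟩)
    simp only [List.map, dl, List.prod_cons, List.prod_nil, mul_one] at a1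
    rw [show Y + ev (S.p a) + ev (S.p b) + bb S.p a + bb S.p b = Y + ev a + ev b by
        rw [hb a hp, hb b hp']; abel,
      show Y + ev (S.p a) + ev (S.p b) + bb S.p a = Y + ev a + ev (S.p b) by rw [hb a hp]; abel,
      show Y + ev (S.p a) + ev (S.p b) + bb S.p b = Y + ev (S.p a) + ev b by
        rw [hb b hp']; abel] at a1
    simp only [DD, if_neg hp, if_neg hp']
    refine a1.trans ((mul_le_mul_of_nonneg_left (hr Y _ _).1
      (mul_pos (Mod.eps_pos a) (Mod.eps_pos b)).le).trans_eq ?_)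
    ring
  · have a1 : (S.Q : ℝ) ≤ (S.Q : ℝ) ^ 307 := le_self_pow₀ (by linarith) (by norm_num)
    rw [mul_div_assoc', div_le_iff₀ (by positivity)]
    linarith
  · rw [← pow_mul, show (307 : ℕ) = 5 * 4 + 2 + 285 from rfl, pow_add, pow_add]
    have t0 : (0 : ℝ) < (S.Q : ℝ) ^ (5 * 4) := by positivity
    have t1 : (0 : ℝ) < (S.Q : ℝ) ^ 285 := by positivity
    have a1 : 72 * ((2 * S.n : ℕ) : ℝ) ^ 2 ≤ (S.Q : ℝ) ^ 2 := by nlinarith
    generalize (S.Q : ℝ) ^ (5 * 4) = t at t0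
    generalize (S.Q : ℝ) ^ 285 = y at t1
    generalize ((2 * S.n : ℕ) : ℝ) = m at a1
    rw [show 36 * t * m * (m * (2 / (t * (S.Q : ℝ) ^ 2 * y))) = 72 * m ^ 2 / (S.Q : ℝ) ^ 2 / y by
      field_simp; ring]
    exact div_le_div_of_nonneg_right ((div_le_one (by positivity)).2 a1) t1.le

end ConfX

open ConfX in
theorem Mod.OK.exists_conf {S : Mod} (h : S.OK) (ζ : ℕ → ℤ) : ∃ C, S.Conf ζ C := by
  obtain ⟨c', h1, h2, h3⟩ := exists_c' h ζ
  obtain ⟨q1, -⟩ := QR h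
  have c0 : ∀ y, 0 < cc S ζ y := fun _ => Real.exp_pos _
  have g0 : ∀ y, 0 < GG S y := fun _ => Real.exp_pos _
  have hc : ∀ y, 0 < c' y := fun y => by linarith [c0 y, (h2 y).1]
  have q2 : 0 ≤ 2 * (S.Q : ℝ) ^ 2 := by positivity
  have q3 : 16 * (S.Q : ℝ) ^ 4 ≤ (S.Q : ℝ) ^ 5 := by
    rw [pow_succ' _ 4]
    exact mul_le_mul_of_nonneg_right (by linarith) (by positivity)
  refine ⟨fun y => c' y * GG S y, fun y => mul_pos (hc y) (g0 y), sl_C h hc h1 (fun y i j => ?_) h3,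
    fun y => ?_, fun y => ?_, fun Y hY => ?_⟩
  · obtain ⟨a1, a2⟩ := lip_ev h ζ y i
    obtain ⟨a3, a4⟩ := lip_ev h ζ (y + ev i) j
    have b1 := a3.trans (mul_le_mul_of_nonneg_left (a1.trans
      (mul_le_mul_of_nonneg_left (h2 y).1 q2)) q2)
    have b2 := a2.trans (mul_le_mul_of_nonneg_left (a4.trans
      (mul_le_mul_of_nonneg_left (h2 _).1 q2)) q2)
    have b3 := mul_le_mul_of_nonneg_right q3 (hc y).le
    have b4 := mul_le_mul_of_nonneg_right q3 (hc (y + ev i + ev j)).le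
    constructor
    · linarith [(h2 (y + ev i + ev j)).2]
    · linarith [(h2 y).2]
  · rw [w_eq, ← mul_assoc]
    exact mul_le_mul_of_nonneg_right (h2 y).1 (g0 y).le
  · rw [w_eq, ← mul_assoc]
    exact mul_le_mul_of_nonneg_right (h2 y).2 (g0 y).le
  · rw [mvs_eq]
    exact Sm.mul (v := fun i : ℕ × Bool => sg i.2 • bb S.p i.1) (ε := fun i => S.eps i.1) hc (g0 Y)
      (fun i hi => ⟨(Mod.eps_pos _).le, ConfX.eps_le h hi.1⟩) (fun y => mvs_eq _ _ S.eps ▸ h3 y)
      (sm_G h hY)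

end Crest.Agent.R302
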