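import Crest.Agent.R302.MDefs
import Crest.Agent.R309.Lor

/-! Row 302: convolution along differences of directions keeps strong log-concavity. -/

set_option autoImplicit false

namespace Crest.Agent.R302

open Finset

section
variable {G : Type} [AddCommGroup G] {m : ℕ} {d : ℕ → G} {c : G → ℝ}

/-- `b` is a direction, the negative of one, or a difference of two -/
def IsB (m : ℕ) (d : ℕ → G) (b : G) : Prop :=
  (∃ i < m, b = d i ∨ b = -d i) ∨ ∃ i < m, ∃ j < m, b = d i - d j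

namespace ConvX

/-- any finite family of directions taken from `d` or equal to zero -/
theorem gen {y : G} (h : SLa m d c y) {ι : Type} (s : Finset ι) (v : ι → G)
    (hv : ∀ i ∈ s, v i = 0 ∨ ∃ j < m, v i = d j) (w : ι → ℝ) :
    ∑ i ∈ s, ∑ j ∈ s, w i * w j * (c (y + v i + v j) * c y - c (y + v i) * c (y + v j)) ≤ 0 := by
  classical
  have hκ : ∀ i, ∃ k, i ∈ s → v i ≠ 0 → k < m ∧ v i = d k := by
    intro i
    by_cases hi : i ∈ s
    · rcases hv i hi with h0 | ⟨j, hj, e⟩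
      · exact ⟨0, fun _ h => absurd h0 h⟩
      · exact ⟨j, fun _ _ => ⟨hj, e⟩⟩
    · exact ⟨0, fun h => absurd h hi⟩
  choose κ hκ using hκ
  set W : ℕ → ℝ := fun k => ∑ i ∈ s, if v i ≠ 0 ∧ κ i = k then w i else 0 with hW
  have push : ∀ f : G → ℝ, f 0 = 0 → ∑ k ∈ range m, W k * f (d k) = ∑ i ∈ s, w i * f (v i) := by
    intro f f0
    simp only [hW, sum_mul]
    rw [sum_comm]
    refine sum_congr rfl fun i hi => ?_
    by_cases h0 : v i = 0
    · simp [h0, f0]
    · obtain ⟨h1, h2⟩ := hκ i hi h0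
      rw [sum_eq_single (κ i)]
      · simp [h0, ← h2]
      · intro k _ hk
        simp [hk.symm]
      · intro hk
        exact absurd (mem_range.2 h1) hk
  have h1 := h W
  have e1 : ∀ u : G, ∑ l ∈ range m, W l * (c (y + u + d l) * c y - c (y + u) * c (y + d l)) =
      ∑ j ∈ s, w j * (c (y + u + v j) * c y - c (y + u) * c (y + v j)) := fun u =>
    push (fun z => c (y + u + z) * c y - c (y + u) * c (y + z)) (by simp)
  have e2 := push (fun u => ∑ j ∈ s, w j * (c (y + u + v j) * c y - c (y + u) * c (y + v j)))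
    (sum_eq_zero fun j _ => by simp [mul_comm])
  simp only [mul_assoc, ← mul_sum] at h1 ⊢
  simp only [e1] at h1
  rwa [e2] at h1

/-- linear part of the local form -/
def A (m : ℕ) (d : ℕ → G) (c : G → ℝ) (y : G) (w : ℕ → ℝ) : ℝ := ∑ i ∈ range m, w i * c (y + d i)

/-- quadratic part of the local form -/
def B (m : ℕ) (d : ℕ → G) (c : G → ℝ) (y : G) (w : ℕ → ℝ) : ℝ :=
  ∑ i ∈ range m, w i * A m d c (y + d i) w

theorem form_eq (m : ℕ) (d : ℕ → G) (c : G → ℝ) (y : G) (w : ℕ → ℝ) :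
    ∑ i ∈ range m, ∑ j ∈ range m,
      w i * w j * (c (y + d i + d j) * c y - c (y + d i) * c (y + d j)) =
      c y * B m d c y w - A m d c y w ^ 2 := by
  unfold B A
  rw [sq, sum_mul_sum, mul_sum, ← sum_sub_distrib]
  refine sum_congr rfl fun i _ => ?_
  rw [mul_sum, mul_sum, ← sum_sub_distrib]
  exact sum_congr rfl fun j _ => by ring

theorem SLa_iff {y : G} : SLa m d c y ↔ ∀ w, c y * B m d c y w ≤ A m d c y w ^ 2 :=
  forall_congr' fun w => by rw [form_eq, sub_nonpos]

/-- three more entries -/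
def ext3 {β : Type} (m : ℕ) (f : ℕ → β) (a b c : β) (i : ℕ) : β :=
  if i < m then f i else if i = m then a else if i = m + 1 then b else c

theorem sum_ext3 (w : ℕ → ℝ) (w₀ p q : ℝ) (x z : G) (f : G → ℝ) :
    ∑ i ∈ range (m + 3), ext3 m w w₀ p q i * f (ext3 m d 0 x z i) =
      ∑ i ∈ range m, w i * f (d i) + w₀ * f 0 + p * f x + q * f z := by
  rw [sum_range_succ, sum_range_succ, sum_range_succ]
  congr 1
  · congr 1
    · congr 1
      · exact sum_congr rfl fun i hi => by simp [ext3, mem_range.1 hi]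
      · simp [ext3]
    · simp [ext3]
  · simp [ext3]

theorem form3 {α x z : G} (h : SLa m d c α) (hx : x = 0 ∨ ∃ j < m, x = d j)
    (hz : z = 0 ∨ ∃ j < m, z = d j) (w₀ : ℝ) (w : ℕ → ℝ) (p q : ℝ) :
    c α * (w₀ ^ 2 * c α + 2 * w₀ * A m d c α w + B m d c α w +
      2 * p * (w₀ * c (α + x) + A m d c (α + x) w) +
      2 * q * (w₀ * c (α + z) + A m d c (α + z) w) + p ^ 2 * c (α + x + x) +
      2 * p * q * c (α + x + z) + q ^ 2 * c (α + z + z)) ≤
      (w₀ * c α + A m d c α w + p * c (α + x) + q * c (α + z)) ^ 2 := by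
  have h3 : SLa (m + 3) (ext3 m d 0 x z) c α := by
    refine gen h _ _ fun i _ => ?_
    unfold ext3
    split_ifs with h1 h2 h3
    · exact Or.inr ⟨i, h1, rfl⟩
    · exact Or.inl rfl
    · exact hx
    · exact hz
  have key := SLa_iff.1 h3 (ext3 m w w₀ p q)
  have eA : ∀ u : G, A (m + 3) (ext3 m d 0 x z) c u (ext3 m w w₀ p q) =
      A m d c u w + w₀ * c u + p * c (u + x) + q * c (u + z) := by
    intro u
    have := sum_ext3 (m := m) (d := d) w w₀ p q x z (fun t => c (u + t))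
    simp only [add_zero] at this
    exact this
  have eB : B (m + 3) (ext3 m d 0 x z) c α (ext3 m w w₀ p q) =
      w₀ ^ 2 * c α + 2 * w₀ * A m d c α w + B m d c α w +
      2 * p * (w₀ * c (α + x) + A m d c (α + x) w) +
      2 * q * (w₀ * c (α + z) + A m d c (α + z) w) + p ^ 2 * c (α + x + x) +
      2 * p * q * c (α + x + z) + q ^ 2 * c (α + z + z) := by
    have := sum_ext3 (m := m) (d := d) w w₀ p q x z
      (fun t => A (m + 3) (ext3 m d 0 x z) c (α + t) (ext3 m w w₀ p q))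
    unfold B
    rw [this]
    simp only [eA, add_zero]
    have e : ∑ i ∈ range m, w i * (A m d c (α + d i) w + w₀ * c (α + d i) +
        p * c (α + d i + x) + q * c (α + d i + z)) =
        ∑ i ∈ range m, w i * A m d c (α + d i) w + w₀ * A m d c α w + p * A m d c (α + x) w +
          q * A m d c (α + z) w := by
      simp only [mul_add, sum_add_distrib]
      congr 1
      · congr 1
        · congr 1
          unfold A
          rw [mul_sum]
          exact sum_congr rfl fun i _ => by ring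
        · unfold A
          rw [mul_sum]
          exact sum_congr rfl fun i _ => by rw [add_right_comm α (d i)]; ring
      · unfold A
        rw [mul_sum]
        exact sum_congr rfl fun i _ => by rw [add_right_comm α (d i)]; ring
    rw [e, add_right_comm α z x]
    ring
  rw [eA, eB] at key
  refine key.trans (le_of_eq ?_)
  ring

theorem orth2 {α x z : G} (h : SLa m d c α) (hc : ∀ y, 0 < c y) (hx : x = 0 ∨ ∃ j < m, x = d j)
    (hz : z = 0 ∨ ∃ j < m, z = d j) (w₀ : ℝ) (w : ℕ → ℝ) (p q : ℝ)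
    (ho : w₀ * c (α + z) + A m d c (α + z) w + p * c (α + x + z) + q * c (α + z + z) = 0) :
    w₀ ^ 2 * c α + 2 * w₀ * A m d c α w + B m d c α w +
      2 * p * (w₀ * c (α + x) + A m d c (α + x) w) +
      2 * q * (w₀ * c (α + z) + A m d c (α + z) w) + p ^ 2 * c (α + x + x) +
      2 * p * q * c (α + x + z) + q ^ 2 * c (α + z + z) ≤ 0 := by
  have hz0 := hc (α + z)
  obtain ⟨t, ht⟩ : ∃ t : ℝ, w₀ * c α + A m d c α w + p * c (α + x) + (q + t) * c (α + z) = 0 :=
    ⟨-(w₀ * c α + A m d c α w + p * c (α + x)) / c (α + z) - q, by field_simp; ring⟩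
  have key := form3 h hx hz w₀ w p (q + t)
  rw [ht, sq (0 : ℝ), mul_zero] at key
  have key' := nonpos_of_mul_nonpos_right key (hc α)
  have h5 : 0 ≤ t ^ 2 * c (α + z + z) := mul_nonneg (sq_nonneg _) (hc _).le
  have h6 : t * (w₀ * c (α + z) + A m d c (α + z) w + p * c (α + x + z) + q * c (α + z + z)) = 0 := by
    rw [ho, mul_zero]
  linarith

/-- the same with a log-concave weight on the number of steps in the direction `x` -/
theorem orth2w {α x z : G} (h : SLa m d c α) (hc : ∀ y, 0 < c y) (hx : x = 0 ∨ ∃ j < m, x = d j)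
    (hz : z = 0 ∨ ∃ j < m, z = d j) {k0 k1 k2 : ℝ} (h0 : 0 < k0) (hk : k2 * k0 ≤ k1 ^ 2)
    (w₀ : ℝ) (w : ℕ → ℝ) (p q : ℝ)
    (ho : k0 * (w₀ * c (α + z) + A m d c (α + z) w) + p * (k1 * c (α + x + z)) +
      q * (k0 * c (α + z + z)) = 0) :
    k0 * (w₀ ^ 2 * c α + 2 * w₀ * A m d c α w + B m d c α w) +
      2 * p * (k1 * (w₀ * c (α + x) + A m d c (α + x) w)) +
      2 * q * (k0 * (w₀ * c (α + z) + A m d c (α + z) w)) + p ^ 2 * (k2 * c (α + x + x)) +
      2 * p * q * (k1 * c (α + x + z)) + q ^ 2 * (k0 * c (α + z + z)) ≤ 0 := by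
  obtain ⟨p', hp'⟩ : ∃ p' : ℝ, p * k1 = p' * k0 := ⟨p * k1 / k0, by field_simp⟩
  have key := orth2 h hc hx hz w₀ w p' q (by
    refine mul_left_cancel₀ h0.ne' ?_
    linear_combination ho - c (α + x + z) * hp')
  have key' := mul_nonpos_of_nonneg_of_nonpos h0.le key
  have h1 : p ^ 2 * k2 ≤ p' ^ 2 * k0 := by
    refine le_of_mul_le_mul_right ?_ h0
    calc p ^ 2 * k2 * k0 = p ^ 2 * (k2 * k0) := by ring
      _ ≤ p ^ 2 * k1 ^ 2 := mul_le_mul_of_nonneg_left hk (sq_nonneg _)
      _ = (p * k1) ^ 2 := by ring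
      _ = p' ^ 2 * k0 * k0 := by rw [hp']; ring
  have h2 := mul_le_mul_of_nonneg_right h1 (hc (α + x + x)).le
  have h3 : p * k1 * (w₀ * c (α + x) + A m d c (α + x) w) =
      p' * k0 * (w₀ * c (α + x) + A m d c (α + x) w) := by rw [hp']
  have h4 : p * k1 * (q * c (α + x + z)) = p' * k0 * (q * c (α + x + z)) := by rw [hp']
  linarith

theorem telescope {C σ γ : ℕ → ℝ} (hγ : ∀ j, 0 < γ j) {n : ℕ} (h0 : ∑ i ∈ range n, σ i = 0)
    (H : ∀ j, ∀ p q : ℝ, σ j + p * γ (j + 1) + q * γ j = 0 →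
      C j + 2 * p * σ (j + 1) + 2 * q * σ j + p ^ 2 * γ (j + 2) + 2 * p * q * γ (j + 1) +
        q ^ 2 * γ j ≤ 0) : ∑ j ∈ range n, C j ≤ 0 := by
  set φ : ℕ → ℝ := fun j => -(∑ i ∈ range j, σ i) / γ j with hφ
  have hφγ : ∀ j, φ j * γ j = -∑ i ∈ range j, σ i := fun j => by
    have := hγ j; simp only [hφ]; field_simp
  set t : ℕ → ℝ := fun j => 2 * φ j * σ j + φ j ^ 2 * γ (j + 1) - φ j ^ 2 * γ j with ht
  have step : ∀ j ∈ range n, C j ≤ t j - t (j + 1) := by
    intro j _
    have key := H j (φ (j + 1)) (-φ j) (by rw [neg_mul, hφγ, hφγ, sum_range_succ]; ring)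
    have h5 : 0 ≤ γ (j + 1) * (φ (j + 1) - φ j) ^ 2 := mul_nonneg (hγ _).le (sq_nonneg _)
    simp only [ht]
    nlinarith
  have tot := sum_le_sum step
  rw [sum_range_sub' t n] at tot
  have t0 : t 0 = 0 := by simp [ht, hφ]
  have t1 : t n = 0 := by
    have : φ n = 0 := by simp only [hφ]; rw [h0]; simp
    simp [ht, this]
  rwa [t0, t1, sub_zero] at tot

theorem merge (h : SLv m d c) (hc : ∀ y, 0 < c y) {x z : G} (hx : x = 0 ∨ ∃ j < m, x = d j)
    (hz : z = 0 ∨ ∃ j < m, z = d j) {k : ℕ → ℝ} (hk : ∀ j, 0 < k j)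
    (hlc : ∀ j, k (j + 2) * k j ≤ k (j + 1) ^ 2) (u : ℕ → G) (hu : ∀ j, u (j + 1) + z = u j + x)
    (n : ℕ) : SLv m d fun y => ∑ j ∈ range n, k j * c (y + u j) := by
  intro α
  refine SLa_iff.2 fun w => ?_
  rcases Nat.eq_zero_or_pos n with rfl | hn
  · simp only [range_zero, sum_empty, zero_mul]
    exact sq_nonneg _
  set a : ℕ → G := fun j => α + u j with ha
  have e1 : ∀ j, a j + x = a (j + 1) + z := fun j => by
    simp only [ha, add_assoc, hu]
  have e2 : ∀ j, a j + x + x = a (j + 2) + z + z := fun j => by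
    rw [e1, add_right_comm, e1]
  have hne : (range n).Nonempty := ⟨0, mem_range.2 hn⟩
  have hS : 0 < ∑ i ∈ range n, k i * c (a i + z) := sum_pos (fun i _ => mul_pos (hk i) (hc _)) hne
  obtain ⟨w₀, hw₀⟩ : ∃ w₀ : ℝ,
      ∑ i ∈ range n, k i * (w₀ * c (a i + z) + A m d c (a i + z) w) = 0 := by
    refine ⟨-(∑ i ∈ range n, k i * A m d c (a i + z) w) / ∑ i ∈ range n, k i * c (a i + z), ?_⟩
    simp only [mul_add, mul_left_comm (k _)]
    rw [sum_add_distrib, ← mul_sum]
    field_simp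
    ring
  have tot := telescope
    (C := fun j => k j * (w₀ ^ 2 * c (a j) + 2 * w₀ * A m d c (a j) w + B m d c (a j) w))
    (γ := fun j => k j * c (a j + z + z)) (fun j => mul_pos (hk j) (hc _)) hw₀ (fun j p q ho => by
      have key := orth2w (h (a j)) hc hx hz (hk j) (hlc j) w₀ w p q (by rw [e1]; exact ho)
      rw [e2, e1] at key
      exact key)
  have eA : ∀ β : G, A m d (fun y => ∑ j ∈ range n, k j * c (y + u j)) β w =
      ∑ j ∈ range n, k j * A m d c (β + u j) w := by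
    intro β
    unfold A
    simp only [mul_sum]
    rw [sum_comm]
    exact sum_congr rfl fun j _ => sum_congr rfl fun i _ => by
      rw [add_right_comm β (d i)]; ring
  have eB : B m d (fun y => ∑ j ∈ range n, k j * c (y + u j)) α w =
      ∑ j ∈ range n, k j * B m d c (a j) w := by
    unfold B
    simp only [eA, mul_sum]
    rw [sum_comm]
    exact sum_congr rfl fun j _ => sum_congr rfl fun i _ => by
      simp only [ha]; rw [add_right_comm α (d i)]; ring
  have hC : 0 < ∑ j ∈ range n, k j * c (α + u j) := sum_pos (fun i _ => mul_pos (hk i) (hc _)) hne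
  have e3 : ∑ j ∈ range n,
      k j * (w₀ ^ 2 * c (a j) + 2 * w₀ * A m d c (a j) w + B m d c (a j) w) =
      w₀ ^ 2 * ∑ j ∈ range n, k j * c (α + u j) +
        2 * w₀ * ∑ j ∈ range n, k j * A m d c (α + u j) w +
        ∑ j ∈ range n, k j * B m d c (a j) w := by
    simp only [mul_sum, ← sum_add_distrib]
    exact sum_congr rfl fun j _ => by simp only [ha]; ring
  rw [e3] at tot
  rw [eA, eB]
  nlinarith [sq_nonneg (w₀ * ∑ j ∈ range n, k j * c (α + u j) +
    ∑ j ∈ range n, k j * A m d c (α + u j) w), mul_nonneg hC.le (sub_nonneg.mpr tot)]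

theorem of_tendsto {F : ℕ → G → ℝ} (hF : ∀ n, SLv m d (F n))
    (hl : ∀ y, Filter.Tendsto (fun n => F n y) Filter.atTop (nhds (c y))) : SLv m d c := by
  intro y w
  refine le_of_tendsto' (x := Filter.atTop) (f := fun n => ∑ i ∈ range m, ∑ j ∈ range m,
    w i * w j * (F n (y + d i + d j) * F n y - F n (y + d i) * F n (y + d j))) ?_
    (fun n => hF n y w)
  exact tendsto_finsetSum _ fun i _ => tendsto_finsetSum _ fun j _ =>
    (((hl _).mul (hl _)).sub ((hl _).mul (hl _))).const_mul _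

theorem tendsto_of_summable {ι : Type} {f : ι → ℝ} (hf : Summable f) {S : ℕ → Finset ι}
    (hS : Monotone S) (hS' : ∀ x, ∃ n, x ∈ S n) :
    Filter.Tendsto (fun n => ∑ t ∈ S n, f t) Filter.atTop (nhds (∑' t, f t)) :=
  Filter.Tendsto.comp (g := fun s : Finset ι => ∑ t ∈ s, f t) hf.hasSum
    (Filter.tendsto_atTop_finset_of_monotone hS hS')

theorem mem_box (t : ℤ) {n : ℕ} (h : t.natAbs ≤ n) : t ∈ Icc (-(n : ℤ)) n := by
  rw [mem_Icc]
  omega

end ConvX

theorem SLa.one {y : G} (h : SLa m d c y) {i : ℕ} (hi : i < m) :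
    c (y + d i + d i) * c y ≤ c (y + d i) ^ 2 := by
  have := ConvX.gen h ({()} : Finset Unit) (fun _ => d i) (fun _ _ => Or.inr ⟨i, hi, rfl⟩)
    (fun _ => 1)
  simp only [sum_singleton] at this
  linarith

/-- any family of directions taken from `d` or equal to zero -/
theorem SLa.reindex {y : G} (h : SLa m d c y) {m' : ℕ} {d' : ℕ → G}
    (hd : ∀ i < m', d' i = 0 ∨ ∃ j < m, d' i = d j) : SLa m' d' c y :=
  ConvX.gen h _ _ fun i hi => hd i (mem_range.1 hi)

theorem SLv.conv (h : SLv m d c) (hc : ∀ y, 0 < c y) {b : G} (hb : IsB m d b) {χ : ℤ → ℝ}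
    (hχ : ∀ t, 0 < χ t) (hlc : ∀ t, χ (t + 2) * χ t ≤ χ (t + 1) ^ 2) (lo hi : ℤ) :
    SLv m d fun y => ∑ t ∈ Icc lo hi, χ t * c (y + t • b) := by
  obtain ⟨x, z, hx, hz, rfl⟩ : ∃ x z : G, (x = 0 ∨ ∃ j < m, x = d j) ∧
      (z = 0 ∨ ∃ j < m, z = d j) ∧ b = x - z := by
    rcases hb with ⟨i, hi, e | e⟩ | ⟨i, hi, j, hj, e⟩
    · exact ⟨d i, 0, Or.inr ⟨i, hi, rfl⟩, Or.inl rfl, by rw [e, sub_zero]⟩
    · exact ⟨0, d i, Or.inl rfl, Or.inr ⟨i, hi, rfl⟩, by rw [e, zero_sub]⟩
    · exact ⟨d i, d j, Or.inr ⟨i, hi, rfl⟩, Or.inr ⟨j, hj, rfl⟩, e⟩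
  have key := ConvX.merge h hc hx hz (k := fun j : ℕ => χ (lo + j)) (fun j => hχ _)
    (fun j => by
      have := hlc (lo + j)
      push_cast
      rwa [← add_assoc, ← add_assoc])
    (fun j : ℕ => (lo + j) • (x - z)) (fun j => by
      push_cast
      rw [← add_assoc, add_smul _ 1, one_smul]
      abel) (hi + 1 - lo).toNat
  simp only [Int.Icc_eq_finset_map, sum_map]
  exact key

theorem SLv.conv_tsum (h : SLv m d c) (hc : ∀ y, 0 < c y) {b : G} (hb : IsB m d b) {χ : ℤ → ℝ}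
    (hχ : ∀ t, 0 < χ t) (hlc : ∀ t, χ (t + 2) * χ t ≤ χ (t + 1) ^ 2)
    (hs : ∀ y, Summable fun t : ℤ => χ t * c (y + t • b)) :
    SLv m d fun y => ∑' t : ℤ, χ t * c (y + t • b) := by
  refine ConvX.of_tendsto (fun n : ℕ => h.conv hc hb hχ hlc (-(n : ℤ)) n) fun y => ?_
  refine ConvX.tendsto_of_summable (hs y)
    (S := fun n : ℕ => Icc (-(n : ℤ)) n) (fun a b hab => ?_) (fun t => ⟨_, ConvX.mem_box t le_rfl⟩)
  exact Icc_subset_Icc (by omega) (by omega)

/-- several finite convolutions at once -/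
theorem SLv.conv_box (h : SLv m d c) (hc : ∀ y, 0 < c y) (k : ℕ) {b : ℕ → G}
    (hb : ∀ i < k, IsB m d (b i)) {χ : ℕ → ℤ → ℝ} (hχ : ∀ i t, 0 < χ i t)
    (hlc : ∀ i t, χ i (t + 2) * χ i t ≤ χ i (t + 1) ^ 2) (lo hi : ℕ → ℤ) (hl : ∀ i, lo i ≤ hi i) :
    SLv m d fun y => ∑ t ∈ Fintype.piFinset (fun i : Fin k => Icc (lo i) (hi i)),
      (∏ i : Fin k, χ i (t i)) * c (y + ∑ i : Fin k, t i • b i) := by
  induction k with
  | zero => simpa using h
  | succ k ih =>
    have h1 := ih fun i hi => hb i (by omega)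
    have h2 := h1.conv (fun y => sum_pos
      (fun t _ => mul_pos (prod_pos fun i _ => hχ _ _) (hc _))
      (Fintype.piFinset_nonempty.2 fun i => nonempty_Icc.2 (hl i))) (hb k (by omega)) (hχ k) (hlc k)
      (lo k) (hi k)
    convert h2 using 2 with y
    simp only [mul_sum]
    rw [← sum_product']
    refine sum_nbij' (fun t => (t (Fin.last k), Fin.init t)) (fun u => Fin.snoc u.2 u.1)
      (fun t ht => ?_) (fun u hu => ?_) (fun t _ => ?_) (fun u _ => ?_) (fun t _ => ?_)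
    · rw [Fin.mem_piFinset_iff_last_init] at ht
      exact mem_product.2 ht
    · rw [Fin.mem_piFinset_iff_last_init, Fin.snoc_last, Fin.init_snoc]
      exact mem_product.1 hu
    · simp
    · simp
    · rw [Fin.prod_univ_castSucc, Fin.sum_univ_castSucc]
      simp only [Fin.val_castSucc, Fin.val_last, Fin.init]
      rw [add_assoc y, add_comm (t (Fin.last k) • b k)]
      ring

/-- the full sum along several directions -/
theorem SLv.sum_all (h : SLv m d c) (hc : ∀ y, 0 < c y) (k : ℕ) {b : ℕ → G}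
    (hb : ∀ i < k, IsB m d (b i))
    (hs : ∀ y, Summable fun t : Fin k → ℤ => c (y + ∑ i : Fin k, t i • b i)) :
    SLv m d fun y => ∑' t : Fin k → ℤ, c (y + ∑ i : Fin k, t i • b i) := by
  refine ConvX.of_tendsto (fun n : ℕ => h.conv_box hc k hb (χ := fun _ _ => 1)
    (fun _ _ => one_pos) (fun _ _ => by norm_num) (fun _ => -(n : ℤ)) (fun _ => n)
    (fun _ => by omega)) fun y => ?_
  simp only [prod_const_one, one_mul]
  refine ConvX.tendsto_of_summable (hs y)
    (S := fun n : ℕ => Fintype.piFinset fun _ : Fin k => Icc (-(n : ℤ)) n) (fun a b hab => ?_)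
    (fun t => ⟨∑ i, (t i).natAbs, Fintype.mem_piFinset.2 fun i => ConvX.mem_box _ ?_⟩)
  · exact Fintype.piFinset_subset _ _ fun _ => Icc_subset_Icc (by omega) (by omega)
  · exact single_le_sum (f := fun i => (t i).natAbs) (fun _ _ => Nat.zero_le _) (mem_univ i)

/-- passage to configurations: the port `(e, b)` is the index `2 e + 1` or `2 e` -/
theorem SLa.toSL {E : ℕ} (y0 : G) (β : Crest.Agent.R309.Cfg)
    (h : SLa (2 * E) d c (y0 + ∑ e ∈ range E,
      ((β (e, true) : ℤ) • d (2 * e + 1) + (β (e, false) : ℤ) • d (2 * e)))) :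
    Crest.Agent.R309.SL (Crest.Agent.R309.dirs E) (fun γ => c (y0 + ∑ e ∈ range E,
      ((γ (e, true) : ℤ) • d (2 * e + 1) + (γ (e, false) : ℤ) • d (2 * e)))) β := by
  set Φ : Crest.Agent.R309.Cfg → G := fun γ => y0 + ∑ e ∈ range E,
      ((γ (e, true) : ℤ) • d (2 * e + 1) + (γ (e, false) : ℤ) • d (2 * e)) with hΦ
  set v : ℕ × Bool → G := fun i => d (if i.2 then 2 * i.1 + 1 else 2 * i.1) with hv
  have hadd : ∀ (γ : Crest.Agent.R309.Cfg), ∀ i ∈ Crest.Agent.R309.dirs E,
      Φ (γ + Crest.Agent.R309.uv i) = Φ γ + v i := by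
    rintro γ ⟨e, s⟩ hi
    have he : e ∈ range E := (mem_product.1 hi).1
    simp only [hΦ, Pi.add_apply, Nat.cast_add, add_smul, add_assoc]
    congr 1
    have : ∀ e' ∈ range E, (γ (e', true) : ℤ) • d (2 * e' + 1) +
        ((Crest.Agent.R309.uv (e, s) (e', true) : ℤ) • d (2 * e' + 1) +
        ((γ (e', false) : ℤ) • d (2 * e') +
          (Crest.Agent.R309.uv (e, s) (e', false) : ℤ) • d (2 * e'))) =
        ((γ (e', true) : ℤ) • d (2 * e' + 1) + (γ (e', false) : ℤ) • d (2 * e')) +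
          if e' = e then v (e, s) else 0 := by
      intro e' _
      by_cases h : e' = e
      · subst h
        cases s <;> simp [Crest.Agent.R309.LorX.uv_apply, hv] <;> abel
      · simp [Crest.Agent.R309.LorX.uv_apply, h]
    rw [sum_congr rfl this, sum_add_distrib, sum_ite_eq' (range E) e, if_pos he]
  intro w
  have key := ConvX.gen h (Crest.Agent.R309.dirs E) v (fun i hi => Or.inr ⟨_, by
    have he := mem_range.1 (mem_product.1 hi).1
    split_ifs <;> omega, rfl⟩) w
  refine le_of_eq_of_le (sum_congr rfl fun i hi => sum_congr rfl fun j hj => ?_) key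
  show w i * w j * (c (Φ _) * c (Φ _) - c (Φ _) * c (Φ _)) = _
  rw [hadd _ j hj, hadd _ i hi, hadd _ j hj]

end

end Crest.Agent.R302
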