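import Crest.Agent.R302.LearnA

/-! Row 302: one round of the stochastic subgradient descent makes progress. -/

set_option autoImplicit false

namespace Crest.Agent.R302

open Crest.Agent.PT Crest.Agent.R309 Finset

namespace LearnX

theorem exp_neg_le (n : ℕ) : Real.exp (-(n : ℝ)) ≤ (2 : ℝ)⁻¹ ^ n := by
  have h : Real.exp (-1) ≤ 2⁻¹ := by
    rw [Real.exp_neg]
    exact inv_anti₀ (by norm_num) (by linarith [Real.add_one_le_exp (1 : ℝ)])
  rw [show -(n : ℝ) = n * (-1) by ring, Real.exp_nat_mul]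
  exact pow_le_pow_left₀ (Real.exp_pos _).le h n

theorem Pr_take {L L' : ℕ} (h : L ≤ L') (A : Word → Prop) :
    Pr L' (fun ω => A (ω.take L)) = Pr L A :=
  Ex_take h fun x => @ite ℝ (A x) (Classical.propDecidable _) 1 0

theorem Pr_and {L : ℕ} {A B : Word → Prop} {a b : ℝ} (hA : 1 - a ≤ Pr L A) (hB : 1 - b ≤ Pr L B) :
    1 - (a + b) ≤ Pr L fun ω => A ω ∧ B ω := by
  have h1 := Pr_or_le L (fun ω => ¬ A ω) (fun ω => ¬ B ω)
  have h2 := Pr_not L fun ω => A ω ∧ B ω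
  have h3 : Pr L (fun ω => ¬ (A ω ∧ B ω)) = Pr L fun ω => ¬ A ω ∨ ¬ B ω :=
    Pr_congr fun ω _ => not_and_or
  rw [Pr_not, Pr_not] at h1
  linarith

section
variable {E r P D Ls : ℕ} {ρ : List ℕ} {en : List ℕ → ℤ} {g : List ℕ → List ℤ}
  {W : (ℕ → ℤ) → List ℕ → ℝ} {ζs : ℕ → ℤ} {Z0 : ℝ} {ζ : List ℤ} {smp : Word → List ℕ}

theorem ex_Yv (hr : 1 ≤ r) (hrP : r ≤ P) (hD : 1 ≤ D)
    (hs : ∀ p < r, (ζs p).natAbs ≤ P * D) (hζ : Bd r (P * D) ζ)
    (hW : ∀ k ∈ bx E [] ρ, wt en k ≤ P * W (fun p => ζ.getD p 0) k ∧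
      ∀ ζ' : ℕ → ℤ, W (fun p => ζ.getD p 0) k * (2 : ℝ) ^
        ((∑ p ∈ range r, ((g k).getD p 0 : ℝ) * ((ζ' p : ℝ) - ζ.getD p 0)) / D) ≤ W ζ' k)
    (hZ : ∀ p < r, ∀ s : ℤ, s = 1 ∨ s = -1 →
      ∑ k ∈ bx E [] ρ, W (fun q => ζs q + if q = p then s * D else 0) k ≤ Z0)
    (h1 : ∀ ω, smp ω ∈ bx E [] ρ)
    (h2 : ∀ k ∈ bx E [] ρ, Pr Ls (fun ω => smp ω = k) ≤ 2 * (wt en k / Zb E [] ρ en))
    (hbig : 24 * (P : ℝ) ^ 4 * Z0 ≤ Zb E [] ρ en) :
    Ex Ls (fun ω => Yv r D ζs ζ (g (smp ω))) ≤ -((D : ℝ) ^ 2 / (4 * r)) := by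
  have r1 : (1 : ℝ) ≤ r := by exact_mod_cast hr
  have rP : (r : ℝ) ≤ P := by exact_mod_cast hrP
  have r0 : (0 : ℝ) < r := by linarith
  have P0 : (0 : ℝ) < P := by linarith
  have D0 : (0 : ℝ) < D := by exact_mod_cast hD
  have Zp : 0 < Zb E [] ρ en := sum_pos (fun k _ => wt_pos en k) ⟨_, h1 []⟩
  have Wp : ∀ k ∈ bx E [] ρ, 0 < W (fun p => ζ.getD p 0) k := fun k hk =>
    (mul_pos_iff_of_pos_left P0).1 ((wt_pos en k).trans_le (hW k hk).1)
  have Wn : ∀ k ∈ bx E [] ρ, ∀ ζ', 0 ≤ W ζ' k := fun k hk ζ' =>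
    le_trans (mul_pos (Wp k hk) (Real.rpow_pos_of_pos two_pos _)).le ((hW k hk).2 ζ')
  set S : List ℕ → ℝ := fun k => ∑ p ∈ range r,
    (W (fun q => ζs q + if q = p then (1 : ℤ) * D else 0) k +
      W (fun q => ζs q + if q = p then (-1 : ℤ) * D else 0) k) with hS
  have Sn : ∀ k ∈ bx E [] ρ, 0 ≤ S k := fun k hk =>
    sum_nonneg fun p _ => add_nonneg (Wn k hk _) (Wn k hk _)
  have Ssum : ∑ k ∈ bx E [] ρ, S k ≤ r * (2 * Z0) := by
    rw [hS, sum_comm]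
    refine (sum_le_card_nsmul _ _ (2 * Z0) fun p hp => ?_).trans (le_of_eq ?_)
    · rw [sum_add_distrib]
      linarith [hZ p (mem_range.1 hp) 1 (Or.inl rfl), hZ p (mem_range.1 hp) (-1) (Or.inr rfl)]
    · rw [card_range, nsmul_eq_mul]
  set c : ℝ := (D : ℝ) ^ 2 / (2 * r) with hc
  have c0 : 0 < c := by positivity
  have key : ∀ k ∈ bx E [] ρ,
      Yv r D ζs ζ (g k) ≤ -c + (c + P * D ^ 2) * (P * S k / wt en k) := by
    intro k hk
    have w0 := wt_pos en k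
    have s0 := Sn k hk
    by_cases hb : (∑ p ∈ range r, ((g k).getD p 0 : ℝ) * ((ζs p : ℝ) - ζ.getD p 0)) / D
        + mx r (g k) < 0
    · exact (Yv_good hr hD ζs ζ (g k) hb).trans (le_add_of_nonneg_right (by positivity))
    · obtain ⟨p, hp, s, hs', e⟩ := exists_mx hr (g k)
      have e' : (mx r (g k) : ℝ) = s * (g k).getD p 0 := by exact_mod_cast e
      have a1 := (hW k hk).2 fun q => ζs q + if q = p then s * D else 0
      have a2 : (∑ q ∈ range r, ((g k).getD q 0 : ℝ) *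
          (((ζs q + if q = p then s * D else 0 : ℤ) : ℝ) - ζ.getD q 0)) / D =
          (∑ p ∈ range r, ((g k).getD p 0 : ℝ) * ((ζs p : ℝ) - ζ.getD p 0)) / D + mx r (g k) := by
        have a3 : ∀ q ∈ range r, ((g k).getD q 0 : ℝ) *
            (((ζs q + if q = p then s * D else 0 : ℤ) : ℝ) - ζ.getD q 0) =
            ((g k).getD q 0 : ℝ) * ((ζs q : ℝ) - ζ.getD q 0) +
              if q = p then ((g k).getD p 0 : ℝ) * (s * D) else 0 := by
          intro q _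
          split_ifs with h
          · subst h; push_cast; ring
          · push_cast; ring
        rw [sum_congr rfl a3, sum_add_distrib, sum_ite_eq', if_pos (mem_range.2 hp), e']
        field_simp
      rw [a2] at a1
      have a4 : W (fun p => ζ.getD p 0) k ≤ W (fun q => ζs q + if q = p then s * D else 0) k :=
        (le_mul_of_one_le_right (Wp k hk).le (Real.one_le_rpow one_le_two (not_lt.1 hb))).trans a1
      have a5 : W (fun q => ζs q + if q = p then s * D else 0) k ≤ S k := by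
        refine le_trans ?_ (single_le_sum (f := fun p =>
          W (fun q => ζs q + if q = p then (1 : ℤ) * D else 0) k +
            W (fun q => ζs q + if q = p then (-1 : ℤ) * D else 0) k)
          (fun p _ => add_nonneg (Wn k hk _) (Wn k hk _)) (mem_range.2 hp))
        rcases hs' with rfl | rfl
        · exact le_add_of_nonneg_right (Wn k hk _)
        · exact le_add_of_nonneg_left (Wn k hk _)
      have a6 : 1 ≤ P * S k / wt en k := by
        rw [le_div_iff₀ w0, one_mul]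
        exact (hW k hk).1.trans (mul_le_mul_of_nonneg_left (a4.trans a5) P0.le)
      have a7 := (abs_le.1 (Yv_abs hr hs hζ (g k))).2
      have a8 := mul_le_mul_of_nonneg_left a6 (by positivity : 0 ≤ c + P * D ^ 2)
      linarith
  refine (Ex_mono (G := fun ω => -c + (c + P * D ^ 2) * (P * S (smp ω) / wt en (smp ω)))
    fun ω _ => key _ (h1 ω)).trans ?_
  rw [Ex_add, Ex_const, Ex_mul_left,
    Ex_comp Ls (bx E [] ρ) smp (fun ω _ => h1 ω) fun k => P * S k / wt en k]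
  have b1 : ∑ k ∈ bx E [] ρ, Pr Ls (fun ω => smp ω = k) * (P * S k / wt en k) ≤
      2 * P / Zb E [] ρ en * (r * (2 * Z0)) := by
    refine le_trans ?_ (mul_le_mul_of_nonneg_left Ssum (by positivity))
    rw [mul_sum]
    refine sum_le_sum fun k hk => ?_
    have w0 := wt_pos en k
    have s0 := Sn k hk
    refine (mul_le_mul_of_nonneg_right (h2 k hk) (by positivity)).trans (le_of_eq ?_)
    field_simp
  have b2 : 2 * P / Zb E [] ρ en * (r * (2 * Z0)) ≤ 1 / (6 * (P : ℝ) ^ 2) := by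
    have Z00 : 0 ≤ Z0 := by
      have := (sum_nonneg Sn).trans Ssum
      nlinarith [nonneg_of_mul_nonneg_right this r0]
    rw [div_mul_eq_mul_div, div_le_div_iff₀ Zp (by positivity), one_mul]
    refine le_trans ?_ hbig
    have : (r : ℝ) * Z0 * P ^ 3 ≤ P * Z0 * P ^ 3 := by gcongr
    nlinarith
  have b3 : c + P * D ^ 2 ≤ c * (3 * (P : ℝ) ^ 2) := by
    have e : (P : ℝ) * D ^ 2 = c * (2 * r * P) := by rw [hc]; field_simp
    rw [e, ← mul_one_add]
    refine mul_le_mul_of_nonneg_left ?_ c0.le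
    nlinarith
  have b4 := mul_le_mul b3 (b1.trans b2)
    (sum_nonneg fun k hk => mul_nonneg (Pr_nonneg _ _)
      (div_nonneg (mul_nonneg P0.le (Sn k hk)) (wt_pos en k).le)) (by positivity)
  have b5 : c * (3 * (P : ℝ) ^ 2) * (1 / (6 * (P : ℝ) ^ 2)) = c / 2 := by field_simp; ring
  have b6 : (D : ℝ) ^ 2 / (4 * r) = c / 2 := by rw [hc]; field_simp; ring
  rw [b6]
  linarith

theorem round {G : ℕ} (hG : 1 ≤ G) (hr : 1 ≤ r) (hrP : r ≤ P) (hD : 128 * P ^ 3 ≤ D)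
    (hs : ∀ p < r, (ζs p).natAbs ≤ P * D) (hζ : Bd r (P * D) ζ) {y : Word → List ℤ}
    (hY : Ex Ls (fun ω => Yv r D ζs ζ (y ω)) ≤ -((D : ℝ) ^ 2 / (4 * r))) :
    1 - (2 : ℝ)⁻¹ ^ G ≤ Pr (4096 * P ^ 4 * G * Ls) fun ω =>
      ds r ζs (upd r D (P * D) (4096 * P ^ 4 * G) ζ fun i => y (blk Ls i ω)) ≤
        ds r ζs ζ - (D : ℝ) ^ 2 / (16 * r) := by
  have P1 : 1 ≤ P := hr.trans hrP
  have D1 : 0 < D := lt_of_lt_of_le (by positivity) hD
  have r0 : (0 : ℝ) < r := by exact_mod_cast hr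
  have rP : (r : ℝ) ≤ P := by exact_mod_cast hrP
  have P0 : (0 : ℝ) < P := by linarith
  have D0 : (0 : ℝ) < D := by exact_mod_cast D1
  set μ := Ex Ls fun ω => Yv r D ζs ζ (y ω) with hμ
  have hY1 : ∀ ω, |Yv r D ζs ζ (y ω)| ≤ (P : ℝ) * D ^ 2 := fun ω => Yv_abs hr hs hζ _
  have m1 : μ ≤ (P : ℝ) * D ^ 2 := by
    have := Ex_mono (L := Ls) (G := fun _ => (P : ℝ) * D ^ 2) fun ω _ => (abs_le.1 (hY1 ω)).2
    rwa [Ex_const] at this
  have m2 : -((P : ℝ) * D ^ 2) ≤ μ := by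
    have := Ex_mono (L := Ls) (F := fun _ => -((P : ℝ) * D ^ 2)) fun ω _ => (abs_le.1 (hY1 ω)).1
    rwa [Ex_const] at this
  have h := hoeffding_one Ls (4096 * P ^ 4 * G) (fun ω => Yv r D ζs ζ (y ω) - μ)
    (2 * (P * D ^ 2)) ((D : ℝ) ^ 2 / (16 * P)) (by positivity) (by positivity)
    (fun ω _ => by
      have := abs_le.1 (hY1 ω)
      rw [abs_le]; constructor <;> linarith [this.1, this.2])
    (by rw [Ex_sub, Ex_const, sub_self])
  have e : ((4096 * P ^ 4 * G : ℕ) : ℝ) * ((D : ℝ) ^ 2 / (16 * P)) ^ 2 /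
      (4 * (2 * ((P : ℝ) * D ^ 2)) ^ 2) = G := by
    push_cast; field_simp; ring
  rw [e] at h
  have h' := h.trans (exp_neg_le G)
  have h4 := Pr_not (4096 * P ^ 4 * G * Ls) fun ω => ((4096 * P ^ 4 * G : ℕ) : ℝ) *
    ((D : ℝ) ^ 2 / (16 * P)) < ∑ i ∈ range (4096 * P ^ 4 * G), (Yv r D ζs ζ (y (blk Ls i ω)) - μ)
  refine le_trans (by linarith) (h4.symm.le.trans (Pr_mono fun ω _ hω => ?_))
  refine upd_ds hr hrP hD (Nat.succ_le_of_lt (by positivity)) hs hζ _ ?_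
  rw [not_lt, sum_sub_distrib, sum_const, card_range, nsmul_eq_mul] at hω
  have a1 : (D : ℝ) ^ 2 / (16 * P) ≤ (D : ℝ) ^ 2 / (16 * r) := by gcongr
  have a2 : (D : ℝ) ^ 2 / (4 * r) = 4 * ((D : ℝ) ^ 2 / (16 * r)) := by field_simp; ring
  have N0 : (0 : ℝ) ≤ ((4096 * P ^ 4 * G : ℕ) : ℝ) := Nat.cast_nonneg _
  have a3 := mul_le_mul_of_nonneg_left a1 N0
  have a4 := mul_le_mul_of_nonneg_left hY N0
  rw [a2] at a4
  linarith

end

end LearnX

end Crest.Agent.R302
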