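import Crest.Agent.R302.Zest
import Crest.Agent.R302.LearnB

/-! Row 302: learning the fields by stochastic subgradient steps. -/

set_option autoImplicit false

namespace Crest.Agent.R302

open Crest.Agent.PT Finset
open Crest.Agent.R309 hiding pG pT Lr Ls pu_pT pu_pG

namespace LearnX

/-- the number of rounds -/
def pT (n : ℕ) : ℕ := 32 * n ^ 4
/-- the confidence parameter of a round -/
def pG (n : ℕ) : ℕ := n + pT n + 1
/-- the batch size -/
def pN (n : ℕ) : ℕ := 4096 * n ^ 4 * pG n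

/-- current fields, best fields, and the estimate for the best fields as a fraction -/
abbrev St4 := List ℤ × List ℤ × ℕ × ℕ

/-- record the estimate `z` of the current fields and move to `ζ'` -/
def stp (z : ℕ × ℕ) (ζ' : List ℤ) (s : St4) : St4 :=
  if z.1 * s.2.2.2 ≤ s.2.2.1 * (z.2 + 1) then (ζ', s.1, z.1, z.2 + 1) else (ζ', s.2)

theorem stp_fst (z : ℕ × ℕ) (ζ' : List ℤ) (s : St4) : (stp z ζ' s).1 = ζ' := by
  unfold stp; split_ifs <;> rfl

theorem stp_best (Z : List ℤ → ℝ) {z : ℕ × ℕ} (ζ' : List ℤ) {s : St4}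
    (h : Z s.2.1 * s.2.2.2 ≤ 2 * s.2.2.1) (hz : Z s.1 ≤ 2 * qv z) :
    Z (stp z ζ' s).2.1 * (stp z ζ' s).2.2.2 ≤ 2 * (stp z ζ' s).2.2.1 := by
  unfold stp
  split_ifs
  · unfold qv at hz
    rw [← mul_div_assoc, le_div_iff₀ (by positivity)] at hz
    simpa using hz
  · exact h

theorem stp_small {c : ℝ} {z : ℕ × ℕ} (ζ' : List ℤ) {s : St4}
    (h : (0 < s.2.2.2 ∧ (s.2.2.1 : ℝ) ≤ c * s.2.2.2) ∨ qv z ≤ c) :
    0 < (stp z ζ' s).2.2.2 ∧ ((stp z ζ' s).2.2.1 : ℝ) ≤ c * (stp z ζ' s).2.2.2 := by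
  unfold qv at h
  have z0 : (0 : ℝ) < (z.2 : ℝ) + 1 := by positivity
  rw [div_le_iff₀ z0] at h
  unfold stp
  split_ifs with hc
  · refine ⟨Nat.succ_pos _, ?_⟩
    push_cast
    rcases h with ⟨h1, h2⟩ | h
    · have hc' : (z.1 : ℝ) * s.2.2.2 ≤ s.2.2.1 * ((z.2 : ℝ) + 1) := by exact_mod_cast hc
      have d0 : (0 : ℝ) < s.2.2.2 := by exact_mod_cast h1
      refine le_of_mul_le_mul_right ?_ d0
      nlinarith [mul_le_mul_of_nonneg_right h2 z0.le]
    · exact h
  · rcases h with h | h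
    · exact h
    · have hc' : (s.2.2.1 : ℝ) * ((z.2 : ℝ) + 1) < (z.1 : ℝ) * s.2.2.2 := by
        exact_mod_cast not_le.1 hc
      refine ⟨Nat.pos_of_ne_zero fun (h0 : s.2.2.2 = 0) => hc (by simp [h0]), le_of_mul_le_mul_right ?_ z0⟩
      have d0 : (0 : ℝ) ≤ s.2.2.2 := Nat.cast_nonneg _
      nlinarith [mul_le_mul_of_nonneg_right h d0]

theorem budget (n : ℕ) :
    (pT n : ℝ) * ((2 : ℝ)⁻¹ ^ pG n + (2 : ℝ)⁻¹ ^ pG n) ≤ (2 : ℝ)⁻¹ ^ n := by
  have h : (pT n : ℝ) ≤ 2 ^ pT n := by exact_mod_cast (Nat.lt_two_pow_self (n := pT n)).le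
  refine (mul_le_mul_of_nonneg_right h (by positivity)).trans (le_of_eq ?_)
  unfold pG
  rw [pow_add, pow_add, inv_pow 2 (pT n)]
  field_simp
  norm_num

section
variable {α : Type} [Rp α]

theorem pu_pT {n : α → ℕ} (hn : PU n) : PU fun a => pT (n a) := by
  unfold pT; fun_prop

theorem pu_pG {n : α → ℕ} (hn : PU n) : PU fun a => pG (n a) := by
  have := pu_pT hn
  unfold pG; fun_prop

theorem pu_pN {n : α → ℕ} (hn : PU n) : PU fun a => pN (n a) := by
  have := pu_pG hn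
  unfold pN; fun_prop

theorem pu_app {L : ℕ → ℕ} (hL : PU fun u : Un => L u.val) {n : α → ℕ} (hn : PU n) :
    PU fun a => L (n a) := hL.comp (f := fun a => Un.mk (n a)) hn

theorem ot_upd [HasO α] {r D B Ns : α → ℕ} {ζ : α → List ℤ} {gs : α → ℕ → List ℤ} (hr : PU r)
    (hD : PTime D) (hB : PTime B) (hN : PU Ns) (hζ : PTime ζ)
    (hg : OT fun p : α × Un => gs p.1 p.2.val) :
    OT fun a => upd (r a) (D a) (B a) (Ns a) (ζ a) (gs a) := by
  have h1 : OT fun x : (α × Un) × Un => hc (r x.1.1) (D x.1.1) (gs x.1.1 x.2.val) x.1.2.val :=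
    OT.map (E := fun y : ((α × Un) × Un) × List ℤ => hc (r y.1.1.1) (D y.1.1.1) y.2 y.1.1.2.val)
      (by fun_prop) (hg.pre (f := fun x : (α × Un) × Un => (x.1.1, x.2)) (by fun_prop) fun _ => rfl)
  have h2 := OT.isum_range (n := fun x : α × Un => Ns x.1)
    (g := fun x i => hc (r x.1) (D x.1) (gs x.1 i) x.2.val) (hN.comp PTime.fst') h1
  have hN' := hN.ptime
  exact OT.rangeMapZ (g := fun a p => cl (B a) ((ζ a).getD p 0 -
    td (∑ i ∈ range (Ns a), hc (r a) (D a) (gs a i) p) (Ns a))) hr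
    (OT.map (E := fun y : (α × Un) × ℤ =>
      cl (B y.1.1) ((ζ y.1.1).getD y.1.2.val 0 - td y.2 (Ns y.1.1))) (by fun_prop) h2)

end

end LearnX

open LearnX

theorem exists_learn {α : Type} [Rp α] [HasO α] (P E r D : α → ℕ) (hP : PU P) (hE : PU E)
    (hr : PU r) (hD : PTime D) (ρ : α → List ℕ) (hρ : OT ρ)
    (en : α → List ℤ → List ℕ → ℤ)
    (hen : OT fun p : α × List ℤ × List ℕ => en p.1 p.2.1 p.2.2)
    (sg : α → List ℤ → List ℕ → List ℤ)
    (hsg : OT fun p : α × List ℤ × List ℕ => sg p.1 p.2.1 p.2.2) :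
    ∃ (L : ℕ → ℕ) (lr : α × Word → List ℤ),
      (PU fun u : Un => L u.val) ∧ OT lr ∧ ∀ a,
        (∀ ω, Bd (r a) (P a * D a) (lr (a, ω))) ∧
        ∀ (W : (ℕ → ℤ) → List ℕ → ℝ) (ζs : ℕ → ℤ) (Z0 : ℝ),
          1 ≤ r a → r a ≤ P a → 128 * P a ^ 3 ≤ D a →
          (∀ ζ, Bd (r a) (P a * D a) ζ → Nice (E a) (ρ a) (P a) (en a ζ)) →
          (∀ ζ, Bd (r a) (P a * D a) ζ → ∀ k ∈ bx (E a) [] (ρ a),
            wt (en a ζ) k ≤ P a * W (fun p => ζ.getD p 0) k ∧
            ∀ ζ' : ℕ → ℤ, W (fun p => ζ.getD p 0) k * (2 : ℝ) ^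
              ((∑ p ∈ range (r a), ((sg a ζ k).getD p 0 : ℝ) * ((ζ' p : ℝ) - ζ.getD p 0)) / D a) ≤
              W ζ' k) →
          (∀ p < r a, (ζs p).natAbs ≤ P a * D a) →
          (∀ p < r a, ∀ s : ℤ, s = 1 ∨ s = -1 →
            ∑ k ∈ bx (E a) [] (ρ a), W (fun q => ζs q + if q = p then s * D a else 0) k ≤ Z0) →
          1 - (2 : ℝ)⁻¹ ^ P a ≤ Pr (L (P a)) fun ω =>
            Zb (E a) [] (ρ a) (en a (lr (a, ω))) ≤ 128 * (P a : ℝ) ^ 4 * Z0 := by
  have hen' : OT fun p : (α × List ℤ) × List ℕ => en p.1.1 p.1.2 p.2 :=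
    hen.pre (f := fun p : (α × List ℤ) × List ℕ => (p.1.1, p.1.2, p.2)) (by fun_prop) fun _ => rfl
  obtain ⟨Ls, smp, hLs, hsmp, Hs⟩ := exists_smp (α := α × List ℤ) (fun q => P q.1)
    (fun q => E q.1) (hP.comp PTime.fst') (hE.comp PTime.fst') (fun q k => en q.1 q.2 k) hen'
  obtain ⟨Lz, zs, hLz, hzs, Hz⟩ := exists_zest (α := α × List ℤ) (fun q => pG (P q.1))
    (fun q => E q.1) (pu_pG (hP.comp PTime.fst')) (hE.comp PTime.fst') (fun q => ρ q.1)
    (hρ.pre PTime.fst' fun _ => rfl) (fun q k => en q.1 q.2 k) hen'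
  set gv : (α × List ℤ) × Word → List ℤ :=
    fun q => sg q.1.1 q.1.2 (smp (q.1, [], ρ q.1.1, q.2)) with hgv
  set up : (α × List ℤ) × Word → List ℤ := fun q => upd (r q.1.1) (D q.1.1) (P q.1.1 * D q.1.1)
    (pN (P q.1.1)) q.1.2 fun i => gv (q.1, blk (Ls (P q.1.1)) i q.2) with hup
  set step : α → St4 → Word → St4 := fun a s w =>
    stp (zs ((a, s.1), w.take (Lz (pG (P a))))) (up ((a, s.1), w.take (pN (P a) * Ls (P a)))) s
    with hstep
  set Lr : ℕ → ℕ := fun n => Lz (pG n) + pN n * Ls n with hLr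
  set init : α → St4 := fun a => (List.replicate (r a) 0, List.replicate (r a) 0, 0, 0) with hinit
  have uLs := pu_app hLs hP
  have uLz := pu_app hLz (pu_pG hP)
  have uN := pu_pN hP
  have oGv : OT gv := by
    have h1 : OT fun q : (α × List ℤ) × Word => (q.1, ([] : List ℕ), ρ q.1.1, q.2) :=
      OT.map (E := fun x : ((α × List ℤ) × Word) × List ℕ => (x.1.1, ([] : List ℕ), x.2, x.1.2))
        (by fun_prop)
        (hρ.pre (f := fun q : (α × List ℤ) × Word => q.1.1) (by fun_prop) fun _ => rfl)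
    exact hsg.comp (f := fun q : (α × List ℤ) × Word =>
      (q.1.1, q.1.2, smp (q.1, [], ρ q.1.1, q.2)))
      (OT.map (E := fun x : ((α × List ℤ) × Word) × List ℕ => (x.1.1.1, x.1.1.2, x.2))
        (by fun_prop) (hsmp.comp h1 fun _ => rfl)) fun _ => rfl
  have oUp : OT up := by
    have := hP.ptime
    exact ot_upd (gs := fun (q : (α × List ℤ) × Word) i => gv (q.1, blk (Ls (P q.1.1)) i q.2))
      (by fun_prop) (by fun_prop) (by fun_prop) (uN.comp PTime.fst'.fst) (by fun_prop)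
      (oGv.pre (f := fun x : ((α × List ℤ) × Word) × Un =>
        (x.1.1, blk (Ls (P x.1.1.1)) x.2.val x.1.2)) (PTime.fst'.fst.pair
          (ptime_blk (uLs.comp PTime.fst'.fst.fst) (by fun_prop) (by fun_prop))) fun _ => rfl)
  have oStep : OT fun p : α × St4 × Word => step p.1 p.2.1 p.2.2 := by
    exact OT.map (E := fun y : (α × St4 × Word) × (ℕ × ℕ) × List ℤ => stp y.2.1 y.2.2 y.1.2.1)
      (by unfold stp; fun_prop)
      ((hzs.pre (f := fun p : α × St4 × Word => ((p.1, p.2.1.1), p.2.2.take (Lz (pG (P p.1)))))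
        (PTime.pair (by fun_prop) (PTime.take (uLz.ptime.comp PTime.fst') PTime.snd'.snd))
        fun _ => rfl).pair
      (oUp.pre (f := fun p : α × St4 × Word =>
        ((p.1, p.2.1.1), p.2.2.take (pN (P p.1) * Ls (P p.1))))
        (PTime.pair (by fun_prop) (PTime.take ((uN.mul uLs).ptime.comp PTime.fst') PTime.snd'.snd))
        fun _ => rfl))
  have hbd : ∀ a s w, Bd (r a) (P a * D a) s.1 → Bd (r a) (P a * D a) s.2.1 →
      Bd (r a) (P a * D a) (step a s w).1 ∧ Bd (r a) (P a * D a) (step a s w).2.1 := by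
    intro a s w h1 h2
    simp only [hstep, stp]
    split_ifs
    · exact ⟨upd_bd _ _ _ _ _ _, h1⟩
    · exact ⟨upd_bd _ _ _ _ _ _, h2⟩
  refine ⟨fun n => pT n * Lr n,
    fun x => (iterR (Lr (P x.1)) (step x.1) (pT (P x.1)) (init x.1) x.2).2.1, ?_, ?_, fun a => ⟨
      fun ω => (iterR_inv _ _ (fun _ s => Bd (r a) (P a * D a) s.1 ∧ Bd (r a) (P a * D a) s.2.1)
        (fun _ s w h => hbd a s w h.1 h.2) _ ⟨zero_bd _ _, zero_bd _ _⟩ _ ω).2, ?_⟩⟩
  · have hv : PU fun u : Un => u.val := PU.val PTime.id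
    exact (pu_pT hv).mul ((pu_app hLz (pu_pG hv)).add ((pu_pN hv).mul hLs))
  · obtain ⟨q, hq⟩ := hzs.sz
    set Bz : α → ℕ := fun a => r a * (2 * sz (P a * D a) + 3) with hBz
    have pBz : PB Bz := hr.pb.mul (((PB.const 2).mul (hP.ptime.mul hD).sz).add (PB.const 3))
    have pB : PB fun a => Bz a + (Bz a + (q.eval (sz a + Bz a + Lz (pG (P a))) + 1)) :=
      pBz.add (pBz.add ((((PB.sz.add pBz).add uLz.pb).eval q).add (PB.const 1)))
    refine (OT.iterR (α := α × Word) (L := fun x => Lr (P x.1)) (n := fun x => pT (P x.1))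
      (step := fun x => step x.1) (init := fun x => init x.1) (ω := fun x => x.2)
      ((uLz.add (uN.mul uLs)).comp PTime.fst') ((pu_pT hP).comp PTime.fst')
      (oStep.pre (f := fun p : (α × Word) × St4 × Word => (p.1.1, p.2)) (by fun_prop) fun _ => rfl)
      (OT.of_ptime (by simp only [hinit]; fun_prop)) PTime.snd' (pB.comp PTime.fst') ?_).snd.fst
    rintro ⟨a, ω⟩ k -
    obtain ⟨h1, h2, h3⟩ := iterR_inv (Lr (P a)) (step a) (fun _ s => Bd (r a) (P a * D a) s.1 ∧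
      Bd (r a) (P a * D a) s.2.1 ∧ sz s.2.2 ≤ q.eval (sz a + Bz a + Lz (pG (P a))) + 1)
      (fun _ s w h => ⟨(hbd a s w h.1 h.2.1).1, (hbd a s w h.1 h.2.1).2, by
        simp only [hstep, stp]
        split_ifs
        · have a1 := (hq ((a, s.1), w.take (Lz (pG (P a))))).trans (eval_mono q
            (n := sz a + Bz a + Lz (pG (P a))) (by
              rw [sz_prod, sz_prod, sz_word]
              exact Nat.add_le_add (Nat.add_le_add_left (sz_bd h.1) _) (List.length_take_le _ _)))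
          beta_reduce at a1
          generalize zs ((a, s.1), w.take (Lz (pG (P a)))) = z at a1 ⊢
          obtain ⟨z1, z2⟩ := z
          have a2 := sz_succ_le z2
          rw [sz_prod] at a1
          change sz (z1, z2 + 1) ≤ _
          rw [sz_prod]
          omega
        · exact h.2.2⟩) (init a)
      ⟨zero_bd _ _, zero_bd _ _, by simp [hinit, sz_nat]⟩ k ω
    generalize iterR (Lr (P a)) (step a) k (init a) ω = s at h1 h2 h3 ⊢
    obtain ⟨s1, s2, s3⟩ := s
    rw [sz_prod, sz_prod]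
    exact Nat.add_le_add (sz_bd h1) (Nat.add_le_add (sz_bd h2) h3)
  · intro W ζs Z0 r1 rP PD hN hW hs hZ
    have P1 : 1 ≤ P a := r1.trans rP
    have D1 : 0 < D a := lt_of_lt_of_le (by positivity) PD
    have r0 : (0 : ℝ) < r a := by exact_mod_cast r1
    have rP' : (r a : ℝ) ≤ P a := by exact_mod_cast rP
    have P0 : (0 : ℝ) < P a := by exact_mod_cast P1
    have D0 : (0 : ℝ) < D a := by exact_mod_cast D1
    set Z : List ℤ → ℝ := fun ζ => Zb (E a) [] (ρ a) (en a ζ) with hZdef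
    have Zn : ∀ ζ, 0 ≤ Z ζ := fun ζ => sum_nonneg fun k _ => (wt_pos _ k).le
    have key := Pr_iterR_inv (Lr (P a)) (step a) (fun n s => Bd (r a) (P a * D a) s.1 ∧
      Bd (r a) (P a * D a) s.2.1 ∧ Z s.2.1 * s.2.2.2 ≤ 2 * s.2.2.1 ∧
      ((0 < s.2.2.2 ∧ (s.2.2.1 : ℝ) ≤ 36 * (P a : ℝ) ^ 4 * Z0 * s.2.2.2) ∨
        ds (r a) ζs s.1 ≤ r a * ((P a * D a : ℕ) : ℝ) ^ 2 - n * ((D a : ℝ) ^ 2 / (16 * r a))))
      ((2 : ℝ)⁻¹ ^ pG (P a) + (2 : ℝ)⁻¹ ^ pG (P a)) (pT (P a)) (by positivity) ?_ (init a)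
      ⟨zero_bd _ _, zero_bd _ _, by simp [hinit], Or.inr (by simpa [hinit] using ds_zero hs)⟩
    · refine le_trans (by linarith [budget (P a)]) (key.trans (Pr_mono fun ω _ hω => ?_))
      obtain ⟨-, -, h3, ⟨h4, h5⟩ | h4⟩ := hω
      · have d0 : (0 : ℝ) < ((iterR (Lr (P a)) (step a) (pT (P a)) (init a) ω).2.2.2 : ℕ) := by
          exact_mod_cast h4
        have a1 : Z (iterR (Lr (P a)) (step a) (pT (P a)) (init a) ω).2.1 ≤
            72 * (P a : ℝ) ^ 4 * Z0 := le_of_mul_le_mul_right (by linarith) d0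
        have a2 := Zn (iterR (Lr (P a)) (step a) (pT (P a)) (init a) ω).2.1
        change Z (iterR (Lr (P a)) (step a) (pT (P a)) (init a) ω).2.1 ≤ _
        linarith
      · exfalso
        have a1 := (ds_nonneg _ _ _).trans h4
        rw [sub_nonneg, ← mul_div_assoc, div_le_iff₀ (by positivity)] at a1
        unfold pT at a1
        push_cast at a1
        have a2 : (r a : ℝ) * r a ≤ P a * P a := mul_le_mul rP' rP' r0.le P0.le
        have a3 : (0 : ℝ) < (P a : ℝ) ^ 2 * (D a : ℝ) ^ 2 := by positivity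
        nlinarith [mul_le_mul_of_nonneg_right a2 a3.le, mul_pos (mul_pos P0 P0) a3]
    · rintro n - s ⟨h1, h2, h3, h4⟩
      have hNi := hN _ h1
      have G2 : (2 : ℝ) ≤ pG (P a) := by
        have : 2 ≤ pG (P a) := by unfold pG; omega
        exact_mod_cast this
      have A := Hz (a, s.1) (hNi.mono (show P a ≤ pG (P a) by unfold pG; omega))
      rw [← Pr_take (L' := Lr (P a)) (Nat.le_add_right _ _)] at A
      have est : ∀ z : ℕ × ℕ, |qv z - Z s.1| ≤ Z s.1 / pG (P a) →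
          Z s.1 ≤ 2 * qv z ∧ 2 * qv z ≤ 3 * Z s.1 := fun z hz => by
        have b1 := abs_le.1 (hz.trans (div_le_div_of_nonneg_left (Zn _) two_pos G2))
        constructor <;> linarith [b1.1, b1.2]
      have δ0 : (0 : ℝ) ≤ (2 : ℝ)⁻¹ ^ pG (P a) := by positivity
      by_cases hc : (0 < s.2.2.2 ∧ (s.2.2.1 : ℝ) ≤ 36 * (P a : ℝ) ^ 4 * Z0 * s.2.2.2) ∨
          Z s.1 ≤ 24 * (P a : ℝ) ^ 4 * Z0
      · refine le_trans (by linarith) (A.trans (Pr_mono fun w _ hw => ?_))
        obtain ⟨e1, e2⟩ := est _ hw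
        exact ⟨(hbd a s w h1 h2).1, (hbd a s w h1 h2).2, stp_best Z _ h3 e1,
          Or.inl (stp_small _ (hc.imp_right fun h => by linarith))⟩
      · rw [not_or, not_le] at hc
        have h5 := h4.resolve_left hc.1
        obtain ⟨s1, s2⟩ := Hs (a, s.1) (ρ a) [] (ρ a) (pin_full _ _)
        have hY := ex_Yv (Ls := Ls (P a)) (g := sg a s.1)
          (smp := fun w => smp ((a, s.1), [], ρ a, w)) r1 rP D1 hs h1 (hW _ h1) hZ s1
          (fun k hk => by
            have b1 := (abs_le.1 (s2 hNi k hk)).2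
            have b2 : (2 : ℝ)⁻¹ ^ P a ≤ 1 := pow_le_one₀ (by norm_num) (by norm_num)
            have b3 := mul_le_mul_of_nonneg_right b2
              (div_nonneg (wt_pos (en a s.1) k).le (Zn s.1))
            simp only [hZdef] at b1 b3
            linarith) hc.2.le
        have B := round (G := pG (P a)) (y := fun w => gv ((a, s.1), w))
          (by unfold pG; omega) r1 rP PD hs h1 hY
        rw [← Pr_take (L := 4096 * P a ^ 4 * pG (P a) * Ls (P a)) (L' := Lr (P a))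
          (Nat.le_add_left _ _)] at B
        refine (Pr_and A B).trans (Pr_mono fun w _ hw => ?_)
        refine ⟨(hbd a s w h1 h2).1, (hbd a s w h1 h2).2, stp_best Z _ h3 (est _ hw.1).1,
          Or.inr ?_⟩
        have b1 : ds (r a) ζs (step a s w).1 ≤ ds (r a) ζs s.1 - (D a : ℝ) ^ 2 / (16 * r a) := by
          simp only [hstep, stp_fst]
          exact hw.2
        push_cast at h5 ⊢
        linarith

end Crest.Agent.R302
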