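import Crest.Agent.R302.MDefs

/-! Row 302: existence of balancing fields for log-concave marginals. -/

set_option autoImplicit false

namespace Crest.Agent.R302

open Finset

/-- the tilted partition function of the defects -/
noncomputable def Zh (r : ℕ) (T : ℤ) (lam : ℝ) (w : (Fin r → ℤ) → ℝ) (ξ : ℕ → ℤ) : ℝ :=
  ∑ u ∈ Fintype.piFinset (fun _ : Fin r => Icc (-T) T),
    (∏ i : Fin r, (2 : ℝ) ^ (ξ i * u i) * lam ^ (u i).natAbs) * w u

/-- the marginal of the defect `p`, without its own factors -/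
noncomputable def Ah (r : ℕ) (T : ℤ) (lam : ℝ) (w : (Fin r → ℤ) → ℝ) (ξ : ℕ → ℤ) (p : Fin r)
    (j : ℤ) : ℝ :=
  ∑ u ∈ Fintype.piFinset (fun i : Fin r => if i = p then Icc 0 0 else Icc (-T) T),
    (∏ i : Fin r, (2 : ℝ) ^ (ξ i * u i) * lam ^ (u i).natAbs) * w (Function.update u p j)

namespace HardBX

/-- positive and log-concave -/
def LC (b : ℤ → ℝ) : Prop := (∀ j, 0 < b j) ∧ ∀ j, b (j + 2) * b j ≤ b (j + 1) ^ 2

theorem LC.neg {b : ℤ → ℝ} (h : LC b) : LC fun j => b (-j) := by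
  refine ⟨fun j => h.1 _, fun j => ?_⟩
  have := h.2 (-j - 2)
  rw [show -j - 2 + 2 = -j by ring, show -j - 2 + 1 = -(j + 1) by ring,
    show -j - 2 = -(j + 2) by ring] at this
  linarith

theorem LC.ratio {b : ℤ → ℝ} (h : LC b) (k : ℕ) : b (k + 1) * b 0 ≤ b 1 * b k := by
  induction k with
  | zero => simp
  | succ k ih =>
    have h1 := h.2 k
    have p0 := h.1 k
    have p1 := h.1 (k + 1)
    have p2 := h.1 0
    push_cast
    rw [show (k : ℤ) + 1 + 1 = k + 2 by ring]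
    refine le_of_mul_le_mul_right ?_ p0
    calc b (k + 2) * b 0 * b k = b (k + 2) * b k * b 0 := by ring
      _ ≤ b (k + 1) ^ 2 * b 0 := mul_le_mul_of_nonneg_right h1 p2.le
      _ = b (k + 1) * b 0 * b (k + 1) := by ring
      _ ≤ b 1 * b k * b (k + 1) := mul_le_mul_of_nonneg_right ih p1.le
      _ = b 1 * b (k + 1) * b k := by ring

theorem LC.pow_le {b : ℤ → ℝ} (h : LC b) {c x : ℝ} (hc : 0 ≤ c) (hx : c * b 1 ≤ x * b 0) (k : ℕ) :
    c ^ k * b k ≤ x ^ k * b 0 := by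
  have p2 := h.1 0
  have hx0 : 0 ≤ x := by
    have : 0 ≤ x * b 0 := le_trans (mul_nonneg hc (h.1 1).le) hx
    exact nonneg_of_mul_nonneg_left this p2
  induction k with
  | zero => simp
  | succ k ih =>
    have h1 := h.ratio k
    have p0 := h.1 k
    push_cast
    refine le_of_mul_le_mul_right ?_ p2
    calc c ^ (k + 1) * b (k + 1) * b 0 = c ^ (k + 1) * (b (k + 1) * b 0) := by ring
      _ ≤ c ^ (k + 1) * (b 1 * b k) := mul_le_mul_of_nonneg_left h1 (by positivity)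
      _ = (c * b 1) * (c ^ k * b k) := by ring
      _ ≤ (x * b 0) * (x ^ k * b 0) := mul_le_mul hx ih (by positivity) (by positivity)
      _ = x ^ (k + 1) * b 0 * b 0 := by ring

/-- one-sided weighted sum -/
noncomputable def SS (c : ℝ) (b : ℤ → ℝ) (n : ℕ) : ℝ := ∑ j ∈ range n, c ^ (j + 1) * b (j + 1)

theorem SS_nonneg {b : ℤ → ℝ} (h : LC b) {c : ℝ} (hc : 0 ≤ c) (n : ℕ) : 0 ≤ SS c b n :=
  sum_nonneg fun _ _ => mul_nonneg (by positivity) (h.1 _).le

theorem geo {x : ℝ} (hx : 0 ≤ x) (n : ℕ) : (∑ j ∈ range n, x ^ (j + 1)) * (1 - x) ≤ x := by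
  have : (∑ j ∈ range n, x ^ (j + 1)) * (1 - x) = x - x ^ (n + 1) := by
    induction n with
    | zero => simp
    | succ n ih => rw [sum_range_succ, add_mul, ih]; ring
  rw [this]
  have : 0 ≤ x ^ (n + 1) := by positivity
  linarith

theorem SS_le {b : ℤ → ℝ} (h : LC b) {c x : ℝ} (hc : 0 ≤ c) (hx0 : 0 ≤ x) (hx1 : x ≤ 1)
    (hx : c * b 1 ≤ x * b 0) (n : ℕ) : SS c b n * (1 - x) ≤ x * b 0 := by
  have h1 : SS c b n ≤ (∑ j ∈ range n, x ^ (j + 1)) * b 0 := by
    rw [sum_mul]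
    refine sum_le_sum fun j _ => ?_
    have := h.pow_le hc hx (j + 1)
    push_cast at this
    exact this
  have h2 := geo hx0 n
  have p := h.1 0
  calc SS c b n * (1 - x) ≤ (∑ j ∈ range n, x ^ (j + 1)) * b 0 * (1 - x) :=
        mul_le_mul_of_nonneg_right h1 (by linarith)
    _ = (∑ j ∈ range n, x ^ (j + 1)) * (1 - x) * b 0 := by ring
    _ ≤ x * b 0 := mul_le_mul_of_nonneg_right h2 p.le

theorem SS_half {b : ℤ → ℝ} (h : LC b) {c : ℝ} (hc : 0 ≤ c) (n : ℕ) :
    SS (c / 2) b n ≤ SS c b n / 2 := by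
  unfold SS
  rw [sum_div]
  refine sum_le_sum fun j _ => ?_
  have p := h.1 (j + 1)
  have h1 : (c / 2) ^ j ≤ c ^ j := pow_le_pow_left₀ (by positivity) (by linarith) j
  have h2 : (c / 2) ^ j * (c / 2 * b (j + 1)) ≤ c ^ j * (c / 2 * b (j + 1)) :=
    mul_le_mul_of_nonneg_right h1 (by positivity)
  calc (c / 2) ^ (j + 1) * b (j + 1) = (c / 2) ^ j * (c / 2 * b (j + 1)) := by ring
    _ ≤ _ := h2
    _ = _ := by ring

/-- the positive side is small -/
theorem side {b : ℤ → ℝ} (h : LC b) {lam τ : ℝ} (h0 : 0 < lam) (h1 : lam ≤ 1 / 4) (hτ : 0 ≤ τ)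
    (n : ℕ) (hm : (1 - τ) * (b 0 + SS lam b n + SS lam (fun j => b (-j)) n) ≤
      b 0 + SS (lam / 2) b n + SS (2 * lam) (fun j => b (-j)) n) :
    SS lam b n ≤ (4 * lam + 2 * τ) * (b 0 + SS lam b n + SS lam (fun j => b (-j)) n) := by
  have p0 := h.1 0
  have p1 := h.1 1
  have p2 := h.1 (-1)
  have nP := SS_nonneg h h0.le n
  have nN := SS_nonneg h.neg h0.le n
  set P := SS lam b n
  set N := SS lam (fun j => b (-j)) n
  have hZ : lam * b 0 ≤ lam * (b 0 + P + N) := mul_le_mul_of_nonneg_left (by linarith) h0.le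
  have hZ' : 0 ≤ τ * (b 0 + P + N) := by positivity
  rcases le_total (b 1) (2 * b 0) with hc | hc
  · have h2 : P * (1 - 2 * lam) ≤ 2 * lam * b 0 :=
      SS_le h h0.le (by positivity) (by linarith) (by nlinarith) n
    have h3 : P * (1 / 2) ≤ P * (1 - 2 * lam) := mul_le_mul_of_nonneg_left (by linarith) nP
    nlinarith
  · have h2 := h.2 (-1)
    norm_num at h2
    have h3 : 2 * b (-1) ≤ b 0 := by
      refine le_of_mul_le_mul_right ?_ p0
      nlinarith
    have h4 : SS (2 * lam) (fun j => b (-j)) n * (1 - lam) ≤ lam * b (-0) :=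
      SS_le h.neg (by positivity) h0.le (by linarith) (by simp only [neg_zero]; nlinarith) n
    rw [neg_zero] at h4
    have nQ := SS_nonneg h.neg (by positivity : 0 ≤ 2 * lam) n
    have h5 : SS (2 * lam) (fun j => b (-j)) n * (1 / 2) ≤
        SS (2 * lam) (fun j => b (-j)) n * (1 - lam) := mul_le_mul_of_nonneg_left (by linarith) nQ
    have h6 := SS_half h h0.le n
    nlinarith

/-- the tilted sum is not much larger -/
theorem tilt {b : ℤ → ℝ} (h : LC b) {lam : ℝ} (h0 : 0 < lam) (n : ℕ)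
    (hP : SS lam b n ≤ (b 0 + SS lam b n + SS lam (fun j => b (-j)) n) / 8)
    (hN : SS lam (fun j => b (-j)) n ≤ (b 0 + SS lam b n + SS lam (fun j => b (-j)) n) / 8) :
    b 0 + SS (2 * lam) b n + SS (lam / 2) (fun j => b (-j)) n ≤
      3 / 2 * (b 0 + SS lam b n + SS lam (fun j => b (-j)) n) := by
  have p0 := h.1 0
  have nP := SS_nonneg h h0.le n
  have nN := SS_nonneg h.neg h0.le n
  have h6 := SS_half h.neg h0.le n
  have key : SS (2 * lam) b n ≤ b 0 / 2 := by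
    rcases Nat.eq_zero_or_pos n with rfl | hn
    · simp only [SS, range_zero, sum_empty]; positivity
    · have h1 : lam * b 1 ≤ SS lam b n := by
        have := single_le_sum (f := fun j : ℕ => lam ^ (j + 1) * b (j + 1))
          (fun j _ => mul_nonneg (by positivity) (h.1 _).le) (mem_range.2 hn)
        unfold SS
        simpa using this
      have h2 := SS_le h (c := 2 * lam) (x := 1 / 3) (by positivity) (by norm_num) (by norm_num)
        (by linarith) n
      linarith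
  linarith

theorem sum_Icc (f : ℤ → ℝ) (n : ℕ) : ∑ j ∈ Icc (-(n : ℤ)) n, f j =
    f 0 + ∑ j ∈ range n, f (j + 1) + ∑ j ∈ range n, f (-(j + 1)) := by
  induction n with
  | zero => simp
  | succ n ih =>
    have : Icc (-((n + 1 : ℕ) : ℤ)) ((n + 1 : ℕ) : ℤ) =
        insert ((n : ℤ) + 1) (insert (-((n : ℤ) + 1)) (Icc (-(n : ℤ)) n)) := by
      ext j
      simp only [mem_Icc, mem_insert]
      omega
    rw [this, sum_insert, sum_insert, ih, sum_range_succ, sum_range_succ]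
    · ring
    · simp only [mem_Icc]; omega
    · simp only [mem_Icc, mem_insert]; omega

variable {r : ℕ} {T : ℤ} {lam : ℝ} {w : (Fin r → ℤ) → ℝ}

theorem Zh_marg (ξ : ℕ → ℤ) (p : Fin r) : Zh r T lam w ξ =
    ∑ j ∈ Icc (-T) T, (2 : ℝ) ^ (ξ p * j) * lam ^ j.natAbs * Ah r T lam w ξ p j := by
  unfold Zh Ah
  simp only [mul_sum]
  rw [← sum_product']
  symm
  refine sum_nbij' (fun x => Function.update x.2 p x.1) (fun v => (v p, Function.update v p 0))
    ?_ ?_ ?_ ?_ ?_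
  · rintro ⟨j, u⟩ hx
    simp only [mem_product, Fintype.mem_piFinset] at hx ⊢
    intro i
    by_cases hi : i = p
    · subst hi; simpa using hx.1
    · have := hx.2 i
      rw [if_neg hi] at this
      rwa [Function.update_of_ne hi]
  · intro v hv
    simp only [mem_product, Fintype.mem_piFinset] at hv ⊢
    refine ⟨hv p, fun i => ?_⟩
    by_cases hi : i = p
    · subst hi; simp
    · rw [if_neg hi, Function.update_of_ne hi]; exact hv i
  · rintro ⟨j, u⟩ hx
    simp only [mem_product, Fintype.mem_piFinset] at hx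
    have h0 : u p = 0 := by simpa using hx.2 p
    simp only [Function.update_self, Function.update_idem, Prod.mk.injEq, true_and]
    rw [← h0, Function.update_eq_self]
  · intro v _
    simp
  · rintro ⟨j, u⟩ hx
    simp only [mem_product, Fintype.mem_piFinset] at hx
    have h0 : u p = 0 := by simpa using hx.2 p
    simp only
    rw [← mul_prod_erase univ _ (mem_univ p), ← mul_prod_erase univ _ (mem_univ p), h0,
      Function.update_self]
    have : ∏ i ∈ univ.erase p, (2 : ℝ) ^ (ξ i * Function.update u p j i) *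
        lam ^ (Function.update u p j i).natAbs
        = ∏ i ∈ univ.erase p, (2 : ℝ) ^ (ξ i * u i) * lam ^ (u i).natAbs :=
      prod_congr rfl fun i hi => by rw [Function.update_of_ne (ne_of_mem_erase hi)]
    rw [this]
    simp only [mul_zero, zpow_zero, Int.natAbs_zero, pow_zero, mul_one, one_mul]
    ring

theorem Ah_congr {ξ ξ' : ℕ → ℤ} {p : Fin r} (h : ∀ q : ℕ, q ≠ p → ξ' q = ξ q) (j : ℤ) :
    Ah r T lam w ξ' p j = Ah r T lam w ξ p j := by
  unfold Ah
  refine sum_congr rfl fun u hu => ?_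
  have h0 : u p = 0 := by simpa using Fintype.mem_piFinset.1 hu p
  congr 1
  refine prod_congr rfl fun i _ => ?_
  by_cases hi : i = p
  · subst hi; rw [h0, mul_zero, mul_zero]
  · rw [h i fun e => hi (Fin.ext e)]

theorem Ah_pos (hT : 0 ≤ T) (h0 : 0 < lam) (hw : ∀ u, 0 < w u) (ξ : ℕ → ℤ) (p : Fin r) (j : ℤ) :
    0 < Ah r T lam w ξ p j := by
  unfold Ah
  refine sum_pos (fun u _ => mul_pos (prod_pos fun i _ => by positivity) (hw _)) ⟨0, ?_⟩
  rw [Fintype.mem_piFinset]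
  intro i
  split_ifs <;> simp [hT]

theorem zero_mem (hT : 0 ≤ T) : (0 : Fin r → ℤ) ∈ Fintype.piFinset (fun _ : Fin r => Icc (-T) T) := by
  rw [Fintype.mem_piFinset]
  intro i
  simp [hT]

theorem w_le (hT : 0 ≤ T) (h0 : 0 < lam) (hw : ∀ u, 0 < w u) (ξ : ℕ → ℤ) :
    w 0 ≤ Zh r T lam w ξ := by
  have := single_le_sum (f := fun u : Fin r → ℤ =>
    (∏ i : Fin r, (2 : ℝ) ^ (ξ i * u i) * lam ^ (u i).natAbs) * w u)
    (fun u _ => (mul_pos (prod_pos fun i _ => by positivity) (hw _)).le) (zero_mem hT)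
  unfold Zh
  simpa using this

theorem union (hT : 0 ≤ T) (h0 : 0 < lam) (hw : ∀ u, 0 < w u) (ξ : ℕ → ℤ) :
    Zh r T lam w ξ - w 0 ≤ ∑ p : Fin r, (Zh r T lam w ξ - Ah r T lam w ξ p 0) := by
  set f : (Fin r → ℤ) → ℝ := fun u =>
    (∏ i : Fin r, (2 : ℝ) ^ (ξ i * u i) * lam ^ (u i).natAbs) * w u with hf
  have fpos : ∀ u, 0 < f u := fun u => mul_pos (prod_pos fun i _ => by positivity) (hw _)
  set Bx := Fintype.piFinset (fun _ : Fin r => Icc (-T) T) with hBx
  have e1 : w 0 = ∑ u ∈ Bx, if u = 0 then f u else 0 := by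
    rw [sum_ite_eq' Bx 0 f, if_pos (zero_mem hT)]
    simp [hf]
  have e2 : ∀ p : Fin r, Ah r T lam w ξ p 0 = ∑ u ∈ Bx, if u p = 0 then f u else 0 := by
    intro p
    rw [← sum_filter]
    unfold Ah
    refine sum_congr ?_ fun u hu => ?_
    · ext u
      simp only [hBx, mem_filter, Fintype.mem_piFinset]
      constructor
      · intro h
        have h1 : u p = 0 := by simpa using h p
        refine ⟨fun i => ?_, h1⟩
        by_cases hi : i = p
        · subst hi; simp [h1, hT]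
        · have := h i
          rwa [if_neg hi] at this
      · rintro ⟨h, h1⟩ i
        by_cases hi : i = p
        · subst hi; simp [h1]
        · rw [if_neg hi]; exact h i
    · rw [← (mem_filter.1 hu).2, Function.update_eq_self]
  have e3 : Zh r T lam w ξ = ∑ u ∈ Bx, f u := rfl
  simp only [e1, e2, e3, ← sum_sub_distrib]
  rw [sum_comm]
  refine sum_le_sum fun u _ => ?_
  have nn : ∀ p ∈ (univ : Finset (Fin r)), 0 ≤ f u - if u p = 0 then f u else 0 := by
    intro p _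
    have := fpos u
    split_ifs <;> linarith
  split_ifs with h
  · rw [sub_self]; exact sum_nonneg nn
  · obtain ⟨p, hp⟩ := Function.ne_iff.1 h
    have := single_le_sum nn (mem_univ p)
    rwa [if_neg (show ¬ u p = 0 from hp)] at this

/-- the marginal with its field -/
noncomputable def bb (r : ℕ) (T : ℤ) (lam : ℝ) (w : (Fin r → ℤ) → ℝ) (ξ : ℕ → ℤ) (p : Fin r)
    (j : ℤ) : ℝ := (2 : ℝ) ^ (ξ p * j) * Ah r T lam w ξ p j

theorem bb_LC (hT : 0 ≤ T) (h0 : 0 < lam) (hw : ∀ u, 0 < w u)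
    (hlc : ∀ ξ p j, Ah r T lam w ξ p (j + 2) * Ah r T lam w ξ p j ≤ Ah r T lam w ξ p (j + 1) ^ 2)
    (ξ : ℕ → ℤ) (p : Fin r) : LC (HardBX.bb r T lam w ξ p) := by
  refine ⟨fun j => mul_pos (by positivity) (Ah_pos hT h0 hw ξ p j), fun j => ?_⟩
  unfold bb
  have e : (2 : ℝ) ^ (ξ p * (j + 2)) * 2 ^ (ξ p * j) = (2 ^ (ξ p * (j + 1))) ^ 2 := by
    rw [sq, ← zpow_add₀ two_ne_zero, ← zpow_add₀ two_ne_zero]
    congr 1
    ring
  calc _ = ((2 : ℝ) ^ (ξ p * (j + 2)) * 2 ^ (ξ p * j)) *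
        (Ah r T lam w ξ p (j + 2) * Ah r T lam w ξ p j) := by ring
    _ ≤ (2 ^ (ξ p * (j + 1))) ^ 2 * Ah r T lam w ξ p (j + 1) ^ 2 := by
        rw [e]; exact mul_le_mul_of_nonneg_left (hlc ξ p j) (by positivity)
    _ = _ := by ring

theorem Zh_shift (n : ℕ) (ξ : ℕ → ℤ) (p : Fin r) (s : ℤ) :
    Zh r n lam w (fun q => ξ q + if q = p then s else 0) = HardBX.bb r n lam w ξ p 0 +
      SS (2 ^ s * lam) (HardBX.bb r n lam w ξ p) n +
      SS (2 ^ (-s) * lam) (fun j => HardBX.bb r n lam w ξ p (-j)) n := by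
  rw [Zh_marg _ p, sum_Icc]
  have hA : ∀ j, Ah r n lam w (fun q => ξ q + if q = p then s else 0) p j = Ah r n lam w ξ p j :=
    Ah_congr fun q hq => by simp [hq]
  simp only [hA, if_true]
  unfold SS bb
  congr 1
  congr 1
  · simp
  · refine sum_congr rfl fun j _ => ?_
    have e1 : ((j : ℤ) + 1).natAbs = j + 1 := by omega
    have e2 : ((2 : ℝ) ^ s) ^ (j + 1) = 2 ^ (s * (j + 1)) := by
      rw [← zpow_natCast, ← zpow_mul]; push_cast; rfl
    rw [e1, mul_pow, e2, add_mul, zpow_add₀ two_ne_zero]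
    ring
  · refine sum_congr rfl fun j _ => ?_
    have e1 : (-((j : ℤ) + 1)).natAbs = j + 1 := by omega
    have e2 : ((2 : ℝ) ^ (-s)) ^ (j + 1) = 2 ^ (s * -(j + 1)) := by
      rw [← zpow_natCast, ← zpow_mul]; push_cast; congr 1; ring
    rw [e1, mul_pow, e2, add_mul, zpow_add₀ two_ne_zero]
    ring

theorem descent (Z : (ℕ → ℤ) → ℝ) (r : ℕ) {θ : ℝ} (hθ : 0 ≤ θ) (k : ℕ) :
    ∃ ξ : ℕ → ℤ, (∀ p, (ξ p).natAbs ≤ k) ∧ ((∀ p < r, ∀ s : ℤ, s = 1 ∨ s = -1 →
      θ * Z ξ ≤ Z (fun q => ξ q + if q = p then s else 0)) ∨ Z ξ ≤ θ ^ k * Z 0) := by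
  induction k with
  | zero => exact ⟨0, fun p => by simp, Or.inr (by simp)⟩
  | succ k ih =>
    obtain ⟨ξ, h1, h2⟩ := ih
    by_cases h : ∀ p < r, ∀ s : ℤ, s = 1 ∨ s = -1 →
        θ * Z ξ ≤ Z (fun q => ξ q + if q = p then s else 0)
    · exact ⟨ξ, fun p => (h1 p).trans (Nat.le_succ k), Or.inl h⟩
    · have h3 := h2.resolve_left h
      push Not at h
      obtain ⟨p, -, s, hs, hlt⟩ := h
      refine ⟨fun q => ξ q + if q = p then s else 0, fun q => ?_, Or.inr ?_⟩
      · have := h1 q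
        simp only
        split_ifs <;> omega
      · have := mul_le_mul_of_nonneg_left h3 hθ
        rw [pow_succ]
        linarith

theorem half (m : ℕ) (hm : 0 < m) : (1 - 1 / (m : ℝ)) ^ m ≤ 1 / 2 := by
  have hm' : (1 : ℝ) ≤ m := by exact_mod_cast hm
  have h0 : 0 ≤ 1 / (m : ℝ) := by positivity
  have h1 : 1 / (m : ℝ) ≤ 1 := by rw [div_le_one (by linarith)]; exact hm'
  have h2 := one_add_mul_le_pow (a := 1 / (m : ℝ)) (by linarith) m
  have h3 : (m : ℝ) * (1 / m) = 1 := by field_simp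
  have h4 : (1 - 1 / (m : ℝ)) ^ m * (1 + 1 / (m : ℝ)) ^ m ≤ 1 := by
    rw [← mul_pow]
    exact pow_le_one₀ (by nlinarith) (by nlinarith)
  have h5 : 0 ≤ (1 - 1 / (m : ℝ)) ^ m := pow_nonneg (by linarith) m
  nlinarith

end HardBX

open HardBX in
theorem exists_fields {r : ℕ} {T : ℤ} (hT : 0 ≤ T) {lam : ℝ} (h0 : 0 < lam) (h1 : 64 * r * lam ≤ 1)
    {w : (Fin r → ℤ) → ℝ} (hw : ∀ u, 0 < w u)
    (hlc : ∀ ξ p j, Ah r T lam w ξ p (j + 2) * Ah r T lam w ξ p j ≤ Ah r T lam w ξ p (j + 1) ^ 2)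
    {B : ℕ} (hB : Zh r T lam w 0 ≤ 2 ^ B * w 0) :
    ∃ ξ : ℕ → ℤ, (∀ p, (ξ p).natAbs ≤ 32 * r * B) ∧ ∀ p < r, ∀ s : ℤ, s = 1 ∨ s = -1 →
      Zh r T lam w (fun q => ξ q + if q = p then s else 0) ≤ 2 * w 0 := by
  rcases Nat.eq_zero_or_pos r with rfl | hr
  · exact ⟨0, fun p => by simp, fun p hp => absurd hp (by omega)⟩
  obtain ⟨n, rfl⟩ := Int.eq_ofNat_of_zero_le hT
  have hr' : (1 : ℝ) ≤ r := by exact_mod_cast hr
  set τ : ℝ := 1 / ((32 * r : ℕ) : ℝ) with hτ
  have hτr : 32 * r * τ = 1 := by rw [hτ]; push_cast; field_simp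
  have hτ0 : 0 < τ := by rw [hτ]; push_cast; positivity
  have hτ1 : τ ≤ 1 / 32 := by nlinarith
  have hl : lam ≤ 1 / 64 := by nlinarith
  obtain ⟨ξ, hξ, hst⟩ := descent (Zh r n lam w) r (θ := 1 - τ) (by linarith) (32 * r * B)
  have hwZ := w_le hT h0 hw
  have hst' : ∀ p < r, ∀ s : ℤ, s = 1 ∨ s = -1 →
      (1 - τ) * Zh r n lam w ξ ≤ Zh r n lam w (fun q => ξ q + if q = p then s else 0) := by
    rcases hst with h | h
    · exact h
    · intro p _ s _
      have a1 : (1 - τ) ^ (32 * r * B) ≤ (1 / 2) ^ B := by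
        rw [pow_mul]
        exact pow_le_pow_left₀ (pow_nonneg (by linarith) _) (half (32 * r) (by omega)) B
      have a2 : (1 - τ) ^ (32 * r * B) * Zh r n lam w 0 ≤ (1 / 2) ^ B * (2 ^ B * w 0) :=
        mul_le_mul a1 hB ((hw 0).le.trans (hwZ 0)) (by positivity)
      have a3 : (1 / 2 : ℝ) ^ B * (2 ^ B * w 0) = w 0 := by
        rw [← mul_assoc, ← mul_pow]; norm_num
      have a4 := hwZ (fun q => ξ q + if q = p then s else 0)
      have a5 : 0 ≤ τ * Zh r n lam w ξ := mul_nonneg hτ0.le ((hw 0).le.trans (hwZ ξ))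
      linarith
  have hZ0 : 0 < Zh r n lam w ξ := (hw 0).trans_le (hwZ ξ)
  have eZ : ∀ p : Fin r, Zh r n lam w ξ = HardBX.bb r n lam w ξ p 0 + SS lam (HardBX.bb r n lam w ξ p) n +
      SS lam (fun j => HardBX.bb r n lam w ξ p (-j)) n := by
    intro p
    simpa using Zh_shift (lam := lam) (w := w) n ξ p 0
  have eP : ∀ p : Fin r, Zh r n lam w (fun q => ξ q + if q = p then 1 else 0) =
      HardBX.bb r n lam w ξ p 0 + SS (2 * lam) (HardBX.bb r n lam w ξ p) n +
      SS (lam / 2) (fun j => HardBX.bb r n lam w ξ p (-j)) n := by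
    intro p
    rw [Zh_shift, zpow_one, zpow_neg_one, inv_mul_eq_div]
  have eN : ∀ p : Fin r, Zh r n lam w (fun q => ξ q + if q = p then -1 else 0) =
      HardBX.bb r n lam w ξ p 0 + SS (lam / 2) (HardBX.bb r n lam w ξ p) n +
      SS (2 * lam) (fun j => HardBX.bb r n lam w ξ p (-j)) n := by
    intro p
    rw [Zh_shift, neg_neg, zpow_one, zpow_neg_one, inv_mul_eq_div]
  have hc : (4 * lam + 2 * τ) * r ≤ 1 / 8 := by nlinarith
  have hc' : 4 * lam + 2 * τ ≤ 1 / 8 := by linarith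
  have sP : ∀ p : Fin r, SS lam (HardBX.bb r n lam w ξ p) n ≤ (4 * lam + 2 * τ) * Zh r n lam w ξ := by
    intro p
    have := side (bb_LC hT h0 hw hlc ξ p) h0 (by linarith) hτ0.le n
      (by rw [← eZ, ← eN]; exact hst' p p.2 _ (Or.inr rfl))
    rwa [← eZ] at this
  have sN : ∀ p : Fin r, SS lam (fun j => HardBX.bb r n lam w ξ p (-j)) n ≤
      (4 * lam + 2 * τ) * Zh r n lam w ξ := by
    intro p
    have a1 := hst' p p.2 _ (Or.inl rfl)
    rw [eP, eZ p] at a1
    have := side (bb_LC hT h0 hw hlc ξ p).neg h0 (by linarith) hτ0.le n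
      (by simp only [neg_neg, neg_zero]; linarith)
    simp only [neg_neg, neg_zero] at this
    rw [eZ p]
    linarith
  have hU : Zh r n lam w ξ - w 0 ≤ Zh r n lam w ξ / 4 := by
    refine (union hT h0 hw ξ).trans ?_
    have a1 : ∀ p ∈ (univ : Finset (Fin r)), Zh r n lam w ξ - Ah r n lam w ξ p 0 ≤
        2 * ((4 * lam + 2 * τ) * Zh r n lam w ξ) := by
      intro p _
      have b1 : HardBX.bb r n lam w ξ p 0 = Ah r n lam w ξ p 0 := by simp [HardBX.bb]
      have b2 := eZ p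
      have b3 := sP p
      have b4 := sN p
      linarith
    refine (sum_le_sum a1).trans ?_
    rw [sum_const, card_univ, Fintype.card_fin, nsmul_eq_mul]
    have := mul_le_mul_of_nonneg_right hc hZ0.le
    linarith
  refine ⟨ξ, hξ, fun p hp s hs => ?_⟩
  have hcZ := mul_le_mul_of_nonneg_right hc' hZ0.le
  have b3 := sP ⟨p, hp⟩
  have b4 := sN ⟨p, hp⟩
  have b2 := eZ ⟨p, hp⟩
  rcases hs with rfl | rfl
  · have a1 := tilt (bb_LC hT h0 hw hlc ξ ⟨p, hp⟩) h0 n (by linarith) (by linarith)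
    have a2 := eP ⟨p, hp⟩
    simp only at a2
    linarith
  · have a1 := tilt (bb_LC hT h0 hw hlc ξ ⟨p, hp⟩).neg h0 n
      (by simp only [neg_neg, neg_zero]; linarith) (by simp only [neg_neg, neg_zero]; linarith)
    simp only [neg_neg, neg_zero] at a1
    have a2 := eN ⟨p, hp⟩
    simp only at a2
    linarith

end Crest.Agent.R302
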