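import Crest.Agent.R302.MDefs

/-! Row 302: forests and elementary facts. -/

set_option autoImplicit false

namespace Crest.Agent.R302

open Finset

theorem ev_apply (i j : ℕ) : ev i j = if j = i then 1 else 0 := by
  simp [ev, Pi.single_apply]

theorem sm_add (S : Finset ℕ) (x y : Vec) : sm S (x + y) = sm S x + sm S y := by
  simp [sm, Finset.sum_add_distrib]
theorem sm_sub (S : Finset ℕ) (x y : Vec) : sm S (x - y) = sm S x - sm S y := by
  simp [sm, Finset.sum_sub_distrib]
theorem sm_neg (S : Finset ℕ) (x : Vec) : sm S (-x) = -sm S x := by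
  simp [sm]
theorem sm_smul (S : Finset ℕ) (t : ℤ) (x : Vec) : sm S (t • x) = t * sm S x := by
  simp [sm, Finset.mul_sum]
theorem sm_sum {ι : Type} (S : Finset ℕ) (T : Finset ι) (x : ι → Vec) :
    sm S (∑ i ∈ T, x i) = ∑ i ∈ T, sm S (x i) := by
  simp only [sm, Finset.sum_apply]
  exact Finset.sum_comm
theorem sm_ev (S : Finset ℕ) (i : ℕ) : sm S (ev i) = if i ∈ S then 1 else 0 := by
  simp [sm, ev_apply]
theorem sm_union_inter (A B : Finset ℕ) (x : Vec) :
    sm (A ∪ B) x + sm (A ∩ B) x = sm A x + sm B x := by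
  exact Finset.sum_union_inter

section
variable {p : ℕ → ℕ} {m : ℕ}

theorem anc_refl (p : ℕ → ℕ) (i : ℕ) : anc p i i := by
  exact ⟨0, Nat.zero_le _, rfl⟩
theorem Fo.anc_iff' (hp : Fo p) {a i : ℕ} : anc p a i ↔ ∃ t, p^[t] i = a := by
  refine ⟨fun ⟨t, _, h⟩ => ⟨t, h⟩, ?_⟩
  induction i using Nat.strong_induction_on with
  | _ i ih =>
  rintro ⟨t, h⟩
  by_cases hi : p i = i
  · rw [Function.iterate_fixed hi] at h
    exact h ▸ anc_refl p i
  · cases t with
    | zero => exact h ▸ anc_refl p i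
    | succ t =>
      have hlt : p i < i := lt_of_le_of_ne (hp i) hi
      obtain ⟨t', h1, h2⟩ := ih (p i) hlt ⟨t, h⟩
      exact ⟨t' + 1, by omega, h2⟩
theorem Fo.iterate_le (hp : Fo p) (t i : ℕ) : p^[t] i ≤ i := by
  induction t with
  | zero => exact le_rfl
  | succ t ih => rw [Function.iterate_succ_apply']; exact (hp _).trans ih
theorem Fo.anc_le (hp : Fo p) {a i : ℕ} (h : anc p a i) : a ≤ i := by
  obtain ⟨t, _, rfl⟩ := h
  exact hp.iterate_le t i
theorem Fo.anc_trans (hp : Fo p) {a b i : ℕ} (h : anc p a b) (h' : anc p b i) : anc p a i := by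
  obtain ⟨t, _, rfl⟩ := h
  obtain ⟨s, _, rfl⟩ := h'
  exact hp.anc_iff'.2 ⟨t + s, Function.iterate_add_apply _ _ _ _⟩
theorem Fo.anc_iff (hp : Fo p) {a i : ℕ} : anc p a i ↔ a = i ∨ (p i ≠ i ∧ anc p a (p i)) := by
  constructor
  · rintro ⟨t, _, h⟩
    by_cases hi : p i = i
    · rw [Function.iterate_fixed hi] at h
      exact Or.inl h.symm
    · cases t with
      | zero => exact Or.inl h.symm
      | succ t => exact Or.inr ⟨hi, hp.anc_iff'.2 ⟨t, h⟩⟩
  · rintro (rfl | ⟨_, t, _, h⟩)
    · exact anc_refl p a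
    · exact hp.anc_iff'.2 ⟨t + 1, h⟩
theorem Fo.anc_total (hp : Fo p) {a b i : ℕ} (h : anc p a i) (h' : anc p b i) :
    anc p a b ∨ anc p b a := by
  obtain ⟨t, _, rfl⟩ := h
  obtain ⟨s, _, rfl⟩ := h'
  rcases le_total s t with hst | hst
  · obtain ⟨d, rfl⟩ := Nat.exists_eq_add_of_le' hst
    exact Or.inl (hp.anc_iff'.2 ⟨d, (Function.iterate_add_apply _ _ _ _).symm⟩)
  · obtain ⟨d, rfl⟩ := Nat.exists_eq_add_of_le' hst
    exact Or.inr (hp.anc_iff'.2 ⟨d, (Function.iterate_add_apply _ _ _ _).symm⟩)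
/-- every vertex has exactly one root above it -/
theorem Fo.exists_root (hp : Fo p) (i : ℕ) : ∃ r, p r = r ∧ anc p r i ∧ ∀ r', p r' = r' → anc p r' i → r' = r := by
  induction i using Nat.strong_induction_on with
  | _ i ih =>
  by_cases hi : p i = i
  · refine ⟨i, hi, anc_refl p i, fun r' _ h => ?_⟩
    rcases hp.anc_iff.1 h with h | h
    · exact h
    · exact absurd hi h.1
  · obtain ⟨r, h1, h2, h3⟩ := ih (p i) (lt_of_le_of_ne (hp i) hi)
    refine ⟨r, h1, hp.anc_iff.2 (Or.inr ⟨hi, h2⟩), fun r' hr h => ?_⟩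
    rcases hp.anc_iff.1 h with h | h
    · exact absurd (h ▸ hr) hi
    · exact h3 r' hr h.2

theorem mem_sub {a i : ℕ} : i ∈ sub m p a ↔ i < m ∧ anc p a i := by
  simp [sub]

theorem Fo.sm_sub_bb (hp : Fo p) {a b : ℕ} (hb : b < m) :
    sm (sub m p a) (bb p b) = if a = b then 1 else 0 := by
  have hb' : p b < m := lt_of_le_of_lt (hp b) hb
  unfold bb
  rw [sm_sub, sm_ev]
  by_cases hr : p b = b
  · have : b ∈ sub m p a ↔ a = b := by
      rw [mem_sub, hp.anc_iff]; simp [hr, hb]
    simp [hr, this, sm]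
  · rw [if_neg hr, sm_ev]
    by_cases hab : a = b
    · subst hab
      have h1 : a ∈ sub m p a := mem_sub.2 ⟨hb, anc_refl p a⟩
      have h2 : p a ∉ sub m p a := fun h => hr (le_antisymm (hp a) (hp.anc_le (mem_sub.1 h).2))
      simp [h1, h2]
    · have : b ∈ sub m p a ↔ p b ∈ sub m p a := by
        rw [mem_sub, mem_sub, hp.anc_iff (i := b)]; simp [hr, hb, hb', hab]
      simp [this, hab]

/-- telescoping along the path to the root -/
theorem Fo.tele (hp : Fo p) {G : Type} [AddCommGroup G] (F : ℕ → G) {i : ℕ} (hi : i < m) :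
    F i = ∑ a ∈ (range m).filter (fun a => anc p a i), (F a - if p a = a then 0 else F (p a)) := by
  induction i using Nat.strong_induction_on with
  | _ i ih =>
  by_cases hr : p i = i
  · have : (range m).filter (fun a => anc p a i) = {i} := by
      ext a
      rw [Finset.mem_filter, hp.anc_iff, Finset.mem_range, Finset.mem_singleton]
      constructor
      · rintro ⟨_, h | h⟩
        · exact h
        · exact absurd hr h.1
      · rintro rfl; exact ⟨hi, Or.inl rfl⟩
    rw [this, Finset.sum_singleton, if_pos hr, sub_zero]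
  · have hlt : p i < i := lt_of_le_of_ne (hp i) hr
    have : (range m).filter (fun a => anc p a i)
        = insert i ((range m).filter (fun a => anc p a (p i))) := by
      ext a
      rw [Finset.mem_insert, Finset.mem_filter, Finset.mem_filter, hp.anc_iff (i := i),
        Finset.mem_range]
      constructor
      · rintro ⟨h0, h | h⟩
        · exact Or.inl h
        · exact Or.inr ⟨h0, h.2⟩
      · rintro (rfl | h)
        · exact ⟨hi, Or.inl rfl⟩
        · exact ⟨h.1, Or.inr ⟨hr, h.2⟩⟩
    rw [this, Finset.sum_insert, ← ih (p i) hlt (hlt.trans hi), if_neg hr, sub_add_cancel]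
    intro h
    have := hp.anc_le (Finset.mem_filter.1 h).2
    omega

/-- unit vectors in tree coordinates -/
theorem Fo.ev_eq (hp : Fo p) {i : ℕ} (hi : i < m) :
    ev i = ∑ a ∈ (range m).filter (fun a => anc p a i), bb p a := by
  exact hp.tele ev hi

/-- expansion in tree coordinates -/
theorem Fo.expand (hp : Fo p) {z : Vec} (hz : ∀ i, m ≤ i → z i = 0) :
    z = ∑ a ∈ range m, sm (sub m p a) z • bb p a := by
  have h1 : z = ∑ i ∈ range m, z i • ev i := by
    funext j
    simp only [Finset.sum_apply, Pi.smul_apply, ev_apply, smul_eq_mul, mul_ite, mul_one, mul_zero]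
    rw [Finset.sum_ite_eq]
    split_ifs with h
    · rfl
    · exact hz j (by simpa using h)
  have h2 : ∑ i ∈ range m, z i • ev i
      = ∑ i ∈ range m, ∑ a ∈ range m, if anc p a i then z i • bb p a else 0 := by
    refine Finset.sum_congr rfl fun i hi => ?_
    rw [hp.ev_eq (Finset.mem_range.1 hi), Finset.smul_sum, Finset.sum_filter]
  refine (h1.trans h2).trans ?_
  rw [Finset.sum_comm]
  refine Finset.sum_congr rfl fun a _ => ?_
  rw [← Finset.sum_filter, sm, Finset.sum_smul]
  rfl

/-- Abel summation along the forest -/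
theorem Fo.abel (hp : Fo p) (v F : ℕ → ℝ) :
    ∑ i ∈ range m, v i * F i = ∑ a ∈ range m, (∑ i ∈ sub m p a, v i) * DD p F a := by
  have h2 : ∑ i ∈ range m, v i * F i
      = ∑ i ∈ range m, ∑ a ∈ range m, if anc p a i then v i * DD p F a else 0 := by
    refine Finset.sum_congr rfl fun i hi => ?_
    rw [hp.tele F (Finset.mem_range.1 hi), Finset.mul_sum, Finset.sum_filter]
    rfl
  rw [h2, Finset.sum_comm]
  refine Finset.sum_congr rfl fun a _ => ?_
  rw [← Finset.sum_filter, Finset.sum_mul]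
  rfl

/-- Abel summation inside a subtree -/
theorem Fo.abel_sub (hp : Fo p) (v F : ℕ → ℝ) {g : ℕ} (hg : g < m) :
    ∑ i ∈ sub m p g, v i * F i = (∑ i ∈ sub m p g, v i) * F g +
      ∑ a ∈ (sub m p g).erase g, (∑ i ∈ sub m p a, v i) * DD p F a := by
  have h1 : ∀ i ∈ sub m p g, F i = F g +
      ∑ a ∈ (sub m p g).erase g, if anc p a i then DD p F a else 0 := by
    intro i hi
    obtain ⟨hi1, hi2⟩ := mem_sub.1 hi
    have e1 : F i = ∑ a ∈ (range m).filter (fun a => anc p a i), DD p F a := hp.tele F hi1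
    have e2 : F g = ∑ a ∈ (range m).filter (fun a => anc p a g), DD p F a := hp.tele F hg
    rw [e1, e2, ← Finset.sum_filter,
      ← Finset.sum_filter_add_sum_filter_not _ (fun a => anc p a g)]
    congr 1
    · refine Finset.sum_congr ?_ fun _ _ => rfl
      ext a
      simp only [Finset.mem_filter]
      exact ⟨fun h => ⟨h.1.1, h.2⟩, fun h => ⟨⟨h.1, hp.anc_trans h.2 hi2⟩, h.2⟩⟩
    · refine Finset.sum_congr ?_ fun _ _ => rfl
      ext a
      simp only [Finset.mem_filter, Finset.mem_erase, mem_sub, Finset.mem_range]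
      constructor
      · rintro ⟨⟨h1, h2⟩, h3⟩
        refine ⟨⟨?_, h1, (hp.anc_total h2 hi2).resolve_left h3⟩, h2⟩
        rintro rfl
        exact h3 (anc_refl p a)
      · rintro ⟨⟨h1, h2, h3⟩, h4⟩
        exact ⟨⟨h2, h4⟩, fun h => h1 (le_antisymm (hp.anc_le h) (hp.anc_le h3))⟩
  have h2 : ∑ i ∈ sub m p g, v i * F i = ∑ i ∈ sub m p g, (v i * F g +
      ∑ a ∈ (sub m p g).erase g, if anc p a i then v i * DD p F a else 0) := by
    refine Finset.sum_congr rfl fun i hi => ?_
    rw [h1 i hi, mul_add, Finset.mul_sum]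
    simp only [mul_ite, mul_zero]
  rw [h2, Finset.sum_add_distrib, ← Finset.sum_mul, Finset.sum_comm]
  congr 1
  refine Finset.sum_congr rfl fun a ha => ?_
  rw [← Finset.sum_filter, Finset.sum_mul]
  refine Finset.sum_congr ?_ fun _ _ => rfl
  have ha' := (mem_sub.1 (Finset.mem_of_mem_erase ha)).2
  ext i
  simp only [Finset.mem_filter, mem_sub]
  exact ⟨fun h => ⟨h.1.1, h.2⟩, fun h => ⟨⟨h.1, hp.anc_trans ha' h.2⟩, h.2⟩⟩

/-- every family of subtree sums occurs -/
theorem Fo.exists_sums (hp : Fo p) (ω : ℕ → ℝ) :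
    ∃ v : ℕ → ℝ, ∀ a < m, ∑ i ∈ sub m p a, v i = ω a := by
  refine ⟨fun i => ∑ b ∈ range m, ω b * (bb p b i : ℝ), fun a ha => ?_⟩
  rw [Finset.sum_comm]
  have : ∀ b ∈ range m, ∑ i ∈ sub m p a, ω b * (bb p b i : ℝ) = if a = b then ω b else 0 := by
    intro b hb
    have h := hp.sm_sub_bb (m := m) (a := a) (Finset.mem_range.1 hb)
    have h' : ∑ i ∈ sub m p a, (bb p b i : ℝ) = if a = b then 1 else 0 := by
      unfold sm at h
      exact_mod_cast congrArg (Int.cast : ℤ → ℝ) h
    rw [← Finset.mul_sum, h']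
    simp
  rw [Finset.sum_congr rfl this, Finset.sum_ite_eq, if_pos (Finset.mem_range.2 ha)]

end

/-! ### Two sides -/

section
variable {n : ℕ} {p1 p2 : ℕ → ℕ} {f1 f2 : Finset ℕ → ℤ}

theorem fo_pp (h1 : Fo p1) (h2 : Fo p2) : Fo (pp n p1 p2) := by
  intro a
  unfold pp
  have := h1 a
  have := h2 (a - n)
  split_ifs <;> omega

theorem pp_iterate_left (h1 : Fo p1) {i : ℕ} (hi : i < n) (t : ℕ) :
    (pp n p1 p2)^[t] i = p1^[t] i := by
  induction t with
  | zero => rfl
  | succ t ih =>
    rw [Function.iterate_succ_apply', Function.iterate_succ_apply', ih, pp,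
      if_pos (lt_of_le_of_lt (h1.iterate_le t i) hi)]

theorem pp_iterate_right (h2 : Fo p2) {i : ℕ} (hi : i < n) (t : ℕ) :
    (pp n p1 p2)^[t] (n + i) = n + p2^[t] i := by
  induction t with
  | zero => rfl
  | succ t ih =>
    have := h2.iterate_le t i
    rw [Function.iterate_succ_apply', Function.iterate_succ_apply', ih, pp,
      if_neg (by omega), if_pos (by omega), Nat.add_sub_cancel_left]

theorem sub_pp_left (h1 : Fo p1) (h2 : Fo p2) {a : ℕ} (ha : a < n) :
    sub (2 * n) (pp n p1 p2) a = sub n p1 a := by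
  ext i
  rw [mem_sub, mem_sub, (fo_pp h1 h2).anc_iff', h1.anc_iff']
  constructor
  · rintro ⟨hi, t, ht⟩
    by_cases hin : i < n
    · exact ⟨hin, t, by rwa [pp_iterate_left h1 hin] at ht⟩
    · obtain ⟨k, rfl⟩ : ∃ k, i = n + k := ⟨i - n, by omega⟩
      rw [pp_iterate_right h2 (by omega)] at ht
      omega
  · rintro ⟨hi, t, ht⟩
    exact ⟨by omega, t, by rwa [pp_iterate_left h1 hi]⟩

theorem sub_pp_right (h1 : Fo p1) (h2 : Fo p2) (a : ℕ) :
    sub (2 * n) (pp n p1 p2) (n + a) = (sub n p2 a).image (fun i => n + i) := by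
  ext i
  rw [mem_sub, Finset.mem_image, (fo_pp h1 h2).anc_iff']
  constructor
  · rintro ⟨hi, t, ht⟩
    have hle := (fo_pp (n := n) h1 h2).iterate_le t i
    obtain ⟨k, rfl⟩ : ∃ k, i = n + k := ⟨i - n, by omega⟩
    rw [pp_iterate_right h2 (by omega)] at ht
    exact ⟨k, mem_sub.2 ⟨by omega, h2.anc_iff'.2 ⟨t, by omega⟩⟩, rfl⟩
  · rintro ⟨k, hk, rfl⟩
    obtain ⟨hk1, t, _, ht⟩ := mem_sub.1 hk
    exact ⟨by omega, t, by rw [pp_iterate_right h2 hk1, ht]⟩

theorem sm_dg_left {S : Finset ℕ} (hS : S ⊆ range n) (x : Vec) : sm S (dg n x) = sm S x := by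
  refine Finset.sum_congr rfl fun i hi => ?_
  rw [dg, if_pos (Finset.mem_range.1 (hS hi))]

theorem sm_dg_right {S : Finset ℕ} (hS : S ⊆ range n) (x : Vec) :
    sm (S.image fun i => n + i) (dg n x) = -sm S x := by
  unfold sm
  rw [Finset.sum_image (fun a _ b _ h => Nat.add_left_cancel h), ← Finset.sum_neg_distrib]
  refine Finset.sum_congr rfl fun i hi => ?_
  have := Finset.mem_range.1 (hS hi)
  rw [dg, if_neg (by omega), if_pos (by omega), Nat.add_sub_cancel_left]

theorem sm_dg {S : Finset ℕ} (hS : S ⊆ range (2 * n)) (x : Vec) :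
    sm S (dg n x) = sm ((range n).filter fun i => i ∈ S) x
      - sm ((range n).filter fun i => n + i ∈ S) x := by
  have e : S = ((range n).filter fun i => i ∈ S) ∪
      ((range n).filter fun i => n + i ∈ S).image (fun i => n + i) := by
    ext i
    simp only [Finset.mem_union, Finset.mem_filter, Finset.mem_image, Finset.mem_range]
    constructor
    · intro hi
      have := Finset.mem_range.1 (hS hi)
      by_cases h : i < n
      · exact Or.inl ⟨h, hi⟩
      · refine Or.inr ⟨i - n, ⟨by omega, ?_⟩, by omega⟩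
        rwa [show n + (i - n) = i by omega]
    · rintro (h | ⟨k, h, rfl⟩)
      · exact h.2
      · exact h.2
  have hd : Disjoint ((range n).filter fun i => i ∈ S)
      (((range n).filter fun i => n + i ∈ S).image (fun i => n + i)) := by
    rw [Finset.disjoint_left]
    intro i h1 h2
    obtain ⟨k, _, rfl⟩ := Finset.mem_image.1 h2
    have := Finset.mem_range.1 (Finset.mem_filter.1 h1).1
    omega
  rw [sub_eq_add_neg, ← sm_dg_right (n := n) (Finset.filter_subset _ _),
    ← sm_dg_left (n := n) (Finset.filter_subset _ _)]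
  conv_lhs => rw [e]
  exact Finset.sum_union hd

theorem sm_sub_dg_left (h1 : Fo p1) (h2 : Fo p2) {a : ℕ} (ha : a < n) (x : Vec) :
    sm (sub (2 * n) (pp n p1 p2) a) (dg n x) = sm (sub n p1 a) x := by
  rw [sub_pp_left h1 h2 ha]
  exact sm_dg_left (Finset.filter_subset _ _) x

theorem sm_sub_dg_right (h1 : Fo p1) (h2 : Fo p2) {a : ℕ} (ha : a < n) (x : Vec) :
    sm (sub (2 * n) (pp n p1 p2) (n + a)) (dg n x) = -sm (sub n p2 a) x := by
  rw [sub_pp_right h1 h2 a]
  exact sm_dg_right (Finset.filter_subset _ _) x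

theorem dg_add (x y : Vec) : dg n (x + y) = dg n x + dg n y := by
  funext i
  simp only [dg, Pi.add_apply]
  split_ifs <;> ring
theorem dg_sub (x y : Vec) : dg n (x - y) = dg n x - dg n y := by
  funext i
  simp only [dg, Pi.sub_apply]
  split_ifs <;> ring
theorem dg_smul (t : ℤ) (x : Vec) : dg n (t • x) = t • dg n x := by
  funext i
  simp only [dg, Pi.smul_apply, smul_eq_mul]
  split_ifs <;> ring
theorem dg_sum {ι : Type} (T : Finset ι) (x : ι → Vec) :
    dg n (∑ i ∈ T, x i) = ∑ i ∈ T, dg n (x i) := by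
  funext j
  simp only [dg, Finset.sum_apply]
  split_ifs <;> simp
theorem dg_ev {i : ℕ} (hi : i < n) : dg n (ev i) = ev i - ev (n + i) := by
  funext j
  simp only [dg, Pi.sub_apply, ev_apply]
  split_ifs <;> omega

theorem Pair.symm (h : Pair n f1 f2) : Pair n f2 f1 := by
  exact ⟨h.s2, h.s1, h.z2, h.z1, by rw [add_comm]; exact h.tot⟩
theorem neg_mem_PS {x : Vec} : -x ∈ PS n f2 f1 ↔ x ∈ PS n f1 f2 := by
  simp only [PS, Set.mem_setOf_eq, sm_neg, neg_neg, Pi.neg_apply, neg_eq_zero]
  exact and_congr Iff.rfl (forall₂_congr fun _ _ => and_comm)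
theorem PS_finite (n : ℕ) (f1 f2 : Finset ℕ → ℤ) : (PS n f1 f2).Finite := by
  refine Set.Finite.of_finite_image (f := fun (x : Vec) (i : Fin n) => x i) ?_ ?_
  · refine (Set.Finite.pi' (t := fun i : Fin n => Set.Icc (-f2 {i.1}) (f1 {i.1}))
      fun i => Set.finite_Icc _ _).subset ?_
    rintro _ ⟨x, hx, rfl⟩ i
    have := hx.2 {i.1} (by simp)
    simp only [sm, Finset.sum_singleton] at this
    exact ⟨by linarith [this.2], this.1⟩
  · intro x hx y hy h
    funext i
    by_cases hi : i < n
    · exact congrFun h ⟨i, hi⟩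
    · rw [hx.1 i (by omega), hy.1 i (by omega)]
theorem ncard_PS_symm (n : ℕ) (f1 f2 : Finset ℕ → ℤ) : (PS n f2 f1).ncard = (PS n f1 f2).ncard := by
  have : PS n f2 f1 = (fun x => -x) '' PS n f1 f2 := by
    ext x
    constructor
    · intro hx
      exact ⟨-x, neg_mem_PS.2 hx, neg_neg x⟩
    · rintro ⟨y, hy, rfl⟩
      exact neg_mem_PS.2 hy
  rw [this, Set.ncard_image_of_injective _ neg_injective]
theorem Pair.submod (h : Pair n f1 f2) : Submod (2 * n) (dsum n f1 f2) := by
  intro A _ B _
  have e1 := h.s1 _ (Finset.filter_subset (fun i => i ∈ A) (range n)) _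
    (Finset.filter_subset (fun i => i ∈ B) (range n))
  have e2 := h.s2 _ (Finset.filter_subset (fun i => n + i ∈ A) (range n)) _
    (Finset.filter_subset (fun i => n + i ∈ B) (range n))
  rw [← Finset.filter_or, ← Finset.filter_and] at e1 e2
  unfold dsum
  simp only [Finset.mem_union, Finset.mem_inter]
  linarith
theorem Pair.dsum_empty (h : Pair n f1 f2) : dsum n f1 f2 ∅ = 0 := by
  simp [dsum, h.z1, h.z2]
theorem Pair.mem_PS (h : Pair n f1 f2) {x : Vec} (hx : ∀ i, n ≤ i → x i = 0) :
    x ∈ PS n f1 f2 ↔ dg n x ∈ Bs (2 * n) (dsum n f1 f2) := by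
  constructor
  · intro hP
    refine ⟨fun i hi => ?_, fun S hS => ?_, ?_⟩
    · rw [dg, if_neg (by omega), if_neg (by omega)]
    · rw [sm_dg hS]
      have e1 := (hP.2 _ (Finset.filter_subset (fun i => i ∈ S) (range n))).1
      have e2 := (hP.2 _ (Finset.filter_subset (fun i => n + i ∈ S) (range n))).2
      unfold dsum
      linarith
    · rw [sm_dg subset_rfl]
      unfold dsum
      have e1 : (range n).filter (fun i => i ∈ range (2 * n)) = range n :=
        Finset.filter_true_of_mem fun i hi => by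
          have := Finset.mem_range.1 hi
          exact Finset.mem_range.2 (by omega)
      have e2 : (range n).filter (fun i => n + i ∈ range (2 * n)) = range n :=
        Finset.filter_true_of_mem fun i hi => by
          have := Finset.mem_range.1 hi
          exact Finset.mem_range.2 (by omega)
      rw [e1, e2, sub_self, h.tot]
  · intro hB
    refine ⟨hx, fun S hS => ⟨?_, ?_⟩⟩
    · have e := hB.2.1 S (hS.trans (Finset.range_mono (by omega)))
      have e1 : (range n).filter (fun i => i ∈ S) = S := by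
        ext i; simp only [Finset.mem_filter]; exact ⟨fun h => h.2, fun h => ⟨hS h, h⟩⟩
      have e2 : (range n).filter (fun i => n + i ∈ S) = ∅ :=
        Finset.filter_false_of_mem fun i _ hi => by
          have := Finset.mem_range.1 (hS hi)
          omega
      rwa [sm_dg_left hS, dsum, e1, e2, h.z2, add_zero] at e
    · have e := hB.2.1 (S.image fun i => n + i) (by
        intro i hi
        obtain ⟨k, hk, rfl⟩ := Finset.mem_image.1 hi
        have := Finset.mem_range.1 (hS hk)
        exact Finset.mem_range.2 (by omega))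
      have e1 : (range n).filter (fun i => n + i ∈ S.image fun i => n + i) = S := by
        ext i
        simp only [Finset.mem_filter, Finset.mem_image]
        constructor
        · rintro ⟨_, k, hk, hh⟩
          rwa [← Nat.add_left_cancel hh]
        · exact fun h => ⟨hS h, i, h, rfl⟩
      have e2 : (range n).filter (fun i => i ∈ S.image fun i => n + i) = ∅ :=
        Finset.filter_false_of_mem fun i hi hi' => by
          obtain ⟨k, _, rfl⟩ := Finset.mem_image.1 hi'
          have := Finset.mem_range.1 hi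
          omega
      rwa [sm_dg_right hS, dsum, e1, e2, h.z1, zero_add] at e

end

end Crest.Agent.R302
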