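import Crest.Agent.R302.Conv
import Crest.Agent.R302.Forest

/-! Row 302: smoothing by geometric kernels. -/

set_option autoImplicit false

namespace Crest.Agent.R302

open Finset

namespace SmoothX

theorem hasSum_geo {r : ℝ} (h0 : 0 ≤ r) (h1 : r < 1) :
    HasSum (fun t : ℤ => r ^ t.natAbs) ((1 + r) / (1 - r)) := by
  have a := hasSum_geometric_of_lt_one h0 h1
  have b : HasSum (fun n : ℕ => r ^ (n + 1)) (r * (1 - r)⁻¹) := by
    simpa only [pow_succ'] using a.mul_left r
  have c : HasSum (fun t : ℤ => r ^ t.natAbs) ((1 - r)⁻¹ + r * (1 - r)⁻¹) := by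
    refine HasSum.of_nat_of_neg_add_one ?_ ?_
    · simpa using a
    · convert b using 2 with n
      all_goals (congr 1; try omega)
  convert c using 1
  rw [div_eq_mul_inv]; ring

theorem exists_ker {ε l η : ℝ} (h0 : 0 < ε) (h1 : ε ≤ 1 / 2) (hl : 0 ≤ l) (hη : η ≤ 1 / 16)
    (hlη : 4 * l ≤ ε * η) :
    ∃ g : ℤ → ℝ, (∀ t, 0 < g t) ∧ (∀ t, g (t + 2) * g t ≤ g (t + 1) ^ 2) ∧
      (∀ t, |g (t + 1) - g t| ≤ ε * g t ∧ |g (t - 1) - g t| ≤ ε * g t) ∧ HasSum g 1 ∧
      ∃ κ, κ ≤ 1 + η ∧ HasSum (fun t => g t * Real.exp l ^ t.natAbs) κ := by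
  have hη0 : 0 ≤ η := by
    by_contra hc
    have : ε * η < 0 := mul_neg_of_pos_of_neg h0 (by linarith)
    linarith
  set q : ℝ := (1 + ε)⁻¹ with hq
  have hq0 : 0 < q := by positivity
  have hqe : q * (1 + ε) = 1 := by rw [hq]; field_simp
  have hq1 : q < 1 := by nlinarith
  have hZ : 0 < (1 + q) / (1 - q) := div_pos (by linarith) (by linarith)
  set Z : ℝ := (1 + q) / (1 - q) with hZd
  have hstep : ∀ s t : ℤ, (s.natAbs = t.natAbs + 1 ∨ s.natAbs + 1 = t.natAbs) →
      |q ^ s.natAbs / Z - q ^ t.natAbs / Z| ≤ ε * (q ^ t.natAbs / Z) := by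
    intro s t h
    rcases h with h | h
    · rw [h]
      have hp : 0 < q ^ t.natAbs / Z := by positivity
      have : q ^ (t.natAbs + 1) / Z - q ^ t.natAbs / Z = -((1 - q) * (q ^ t.natAbs / Z)) := by
        rw [pow_succ]; ring
      rw [this, abs_neg, abs_of_nonneg (mul_nonneg (by linarith) hp.le)]
      exact mul_le_mul_of_nonneg_right (by nlinarith) hp.le
    · rw [← h]
      have hp : 0 < q ^ (s.natAbs + 1) / Z := by positivity
      have : q ^ s.natAbs / Z - q ^ (s.natAbs + 1) / Z = ε * (q ^ (s.natAbs + 1) / Z) := by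
        have e : q ^ s.natAbs = q ^ (s.natAbs + 1) * (1 + ε) := by
          rw [pow_succ, mul_assoc, hqe, mul_one]
        rw [e]; ring
      rw [this, abs_of_nonneg (mul_nonneg h0.le hp.le)]
  have hl1 : l ≤ 1 := by nlinarith
  obtain ⟨s, hs0, hs1, hs⟩ : ∃ s, 0 ≤ s ∧ s ≤ 2 * l ∧ Real.exp l = 1 + s := by
    refine ⟨Real.exp l - 1, by linarith [Real.one_le_exp hl], ?_, by ring⟩
    have := Real.abs_exp_sub_one_le (x := l) (by rw [abs_of_nonneg hl]; exact hl1)
    rw [abs_of_nonneg hl] at this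
    exact (le_abs_self _).trans this
  have hsε : s ≤ ε * η / 2 := by linarith
  have hsε' : s ≤ ε / 32 := by nlinarith
  have hr1 : q * (1 + s) < 1 := by nlinarith
  refine ⟨fun t => q ^ t.natAbs / Z, fun t => by positivity, fun t => ?_,
    fun t => ⟨hstep _ _ (by omega), hstep _ _ (by omega)⟩, ?_,
    (1 + q * (1 + s)) / (1 - q * (1 + s)) / Z, ?_, ?_⟩
  · show q ^ (t + 2).natAbs / Z * (q ^ t.natAbs / Z) ≤ (q ^ (t + 1).natAbs / Z) ^ 2
    rw [div_mul_div_comm, div_pow, ← pow_add, ← pow_mul, sq]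
    exact div_le_div_of_nonneg_right (pow_le_pow_of_le_one hq0.le hq1.le (by omega)) (by positivity)
  · have := (hasSum_geo hq0.le hq1).div_const Z
    rwa [div_self hZ.ne'] at this
  · rw [div_le_iff₀ hZ, hZd, div_le_iff₀ (by linarith), mul_div_assoc', div_mul_eq_mul_div,
      le_div_iff₀ (by linarith)]
    have e1 : 1 - q = q * ε := by linarith
    have e2 : 1 + q = q * (2 + ε) := by linarith
    have e3 : 1 - q * (1 + s) = q * (ε - s) := by linarith
    have e4 : 1 + q * (1 + s) = q * (2 + ε + s) := by linarith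
    rw [e1, e2, e3, e4]
    have key : (2 + ε + s) * ε ≤ (1 + η) * (2 + ε) * (ε - s) := by
      have a1 : η * (ε * (1 + ε)) ≤ η * ((2 + ε) * (ε - s)) :=
        mul_le_mul_of_nonneg_left (by nlinarith) hη0
      have a2 : s * (2 + 2 * ε) ≤ ε * η / 2 * (2 + 2 * ε) :=
        mul_le_mul_of_nonneg_right hsε (by linarith)
      nlinarith
    calc q * (2 + ε + s) * (q * ε) = q ^ 2 * ((2 + ε + s) * ε) := by ring
      _ ≤ q ^ 2 * ((1 + η) * (2 + ε) * (ε - s)) := mul_le_mul_of_nonneg_left key (by positivity)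
      _ = _ := by ring
  · have := (hasSum_geo (r := q * (1 + s)) (by positivity) hr1).div_const Z
    have e : (fun t : ℤ => q ^ t.natAbs / Z * Real.exp l ^ t.natAbs)
        = fun t : ℤ => (q * (1 + s)) ^ t.natAbs / Z := by
      funext t; rw [hs, mul_pow]; ring
    rw [e]; exact this

section
variable {G : Type} [AddCommGroup G]

theorem dl_perm {l₁ l₂ : List G} (h : l₁.Perm l₂) (c : G → ℝ) : dl l₁ c = dl l₂ c := by
  induction h with
  | nil => rfl
  | cons x _ ih => funext y; simp only [dl, ih]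
  | swap x y l => funext z; simp only [dl]; rw [add_right_comm z x y]; ring
  | trans _ _ ih1 ih2 => exact ih1.trans ih2

theorem lip_pow {c : G → ℝ} {b : G} {u : ℝ} (hu : 0 ≤ u)
    (h : ∀ y, c (y + b) ≤ u * c y ∧ c y ≤ u * c (y + b)) (y : G) (t : ℤ) :
    c (y + t • b) ≤ u ^ t.natAbs * c y ∧ c y ≤ u ^ t.natAbs * c (y + t • b) := by
  induction t using Int.induction_on with
  | zero => simp
  | succ n ih =>
    have e : ((n : ℤ) + 1).natAbs = (n : ℤ).natAbs + 1 := by omega
    have e' : y + ((n : ℤ) + 1) • b = y + (n : ℤ) • b + b := by rw [add_smul, one_smul, add_assoc]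
    rw [e, e', pow_succ]
    have a := h (y + (n : ℤ) • b)
    have hp : 0 ≤ u ^ (n : ℤ).natAbs := by positivity
    constructor
    · calc _ ≤ u * c (y + (n : ℤ) • b) := a.1
        _ ≤ u * (u ^ (n : ℤ).natAbs * c y) := mul_le_mul_of_nonneg_left ih.1 hu
        _ = _ := by ring
    · calc _ ≤ u ^ (n : ℤ).natAbs * c (y + (n : ℤ) • b) := ih.2
        _ ≤ u ^ (n : ℤ).natAbs * (u * c (y + (n : ℤ) • b + b)) := mul_le_mul_of_nonneg_left a.2 hp
        _ = _ := by ring
  | pred n ih =>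
    have e : (-(n : ℤ) - 1).natAbs = (-(n : ℤ)).natAbs + 1 := by omega
    have e' : y + (-(n : ℤ) - 1) • b + b = y + (-(n : ℤ)) • b := by
      rw [sub_smul, one_smul]; abel
    rw [e, pow_succ]
    have a := h (y + (-(n : ℤ) - 1) • b)
    rw [e'] at a
    have hp : 0 ≤ u ^ (-(n : ℤ)).natAbs := by positivity
    constructor
    · calc _ ≤ u * c (y + (-(n : ℤ)) • b) := a.2
        _ ≤ u * (u ^ (-(n : ℤ)).natAbs * c y) := mul_le_mul_of_nonneg_left ih.1 hu
        _ = _ := by ring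
    · calc _ ≤ u ^ (-(n : ℤ)).natAbs * c (y + (-(n : ℤ)) • b) := ih.2
        _ ≤ u ^ (-(n : ℤ)).natAbs * (u * c (y + (-(n : ℤ) - 1) • b)) :=
          mul_le_mul_of_nonneg_left a.1 hp
        _ = _ := by ring

/-- the convolution along `b` -/
noncomputable def cv (g : ℤ → ℝ) (b : G) (c : G → ℝ) (y : G) : ℝ := ∑' t : ℤ, g t * c (y + t • b)

variable {g : ℤ → ℝ} {b : G} {c : G → ℝ}

theorem summable_dl (hs : ∀ y, Summable fun t : ℤ => g t * c (y + t • b)) (l : List G) (y : G) :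
    Summable fun t : ℤ => g t * dl l c (y + t • b) := by
  induction l generalizing y with
  | nil => exact hs y
  | cons v l ih =>
    refine ((ih (y + v)).sub (ih y)).congr fun t => ?_
    simp only [dl]
    rw [add_right_comm y v]; ring

theorem dl_cv (hs : ∀ y, Summable fun t : ℤ => g t * c (y + t • b)) (l : List G) (y : G) :
    dl l (cv g b c) y = ∑' t : ℤ, g t * dl l c (y + t • b) := by
  induction l generalizing y with
  | nil => rfl
  | cons v l ih =>
    simp only [dl]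
    rw [ih, ih, ← (summable_dl hs l (y + v)).tsum_sub (summable_dl hs l y)]
    refine tsum_congr fun t => ?_
    rw [add_right_comm y v]; ring

theorem abs_tsum_le {f h : ℤ → ℝ} (hh : Summable h) (hf : ∀ t, |f t| ≤ h t) :
    |∑' t, f t| ≤ ∑' t, h t := by
  have := tsum_of_norm_bounded (f := f) hh.hasSum (fun t => by simpa using hf t)
  simpa using this

theorem keep (hg : ∀ t, 0 < g t) (hs : ∀ y, Summable fun t : ℤ => g t * c (y + t • b))
    {l : List G} {P : ℝ} (h : ∀ y, |dl l c y| ≤ P * c y) (y : G) :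
    |dl l (cv g b c) y| ≤ P * cv g b c y := by
  rw [dl_cv hs, cv, ← tsum_mul_left]
  refine abs_tsum_le ((hs y).mul_left P) fun t => ?_
  rw [abs_mul, abs_of_pos (hg t)]
  calc _ ≤ g t * (P * c (y + t • b)) := mul_le_mul_of_nonneg_left (h _) (hg t).le
    _ = _ := by ring

theorem gain (hg : ∀ t, 0 < g t) (hs : ∀ y, Summable fun t : ℤ => g t * c (y + t • b))
    {ε : ℝ} (hε : 0 ≤ ε) (σ : ℤ) (hd : ∀ t, |g (t - σ) - g t| ≤ ε * g t)
    {l : List G} {P : ℝ} (h : ∀ y, |dl l c y| ≤ P * c y) (y : G) :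
    |dl (σ • b :: l) (cv g b c) y| ≤ ε * P * cv g b c y := by
  simp only [dl]
  have e : ∀ t : ℤ, y + σ • b + (t - σ) • b = y + t • b := fun t => by rw [sub_smul]; abel
  have s1 : Summable fun t : ℤ => g (t - σ) * dl l c (y + t • b) := by
    have := (Equiv.subRight σ).summable_iff.2 (summable_dl hs l (y + σ • b))
    refine this.congr fun t => ?_
    simp only [Function.comp, Equiv.subRight_apply, e]
  have e1 : dl l (cv g b c) (y + σ • b) = ∑' t : ℤ, g (t - σ) * dl l c (y + t • b) := by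
    rw [dl_cv hs, ← (Equiv.subRight σ).tsum_eq]
    refine tsum_congr fun t => ?_
    simp only [Equiv.subRight_apply, e]
  rw [e1, dl_cv hs, ← s1.tsum_sub (summable_dl hs l y), cv, ← tsum_mul_left]
  refine abs_tsum_le ((hs y).mul_left _) fun t => ?_
  rw [← sub_mul, abs_mul]
  calc _ ≤ (ε * g t) * (P * c (y + t • b)) :=
        mul_le_mul (hd t) (h _) (abs_nonneg _) (mul_nonneg hε (hg t).le)
    _ = _ := by ring

theorem cv_lip (hg : ∀ t, 0 < g t) (hs : ∀ y, Summable fun t : ℤ => g t * c (y + t • b))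
    {v w : G} {u : ℝ} (h : ∀ y, c (y + v) ≤ u * c (y + w)) (y : G) :
    cv g b c (y + v) ≤ u * cv g b c (y + w) := by
  rw [cv, cv, ← tsum_mul_left]
  refine (hs _).tsum_le_tsum (fun t => ?_) ((hs _).mul_left u)
  rw [add_right_comm y v, add_right_comm y w]
  calc _ ≤ g t * (u * c (y + t • b + w)) := mul_le_mul_of_nonneg_left (h _) (hg t).le
    _ = _ := by ring

theorem cv_cmp (hg : ∀ t, 0 < g t) (h1 : HasSum g 1) (hc : ∀ y, 0 < c y) {u κ : ℝ} (hu : 0 < u)
    (hκ : HasSum (fun t => g t * u ^ t.natAbs) κ)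
    (h : ∀ y, c (y + b) ≤ u * c y ∧ c y ≤ u * c (y + b)) (y : G) :
    (Summable fun t : ℤ => g t * c (y + t • b)) ∧ cv g b c y ≤ κ * c y ∧
      (2 - κ) * c y ≤ cv g b c y := by
  have up : ∀ t : ℤ, g t * c (y + t • b) ≤ g t * u ^ t.natAbs * c y := fun t => by
    rw [mul_assoc]
    exact mul_le_mul_of_nonneg_left (lip_pow hu.le h y t).1 (hg t).le
  have hs : Summable fun t : ℤ => g t * c (y + t • b) :=
    Summable.of_nonneg_of_le (fun t => (mul_pos (hg t) (hc _)).le) up (hκ.mul_right _).summable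
  refine ⟨hs, hasSum_le up hs.hasSum (hκ.mul_right _), ?_⟩
  have h2 : HasSum (fun t : ℤ => (2 * g t - g t * u ^ t.natAbs) * c y) ((2 - κ) * c y) := by
    have := ((h1.mul_left 2).sub hκ).mul_right (c y)
    rwa [mul_one] at this
  refine hasSum_le (fun t => ?_) h2 hs.hasSum
  have a := (lip_pow hu.le h y t).2
  have hU : 0 < u ^ t.natAbs := by positivity
  set U := u ^ t.natAbs
  have hy := hc y
  have hz := hc (y + t • b)
  have b1 : (2 - U) * c y ≤ c (y + t • b) := by
    by_cases hU2 : 2 ≤ U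
    · nlinarith
    · have : (2 - U) * c y ≤ (2 - U) * (U * c (y + t • b)) :=
        mul_le_mul_of_nonneg_left a (by linarith)
      nlinarith [mul_nonneg hz.le (sq_nonneg (U - 1))]
  calc _ = g t * ((2 - U) * c y) := by ring
    _ ≤ _ := mul_le_mul_of_nonneg_left b1 (hg t).le

end

/-- signed edge vector -/
def vc (p : ℕ → ℕ) (x : ℕ × Bool) : Vec := (if x.2 then (1 : ℤ) else -1) • bb p x.1

/-- smoothness with a budget for every edge -/
def Bud (p : ℕ → ℕ) (ε : ℕ → ℝ) (β : ℕ → ℕ) (c : Vec → ℝ) : Prop :=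
  ∀ L : List (ℕ × Bool), (∀ a, (L.map Prod.fst).count a ≤ β a) →
    ∀ y, |dl (L.map (vc p)) c y| ≤ (L.map fun x => ε x.1).prod * c y

/-- the invariant -/
structure Inv (m : ℕ) (p : ℕ → ℕ) (ε l : ℕ → ℝ) (c : Vec → ℝ) (x : ℝ) (β : ℕ → ℕ)
    (c' : Vec → ℝ) : Prop where
  pos : ∀ y, 0 < c' y
  sl : SLv m ev c'
  lip : ∀ a < m, p a ≠ a → ∀ y, c' (y + bb p a) ≤ Real.exp (l a) * c' y ∧
      c' y ≤ Real.exp (l a) * c' (y + bb p a)
  cmp : ∀ y, (1 - x) * c y ≤ c' y ∧ (1 - x) * c' y ≤ c y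
  bud : Bud p ε β c'

variable {m : ℕ} {p : ℕ → ℕ} {ε l : ℕ → ℝ} {c : Vec → ℝ}

theorem Inv.mono {x x' : ℝ} {β β' : ℕ → ℕ} {c' : Vec → ℝ} (hc : ∀ y, 0 < c y)
    (h : Inv m p ε l c x β c') (hx : x ≤ x') (hβ : ∀ a, β' a ≤ β a) : Inv m p ε l c x' β' c' where
  pos := h.pos
  sl := h.sl
  lip := h.lip
  cmp y := ⟨(mul_le_mul_of_nonneg_right (by linarith) (hc y).le).trans (h.cmp y).1,
    (mul_le_mul_of_nonneg_right (by linarith) (h.pos y).le).trans (h.cmp y).2⟩
  bud L hL := h.bud L fun a => (hL a).trans (hβ a)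

theorem Inv.step (hp : Fo p) {x η : ℝ} {β : ℕ → ℕ} {c' : Vec → ℝ} (hc : ∀ y, 0 < c y)
    (h : Inv m p ε l c x β c') {a : ℕ} (ha : a < m) (hpa : p a ≠ a) (h0 : 0 < ε a)
    (h1 : ε a ≤ 1 / 2) (hl : 0 ≤ l a) (hη0 : 0 ≤ η) (hη : η ≤ 1 / 16) (hlη : 4 * l a ≤ ε a * η)
    (hx0 : 0 ≤ x) (hx : x + η ≤ 1) :
    ∃ c'', Inv m p ε l c (x + η) (fun a' => β a' + if a' = a then 1 else 0) c'' := by
  obtain ⟨g, g0, glc, gd, g1, κ, hκ, gκ⟩ := exists_ker h0 h1 hl hη hlη
  have cc := cv_cmp g0 g1 h.pos (Real.exp_pos (l a)) gκ (h.lip a ha hpa)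
  have hs := fun y => (cc y).1
  have lo : ∀ y, (1 - η) * c' y ≤ cv g (bb p a) c' y := fun y =>
    (mul_le_mul_of_nonneg_right (by linarith) (h.pos y).le).trans (cc y).2.2
  have hi : ∀ y, cv g (bb p a) c' y ≤ (1 + η) * c' y := fun y =>
    (cc y).2.1.trans (mul_le_mul_of_nonneg_right hκ (h.pos y).le)
  refine ⟨cv g (bb p a) c', fun y => (mul_pos (by linarith) (h.pos y)).trans_le (lo y), ?_,
    fun a' ha' hpa' y => ⟨?_, ?_⟩, fun y => ⟨?_, ?_⟩, fun L hL y => ?_⟩
  · refine h.sl.conv_tsum h.pos (Or.inr ⟨a, ha, p a, (hp a).trans_lt ha, ?_⟩) g0 glc hs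
    rw [bb, if_neg hpa]
  · have := cv_lip g0 hs (v := bb p a') (w := 0) (u := Real.exp (l a'))
      (fun y => by rw [add_zero]; exact (h.lip a' ha' hpa' y).1) y
    rwa [add_zero] at this
  · have := cv_lip g0 hs (v := 0) (w := bb p a') (u := Real.exp (l a'))
      (fun y => by rw [add_zero]; exact (h.lip a' ha' hpa' y).2) y
    rwa [add_zero] at this
  · have a1 := (h.cmp y).1
    have a2 : (1 - η) * ((1 - x) * c y) ≤ (1 - η) * c' y :=
      mul_le_mul_of_nonneg_left a1 (by linarith)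
    have a3 := mul_nonneg (mul_nonneg hx0 hη0) (hc y).le
    have a4 := lo y
    nlinarith
  · have a1 := (h.cmp y).2
    have a2 : (1 - (x + η)) * cv g (bb p a) c' y ≤ (1 - (x + η)) * ((1 + η) * c' y) :=
      mul_le_mul_of_nonneg_left (hi y) (by linarith)
    have a3 := mul_nonneg (mul_nonneg (add_nonneg hx0 hη0) hη0) (h.pos y).le
    nlinarith
  · by_cases hm : a ∈ L.map Prod.fst
    · obtain ⟨z, hz, rfl⟩ := List.mem_map.1 hm
      have hperm := List.perm_cons_erase hz
      have hb : ∀ a', ((L.erase z).map Prod.fst).count a' ≤ β a' := by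
        intro a'
        have e := (hperm.map Prod.fst).count_eq a'
        have := hL a'
        rw [e, List.map_cons, List.count_cons] at this
        by_cases hh : a' = z.1
        · subst hh; simp at this ⊢; omega
        · have hh' : ¬ z.1 = a' := fun e => hh e.symm
          simp [hh, hh'] at this ⊢; omega
      rw [dl_perm (hperm.map (vc p)), (hperm.map fun x => ε x.1).prod_eq, List.map_cons,
        List.map_cons, List.prod_cons]
      refine gain g0 hs h0.le _ (fun t => ?_) (h.bud _ hb) y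
      cases z.2
      · simpa using (gd t).1
      · simpa using (gd t).2
    · refine keep g0 hs (h.bud L fun a' => ?_) y
      by_cases hh : a' = a
      · rw [hh, List.count_eq_zero.2 hm]; exact Nat.zero_le _
      · simpa [hh] using hL a'

theorem exists_list (L : List (Vec × ℝ)) (h : ∀ x ∈ L, x ∈ mvs m p ε) :
    ∃ L' : List (ℕ × Bool), L'.length = L.length ∧ L'.map (vc p) = L.map Prod.fst ∧
      (L'.map fun x => ε x.1) = L.map Prod.snd ∧ ∀ x ∈ L', x.1 < m ∧ p x.1 ≠ x.1 := by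
  induction L with
  | nil => exact ⟨[], rfl, rfl, rfl, by simp⟩
  | cons z L ih =>
    obtain ⟨L', e1, e2, e3, e4⟩ := ih fun x hx => h x (List.mem_cons_of_mem _ hx)
    obtain ⟨a, ha, hpa, hv, hr⟩ := h z List.mem_cons_self
    obtain ⟨s, hs⟩ : ∃ s : Bool, vc p (a, s) = z.1 := by
      rcases hv with hv | hv
      · exact ⟨true, by simp [vc, hv]⟩
      · exact ⟨false, by simp [vc, hv]⟩
    refine ⟨(a, s) :: L', by simp [e1], by rw [List.map_cons, List.map_cons, e2, hs],
      by rw [List.map_cons, List.map_cons, e3, hr], fun x hx => ?_⟩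
    rcases List.mem_cons.1 hx with rfl | hx
    · exact ⟨ha, hpa⟩
    · exact e4 x hx

end SmoothX

open SmoothX in
theorem exists_smooth {m : ℕ} {p : ℕ → ℕ} (hp : Fo p) {c : Vec → ℝ} (hc : ∀ y, 0 < c y)
    (h : SLv m ev c) (ε l : ℕ → ℝ) (hε : ∀ a < m, p a ≠ a → 0 < ε a ∧ ε a ≤ 1 / 2 ∧ 0 ≤ l a ∧
      64 * m * l a ≤ ε a)
    (hl : ∀ a < m, p a ≠ a → ∀ y, c (y + bb p a) ≤ Real.exp (l a) * c y ∧
      c y ≤ Real.exp (l a) * c (y + bb p a)) :
    ∃ c' : Vec → ℝ, SLv m ev c' ∧ (∀ y, c y ≤ 2 * c' y ∧ c' y ≤ 2 * c y) ∧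
      ∀ y, Sm (mvs m p ε) c' y := by
  set η : ℝ := 1 / (16 * m) with hη
  have hη0 : 0 ≤ η := by positivity
  have hmη : m * η ≤ 1 / 16 := by
    rcases Nat.eq_zero_or_pos m with rfl | hm
    · simp
    · have : (0 : ℝ) < m := by exact_mod_cast hm
      rw [hη]; apply le_of_eq; field_simp
  have main : ∀ j ≤ m, ∃ c', Inv m p ε l c (3 * j * η)
      (fun a => if a < j ∧ p a ≠ a then 3 else 0) c' := by
    intro j
    induction j with
    | zero =>
      refine fun _ => ⟨c, hc, h, hl, fun y => by simp, fun L hL y => ?_⟩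
      rcases L with _ | ⟨z, L⟩
      · simp [dl, abs_of_pos (hc y)]
      · have := hL z.1
        simp at this
    | succ j ih =>
      intro hj
      obtain ⟨c1, h1⟩ := ih (by omega)
      have hjm : j < m := hj
      have hm1 : (1 : ℝ) ≤ m := by exact_mod_cast (show 1 ≤ m by omega)
      have hj' : (j : ℝ) + 1 ≤ m := by exact_mod_cast hj
      have hj0 : (0 : ℝ) ≤ j := by positivity
      have hjη : (j + 1) * η ≤ 1 / 16 := (mul_le_mul_of_nonneg_right hj' hη0).trans hmη
      have hjη0 : 0 ≤ j * η := by positivity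
      by_cases hpj : p j = j
      · refine ⟨c1, h1.mono hc (by push_cast; nlinarith) fun a => ?_⟩
        by_cases ha : a = j
        · subst ha; simp [hpj]
        · have : a < j + 1 ↔ a < j := by omega
          simp only [this]; exact le_rfl
      · obtain ⟨e0, e1, e2, e3⟩ := hε j hjm hpj
        have hη1 : η ≤ 1 / 16 := by nlinarith
        have e4 : 4 * l j ≤ ε j * η := by
          rw [hη, mul_one_div, le_div_iff₀ (by positivity)]; linarith
        obtain ⟨c2, h2⟩ := h1.step hp hc hjm hpj e0 e1 e2 hη0 hη1 e4 (by linarith) (by linarith)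
        obtain ⟨c3, h3⟩ := h2.step hp hc hjm hpj e0 e1 e2 hη0 hη1 e4 (by linarith) (by linarith)
        obtain ⟨c4, h4⟩ := h3.step hp hc hjm hpj e0 e1 e2 hη0 hη1 e4 (by linarith) (by linarith)
        refine ⟨c4, h4.mono hc (by push_cast; linarith) fun a => ?_⟩
        by_cases ha : a = j
        · subst ha; simp [hpj]
        · have : a < j + 1 ↔ a < j := by omega
          simp only [this, if_neg ha]; exact le_rfl
  obtain ⟨c', h'⟩ := main m le_rfl
  refine ⟨c', h'.sl, fun y => ?_, fun y L hL hM => ?_⟩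
  · have a1 := h'.cmp y
    have a2 := hc y
    have a3 := h'.pos y
    have a4 : (1 : ℝ) / 2 ≤ 1 - 3 * m * η := by linarith
    have a5 := mul_le_mul_of_nonneg_right a4 a2.le
    have a6 := mul_le_mul_of_nonneg_right a4 a3.le
    constructor <;> linarith [a1.1, a1.2]
  · obtain ⟨L', e1, e2, e3, e4⟩ := exists_list L hM
    rw [← e2, ← e3]
    refine h'.bud L' (fun a => ?_) y
    split_ifs with ha
    · exact List.count_le_length.trans (by rw [List.length_map, e1]; exact hL)
    · refine (List.count_eq_zero.2 fun hm => ha ?_).le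
      obtain ⟨z, hz, rfl⟩ := List.mem_map.1 hm
      exact e4 z hz

end Crest.Agent.R302
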