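import Crest.Agent.R302.Par
import Crest.Agent.R302.AC2
import Crest.Agent.R302.HardB
import Crest.Agent.R302.Conv
import Crest.Agent.R302.Smooth
import Crest.Agent.R302.P3a
import Crest.Agent.R302.P3b

/-! Row 302: balancing fields for the soft model. -/

set_option autoImplicit false

namespace Crest.Agent.R302

open Crest.Agent.PT Crest.Agent.R309 Finset

namespace HardAX

open _root_.Crest.Agent.R302.Mod

theorem geo_box {r : ℕ} {ρ : ℝ} (h0 : 0 ≤ ρ) (h1 : ρ ≤ 1 / 3) (h2 : 6 * r * ρ ≤ 1) (T : ℤ) :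
    ∑ u ∈ Fintype.piFinset (fun _ : Fin r => Icc (-T) T), ∏ i : Fin r, ρ ^ (u i).natAbs ≤ 2 := by
  rw [← prod_univ_sum (fun _ : Fin r => Icc (-T) T) fun _ t => ρ ^ t.natAbs]
  have h3 : ∑ t ∈ Icc (-T) T, ρ ^ t.natAbs ≤ 1 + 3 * ρ := by
    have hs := SmoothX.hasSum_geo h0 (by linarith)
    refine (sum_le_hasSum _ (fun _ _ => by positivity) hs).trans ?_
    rw [div_le_iff₀ (by linarith)]
    nlinarith
  rw [prod_const, card_univ, Fintype.card_fin]
  calc (∑ t ∈ Icc (-T) T, ρ ^ t.natAbs) ^ r ≤ (Real.exp (3 * ρ)) ^ r :=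
        pow_le_pow_left₀ (sum_nonneg fun _ _ => by positivity)
          (h3.trans (by linarith [Real.add_one_le_exp (3 * ρ)])) r
    _ = Real.exp (r * (3 * ρ)) := (Real.exp_nat_mul _ _).symm
    _ ≤ Real.exp (1 / 2) := Real.exp_le_exp.2 (by linarith)
    _ ≤ 2 := by
        have h4 : Real.exp (1 / 2) ^ 2 = Real.exp 1 := by rw [← Real.exp_nat_mul]; norm_num
        have h5 := Real.exp_one_lt_d9
        nlinarith [Real.exp_pos (1 / 2)]

theorem sum_le_of_inj {ι κ : Type} [DecidableEq κ] (A : Finset ι) (B : Finset κ) (φ : ι → κ)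
    (f : ι → ℝ) (g : κ → ℝ) (hg : ∀ z, 0 ≤ g z) (hB : ∀ x ∈ A, φ x ∈ B)
    (hinj : Set.InjOn φ A) (h : ∀ x ∈ A, f x ≤ g (φ x)) : ∑ x ∈ A, f x ≤ ∑ z ∈ B, g z := by
  refine (sum_le_sum h).trans ?_
  rw [← sum_image (f := g) hinj]
  exact sum_le_sum_of_subset_of_nonneg (image_subset_iff.2 hB) fun _ _ _ => hg _

variable (S : Mod)

open Classical in
/-- a port of the label `c` -/
noncomputable def av (c : ℕ) : Vec :=
  if h : ∃ a, a < 2 * S.n ∧ S.b.lab a = c then ev h.choose else 0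

def csth (a : ℕ) : ℕ := if S.p a = a then S.Q ^ 2 * S.D else S.cst a

noncomputable def nh (Y : Vec) : ℤ := nu (2 * S.n) S.F S.p (csth S) 0 Y

noncomputable def ch (Y : Vec) : ℝ := (2 : ℝ) ^ (-(nh S Y : ℝ) / S.D)

def R3 : ℤ := 2 ^ (3 * S.Q)

def emb (t : Fin S.n → ℤ) : Vec := ∑ i : Fin S.n, t i • ev i

noncomputable def W0 (Y : Vec) : ℝ :=
  ∑ t ∈ Fintype.piFinset (fun _ : Fin S.n => Icc (-R3 S) (R3 S)), ch S (Y + dg S.n (emb S t))

noncomputable def wu (u : Fin (2 * S.n) → ℤ) : ℝ := W0 S (∑ c : Fin (2 * S.n), u c • av S c)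

variable {S}

theorem ch_pos (Y : Vec) : 0 < ch S Y := by unfold ch; positivity

theorem R3_nonneg : 0 ≤ R3 S := by unfold R3; positivity

theorem W0_pos (Y : Vec) : 0 < W0 S Y :=
  sum_pos (fun _ _ => ch_pos _)
    (Fintype.piFinset_nonempty.2 fun _ => nonempty_Icc.2 (by linarith [R3_nonneg (S := S)]))

theorem emb_apply (t : Fin S.n → ℤ) (i : ℕ) : emb S t i = if h : i < S.n then t ⟨i, h⟩ else 0 := by
  unfold emb
  rw [Finset.sum_apply]
  split_ifs with h
  · rw [sum_eq_single ⟨i, h⟩]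
    · simp [ev_apply]
    · intro b _ hb
      have : i ≠ b.val := fun e => hb (Fin.ext e.symm)
      simp [ev_apply, this]
    · simp
  · refine sum_eq_zero fun b _ => ?_
    have : i ≠ b.val := by have := b.2; omega
    simp [ev_apply, this]

theorem emb_res {x : Vec} (hx : ∀ i, S.n ≤ i → x i = 0) : emb S (fun i => x i) = x := by
  funext i
  rw [emb_apply]
  split_ifs with h
  · rfl
  · exact (hx i (by omega)).symm

theorem ch_sl (h : S.OK) : SLv (2 * S.n) ev (ch S) := by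
  have hD : (0 : ℝ) < S.D := by exact_mod_cast D_pos
  have := (nu_P3 h.submod h.F_empty h.fo (csth S) 0).slv (β := Real.log 2 / S.D)
    (div_nonneg (Real.log_nonneg (by norm_num)) hD.le)
  convert this using 2 with y
  unfold ch nh
  rw [Real.rpow_def_of_pos (by norm_num)]
  congr 1; ring

theorem W0_sl (h : S.OK) : SLv (2 * S.n) ev (W0 S) := by
  have := (ch_sl h).conv_box ch_pos S.n (b := fun i => dg S.n (ev i))
    (fun i hi => Or.inr ⟨i, by omega, S.n + i, by omega, dg_ev hi⟩) (χ := fun _ _ => 1)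
    (fun _ _ => one_pos) (fun _ _ => by norm_num) (fun _ => -R3 S) (fun _ => R3 S)
    (fun _ => by linarith [R3_nonneg (S := S)])
  convert this using 2 with y
  unfold W0 emb
  refine sum_congr rfl fun t _ => ?_
  rw [prod_const_one, one_mul, dg_sum]
  simp only [dg_smul]

theorem av_cases (c : ℕ) : av S c = 0 ∨ ∃ a < 2 * S.n, av S c = ev a := by
  unfold av
  split_ifs with h
  · exact Or.inr ⟨_, h.choose_spec.1, rfl⟩
  · exact Or.inl rfl

theorem av_lab {a : ℕ} (ha : a < 2 * S.n) :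
    ∃ a' < 2 * S.n, S.b.lab a' = S.b.lab a ∧ av S (S.b.lab a) = ev a' := by
  have h : ∃ a', a' < 2 * S.n ∧ S.b.lab a' = S.b.lab a := ⟨a, ha, rfl⟩
  exact ⟨h.choose, h.choose_spec.1, h.choose_spec.2, by unfold av; rw [dif_pos h]⟩

theorem chi_lc {lam : ℝ} (h0 : 0 < lam) (h1 : lam ≤ 1) (x t : ℤ) :
    (2 : ℝ) ^ (x * (t + 2)) * lam ^ (t + 2).natAbs * ((2 : ℝ) ^ (x * t) * lam ^ t.natAbs) ≤
      ((2 : ℝ) ^ (x * (t + 1)) * lam ^ (t + 1).natAbs) ^ 2 := by
  have e1 : (2 : ℝ) ^ (x * (t + 2)) * (2 : ℝ) ^ (x * t) = ((2 : ℝ) ^ (x * (t + 1))) ^ 2 := by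
    rw [sq, ← zpow_add₀ two_ne_zero, ← zpow_add₀ two_ne_zero]; congr 1; ring
  have e2 : lam ^ (t + 2).natAbs * lam ^ t.natAbs ≤ (lam ^ (t + 1).natAbs) ^ 2 := by
    rw [← pow_add, ← pow_mul]
    exact pow_le_pow_of_le_one h0.le h1 (by omega)
  rw [mul_pow, ← e1]
  have : (0 : ℝ) < (2 : ℝ) ^ (x * (t + 2)) * (2 : ℝ) ^ (x * t) := by positivity
  nlinarith

theorem hlc (h : S.OK) {T : ℤ} (hT : 0 ≤ T) {lam : ℝ} (h0 : 0 < lam) (h1 : lam ≤ 1) (ξ : ℕ → ℤ)
    (c : Fin (2 * S.n)) (j : ℤ) :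
    Ah (2 * S.n) T lam (wu S) ξ c (j + 2) * Ah (2 * S.n) T lam (wu S) ξ c j ≤
      Ah (2 * S.n) T lam (wu S) ξ c (j + 1) ^ 2 := by
  have hn := h.n_pos
  have hG := (W0_sl h).conv_box W0_pos (2 * S.n) (b := av S)
    (fun i _ => by
      rcases av_cases (S := S) i with e | ⟨a, ha, e⟩
      · exact Or.inr ⟨0, by omega, 0, by omega, by rw [e, sub_self]⟩
      · exact Or.inl ⟨a, ha, Or.inl e⟩)
    (χ := fun i t => (2 : ℝ) ^ (ξ i * t) * lam ^ t.natAbs) (fun _ _ => by positivity)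
    (fun i t => chi_lc h0 h1 _ _) (fun i => if i = c.val then 0 else -T)
    (fun i => if i = c.val then 0 else T) (fun i => by split_ifs <;> omega)
  generalize hGe : (fun y => ∑ t ∈ Fintype.piFinset (fun i : Fin (2 * S.n) =>
    Icc (if i.val = c.val then 0 else -T) (if i.val = c.val then 0 else T)),
      (∏ i : Fin (2 * S.n), (2 : ℝ) ^ (ξ i * t i) * lam ^ (t i).natAbs) *
        W0 S (y + ∑ i : Fin (2 * S.n), t i • av S i)) = G at hG
  have key : ∀ j : ℤ, Ah (2 * S.n) T lam (wu S) ξ c j = G (j • av S c) := fun j => by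
    rw [← hGe]
    unfold Ah
    have e : (fun i : Fin (2 * S.n) => if i = c then Icc (0 : ℤ) 0 else Icc (-T) T) =
        fun i : Fin (2 * S.n) =>
          Icc (if i.val = c.val then 0 else -T) (if i.val = c.val then 0 else T) := by
      funext i
      simp only [Fin.val_inj]
      split_ifs <;> rfl
    rw [e]
    refine sum_congr rfl fun u hu => ?_
    have hu0 : u c = 0 := by
      have := Fintype.mem_piFinset.1 hu c
      simpa using this
    congr 1
    unfold wu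
    congr 1
    rw [← add_sum_erase _ _ (mem_univ c), ← add_sum_erase _ _ (mem_univ c), hu0, zero_smul,
      zero_add, Function.update_self]
    congr 1
    refine sum_congr rfl fun i hi => ?_
    rw [Function.update_of_ne (ne_of_mem_erase hi)]
  rw [key, key, key]
  rcases av_cases (S := S) c with e | ⟨a, ha, e⟩
  · rw [e, smul_zero, smul_zero, smul_zero, sq]
  · have := (hG (j • av S c)).one ha
    rw [e] at this ⊢
    rw [show (j + 2) • ev a = j • ev a + ev a + ev a by rw [add_smul, two_smul, add_assoc],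
      show (j + 1) • ev a = j • ev a + ev a by rw [add_smul, one_smul]]
    exact this

theorem dot_zero (m : ℕ) (b : Vec) : dot m 0 b = 0 := by simp [dot]

theorem ch_le (h : S.OK) (Y : Vec) : ch S Y ≤ 1 := by
  obtain ⟨b, -, e⟩ := exists_nu_eq (p := S.p) (cst := csth S) (ζ := 0) h.submod h.F_empty Y
  have h1 : 0 ≤ nh S Y := by
    unfold nh; rw [e, dot_zero, neg_zero, zero_add]; exact cost_nonneg _
  have h2 : (0 : ℝ) ≤ nh S Y := by exact_mod_cast h1
  refine Real.rpow_le_one_of_one_le_of_nonpos (by norm_num) ?_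
  exact div_nonpos_of_nonpos_of_nonneg (by linarith) (Nat.cast_nonneg _)

theorem card_box (h : S.OK) :
    (Fintype.piFinset fun _ : Fin S.n => Icc (-R3 S) (R3 S)).card ≤ 2 ^ (S.Q ^ 2) := by
  rw [Fintype.card_piFinset, prod_const, card_univ, Fintype.card_fin, Int.card_Icc]
  have h1 : (R3 S + 1 - -R3 S).toNat ≤ 2 ^ (3 * S.Q + 2) := by
    rw [Int.toNat_le]
    unfold R3
    have : (1 : ℤ) ≤ 2 ^ (3 * S.Q) := one_le_pow₀ (by norm_num)
    push_cast
    rw [pow_add]; linarith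
  refine (Nat.pow_le_pow_left h1 _).trans ?_
  rw [← pow_mul]
  refine Nat.pow_le_pow_right (by norm_num) ?_
  have := h.nQ; have := h.Q_ge
  nlinarith

theorem W0_le (h : S.OK) (Y : Vec) : W0 S Y ≤ 2 ^ (S.Q ^ 2) := by
  refine (sum_le_card_nsmul _ _ 1 fun _ _ => ch_le h _).trans ?_
  rw [nsmul_eq_mul, mul_one]
  exact_mod_cast card_box h

theorem one_le_W0 (h : S.OK) : 1 ≤ W0 S 0 := by
  obtain ⟨x, hx⟩ := h.ne
  have hm : (fun i : Fin S.n => x i) ∈ Fintype.piFinset fun _ : Fin S.n => Icc (-R3 S) (R3 S) := by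
    refine Fintype.mem_piFinset.2 fun i => ?_
    have hs : ({i.val} : Finset ℕ) ⊆ range S.n := by simp
    have h1 := hx.2 _ hs
    have h2 := h.bd _ hs
    have h3 : (2 : ℤ) ^ S.B ≤ R3 S := pow_le_pow_right₀ (by norm_num) (by have := h.BQ'; omega)
    simp only [sm, sum_singleton] at h1
    rw [mem_Icc]
    constructor <;> linarith [h1.1, h1.2, le_abs_self (S.f1 {i.val}), le_abs_self (S.f2 {i.val}),
      h2.1, h2.2]
  refine le_trans ?_ (single_le_sum (fun t _ => (ch_pos _).le) hm)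
  rw [emb_res hx.1, zero_add]
  have h1 := nu_le (p := S.p) (cst := csth S) (ζ := 0) ((h.pair.mem_PS hx.1).1 hx) (dg S.n x)
  have h0 : cost (2 * S.n) S.p (csth S) 0 = 0 := by simp [cost, sm]
  rw [dot_zero, sub_self, h0] at h1
  have h2 : (nh S (dg S.n x) : ℝ) ≤ 0 := by
    have : nh S (dg S.n x) ≤ 0 := by simpa [nh, F] using h1
    exact_mod_cast this
  exact Real.one_le_rpow (by norm_num) (div_nonneg (by linarith) (Nat.cast_nonneg _))

theorem phi_bd {n Q : ℕ} (hn : 1 ≤ n) (hQ : 2048 * n ≤ Q) {L Φ : ℤ} (hL : 1 ≤ L)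
    (h : L * Q ^ 9 ≤ 16 * (n : ℤ) ^ 2 * (Φ + 1)) : 48 * (n : ℤ) ^ 7 * L < Φ := by
  have h1 : (2048 * (n : ℤ)) ^ 9 ≤ (Q : ℤ) ^ 9 :=
    pow_le_pow_left₀ (by positivity) (by exact_mod_cast hQ) 9
  have hn' : (1 : ℤ) ≤ n := by exact_mod_cast hn
  have h7 : (1 : ℤ) ≤ (n : ℤ) ^ 7 := one_le_pow₀ hn'
  have h2 : 16 * (n : ℤ) ^ 2 * (64 * (n : ℤ) ^ 7 * L) ≤ 16 * (n : ℤ) ^ 2 * (Φ + 1) := by
    refine le_trans ?_ h
    have : 1024 * (n : ℤ) ^ 9 ≤ (Q : ℤ) ^ 9 := by
      refine le_trans ?_ h1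
      rw [mul_pow]
      exact mul_le_mul_of_nonneg_right (by norm_num) (by positivity)
    nlinarith
  have h3 := le_of_mul_le_mul_left h2 (by positivity)
  nlinarith

theorem W0_zero_le (h : S.OK) : W0 S 0 ≤ 8 * S.N := by
  classical
  have hQ := h.Q_ge
  have hinj : Function.Injective (emb S) := fun t t' e => by
    funext i
    have := congrFun e i
    simpa [emb_apply] using this
  have hj : ∀ a < 2 * S.n, ∀ c ≤ 150, 2 ^ (S.j a - c * S.q) * S.Q ^ c = 2 ^ S.j a := fun a ha c hc => by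
    have := h.jge a ha
    unfold Q; rw [← pow_mul, ← pow_add]; congr 1
    unfold g at this
    have : c * S.q ≤ 150 * S.q := Nat.mul_le_mul_right _ hc
    rw [mul_comm S.q c]; omega
  have := hard_mass h.pair h.ne h.fo1 h.fo2 (fun a => 2 ^ (S.j a - 12 * S.q))
    (fun a => 2 ^ (S.j a - 9 * S.q)) (csth S) S.D D_pos
    (fun a ha hp => by
      refine ⟨Nat.one_le_two_pow, Nat.one_le_two_pow, ?_, ?_⟩
      · have e1 := h.cst_mul ha hp
        have e2 := hj a ha 12 (by norm_num)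
        have e3 : csth S a = S.cst a := by unfold csth; exact if_neg hp
        rw [e3]
        refine le_of_eq (Nat.eq_of_mul_eq_mul_right (pow_pos (Q_pos (S := S)) 12) ?_)
        rw [mul_assoc, e2, e1]
      · have e1 := hj a ha 12 (by norm_num)
        have e2 := hj a ha 9 (by norm_num)
        have e3 : 2 ^ (S.j a - 12 * S.q) * S.Q ^ 3 = 2 ^ (S.j a - 9 * S.q) := by
          refine Nat.eq_of_mul_eq_mul_right (pow_pos (Q_pos (S := S)) 9) ?_
          rw [mul_assoc, ← pow_add, e1, e2]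
        show 48 * S.n ^ 3 * 2 ^ (S.j a - 12 * S.q) ≤ 2 ^ (S.j a - 9 * S.q)
        rw [← e3, mul_comm]
        refine Nat.mul_le_mul_left _ ?_
        have := Nat.pow_le_pow_left h.nQ 3
        rw [mul_pow] at this
        omega)
    (fun a ha hp A hA A' hA' hs => by
      refine phi_bd h.n_pos h.nQ (by exact_mod_cast Nat.one_le_two_pow) ?_
      have e := hj a (by omega) 9 (by norm_num)
      have := h.fat1 a ha hp A hA A' hA' hs
      have e' : ((2 ^ (S.j a - 9 * S.q) : ℕ) : ℤ) * (S.Q : ℤ) ^ 9 = 2 ^ S.j a := by exact_mod_cast e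
      rw [e']; exact this)
    (fun a ha hp A hA A' hA' hs => by
      refine phi_bd h.n_pos h.nQ (by exact_mod_cast Nat.one_le_two_pow) ?_
      have e := hj (S.n + a) (by omega) 9 (by norm_num)
      have := h.fat2 a ha hp A hA A' hA' hs
      have e' : ((2 ^ (S.j (S.n + a) - 9 * S.q) : ℕ) : ℤ) * (S.Q : ℤ) ^ 9 = 2 ^ S.j (S.n + a) := by
        exact_mod_cast e
      rw [e']; exact this)
    ((Fintype.piFinset fun _ : Fin S.n => Icc (-R3 S) (R3 S)).image (emb S))
    (fun x hx i hi => by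
      obtain ⟨t, -, rfl⟩ := mem_image.1 hx
      rw [emb_apply, dif_neg (by omega)])
    (S.Q ^ 2) (card_image_le.trans (card_box h))
    (fun a _ hp => by unfold csth; exact (if_pos hp).ge)
  rw [sum_image fun _ _ _ _ e => hinj e] at this
  unfold W0
  simp only [zero_add]
  exact this

theorem dot_sub (m : ℕ) (u x y : Vec) : dot m u (x - y) = dot m u x - dot m u y := by
  simp only [dot, Pi.sub_apply, mul_sub, sum_sub_distrib]

theorem dot_sum {ι : Type} (m : ℕ) (u : Vec) (A : Finset ι) (t : ι → ℤ) (x : ι → Vec) :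
    dot m u (∑ i ∈ A, t i • x i) = ∑ i ∈ A, t i * dot m u (x i) := by
  simp only [dot, Finset.sum_apply, Pi.smul_apply, smul_eq_mul, mul_sum]
  rw [sum_comm]
  exact sum_congr rfl fun _ _ => sum_congr rfl fun _ _ => by ring

theorem dot_ev {m i : ℕ} (u : Vec) (hi : i < m) : dot m u (ev i) = u i := by
  simp only [dot, ev_apply, mul_ite, mul_one, mul_zero]
  rw [sum_ite_eq' (range m) i, if_pos (mem_range.2 hi)]

/-- the links of the ports to the chosen ports -/
theorem exists_link (h : S.OK) : ∃ (s : ℕ → ℕ → ℤ) (xa : ℕ → Vec), ∀ a < 2 * S.n,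
    ev a - av S (S.b.lab a) = ∑ c ∈ range (2 * S.n), s a c • bb S.p c + dg S.n (xa a) ∧
    (∀ c, |s a c| ≤ S.n + 2 ∧ (s a c ≠ 0 → S.p c ≠ c)) ∧ (∀ i, S.n ≤ i → xa a i = 0) ∧
      ∀ i, |xa a i| ≤ S.n := by
  have : ∀ a, ∃ (s : ℕ → ℤ) (xa : Vec), a < 2 * S.n →
      ev a - av S (S.b.lab a) = ∑ c ∈ range (2 * S.n), s c • bb S.p c + dg S.n xa ∧
      (∀ c, |s c| ≤ S.n + 2 ∧ (s c ≠ 0 → S.p c ≠ c)) ∧ (∀ i, S.n ≤ i → xa i = 0) ∧
        ∀ i, |xa i| ≤ S.n := fun a => by
    by_cases ha : a < 2 * S.n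
    · obtain ⟨a', h1, h2, h3⟩ := av_lab (S := S) ha
      obtain ⟨s, t, e, hs, ht⟩ := h.bas.link a ha a' h1 h2.symm
      refine ⟨s, ∑ i ∈ range S.b.nt, t i • ev (S.b.el i), fun _ => ⟨?_, hs, fun i hi => ?_,
        fun i => ?_⟩⟩
      · rw [h3, e, dg_sum]; simp only [dg_smul]
      · rw [Finset.sum_apply]
        refine sum_eq_zero fun k hk => ?_
        have := h.bas.el_lt k (mem_range.1 hk)
        rw [Pi.smul_apply, ev_apply, if_neg (by omega), smul_zero]
      · rw [Finset.sum_apply]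
        refine (abs_sum_le_sum_abs _ _).trans ((sum_le_card_nsmul _ _ 1 fun k _ => ?_).trans ?_)
        · rw [Pi.smul_apply, ev_apply, smul_eq_mul]
          split_ifs
          · simpa using ht k
          · simp
        · simpa using h.bas.nt_le
    · exact ⟨0, 0, fun h' => absurd h' ha⟩
  choose s xa hs using this
  exact ⟨s, xa, hs⟩

theorem sum_cst (h : S.OK) :
    ∑ c ∈ range (2 * S.n), (if S.p c = c then 0 else (S.cst c : ℤ)) * (S.n + 2) ≤ S.D := by
  have hQ := h.Q_ge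
  have h1 : ∀ c ∈ range (2 * S.n),
      (if S.p c = c then 0 else (S.cst c : ℤ)) * (S.n + 2) * S.Q ^ 138 ≤ S.D * (S.n + 2) := by
    intro c hc
    split_ifs with hp
    · rw [zero_mul, zero_mul]; positivity
    · have e := h.cst_mul (mem_range.1 hc) hp
      have e2 := h.two_j (mem_range.1 hc)
      have e3 : S.cst c * S.Q ^ 138 ≤ S.D := by
        refine Nat.le_of_mul_le_mul_right ?_ (pow_pos (Q_pos (S := S)) 12)
        rw [mul_assoc, ← pow_add, ← e]
        exact Nat.mul_le_mul_left _ e2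
      have e4 : (S.cst c : ℤ) * S.Q ^ 138 ≤ S.D := by exact_mod_cast e3
      nlinarith
  have h2 := sum_le_card_nsmul _ _ _ h1
  rw [← sum_mul, card_range, nsmul_eq_mul] at h2
  have h3 : (2 * S.n) * (S.n + 2) ≤ S.Q ^ 138 := by
    have h4 := h.nQ
    calc (2 * S.n) * (S.n + 2) ≤ S.Q * S.Q := Nat.mul_le_mul (by omega) (by omega)
      _ = S.Q ^ 2 := (sq _).symm
      _ ≤ S.Q ^ 138 := Nat.pow_le_pow_right Q_pos (by norm_num)
  have h4 : ((2 * S.n : ℕ) : ℤ) * (S.n + 2) ≤ (S.Q : ℤ) ^ 138 := by exact_mod_cast h3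
  have hQ' : (0 : ℤ) < (S.Q : ℤ) ^ 138 := pow_pos (by exact_mod_cast Q_pos) _
  refine le_of_mul_le_mul_right (h2.trans ?_) hQ'
  have : (0 : ℤ) ≤ S.D := Int.natCast_nonneg _
  nlinarith

/-- the defects of the labels -/
def uu' (S : Mod) (η : ℕ → ℤ) (c : ℕ) : ℤ :=
  -∑ a ∈ (range (2 * S.n)).filter (fun a => S.b.lab a = c), η a

theorem sum_lab {M : Type} [AddCommMonoid M] (h : S.OK) (f : ℕ → M) :
    ∑ c ∈ range (2 * S.n), ∑ a ∈ (range (2 * S.n)).filter (fun a => S.b.lab a = c), f a =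
      ∑ a ∈ range (2 * S.n), f a :=
  sum_fiberwise_of_maps_to (fun a ha => mem_range.2 (h.bas.lab_lt a (mem_range.1 ha))) f

theorem sum_uu (h : S.OK) (η : ℕ → ℤ) {M : Type} [AddCommGroup M] (v : ℕ → M) :
    ∑ c ∈ range (2 * S.n), uu' S η c • v c = -∑ a ∈ range (2 * S.n), η a • v (S.b.lab a) := by
  rw [← sum_lab h fun a => η a • v (S.b.lab a), ← sum_neg_distrib]
  refine sum_congr rfl fun c _ => ?_
  unfold uu'
  rw [neg_smul, sum_smul]
  congr 1
  exact sum_congr rfl fun a ha => by rw [(mem_filter.1 ha).2]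

theorem sum_abs_uu (h : S.OK) (η : ℕ → ℤ) :
    ∑ c ∈ range (2 * S.n), (uu' S η c).natAbs ≤ ∑ a ∈ range (2 * S.n), (η a).natAbs := by
  rw [← sum_lab h fun a => (η a).natAbs]
  refine sum_le_sum fun c _ => ?_
  unfold uu'
  rw [Int.natAbs_neg]
  exact Int.natAbs_sum_le _ _

theorem energy (h : S.OK) {s : ℕ → ℕ → ℤ} {xa : ℕ → Vec} (hl : ∀ a < 2 * S.n,
    ev a - av S (S.b.lab a) = ∑ c ∈ range (2 * S.n), s a c • bb S.p c + dg S.n (xa a) ∧
    (∀ c, |s a c| ≤ S.n + 2 ∧ (s a c ≠ 0 → S.p c ≠ c))) (ζ : ℕ → ℤ) (x : Vec) :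
    ∃ η : ℕ → ℤ, (∀ a < 2 * S.n, |η a| ≤ |S.X a (dg S.n x)| + 2 * 2 ^ (S.B + 1)) ∧
      nh S (∑ c ∈ range (2 * S.n), uu' S η c • av S c +
        dg S.n (x - ∑ a ∈ range (2 * S.n), η a • xa a)) +
        (2 * S.q - 1) * S.D * ∑ a ∈ range (2 * S.n), |η a| -
        ∑ c ∈ range (2 * S.n), uu' S η c * ζ c ≤ S.nz ζ (dg S.n x) := by
  obtain ⟨b, hb, e⟩ := exists_nu_eq (p := S.p) (cst := S.cst) (ζ := fun a => ζ (S.b.lab a))
    h.submod h.F_empty (dg S.n x)
  generalize hz : dg S.n x - b = z at e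
  have hzs : ∀ i, 2 * S.n ≤ i → z i = 0 := fun i hi => by
    rw [← hz, Pi.sub_apply, hb.1 i hi]
    unfold dg; rw [if_neg (by omega), if_neg (by omega)]; rfl
  refine ⟨fun a => if S.p a = a then S.X a z else 0, fun a _ => ?_, ?_⟩
  · have h1 : |S.X a b| ≤ 2 * 2 ^ (S.B + 1) :=
      Bs_bound (fun A _ => h.F_bd.le) hb (filter_subset _ _)
    beta_reduce
    split_ifs
    · rw [← hz, X_sub]
      exact (abs_sub _ _).trans (by linarith)
    · rw [abs_zero]; positivity
  generalize hη : (fun a => if S.p a = a then S.X a z else 0) = η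
  have hη' : ∀ a, η a = if S.p a = a then S.X a z else 0 := fun a => by rw [← hη]
  -- the field term
  have hdot : -dot (2 * S.n) (fun a => ζ (S.b.lab a)) b =
      -∑ c ∈ range (2 * S.n), uu' S η c * ζ c := by
    have e1 : b = dg S.n x - z := by rw [← hz]; abel
    have e2 := sum_uu h η ζ
    simp only [smul_eq_mul] at e2
    rw [e1, dot_sub, h.dot_dg, e2, h.fo.expand hzs, dot_sum, zero_sub, neg_neg, neg_neg]
    refine sum_congr rfl fun a ha => ?_
    have ha := mem_range.1 ha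
    rw [hη']
    unfold bb
    split_ifs with hp
    · rw [sub_zero, dot_ev _ ha]; rfl
    · rw [dot_sub, dot_ev _ ha, dot_ev _ ((h.fo a).trans_lt ha), h.bas.lab_p a ha, sub_self,
        mul_zero, zero_mul]
  -- the displaced point
  have hY : ∑ c ∈ range (2 * S.n), uu' S η c • av S c +
      dg S.n (x - ∑ a ∈ range (2 * S.n), η a • xa a) - b =
      z - ∑ a ∈ range (2 * S.n), η a • bb S.p a +
        ∑ a ∈ range (2 * S.n), η a • ∑ c ∈ range (2 * S.n), s a c • bb S.p c := by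
    rw [sum_uu h η (av S), dg_sub, dg_sum, ← hz]
    have : ∑ a ∈ range (2 * S.n), η a • bb S.p a = ∑ a ∈ range (2 * S.n), (η a • av S (S.b.lab a) +
        η a • ∑ c ∈ range (2 * S.n), s a c • bb S.p c + dg S.n (η a • xa a)) := by
      refine sum_congr rfl fun a ha => ?_
      rw [dg_smul, ← smul_add, ← smul_add, add_assoc, ← (hl a (mem_range.1 ha)).1, add_sub_cancel,
        hη']
      unfold bb
      split_ifs
      · rw [sub_zero]
      · rw [zero_smul, zero_smul]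
    rw [this, sum_add_distrib, sum_add_distrib]
    abel
  have hX : ∀ c < 2 * S.n, ∀ t : ℕ → ℤ, S.X c (∑ a ∈ range (2 * S.n), t a • bb S.p a) = t c := by
    intro c hc t
    rw [X_sum, sum_eq_single c]
    · rw [X_smul, h.X_bb hc, if_pos rfl, mul_one]
    · intro a ha hne
      rw [X_smul, h.X_bb (mem_range.1 ha), if_neg (Ne.symm hne), mul_zero]
    · intro hn; exact absurd (mem_range.2 hc) hn
  have h1 := nu_le (p := S.p) (cst := csth S) (ζ := 0) hb (∑ c ∈ range (2 * S.n),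
    uu' S η c • av S c + dg S.n (x - ∑ a ∈ range (2 * S.n), η a • xa a))
  rw [dot_zero, neg_zero, zero_add, hY] at h1
  generalize hH : ∑ a ∈ range (2 * S.n), |η a| = H
  have hH0 : 0 ≤ H := hH ▸ sum_nonneg fun _ _ => abs_nonneg _
  have h2 : cost (2 * S.n) S.p (csth S) (z - ∑ a ∈ range (2 * S.n), η a • bb S.p a +
      ∑ a ∈ range (2 * S.n), η a • ∑ c ∈ range (2 * S.n), s a c • bb S.p c) ≤
      ∑ c ∈ range (2 * S.n), ((if S.p c = c then 0 else (S.cst c : ℤ)) * |S.X c z| +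
        (if S.p c = c then 0 else (S.cst c : ℤ)) * (S.n + 2) * H) := by
    refine sum_le_sum fun c hc => ?_
    have hc := mem_range.1 hc
    have e1 : sm (sub (2 * S.n) S.p c) (z - ∑ a ∈ range (2 * S.n), η a • bb S.p a +
        ∑ a ∈ range (2 * S.n), η a • ∑ c ∈ range (2 * S.n), s a c • bb S.p c) =
        S.X c z - η c + ∑ a ∈ range (2 * S.n), η a * s a c := by
      show S.X c _ = _
      rw [X_add, X_sub, hX c hc, X_sum]
      congr 1
      exact sum_congr rfl fun a _ => by rw [X_smul, hX c hc]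
    rw [e1]
    by_cases hp : S.p c = c
    · have e2 : ∑ a ∈ range (2 * S.n), η a * s a c = 0 := sum_eq_zero fun a ha => by
        have := ((hl a (mem_range.1 ha)).2 c).2
        have e0 : s a c = 0 := by by_contra h0; exact this h0 hp
        rw [e0, mul_zero]
      rw [e2, hη' c, if_pos hp, if_pos hp]
      simp
    · have e2 : |∑ a ∈ range (2 * S.n), η a * s a c| ≤ (S.n + 2) * H := by
        rw [← hH, mul_sum]
        refine (abs_sum_le_sum_abs _ _).trans (sum_le_sum fun a ha => ?_)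
        rw [abs_mul, mul_comm]
        exact mul_le_mul_of_nonneg_right ((hl a (mem_range.1 ha)).2 c).1 (abs_nonneg _)
      have e3 : csth S c = S.cst c := by unfold csth; exact if_neg hp
      rw [hη' c, if_neg hp, if_neg hp, sub_zero, e3, mul_assoc, ← mul_add]
      exact mul_le_mul_of_nonneg_left ((abs_add_le _ _).trans (by linarith)) (Int.natCast_nonneg _)
  have h3 : cost (2 * S.n) S.p S.cst z = 2 * S.q * S.D * H +
      ∑ c ∈ range (2 * S.n), (if S.p c = c then 0 else (S.cst c : ℤ)) * |S.X c z| := by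
    rw [← hH, mul_sum, ← sum_add_distrib]
    refine sum_congr rfl fun c _ => ?_
    rw [hη' c]
    split_ifs with hp
    · rw [cst_root hp]; push_cast; rw [zero_mul, add_zero]; rfl
    · rw [abs_zero, mul_zero, zero_add]; rfl
  rw [sum_add_distrib, ← sum_mul] at h2
  have h4 := mul_le_mul_of_nonneg_right (sum_cst h) hH0
  unfold nz nh
  rw [e, hdot, h3]
  linarith

theorem weight {ν νh : ℤ} {η u ξ : ℕ → ℤ}
    (hu : ∑ c ∈ range (2 * S.n), (u c).natAbs ≤ ∑ a ∈ range (2 * S.n), (η a).natAbs)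
    (he : νh + (2 * S.q - 1) * S.D * ∑ a ∈ range (2 * S.n), |η a| -
      ∑ c ∈ range (2 * S.n), u c * (S.D * ξ c) ≤ ν) :
    (2 : ℝ) ^ (-(ν : ℝ) / S.D) ≤
      (∏ a : Fin (2 * S.n), (2 / (S.Q : ℝ)) ^ (η a).natAbs) *
        ((∏ c : Fin (2 * S.n), (2 : ℝ) ^ (ξ c * u c) * (1 / (S.Q : ℝ)) ^ (u c).natAbs) *
          (2 : ℝ) ^ (-(νh : ℝ) / S.D)) := by
  have hD : (0 : ℝ) < S.D := by exact_mod_cast D_pos
  have hQ : (1 : ℝ) ≤ S.Q := by exact_mod_cast Q_pos
  rw [prod_mul_distrib, prod_pow_eq_pow_sum, prod_pow_eq_pow_sum,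
    Fin.sum_univ_eq_sum_range (fun a => (η a).natAbs), Fin.sum_univ_eq_sum_range fun a => (u a).natAbs]
  have e0 : ∑ a ∈ range (2 * S.n), |η a| = ((∑ a ∈ range (2 * S.n), (η a).natAbs : ℕ) : ℤ) := by
    push_cast; rfl
  rw [e0] at he
  generalize ∑ a ∈ range (2 * S.n), (η a).natAbs = H at *
  generalize ∑ a ∈ range (2 * S.n), (u a).natAbs = U at *
  have e1 : ∏ c : Fin (2 * S.n), (2 : ℝ) ^ (ξ c * u c) =
      (2 : ℝ) ^ ((∑ c ∈ range (2 * S.n), ξ c * u c : ℤ) : ℝ) := by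
    rw [Real.rpow_intCast, ← Fin.sum_univ_eq_sum_range fun c => ξ c * u c]
    induction (univ : Finset (Fin (2 * S.n))) using Finset.induction_on with
    | empty => simp
    | insert a A ha ih => rw [prod_insert ha, sum_insert ha, ih, zpow_add₀ two_ne_zero]
  have e2 : ∑ c ∈ range (2 * S.n), u c * (S.D * ξ c) = S.D * ∑ c ∈ range (2 * S.n), ξ c * u c := by
    rw [mul_sum]; exact sum_congr rfl fun _ _ => by ring
  rw [e2] at he
  rw [e1]
  generalize ∑ c ∈ range (2 * S.n), ξ c * u c = Ξ at *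
  have e3 : (1 / (S.Q : ℝ)) ^ H ≤ (1 / (S.Q : ℝ)) ^ U :=
    pow_le_pow_of_le_one (by positivity) ((div_le_one (by linarith)).2 hQ) hu
  have e4 : (2 / (S.Q : ℝ)) ^ H * (1 / (S.Q : ℝ)) ^ H = (2 : ℝ) ^ (-((2 * S.q - 1 : ℝ) * H)) := by
    rw [← mul_pow, ← neg_mul, Real.rpow_mul (by norm_num), Real.rpow_natCast]
    congr 1
    rw [neg_sub, Real.rpow_sub (by norm_num), Real.rpow_one, mul_comm (2 : ℝ) (S.q : ℝ),
      Real.rpow_mul (by norm_num), Real.rpow_natCast, Real.rpow_two]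
    unfold Q; push_cast; field_simp
  calc (2 : ℝ) ^ (-(ν : ℝ) / S.D)
      ≤ (2 : ℝ) ^ (-((2 * S.q - 1 : ℝ) * H) + (Ξ + -(νh : ℝ) / S.D)) := by
        refine Real.rpow_le_rpow_of_exponent_le (by norm_num) ?_
        have : (νh : ℝ) + (2 * S.q - 1) * S.D * H - S.D * Ξ ≤ ν := by exact_mod_cast he
        rw [div_le_iff₀ hD, add_mul, add_mul, div_mul_cancel₀ _ hD.ne']
        linarith
    _ = (2 / (S.Q : ℝ)) ^ H * ((2 : ℝ) ^ (Ξ : ℝ) * (1 / (S.Q : ℝ)) ^ H *
          (2 : ℝ) ^ (-(νh : ℝ) / S.D)) := by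
        rw [Real.rpow_add (by norm_num), Real.rpow_add (by norm_num), ← e4]; ring
    _ ≤ _ := by gcongr

end HardAX

open HardAX _root_.Crest.Agent.R302.Mod in
theorem Mod.OK.exists_xi {S : Mod} (h : S.OK) : ∃ ξ : ℕ → ℤ, (∀ p, (ξ p).natAbs ≤ S.Q ^ 4) ∧
    ∀ p < 2 * S.n, ∀ s : ℤ, s = 1 ∨ s = -1 → ∀ A : Finset Vec,
      (∀ x ∈ A, (∀ i, S.n ≤ i → x i = 0) ∧ ∀ i, |x i| ≤ 2 ^ (2 * S.Q)) →
      ∑ x ∈ A, (2 : ℝ) ^ (-(S.nz (fun c => S.D * ξ c + if c = p then s * S.D else 0)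
        (dg S.n x) : ℝ) / S.D) ≤ 32 * S.N := by
  classical
  have hQ := h.Q_ge
  have hnQ := h.nQ
  have hQr : (4096 : ℝ) ≤ S.Q := by exact_mod_cast hQ
  have hnQr : 2048 * (S.n : ℝ) ≤ S.Q := by exact_mod_cast hnQ
  have hQ0 : (0 : ℝ) < S.Q := by linarith
  generalize hT : (2 : ℤ) ^ (2 * S.Q) = T0
  have hT0 : 1 ≤ T0 := hT ▸ one_le_pow₀ (by norm_num)
  have hTh : (0 : ℤ) ≤ S.Q * (S.Q * T0) := by positivity
  have hw0 : wu S 0 = W0 S 0 := by simp [wu]
  obtain ⟨ξ, hξ, hZ⟩ := exists_fields (r := 2 * S.n) hTh (lam := 1 / (S.Q : ℝ)) (by positivity)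
    (by rw [mul_one_div, div_le_one hQ0]; push_cast; linarith) (w := wu S) (fun u => W0_pos _)
    (hlc h hTh (by positivity) ((div_le_one hQ0).2 (by linarith))) (B := S.Q ^ 2 + 1) (by
      have h1 := geo_box (r := 2 * S.n) (ρ := 1 / (S.Q : ℝ)) (by positivity)
        (by rw [div_le_div_iff₀ hQ0 (by norm_num)]; linarith)
        (by rw [mul_one_div, div_le_one hQ0]; push_cast; linarith) (S.Q * (S.Q * T0))
      have h2 := one_le_W0 h
      rw [hw0]
      calc Zh (2 * S.n) (S.Q * (S.Q * T0)) (1 / (S.Q : ℝ)) (wu S) 0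
          ≤ ∑ u ∈ Fintype.piFinset (fun _ : Fin (2 * S.n) =>
            Icc (-(S.Q * (S.Q * T0) : ℤ)) (S.Q * (S.Q * T0))),
              (∏ i, (1 / (S.Q : ℝ)) ^ (u i).natAbs) * 2 ^ (S.Q ^ 2) := by
            refine sum_le_sum fun u _ => ?_
            simp only [Pi.zero_apply, zero_mul, zpow_zero, one_mul]
            exact mul_le_mul_of_nonneg_left (W0_le h _) (prod_nonneg fun _ _ => by positivity)
        _ ≤ 2 * 2 ^ (S.Q ^ 2) := by
            rw [← sum_mul]; exact mul_le_mul_of_nonneg_right h1 (by positivity)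
        _ ≤ 2 ^ (S.Q ^ 2 + 1) * W0 S 0 := by
            rw [pow_succ, mul_comm]
            exact le_mul_of_one_le_right (by positivity) h2)
  refine ⟨ξ, fun p => (hξ p).trans ?_, fun p hp s hs A hA => ?_⟩
  · calc 32 * (2 * S.n) * (S.Q ^ 2 + 1) ≤ S.Q * (S.Q ^ 2 * S.Q) :=
          Nat.mul_le_mul (by omega) (by nlinarith [Nat.one_le_pow 2 _ (Q_pos (S := S))])
      _ = S.Q ^ 4 := by ring
  have hZ := hZ p hp s hs
  generalize hξ' : (fun q => ξ q + if q = p then s else 0) = ξ' at hZ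
  have hζ : (fun c => (S.D : ℤ) * ξ c + if c = p then s * S.D else 0) = fun c => S.D * ξ' c := by
    funext c; rw [← hξ']; simp only; split_ifs <;> ring
  rw [hζ]
  obtain ⟨sl, xa, hl⟩ := exists_link h
  choose η hη hE using energy h (fun a ha => ⟨(hl a ha).1, (hl a ha).2.1⟩) fun c => S.D * ξ' c
  have hQz : (4096 : ℤ) ≤ S.Q := by exact_mod_cast hQ
  have hnQz : 2048 * (S.n : ℤ) ≤ S.Q := by exact_mod_cast hnQ
  have hn0 : (0 : ℤ) ≤ S.n := Int.natCast_nonneg _
  have hηb : ∀ x ∈ A, ∀ a < 2 * S.n, |η x a| ≤ S.Q * T0 := fun x hx a ha => by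
    have h1 : |S.X a (dg S.n x)| ≤ (2 * S.n : ℕ) * T0 := by
      unfold X sm
      refine (abs_sum_le_sum_abs _ _).trans ((sum_le_card_nsmul _ _ T0 fun i _ => ?_).trans ?_)
      · unfold dg
        split_ifs
        · exact (hA x hx).2 i
        · rw [abs_neg]; exact (hA x hx).2 _
        · rw [abs_zero]; linarith
      · rw [nsmul_eq_mul]
        refine mul_le_mul_of_nonneg_right ?_ (by linarith)
        exact_mod_cast (card_filter_le _ _).trans (card_range _).le
    have h2 : (2 : ℤ) ^ (S.B + 1) ≤ T0 :=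
      hT ▸ pow_le_pow_right₀ (by norm_num) (by have := h.BQ'; omega)
    have h3 := hη x a ha
    push_cast at h1
    nlinarith
  have hsum := sum_le_of_inj A
    ((Fintype.piFinset fun _ : Fin (2 * S.n) => Icc (-(S.Q * T0 : ℤ)) (S.Q * T0)) ×ˢ
      Fintype.piFinset fun _ : Fin S.n => Icc (-R3 S) (R3 S))
    (fun x => (fun a : Fin (2 * S.n) => η x a,
      fun i : Fin S.n => (x - ∑ a ∈ range (2 * S.n), η x a • xa a) i))
    (fun x => (2 : ℝ) ^ (-(S.nz (fun c => S.D * ξ' c) (dg S.n x) : ℝ) / S.D))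
    (fun z => (∏ a : Fin (2 * S.n), (2 / (S.Q : ℝ)) ^ (z.1 a).natAbs) *
      ((∏ c : Fin (2 * S.n),
        (2 : ℝ) ^ (ξ' c * uu' S (fun a => if ha : a < 2 * S.n then z.1 ⟨a, ha⟩ else 0) c) *
        (1 / (S.Q : ℝ)) ^ (uu' S (fun a => if ha : a < 2 * S.n then z.1 ⟨a, ha⟩ else 0) c).natAbs) *
        ch S (∑ c : Fin (2 * S.n),
          uu' S (fun a => if ha : a < 2 * S.n then z.1 ⟨a, ha⟩ else 0) c • av S c +
            dg S.n (emb S z.2))))
    (fun z => mul_nonneg (prod_nonneg fun _ _ => by positivity)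
      (mul_nonneg (prod_nonneg fun _ _ => by positivity) (ch_pos _).le))
    (fun x hx => by
      refine mem_product.2 ⟨Fintype.mem_piFinset.2 fun a => mem_Icc.2 (abs_le.1 (hηb x hx a a.2)),
        Fintype.mem_piFinset.2 fun i => mem_Icc.2 (abs_le.1 ?_)⟩
      have h1 : |(∑ a ∈ range (2 * S.n), η x a • xa a) i| ≤ (2 * S.n : ℕ) * (S.Q * T0 * S.n) := by
        rw [Finset.sum_apply]
        refine (abs_sum_le_sum_abs _ _).trans ((sum_le_card_nsmul _ _ (S.Q * T0 * S.n)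
          fun a ha => ?_).trans (by rw [card_range, nsmul_eq_mul]))
        rw [Pi.smul_apply, smul_eq_mul, abs_mul]
        exact mul_le_mul (hηb x hx a (mem_range.1 ha)) ((hl a (mem_range.1 ha)).2.2.2 i)
          (abs_nonneg _) (by positivity)
      have h2 := (hA x hx).2 i
      have h3 : (S.Q : ℤ) ^ 3 * T0 ≤ R3 S := by
        have e : (S.Q : ℤ) ^ 3 = 2 ^ (S.q * 3) := by unfold Q; push_cast; rw [← pow_mul]
        rw [← hT, e, ← pow_add]
        exact pow_le_pow_right₀ (by norm_num) (by have := h.qQ'; omega)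
      have h4 : 2 * (S.n : ℤ) * S.n * S.Q + 1 ≤ (S.Q : ℤ) ^ 3 := by
        have : 2 * (S.n : ℤ) * S.n + 1 ≤ S.Q * S.Q := by nlinarith
        nlinarith
      have h5 := mul_le_mul_of_nonneg_right h4 (show 0 ≤ T0 by linarith)
      show |x i - (∑ a ∈ range (2 * S.n), η x a • xa a) i| ≤ R3 S
      refine (abs_sub _ _).trans ?_
      push_cast at h1
      nlinarith)
    (fun x hx y hy e => by
      have e1 : ∀ a ∈ range (2 * S.n), η x a • xa a = η y a • xa a := fun a ha => by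
        have := congrFun (congrArg Prod.fst e) ⟨a, mem_range.1 ha⟩
        simp only at this
        rw [this]
      funext i
      by_cases hi : i < S.n
      · have := congrFun (congrArg Prod.snd e) ⟨i, hi⟩
        simp only [sum_congr rfl e1, Pi.sub_apply] at this
        linarith
      · rw [(hA x hx).1 i (by omega), (hA y hy).1 i (by omega)])
    (fun x hx => by
      have e1 : uu' S (fun a => if ha : a < 2 * S.n then η x a else 0) = uu' S (η x) := by
        funext c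
        unfold uu'
        congr 1
        exact sum_congr rfl fun a ha => dif_pos (mem_range.1 (mem_filter.1 ha).1)
      have e2 : emb S (fun i : Fin S.n => (x - ∑ a ∈ range (2 * S.n), η x a • xa a) i) =
          x - ∑ a ∈ range (2 * S.n), η x a • xa a := emb_res fun i hi => by
        rw [Pi.sub_apply, (hA x hx).1 i hi, Finset.sum_apply, sum_eq_zero, sub_zero]
        intro a ha
        rw [Pi.smul_apply, (hl a (mem_range.1 ha)).2.2.1 i hi, smul_zero]
      simp only [e1, e2]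
      rw [Fin.sum_univ_eq_sum_range fun c => uu' S (η x) c • av S c]
      exact weight (sum_abs_uu h (η x)) (hE x))
  refine hsum.trans ?_
  rw [sum_product]
  have h1 := geo_box (r := 2 * S.n) (ρ := 2 / (S.Q : ℝ)) (by positivity)
    (by rw [div_le_div_iff₀ hQ0 (by norm_num)]; linarith)
    (by rw [mul_div_assoc', div_le_one hQ0]; push_cast; linarith) (S.Q * T0)
  have h2 := W0_zero_le h
  rw [hw0] at hZ
  refine le_trans (sum_le_sum (g := fun η' => (∏ a : Fin (2 * S.n), (2 / (S.Q : ℝ)) ^ (η' a).natAbs) *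
    (2 * W0 S 0)) fun η' hη' => ?_) ?_
  · simp only
    rw [← mul_sum, ← mul_sum]
    refine mul_le_mul_of_nonneg_left (le_trans ?_ hZ) (prod_nonneg fun _ _ => by positivity)
    have hm : (fun c : Fin (2 * S.n) =>
        uu' S (fun a => if ha : a < 2 * S.n then η' ⟨a, ha⟩ else 0) c) ∈
        Fintype.piFinset fun _ : Fin (2 * S.n) =>
          Icc (-(S.Q * (S.Q * T0) : ℤ)) (S.Q * (S.Q * T0)) := by
      refine Fintype.mem_piFinset.2 fun c => mem_Icc.2 (abs_le.1 ?_)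
      unfold uu'
      rw [abs_neg]
      refine (abs_sum_le_sum_abs _ _).trans ((sum_le_card_nsmul _ _ (S.Q * T0)
        fun a ha => ?_).trans ?_)
      · rw [dif_pos (mem_range.1 (mem_filter.1 ha).1)]
        exact abs_le.2 (mem_Icc.1 (Fintype.mem_piFinset.1 hη' _))
      · rw [nsmul_eq_mul]
        refine mul_le_mul_of_nonneg_right ?_ (by positivity)
        exact_mod_cast ((card_filter_le _ _).trans (card_range _).le).trans (by omega)
    exact single_le_sum (f := fun u : Fin (2 * S.n) → ℤ => (∏ i : Fin (2 * S.n),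
      (2 : ℝ) ^ (ξ' i * u i) * (1 / (S.Q : ℝ)) ^ (u i).natAbs) * wu S u)
      (fun u _ => mul_nonneg (prod_nonneg fun _ _ => by positivity) (W0_pos _).le) hm
  · rw [← sum_mul]
    have := W0_pos (S := S) 0
    nlinarith

end Crest.Agent.R302
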