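import Crest.Agent.R302.Reg
import Crest.Agent.R302.HardA

/-! Row 302: the accepted mass and the partition function. -/

set_option autoImplicit false

namespace Crest.Agent.R302

open Crest.Agent.PT Crest.Agent.R309 Finset

namespace MassX

variable {S : Mod}

/-- the offset vector -/
def ov (S : Mod) (o : ℕ → ℕ) : Vec := ∑ e ∈ range S.b.nf, (o e : ℤ) • S.b.z S.n e

theorem y_add_ov (k : List ℕ) (o : ℕ → ℕ) : S.y k + ov S o =
    S.b.pt S.n (fun e => S.g0 e + S.tau e * k.getD e 0 + o e)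
      fun i => S.th0 i - S.T + k.getD (S.b.nf + i) 0 := by
  unfold Mod.y ov Bas.pt
  simp only [add_smul (S.g0 _ + _), sum_add_distrib]
  abel

theorem card_bx_le' (E : ℕ) (hi : List ℕ) (m : ℕ) (h : ∀ e < E, hi.getD e 0 + 1 ≤ m) :
    (bx E [] hi).card ≤ m ^ E := by
  unfold bx
  refine card_image_le.trans ?_
  rw [Fintype.card_piFinset]
  refine (prod_le_pow_card _ _ m fun i _ => ?_).trans (by simp)
  have := h i i.2
  simp only [Nat.card_Icc, List.getD_nil]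
  omega

theorem inj (h : S.OK) {k k' : List ℕ} (hk : k ∈ bx S.E [] S.rho) (hk' : k' ∈ bx S.E [] S.rho)
    {o o' : ℕ → ℕ} (ho : ∀ e < S.b.nf, o e < S.tau e) (ho' : ∀ e < S.b.nf, o' e < S.tau e)
    (e : S.y k + ov S o = S.y k' + ov S o') : k = k' ∧ ∀ e < S.b.nf, o e = o' e := by
  rw [y_add_ov, y_add_ov] at e
  have hf : ∀ i < S.b.nf, k.getD i 0 = k'.getD i 0 ∧ o i = o' i := by
    intro i hi
    have h1 := h.bas.uniqf (fun e => S.g0 e + S.tau e * k.getD e 0 + o e)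
      (fun i => S.th0 i - S.T + k.getD (S.b.nf + i) 0) i hi
    rw [e, h.bas.uniqf _ _ i hi] at h1
    have h2 : S.tau i * k'.getD i 0 + o' i = S.tau i * k.getD i 0 + o i := by
      have : (S.tau i : ℤ) * k'.getD i 0 + o' i = S.tau i * k.getD i 0 + o i := by linarith
      exact_mod_cast this
    have h3 := ho i hi
    have h4 := ho' i hi
    have h5 : k.getD i 0 = k'.getD i 0 := by
      have a1 : (S.tau i * k'.getD i 0 + o' i) / S.tau i = k'.getD i 0 := by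
        rw [Nat.mul_add_div (Mod.tau_pos i), Nat.div_eq_of_lt h4, Nat.add_zero]
      have a2 : (S.tau i * k.getD i 0 + o i) / S.tau i = k.getD i 0 := by
        rw [Nat.mul_add_div (Mod.tau_pos i), Nat.div_eq_of_lt h3, Nat.add_zero]
      rw [← a1, ← a2, h2]
    rw [h5] at h2
    exact ⟨h5, by omega⟩
  have ht : ∀ i < S.b.nt, k.getD (S.b.nf + i) 0 = k'.getD (S.b.nf + i) 0 := by
    intro i hi
    have h1 := h.bas.uniqt (fun e => S.g0 e + S.tau e * k.getD e 0 + o e)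
      (fun i => S.th0 i - S.T + k.getD (S.b.nf + i) 0) i hi
    rw [e, h.bas.uniqt _ _ i hi] at h1
    have : (k.getD (S.b.nf + i) 0 : ℤ) = k'.getD (S.b.nf + i) 0 := by linarith
    exact_mod_cast this
  refine ⟨?_, fun e he => (hf e he).2⟩
  have l1 := (mem_bx.1 hk).1
  have l2 := (mem_bx.1 hk').1
  refine List.ext_getElem (l1.trans l2.symm) fun i h1 h2 => ?_
  have : k.getD i 0 = k'.getD i 0 := by
    rcases Nat.lt_or_ge i S.b.nf with hi | hi
    · exact (hf i hi).1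
    · obtain ⟨j, rfl⟩ := Nat.exists_eq_add_of_le hi
      exact ht j (by unfold Mod.E at l1; omega)
  rwa [List.getD_eq_getElem _ _ h1, List.getD_eq_getElem _ _ h2] at this

theorem surj (h : S.OK) {x : Vec} (hx : x ∈ PS S.n S.f1 S.f2) :
    ∃ k ∈ bx S.E [] S.rho, ∃ o : ℕ → ℕ, (∀ e < S.b.nf, o e < S.tau e) ∧ S.y k + ov S o = x := by
  obtain ⟨γ, θ, rfl, h1, h2⟩ := h.coord_PS hx
  have hQ : (4096 : ℤ) ≤ S.Q := by exact_mod_cast h.Q_ge
  have hn : 2048 * (S.n : ℤ) ≤ S.Q := by exact_mod_cast h.nQ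
  have hn0 : (0 : ℤ) ≤ S.n := Int.natCast_nonneg _
  have hnQ : (S.n : ℤ) ≤ S.Q := by linarith
  have hf : ∀ e < S.b.nf, 0 ≤ γ e - S.g0 e ∧ γ e - S.g0 e ≤ S.tau e * S.M := by
    intro e he
    have a1 := abs_le.1 (h1 e he)
    have a2 := h.g0_eq e
    have a3 : (S.tau e : ℤ) * S.M = S.Q ^ 6 * 2 ^ S.b.je e := by
      have := h.tau_mul he
      have : (S.tau e : ℤ) * S.Q ^ 138 = 2 ^ S.b.je e := by exact_mod_cast this
      rw [← this, Mod.M_eq]; push_cast; ring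
    have a4 : 16 * (S.n : ℤ) ^ 5 ≤ S.Q ^ 6 := by
      have : (S.n : ℤ) ^ 5 ≤ S.Q ^ 5 := pow_le_pow_left₀ hn0 hnQ 5
      have h5 : (0 : ℤ) ≤ S.Q ^ 5 := by positivity
      nlinarith
    have a5 : 16 * (S.n : ℤ) ^ 5 * 2 ^ S.b.je e ≤ S.Q ^ 6 * 2 ^ S.b.je e :=
      mul_le_mul_of_nonneg_right a4 (by positivity)
    constructor <;> linarith [a1.1, a1.2]
  have ht : ∀ i < S.b.nt, 0 ≤ θ i - S.th0 i + S.T ∧ θ i - S.th0 i + S.T ≤ 2 * S.T := by
    intro i hi
    have a1 := abs_le.1 (h2 i hi)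
    have a2 : (2 : ℤ) ^ S.g = S.Q ^ 150 := by exact_mod_cast Mod.two_g (S := S)
    have a3 : (S.T : ℤ) = S.Q ^ 311 := by exact_mod_cast Mod.T_eq (S := S)
    have a4 : 8 * (S.n : ℤ) ^ 4 * 2 ^ S.g ≤ S.T := by
      rw [a2, a3]
      have b1 : (S.n : ℤ) ^ 4 ≤ S.Q ^ 4 := pow_le_pow_left₀ hn0 hnQ 4
      have b2 : (S.Q : ℤ) ^ 155 ≤ S.Q ^ 311 := pow_le_pow_right₀ (by linarith) (by norm_num)
      calc 8 * (S.n : ℤ) ^ 4 * (S.Q : ℤ) ^ 150
          ≤ (S.Q : ℤ) * (S.Q : ℤ) ^ 4 * (S.Q : ℤ) ^ 150 := by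
            gcongr; linarith
        _ = (S.Q : ℤ) ^ 155 := by ring
        _ ≤ _ := b2
    constructor <;> linarith [a1.1, a1.2]
  let kf : ℕ → ℕ := fun i => if i < S.b.nf then (γ i - S.g0 i).toNat / S.tau i
    else (θ (i - S.b.nf) - S.th0 (i - S.b.nf) + S.T).toNat
  have hget : ∀ i < S.E, ((List.range S.E).map kf).getD i 0 = kf i := by
    intro i hi
    rw [List.getD_eq_getElem _ _ (by simpa using hi)]
    simp
  refine ⟨(List.range S.E).map kf, mem_bx.2 ⟨by simp, fun i hi => ⟨by simp, ?_⟩⟩,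
    fun e => (γ e - S.g0 e).toNat % S.tau e, fun e _ => Nat.mod_lt _ (Mod.tau_pos e), ?_⟩
  · rw [hget i hi]
    rcases Nat.lt_or_ge i S.b.nf with h3 | h3
    · rw [Mod.rho_getD_f h3]
      simp only [kf, if_pos h3]
      refine Nat.div_le_of_le_mul ?_
      have := hf i h3
      have : ((γ i - S.g0 i).toNat : ℤ) ≤ (S.tau i * S.M : ℕ) := by
        rw [Int.toNat_of_nonneg this.1]; push_cast; exact this.2
      exact_mod_cast this
    · obtain ⟨j, rfl⟩ := Nat.exists_eq_add_of_le h3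
      have hj : j < S.b.nt := by unfold Mod.E at hi; omega
      rw [Mod.rho_getD_t hj]
      simp only [kf, if_neg (by omega : ¬ S.b.nf + j < S.b.nf), Nat.add_sub_cancel_left]
      have := ht j hj
      omega
  · rw [y_add_ov]
    unfold Bas.pt
    congr 1
    · refine sum_congr rfl fun e he => ?_
      have he' := mem_range.1 he
      congr 1
      beta_reduce
      rw [hget e (by unfold Mod.E; omega)]
      simp only [kf, if_pos he']
      have a1 := Nat.div_add_mod (γ e - S.g0 e).toNat (S.tau e)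
      have a2 : ((γ e - S.g0 e).toNat : ℤ) = γ e - S.g0 e := Int.toNat_of_nonneg (hf e he').1
      have a3 : (S.tau e : ℤ) * (((γ e - S.g0 e).toNat / S.tau e : ℕ) : ℤ) +
          (((γ e - S.g0 e).toNat % S.tau e : ℕ) : ℤ) = γ e - S.g0 e := by
        rw [← a2]; exact_mod_cast a1
      linarith
    · refine sum_congr rfl fun i hi => ?_
      have hi' := mem_range.1 hi
      congr 1
      beta_reduce
      rw [hget (S.b.nf + i) (by unfold Mod.E; omega)]
      simp only [kf, if_neg (by omega : ¬ S.b.nf + i < S.b.nf), Nat.add_sub_cancel_left]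
      rw [Int.toNat_of_nonneg (ht i hi').1]
      ring

theorem sum_mod (τ c o : ℕ) (ho : o < τ) :
    ∑ i ∈ range (τ * c), (if i % τ = o then (1 : ℝ) else 0) = c := by
  induction c with
  | zero => simp
  | succ c ih =>
    rw [Nat.mul_succ, sum_range_add, ih]
    have : ∑ i ∈ range τ, (if (τ * c + i) % τ = o then (1 : ℝ) else 0) =
        ∑ i ∈ range τ, (if i = o then (1 : ℝ) else 0) := by
      refine sum_congr rfl fun i hi => ?_
      rw [Nat.mul_add_mod, Nat.mod_eq_of_lt (mem_range.1 hi)]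
    rw [this, sum_ite_eq' , if_pos (mem_range.2 ho)]
    push_cast; ring

theorem pr_off (h : S.OK) {P : ℕ} (hP : S.Q ^ 2 ≤ P) {o : ℕ → ℕ}
    (ho : ∀ e < S.b.nf, o e < S.tau e) :
    Pr P (fun r => ∀ e < S.b.nf, ofB (blk S.J e r) % S.tau e = o e) = 1 / S.tauP := by
  have hle : S.b.nf * S.J ≤ P := by
    refine le_trans ?_ hP
    rw [pow_two]
    have h1 := h.bas.nf_le
    have h2 := h.nQ
    exact Nat.mul_le_mul (by omega) h.JQ
  unfold Pr
  rw [Ex_congr (G := fun ω => (fun u => ∏ e ∈ range S.b.nf,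
    (fun e w => if ofB w % S.tau e = o e then (1 : ℝ) else 0) e (blk S.J e u))
      (ω.take (S.b.nf * S.J)))]
  · rw [Ex_take hle (fun u => ∏ e ∈ range S.b.nf,
      (fun e w => if ofB w % S.tau e = o e then (1 : ℝ) else 0) e (blk S.J e u)), Ex_prod_blk S.J S.b.nf
      (fun e w => if ofB w % S.tau e = o e then (1 : ℝ) else 0)]
    unfold Mod.tauP
    push_cast
    rw [one_div, ← prod_inv_distrib]
    refine prod_congr rfl fun e he => ?_
    rw [Ex_ofB S.J (fun i => if i % S.tau e = o e then (1 : ℝ) else 0)]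
    obtain ⟨c, hc⟩ := Mod.tau_dvd (S := S) e
    have hc' : (2 : ℝ) ^ S.J = S.tau e * c := by exact_mod_cast hc
    have hc0 : (c : ℝ) ≠ 0 := by
      intro h0
      rw [h0, mul_zero] at hc'
      exact absurd hc' (by positivity)
    have ht : (S.tau e : ℝ) ≠ 0 := by exact_mod_cast (Mod.tau_pos e).ne'
    rw [hc, sum_mod _ _ _ (ho e (mem_range.1 he)), hc']
    field_simp
  · intro ω _
    simp only
    rw [prod_congr rfl (g := fun e => if ofB (blk S.J e ω) % S.tau e = o e then (1 : ℝ) else 0)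
      fun e he => by
        rw [blk_take (Nat.mul_le_mul_right _ (Nat.succ_le_of_lt (mem_range.1 he)))]]
    rw [prod_boole]
    simp only [mem_range]
    congr

theorem X_ov (h : S.OK) {o : ℕ → ℕ} (ho : ∀ e < S.b.nf, o e < S.tau e) {a : ℕ}
    (ha : a < 2 * S.n) : (S.p a = a → S.X a (dg S.n (ov S o)) = 0) ∧
      |S.X a (dg S.n (ov S o))| * (S.Q : ℤ) ^ 137 ≤ 2 ^ S.j a := by
  have e : S.X a (dg S.n (ov S o)) =
      ∑ e ∈ range S.b.nf, (o e : ℤ) * S.X a (dg S.n (S.b.z S.n e)) := by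
    unfold ov
    rw [dg_sum, Mod.X_sum]
    exact sum_congr rfl fun e _ => by rw [dg_smul, Mod.X_smul]
  rw [e]
  constructor
  · intro hp
    refine sum_eq_zero fun e he => ?_
    have := (h.bas.cyc e (mem_range.1 he) a ha).2
    by_cases h0 : S.X a (dg S.n (S.b.z S.n e)) = 0
    · rw [h0, mul_zero]
    · exact absurd hp (this h0).1
  · have hQ : (0 : ℤ) < S.Q := by exact_mod_cast Mod.Q_pos
    have key : ∀ e ∈ range S.b.nf,
        |(o e : ℤ) * S.X a (dg S.n (S.b.z S.n e))| * (S.Q : ℤ) ^ 138 ≤ 2 ^ S.j a := by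
      intro e he
      have he' := mem_range.1 he
      have c := h.bas.cyc e he' a ha
      by_cases h0 : S.X a (dg S.n (S.b.z S.n e)) = 0
      · rw [h0]; simp
      · have c1 : |S.X a (dg S.n (S.b.z S.n e))| ≤ 1 := c.1
        have c2 := (c.2 h0).2.1
        have c3 : (S.tau e : ℤ) * S.Q ^ 138 = 2 ^ S.b.je e := by exact_mod_cast h.tau_mul he'
        have c4 : (o e : ℤ) ≤ S.tau e := by exact_mod_cast (ho e he').le
        rw [abs_mul, abs_of_nonneg (Int.natCast_nonneg _)]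
        calc (o e : ℤ) * |S.X a (dg S.n (S.b.z S.n e))| * (S.Q : ℤ) ^ 138
            ≤ S.tau e * 1 * (S.Q : ℤ) ^ 138 := by gcongr
          _ = 2 ^ S.b.je e := by rw [mul_one, c3]
          _ ≤ 2 ^ S.j a := pow_le_pow_right₀ (by norm_num) c2
    have s1 := sum_le_sum key
    rw [← sum_mul, sum_const, card_range, nsmul_eq_mul] at s1
    have s2 := abs_sum_le_sum_abs
      (fun e => (o e : ℤ) * S.X a (dg S.n (S.b.z S.n e))) (range S.b.nf)
    have s3 : (S.b.nf : ℤ) ≤ S.Q := by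
      have h1 := h.bas.nf_le
      have h2 := h.nQ
      have : S.b.nf ≤ S.Q := by omega
      exact_mod_cast this
    refine le_of_mul_le_mul_left ?_ hQ
    calc (S.Q : ℤ) * (|∑ e ∈ range S.b.nf, (o e : ℤ) * S.X a (dg S.n (S.b.z S.n e))| *
          (S.Q : ℤ) ^ 137)
        = |∑ e ∈ range S.b.nf, (o e : ℤ) * S.X a (dg S.n (S.b.z S.n e))| * (S.Q : ℤ) ^ 138 := by
          ring
      _ ≤ (∑ e ∈ range S.b.nf, |(o e : ℤ) * S.X a (dg S.n (S.b.z S.n e))|) * (S.Q : ℤ) ^ 138 :=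
          mul_le_mul_of_nonneg_right s2 (by positivity)
      _ ≤ S.b.nf * 2 ^ S.j a := s1
      _ ≤ S.Q * 2 ^ S.j a := mul_le_mul_of_nonneg_right s3 (by positivity)

theorem sum_le_D (h : S.OK) (f : ℕ → ℤ) (hf : ∀ a < 2 * S.n, f a * S.Q ≤ S.D) :
    ∑ a ∈ range (2 * S.n), f a ≤ S.D := by
  have hQ : (0 : ℤ) < S.Q := by exact_mod_cast Mod.Q_pos
  have s1 := sum_le_sum (s := range (2 * S.n)) fun a ha => hf a (mem_range.1 ha)
  rw [← sum_mul, sum_const, card_range, nsmul_eq_mul] at s1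
  have s3 : ((2 * S.n : ℕ) : ℤ) ≤ S.Q := by
    have h2 := h.nQ
    have : 2 * S.n ≤ S.Q := by omega
    exact_mod_cast this
  refine le_of_mul_le_mul_right (s1.trans ?_) hQ
  rw [mul_comm (S.D : ℤ)]
  exact mul_le_mul_of_nonneg_right s3 (Int.natCast_nonneg _)

theorem cost_ov (h : S.OK) {o : ℕ → ℕ} (ho : ∀ e < S.b.nf, o e < S.tau e) :
    cost (2 * S.n) S.p S.cst (dg S.n (ov S o)) ≤ S.D := by
  refine sum_le_D h _ fun a ha => ?_
  obtain ⟨h1, h2⟩ := X_ov h ho ha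
  change (S.cst a : ℤ) * |S.X a (dg S.n (ov S o))| * S.Q ≤ S.D
  by_cases hp : S.p a = a
  · rw [h1 hp]; simp
  · have hQ : (1 : ℤ) ≤ S.Q := by exact_mod_cast Mod.Q_pos
    have c : (S.cst a : ℤ) * 2 ^ S.j a = S.D * S.Q ^ 12 := by exact_mod_cast h.cst_mul ha hp
    have hQ12 : (0 : ℤ) < (S.Q : ℤ) ^ 12 := by positivity
    refine le_of_mul_le_mul_right ?_ hQ12
    rw [← c]
    have : (S.Q : ℤ) ^ 13 ≤ S.Q ^ 137 := pow_le_pow_right₀ hQ (by norm_num)
    calc (S.cst a : ℤ) * |S.X a (dg S.n (ov S o))| * S.Q * S.Q ^ 12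
        = S.cst a * (|S.X a (dg S.n (ov S o))| * S.Q ^ 13) := by ring
      _ ≤ S.cst a * (|S.X a (dg S.n (ov S o))| * S.Q ^ 137) := by gcongr
      _ ≤ S.cst a * 2 ^ S.j a := by gcongr

theorem mar_le (h : S.OK) {k : List ℕ} {o : ℕ → ℕ} (ho : ∀ e < S.b.nf, o e < S.tau e)
    (hx : S.y k + ov S o ∈ PS S.n S.f1 S.f2) : S.Mar (dg S.n (S.y k)) ≤ S.D := by
  refine sum_le_D h _ fun a ha => ?_
  obtain ⟨h1, h2⟩ := X_ov h ho ha
  have h3 := h.om_PS hx a ha
  rw [dg_add, Mod.X_add] at h3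
  push_cast at h3
  have hQ : (4096 : ℤ) ≤ S.Q := by exact_mod_cast h.Q_ge
  have hn : 2048 * (S.n : ℤ) ≤ S.Q := by exact_mod_cast h.nQ
  have hn1 : (1 : ℤ) ≤ S.n := by exact_mod_cast h.n_pos
  have hn3 : 5 * (S.n : ℤ) ^ 3 ≤ S.Q ^ 3 := by
    have : (2048 * (S.n : ℤ)) ^ 3 ≤ S.Q ^ 3 := pow_le_pow_left₀ (by positivity) hn 3
    have h0 : (0 : ℤ) ≤ (S.n : ℤ) ^ 3 := by positivity
    nlinarith
  have hn4 : (1 : ℤ) ≤ (S.n : ℤ) ^ 3 := one_le_pow₀ hn1
  have hj : (0 : ℤ) < 2 ^ S.j a := by positivity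
  have h4 : |S.X a (dg S.n (ov S o))| ≤ 2 ^ S.j a := by
    refine le_trans ?_ h2
    exact le_mul_of_one_le_right (abs_nonneg _) (one_le_pow₀ (by linarith))
  set u := S.X a (dg S.n (S.y k)) - S.lo a with hu
  have h5 : |u| ≤ S.Q ^ 3 * 2 ^ S.j a := by
    have e : u = (S.X a (dg S.n (S.y k)) + S.X a (dg S.n (ov S o)) - S.lo a) -
        S.X a (dg S.n (ov S o)) := by rw [hu]; ring
    have := abs_sub (S.X a (dg S.n (S.y k)) + S.X a (dg S.n (ov S o)) - S.lo a)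
      (S.X a (dg S.n (ov S o)))
    rw [← e] at this
    nlinarith
  have h6 : u ^ 2 ≤ (S.Q ^ 3 * 2 ^ S.j a) ^ 2 := by
    rw [← sq_abs u]
    exact pow_le_pow_left₀ (abs_nonneg _) h5 2
  unfold Mod.mar
  split_ifs with hp
  · have c1 : (S.KW : ℤ) * S.Q ^ 307 = S.D := by exact_mod_cast Mod.KW_mul (S := S)
    have c2 : (2 : ℤ) ^ S.j a = S.Q ^ 150 := by
      rw [h.jroot a ha hp]; exact_mod_cast Mod.two_g (S := S)
    rw [c2] at h6
    calc S.Hub u * S.Q ≤ S.KW * u ^ 2 * S.Q :=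
          mul_le_mul_of_nonneg_right (Mod.Hub_le_sq u) (by linarith)
      _ ≤ S.KW * (S.Q ^ 3 * S.Q ^ 150) ^ 2 * S.Q := by gcongr
      _ = S.KW * S.Q ^ 307 := by ring
      _ = S.D := c1
  · have c1 : (S.Ka a : ℤ) * (S.Q ^ 300 * (2 ^ S.j a) ^ 2) = S.D * S.Q ^ 43 := by
      exact_mod_cast h.Ka_mul ha
    have hQ43 : (0 : ℤ) < (S.Q : ℤ) ^ 43 := by positivity
    refine le_of_mul_le_mul_right ?_ hQ43
    rw [← c1]
    have : (S.Q : ℤ) ^ 50 ≤ S.Q ^ 300 := pow_le_pow_right₀ (by linarith) (by norm_num)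
    calc (S.Ka a : ℤ) * u ^ 2 * (S.Q : ℤ) * (S.Q : ℤ) ^ 43
        ≤ (S.Ka a : ℤ) * ((S.Q : ℤ) ^ 3 * 2 ^ S.j a) ^ 2 * (S.Q : ℤ) * (S.Q : ℤ) ^ 43 := by gcongr
      _ = (S.Ka a : ℤ) * ((S.Q : ℤ) ^ 50 * (2 ^ S.j a) ^ 2) := by ring
      _ ≤ _ := by gcongr

theorem xo_eq (k : List ℕ) (r : Word) :
    S.xo k r = S.y k + ov S fun e => ofB (blk S.J e r) % S.tau e := rfl

end MassX

open MassX

namespace Mod.OK

variable {S : Mod}

theorem mass_eq (h : S.OK) {P : ℕ} (hP : S.Q ^ 2 ≤ P) {acc : List ℕ → Word → Bool}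
    (hacc : ∀ k r, acc k r = true ↔ S.xo k r ∈ PS S.n S.f1 S.f2) :
    mass S.E S.rho P acc = (S.N : ℝ) / S.tauP := by
  classical
  have hfin := PS_finite S.n S.f1 S.f2
  have e1 : ∀ k, Pr P (fun r => acc k r = true) =
      ∑ x ∈ hfin.toFinset, Pr P fun r => S.xo k r = x := by
    intro k
    unfold Pr
    rw [← Ex_sum]
    refine Ex_congr fun r _ => ?_
    rw [sum_congr rfl (g := fun x => if S.xo k r = x then (1 : ℝ) else 0)
      (fun x _ => by congr), sum_ite_eq]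
    simp only [hacc, Set.Finite.mem_toFinset]
  have e2 : ∀ x ∈ hfin.toFinset, ∑ k ∈ bx S.E [] S.rho, Pr P (fun r => S.xo k r = x) =
      1 / S.tauP := by
    intro x hx
    obtain ⟨k0, hk0, o, ho, e⟩ := surj h (hfin.mem_toFinset.1 hx)
    rw [sum_eq_single k0 _ (fun hk => absurd hk0 hk), ← pr_off h hP ho]
    · refine Pr_congr fun r _ => ⟨fun hr => ?_, fun hr => ?_⟩
      · rw [xo_eq, ← e] at hr
        exact (inj h hk0 hk0 (fun e _ => Nat.mod_lt _ (Mod.tau_pos e)) ho hr).2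
      · rw [xo_eq, ← e]
        congr 1
        exact sum_congr rfl fun e he => by beta_reduce; rw [hr e (mem_range.1 he)]
    · intro k hk hne
      refine Pr_false _ fun r _ hr => hne ?_
      rw [xo_eq, ← e] at hr
      exact (inj h hk hk0 (fun e _ => Nat.mod_lt _ (Mod.tau_pos e)) ho hr).1
  unfold mass
  rw [sum_congr rfl fun k _ => e1 k, sum_comm, sum_congr rfl e2, sum_const, nsmul_eq_mul,
    mul_one_div]
  unfold Mod.N
  rw [Set.ncard_eq_toFinset_card _ hfin]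

theorem acc_en (h : S.OK) (ζ : ℕ → ℤ) {k : List ℕ} {r : Word}
    (hx : S.xo k r ∈ PS S.n S.f1 S.f2) : S.En ζ (dg S.n (S.y k)) ≤ 2 * S.D := by
  have ho : ∀ e < S.b.nf, ofB (blk S.J e r) % S.tau e < S.tau e :=
    fun e _ => Nat.mod_lt _ (Mod.tau_pos e)
  have h1 := h.nz_le ζ hx (dg S.n (S.y k))
  rw [xo_eq, dg_add, sub_add_cancel_left, cost_neg] at h1
  have h2 := cost_ov h ho
  have h3 := mar_le h ho (xo_eq k r ▸ hx)
  unfold Mod.En
  linarith

theorem exists_Z0 (h : S.OK) : ∃ ζs : ℕ → ℤ, (∀ p, (ζs p).natAbs ≤ S.Q ^ 4 * S.D) ∧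
    ∀ p < 2 * S.n, ∀ s : ℤ, s = 1 ∨ s = -1 →
      ∑ k ∈ bx S.E [] S.rho, S.W (fun c => ζs c + if c = p then s * S.D else 0) k ≤
        64 * ((S.N : ℝ) / S.tauP) := by
  classical
  obtain ⟨ξ, h1, h2⟩ := h.exists_xi
  refine ⟨fun c => S.D * ξ c, fun p => ?_, fun p hp s hs => ?_⟩
  · rw [Int.natAbs_mul, Int.natAbs_natCast, mul_comm]
    exact Nat.mul_le_mul_right _ (h1 p)
  set ζ : ℕ → ℤ := fun c => S.D * ξ c + if c = p then s * S.D else 0 with hζ
  let oo : (Fin S.b.nf → ℕ) → ℕ → ℕ := fun o e => if he : e < S.b.nf then o ⟨e, he⟩ else 0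
  let O : Finset (Fin S.b.nf → ℕ) := Fintype.piFinset fun e => range (S.tau e)
  have hO : ∀ o ∈ O, ∀ e < S.b.nf, oo o e < S.tau e := by
    intro o ho e he
    simp only [oo, dif_pos he]
    exact mem_range.1 (Fintype.mem_piFinset.1 ho ⟨e, he⟩)
  have hcard : O.card = S.tauP := by
    rw [Fintype.card_piFinset]
    simp only [card_range]
    exact Fin.prod_univ_eq_prod_range (fun e => S.tau e) S.b.nf
  let φ : List ℕ × (Fin S.b.nf → ℕ) → Vec := fun z => S.y z.1 + ov S (oo z.2)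
  have hinj : Set.InjOn φ (bx S.E [] S.rho ×ˢ O : Finset _) := by
    rintro ⟨k, o⟩ hz ⟨k', o'⟩ hz' e
    have a := mem_product.1 (mem_coe.1 hz)
    have a' := mem_product.1 (mem_coe.1 hz')
    obtain ⟨b1, b2⟩ := inj h a.1 a'.1 (hO _ a.2) (hO _ a'.2) e
    refine Prod.ext b1 (funext fun i => ?_)
    have := b2 i i.2
    simpa only [oo, dif_pos i.2] using this
  have hA := h2 p hp s hs ((bx S.E [] S.rho ×ˢ O).image φ) (by
    intro x hx
    obtain ⟨⟨k, o⟩, hz, rfl⟩ := mem_image.1 hx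
    have a := mem_product.1 hz
    have hk : ∀ i < S.E, ([] : List ℕ).getD i 0 ≤ k.getD i 0 ∧ k.getD i 0 ≤ S.rho.getD i 0 :=
      (mem_bx.1 a.1).2
    simp only [φ, y_add_ov]
    refine ⟨fun i hi => h.pt_supp _ _ hi, fun i => h.pt_bd _ _ (fun e he => ?_) (fun j hj => ?_) i⟩
    · have b1 := (hk e (by unfold Mod.E; omega)).2
      rw [Mod.rho_getD_f he] at b1
      have b2 : (k.getD e 0 : ℤ) ≤ S.M := by exact_mod_cast b1
      have b3 : (oo o e : ℤ) ≤ S.tau e := by exact_mod_cast (hO o a.2 e he).le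
      have b4 := h.g0_eq e
      have hQ : (4096 : ℤ) ≤ S.Q := by exact_mod_cast h.Q_ge
      have b5 : (S.tau e : ℤ) * S.M = S.Q ^ 6 * 2 ^ S.b.je e := by
        have := h.tau_mul he
        have : (S.tau e : ℤ) * S.Q ^ 138 = 2 ^ S.b.je e := by exact_mod_cast this
        rw [← this, Mod.M_eq]; push_cast; ring
      have b6 : (0 : ℤ) ≤ S.tau e := Int.natCast_nonneg _
      have b7 : (S.tau e : ℤ) * k.getD e 0 ≤ S.tau e * S.M := mul_le_mul_of_nonneg_left b2 b6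
      have b8 : (0 : ℤ) ≤ S.tau e * k.getD e 0 := by positivity
      have b9 : (S.tau e : ℤ) ≤ S.tau e * S.M := by
        refine le_mul_of_one_le_right b6 ?_
        rw [Mod.M_eq]; push_cast
        exact one_le_pow₀ (by linarith)
      have b10 : (0 : ℤ) ≤ oo o e := Int.natCast_nonneg _
      have b11 : 2 * ((S.Q : ℤ) ^ 6 * 2 ^ S.b.je e) ≤ S.Q ^ 7 * 2 ^ S.b.je e := by
        have : (0 : ℤ) ≤ (S.Q : ℤ) ^ 6 * 2 ^ S.b.je e := by positivity
        nlinarith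
      rw [abs_le]
      constructor <;> linarith
    · have b1 := (hk (S.b.nf + j) (by unfold Mod.E; omega)).2
      rw [Mod.rho_getD_t hj] at b1
      rw [abs_le]
      constructor <;> omega)
  rw [sum_image hinj, sum_product] at hA
  have hD : (0 : ℝ) < S.D := by exact_mod_cast Mod.D_pos
  have hτ : (0 : ℝ) < S.tauP := by exact_mod_cast Mod.tauP_pos
  have key : ∀ k ∈ bx S.E [] S.rho, S.tauP * S.W ζ k ≤
      2 * ∑ o ∈ O, (2 : ℝ) ^ (-(S.nz ζ (dg S.n (φ (k, o))) : ℝ) / S.D) := by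
    intro k _
    rw [← hcard, ← nsmul_eq_mul, ← sum_const, mul_sum]
    refine sum_le_sum fun o ho => ?_
    have c1 : S.nz ζ (dg S.n (φ (k, o))) ≤ S.nz ζ (dg S.n (S.y k)) + S.D := by
      simp only [φ, dg_add]
      exact (nu_add_le h.submod h.F_empty _ _).trans (add_le_add le_rfl (cost_ov h (hO o ho)))
    have c2 := Mod.Mar_nonneg (S := S) (dg S.n (S.y k))
    have c3 : (S.nz ζ (dg S.n (φ (k, o))) : ℝ) ≤ S.En ζ (dg S.n (S.y k)) + S.D := by
      have : S.nz ζ (dg S.n (φ (k, o))) ≤ S.En ζ (dg S.n (S.y k)) + S.D := by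
        unfold Mod.En; linarith
      exact_mod_cast this
    unfold Mod.W Mod.w
    have c4 : (2 : ℝ) * (2 : ℝ) ^ (-(S.nz ζ (dg S.n (φ (k, o))) : ℝ) / S.D) =
        (2 : ℝ) ^ (1 + -(S.nz ζ (dg S.n (φ (k, o))) : ℝ) / S.D) := by
      rw [Real.rpow_add (by norm_num), Real.rpow_one]
    rw [c4]
    refine Real.rpow_le_rpow_of_exponent_le (by norm_num) ?_
    rw [div_le_iff₀ hD, add_mul, div_mul_cancel₀ _ hD.ne']
    linarith
  have s1 := sum_le_sum key
  rw [← mul_sum, ← mul_sum] at s1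
  rw [← mul_div_assoc, le_div_iff₀ hτ]
  linarith

/-- a small partition function excludes a shifted energy -/
theorem off_eq (h : S.OK) (ζ : List ℤ)
    (hZ : Zb S.E [] S.rho (S.en ζ) ≤ (S.Q : ℝ) ^ 8002 * ((S.N : ℝ) / S.tauP)) :
    S.off (fun p => ζ.getD p 0) = 0 := by
  classical
  by_contra hne
  have hoff : S.off (fun p => ζ.getD p 0) =
      S.En (fun p => ζ.getD p 0) (dg S.n (S.y [])) / S.D + (S.Q : ℤ) ^ 3 := by
    unfold Mod.off at hne ⊢
    rcases min_choice 0 (S.En (fun p => ζ.getD p 0) (dg S.n (S.y [])) / S.D + (S.Q : ℤ) ^ 3)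
      with h1 | h1
    · exact absurd h1 hne
    · exact h1
  have hget : ∀ i, (List.replicate S.E 0).getD i 0 = 0 := by
    intro i
    rw [List.getD_eq_getElem?_getD, List.getElem?_replicate]
    split_ifs <;> rfl
  have hk0 : List.replicate S.E 0 ∈ bx S.E [] S.rho :=
    mem_bx.2 ⟨by simp, fun i _ => ⟨by simp, by rw [hget]; exact Nat.zero_le _⟩⟩
  have hy : S.y (List.replicate S.E 0) = S.y [] := by
    unfold Mod.y
    simp only [hget, List.getD_nil]
  have hen : S.en ζ (List.replicate S.E 0) = -(S.Q : ℤ) ^ 3 := by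
    unfold Mod.en
    rw [hy, hoff]; ring
  have h1 : (2 : ℝ) ^ (S.Q ^ 3) ≤ Zb S.E [] S.rho (S.en ζ) := by
    refine le_trans (le_of_eq ?_) (single_le_sum (fun k _ => (wt_pos (S.en ζ) k).le) hk0)
    unfold wt
    rw [hen, neg_neg, ← zpow_natCast]
    push_cast; rfl
  have h2 := h.mass_eq (P := S.Q ^ 2) le_rfl
    (acc := fun k r => decide (S.xo k r ∈ PS S.n S.f1 S.f2)) (fun k r => by simp)
  have hQ := h.Q_ge
  have h3 : mass S.E S.rho (S.Q ^ 2) (fun k r => decide (S.xo k r ∈ PS S.n S.f1 S.f2)) ≤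
      ((S.Q ^ 312) ^ S.E : ℕ) := by
    unfold mass
    refine (sum_le_sum fun k _ => Pr_le_one _ _).trans ?_
    rw [sum_const, nsmul_eq_mul, mul_one]
    have hT : 2 * S.T + 1 ≤ S.Q ^ 312 := by
      rw [Mod.T_eq, pow_succ S.Q 311]
      have : 1 ≤ S.Q ^ 311 := Nat.one_le_pow _ _ Mod.Q_pos
      nlinarith
    have hM : S.M ≤ S.T := by
      rw [Mod.M_eq, Mod.T_eq]
      exact Nat.pow_le_pow_right Mod.Q_pos (by norm_num)
    exact_mod_cast card_bx_le' S.E S.rho (S.Q ^ 312) fun e he => by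
      rcases Nat.lt_or_ge e S.b.nf with h3 | h3
      · rw [Mod.rho_getD_f h3]; omega
      · obtain ⟨j, rfl⟩ := Nat.exists_eq_add_of_le h3
        rw [Mod.rho_getD_t (by unfold Mod.E at he; omega)]; exact hT
  rw [h2] at h3
  have h4 : (2 : ℝ) ^ (S.Q ^ 3) ≤ (S.Q : ℝ) ^ 8002 * ((S.Q ^ 312) ^ S.E : ℕ) :=
    h1.trans (hZ.trans (mul_le_mul_of_nonneg_left h3 (by positivity)))
  have h5 : 2 ^ (S.Q ^ 3) ≤ S.Q ^ 8002 * (S.Q ^ 312) ^ S.E := by exact_mod_cast h4
  have hE : S.E ≤ S.Q := by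
    have a1 := h.bas.nf_le
    have a2 := h.bas.nt_le
    have a3 := h.nQ
    unfold Mod.E; omega
  have h6 : S.Q ^ 8002 * (S.Q ^ 312) ^ S.E = 2 ^ (S.q * (8002 + 312 * S.E)) := by
    rw [← pow_mul, ← pow_add, pow_mul]; rfl
  rw [h6] at h5
  have h7 := (Nat.pow_le_pow_iff_right (by norm_num)).1 h5
  have h8 := h.qQ'
  have h9 : S.q * (8002 + 312 * S.E) ≤ S.Q * (314 * S.Q) :=
    Nat.mul_le_mul (by omega) (by omega)
  have h10 : S.Q * (314 * S.Q) < S.Q ^ 3 := by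
    have : S.Q ^ 3 = S.Q * (S.Q * S.Q) := by ring
    rw [this]
    exact Nat.mul_lt_mul_of_pos_left (Nat.mul_lt_mul_of_pos_right (by omega) (by omega)) (by omega)
  omega

/-- the subgradient inequality -/
theorem W_sub (h : S.OK) (ζ ζ' : ℕ → ℤ) (k : List ℕ) {b : Vec} (hb : b ∈ Bs (2 * S.n) S.F)
    (he : S.nz ζ (dg S.n (S.y k)) = -dot (2 * S.n) (fun a => ζ (S.b.lab a)) b +
      cost (2 * S.n) S.p S.cst (dg S.n (S.y k) - b)) :
    S.W ζ k * (2 : ℝ) ^ ((∑ p ∈ range (2 * S.n),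
      ((∑ a ∈ (range (2 * S.n)).filter (fun a => S.b.lab a = p), b a : ℤ) : ℝ) *
        ((ζ' p : ℝ) - ζ p)) / S.D) ≤ S.W ζ' k := by
  have h1 : S.nz ζ' (dg S.n (S.y k)) ≤ -dot (2 * S.n) (fun a => ζ' (S.b.lab a)) b +
      cost (2 * S.n) S.p S.cst (dg S.n (S.y k) - b) := nu_le hb _
  have h2 : ∑ p ∈ range (2 * S.n),
      (∑ a ∈ (range (2 * S.n)).filter (fun a => S.b.lab a = p), b a) * (ζ' p - ζ p) =
      dot (2 * S.n) (fun a => ζ' (S.b.lab a)) b - dot (2 * S.n) (fun a => ζ (S.b.lab a)) b := by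
    unfold dot
    rw [← sum_sub_distrib, ← sum_fiberwise_of_maps_to (s := range (2 * S.n))
      (t := range (2 * S.n)) (g := S.b.lab)
      (fun a ha => mem_range.2 (h.bas.lab_lt a (mem_range.1 ha)))
      (fun a => ζ' (S.b.lab a) * b a - ζ (S.b.lab a) * b a)]
    refine sum_congr rfl fun p _ => ?_
    rw [sum_mul]
    refine sum_congr rfl fun a ha => ?_
    rw [(mem_filter.1 ha).2]; ring
  have h3 : S.En ζ' (dg S.n (S.y k)) + ∑ p ∈ range (2 * S.n),
      (∑ a ∈ (range (2 * S.n)).filter (fun a => S.b.lab a = p), b a) * (ζ' p - ζ p) ≤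
      S.En ζ (dg S.n (S.y k)) := by
    unfold Mod.En
    rw [h2, he]; linarith
  have h4 : (S.En ζ' (dg S.n (S.y k)) : ℝ) + ∑ p ∈ range (2 * S.n),
      ((∑ a ∈ (range (2 * S.n)).filter (fun a => S.b.lab a = p), b a : ℤ) : ℝ) *
        ((ζ' p : ℝ) - ζ p) ≤ S.En ζ (dg S.n (S.y k)) := by exact_mod_cast h3
  have hD : (0 : ℝ) < S.D := by exact_mod_cast Mod.D_pos
  unfold Mod.W Mod.w
  rw [← Real.rpow_add (by norm_num), ← add_div]
  refine Real.rpow_le_rpow_of_exponent_le (by norm_num) ?_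
  exact div_le_div_of_nonneg_right (by linarith) hD.le

end Mod.OK

end Crest.Agent.R302
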