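import Crest.Agent.R302.NiceM
import Crest.Agent.R302.Mass
import Crest.Agent.R302.Alg
import Crest.Agent.R302.Learn

/-! Row 302: counting in a computable model. -/

set_option autoImplicit false

namespace Crest.Agent.R302

open Crest.Agent.PT Crest.Agent.R309 Finset

namespace CoreX

theorem sub_bx {E : ℕ} {ρ lo hi k : List ℕ} (h : Sub E ρ lo hi) (hk : k ∈ bx E lo hi) :
    k ∈ bx E [] ρ := by
  obtain ⟨h1, h2⟩ := mem_bx.1 hk
  exact mem_bx.2 ⟨h1, fun i hi => ⟨by simp, (h2 i hi).2.trans (h i hi).2⟩⟩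

theorem inc_bx {E : ℕ} {lo hi a : List ℕ} (ha : a ∈ bx E lo hi) {e : ℕ} (he : e < E)
    (h : a.getD e 0 < hi.getD e 0) : inc a e ∈ bx E lo hi := by
  obtain ⟨h1, h2⟩ := mem_bx.1 ha
  refine mem_bx.2 ⟨by simp [inc, h1], fun i hi => ?_⟩
  have := h2 i hi
  by_cases hie : e = i
  · subst hie
    have : (inc a e).getD e 0 = a.getD e 0 + 1 := by
      simp [inc, List.getD_eq_getElem?_getD, h1, he]
    omega
  · have : (inc a e).getD i 0 = a.getD i 0 := by
      simp [inc, List.getD_eq_getElem?_getD, List.getElem?_set_ne hie]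
    omega

theorem wt_congr {en en' : List ℕ → ℤ} {k : List ℕ} (h : en k = en' k) : wt en k = wt en' k := by
  rw [wt, wt, h]

theorem nice_congr {E P : ℕ} {ρ : List ℕ} {en en' : List ℕ → ℤ} (h : Nice E ρ P en)
    (he : ∀ k ∈ bx E [] ρ, en' k = en k) : Nice E ρ P en' := by
  obtain ⟨h1, h2, h3, h4, h5⟩ := h
  refine ⟨h1, h2, h3, fun k hk => he k hk ▸ h4 k hk, fun lo hi hp f => ?_⟩
  have e : ∀ k ∈ bx E lo hi, wt en' k = wt en k := fun k hk => wt_congr (he k (sub_bx hp.sub hk))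
  convert h5 lo hi hp f using 1
  · rw [sum_congr rfl e, sum_congr rfl fun k hk => congrArg (· * f k ^ 2) (e k hk),
      sum_congr rfl fun k hk => congrArg (· * f k) (e k hk)]
  · rw [sum_congr rfl e]
    refine congrArg _ (sum_congr rfl fun i hi => sum_congr rfl fun k hk => ?_)
    obtain ⟨a1, a2⟩ := mem_filter.1 hk
    rw [e k a1, e _ (inc_bx a1 (mem_range.1 hi) a2)]

theorem Pr_seq {L L' : ℕ} {G : Word → Prop} {A : Word → Word → Prop} {x y : ℝ} (hy : 0 ≤ y)
    (hG : 1 - x ≤ Pr L G) (hA : ∀ u, G u → 1 - y ≤ Pr L' (A u)) :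
    1 - (x + y) ≤ Pr (L + L') fun ω => A (ω.take L) (ω.drop L) := by
  classical
  rw [Pr_split]
  refine le_trans ?_ (Ex_mono (F := fun u => (if G u then 1 else 0) - y) fun u _ => ?_)
  · rw [Ex_sub, Ex_const]
    have : (Ex L fun u => if G u then 1 else 0) = Pr L G := by unfold Pr; congr
    linarith
  · split_ifs with h
    · exact hA u h
    · linarith [Pr_nonneg L' (A u)]

theorem half_add {Q P P' : ℕ} (h : Q + 1 ≤ P) (h' : Q + 1 ≤ P') :
    (2 : ℝ)⁻¹ ^ P + (2 : ℝ)⁻¹ ^ P' ≤ (2 : ℝ)⁻¹ ^ Q := by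
  have a1 : (2 : ℝ)⁻¹ ^ P ≤ (2 : ℝ)⁻¹ ^ (Q + 1) := pow_le_pow_of_le_one (by norm_num) (by norm_num) h
  have a2 : (2 : ℝ)⁻¹ ^ P' ≤ (2 : ℝ)⁻¹ ^ (Q + 1) :=
    pow_le_pow_of_le_one (by norm_num) (by norm_num) h'
  rw [pow_succ] at a1 a2
  linarith

theorem le_pow {Q c : ℕ} (hQ : 4096 ≤ Q) (hc : 2 ≤ c) : Q + 1 ≤ Q ^ c :=
  le_trans (by nlinarith) (Nat.pow_le_pow_right (by omega) hc)

end CoreX

open CoreX in
theorem Mod.Comp.exists_count {α : Type} [Rp α] [HasO α] {A : α → Mod} (h : Mod.Comp A) :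
    ∃ (L : ℕ → ℕ) (est : α × Word → ℕ × ℕ), (PU fun u : Un => L u.val) ∧ OT est ∧ ∀ a,
      (Pair (A a).n (A a).f1 (A a).f2 → PS (A a).n (A a).f1 (A a).f2 = ∅ →
        ∀ ω, (est (a, ω)).1 = 0) ∧
      ((A a).OK → 1 - (2 : ℝ)⁻¹ ^ (A a).Q ≤ Pr (L (A a).Q) fun ω =>
        |qv (est (a, ω)) - (A a).N| ≤ ((A a).N : ℝ) / (A a).Q) := by
  obtain ⟨en, hen, en_eq⟩ := h.exists_en
  obtain ⟨sg, hsg, sg_eq⟩ := h.exists_sg
  obtain ⟨acc, hacc, acc_eq⟩ := h.exists_acc
  obtain ⟨L1, lr, hL1, hlr, H1⟩ := exists_learn (fun a => (A a).Q ^ 2000) (fun a => (A a).E)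
    (fun a => 2 * (A a).n) (fun a => (A a).D) (h.pu_Q _) h.pu_E ((PU.const 2).mul h.n) h.pt_D
    (fun a => (A a).rho) (OT.of_ptime h.pt_rho) en hen sg hsg
  have h' := h.fst (β := List ℤ)
  obtain ⟨L2, es, hL2, hes, H2⟩ := exists_est (α := α × List ℤ) (fun p => (A p.1).Q ^ 8003)
    (fun p => (A p.1).E) (h'.pu_Q _) h'.pu_E (fun p => (A p.1).rho) (OT.of_ptime h'.pt_rho)
    (fun p k => en p.1 p.2 k)
    (hen.pre (f := fun p : (α × List ℤ) × List ℕ => (p.1.1, p.1.2, p.2)) (by fun_prop) fun _ => rfl)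
    (fun p => acc p.1)
    (hacc.pre (f := fun p : (α × List ℤ) × List ℕ × Word => (p.1.1, p.2)) (by fun_prop)
      fun _ => rfl)
  have hl : PU fun p : α × Word => L1 ((A p.1).Q ^ 2000) :=
    hL1.comp (f := fun p : α × Word => Un.mk ((A p.1).Q ^ 2000)) ((h.pu_Q _).comp PTime.fst')
  have h1 : OT fun p : α × Word => lr (p.1, p.2.take (L1 ((A p.1).Q ^ 2000))) :=
    hlr.pre (PTime.fst'.pair (PTime.take hl.ptime PTime.snd')) fun _ => rfl
  have h2 : OT fun p : α × Word => es ((p.1, lr (p.1, p.2.take (L1 ((A p.1).Q ^ 2000)))),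
      p.2.drop (L1 ((A p.1).Q ^ 2000))) :=
    hes.comp (((OT.of_ptime PTime.fst').pair h1).pair (OT.of_ptime (PTime.drop hl PTime.snd')))
      fun _ => rfl
  have ht : PTime fun q : (α × Word) × ℕ × ℕ => (A q.1.1).tauP :=
    h.pt_tauP.comp (PTime.fst'.comp PTime.fst')
  refine ⟨fun Q => L1 (Q ^ 2000) + L2 (Q ^ 8003), _,
    (LearnX.pu_app hL1 (PU.pow_const (PU.val PTime.id) 2000)).add
      (LearnX.pu_app hL2 (PU.pow_const (PU.val PTime.id) 8003)),
    OT.map (E := fun q : (α × Word) × ℕ × ℕ => (q.2.1 * (A q.1.1).tauP, q.2.2)) (by fun_prop) h2,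
    fun a => ⟨fun hp he ω => ?_, fun ok => ?_⟩⟩
  · refine mul_eq_zero_of_left ((H2 _).1 (fun k r => ?_) _) _
    by_contra hc
    exact ((acc_eq a).1 hp k r (by simpa using hc)).ne_empty he
  have hQ := ok.Q_ge
  have hn := ok.nQ
  have hn1 := ok.n_pos
  have hQ' : (4096 : ℝ) ≤ (A a).Q := by exact_mod_cast hQ
  have hτ : (0 : ℝ) < (A a).tauP := by exact_mod_cast Mod.tauP_pos
  have hp1 := le_pow hQ (c := 2000) (by omega)
  have hp2 := le_pow hQ (c := 8003) (by omega)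
  obtain ⟨ζs, z1, z2⟩ := ok.exists_Z0
  have G1 := (H1 a).2 (A a).W ζs _ (by omega) (by omega)
    (le_trans (by
      rw [← pow_mul, show 7000 = 1 + 999 + 2000 * 3 from rfl, pow_add, pow_add, pow_one]
      exact Nat.mul_le_mul_right _ (le_trans (by omega)
        (Nat.le_mul_of_pos_right _ (by positivity)))) Mod.D_ge)
    (fun ζ hζ => nice_congr (ok.nice ζ) (en_eq a ok ζ hζ))
    (fun ζ hζ k hk => ⟨?_, fun ζ' => ?_⟩)
    (fun p _ => (z1 p).trans (Nat.mul_le_mul_right _ (Nat.pow_le_pow_right (by omega) (by omega))))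
    z2
  · refine le_trans (sub_le_sub_left (half_add hp1 hp2) 1) (le_trans (Pr_seq (A := fun u v =>
      |qv (es ((a, lr (a, u)), v)) - (A a).N / (A a).tauP| ≤
        (A a).N / (A a).tauP / ((A a).Q ^ 8003 : ℕ)) (by positivity) G1 fun u hu => ?_)
        (Pr_mono fun ω _ hω => ?_))
    · have hb := (H1 a).1 u
      generalize lr (a, u) = ζ at hu hb
      have e := en_eq a ok ζ hb
      have hN : (0 : ℝ) ≤ (A a).N / (A a).tauP := by positivity
      have hZ : Zb (A a).E [] (A a).rho (en a ζ) ≤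
          ((A a).Q : ℝ) ^ 8002 * ((A a).N / (A a).tauP) := by
        refine hu.trans ?_
        rw [← mul_assoc]
        refine mul_le_mul_of_nonneg_right ?_ hN
        push_cast
        rw [← pow_mul, show 8002 = 2 + 2000 * 4 from rfl, pow_add, mul_right_comm]
        exact mul_le_mul_of_nonneg_right (by nlinarith) (by positivity)
      have h0 := ok.off_eq ζ (le_of_eq_of_le (sum_congr rfl fun k hk => wt_congr (e k hk).symm) hZ)
      have hm := ok.mass_eq (P := (A a).Q ^ 8003) (Nat.pow_le_pow_right (by omega) (by omega))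
        ((acc_eq a).2 ok)
      have := (H2 (a, ζ)).2 ((nice_congr (ok.nice ζ) e).mono
        (Nat.pow_le_pow_right (by omega) (by omega))) (fun k hk r hr => ?_) (by
          rw [hm]
          refine hZ.trans (mul_le_mul_of_nonneg_right ?_ hN)
          push_cast
          exact pow_le_pow_right₀ (by linarith) (by omega))
      · rwa [hm] at this
      · have a1 := ok.acc_en (fun p => ζ.getD p 0) (((acc_eq a).2 ok k r).1 hr)
        have a2 : (A a).en ζ k ≤ 2 := by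
          rw [Mod.en, h0, sub_zero]
          exact Int.ediv_le_of_le_mul (by exact_mod_cast Mod.D_pos) a1
        have a3 : (2 : ℝ) ^ (-2 : ℤ) ≤ wt (en a ζ) k := by
          rw [wt, e k hk]
          exact zpow_le_zpow_right₀ one_le_two (by omega)
        have a4 : (4 : ℝ) ≤ ((A a).Q ^ 8003 : ℕ) := by exact_mod_cast (by omega)
        refine le_trans (by norm_num) (mul_le_mul a4 a3 (by positivity) (by positivity))
    · have a1 : ((A a).Q : ℝ) ≤ ((A a).Q ^ 8003 : ℕ) := by exact_mod_cast (by omega)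
      generalize es _ = z at hω
      have e : qv (z.1 * (A a).tauP, z.2) - (A a).N =
          (qv z - (A a).N / (A a).tauP) * (A a).tauP := by
        unfold qv
        push_cast
        field_simp
      rw [e, abs_mul, abs_of_pos hτ, ← le_div_iff₀ hτ, div_right_comm]
      exact hω.trans (div_le_div_of_nonneg_left (by positivity) (by linarith) a1)
  · have a1 := (Mod.OK.wt_en (S := A a) ζ k).2
    have a2 : (2 : ℝ) ^ (A a).off (fun p => ζ.getD p 0) ≤ 1 :=
      zpow_le_one_of_nonpos₀ one_le_two (min_le_left _ _)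
    have a3 : 0 < (A a).W (fun p => ζ.getD p 0) k := Mod.w_pos _ _
    have a4 : (2 : ℝ) ≤ ((A a).Q ^ 2000 : ℕ) := by exact_mod_cast (by omega)
    rw [wt_congr (en_eq a ok ζ hζ k hk)]
    refine a1.trans (mul_le_mul a4 (mul_le_of_le_one_left a3.le a2) (by positivity) (by positivity))
  · obtain ⟨b, b1, b2, b3⟩ := sg_eq a ok ζ hζ k hk
    rw [sum_congr rfl fun p hp => by rw [b3 p (mem_range.1 hp)]]
    exact ok.W_sub _ ζ' k b1 b2

end Crest.Agent.R302
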