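import Crest.Agent.R302.Zest

/-! Row 302: estimating the accepted mass. -/

set_option autoImplicit false

namespace Crest.Agent.R302

open Crest.Agent.PT Crest.Agent.R309 Finset

/-- the accepted mass -/
noncomputable def mass (E : ℕ) (ρ : List ℕ) (m : ℕ) (acc : List ℕ → Word → Bool) : ℝ :=
  ∑ k ∈ bx E [] ρ, Pr m fun r => acc k r = true

namespace EstX

/-- the value of one trial -/
def V (Ls P : ℕ) (smp : Word → List ℕ) (en : List ℕ → ℤ) (acc : List ℕ → Word → Bool)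
    (r : Word) : ℤ :=
  if acc (smp (r.take Ls)) (r.drop Ls) = true then
    ((2 ^ min (en (smp (r.take Ls)) + P).toNat (2 * P) : ℕ) : ℤ) else 0

theorem V_nonneg (Ls P : ℕ) (smp : Word → List ℕ) (en : List ℕ → ℤ)
    (acc : List ℕ → Word → Bool) (r : Word) : 0 ≤ V Ls P smp en acc r := by
  unfold V
  split_ifs
  · positivity
  · exact le_rfl

theorem pow_eq {P : ℕ} {en : List ℕ → ℤ} {k : List ℕ} (h : (en k).natAbs ≤ P) :
    (((2 ^ min (en k + P).toNat (2 * P) : ℕ) : ℤ) : ℝ) = 2 ^ P / wt en k := by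
  have h1 : min (en k + P).toNat (2 * P) = (en k + P).toNat := min_eq_left (by omega)
  have h2 : (((en k + P).toNat : ℕ) : ℤ) = en k + P := Int.toNat_of_nonneg (by omega)
  rw [h1]
  push_cast
  rw [← zpow_natCast, h2, zpow_add₀ (by norm_num), wt, zpow_neg, zpow_natCast]
  field_simp

theorem Ex_ite (L : ℕ) (c : ℝ) (A : Word → Bool) :
    Ex L (fun v => if A v = true then c else 0) = c * Pr L fun v => A v = true := by
  unfold Pr
  rw [← Ex_mul_left]
  refine Ex_congr fun v _ => ?_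
  by_cases h : A v = true <;> simp [h]

theorem Ex_V {E P Ls : ℕ} {ρ : List ℕ} {smp : Word → List ℕ} {en : List ℕ → ℤ}
    (acc : List ℕ → Word → Bool) {δ : ℝ} (hm : ∀ ω, smp ω ∈ bx E [] ρ)
    (hen : ∀ k ∈ bx E [] ρ, (en k).natAbs ≤ P)
    (hs : ∀ k ∈ bx E [] ρ, |Pr Ls (fun ω => smp ω = k) - wt en k / Zb E [] ρ en| ≤
      δ * (wt en k / Zb E [] ρ en)) :
    |Ex (Ls + P) (fun r => (V Ls P smp en acc r : ℝ)) - 2 ^ P * (mass E ρ P acc / Zb E [] ρ en)| ≤
      δ * (2 ^ P * (mass E ρ P acc / Zb E [] ρ en)) := by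
  set G : List ℕ → ℝ := fun k => 2 ^ P / wt en k * Pr P fun v => acc k v = true with hG
  have hG0 : ∀ k, 0 ≤ G k := fun k => by
    have := wt_pos en k
    have := Pr_nonneg P fun v => acc k v = true
    simp only [hG]
    positivity
  have e1 : Ex (Ls + P) (fun r => (V Ls P smp en acc r : ℝ)) =
      ∑ k ∈ bx E [] ρ, Pr Ls (fun ω => smp ω = k) * G k := by
    rw [← Ex_comp Ls (bx E [] ρ) smp (fun ω _ => hm ω) G]
    have := Ex_split Ls P fun u v => if acc (smp u) v = true then 2 ^ P / wt en (smp u) else 0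
    rw [← Ex_congr (F := fun u => Ex P fun v =>
      if acc (smp u) v = true then 2 ^ P / wt en (smp u) else 0) fun u _ => Ex_ite _ _ _, ← this]
    refine Ex_congr fun r _ => ?_
    unfold V
    split_ifs with h
    · exact pow_eq (hen _ (hm _))
    · simp
  have e2 : 2 ^ P * (mass E ρ P acc / Zb E [] ρ en) =
      ∑ k ∈ bx E [] ρ, wt en k / Zb E [] ρ en * G k := by
    rw [mass, sum_div, mul_sum]
    refine sum_congr rfl fun k _ => ?_
    have := (wt_pos en k).ne'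
    simp only [hG]
    field_simp
  rw [e1, e2, ← sum_sub_distrib, mul_sum]
  refine (abs_sum_le_sum_abs _ _).trans (sum_le_sum fun k hk => ?_)
  rw [← sub_mul, abs_mul, abs_of_nonneg (hG0 k), ← mul_assoc δ]
  exact mul_le_mul_of_nonneg_right (hs k hk) (hG0 k)

theorem V_le {E P Ls : ℕ} {ρ : List ℕ} {smp : Word → List ℕ} {en : List ℕ → ℤ}
    {acc : List ℕ → Word → Bool} (hm : ∀ ω, smp ω ∈ bx E [] ρ)
    (hen : ∀ k ∈ bx E [] ρ, (en k).natAbs ≤ P)
    (ha : ∀ k ∈ bx E [] ρ, ∀ r, acc k r = true → 1 ≤ P * wt en k) (r : Word) :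
    (V Ls P smp en acc r : ℝ) ≤ P * 2 ^ P := by
  unfold V
  split_ifs with h
  · rw [pow_eq (hen _ (hm _)), div_le_iff₀ (wt_pos _ _)]
    have := ha _ (hm _) _ h
    have h2 : (0 : ℝ) < 2 ^ P := by positivity
    nlinarith
  · simp

/-- the number of trials -/
def nS (P : ℕ) : ℕ := 256 * P ^ 6 * (P + 2)

theorem exp_le (P : ℕ) : 2 * Real.exp (-((P : ℝ) + 2)) ≤ (2 : ℝ)⁻¹ ^ (P + 1) := by
  have h1 : Real.exp (-1) ≤ 2⁻¹ := by
    rw [Real.exp_neg]
    have := Real.add_one_le_exp (1 : ℝ)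
    exact inv_anti₀ (by norm_num) (by linarith)
  have h2 : Real.exp (-((P : ℝ) + 2)) = Real.exp (-1) ^ (P + 2) := by
    rw [← Real.exp_nat_mul]
    congr 1
    push_cast
    ring
  have h3 : Real.exp (-1) ^ (P + 2) ≤ (2 : ℝ)⁻¹ ^ (P + 2) :=
    pow_le_pow_left₀ (Real.exp_pos _).le h1 _
  rw [h2]
  have h4 : (2 : ℝ)⁻¹ ^ (P + 2) = (2 : ℝ)⁻¹ ^ (P + 1) * 2⁻¹ := pow_succ _ _
  linarith

theorem conc {P L : ℕ} (hP : 2 ≤ P) (f : Word → ℤ) (h0 : ∀ r, 0 ≤ f r)
    (h1 : ∀ r, (f r : ℝ) ≤ P * 2 ^ P) :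
    Pr (nS P * L) (fun ω => (nS P : ℝ) * (2 ^ P / (8 * P ^ 2)) <
      |(repZ L f (nS P) ω : ℝ) - nS P * Ex L fun r => (f r : ℝ)|) ≤ (2 : ℝ)⁻¹ ^ (P + 1) := by
  have hP0 : (0 : ℝ) < P := by exact_mod_cast (by omega : 0 < P)
  refine (hoeffding L (nS P) f 0 (P * 2 ^ P) (2 ^ P / (8 * P ^ 2)) (by positivity)
    (by positivity) fun r _ => ⟨by exact_mod_cast h0 r, by simpa using h1 r⟩).trans ?_
  refine le_of_eq_of_le ?_ (exp_le P)
  congr 3
  unfold nS
  push_cast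
  field_simp
  norm_num

theorem two_pow_le {P : ℕ} (hP : 2 ≤ P) : (2 : ℝ)⁻¹ ^ (8 * P) ≤ 1 / (8 * P) := by
  have hP0 : (0 : ℝ) < P := by exact_mod_cast (by omega : 0 < P)
  rw [inv_pow, ← one_div]
  refine one_div_le_one_div_of_le (by positivity) ?_
  exact_mod_cast (Nat.lt_two_pow_self (n := 8 * P)).le

/-- the final arithmetic -/
theorem final {p Z m z s e : ℝ} (hp : 2 ≤ p) (hZ : 0 < Z) (hm : Z ≤ p * m)
    (hz : |z - Z| ≤ Z / (8 * p)) (he : |e - m / Z| ≤ 1 / (8 * p) * (m / Z))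
    (hs : |s - e| ≤ 1 / (8 * p ^ 2)) : |z * s - m| ≤ m / p := by
  have hp0 : 0 < p := by linarith
  have hm0 : 0 < m := by
    by_contra hc
    have : p * m ≤ 0 := mul_nonpos_of_nonneg_of_nonpos hp0.le (not_lt.1 hc)
    linarith
  set μ := m / Z with hμ
  have hμ0 : 0 < μ := div_pos hm0 hZ
  have hmZ : m = Z * μ := by rw [hμ]; field_simp
  have h1 : 1 / (8 * p ^ 2) ≤ 1 / (8 * p) * μ := by
    have : 1 / p ≤ μ := by
      rw [hμ, div_le_div_iff₀ hp0 hZ]
      linarith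
    calc 1 / (8 * p ^ 2) = 1 / (8 * p) * (1 / p) := by field_simp
      _ ≤ _ := mul_le_mul_of_nonneg_left this (by positivity)
  set η := 1 / (8 * p) with hη
  have hη0 : 0 < η := by positivity
  have hη1 : η ≤ 1 := by
    rw [hη, div_le_one (by positivity)]
    linarith
  have h2 : |s - μ| ≤ 2 * η * μ := by
    have := abs_sub_le s e μ
    linarith
  have h3 : |z - Z| ≤ η * Z := by
    rw [hη]
    refine hz.trans (le_of_eq ?_)
    field_simp
  have h4 : |s| ≤ 3 * μ := by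
    have := abs_add_le (s - μ) μ
    rw [sub_add_cancel, abs_of_pos hμ0] at this
    nlinarith
  have h5 : z * s - m = (z - Z) * s + Z * (s - μ) := by rw [hmZ]; ring
  have h6 : |z * s - m| ≤ η * Z * (3 * μ) + Z * (2 * η * μ) := by
    rw [h5]
    refine (abs_add_le _ _).trans (add_le_add ?_ ?_)
    · rw [abs_mul]
      exact mul_le_mul h3 h4 (abs_nonneg _) (by positivity)
    · rw [abs_mul, abs_of_pos hZ]
      exact mul_le_mul_of_nonneg_left h2 hZ.le
  have h7 : m / p = 8 * η * (Z * μ) := by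
    rw [← hmZ, hη]
    field_simp
  have h8 : 0 < η * (Z * μ) := by positivity
  rw [h7]
  nlinarith

theorem qv_eq (z : ℕ × ℕ) {S : ℤ} (hS : 0 ≤ S) {N : ℕ} (hN : 0 < N) :
    qv (z.1 * S.toNat, (z.2 + 1) * N - 1) = qv z * (S / N) := by
  have h1 : 1 ≤ (z.2 + 1) * N := Nat.mul_pos (Nat.succ_pos _) hN
  have h2 : ((S.toNat : ℕ) : ℝ) = S := by exact_mod_cast Int.toNat_of_nonneg hS
  have h3 : (0 : ℝ) < N := by exact_mod_cast hN
  unfold qv
  simp only
  rw [Nat.cast_sub h1]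
  push_cast
  rw [h2]
  field_simp
  ring

theorem Pr_take (L L' : ℕ) (A : Word → Prop) :
    Pr (L + L') (fun ω => A (ω.take L)) = Pr L A := by
  classical
  unfold Pr
  exact Ex_take (Nat.le_add_right _ _) fun u => if A u then 1 else 0

theorem Pr_drop (L L' : ℕ) (A : Word → Prop) :
    Pr (L + L') (fun ω => A (ω.drop L)) = Pr L' A := by
  rw [Pr_split L L' fun _ v => A v, Ex_const]

theorem main {E P Ls Lz : ℕ} {ρ : List ℕ} {smp : Word → List ℕ} {en : List ℕ → ℤ}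
    {acc : List ℕ → Word → Bool} {zs : Word → ℕ × ℕ} (hP : 2 ≤ P)
    (hm : ∀ ω, smp ω ∈ bx E [] ρ) (hen : ∀ k ∈ bx E [] ρ, (en k).natAbs ≤ P)
    (hs : ∀ k ∈ bx E [] ρ, |Pr Ls (fun ω => smp ω = k) - wt en k / Zb E [] ρ en| ≤
      (2 : ℝ)⁻¹ ^ (8 * P) * (wt en k / Zb E [] ρ en))
    (hz : 1 - (2 : ℝ)⁻¹ ^ (8 * P) ≤ Pr Lz fun ω =>
      |qv (zs ω) - Zb E [] ρ en| ≤ Zb E [] ρ en / (8 * P : ℕ))
    (ha : ∀ k ∈ bx E [] ρ, ∀ r, acc k r = true → 1 ≤ P * wt en k)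
    (hZ : Zb E [] ρ en ≤ P * mass E ρ P acc) :
    1 - (2 : ℝ)⁻¹ ^ P ≤ Pr (Lz + nS P * (Ls + P)) fun ω =>
      |qv ((zs (ω.take Lz)).1 * (repZ (Ls + P) (V Ls P smp en acc) (nS P) (ω.drop Lz)).toNat,
        ((zs (ω.take Lz)).2 + 1) * (nS P * 2 ^ P) - 1) - mass E ρ P acc| ≤ mass E ρ P acc / P := by
  have hP0 : (0 : ℝ) < P := by exact_mod_cast (by omega : 0 < P)
  have hZ0 : 0 < Zb E [] ρ en := sum_pos (fun k _ => wt_pos en k) ⟨_, hm []⟩
  have hn : 0 < nS P := by unfold nS; positivity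
  have hn' : (0 : ℝ) < nS P := by exact_mod_cast hn
  have hc := conc (L := Ls + P) hP (V Ls P smp en acc) (V_nonneg _ _ _ _ _) (V_le hm hen ha)
  have hE := Ex_V acc hm hen hs
  set e := Ex (Ls + P) fun r => (V Ls P smp en acc r : ℝ) with he
  set B1 : Word → Prop := fun ω =>
    ¬ |qv (zs ω) - Zb E [] ρ en| ≤ Zb E [] ρ en / (8 * P : ℕ) with hB1
  set B2 : Word → Prop := fun ω => (nS P : ℝ) * (2 ^ P / (8 * P ^ 2)) <
      |(repZ (Ls + P) (V Ls P smp en acc) (nS P) ω : ℝ) - nS P * e| with hB2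
  have h1 : Pr Lz B1 ≤ (2 : ℝ)⁻¹ ^ (P + 1) := by
    have : (2 : ℝ)⁻¹ ^ (8 * P) ≤ (2 : ℝ)⁻¹ ^ (P + 1) :=
      pow_le_pow_of_le_one (by norm_num) (by norm_num) (by omega)
    rw [hB1, Pr_not]
    linarith
  have h2 := Pr_or_le (Lz + nS P * (Ls + P)) (fun ω => B1 (ω.take Lz)) fun ω => B2 (ω.drop Lz)
  rw [Pr_take, Pr_drop] at h2
  have h3 := Pr_not (Lz + nS P * (Ls + P)) fun ω => B1 (ω.take Lz) ∨ B2 (ω.drop Lz)
  have h4 : (2 : ℝ)⁻¹ ^ (P + 1) = (2 : ℝ)⁻¹ ^ P * 2⁻¹ := pow_succ _ _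
  refine le_trans (by linarith) (h3.ge.trans (Pr_mono fun ω _ hω => ?_))
  rw [not_or, hB1, hB2, not_not, not_lt] at hω
  obtain ⟨g1, g2⟩ := hω
  have hS : 0 ≤ repZ (Ls + P) (V Ls P smp en acc) (nS P) (ω.drop Lz) :=
    sum_nonneg fun i _ => V_nonneg _ _ _ _ _ _
  have h2P : (0 : ℝ) < 2 ^ P := by positivity
  rw [qv_eq _ hS (by positivity)]
  refine final (e := e / 2 ^ P) (by exact_mod_cast hP) hZ0 hZ (by simpa using g1) ?_ ?_
  · have hμ : 0 ≤ mass E ρ P acc / Zb E [] ρ en :=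
      div_nonneg (sum_nonneg fun k _ => Pr_nonneg _ _) hZ0.le
    have e1 : e / 2 ^ P - mass E ρ P acc / Zb E [] ρ en =
        (e - 2 ^ P * (mass E ρ P acc / Zb E [] ρ en)) / 2 ^ P := by field_simp
    rw [e1, abs_div, abs_of_pos h2P, div_le_iff₀ h2P]
    refine hE.trans ?_
    have := mul_le_mul_of_nonneg_right (two_pow_le hP) (mul_nonneg h2P.le hμ)
    linarith
  · set S : ℝ := (repZ (Ls + P) (V Ls P smp en acc) (nS P) (ω.drop Lz) : ℝ)
    have e1 : S / ((nS P * 2 ^ P : ℕ) : ℝ) - e / 2 ^ P = (S - nS P * e) / (nS P * 2 ^ P) := by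
      push_cast
      field_simp
    rw [e1, abs_div, abs_of_pos (mul_pos hn' h2P), div_le_iff₀ (mul_pos hn' h2P)]
    refine g2.trans (le_of_eq ?_)
    field_simp

end EstX

open EstX in
theorem exists_est {α : Type} [Rp α] [HasO α] (P E : α → ℕ) (hP : PU P) (hE : PU E)
    (ρ : α → List ℕ) (hρ : OT ρ)
    (en : α → List ℕ → ℤ) (hen : OT fun p : α × List ℕ => en p.1 p.2)
    (acc : α → List ℕ → Word → Bool)
    (hacc : OT fun p : α × List ℕ × Word => acc p.1 p.2.1 p.2.2) :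
    ∃ (L : ℕ → ℕ) (est : α × Word → ℕ × ℕ),
      (PU fun u : Un => L u.val) ∧ OT est ∧ ∀ a,
        ((∀ k r, acc a k r = false) → ∀ ω, (est (a, ω)).1 = 0) ∧
        (Nice (E a) (ρ a) (P a) (en a) →
          (∀ k ∈ bx (E a) [] (ρ a), ∀ r, acc a k r = true → 1 ≤ P a * wt (en a) k) →
          Zb (E a) [] (ρ a) (en a) ≤ P a * mass (E a) (ρ a) (P a) (acc a) →
          1 - (2 : ℝ)⁻¹ ^ P a ≤ Pr (L (P a)) fun ω =>
            |qv (est (a, ω)) - mass (E a) (ρ a) (P a) (acc a)| ≤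
              mass (E a) (ρ a) (P a) (acc a) / P a) := by
  have hP8 : PU fun a => 8 * P a := by fun_prop
  obtain ⟨Ls, smp, hLs, hsmp, hs⟩ := exists_smp (fun a => 8 * P a) E hP8 hE en hen
  obtain ⟨Lz, zs, hLz, hzs, hz⟩ := exists_zest (fun a => 8 * P a) E hP8 hE ρ hρ en hen
  have hLs' : PU fun a => Ls (8 * P a) := hLs.comp (PTime.unMk hP8)
  have hLz' : PU fun a => Lz (8 * P a) := hLz.comp (PTime.unMk hP8)
  have hnS : PU fun u : Un => nS u.val := by unfold nS; fun_prop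
  have hnS' : PU fun a => nS (P a) := hnS.comp (PTime.unMk hP)
  -- the sample of a trial
  have hk : OT fun p : α × Word => smp (p.1, [], ρ p.1, p.2.take (Ls (8 * P p.1))) :=
    hsmp.comp (f := fun p : α × Word => (p.1, [], ρ p.1, p.2.take (Ls (8 * P p.1))))
      ((OT.of_ptime PTime.fst').pair ((OT.of_ptime (PTime.const _)).pair
        ((hρ.pre PTime.fst' fun _ => rfl).pair
          (OT.of_ptime (PTime.take (hLs'.comp PTime.fst').ptime PTime.snd'))))) fun _ => rfl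
  have hV : OT fun p : α × Word =>
      V (Ls (8 * P p.1)) (P p.1) (fun u => smp (p.1, [], ρ p.1, u)) (en p.1) (acc p.1) p.2 := by
    have h1 : OT fun p : α × Word => en p.1 (smp (p.1, [], ρ p.1, p.2.take (Ls (8 * P p.1)))) :=
      hen.comp (f := fun p : α × Word => (p.1, smp (p.1, [], ρ p.1, p.2.take (Ls (8 * P p.1)))))
        ((OT.of_ptime PTime.fst').pair hk) fun _ => rfl
    have h2 : OT fun p : α × Word => acc p.1 (smp (p.1, [], ρ p.1, p.2.take (Ls (8 * P p.1))))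
        (p.2.drop (Ls (8 * P p.1))) :=
      hacc.comp (f := fun p : α × Word => (p.1, smp (p.1, [], ρ p.1, p.2.take (Ls (8 * P p.1))),
          p.2.drop (Ls (8 * P p.1))))
        ((OT.of_ptime PTime.fst').pair (hk.pair
          (OT.of_ptime (PTime.drop (hLs'.comp PTime.fst') PTime.snd')))) fun _ => rfl
    have hP' : PU fun q : (α × Word) × ℤ × Bool => P q.1.1 := hP.comp (by fun_prop)
    have h3 : PU fun q : (α × Word) × ℤ × Bool =>
        min (q.2.1 + P q.1.1).toNat (2 * P q.1.1) :=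
      PU.min_right (PTime.toNat (PTime.iadd (by fun_prop) (PTime.natCast hP'.ptime)))
        ((PU.const 2).mul hP')
    exact OT.map (E := fun q : (α × Word) × ℤ × Bool => if q.2.2 = true then
        ((2 ^ min (q.2.1 + P q.1.1).toNat (2 * P q.1.1) : ℕ) : ℤ) else 0)
      (PTime.ite (by fun_prop) (PTime.natCast (PTime.pow (PTime.const _) h3)) (PTime.const _))
      (h1.pair h2)
  have hS : OT fun p : α × Word => repZ (Ls (8 * P p.1) + P p.1)
      (V (Ls (8 * P p.1)) (P p.1) (fun u => smp (p.1, [], ρ p.1, u)) (en p.1) (acc p.1))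
      (nS (P p.1)) (p.2.drop (Lz (8 * P p.1))) :=
    OT.repZ (f := fun (p : α × Word) r =>
        V (Ls (8 * P p.1)) (P p.1) (fun u => smp (p.1, [], ρ p.1, u)) (en p.1) (acc p.1) r)
      ((hLs'.add hP).comp PTime.fst') (hnS'.comp PTime.fst')
      (hV.pre (f := fun q : (α × Word) × Word => (q.1.1, q.2)) (by fun_prop) fun _ => rfl)
      (PTime.drop (hLz'.comp PTime.fst') PTime.snd')
  have hZ : OT fun p : α × Word => zs (p.1, p.2.take (Lz (8 * P p.1))) :=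
    hzs.pre (f := fun p : α × Word => (p.1, p.2.take (Lz (8 * P p.1))))
      (PTime.fst'.pair (PTime.take (hLz'.comp PTime.fst').ptime PTime.snd')) fun _ => rfl
  refine ⟨fun p => Lz (8 * p) + nS p * (Ls (8 * p) + p), fun p =>
    ((zs (p.1, p.2.take (Lz (8 * P p.1)))).1 * (repZ (Ls (8 * P p.1) + P p.1)
      (V (Ls (8 * P p.1)) (P p.1) (fun u => smp (p.1, [], ρ p.1, u)) (en p.1) (acc p.1))
      (nS (P p.1)) (p.2.drop (Lz (8 * P p.1)))).toNat,
      ((zs (p.1, p.2.take (Lz (8 * P p.1)))).2 + 1) * (nS (P p.1) * 2 ^ P p.1) - 1), ?_, ?_,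
    fun a => ⟨fun h ω => ?_, fun hN ha hZ' => ?_⟩⟩
  · have h8 : PTime fun u : Un => Un.mk (8 * u.val) := by fun_prop
    exact (hLz.comp h8).add (hnS.mul ((hLs.comp h8).add (PU.val PTime.id)))
  · have hP' : PU fun q : (α × Word) × (ℕ × ℕ) × ℤ => P q.1.1 := hP.comp (by fun_prop)
    have hn' : PU fun q : (α × Word) × (ℕ × ℕ) × ℤ => nS (P q.1.1) := hnS'.comp (by fun_prop)
    have hF : PTime fun q : (α × Word) × (ℕ × ℕ) × ℤ =>
        (q.2.1.1 * q.2.2.toNat, (q.2.1.2 + 1) * (nS (P q.1.1) * 2 ^ P q.1.1) - 1) :=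
      PTime.pair (by fun_prop) (PTime.sub (PTime.mul (by fun_prop)
        (hn'.ptime.mul (PTime.pow (PTime.const _) hP'))) (PTime.const _))
    have := OT.map hF (hZ.pair hS)
    exact this
  · simp [repZ, V, h]
  · have hN' := hN.mono (by omega : P a ≤ 8 * P a)
    have hsub : Pin (E a) (ρ a) [] (ρ a) := pin_full _ _
    have := main (E := E a) (P := P a) (Ls := Ls (8 * P a)) (Lz := Lz (8 * P a)) (ρ := ρ a)
      (en := en a) (acc := acc a) (smp := fun u => smp (a, [], ρ a, u))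
      (zs := fun u => zs (a, u)) hN.2.1
      (hs a _ _ _ hsub).1 hN.2.2.2.1 ((hs a _ _ _ hsub).2 hN') (hz a hN') ha hZ'
    dsimp only at this ⊢
    exact this


end Crest.Agent.R302
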