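import Crest.Agent.R302.Reg
import Crest.Agent.R302.Conv
import Crest.Agent.R302.Poi

/-! Row 302: Poincaré inequality of the thin fibres. -/

set_option autoImplicit false

namespace Crest.Agent.R302

open Crest.Agent.PT Crest.Agent.R309 Finset

namespace FibX

/-- the directions of the fibre -/
def dv (S : Mod) (m : ℕ) : Vec :=
  if m % 2 = 1 then ev (S.b.el (m / 2)) else ev (S.n + S.b.el (m / 2))

theorem dv_odd (S : Mod) (e : ℕ) : dv S (2 * e + 1) = ev (S.b.el e) := by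
  have h1 : (2 * e + 1) % 2 = 1 := by omega
  have h2 : (2 * e + 1) / 2 = e := by omega
  rw [dv, if_pos h1, h2]

theorem dv_even (S : Mod) (e : ℕ) : dv S (2 * e) = ev (S.n + S.b.el e) := by
  have h1 : ¬ (2 * e) % 2 = 1 := by omega
  have h2 : (2 * e) / 2 = e := by omega
  rw [dv, if_neg h1, h2]

theorem dv_ev {S : Mod} (h : S.OK) {m : ℕ} (hm : m < 2 * S.b.nt) :
    ∃ j < 2 * S.n, dv S m = ev j := by
  have h1 := h.bas.el_lt (m / 2) (by omega)
  unfold dv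
  split_ifs
  · exact ⟨_, by omega, rfl⟩
  · exact ⟨_, by omega, rfl⟩

theorem hadd (d : ℕ → Vec) (y0 : Vec) (E : ℕ) (γ : Cfg) {e : ℕ} (he : e < E) (s : Bool) :
    y0 + ∑ e' ∈ range E, ((((γ + uv (e, s)) (e', true) : ℕ) : ℤ) • d (2 * e' + 1) +
        (((γ + uv (e, s)) (e', false) : ℕ) : ℤ) • d (2 * e')) =
      y0 + ∑ e' ∈ range E, ((γ (e', true) : ℤ) • d (2 * e' + 1) + (γ (e', false) : ℤ) • d (2 * e')) +
        d (if s then 2 * e + 1 else 2 * e) := by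
  rw [add_assoc]
  congr 1
  have : ∀ e' ∈ range E, (((γ + uv (e, s)) (e', true) : ℕ) : ℤ) • d (2 * e' + 1) +
        (((γ + uv (e, s)) (e', false) : ℕ) : ℤ) • d (2 * e') =
      ((γ (e', true) : ℤ) • d (2 * e' + 1) + (γ (e', false) : ℤ) • d (2 * e')) +
        if e' = e then d (if s then 2 * e + 1 else 2 * e) else 0 := by
    intro e' _
    by_cases h : e' = e
    · subst h
      cases s <;> simp [LorX.uv_apply, add_smul] <;> abel
    · simp [LorX.uv_apply, h]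
  rw [sum_congr rfl this, sum_add_distrib, sum_ite_eq' (range E) e, if_pos (mem_range.2 he)]

theorem rt_getD (S : Mod) {i : ℕ} (hi : i < S.b.nt) : S.rt.getD i 0 = 2 * S.T := by
  simp [Mod.rt, List.getD_eq_getElem?_getD, hi]

theorem rf_getD (S : Mod) {i : ℕ} (hi : i < S.b.nf) : S.rf.getD i 0 = S.M := by
  simp [Mod.rf, List.getD_eq_getElem?_getD, hi]

theorem om_fib {S : Mod} (h : S.OK) {Y : Vec} (hY : S.Om (S.Q ^ 8) Y) (β : Cfg)
    (hβ : ∀ i, β i ≤ 2 * S.T + 2) :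
    S.Om (S.Q ^ 200) (Y - ∑ i ∈ range S.b.nt,
      ((S.T : ℤ) • S.gv i + (2 * S.T : ℤ) • ev (S.n + S.b.el i)) + ∑ e ∈ range S.b.nt,
        ((β (e, true) : ℤ) • dv S (2 * e + 1) + (β (e, false) : ℤ) • dv S (2 * e))) := by
  have hQ := h.Q_ge
  rw [sub_add_eq_add_sub, add_sub_assoc, ← sum_sub_distrib]
  refine (hY.add (r' := S.Q ^ 162) fun a ha => ?_).mono ?_
  · rw [Mod.X_sum]
    have hT : (0 : ℤ) < S.T := by rw [Mod.T_eq]; exact_mod_cast pow_pos Mod.Q_pos _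
    have h1 : ∀ i ∈ range S.b.nt, |S.X a ((β (i, true) : ℤ) • dv S (2 * i + 1) +
        (β (i, false) : ℤ) • dv S (2 * i) -
          ((S.T : ℤ) • S.gv i + (2 * S.T : ℤ) • ev (S.n + S.b.el i)))| ≤ 16 * S.T := by
      intro i hi
      rw [Mod.X_sub, Mod.X_add, Mod.X_add, Mod.X_smul, Mod.X_smul, Mod.X_smul, Mod.X_smul, dv_odd,
        dv_even]
      have a1 := Mod.X_ev (S := S) a (S.b.el i)
      have a2 := Mod.X_ev (S := S) a (S.n + S.b.el i)
      have a3 := abs_le.1 (h.X_gv a (mem_range.1 hi))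
      have a4 : (β (i, true) : ℤ) ≤ 2 * S.T + 2 := by exact_mod_cast hβ _
      have a5 : (β (i, false) : ℤ) ≤ 2 * S.T + 2 := by exact_mod_cast hβ _
      have a6 : (0 : ℤ) ≤ β (i, true) := Int.natCast_nonneg _
      have a7 : (0 : ℤ) ≤ β (i, false) := Int.natCast_nonneg _
      rw [abs_le]
      constructor <;> nlinarith [a1.1, a1.2, a2.1, a2.2, a3.1, a3.2]
    refine (abs_sum_le_sum_abs _ _).trans ((sum_le_card_nsmul _ _ _ h1).trans ?_)
    rw [card_range, nsmul_eq_mul, Mod.T_eq]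
    have b1 : 16 * S.b.nt ≤ S.Q := by have := h.bas.nt_le; have := h.nQ; omega
    have b2 := h.two_j ha
    have b3 : S.b.nt * (16 * S.Q ^ 311) ≤ S.Q ^ 162 * 2 ^ S.j a :=
      calc S.b.nt * (16 * S.Q ^ 311) = 16 * S.b.nt * S.Q ^ 311 := by ring
        _ ≤ S.Q * S.Q ^ 311 := Nat.mul_le_mul_right _ b1
        _ = S.Q ^ 162 * S.Q ^ 150 := by ring
        _ ≤ _ := Nat.mul_le_mul_left _ b2
    exact_mod_cast b3
  · have b1 : S.Q ^ 8 ≤ S.Q ^ 199 := Nat.pow_le_pow_right (by omega) (by norm_num)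
    have b2 : S.Q ^ 162 ≤ S.Q ^ 199 := Nat.pow_le_pow_right (by omega) (by norm_num)
    have b3 : 2 * S.Q ^ 199 ≤ S.Q ^ 200 := by
      rw [pow_succ' S.Q 199]; exact Nat.mul_le_mul_right _ (by omega)
    omega

end FibX

open FibX

theorem Mod.OK.fibre_poi {S : Mod} (h : S.OK) {ζ : ℕ → ℤ} {C : Vec → ℝ} (hC : S.Conf ζ C)
    {k : List ℕ} (hk : k ∈ bx S.b.nf [] S.rf) {lo hi : List ℕ} (hs : Sub S.b.nt S.rt lo hi) :
    Poi S.b.nt lo hi ((S.Q : ℝ) ^ 1280) fun a => C (dg S.n (S.y (k ++ a))) := by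
  obtain ⟨hl, hk2⟩ := mem_bx.1 hk
  have hY : S.Om (S.Q ^ 8) (dg S.n (S.yc k)) := h.om_yc fun e he => by
    have := (hk2 e he).2
    rwa [rf_getD S he] at this
  have hQ : (4096 : ℝ) ≤ S.Q := by exact_mod_cast h.Q_ge
  obtain ⟨y0, hy0⟩ : ∃ y0, y0 = dg S.n (S.yc k) - ∑ i ∈ range S.b.nt,
    ((S.T : ℤ) • S.gv i + (2 * S.T : ℤ) • ev (S.n + S.b.el i)) := ⟨_, rfl⟩
  have h1 := Poi.of_SL (E := S.b.nt) (c := fun γ => C (y0 + ∑ e ∈ range S.b.nt,
      ((γ (e, true) : ℤ) • dv S (2 * e + 1) + (γ (e, false) : ℤ) • dv S (2 * e))))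
    (fun _ => hC.pos _) (U := 2 * S.T + 2) (by omega)
    (fun β _ => SLa.toSL y0 β ((hC.sl _).reindex fun i hi => Or.inr (dv_ev h hi)))
    (K := (S.Q : ℝ) ^ 5) (one_le_pow₀ (by linarith)) (fun β hβ i hi => ?_)
    (fun e he => by rw [rt_getD S he]) hs
  · have key : ∀ a ∈ bx S.b.nt lo hi, y0 + ∑ e ∈ range S.b.nt,
        ((cfgOf S.b.nt S.rt 0 a (e, true) : ℤ) • dv S (2 * e + 1) +
          (cfgOf S.b.nt S.rt 0 a (e, false) : ℤ) • dv S (2 * e)) = dg S.n (S.y (k ++ a)) := by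
      intro a ha
      rw [h.y_append hl, hy0, sub_add_eq_add_sub, add_sub_assoc, ← sum_sub_distrib]
      congr 1
      refine sum_congr rfl fun i hi' => ?_
      have hi2 := mem_range.1 hi'
      have a1 := ((mem_bx.1 ha).2 i hi2).2
      have a2 := (hs i hi2).2
      rw [rt_getD S hi2] at a2
      simp only [cfgOf, if_pos hi2, if_true, Bool.false_eq_true, if_false, rt_getD S hi2]
      rw [dv_odd, dv_even, h.isB_gv hi2, Nat.cast_sub (a1.trans a2)]
      push_cast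
      module
    have h2 := h1.cmp (κ := 1) (w := fun a => C (dg S.n (S.y (k ++ a)))) (by positivity) le_rfl
      (fun _ _ => hC.pos _) (fun a ha => by rw [one_mul, key a ha])
      fun a ha => by rw [one_mul, key a ha]
    · refine h2.mono (fun _ => (hC.pos _).le) ?_
      have b1 : (S.b.nt : ℝ) + 1 ≤ S.Q / 4 := by
        have : 4 * (S.b.nt + 1) ≤ S.Q := by
          have := h.bas.nt_le; have := h.nQ; have := h.n_pos; omega
        have : (4 : ℝ) * (S.b.nt + 1) ≤ S.Q := by exact_mod_cast this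
        linarith
      have b2 : ((2 * S.T + 2 : ℕ) : ℝ) ≤ (S.Q : ℝ) ^ 312 := by
        have : 2 * S.T + 2 ≤ S.Q ^ 312 := by
          have a1 : 1 ≤ S.Q ^ 311 := Nat.one_le_pow _ _ Mod.Q_pos
          have a2 : 4 * S.Q ^ 311 ≤ S.Q * S.Q ^ 311 :=
            Nat.mul_le_mul_right _ (by have := h.Q_ge; omega)
          rw [Mod.T_eq, pow_succ' S.Q 311]; omega
        exact_mod_cast this
      calc (1 : ℝ) ^ 4 * (10 * ((S.b.nt : ℝ) + 1) ^ 2 * ((2 * S.T + 2 : ℕ) : ℝ) ^ 4 *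
            ((S.Q : ℝ) ^ 5) ^ 4)
          ≤ 1 ^ 4 * (16 * ((S.Q : ℝ) / 4) ^ 2 * ((S.Q : ℝ) ^ 312) ^ 4 * ((S.Q : ℝ) ^ 5) ^ 4) := by
            gcongr; norm_num
        _ = (S.Q : ℝ) ^ 1270 := by ring
        _ ≤ _ := pow_le_pow_right₀ (by linarith) (by norm_num)
  · obtain ⟨e, s⟩ := i
    have he := BridgeX.mem_dirs.1 hi
    have hO := om_fib h hY β hβ
    rw [← hy0] at hO
    obtain ⟨j, hj, ej⟩ := dv_ev h (m := if s then 2 * e + 1 else 2 * e) (by split_ifs <;> omega)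
    beta_reduce
    rw [hadd (dv S) y0 _ β he s, ej]
    generalize y0 + ∑ e ∈ range S.b.nt,
      ((β (e, true) : ℤ) • dv S (2 * e + 1) + (β (e, false) : ℤ) • dv S (2 * e)) = Y at hO ⊢
    obtain ⟨r1, r2⟩ := h.w_ratio ζ hO hj
    have c1 := hC.le1 Y
    have c2 := hC.le2 Y
    have c3 := hC.le1 (Y + ev j)
    have c4 := hC.le2 (Y + ev j)
    have c5 := hC.pos Y
    have c6 := hC.pos (Y + ev j)
    have q4 : (0 : ℝ) < (S.Q : ℝ) ^ 4 := by positivity
    have q5 : 64 * (S.Q : ℝ) ^ 4 ≤ (S.Q : ℝ) ^ 5 := by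
      rw [pow_succ' (S.Q : ℝ) 4]; nlinarith
    constructor
    · nlinarith [mul_le_mul_of_nonneg_left c1 q4.le, mul_le_mul_of_nonneg_right q5 c5.le]
    · nlinarith [mul_le_mul_of_nonneg_left c3 q4.le, mul_le_mul_of_nonneg_right q5 c6.le]

end Crest.Agent.R302
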