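import Crest.Agent.R302.TreeA

/-! Row 302: computing the scale tree. -/

set_option autoImplicit false

namespace Crest.Agent.R302

open Crest.Agent.PT Crest.Agent.R309 Finset

namespace TreeX

open SfmX

theorem pt_EE {β : Type} [Rp β] {n N t u v : β → ℕ} {W : β → Word} {L : β → List ℤ}
    (hn : PTime n) (hN : PU N) (ht : PU t) (hu : PTime u) (hv : PTime v) (hW : PTime W)
    (hL : PTime L) : PTime fun b =>
      EE (N b) (RR (n b) (W b)) (fun c => (L b).getD c 0) (t b) (u b) (v b) :=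
  PTime.forall_lt (c := fun b c => (L b).getD c 0 < 2 ^ t b →
    (u b ∈ RR (n b) (W b) c ↔ v b ∈ RR (n b) (W b) c)) hN (by simp only [mem_RR]; fun_prop)

theorem pt_II {β : Type} [Rp β] {n N a w : β → ℕ} {W : β → Word} {ch : β × Un → ℕ}
    (hn : PU n) (hN : PTime N) (ha : PTime a) (hw : PTime w) (hW : PTime W)
    (hch : PTime ch) :
    PTime fun b => w b ∈ II (n b) (N b) (RR (n b) (W b)) (fun v => ch (b, Un.mk v)) (a b) := by
  have hn' := hn.ptime
  have h := PTime.forall_lt (c := fun b v => ch (b, Un.mk v) < N b → a b ∈ RR (n b) (W b) (ch (b, Un.mk v)) →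
    w b ∈ RR (n b) (W b) (ch (b, Un.mk v))) hn (by simp only [mem_RR]; fun_prop)
  exact ((hw.lt hn').and h).congr fun b => propext (by simp only [II, mem_filter, mem_range])

theorem pt_JJ {β : Type} [Rp β] {n N a w : β → ℕ} {W : β → Word} {ch : β × Un → ℕ}
    (hn : PU n) (hN : PTime N) (ha : PTime a) (hw : PTime w) (hW : PTime W)
    (hch : PTime ch) :
    PTime fun b => w b ∈ JJ (n b) (N b) (RR (n b) (W b)) (fun v => ch (b, Un.mk v)) (a b) := by
  have hn' := hn.ptime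
  have h := PTime.exists_lt (c := fun b v => ch (b, Un.mk v) < N b ∧ a b ∉ RR (n b) (W b) (ch (b, Un.mk v)) ∧
    w b ∈ RR (n b) (W b) (ch (b, Un.mk v))) hn (by simp only [mem_RR]; fun_prop)
  exact ((pt_II hn hN ha hw hW hch).and h).congr fun b => propext (by simp only [JJ, mem_filter])

end TreeX

open TreeX SfmX

theorem exists_tree {α : Type} [Rp α] [HasO α] (n g B : α → ℕ) (hn : PU n) (hg : PU g) (hB : PU B)
    (f1 f2 : α → Finset ℕ → ℤ) (h1 : OT fun p : α × Word => f1 p.1 (st (n p.1) p.2))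
    (h2 : OT fun p : α × Word => f2 p.1 (st (n p.1) p.2)) :
    ∃ T : α → List ℕ × List ℕ × List ℤ, OT T ∧ ∀ a, (T a).1.length = n a ∧
      (Pair (n a) (f1 a) (f2 a) → (PS (n a) (f1 a) (f2 a)).Nonempty →
        (∀ S ⊆ range (n a), |f1 a S| < 2 ^ B a ∧ |f2 a S| < 2 ^ B a) →
        TreeOK (n a) (f1 a) (f2 a) (g a) (g a + B a + 2) (pf (T a).1)
          (fun i => (T a).2.1.getD i 0) (fun i => (T a).2.2.getD i 0)) := by
  have hn' := hn.ptime
  have hg' := hg.ptime
  obtain ⟨D, hD, hD'⟩ := exists_cand n B hn hB f1 f2 h1 h2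
  obtain ⟨N, hN, eN⟩ : ∃ N : α → ℕ, PU N ∧ ∀ a, N a = (B a + 3) * n a * n a :=
    ⟨_, by fun_prop, fun _ => rfl⟩
  have hN' := hN.ptime
  obtain ⟨r, hr, hr'⟩ := PU.find_lt (α := (α × Word × List ℤ) × Un) (n := fun p => B p.1.1 + 2)
    (c := fun p i => ∀ k < p.2.val, ¬ EE (N p.1.1) (RR (n p.1.1) p.1.2.1)
      (fun c => p.1.2.2.getD c 0) (g p.1.1 + i) p.2.val k) (by fun_prop)
    (PTime.forall_lt (α := ((α × Word × List ℤ) × Un) × Un) (n := fun p => p.1.2.val)
      (c := fun p k => ¬ EE (N p.1.1.1) (RR (n p.1.1.1) p.1.1.2.1)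
        (fun c => p.1.1.2.2.getD c 0) (g p.1.1.1 + p.2.val) p.1.2.val k) (by fun_prop)
      (pt_EE (by fun_prop) (by fun_prop) (by fun_prop) (by fun_prop) (by fun_prop) (by fun_prop)
        (by fun_prop)).not)
  have hr2 := hr.ptime
  have hr3 : PU fun p : ((α × Word × List ℤ) × Un) × Un => r p.1 := hr.comp PTime.fst'
  obtain ⟨q, hq, hq'⟩ := PU.find_lt (α := (α × Word × List ℤ) × Un) (n := fun p => p.2.val)
    (c := fun p k => EE (N p.1.1) (RR (n p.1.1) p.1.2.1)
      (fun c => p.1.2.2.getD c 0) (g p.1.1 + (r p - 1)) p.2.val k) (by fun_prop)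
    (pt_EE (by fun_prop) (by fun_prop) (by fun_prop) (by fun_prop) (by fun_prop) (by fun_prop)
      (by fun_prop))
  have hq2 := hq.ptime
  have hr4 : PU fun p : (((α × Word × List ℤ) × Un) × Un) × Un => g p.1.1.1.1 + r p.1.1 := by
    fun_prop
  obtain ⟨ch, hch, hch'⟩ := PU.find_lt (α := ((α × Word × List ℤ) × Un) × Un)
    (n := fun p => N p.1.1.1)
    (c := fun p c => p.1.1.2.2.getD c 0 < 2 ^ (g p.1.1.1 + r p.1) ∧
      ¬ (p.1.2.val ∈ RR (n p.1.1.1) p.1.1.2.1 c ↔ p.2.val ∈ RR (n p.1.1.1) p.1.1.2.1 c))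
    (by fun_prop) (by simp only [mem_RR]; fun_prop)
  have hch2 := hch.ptime
  have hch3 : PTime fun p : (((α × Word × List ℤ) × Un) × Un) × Un => ch (p.1.1, p.2) := by
    fun_prop
  have hI := qry hn h1 (β := (α × Word × List ℤ) × Un) (fun p => p.1.1)
    (fun p => II (n p.1.1) (N p.1.1) (RR (n p.1.1) p.1.2.1) (fun v => ch (p, Un.mk v)) p.2.val)
    (by fun_prop) (fun _ => rfl) (fun _ => filter_subset _ _)
    (pt_II (ch := fun p : (((α × Word × List ℤ) × Un) × Un) × Un => ch (p.1.1, p.2))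
      (by fun_prop) (by fun_prop) (by fun_prop) (by fun_prop) (by fun_prop) hch3)
  have hJ := qry hn h1 (β := (α × Word × List ℤ) × Un) (fun p => p.1.1)
    (fun p => JJ (n p.1.1) (N p.1.1) (RR (n p.1.1) p.1.2.1) (fun v => ch (p, Un.mk v)) p.2.val)
    (by fun_prop) (fun _ => rfl) (fun _ => (filter_subset _ _).trans (filter_subset _ _))
    (pt_JJ (ch := fun p : (((α × Word × List ℤ) × Un) × Un) × Un => ch (p.1.1, p.2))
      (by fun_prop) (by fun_prop) (by fun_prop) (by fun_prop) (by fun_prop) hch3)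
  have hr5 : PU fun p : ((α × Word × List ℤ) × Un) × ℤ × ℤ => g p.1.1.1 + r p.1 := by fun_prop
  have hl0 := OT.map (E := fun p : ((α × Word × List ℤ) × Un) × ℤ × ℤ =>
    p.2.1 - p.2.2 - (n p.1.1.1 : ℤ) * 2 ^ (g p.1.1.1 + r p.1)) (by fun_prop) (hI.pair hJ)
  have hl := OT.rangeMapZ (α := α × Word × List ℤ) (n := fun p => n p.1) (g := fun p i =>
    f1 p.1 (II (n p.1) (N p.1) (RR (n p.1) p.2.1) (fun v => ch ((p, Un.mk i), Un.mk v)) i) -
      f1 p.1 (JJ (n p.1) (N p.1) (RR (n p.1) p.2.1) (fun v => ch ((p, Un.mk i), Un.mk v)) i) -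
        (n p.1 : ℤ) * 2 ^ (g p.1 + r (p, Un.mk i))) (by fun_prop) hl0
  have hp := rangeMapN (α := α × Word × List ℤ) (n := fun p => n p.1)
    (g := fun p i => if r (p, Un.mk i) = 0 then i else q (p, Un.mk i)) (by fun_prop)
    (PTime.ite (hr2.eq (PTime.const 0)) (by fun_prop) hq2)
  have hj := rangeMapN (α := α × Word × List ℤ) (n := fun p => n p.1)
    (g := fun p i => g p.1 + (r (p, Un.mk i) - 1)) (by fun_prop)
    ((hg'.comp (PTime.fst'.fst)).add (hr2.sub (PTime.const 1)))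
  refine ⟨_, OT.bind ((OT.of_ptime hp).pair ((OT.of_ptime hj).pair hl)) hD, fun a =>
    ⟨by simp, fun hP hx hb => ?_⟩⟩
  have hC := hD' a hP hx hb
  rw [← eN] at hC
  refine tree_of_cand hP hC (g a) (r := fun i => r ((a, D a), Un.mk i))
    (q := fun i => q ((a, D a), Un.mk i)) (ch := fun i v => ch (((a, D a), Un.mk i), Un.mk v))
    (fun i _ => hr' ((a, D a), Un.mk i)) (fun i _ => hq' ((a, D a), Un.mk i)) (fun i => ?_)
    (fun i hi => getD_mapN _ hi) (fun i _ v _ => hch' (((a, D a), Un.mk i), Un.mk v))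
    fun i hi => getD_mapZ _ hi
  simp only [pf, List.length_map, List.length_range]
  by_cases hi : i < n a
  · rw [if_pos hi, if_pos hi, getD_mapN _ hi]
  · rw [if_neg hi, if_neg hi]

end Crest.Agent.R302
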