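import Crest.Agent.R302.Core
import Crest.Agent.R302.Tree
import Crest.Agent.R302.Basis

/-! Row 302: the approximation scheme for the number of integer points of `B(f₁) ∩ -B(f₂)`. -/

set_option autoImplicit false

namespace Crest.Agent.R302

open Crest.Agent.PT Crest.Agent.R309 Finset

namespace FprasX

/-- two lists side by side -/
def side {β : Type} (n : ℕ) (l l' : List β) (d : β) : List β :=
  (List.range (2 * n)).map fun i => if i < n then l.getD i d else l'.getD (i - n) d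

theorem side_left {β : Type} {n i : ℕ} (l l' : List β) (d : β) (h : i < n) :
    (side n l l' d).getD i d = l.getD i d := by
  have : i < 2 * n := by omega
  simp [side, List.getD_eq_getElem?_getD, this, h]

theorem side_right {β : Type} {n i : ℕ} (l l' : List β) (d : β) (h : i < n) :
    (side n l l' d).getD (n + i) d = l'.getD i d := by
  have : n + i < 2 * n := by omega
  simp [side, List.getD_eq_getElem?_getD, this]

theorem cases2 {n : ℕ} {C : ℕ → Prop} (h1 : ∀ a < n, C a) (h2 : ∀ a < n, C (n + a)) :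
    ∀ a < 2 * n, C a := fun a ha => by
  rcases Nat.lt_or_ge a n with h | h
  · exact h1 a h
  · obtain ⟨b, rfl⟩ := Nat.exists_eq_add_of_le h
    exact h2 b (by omega)

theorem pp_left {n a : ℕ} (p1 p2 : ℕ → ℕ) (h : a < n) : pp n p1 p2 a = p1 a := if_pos h

theorem pp_right {n a : ℕ} (p1 p2 : ℕ → ℕ) (h : a < n) : pp n p1 p2 (n + a) = n + p2 a := by
  rw [pp, if_neg (by omega), if_pos (by omega), Nat.add_sub_cancel_left]

abbrev Tr : Type := List ℕ × List ℕ × List ℤ

/-- the model of two trees -/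
def mk (bs : Un × Un × List ℕ × List ℕ × List ℕ → Bas) (n P : ℕ) (f1 f2 : Finset ℕ → ℤ)
    (t1 t2 : Tr) : Mod where
  n := n
  q := P.size + 10
  B := P
  f1 := f1
  f2 := f2
  l1 := t1.1
  l2 := t2.1
  jl := side n t1.2.1 t2.2.1 0
  lol := side n t1.2.2 t2.2.2 0
  b := bs (⟨n⟩, ⟨150 * (P.size + 10) + P + 2⟩, t1.1, t2.1, side n t1.2.1 t2.2.1 0)

theorem BQ (P : ℕ) : 1024 * P ≤ 2 ^ (P.size + 10) := by
  have := Nat.lt_size_self P
  rw [pow_add]
  omega

end FprasX

open FprasX in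
theorem exists_fpras {α : Type} [Rp α] [HasO α] (n P : α → ℕ) (hn : PU n) (hP : PU P)
    (f1 f2 : α → Finset ℕ → ℤ) (h1 : OT fun p : α × Word => f1 p.1 (st (n p.1) p.2))
    (h2 : OT fun p : α × Word => f2 p.1 (st (n p.1) p.2)) :
    ∃ (L : ℕ → ℕ) (est : α × Word → ℕ × ℕ), (PU fun u : Un => L u.val) ∧ OT est ∧ ∀ a,
      Pair (n a) (f1 a) (f2 a) → 1 ≤ n a → 2 * n a + 2 ≤ P a →
      (∀ S ⊆ range (n a), |f1 a S| < 2 ^ P a ∧ |f2 a S| < 2 ^ P a) →
      (PS (n a) (f1 a) (f2 a) = ∅ → ∀ ω, (est (a, ω)).1 = 0) ∧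
      ((PS (n a) (f1 a) (f2 a)).Nonempty → 1 - (2 : ℝ)⁻¹ ^ P a ≤ Pr (L (P a)) fun ω =>
        |qv (est (a, ω)) - (PS (n a) (f1 a) (f2 a)).ncard| ≤
          ((PS (n a) (f1 a) (f2 a)).ncard : ℝ) / P a) := by
  have hq : PU fun a => (P a).size + 10 := (PU.size hP.ptime).add (PU.const _)
  have hg : PU fun a => 150 * ((P a).size + 10) := (PU.const _).mul hq
  obtain ⟨T1, hT1, t1⟩ := exists_tree n _ P hn hg hP f1 f2 h1 h2
  obtain ⟨T2, hT2, t2⟩ := exists_tree n _ P hn hg hP f2 f1 h2 h1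
  obtain ⟨bs, hbs, tb⟩ := exists_basis
  have hn' : PU fun p : α × Tr × Tr => n p.1 := hn.comp PTime.fst'
  have hn'' : PTime fun p : (α × Tr × Tr) × Un => n p.1.1 := (hn'.comp PTime.fst').ptime
  have hj : PTime fun p : α × Tr × Tr => side (n p.1) p.2.1.2.1 p.2.2.2.1 0 :=
    rangeMapN ((PU.const 2).mul hn') (by fun_prop)
  have hQ : PU fun u : Un => 2 ^ (u.val.size + 10) :=
    ((PU.two_pow_size PTime.id).mul (PU.const (2 ^ 10))).congr fun u => by simp only [pow_add]
  have hc : Mod.Comp fun p : α × Tr × Tr => mk bs (n p.1) (P p.1) (f1 p.1) (f2 p.1) p.2.1 p.2.2 :=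
    { n := hn'
      q := hq.comp PTime.fst'
      Q := hQ.comp (f := fun p : α × Tr × Tr => Un.mk (P p.1)) (hP.comp PTime.fst')
      B := hP.comp PTime.fst'
      f1 := h1.pre (f := fun p : (α × Tr × Tr) × Word => (p.1.1, p.2)) (by fun_prop) fun _ => rfl
      f2 := h2.pre (f := fun p : (α × Tr × Tr) × Word => (p.1.1, p.2)) (by fun_prop) fun _ => rfl
      l1 := PTime.snd'.fst.fst
      l2 := PTime.snd'.snd.fst
      jl := hj
      lol := rangeMapZ ((PU.const 2).mul hn') (by fun_prop)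
      b := hbs.comp (PTime.pair hn' (PTime.pair
        (((hg.add hP).add (PU.const 2)).comp PTime.fst')
        (PTime.snd'.fst.fst.pair (PTime.snd'.snd.fst.pair hj)))) }
  obtain ⟨L, es, hL, hes, H⟩ := hc.exists_count
  refine ⟨fun P => L (2 ^ (P.size + 10)), fun p => es ((p.1, T1 p.1, T2 p.1), p.2),
    hL.comp (f := fun u : Un => Un.mk (2 ^ (u.val.size + 10))) hQ,
    hes.comp (((OT.id.pair (hT1.pair hT2)).pre PTime.fst' fun _ => rfl).pair
      (OT.of_ptime PTime.snd')) fun _ => rfl,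
    fun a hp h0 hB hb => ⟨(H (a, T1 a, T2 a)).1 hp, fun hne => ?_⟩⟩
  have k1 := (t1 a).2 hp hne hb
  have k2 := (t2 a).2 hp.symm (hne.imp' _ fun x hx => neg_mem_PS.2 hx) fun S hS => (hb S hS).symm
  have jj : ∀ c < 2 * n a, 150 * ((P a).size + 10) ≤ (side (n a) (T1 a).2.1 (T2 a).2.1 0).getD c 0 ∧
      (side (n a) (T1 a).2.1 (T2 a).2.1 0).getD c 0 ≤ 150 * ((P a).size + 10) + P a + 2 ∧
      (pp (n a) (pf (T1 a).1) (pf (T2 a).1) c = c →
        (side (n a) (T1 a).2.1 (T2 a).2.1 0).getD c 0 = 150 * ((P a).size + 10)) := by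
    refine cases2 (fun c hc => ?_) fun c hc => ?_
    · rw [side_left _ _ _ hc, pp_left _ _ hc]
      exact ⟨k1.jge c hc, k1.jle c hc, k1.jroot c hc⟩
    · rw [side_right _ _ _ hc, pp_right _ _ hc, Nat.add_left_cancel_iff]
      exact ⟨k2.jge c hc, k2.jle c hc, k2.jroot c hc⟩
  have ok : (mk bs (n a) (P a) (f1 a) (f2 a) (T1 a) (T2 a)).OK :=
    { pair := hp
      ne := hne
      n_pos := h0
      nB := hB
      BQ := BQ _
      bd := hb
      fo1 := k1.fo
      fo2 := k2.fo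
      jge := fun c hc => (jj c hc).1
      jle := fun c hc => (jj c hc).2.1
      jroot := fun c hc => (jj c hc).2.2
      fat1 := fun c hc h A hA A' hA' hs =>
        le_of_eq_of_le (congrArg _ (side_left _ _ _ hc)) (k1.fat c hc h A hA A' hA' hs)
      fat2 := fun c hc h A hA A' hA' hs =>
        le_of_eq_of_le (congrArg _ (side_right _ _ _ hc)) (k2.fat c hc h A hA A' hA' hs)
      thin := fun x hx => by
        simp only [Mod.lo, Mod.X, Mod.j, Mod.p, FprasX.mk]
        refine cases2 (fun c hc => ?_) fun c hc => ?_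
        · rw [side_left _ _ _ hc, side_left _ _ _ hc, sm_sub_dg_left k1.fo k2.fo hc]
          exact k1.thin x hx c hc
        · rw [side_right _ _ _ hc, side_right _ _ _ hc, sm_sub_dg_right k1.fo k2.fo hc, ← sm_neg]
          exact k2.thin _ (neg_mem_PS.2 hx) c hc
      bas := tb _ _ _ _ _ _ k1.fo k2.fo jj }
  have hPQ : P a ≤ 2 ^ ((P a).size + 10) := le_trans (by omega) (BQ _)
  refine le_trans (sub_le_sub_left (pow_le_pow_of_le_one (by norm_num) (by norm_num) hPQ) 1)
    (((H (a, T1 a, T2 a)).2 ok).trans (Pr_mono fun ω _ hω => hω.trans ?_))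
  exact div_le_div_of_nonneg_left (Nat.cast_nonneg _) (by exact_mod_cast (by omega))
    (by exact_mod_cast hPQ)

end Crest.Agent.R302
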