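import Crest.Agent.R302.Forest

/-! Row 302: the geometric data (two scale trees, adapted basis). -/

set_option autoImplicit false

namespace Crest.Agent.R302

open Crest.Agent.PT Crest.Agent.R309 Finset

/-- a list read as a parent function -/
def pf (l : List ℕ) (i : ℕ) : ℕ := if i < l.length then l.getD i 0 else i

/-- a scale tree for the first function of a pair -/
structure TreeOK (n : ℕ) (f1 f2 : Finset ℕ → ℤ) (g J : ℕ) (p j : ℕ → ℕ) (lo : Vec) : Prop where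
  fo : Fo p
  jge : ∀ a < n, g ≤ j a
  jle : ∀ a < n, j a ≤ J
  jroot : ∀ a < n, p a = a → j a = g
  fat : ∀ a < n, p a ≠ a → ∀ A ⊆ range n, ∀ A' ⊆ range n, Sep A a (p a) →
    (2 : ℤ) ^ j a ≤ 16 * (n : ℤ) ^ 2 * (Phi f1 f2 A A' + 1)
  thin : ∀ x ∈ PS n f1 f2, ∀ a < n,
    lo a ≤ sm (sub n p a) x ∧ sm (sub n p a) x ≤ lo a + 4 * (n : ℤ) ^ 3 * 2 ^ j a

/-- the adapted basis: `nf` cycles `z e` of scale `je e` anchored at the port `an e`, `nt` elements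
`el i`, coordinate matrices, component labels of the `2 n` ports -/
structure Bas where
  nf : ℕ
  nt : ℕ
  zL : List ℤ
  jeL : List ℕ
  anL : List ℕ
  MfL : List ℤ
  elL : List ℕ
  MtL : List ℤ
  labL : List ℕ

instance : Rp Bas := ⟨Rp.I (Un × Un × List ℤ × List ℕ × List ℕ × List ℤ × List ℕ × List ℤ × List ℕ),
  fun b => Rp.w (Un.mk b.nf, Un.mk b.nt, b.zL, b.jeL, b.anL, b.MfL, b.elL, b.MtL, b.labL)⟩

namespace Bas

variable (b : Bas) (n : ℕ)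

def z (e : ℕ) : Vec := fun i => if i < n then b.zL.getD (e * n + i) 0 else 0
def je (e : ℕ) : ℕ := b.jeL.getD e 0
def an (e : ℕ) : ℕ := b.anL.getD e 0
def el (i : ℕ) : ℕ := b.elL.getD i 0
def lab (a : ℕ) : ℕ := b.labL.getD a 0
def Mf (e a : ℕ) : ℤ := b.MfL.getD (e * (2 * n) + a) 0
def Mt (i a : ℕ) : ℤ := b.MtL.getD (i * (2 * n) + a) 0
/-- the point with the given coordinates -/
def pt (γ θ : ℕ → ℤ) : Vec := ∑ e ∈ range b.nf, γ e • b.z n e + ∑ i ∈ range b.nt, θ i • ev (b.el i)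

/-- `p`, `j` are the forest and the scales on the `2 n` ports -/
structure OK (g J : ℕ) (p j : ℕ → ℕ) : Prop where
  nf_le : b.nf ≤ 2 * n
  nt_le : b.nt ≤ n
  el_lt : ∀ i < b.nt, b.el i < n
  an_lt : ∀ e < b.nf, b.an e < 2 * n
  je_ge : ∀ e < b.nf, g ≤ b.je e
  je_le : ∀ e < b.nf, b.je e ≤ J
  z_bd : ∀ e < b.nf, ∀ i, |b.z n e i| ≤ n
  cyc : ∀ e < b.nf, ∀ a < 2 * n, |sm (sub (2 * n) p a) (dg n (b.z n e))| ≤ 1 ∧
    (sm (sub (2 * n) p a) (dg n (b.z n e)) ≠ 0 → p a ≠ a ∧ b.je e ≤ j a ∧ b.lab a = b.lab (b.an e))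
  coord : ∀ x : Vec, (∀ i, n ≤ i → x i = 0) →
    x = b.pt n (fun e => ∑ a ∈ range (2 * n), b.Mf n e a * sm (sub (2 * n) p a) (dg n x))
      (fun i => ∑ a ∈ range (2 * n), b.Mt n i a * sm (sub (2 * n) p a) (dg n x))
  uniqf : ∀ γ θ : ℕ → ℤ, ∀ e < b.nf,
    ∑ a ∈ range (2 * n), b.Mf n e a * sm (sub (2 * n) p a) (dg n (b.pt n γ θ)) = γ e
  uniqt : ∀ γ θ : ℕ → ℤ, ∀ i < b.nt,
    ∑ a ∈ range (2 * n), b.Mt n i a * sm (sub (2 * n) p a) (dg n (b.pt n γ θ)) = θ i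
  Mf_bd : ∀ e < b.nf, ∀ a < 2 * n, |b.Mf n e a| ≤ n ∧ (b.Mf n e a ≠ 0 → j a ≤ b.je e)
  Mt_bd : ∀ i < b.nt, ∀ a < 2 * n, |b.Mt n i a| ≤ 1 ∧ (b.Mt n i a ≠ 0 → p a = a)
  lab_lt : ∀ a < 2 * n, b.lab a < 2 * n
  lab_p : ∀ a < 2 * n, b.lab (p a) = b.lab a
  lab_gl : ∀ i < n, b.lab (n + i) = b.lab i
  link : ∀ a < 2 * n, ∀ a' < 2 * n, b.lab a = b.lab a' → ∃ s t : ℕ → ℤ,
    ev a - ev a' = ∑ c ∈ range (2 * n), s c • bb p c + ∑ i ∈ range b.nt, t i • dg n (ev (b.el i)) ∧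
    (∀ c, |s c| ≤ n + 2 ∧ (s c ≠ 0 → p c ≠ c)) ∧ ∀ i, |t i| ≤ 1

section
variable {α : Type} [Rp α]

theorem ptime_iff {f : α → Bas} : PTime f ↔ PTime fun a => (Un.mk (f a).nf, Un.mk (f a).nt,
    (f a).zL, (f a).jeL, (f a).anL, (f a).MfL, (f a).elL, (f a).MtL, (f a).labL) := Iff.rfl
@[fun_prop] theorem pu_nf {f : α → Bas} (hf : PTime f) : PU fun a => (f a).nf :=
  (ptime_iff.1 hf).fst
@[fun_prop] theorem pu_nt {f : α → Bas} (hf : PTime f) : PU fun a => (f a).nt :=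
  (ptime_iff.1 hf).snd.fst
@[fun_prop] theorem ptime_zL {f : α → Bas} (hf : PTime f) : PTime fun a => (f a).zL :=
  (ptime_iff.1 hf).snd.snd.fst
@[fun_prop] theorem ptime_jeL {f : α → Bas} (hf : PTime f) : PTime fun a => (f a).jeL :=
  (ptime_iff.1 hf).snd.snd.snd.fst
@[fun_prop] theorem ptime_anL {f : α → Bas} (hf : PTime f) : PTime fun a => (f a).anL :=
  (ptime_iff.1 hf).snd.snd.snd.snd.fst
@[fun_prop] theorem ptime_MfL {f : α → Bas} (hf : PTime f) : PTime fun a => (f a).MfL :=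
  (ptime_iff.1 hf).snd.snd.snd.snd.snd.fst
@[fun_prop] theorem ptime_elL {f : α → Bas} (hf : PTime f) : PTime fun a => (f a).elL :=
  (ptime_iff.1 hf).snd.snd.snd.snd.snd.snd.fst
@[fun_prop] theorem ptime_MtL {f : α → Bas} (hf : PTime f) : PTime fun a => (f a).MtL :=
  (ptime_iff.1 hf).snd.snd.snd.snd.snd.snd.snd.fst
@[fun_prop] theorem ptime_labL {f : α → Bas} (hf : PTime f) : PTime fun a => (f a).labL :=
  (ptime_iff.1 hf).snd.snd.snd.snd.snd.snd.snd.snd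

end

end Bas

end Crest.Agent.R302
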