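import Crest.Agent.R302.Nice

/-! Row 302: the deterministic part of the stochastic subgradient step. -/

set_option autoImplicit false

namespace Crest.Agent.R302

open Crest.Agent.PT Crest.Agent.R309 Finset

namespace LearnX

/-- division rounded towards zero -/
def td (x : ℤ) (n : ℕ) : ℤ :=
  if 0 ≤ x then ((x.natAbs / n : ℕ) : ℤ) else -((x.natAbs / n : ℕ) : ℤ)

/-- clamp to `[-B, B]` -/
def cl (B : ℕ) (x : ℤ) : ℤ := if x < -(B : ℤ) then -(B : ℤ) else if (B : ℤ) < x then B else x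

/-- the largest absolute value among the first `r` entries -/
def mx (r : ℕ) (g : List ℤ) : ℕ := (range r).sup fun p => (g.getD p 0).natAbs

/-- the rounded normalised direction -/
def hc (r D : ℕ) (g : List ℤ) (p : ℕ) : ℤ := td (D * g.getD p 0) (2 * r * mx r g)

/-- the normalised direction -/
noncomputable def vc (r D : ℕ) (g : List ℤ) (p : ℕ) : ℝ :=
  (D : ℝ) * g.getD p 0 / (2 * r * mx r g)

/-- the step with a batch of directions -/
def upd (r D B Ns : ℕ) (ζ : List ℤ) (gs : ℕ → List ℤ) : List ℤ :=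
  (List.range r).map fun p => cl B (ζ.getD p 0 - td (∑ i ∈ range Ns, hc r D (gs i) p) Ns)

/-- squared distance to the target -/
noncomputable def ds (r : ℕ) (ζs : ℕ → ℤ) (ζ : List ℤ) : ℝ :=
  ∑ p ∈ range r, ((ζs p : ℝ) - ζ.getD p 0) ^ 2

/-- the progress of a direction -/
noncomputable def Yv (r D : ℕ) (ζs : ℕ → ℤ) (ζ g : List ℤ) : ℝ :=
  ∑ p ∈ range r, vc r D g p * ((ζs p : ℝ) - ζ.getD p 0)

theorem nat_div (m n : ℕ) : ((m / n : ℕ) : ℝ) ≤ (m : ℝ) / n ∧ (m : ℝ) / n ≤ ((m / n : ℕ) : ℝ) + 1 := by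
  refine ⟨Nat.cast_div_le, ?_⟩
  rcases Nat.eq_zero_or_pos n with rfl | hn
  · simp
  · have h := Nat.lt_div_mul_add (a := m) hn
    have hn' : (0 : ℝ) < n := by exact_mod_cast hn
    rw [div_le_iff₀ hn']
    have h' : (m : ℝ) ≤ ((m / n : ℕ) : ℝ) * n + n := by exact_mod_cast h.le
    linarith

theorem td_abs (x : ℤ) (n : ℕ) : |(td x n : ℝ)| ≤ |(x : ℝ)| / n := by
  have h := (nat_div x.natAbs n).1
  rw [Nat.cast_natAbs, Int.cast_abs] at h
  unfold td
  split_ifs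
  · rwa [Int.cast_natCast, Nat.abs_cast]
  · rwa [Int.cast_neg, abs_neg, Int.cast_natCast, Nat.abs_cast]

theorem td_sub (x : ℤ) (n : ℕ) : |(td x n : ℝ) - (x : ℝ) / n| ≤ 1 := by
  obtain ⟨h1, h2⟩ := nat_div x.natAbs n
  rw [Nat.cast_natAbs, Int.cast_abs] at h1 h2
  unfold td
  split_ifs with h
  · have h' : (0 : ℝ) ≤ x := by exact_mod_cast h
    rw [abs_of_nonneg h'] at h1 h2
    rw [Int.cast_natCast, abs_le]
    constructor <;> linarith
  · have h' : (x : ℝ) < 0 := by exact_mod_cast not_le.1 h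
    rw [abs_of_neg h', neg_div] at h1 h2
    rw [Int.cast_neg, Int.cast_natCast, abs_le]
    constructor <;> linarith

theorem cl_natAbs (B : ℕ) (x : ℤ) : (cl B x).natAbs ≤ B := by
  unfold cl; split_ifs <;> omega

theorem cl_sq {B : ℕ} {y : ℤ} (hy : y.natAbs ≤ B) (x : ℤ) :
    ((y : ℝ) - cl B x) ^ 2 ≤ ((y : ℝ) - x) ^ 2 := by
  have h : (y - cl B x) ^ 2 ≤ (y - x) ^ 2 := by
    rw [sq_le_sq, ← Int.natCast_natAbs, ← Int.natCast_natAbs, Nat.cast_le]
    unfold cl; split_ifs <;> omega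
  exact_mod_cast h

theorem le_mx {r p : ℕ} (hp : p < r) (g : List ℤ) : |((g.getD p 0 : ℤ) : ℝ)| ≤ mx r g := by
  have h : (g.getD p 0).natAbs ≤ mx r g :=
    le_sup (f := fun p => (g.getD p 0).natAbs) (mem_range.2 hp)
  rw [← Int.cast_abs, ← Nat.cast_natAbs]
  exact_mod_cast h

theorem exists_mx {r : ℕ} (hr : 1 ≤ r) (g : List ℤ) :
    ∃ p < r, ∃ s : ℤ, (s = 1 ∨ s = -1) ∧ (mx r g : ℤ) = s * g.getD p 0 := by
  obtain ⟨p, hp, e⟩ := exists_mem_eq_sup (range r) ⟨0, mem_range.2 hr⟩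
    fun p => (g.getD p 0).natAbs
  have e' : mx r g = (g.getD p 0).natAbs := e
  rcases le_total 0 (g.getD p 0) with h | h
  · exact ⟨p, mem_range.1 hp, 1, Or.inl rfl, by omega⟩
  · exact ⟨p, mem_range.1 hp, -1, Or.inr rfl, by omega⟩

theorem vc_abs {r p : ℕ} (hp : p < r) (D : ℕ) (g : List ℤ) : |vc r D g p| ≤ (D : ℝ) / (2 * r) := by
  have h := le_mx hp g
  have r0 : (0 : ℝ) < r := by exact_mod_cast (by omega : 0 < r)
  unfold vc
  rcases Nat.eq_zero_or_pos (mx r g) with h0 | h0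
  · rw [h0]; simp; positivity
  · have h0' : (0 : ℝ) < mx r g := by exact_mod_cast h0
    rw [abs_div, abs_mul, Nat.abs_cast, abs_of_pos (by positivity : (0 : ℝ) < 2 * r * mx r g),
      div_le_div_iff₀ (by positivity) (by positivity)]
    have : (D : ℝ) * |((g.getD p 0 : ℤ) : ℝ)| ≤ D * mx r g := by gcongr
    nlinarith

theorem hc_abs {r p : ℕ} (hp : p < r) (D : ℕ) (g : List ℤ) :
    |(hc r D g p : ℝ)| ≤ (D : ℝ) / (2 * r) := by
  refine (td_abs _ _).trans (le_trans (le_of_eq ?_) (vc_abs hp D g))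
  unfold vc
  rw [abs_div, abs_of_nonneg (by positivity : (0 : ℝ) ≤ 2 * r * mx r g)]
  push_cast
  rfl

theorem hc_sub (r D : ℕ) (g : List ℤ) (p : ℕ) : |(hc r D g p : ℝ) - vc r D g p| ≤ 1 := by
  have h := td_sub (D * g.getD p 0) (2 * r * mx r g)
  push_cast at h
  exact h

theorem u_abs {r B : ℕ} {ζs : ℕ → ℤ} {ζ : List ℤ} (hs : ∀ p < r, (ζs p).natAbs ≤ B)
    (hζ : Bd r B ζ) {p : ℕ} (hp : p < r) : |(ζs p : ℝ) - ζ.getD p 0| ≤ 2 * B := by
  have h1 := hs p hp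
  have h2 := hζ.2 p
  have h : |ζs p - ζ.getD p 0| ≤ 2 * (B : ℤ) := by rw [abs_le]; omega
  exact_mod_cast h

theorem Yv_abs {r P D : ℕ} (hr : 1 ≤ r) {ζs : ℕ → ℤ} {ζ : List ℤ}
    (hs : ∀ p < r, (ζs p).natAbs ≤ P * D) (hζ : Bd r (P * D) ζ) (g : List ℤ) :
    |Yv r D ζs ζ g| ≤ (P : ℝ) * D ^ 2 := by
  have r0 : (0 : ℝ) < r := by exact_mod_cast hr
  refine (abs_sum_le_sum_abs _ _).trans ((sum_le_card_nsmul _ _
    ((D : ℝ) / (2 * r) * (2 * ((P * D : ℕ) : ℝ))) fun p hp => ?_).trans (le_of_eq ?_))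
  · rw [abs_mul]
    exact mul_le_mul (vc_abs (mem_range.1 hp) D g) (u_abs hs hζ (mem_range.1 hp)) (abs_nonneg _)
      (by positivity)
  · rw [card_range, nsmul_eq_mul]; push_cast; field_simp

theorem Yv_good {r D : ℕ} (hr : 1 ≤ r) (hD : 1 ≤ D) (ζs : ℕ → ℤ) (ζ g : List ℤ)
    (h : (∑ p ∈ range r, (g.getD p 0 : ℝ) * ((ζs p : ℝ) - ζ.getD p 0)) / D + mx r g < 0) :
    Yv r D ζs ζ g ≤ -((D : ℝ) ^ 2 / (2 * r)) := by
  have r0 : (0 : ℝ) < r := by exact_mod_cast hr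
  have D0 : (0 : ℝ) < D := by exact_mod_cast hD
  rcases Nat.eq_zero_or_pos (mx r g) with h0 | h0
  · exfalso
    rw [h0, sum_eq_zero] at h
    · simp at h
    · intro p hp
      have := le_mx (mem_range.1 hp) g
      rw [h0, Nat.cast_zero, abs_nonpos_iff] at this
      rw [this, zero_mul]
  · have h0' : (0 : ℝ) < mx r g := by exact_mod_cast h0
    have e : Yv r D ζs ζ g = (D : ℝ) ^ 2 / (2 * r) *
        ((∑ p ∈ range r, (g.getD p 0 : ℝ) * ((ζs p : ℝ) - ζ.getD p 0)) / D / mx r g) := by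
      unfold Yv vc
      rw [sum_div, sum_div, mul_sum]
      refine sum_congr rfl fun p _ => ?_
      field_simp
    rw [e, ← mul_neg_one]
    refine mul_le_mul_of_nonneg_left ?_ (by positivity)
    rw [div_le_iff₀ h0']
    linarith

theorem getD_map_range {r p : ℕ} (f : ℕ → ℤ) (hp : p < r) :
    ((List.range r).map f).getD p 0 = f p := by
  simp [List.getD_eq_getElem?_getD, hp]

theorem upd_bd (r D B Ns : ℕ) (ζ : List ℤ) (gs : ℕ → List ℤ) : Bd r B (upd r D B Ns ζ gs) := by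
  refine ⟨by simp [upd], fun p => ?_⟩
  by_cases hp : p < r
  · unfold upd
    rw [getD_map_range _ hp]
    exact cl_natAbs _ _
  · rw [List.getD_eq_default _ _ (by simpa [upd] using hp)]
    simp

theorem zero_bd (r B : ℕ) : Bd r B (List.replicate r 0) := by
  refine ⟨by simp, fun p => ?_⟩
  simp only [List.getD_eq_getElem?_getD, List.getElem?_replicate]
  split_ifs <;> simp

theorem ds_nonneg (r : ℕ) (ζs : ℕ → ℤ) (ζ : List ℤ) : 0 ≤ ds r ζs ζ :=
  sum_nonneg fun _ _ => sq_nonneg _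

theorem ds_zero {r B : ℕ} {ζs : ℕ → ℤ} (hs : ∀ p < r, (ζs p).natAbs ≤ B) :
    ds r ζs (List.replicate r 0) ≤ r * (B : ℝ) ^ 2 := by
  refine (sum_le_card_nsmul _ _ ((B : ℝ) ^ 2) fun p hp => ?_).trans (le_of_eq ?_)
  · have h1 := hs p (mem_range.1 hp)
    have e : (List.replicate r (0 : ℤ)).getD p 0 = 0 := by
      simp only [List.getD_eq_getElem?_getD, List.getElem?_replicate]
      split_ifs <;> simp
    rw [e, Int.cast_zero, sub_zero, sq_le_sq, Nat.abs_cast, ← Int.cast_abs, ← Nat.cast_natAbs]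
    exact_mod_cast h1
  · rw [card_range, nsmul_eq_mul]

theorem upd_ds {r P D Ns : ℕ} (hr : 1 ≤ r) (hrP : r ≤ P) (hD : 128 * P ^ 3 ≤ D) (hN : 1 ≤ Ns)
    {ζs : ℕ → ℤ} {ζ : List ℤ} (hs : ∀ p < r, (ζs p).natAbs ≤ P * D) (hζ : Bd r (P * D) ζ)
    (gs : ℕ → List ℤ)
    (h : ∑ i ∈ range Ns, Yv r D ζs ζ (gs i) ≤ -(Ns * (3 * ((D : ℝ) ^ 2 / (16 * r))))) :
    ds r ζs (upd r D (P * D) Ns ζ gs) ≤ ds r ζs ζ - (D : ℝ) ^ 2 / (16 * r) := by
  have r0 : (0 : ℝ) < r := by exact_mod_cast hr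
  have N0 : (0 : ℝ) < Ns := by exact_mod_cast hN
  have key : ∀ p ∈ range r, ((ζs p : ℝ) - (upd r D (P * D) Ns ζ gs).getD p 0) ^ 2 ≤
      ((ζs p : ℝ) - ζ.getD p 0) ^ 2 +
        2 / Ns * ∑ i ∈ range Ns, vc r D (gs i) p * ((ζs p : ℝ) - ζ.getD p 0) +
        (8 * P * D + ((D : ℝ) / (2 * r)) ^ 2) := by
    intro p hp
    have hp' := mem_range.1 hp
    unfold upd
    rw [getD_map_range _ hp']
    refine (cl_sq (hs p hp') _).trans ?_
    have hu := u_abs hs hζ hp'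
    set S : ℤ := ∑ i ∈ range Ns, hc r D (gs i) p with hS
    have eS : (S : ℝ) = ∑ i ∈ range Ns, (hc r D (gs i) p : ℝ) := by rw [hS]; push_cast; rfl
    have h1 : |(td S Ns : ℝ)| ≤ (D : ℝ) / (2 * r) := by
      refine (td_abs _ _).trans ?_
      rw [div_le_iff₀ N0, eS]
      refine (abs_sum_le_sum_abs _ _).trans ((sum_le_card_nsmul _ _ _
        fun i _ => hc_abs hp' D (gs i)).trans (le_of_eq ?_))
      rw [card_range, nsmul_eq_mul, mul_comm]
    have h2 : |(S : ℝ) / Ns - (∑ i ∈ range Ns, vc r D (gs i) p) / Ns| ≤ 1 := by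
      rw [← sub_div, abs_div, Nat.abs_cast, div_le_one N0, eS, ← sum_sub_distrib]
      refine (abs_sum_le_sum_abs _ _).trans ((sum_le_card_nsmul _ _ _
        fun i _ => hc_sub r D (gs i) p).trans (le_of_eq ?_))
      rw [card_range, nsmul_eq_mul, mul_one]
    have h3 : |(td S Ns : ℝ) - (∑ i ∈ range Ns, vc r D (gs i) p) / Ns| ≤ 2 := by
      have := (abs_sub_le _ _ _).trans (add_le_add (td_sub S Ns) h2)
      linarith
    rw [← sum_mul]
    push_cast at hu ⊢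
    generalize (∑ i ∈ range Ns, vc r D (gs i) p) = V at h3 ⊢
    generalize (td S Ns : ℝ) = H at h1 h3 ⊢
    have e : (ζs p : ℝ) - (ζ.getD p 0 - H) = ((ζs p : ℝ) - ζ.getD p 0) + H := by ring
    rw [e]
    generalize (ζs p : ℝ) - ζ.getD p 0 = u at hu ⊢
    have h4 : H ^ 2 ≤ ((D : ℝ) / (2 * r)) ^ 2 := by
      rw [← sq_abs]; exact pow_le_pow_left₀ (abs_nonneg _) h1 2
    have h5 : (H - V / Ns) * u ≤ 2 * (2 * (P * D)) := by
      refine (le_abs_self _).trans ?_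
      rw [abs_mul]
      exact mul_le_mul h3 hu (abs_nonneg _) (by norm_num)
    have e2 : 2 / (Ns : ℝ) * (V * u) = 2 * (V / Ns * u) := by ring
    rw [e2]
    nlinarith
  refine (sum_le_sum key).trans ?_
  rw [sum_add_distrib, sum_add_distrib, ← mul_sum, sum_comm, sum_const, card_range, nsmul_eq_mul]
  have h6 : 2 / (Ns : ℝ) * ∑ i ∈ range Ns, Yv r D ζs ζ (gs i) ≤
      -(6 * ((D : ℝ) ^ 2 / (16 * r))) := by
    refine (mul_le_mul_of_nonneg_left h (by positivity)).trans (le_of_eq ?_)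
    field_simp
    ring
  have h7 : (r : ℝ) * (8 * P * D) ≤ (D : ℝ) ^ 2 / (16 * r) := by
    rw [le_div_iff₀ (by positivity)]
    have a1 : 128 * (r * r * P) ≤ D := by
      refine le_trans ?_ hD
      have : r * r ≤ P * P := Nat.mul_le_mul hrP hrP
      nlinarith
    have a2 : 128 * ((r : ℝ) * r * P) ≤ D := by exact_mod_cast a1
    have D0 : (0 : ℝ) ≤ D := Nat.cast_nonneg _
    nlinarith [mul_le_mul_of_nonneg_right a2 D0]
  have h8 : (r : ℝ) * ((D : ℝ) / (2 * r)) ^ 2 = 4 * ((D : ℝ) ^ 2 / (16 * r)) := by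
    field_simp
    ring
  unfold Yv at h6
  unfold ds
  rw [mul_add, h8]
  linarith

/-! ### polynomial time -/

section
variable {α : Type} [Rp α]

@[fun_prop] theorem ptime_td {x : α → ℤ} {n : α → ℕ} (hx : PTime x) (hn : PTime n) :
    PTime fun a => td (x a) (n a) := by
  unfold td; fun_prop

@[fun_prop] theorem ptime_cl {B : α → ℕ} {x : α → ℤ} (hB : PTime B) (hx : PTime x) :
    PTime fun a => cl (B a) (x a) := by
  unfold cl; fun_prop

@[fun_prop] theorem ptime_mx {r : α → ℕ} {g : α → List ℤ} (hr : PU r) (hg : PTime g) :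
    PTime fun a => mx (r a) (g a) := by
  refine PTime.loop (fun a k => mx k (g a)) (fun a s k => max s ((g a).getD k 0).natAbs) hr
    ((PTime.const 0).congr fun a => by simp [mx]) (by fun_prop)
    (fun a k _ => by simp only [mx, range_add_one, sup_insert]; exact max_comm _ _) hg.sz
    fun a k _ => sz_nat_le.2 ?_
  exact (Finset.sup_lt_iff (by positivity)).2 fun p _ => getD_lt_szZ _ _

@[fun_prop] theorem ptime_hc {r D p : α → ℕ} {g : α → List ℤ} (hr : PU r) (hD : PTime D)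
    (hg : PTime g) (hp : PTime p) : PTime fun a => hc (r a) (D a) (g a) (p a) := by
  have := hr.ptime
  unfold hc; fun_prop

end

theorem sz_bd {r B : ℕ} {ζ : List ℤ} (h : Bd r B ζ) : sz ζ ≤ r * (2 * sz B + 3) := by
  rw [← h.1]
  refine szZ_le fun x hx => ?_
  obtain ⟨i, hi, rfl⟩ := List.getElem_of_mem hx
  have := h.2 i
  rw [List.getD_eq_getElem _ _ hi] at this
  exact this.trans_lt (lt_two_pow_sz B)

end LearnX

end Crest.Agent.R302
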