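import Crest.Agent.R302.SfmA

/-! Row 302: the mathematical definitions (forests, bases, soft energies, smoothness). -/

set_option autoImplicit false

namespace Crest.Agent.R302

open Finset

/-- integer vectors -/
abbrev Vec := ℕ → ℤ

/-- unit vector -/
def ev (i : ℕ) : Vec := Pi.single i 1

/-- sum over a set -/
def sm (S : Finset ℕ) (x : Vec) : ℤ := ∑ i ∈ S, x i

/-- scalar product of the first `m` coordinates -/
def dot (m : ℕ) (u v : Vec) : ℤ := ∑ i ∈ range m, u i * v i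

/-- `c` is strongly log-concave at `y` in the directions `d i`, `i < m` -/
def SLa {G : Type} [AddCommGroup G] (m : ℕ) (d : ℕ → G) (c : G → ℝ) (y : G) : Prop :=
  ∀ w : ℕ → ℝ, ∑ i ∈ range m, ∑ j ∈ range m,
    w i * w j * (c (y + d i + d j) * c y - c (y + d i) * c (y + d j)) ≤ 0

/-- `c` is strongly log-concave everywhere -/
def SLv {G : Type} [AddCommGroup G] (m : ℕ) (d : ℕ → G) (c : G → ℝ) : Prop := ∀ y, SLa m d c y

/-! ### Forests: `p i` is the parent of `i`, roots are the fixed points -/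

def Fo (p : ℕ → ℕ) : Prop := ∀ i, p i ≤ i

/-- `a` is an ancestor of `i` (or `i` itself) -/
def anc (p : ℕ → ℕ) (a i : ℕ) : Prop := ∃ t ≤ i, p^[t] i = a

instance (p : ℕ → ℕ) (a i : ℕ) : Decidable (anc p a i) := by unfold anc; infer_instance

/-- the subtree of `a` -/
def sub (m : ℕ) (p : ℕ → ℕ) (a : ℕ) : Finset ℕ := (range m).filter fun i => anc p a i

/-- the vector of the edge from `a` to its parent (the unit vector for a root) -/
def bb (p : ℕ → ℕ) (a : ℕ) : Vec := ev a - if p a = a then 0 else ev (p a)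

/-- difference along the edge from `a` to its parent -/
def DD (p : ℕ → ℕ) (F : ℕ → ℝ) (a : ℕ) : ℝ := F a - if p a = a then 0 else F (p a)

/-! ### Bases and soft energies -/

/-- integer bases of `F` on `range m` -/
def Bs (m : ℕ) (F : Finset ℕ → ℤ) : Set Vec :=
  {b | (∀ i, m ≤ i → b i = 0) ∧ (∀ S ⊆ range m, sm S b ≤ F S) ∧ sm (range m) b = F (range m)}

/-- cost of a displacement -/
def cost (m : ℕ) (p cst : ℕ → ℕ) (z : Vec) : ℤ :=
  ∑ a ∈ range m, (cst a : ℤ) * |sm (sub m p a) z|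

/-- the soft energy -/
noncomputable def nu (m : ℕ) (F : Finset ℕ → ℤ) (p cst : ℕ → ℕ) (ζ y : Vec) : ℤ :=
  sInf {v | ∃ b ∈ Bs m F, v = -dot m ζ b + cost m p cst (y - b)}

/-- mixed second difference -/
def uu (ν : Vec → ℤ) (y : Vec) (p q : ℕ) : ℤ := ν (y + ev p + ev q) + ν y - ν (y + ev p) - ν (y + ev q)

/-- the three-point condition -/
def P3 (m : ℕ) (ν : Vec → ℤ) : Prop :=
  ∀ y, ∀ p < m, ∀ q < m, 0 ≤ uu ν y p q ∧ ∀ r < m, min (uu ν y p r) (uu ν y q r) ≤ uu ν y p q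

/-! ### Smoothness -/

/-- iterated differences -/
def dl {G : Type} [AddCommGroup G] : List G → (G → ℝ) → G → ℝ
  | [], h => h
  | v :: l, h => fun y => dl l h (y + v) - dl l h y

/-- smoothness of order three at `y` along the moves of `M` (vector, rate) -/
def Sm {G : Type} [AddCommGroup G] (M : Set (G × ℝ)) (c : G → ℝ) (y : G) : Prop :=
  ∀ l : List (G × ℝ), l.length ≤ 3 → (∀ x ∈ l, x ∈ M) →
    |dl (l.map Prod.fst) c y| ≤ (l.map Prod.snd).prod * c y

/-- `v` is a sum of moves of `M` of total rate at most `x` -/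
def Cmp {G : Type} [AddCommGroup G] (M : Set (G × ℝ)) (v : G) (x : ℝ) : Prop :=
  ∃ L : List (G × ℝ), (∀ z ∈ L, z ∈ M) ∧ (L.map Prod.fst).sum = v ∧ (L.map Prod.snd).sum ≤ x

/-- the moves along the edges of a forest, in both directions -/
def mvs (m : ℕ) (p : ℕ → ℕ) (ε : ℕ → ℝ) : Set (Vec × ℝ) :=
  {x | ∃ a < m, p a ≠ a ∧ (x.1 = bb p a ∨ x.1 = -bb p a) ∧ x.2 = ε a}

/-! ### Two functions -/

/-- integer points of `B(f₁) ∩ -B(f₂)` -/
def PS (n : ℕ) (f1 f2 : Finset ℕ → ℤ) : Set Vec :=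
  {x | (∀ i, n ≤ i → x i = 0) ∧ ∀ S ⊆ range n, sm S x ≤ f1 S ∧ -sm S x ≤ f2 S}

/-- a normalised pair -/
structure Pair (n : ℕ) (f1 f2 : Finset ℕ → ℤ) : Prop where
  s1 : Submod n f1
  s2 : Submod n f2
  z1 : f1 ∅ = 0
  z2 : f2 ∅ = 0
  tot : f1 (range n) + f2 (range n) = 0

/-- the certificate of thinness -/
def Phi (f1 f2 : Finset ℕ → ℤ) (A A' : Finset ℕ) : ℤ := f1 A + f1 A' + f2 (A ∪ A') + f2 (A ∩ A')

/-- `A` separates `i` and `j` -/
def Sep (A : Finset ℕ) (i j : ℕ) : Prop := i ∈ A ↔ j ∉ A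

instance (A : Finset ℕ) (i j : ℕ) : Decidable (Sep A i j) := by unfold Sep; infer_instance

/-- the direct sum on the `2 n` ports -/
def dsum (n : ℕ) (f1 f2 : Finset ℕ → ℤ) (S : Finset ℕ) : ℤ :=
  f1 ((range n).filter fun i => i ∈ S) + f2 ((range n).filter fun i => n + i ∈ S)

/-- the diagonal embedding `x ↦ (x, -x)` -/
def dg (n : ℕ) (x : Vec) : Vec := fun i => if i < n then x i else if i < 2 * n then -x (i - n) else 0

/-- two forests side by side -/
def pp (n : ℕ) (p1 p2 : ℕ → ℕ) (a : ℕ) : ℕ := if a < n then p1 a else if a < 2 * n then n + p2 (a - n) else a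

end Crest.Agent.R302
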