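import Crest.Agent.R302.Reg
import Crest.Agent.R302.SmL

/-! Row 302: the marginal along the glue vectors. -/

set_option autoImplicit false

namespace Crest.Agent.R302

open Crest.Agent.PT Crest.Agent.R309 Finset

namespace MargX

theorem geo (k : ℕ) {m : ℝ} (hm : 0 < m) :
    (Summable fun t : Fin k → ℤ => (2 : ℝ) ^ (-(∑ i, |(t i : ℝ)|) / m)) ∧
      ∑' t : Fin k → ℤ, (2 : ℝ) ^ (-(∑ i, |(t i : ℝ)|) / m) ≤ (2 + 4 * m) ^ k := by
  set r : ℝ := (2 : ℝ) ^ (-1 / m) with hr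
  have r0 : 0 < r := by positivity
  have r1 : r * (1 + 1 / (2 * m)) ≤ 1 := by
    have h1 : 1 + 1 / (2 * m) ≤ (2 : ℝ) ^ (1 / m) := by
      rw [Real.rpow_def_of_pos two_pos]
      refine le_trans ?_ (Real.add_one_le_exp _)
      have h2 := mul_le_mul_of_nonneg_right Real.log_two_gt_d9.le (one_div_pos.2 hm).le
      have h3 : 1 / (2 * m) = 1 / 2 * (1 / m) := by field_simp
      have h4 := one_div_pos.2 hm
      linarith
    refine (mul_le_mul_of_nonneg_left h1 r0.le).trans (le_of_eq ?_)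
    rw [hr, ← Real.rpow_add two_pos, neg_div, neg_add_cancel, Real.rpow_zero]
  have r2 : r * (2 * m + 1) ≤ 2 * m := by
    have := mul_le_mul_of_nonneg_right r1 (by positivity : (0 : ℝ) ≤ 2 * m)
    have e : r * (1 + 1 / (2 * m)) * (2 * m) = r * (2 * m + 1) := by field_simp
    linarith
  have r3 : r < 1 := by nlinarith
  have e : ∀ t : Fin k → ℤ, (2 : ℝ) ^ (-(∑ i, |(t i : ℝ)|) / m) = ∏ i, r ^ (t i).natAbs := by
    intro t
    rw [prod_pow_eq_pow_sum, hr, ← Real.rpow_natCast, ← Real.rpow_mul two_pos.le]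
    congr 1
    simp only [Nat.cast_sum, Nat.cast_natAbs, Int.cast_abs]
    ring
  have hb : ∀ A : Finset (Fin k → ℤ), ∑ t ∈ A, ∏ i, r ^ (t i).natAbs ≤ (2 + 4 * m) ^ k := by
    intro A
    refine (sum_le_sum_of_subset_of_nonneg (t := Fintype.piFinset fun i => A.image (· i))
      (fun t ht => Fintype.mem_piFinset.2 fun i => mem_image_of_mem _ ht)
      fun _ _ _ => by positivity).trans ?_
    rw [← prod_univ_sum (fun i => A.image (· i)) fun _ (s : ℤ) => r ^ s.natAbs]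
    refine (prod_le_prod (g := fun _ => 2 + 4 * m) (fun i _ => by positivity)
      fun i _ => ?_).trans (by simp)
    refine (sum_le_hasSum _ (fun _ _ => by positivity) (SmoothX.hasSum_geo r0.le r3)).trans ?_
    rw [div_le_iff₀ (by linarith)]
    nlinarith
  simp only [e]
  exact ⟨summable_of_sum_le (fun t => by positivity) hb,
    Real.tsum_le_of_sum_le (fun t => by positivity) hb⟩

/-- the glue combination -/
def gl (S : Mod) (t : Fin S.b.nt → ℤ) : Vec := ∑ i : Fin S.b.nt, t i • S.gv i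

/-- the window -/
noncomputable def Wd (S : Mod) : Finset (Fin S.b.nt → ℤ) :=
  Fintype.piFinset fun _ => Icc (-(S.T : ℤ)) S.T

variable {S : Mod} {ζ : ℕ → ℤ} {C : Vec → ℝ}

theorem mem_Wd {t : Fin S.b.nt → ℤ} : t ∈ Wd S ↔ ∀ i, |t i| ≤ S.T := by
  simp [Wd, abs_le]

theorem win_eq (C : Vec → ℝ) (Y : Vec) : S.win C Y = ∑ t ∈ Wd S, C (Y + gl S t) := by
  have hr : ∀ i < S.b.nt, S.rt.getD i 0 = 2 * S.T := fun i hi => by
    simp [Mod.rt, List.getD_eq_getElem?_getD, hi]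
  refine sum_nbij' (fun a i => (a.getD i 0 : ℤ) - S.T)
    (fun t => List.ofFn fun i => (t i + S.T).toNat) (fun a ha => ?_) (fun t ht => ?_)
    (fun a ha => ?_) (fun t ht => ?_) fun a _ => ?_
  · refine mem_Wd.2 fun i => ?_
    have := ((mem_bx.1 ha).2 i i.2).2
    rw [hr i i.2] at this
    rw [abs_le]
    omega
  · refine mem_bx.2 ⟨List.length_ofFn, fun i hi => ⟨by simp, ?_⟩⟩
    have := abs_le.1 (mem_Wd.1 ht ⟨i, hi⟩)
    rw [hr i hi]
    simp only [List.getD_eq_getElem?_getD, List.getElem?_ofFn, hi, dite_true, Option.getD_some]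
    omega
  · refine List.ext_getElem (by simp [(mem_bx.1 ha).1]) fun i h1 h2 => ?_
    simp [List.getD_eq_getElem?_getD, h2]
  · funext i
    have := abs_le.1 (mem_Wd.1 ht i)
    simp only [List.getD_eq_getElem?_getD, List.getElem?_ofFn, i.2, dite_true, Option.getD_some,
      Fin.eta]
    omega
  · rw [gl, sum_range]

theorem summ (h : S.OK) (hC : S.Conf ζ C) (Y : Vec) : Summable fun t => C (Y + gl S t) := by
  obtain ⟨Θ, hΘ⟩ := h.w_tail_gen ζ Y
  have hn : (0 : ℝ) < 2 * S.n := by have := h.n_pos; positivity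
  refine .of_nonneg_of_le (fun t => (hC.pos _).le) (fun t => ?_)
    ((geo S.b.nt hn).1.mul_left (2 * 2 ^ Θ * S.w ζ Y))
  have h1 := hΘ t
  rw [sub_eq_add_neg, Real.rpow_add two_pos, ← neg_div] at h1
  have h2 := hC.le2 (Y + gl S t)
  unfold gl at h2 ⊢
  linarith

theorem om_win (h : S.OK) {Y : Vec} (hY : S.Om (S.Q ^ 12) Y) {t : Fin S.b.nt → ℤ}
    (ht : t ∈ Wd S) : S.Om (S.Q ^ 200) (Y + gl S t) := by
  have hQ := h.Q_ge
  refine (hY.add (r' := S.Q ^ 162) fun a ha => ?_).mono ?_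
  · rw [gl, Mod.X_sum]
    refine (abs_sum_le_sum_abs _ _).trans ((sum_le_card_nsmul _ _ (S.T : ℤ) fun i _ => ?_).trans ?_)
    · rw [Mod.X_smul, abs_mul]
      exact (mul_le_of_le_one_right (abs_nonneg _) (h.X_gv a i.2)).trans (mem_Wd.1 ht i)
    · have h1 : S.b.nt * S.T ≤ S.Q ^ 162 * 2 ^ S.j a := by
        have h2 := h.bas.nt_le
        have h3 := h.nQ
        calc S.b.nt * S.T ≤ S.Q * S.Q ^ 311 := by
              rw [Mod.T_eq]; exact Nat.mul_le_mul_right _ (by omega)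
          _ = S.Q ^ 162 * S.Q ^ 150 := by ring
          _ ≤ _ := Nat.mul_le_mul_left _ (h.two_j ha)
      rw [card_univ, Fintype.card_fin, nsmul_eq_mul]
      exact_mod_cast h1
  · have h1 : S.Q ^ 12 ≤ S.Q ^ 199 := Nat.pow_le_pow_right (by omega) (by norm_num)
    have h2 : S.Q ^ 162 ≤ S.Q ^ 199 := Nat.pow_le_pow_right (by omega) (by norm_num)
    have h3 : S.Q ^ 199 * 2 ≤ S.Q ^ 199 * S.Q := Nat.mul_le_mul_left _ (by omega)
    rw [← pow_succ] at h3
    exact le_trans (by omega) h3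

theorem exists_phi (h : S.OK) (hC : S.Conf ζ C) : ∃ (φ : (Fin S.b.nt → ℤ) → ℝ) (δ : ℝ),
    (∀ t, 0 ≤ φ t) ∧ HasSum φ δ ∧ 27 * δ ≤ (1 / 2 ^ S.Q) ^ 3 ∧
      ∀ Y, S.Om (S.Q ^ 12) Y → ∀ t ∉ Wd S, C (Y + gl S t) ≤ φ t * C Y := by
  have hn : (1 : ℝ) ≤ S.n := by exact_mod_cast h.n_pos
  have hQ : (4096 : ℝ) ≤ S.Q := by exact_mod_cast h.Q_ge
  have hnQ : (2048 : ℝ) * S.n ≤ S.Q := by exact_mod_cast h.nQ
  obtain ⟨g1, g2⟩ := geo S.b.nt (m := 4 * S.n) (by positivity)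
  refine ⟨_, _, fun t => by positivity,
    g1.hasSum.mul_left (4 * (2 : ℝ) ^ ((S.Q : ℝ) ^ 309 - S.T / (4 * S.n))), ?_, fun Y hY t ht => ?_⟩
  · have h1 : (2 + 4 * (4 * S.n) : ℝ) ^ S.b.nt ≤ (2 : ℝ) ^ ((S.Q : ℝ) ^ 2) := by
      have h2 : (S.Q : ℝ) ≤ 2 ^ S.Q := by exact_mod_cast Nat.lt_two_pow_self.le
      have h3 := h.bas.nt_le
      have h4 := h.nQ
      calc _ ≤ ((2 : ℝ) ^ S.Q) ^ S.b.nt := pow_le_pow_left₀ (by positivity) (by linarith) _
        _ ≤ ((2 : ℝ) ^ S.Q) ^ S.Q := pow_le_pow_right₀ (by linarith) (by omega)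
        _ = _ := by rw [← pow_mul, ← Real.rpow_natCast, sq, Nat.cast_mul]
    have h2 : 2 * (S.Q : ℝ) ^ 310 ≤ S.T / (4 * S.n) := by
      rw [le_div_iff₀ (by positivity), Mod.T_eq, Nat.cast_pow, pow_succ _ 310]
      have := mul_le_mul_of_nonneg_left (show 8 * (S.n : ℝ) ≤ S.Q by linarith)
        (by positivity : (0 : ℝ) ≤ (S.Q : ℝ) ^ 310)
      linarith
    have h3 : (S.Q : ℝ) ^ 309 ≤ (S.Q : ℝ) ^ 310 := pow_le_pow_right₀ (by linarith) (by norm_num)
    have h4 : (S.Q : ℝ) ^ 3 ≤ (S.Q : ℝ) ^ 310 := pow_le_pow_right₀ (by linarith) (by norm_num)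
    have h5 : 7 + 3 * (S.Q : ℝ) + (S.Q : ℝ) ^ 2 ≤ (S.Q : ℝ) ^ 3 := by nlinarith
    have h6 : (2 : ℝ) ^ ((7 : ℝ) + ((S.Q : ℝ) ^ 309 - S.T / (4 * S.n)) + (S.Q : ℝ) ^ 2) ≤
        (2 : ℝ) ^ (-((S.Q * 3 : ℕ) : ℝ)) :=
      Real.rpow_le_rpow_of_exponent_le one_le_two (by push_cast; linarith)
    rw [Real.rpow_add two_pos, Real.rpow_add two_pos, Real.rpow_neg two_pos.le, Real.rpow_natCast,
      pow_mul, ← inv_pow, ← one_div, show (2 : ℝ) ^ (7 : ℝ) = 128 by norm_num] at h6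
    have h7 := mul_le_mul_of_nonneg_left (g2.trans h1)
      (by positivity : (0 : ℝ) ≤ (2 : ℝ) ^ ((S.Q : ℝ) ^ 309 - S.T / (4 * S.n)))
    have h8 : (0 : ℝ) ≤ (2 : ℝ) ^ ((S.Q : ℝ) ^ 309 - S.T / (4 * S.n)) *
      (2 : ℝ) ^ ((S.Q : ℝ) ^ 2) := by positivity
    linarith
  · obtain ⟨i, hi⟩ : ∃ i, (S.T : ℤ) < |t i| := by simpa [mem_Wd] using ht
    have h1 : (S.T : ℝ) ≤ ∑ i, |(t i : ℝ)| :=
      le_trans (by exact_mod_cast hi.le)
        (single_le_sum (f := fun i => |(t i : ℝ)|) (fun _ _ => abs_nonneg _) (mem_univ i))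
    have h2 : (2 : ℝ) ^ ((S.Q : ℝ) ^ 309 - (∑ i, |(t i : ℝ)|) / (2 * S.n)) ≤
        (2 : ℝ) ^ ((S.Q : ℝ) ^ 309 - S.T / (4 * S.n)) *
          (2 : ℝ) ^ (-(∑ i, |(t i : ℝ)|) / (4 * S.n)) := by
      rw [← Real.rpow_add two_pos]
      refine Real.rpow_le_rpow_of_exponent_le one_le_two ?_
      have h3 := div_le_div_of_nonneg_right h1 (by positivity : (0 : ℝ) ≤ 4 * S.n)
      have h4 : (∑ i, |(t i : ℝ)|) / (2 * S.n) = 2 * ((∑ i, |(t i : ℝ)|) / (4 * S.n)) := by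
        field_simp
        norm_num
      rw [neg_div]
      linarith
    have h3 := (h.w_tail ζ hY t).trans (mul_le_mul h2 (hC.le1 Y) (Mod.w_pos _ _).le (by positivity))
    have h4 := hC.le2 (Y + gl S t)
    unfold gl at h4 ⊢
    linarith

theorem hasSum_dl (hs : ∀ Y, Summable fun t => C (Y + gl S t)) (l : List Vec) (Y : Vec) :
    HasSum (fun t => dl l C (Y + gl S t)) (dl l (fun Y => ∑' t, C (Y + gl S t)) Y) := by
  induction l generalizing Y with
  | nil => exact (hs Y).hasSum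
  | cons v l ih => simpa only [dl, add_right_comm _ v] using (ih (Y + v)).sub (ih Y)

theorem step (h : S.OK) (hC : S.Conf ζ C) {z : Vec × ℝ}
    (hz : z ∈ mvs (2 * S.n) S.p fun a => 8 * S.eps a) {r : ℕ} {Y : Vec} (hY : S.Om r Y)
    (hr : r ≤ S.Q ^ 12) : S.Om (r + 1) (Y + z.1) ∧ C (Y + z.1) ≤ 2 * C Y := by
  have hQ := h.Q_ge
  have h1 := hC.sm Y (hY.mono (hr.trans (Nat.pow_le_pow_right (by omega) (by norm_num)))) [z]
    (by simp) (by simpa using hz)
  obtain ⟨a, ha, -, h2, h3⟩ := hz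
  refine ⟨hY.add fun c _ => ?_, ?_⟩
  · have h4 : |S.X c (bb S.p a)| ≤ 1 := by
      rw [h.X_bb ha]
      split_ifs <;> simp
    have h5 : S.X c (-bb S.p a) = -S.X c (bb S.p a) := by
      simpa using Mod.X_smul (S := S) c (-1) (bb S.p a)
    have h6 : (1 : ℤ) ≤ 2 ^ S.j c := one_le_pow₀ one_le_two
    rcases h2 with e | e
    · rw [e]
      simpa using h4.trans h6
    · rw [e, h5, abs_neg]
      simpa using h4.trans h6
  · have h4 : (8 : ℝ) ≤ (S.Q : ℝ) ^ 136 :=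
      le_trans (by exact_mod_cast (by omega : 8 ≤ S.Q))
        (le_self_pow₀ (by exact_mod_cast (by omega : 1 ≤ S.Q)) (by norm_num))
    have h5 := mul_le_mul_of_nonneg_left h4 (Mod.eps_pos (S := S) a).le
    have h6 := h.eps_le ha
    have h7 := mul_le_mul_of_nonneg_right (show z.2 ≤ 1 by rw [h3]; linarith) (hC.pos Y).le
    simp only [List.map_cons, List.map_nil, dl, List.prod_cons, List.prod_nil, mul_one] at h1
    linarith [(abs_le.1 h1).2]

theorem tail_dl (h : S.OK) (hC : S.Conf ζ C) {u : Vec} {x : ℝ} (hx : 0 ≤ x)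
    (hu : ∀ Y, S.Om (S.Q ^ 12) Y → C (Y + u) ≤ x * C Y) (l : List (Vec × ℝ))
    (hl : ∀ z ∈ l, z ∈ mvs (2 * S.n) S.p fun a => 8 * S.eps a) {r : ℕ} {Y : Vec} (hY : S.Om r Y)
    (hr : r + l.length ≤ S.Q ^ 12) :
    |dl (l.map Prod.fst) C (Y + u)| ≤ 3 ^ l.length * (x * C Y) := by
  induction l generalizing r Y with
  | nil => simpa [dl, abs_of_pos (hC.pos _)] using hu Y (hY.mono hr)
  | cons z l ih =>
      rw [List.length_cons] at hr
      obtain ⟨h1, h2⟩ := step h hC (hl z (by simp)) hY (by omega)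
      have h3 := ih (fun z hz => hl z (by simp [hz])) h1 (by omega)
      have h4 := ih (fun z hz => hl z (by simp [hz])) hY (by omega)
      have h5 := mul_le_mul_of_nonneg_left (mul_le_mul_of_nonneg_left h2 hx)
        (by positivity : (0 : ℝ) ≤ 3 ^ l.length)
      simp only [List.map_cons, dl, List.length_cons, pow_succ, add_right_comm _ u]
      refine (abs_sub _ _).trans ?_
      linarith

theorem prod_ge {η : ℝ} (h0 : 0 ≤ η) (l : List ℝ) (hl : ∀ x ∈ l, η ≤ x) :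
    η ^ l.length ≤ l.prod := by
  induction l with
  | nil => simp
  | cons x l ih =>
      rw [List.length_cons, List.prod_cons, pow_succ']
      exact mul_le_mul (hl x (by simp)) (ih fun x hx => hl x (by simp [hx])) (by positivity)
        (h0.trans (hl x (by simp)))

end MargX

open MargX in
theorem Mod.OK.exists_marg {S : Mod} (h : S.OK) {ζ : ℕ → ℤ} {C : Vec → ℝ} (hC : S.Conf ζ C) :
    ∃ H, S.Marg C H := by
  obtain ⟨φ, δ, φ0, φs, hδ, hφ⟩ := exists_phi h hC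
  have hs := summ h hC
  have hQ := h.Q_ge
  have hη0 : (0 : ℝ) < 1 / 2 ^ S.Q := by positivity
  have hη1 : (1 : ℝ) / 2 ^ S.Q ≤ 1 := (div_le_one (by positivity)).2 (one_le_pow₀ one_le_two)
  have δ0 : 0 ≤ δ := φs.nonneg φ0
  have δ1 : δ ≤ 1 := by linarith [pow_le_one₀ (n := 3) hη0.le hη1]
  have q1 : S.Q ^ 10 + 3 ≤ S.Q ^ 12 := by
    have h1 : 1 ≤ S.Q ^ 10 := Nat.one_le_pow _ _ (by omega)
    have h2 : S.Q ^ 10 * 4 ≤ S.Q ^ 10 * S.Q := Nat.mul_le_mul_left _ (by omega)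
    have h3 : S.Q ^ 11 ≤ S.Q ^ 12 := Nat.pow_le_pow_right (by omega) (by norm_num)
    rw [← pow_succ] at h2
    exact le_trans (by omega) (h2.trans h3)
  have w0 : ∀ Y, C Y ≤ ∑ t ∈ Wd S, C (Y + gl S t) := fun Y => by
    simpa [gl] using single_le_sum (f := fun t => C (Y + gl S t)) (fun t _ => (hC.pos _).le)
      (mem_Wd.2 (by simp) : 0 ∈ Wd S)
  have w1 : ∀ Y, ∑ t ∈ Wd S, C (Y + gl S t) ≤ ∑' t, C (Y + gl S t) := fun Y =>
    (hs Y).sum_le_tsum _ fun t _ => (hC.pos _).le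
  have w2 : ∀ Y, S.Om (S.Q ^ 12) Y → ∑' t, C (Y + gl S t) ≤ 2 * ∑ t ∈ Wd S, C (Y + gl S t) := by
    intro Y hY
    have h1 : HasSum (fun t => if t ∈ Wd S then C (Y + gl S t) else 0)
        (∑ t ∈ Wd S, C (Y + gl S t)) := by
      rw [← sum_congr rfl fun t ht => if_pos (e := (0 : ℝ)) ht]
      exact hasSum_sum_of_ne_finset_zero fun t ht => if_neg ht
    have h2 := hasSum_le (fun t => ?_) (hs Y).hasSum (h1.add (φs.mul_right (C Y)))
    · have := mul_le_mul_of_nonneg_right δ1 (hC.pos Y).le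
      linarith [w0 Y]
    · have := mul_nonneg (φ0 t) (hC.pos Y).le
      split_ifs with c
      · linarith
      · linarith [hφ Y hY t c]
  refine ⟨fun Y => ∑' t, C (Y + gl S t), fun Y => (hC.pos Y).trans_le ((w0 Y).trans (w1 Y)),
    hC.sl.sum_all hC.pos S.b.nt (fun i hi => ?_) hs, fun Y i hi => ?_, fun Y hY l hl hm => ?_,
    fun Y hY i hi => ?_, fun Y hY => ?_⟩
  · have := h.bas.el_lt i hi
    exact .inr ⟨_, by omega, _, by omega, h.isB_gv hi⟩
  · rw [← (Equiv.addRight (Pi.single (⟨i, hi⟩ : Fin S.b.nt) (1 : ℤ))).tsum_eq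
      fun t => C (Y + gl S t)]
    refine tsum_congr fun t => ?_
    simp [gl, add_smul, sum_add_distrib, Pi.single_apply, ite_smul, add_assoc, add_comm (S.gv i)]
  · rcases l.eq_nil_or_concat' with rfl | ⟨l₀, z₀, hl₀⟩
    · simp [dl, abs_of_pos ((hC.pos Y).trans_le ((w0 Y).trans (w1 Y)))]
    set l' : List (Vec × ℝ) := l.map fun z => (z.1, z.2 / 2) with hl'
    have e1 : l'.map Prod.fst = l.map Prod.fst := by simp [hl', Function.comp_def]
    have e2 : l'.length = l.length := by simp [hl']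
    have e3 : (l.map Prod.snd).prod = 2 ^ l.length * (l'.map Prod.snd).prod := by
      rw [hl']
      clear hl' e1 e2 hl hm hl₀ l'
      induction l with
      | nil => simp
      | cons z l ih =>
          simp only [List.map_cons, List.prod_cons, List.length_cons, ih]
          ring
    have hm' : ∀ z ∈ l', z ∈ mvs (2 * S.n) S.p fun a => 8 * S.eps a := fun z hz => by
      obtain ⟨z, hz', rfl⟩ := List.mem_map.1 hz
      obtain ⟨a, h1, h2, h3, h4⟩ := hm z hz'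
      exact ⟨a, h1, h2, h3, by simp only [h4]; ring⟩
    have p1 : (1 / 2 ^ S.Q : ℝ) ^ 3 ≤ (l'.map Prod.snd).prod := by
      refine (pow_le_pow_of_le_one hη0.le hη1 (by simpa [e2] using hl)).trans
        (prod_ge hη0.le _ fun x hx => ?_)
      obtain ⟨z, hz, rfl⟩ := List.mem_map.1 hx
      obtain ⟨a, h1, -, -, h4⟩ := hm' z hz
      have := (div_le_iff₀ (by positivity)).2 (h.eps_ge h1)
      have := Mod.eps_pos (S := S) a
      rw [h4]
      linarith
    have p0 : 0 ≤ (l'.map Prod.snd).prod := le_trans (by positivity) p1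
    have p2 : (2 : ℝ) ≤ 2 ^ l.length := le_self_pow₀ one_le_two (by simp [hl₀])
    have h1 := (hasSum_dl hs (l'.map Prod.fst) Y).norm_le_of_bounded
      (((hs Y).hasSum.mul_left (l'.map Prod.snd).prod).add
        ((φs.mul_right (C Y)).mul_left 27)) fun t => by
      have c0 := mul_nonneg (φ0 t) (hC.pos Y).le
      rw [Real.norm_eq_abs]
      by_cases c : t ∈ Wd S
      · linarith [hC.sm _ (om_win h (hY.mono (by omega)) c) l' (by omega) hm']
      · have c1 := tail_dl h hC (φ0 t) (fun Y hY => hφ Y hY t c) l' hm' hY (by omega)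
        have c2 : (3 : ℝ) ^ l'.length ≤ 3 ^ 3 := pow_le_pow_right₀ (by norm_num) (by omega)
        have c3 := mul_le_mul_of_nonneg_right c2 c0
        have c4 := mul_nonneg p0 (hC.pos (Y + gl S t)).le
        linarith
    rw [Real.norm_eq_abs, e1] at h1
    have h2 := mul_le_mul (hδ.trans p1) ((w0 Y).trans (w1 Y)) (hC.pos Y).le p0
    have h3 := mul_le_mul_of_nonneg_right p2
      (mul_nonneg p0 ((hC.pos Y).le.trans ((w0 Y).trans (w1 Y))))
    rw [e3, mul_assoc]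
    linarith
  · have hY' : S.Om (S.Q ^ 12) Y := hY.mono (by omega)
    have hY'' : S.Om (S.Q ^ 12) (Y + ev i) := (h.om_ev hY i).mono (by omega)
    have q2 : (128 : ℝ) * (S.Q : ℝ) ^ 4 ≤ (S.Q : ℝ) ^ 6 := by
      have h1 : (4096 : ℝ) ≤ S.Q := by exact_mod_cast hQ
      have h2 : (128 : ℝ) ≤ (S.Q : ℝ) ^ 2 := by nlinarith
      have h3 := mul_le_mul_of_nonneg_right h2 (by positivity : (0 : ℝ) ≤ (S.Q : ℝ) ^ 4)
      linarith
    have q3 : (0 : ℝ) ≤ 32 * (S.Q : ℝ) ^ 4 := by positivity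
    have k1 : ∑ t ∈ Wd S, C (Y + ev i + gl S t) ≤
        64 * (S.Q : ℝ) ^ 4 * ∑ t ∈ Wd S, C (Y + gl S t) := by
      rw [mul_sum]
      refine sum_le_sum fun t ht => ?_
      have c1 := (h.w_ratio ζ (om_win h hY' ht) hi).1
      have c2 := hC.le2 (Y + gl S t + ev i)
      have c3 := mul_le_mul_of_nonneg_left (hC.le1 (Y + gl S t)) q3
      rw [add_right_comm]
      linarith
    have k2 : ∑ t ∈ Wd S, C (Y + gl S t) ≤
        64 * (S.Q : ℝ) ^ 4 * ∑ t ∈ Wd S, C (Y + ev i + gl S t) := by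
      rw [mul_sum]
      refine sum_le_sum fun t ht => ?_
      have c1 := (h.w_ratio ζ (om_win h hY' ht) hi).2
      have c2 := hC.le2 (Y + gl S t)
      have c3 := mul_le_mul_of_nonneg_left (hC.le1 (Y + gl S t + ev i)) q3
      rw [add_right_comm]
      linarith
    have k3 : ∀ Y, 128 * (S.Q : ℝ) ^ 4 * ∑ t ∈ Wd S, C (Y + gl S t) ≤
        (S.Q : ℝ) ^ 6 * ∑' t, C (Y + gl S t) := fun Y =>
      mul_le_mul q2 (w1 Y) ((hC.pos Y).le.trans (w0 Y)) (by positivity)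
    exact ⟨by linarith [w2 _ hY'', k3 Y], by linarith [w2 _ hY', k3 (Y + ev i)]⟩
  · rw [win_eq]
    exact ⟨w1 Y, w2 Y (hY.mono (by omega))⟩

end Crest.Agent.R302
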