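import Crest.Agent.R302.Geo
import Crest.Agent.R302.Base
import Crest.Agent.R302.Est

/-! Row 302: the model. -/

set_option autoImplicit false

namespace Crest.Agent.R302

open Crest.Agent.PT Crest.Agent.R309 Finset

/-- the data of the model -/
structure Mod where
  n : ℕ
  q : ℕ
  B : ℕ
  f1 : Finset ℕ → ℤ
  f2 : Finset ℕ → ℤ
  l1 : List ℕ
  l2 : List ℕ
  jl : List ℕ
  lol : List ℤ
  b : Bas

namespace Mod

variable (S : Mod)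

def Q : ℕ := 2 ^ S.q
def g : ℕ := 150 * S.q
def J : ℕ := S.g + S.B + 2
def M : ℕ := 2 ^ (144 * S.q)
def dd : ℕ := 4 * S.J + 7000 * S.q
def D : ℕ := 2 ^ S.dd
def T : ℕ := 2 ^ (11 * S.q + 2 * S.g)
/-- the forest on the `2 n` ports -/
def p : ℕ → ℕ := pp S.n (pf S.l1) (pf S.l2)
def j (a : ℕ) : ℕ := S.jl.getD a 0
def lo (a : ℕ) : ℤ := S.lol.getD a 0
def F : Finset ℕ → ℤ := dsum S.n S.f1 S.f2
/-- the number of points -/
noncomputable def N : ℕ := (PS S.n S.f1 S.f2).ncard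
/-- the coordinate along the port edge `a` -/
def X (a : ℕ) (Y : Vec) : ℤ := sm (sub (2 * S.n) S.p a) Y
def cst (a : ℕ) : ℕ := if S.p a = a then 2 * S.q * S.D else 2 ^ (S.dd + 12 * S.q - S.j a)
noncomputable def eps (a : ℕ) : ℝ := (S.Q : ℝ) ^ 14 / 2 ^ S.j a
def KW : ℕ := 2 ^ (S.dd - (7 * S.q + 2 * S.g))
def rH : ℕ := (S.q + 1) * 2 ^ (7 * S.q + 2 * S.g)
def Ka (a : ℕ) : ℕ := 2 ^ (S.dd + 43 * S.q - (2 * S.g + 2 * S.j a))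
def Hub (u : ℤ) : ℤ :=
  if |u| ≤ S.rH then S.KW * u ^ 2 else S.KW * (2 * S.rH * |u| - (S.rH : ℤ) ^ 2)
def mar (a : ℕ) (u : ℤ) : ℤ := if S.p a = a then S.Hub u else S.Ka a * u ^ 2
/-- the confining margin -/
def Mar (Y : Vec) : ℤ := ∑ a ∈ range (2 * S.n), S.mar a (S.X a Y - S.lo a)
/-- the soft energy for a field on the labels -/
noncomputable def nz (ζ : ℕ → ℤ) (Y : Vec) : ℤ :=
  nu (2 * S.n) S.F S.p S.cst (fun a => ζ (S.b.lab a)) Y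
noncomputable def En (ζ : ℕ → ℤ) (Y : Vec) : ℤ := S.nz ζ Y + S.Mar Y
noncomputable def w (ζ : ℕ → ℤ) (Y : Vec) : ℝ := (2 : ℝ) ^ (-(S.En ζ Y : ℝ) / S.D)
/-- the region of radius `r` -/
def Om (r : ℕ) (Y : Vec) : Prop :=
  ∀ a < 2 * S.n, |S.X a Y - S.lo a| ≤ (r : ℤ) * 2 ^ S.j a
/-- the step of the fat coordinate `e` -/
def tau (e : ℕ) : ℕ := 2 ^ (min (S.b.je e) S.J - 138 * S.q)
def tauP : ℕ := ∏ e ∈ range S.b.nf, S.tau e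
def E : ℕ := S.b.nf + S.b.nt
def rf : List ℕ := List.replicate S.b.nf S.M
def rt : List ℕ := List.replicate S.b.nt (2 * S.T)
def rho : List ℕ := S.rf ++ S.rt
def gc (e : ℕ) : ℤ := ∑ a ∈ range (2 * S.n), S.b.Mf S.n e a * S.lo a
def g0 (e : ℕ) : ℤ := S.gc e - S.tau e * 2 ^ (144 * S.q - 1)
def th0 (i : ℕ) : ℤ := ∑ a ∈ range (2 * S.n), S.b.Mt S.n i a * S.lo a
/-- the point of the state `k` -/
def y (k : List ℕ) : Vec := S.b.pt S.n (fun e => S.g0 e + S.tau e * k.getD e 0)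
  fun i => S.th0 i - S.T + k.getD (S.b.nf + i) 0
/-- the centre of the fibre over the fat state `k` -/
def yc (k : List ℕ) : Vec := S.b.pt S.n (fun e => S.g0 e + S.tau e * k.getD e 0) S.th0
/-- the glue vectors -/
def gv (i : ℕ) : Vec := dg S.n (ev (S.b.el i))
noncomputable def W (ζ : ℕ → ℤ) (k : List ℕ) : ℝ := S.w ζ (dg S.n (S.y k))
noncomputable def off (ζ : ℕ → ℤ) : ℤ := min 0 (S.En ζ (dg S.n (S.y [])) / S.D + (S.Q : ℤ) ^ 3)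
/-- the energy of the chain -/
noncomputable def en (ζ : List ℤ) (k : List ℕ) : ℤ :=
  S.En (fun p => ζ.getD p 0) (dg S.n (S.y k)) / S.D - S.off fun p => ζ.getD p 0
/-- the point proposed from the state `k` -/
def xo (k : List ℕ) (r : Word) : Vec :=
  S.y k + ∑ e ∈ range S.b.nf, ((ofB (blk S.J e r) % S.tau e : ℕ) : ℤ) • S.b.z S.n e

structure OK : Prop where
  pair : Pair S.n S.f1 S.f2
  ne : (PS S.n S.f1 S.f2).Nonempty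
  n_pos : 1 ≤ S.n
  nB : 2 * S.n + 2 ≤ S.B
  BQ : 1024 * S.B ≤ 2 ^ S.q
  bd : ∀ A ⊆ range S.n, |S.f1 A| < 2 ^ S.B ∧ |S.f2 A| < 2 ^ S.B
  fo1 : Fo (pf S.l1)
  fo2 : Fo (pf S.l2)
  jge : ∀ a < 2 * S.n, S.g ≤ S.j a
  jle : ∀ a < 2 * S.n, S.j a ≤ S.J
  jroot : ∀ a < 2 * S.n, S.p a = a → S.j a = S.g
  fat1 : ∀ a < S.n, pf S.l1 a ≠ a → ∀ A ⊆ range S.n, ∀ A' ⊆ range S.n, Sep A a (pf S.l1 a) →
    (2 : ℤ) ^ S.j a ≤ 16 * (S.n : ℤ) ^ 2 * (Phi S.f1 S.f2 A A' + 1)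
  fat2 : ∀ a < S.n, pf S.l2 a ≠ a → ∀ A ⊆ range S.n, ∀ A' ⊆ range S.n, Sep A a (pf S.l2 a) →
    (2 : ℤ) ^ S.j (S.n + a) ≤ 16 * (S.n : ℤ) ^ 2 * (Phi S.f2 S.f1 A A' + 1)
  thin : ∀ x ∈ PS S.n S.f1 S.f2, ∀ a < 2 * S.n, S.lo a ≤ S.X a (dg S.n x) ∧
    S.X a (dg S.n x) ≤ S.lo a + 4 * (S.n : ℤ) ^ 3 * 2 ^ S.j a
  bas : S.b.OK S.n S.g S.J S.p S.j

/-- a smooth strongly log-concave version of the weight -/
structure Conf (ζ : ℕ → ℤ) (C : Vec → ℝ) : Prop where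
  pos : ∀ Y, 0 < C Y
  sl : SLv (2 * S.n) ev C
  le1 : ∀ Y, S.w ζ Y ≤ 2 * C Y
  le2 : ∀ Y, C Y ≤ 2 * S.w ζ Y
  sm : ∀ Y, S.Om (S.Q ^ 200) Y → Sm (mvs (2 * S.n) S.p fun a => 8 * S.eps a) C Y

/-- the sum over the thin window -/
noncomputable def win (C : Vec → ℝ) (Y : Vec) : ℝ :=
  ∑ a ∈ bx S.b.nt [] S.rt, C (Y + ∑ i ∈ range S.b.nt, ((a.getD i 0 : ℤ) - S.T) • S.gv i)

/-- the marginal along the glue vectors -/
structure Marg (C h : Vec → ℝ) : Prop where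
  pos : ∀ Y, 0 < h Y
  sl : SLv (2 * S.n) ev h
  gl : ∀ Y, ∀ i < S.b.nt, h (Y + S.gv i) = h Y
  sm : ∀ Y, S.Om (S.Q ^ 10) Y → Sm (mvs (2 * S.n) S.p fun a => 16 * S.eps a) h Y
  rat : ∀ Y, S.Om (S.Q ^ 10) Y → ∀ i < 2 * S.n,
    h (Y + ev i) ≤ (S.Q : ℝ) ^ 6 * h Y ∧ h Y ≤ (S.Q : ℝ) ^ 6 * h (Y + ev i)
  win : ∀ Y, S.Om (S.Q ^ 10) Y → S.win C Y ≤ h Y ∧ h Y ≤ 2 * S.win C Y

/-- computable families of models -/
structure Comp {α : Type} [Rp α] [HasO α] (A : α → Mod) : Prop where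
  n : PU fun a => (A a).n
  q : PU fun a => (A a).q
  Q : PU fun a => 2 ^ (A a).q
  B : PU fun a => (A a).B
  f1 : OT fun p : α × Word => (A p.1).f1 (st (A p.1).n p.2)
  f2 : OT fun p : α × Word => (A p.1).f2 (st (A p.1).n p.2)
  l1 : PTime fun a => (A a).l1
  l2 : PTime fun a => (A a).l2
  jl : PTime fun a => (A a).jl
  lol : PTime fun a => (A a).lol
  b : PTime fun a => (A a).b

end Mod

end Crest.Agent.R302
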