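import Crest.Agent.R302.OTL
import Crest.Agent.R309.Bridge
import Crest.Agent.R309.Mix

/-! Row 302: energies on boxes that are close to locally Lorentzian weights. -/

set_option autoImplicit false

namespace Crest.Agent.R302

open Crest.Agent.PT Crest.Agent.R309 Finset

/-- the weight of an energy -/
noncomputable def wt (en : List ℕ → ℤ) (k : List ℕ) : ℝ := (2 : ℝ) ^ (-en k)

theorem wt_pos (en : List ℕ → ℤ) (k : List ℕ) : 0 < wt en k := by unfold wt; positivity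

/-- the partition function of a box -/
noncomputable def Zb (E : ℕ) (lo hi : List ℕ) (en : List ℕ → ℤ) : ℝ := ∑ k ∈ bx E lo hi, wt en k

/-- Poincaré inequality for single-site moves on a box -/
def Poi (E : ℕ) (lo hi : List ℕ) (C : ℝ) (w : List ℕ → ℝ) : Prop :=
  ∀ f : List ℕ → ℝ,
    (∑ a ∈ bx E lo hi, w a) * (∑ a ∈ bx E lo hi, w a * f a ^ 2) - (∑ a ∈ bx E lo hi, w a * f a) ^ 2 ≤
      C * (∑ a ∈ bx E lo hi, w a) *
        ∑ e ∈ range E, ∑ a ∈ (bx E lo hi).filter (fun a => a.getD e 0 < hi.getD e 0),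
          min (w a) (w (inc a e)) * (f (inc a e) - f a) ^ 2

/-- the box `ρ` with an initial segment of the coordinates pinned -/
def Pin (E : ℕ) (ρ lo hi : List ℕ) : Prop :=
  ∃ e, ∀ i < E, (i < e → lo.getD i 0 = hi.getD i 0 ∧ hi.getD i 0 ≤ ρ.getD i 0) ∧
    (e ≤ i → lo.getD i 0 = 0 ∧ hi.getD i 0 = ρ.getD i 0)

/-- the energy `en` on the box `ρ` is bounded by `P` and satisfies a Poincaré inequality with
constant `P` on all pinned boxes -/
def Nice (E : ℕ) (ρ : List ℕ) (P : ℕ) (en : List ℕ → ℤ) : Prop :=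
  E ≤ P ∧ 2 ≤ P ∧ (∀ e < E, ρ.getD e 0 + 2 ≤ P) ∧ (∀ k ∈ bx E [] ρ, (en k).natAbs ≤ P) ∧
    ∀ lo hi, Pin E ρ lo hi → Poi E lo hi P (wt en)

/-- `lo, hi` is a nonempty sub-box of `ρ` -/
def Sub (E : ℕ) (ρ lo hi : List ℕ) : Prop :=
  ∀ e < E, lo.getD e 0 ≤ hi.getD e 0 ∧ hi.getD e 0 ≤ ρ.getD e 0

/-- a list of `r` integers of absolute value at most `B` -/
def Bd (r B : ℕ) (ζ : List ℤ) : Prop := ζ.length = r ∧ ∀ p, (ζ.getD p 0).natAbs ≤ B

/-- the rational number written by a pair -/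
noncomputable def qv (p : ℕ × ℕ) : ℝ := (p.1 : ℝ) / ((p.2 : ℝ) + 1)

theorem Pin.sub {E : ℕ} {ρ lo hi : List ℕ} (h : Pin E ρ lo hi) : Sub E ρ lo hi := by
  obtain ⟨e, h⟩ := h
  intro i hi
  rcases Nat.lt_or_ge i e with h1 | h1
  · have := (h i hi).1 h1; omega
  · have := (h i hi).2 h1; omega

theorem pin_full (E : ℕ) (ρ : List ℕ) : Pin E ρ [] ρ :=
  ⟨0, fun i _ => ⟨fun h => absurd h (Nat.not_lt_zero _), fun _ => ⟨by simp, rfl⟩⟩⟩

theorem Poi.mono {E : ℕ} {lo hi : List ℕ} {C C' : ℝ} {w : List ℕ → ℝ} (h : Poi E lo hi C w)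
    (hw : ∀ a, 0 ≤ w a) (hC : C ≤ C') : Poi E lo hi C' w := fun f => by
  refine (h f).trans (mul_le_mul_of_nonneg_right (mul_le_mul_of_nonneg_right hC
    (sum_nonneg fun a _ => hw a)) (sum_nonneg fun e _ => sum_nonneg fun a _ => ?_))
  exact mul_nonneg (le_min (hw _) (hw _)) (sq_nonneg _)

theorem Nice.mono {E : ℕ} {ρ : List ℕ} {P P' : ℕ} {en : List ℕ → ℤ} (h : Nice E ρ P en)
    (hP : P ≤ P') : Nice E ρ P' en := by
  obtain ⟨h1, h2, h3, h4, h5⟩ := h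
  exact ⟨h1.trans hP, h2.trans hP, fun e he => (h3 e he).trans hP, fun k hk => (h4 k hk).trans hP,
    fun lo hi hp => (h5 lo hi hp).mono (fun a => (wt_pos en a).le) (by exact_mod_cast hP)⟩

end Crest.Agent.R302
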