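import Crest.Agent.R302.Conf
import Crest.Agent.R302.Marg
import Crest.Agent.R302.CoarseB
import Crest.Agent.R302.Fib

/-! Row 302: the energy of the chain is nice. -/

set_option autoImplicit false

namespace Crest.Agent.R302

open Crest.Agent.PT Crest.Agent.R309 Finset

namespace NiceX

theorem smul {E : ℕ} {lo hi : List ℕ} {C : ℝ} {w : List ℕ → ℝ} (h : Poi E lo hi C w) {t : ℝ}
    (ht : 0 < t) : Poi E lo hi C fun a => t * w a := by
  intro f
  have h1 := mul_le_mul_of_nonneg_left (h f) (sq_nonneg t)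
  simp only [mul_assoc t, ← mul_sum, ← mul_min_of_nonneg _ _ ht.le]
  linarith

theorem w_le {S : Mod} (ζ : ℕ → ℤ) {Y Y' : Vec} (h : S.En ζ Y - S.En ζ Y' ≤ S.D) :
    S.w ζ Y' ≤ 2 * S.w ζ Y := by
  have hD : (0 : ℝ) < S.D := by exact_mod_cast Mod.D_pos
  have h1 : (S.En ζ Y : ℝ) - S.En ζ Y' ≤ S.D := by exact_mod_cast h
  unfold Mod.w
  rw [show 2 * (2 : ℝ) ^ (-(S.En ζ Y : ℝ) / S.D) = 2 ^ (1 + -(S.En ζ Y : ℝ) / S.D) by
    rw [Real.rpow_add (by norm_num), Real.rpow_one]]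
  refine Real.rpow_le_rpow_of_exponent_le (by norm_num) ?_
  rw [div_le_iff₀ hD, add_mul, div_mul_cancel₀ _ hD.ne']
  linarith

theorem poi_W {S : Mod} (h : S.OK) (ζ : ℕ → ℤ) {lo hi : List ℕ} (hp : Pin S.E S.rho lo hi) :
    Poi S.E lo hi (100 * ((S.b.nf : ℝ) + 1) * (2 ^ 4 * (S.Q : ℝ) ^ 1280) *
      (4 ^ 4 * (S.Q : ℝ) ^ 620)) (S.W ζ) := by
  obtain ⟨C, hC⟩ := h.exists_conf ζ
  obtain ⟨H, hH⟩ := h.exists_marg hC
  have hQ : (4096 : ℝ) ≤ S.Q := by exact_mod_cast h.Q_ge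
  have hs := hp.sub
  have q1 : (1 : ℝ) ≤ (S.Q : ℝ) ^ 1280 := one_le_pow₀ (by linarith)
  have q2 : (1 : ℝ) ≤ (S.Q : ℝ) ^ 620 := one_le_pow₀ (by linarith)
  have hsf : Sub S.b.nf S.rf lo hi := fun e he => by
    have := hs e (by unfold Mod.E; omega)
    rwa [Mod.rho_getD_f he, ← FibX.rf_getD S he] at this
  have hst : Sub S.b.nt S.rt (lo.drop S.b.nf) (hi.drop S.b.nf) := fun e he => by
    have := hs (S.b.nf + e) (by unfold Mod.E; omega)
    rwa [Mod.rho_getD_t he, ← FibX.rt_getD S he, ← PoiX.getD_drop, ← PoiX.getD_drop] at this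
  have hkf : ∀ k ∈ bx S.b.nf lo hi, k ∈ bx S.b.nf [] S.rf := fun k hk =>
    mem_bx.2 ⟨(mem_bx.1 hk).1, fun i hi' =>
      ⟨by simp, ((mem_bx.1 hk).2 i hi').2.trans (hsf i hi').2⟩⟩
  have hW : ∀ k, 0 < S.W ζ k := fun k => Mod.w_pos _ _
  refine Poi.two (E1 := S.b.nf) (E2 := S.b.nt) hW (by linarith) (by linarith)
    (fun k hk => (h.fibre_poi hC (hkf k hk) hst).cmp (by positivity) (by norm_num)
      (fun _ _ => hC.pos _) (fun _ _ => hC.le2 _) fun _ _ => hC.le1 _) ?_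
    fun k hk e he hlt a ha => ?_
  · obtain ⟨e, hp⟩ := hp
    by_cases he : e ≤ S.b.nf
    · have eb : bx S.b.nt (lo.drop S.b.nf) (hi.drop S.b.nf) = bx S.b.nt [] S.rt := by
        ext l
        rw [mem_bx, mem_bx]
        refine and_congr_right fun _ => forall₂_congr fun i hi' => ?_
        obtain ⟨a1, a2⟩ := (hp (S.b.nf + i) (by unfold Mod.E; omega)).2 (by omega)
        rw [PoiX.getD_drop, PoiX.getD_drop, a1, a2, Mod.rho_getD_t hi', FibX.rt_getD S hi']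
        simp
      have key : ∀ k ∈ bx S.b.nf lo hi,
          H (dg S.n (S.yc k)) ≤ 4 * ∑ a ∈ bx S.b.nt [] S.rt, S.W ζ (k ++ a) ∧
            ∑ a ∈ bx S.b.nt [] S.rt, S.W ζ (k ++ a) ≤ 4 * H (dg S.n (S.yc k)) := by
        intro k hk
        obtain ⟨hl, hk2⟩ := mem_bx.1 (hkf k hk)
        have hY : S.Om (S.Q ^ 10) (dg S.n (S.yc k)) := (h.om_yc fun e he => by
          have := (hk2 e he).2
          rwa [FibX.rf_getD S he] at this).mono (Nat.pow_le_pow_right Mod.Q_pos (by norm_num))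
        obtain ⟨w1, w2⟩ := hH.win _ hY
        have ew : S.win C (dg S.n (S.yc k)) =
            ∑ a ∈ bx S.b.nt [] S.rt, C (dg S.n (S.y (k ++ a))) :=
          sum_congr rfl fun a _ => by rw [h.y_append hl]
        have s1 : ∑ a ∈ bx S.b.nt [] S.rt, C (dg S.n (S.y (k ++ a))) ≤
            2 * ∑ a ∈ bx S.b.nt [] S.rt, S.W ζ (k ++ a) := by
          rw [mul_sum]; exact sum_le_sum fun a _ => hC.le2 _
        have s2 : ∑ a ∈ bx S.b.nt [] S.rt, S.W ζ (k ++ a) ≤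
            2 * ∑ a ∈ bx S.b.nt [] S.rt, C (dg S.n (S.y (k ++ a))) := by
          rw [mul_sum]; exact sum_le_sum fun a _ => hC.le1 _
        have s3 := hH.pos (dg S.n (S.yc k))
        rw [ew] at w1 w2
        constructor <;> linarith
      rw [eb]
      exact (h.coarse_poi hH hsf).cmp (by positivity) (by norm_num) (fun _ _ => hH.pos _)
        (fun k hk => (key k hk).1) fun k hk => (key k hk).2
    · exact Poi.point (by positivity) (fun k => sum_nonneg fun a _ => (hW _).le) fun i hi' =>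
        ((hp i (by unfold Mod.E; omega)).1 (by omega)).1
  · have hl := (mem_bx.1 hk).1
    have hm := mem_bx.1 ((PoiX.app_mem hl).2 ⟨hk, ha⟩)
    have hY : S.Om (S.Q ^ 200) (dg S.n (S.y (k ++ a))) :=
      (h.om_y fun i hi' => (hm.2 i hi').2.trans (hs i hi').2).mono
        (Nat.pow_le_pow_right Mod.Q_pos (by norm_num))
    have e1 : dg S.n (S.y (inc k e ++ a)) =
        dg S.n (S.y (k ++ a)) + (S.tau e : ℤ) • dg S.n (S.b.z S.n e) := by
      rw [h.y_append hl, h.y_append (by simp [inc, hl]), h.yc_inc hl he, add_right_comm]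
    have e2 := h.En_step ζ hY he
    rw [← e1] at e2
    have e3 := abs_nonneg (S.En ζ (dg S.n (S.y (inc k e ++ a))) - S.En ζ (dg S.n (S.y (k ++ a))))
    have e4 := le_abs_self (S.En ζ (dg S.n (S.y (inc k e ++ a))) - S.En ζ (dg S.n (S.y (k ++ a))))
    have e5 := neg_abs_le (S.En ζ (dg S.n (S.y (inc k e ++ a))) - S.En ζ (dg S.n (S.y (k ++ a))))
    exact ⟨w_le ζ (by omega), w_le ζ (by omega)⟩

end NiceX

theorem Mod.OK.nice {S : Mod} (h : S.OK) (ζ : List ℤ) : Nice S.E S.rho (S.Q ^ 2000) (S.en ζ) := by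
  have hQ := h.Q_ge
  have hn := h.nQ
  have p1 : ∀ {m : ℕ}, m ≤ 2000 → S.Q ^ m ≤ S.Q ^ 2000 := fun hm =>
    Nat.pow_le_pow_right Mod.Q_pos hm
  have p2 : S.Q ≤ S.Q ^ 2000 := by simpa using p1 (m := 1) (by norm_num)
  have n1 := h.bas.nf_le
  have n2 := h.bas.nt_le
  refine ⟨by unfold Mod.E; omega, by omega, fun e he => ?_,
    fun k hk => (h.en_bd ζ hk).trans (p1 (by norm_num)), fun lo hi hp => ?_⟩
  · have a1 : 1 ≤ S.Q ^ 311 := Nat.one_le_pow _ _ Mod.Q_pos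
    have a2 : 4 * S.Q ^ 311 ≤ S.Q * S.Q ^ 311 := Nat.mul_le_mul_right _ (by omega)
    have a3 := p1 (m := 312) (by norm_num)
    have a4 : S.Q ^ 144 ≤ S.Q ^ 311 := Nat.pow_le_pow_right Mod.Q_pos (by norm_num)
    rw [pow_succ' S.Q 311] at a3
    by_cases h1 : e < S.b.nf
    · rw [Mod.rho_getD_f h1, Mod.M_eq]; omega
    · obtain ⟨i, rfl⟩ := Nat.exists_eq_add_of_le (not_lt.1 h1)
      rw [Mod.rho_getD_t (by unfold Mod.E at he; omega), Mod.T_eq]; omega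
  · have ht : (0 : ℝ) < (2 : ℝ) ^ S.off (fun p => ζ.getD p 0) := by positivity
    have h1 := (NiceX.smul (NiceX.poi_W h (fun p => ζ.getD p 0) hp) ht).cmp (κ := 2)
      (w := wt (S.en ζ)) (by positivity) (by norm_num)
      (fun _ _ => mul_pos ht (Mod.w_pos _ _))
      (fun a _ => (Mod.OK.wt_en ζ a).1.trans (by linarith [wt_pos (S.en ζ) a]))
      fun a _ => (Mod.OK.wt_en ζ a).2
    refine h1.mono (fun a => (wt_pos _ a).le) ?_
    have hQ' : (4096 : ℝ) ≤ S.Q := by exact_mod_cast hQ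
    have b1 : (S.b.nf : ℝ) + 1 ≤ S.Q := by exact_mod_cast (by omega : S.b.nf + 1 ≤ S.Q)
    have b2 : (6553600 : ℝ) ≤ (S.Q : ℝ) ^ 2 := by nlinarith
    push_cast
    calc (2 : ℝ) ^ 4 * (100 * ((S.b.nf : ℝ) + 1) * (2 ^ 4 * (S.Q : ℝ) ^ 1280) *
          (4 ^ 4 * (S.Q : ℝ) ^ 620))
        = 6553600 * ((S.b.nf : ℝ) + 1) * (S.Q : ℝ) ^ 1900 := by ring
      _ ≤ (S.Q : ℝ) ^ 2 * S.Q * (S.Q : ℝ) ^ 1900 := by gcongr
      _ = (S.Q : ℝ) ^ 1903 := by ring
      _ ≤ _ := pow_le_pow_right₀ (by linarith) (by norm_num)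

end Crest.Agent.R302
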