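import Crest.Agent.R302.NuA

/-! Row 302: the dual of the soft energy (mathematics of `Nu`). -/

set_option autoImplicit false

namespace Crest.Agent.R302.NuX

open Finset SfmAX

/-- the parent, with the hub `m` as the parent of the roots -/
def qq (m : ℕ) (p : ℕ → ℕ) (a : ℕ) : ℕ := if p a = a then m else p a

/-- the penalty -/
def pen (m : ℕ) (p cst : ℕ → ℕ) (M : ℤ) (π : Vec) : ℤ :=
  ∑ a ∈ range m, M * max 0 (|π a - π (qq m p a)| - cst a)

/-- the normalised set function on `m + 1` points -/
def ff (m : ℕ) (F : Finset ℕ → ℤ) (y : Vec) (S : Finset ℕ) : ℤ :=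
  F (S.filter (· < m)) - sm (S.filter (· < m)) y -
    if m ∈ S then F (range m) - sm (range m) y else 0

def zt (m : ℕ) (ζ : Vec) : Vec := fun i => if i < m then ζ i else 0

/-- the dual objective -/
def GG (m : ℕ) (F : Finset ℕ → ℤ) (p cst : ℕ → ℕ) (ζ y : Vec) (M : ℤ) (π : Vec) : ℤ :=
  lov (m + 1) (ff m F y) (π + zt m ζ) + pen m p cst M π

variable {m : ℕ} {F : Finset ℕ → ℤ} {p cst : ℕ → ℕ} {ζ y : Vec} {M : ℤ}

theorem filt_sub (S : Finset ℕ) : S.filter (· < m) ⊆ range m := fun _ h =>
  mem_range.2 (mem_filter.1 h).2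

theorem filt_of {S : Finset ℕ} (h : S ⊆ range m) : S.filter (· < m) = S :=
  filter_true_of_mem fun _ hi => mem_range.1 (h hi)

theorem filt_full : (range (m + 1)).filter (· < m) = range m := by
  ext i; simp only [mem_filter, mem_range]; omega

theorem ff_submod (hF : Submod m F) : Submod (m + 1) (ff m F y) := by
  intro A _ B _
  have h1 := hF _ (filt_sub A) _ (filt_sub B)
  have h2 := sm_union_inter (A.filter (· < m)) (B.filter (· < m)) y
  unfold ff
  rw [filter_union, filter_inter_distrib]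
  simp only [mem_union, mem_inter]
  by_cases a : m ∈ A <;> by_cases b : m ∈ B <;> simp only [a, b, or_true, true_or, and_true,
    and_false, or_self, and_self, if_true, if_false] <;> omega

theorem ff_empty (h0 : F ∅ = 0) : ff m F y ∅ = 0 := by simp [ff, h0, sm]

theorem ff_full : ff m F y (range (m + 1)) = 0 := by
  rw [ff, filt_full, if_pos (by simp)]; ring

theorem ff_of {S : Finset ℕ} (h : S ⊆ range m) : ff m F y S = F S - sm S y := by
  rw [ff, filt_of h, if_neg (BaseX.not_mem h), sub_zero]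

theorem qq_lt (hp : Fo p) {a : ℕ} (ha : a < m) : qq m p a < m + 1 := by
  have := hp a
  unfold qq; split_ifs <;> omega

theorem pen_lc (hp : Fo p) (hM : 0 ≤ M) : LC (m + 1) (pen m p cst M) := by
  constructor
  · intro u v
    unfold pen
    rw [← sum_add_distrib, ← sum_add_distrib]
    refine sum_le_sum fun a _ => ?_
    rw [← mul_add, ← mul_add]
    refine mul_le_mul_of_nonneg_left ?_ hM
    simp only [Pi.sup_apply, Pi.inf_apply, abs_eq_max_neg]
    omega
  · intro u v c h
    refine sum_congr rfl fun a ha => ?_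
    have ha' := mem_range.1 ha
    rw [h a (by omega), h _ (qq_lt hp ha'), add_sub_add_right_eq_sub]

theorem GG_lc (hF : Submod m F) (h0 : F ∅ = 0) (hp : Fo p) (hM : 0 ≤ M) :
    LC (m + 1) (GG m F p cst ζ y M) :=
  ((lov_lc (ff_submod hF) (ff_empty h0) ff_full).shift (zt m ζ)).add (pen_lc hp hM)

theorem tele (hp : Fo p) (π : Vec) {i : ℕ} (hi : i < m) :
    π i - π m = ∑ a ∈ (range m).filter (fun a => anc p a i), (π a - π (qq m p a)) := by
  rw [hp.tele (m := m) (fun i => π i - π m) hi]
  refine sum_congr rfl fun a _ => ?_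
  unfold qq
  split_ifs <;> ring

theorem abel (hp : Fo p) (π : Vec) {x : Vec} (hx : sm (range (m + 1)) x = 0) :
    dot (m + 1) π x = ∑ a ∈ range m, (π a - π (qq m p a)) * sm (sub m p a) x := by
  rw [dot_tr (u := fun i => π i - π m) (c := π m) (fun i _ => by ring) hx, dot,
    sum_range_succ, sub_self, zero_mul, add_zero]
  rw [sum_congr rfl fun i hi => by rw [tele hp π (mem_range.1 hi), sum_mul, sum_filter]]
  rw [sum_comm]
  refine sum_congr rfl fun a _ => ?_
  rw [sm, sub, mul_sum, sum_filter]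

theorem dot_zt (x : Vec) : dot (m + 1) (zt m ζ) x = dot m ζ x := by
  unfold dot zt
  rw [sum_range_succ, if_neg (lt_irrefl _), zero_mul, add_zero]
  exact sum_congr rfl fun i hi => by rw [if_pos (mem_range.1 hi)]

theorem sub_sub (a : ℕ) : sub m p a ⊆ range m := filter_subset _ _

theorem val_eq {x b : Vec} (h : ∀ i < m, b i = x i + y i) :
    -dot m ζ b + cost m p cst (y - b) + dot m ζ y = -dot m ζ x + cost m p cst x := by
  have e1 : dot m ζ b = dot m ζ x + dot m ζ y := by
    unfold dot
    rw [← sum_add_distrib]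
    exact sum_congr rfl fun i hi => by rw [h i (mem_range.1 hi)]; ring
  have e2 : cost m p cst (y - b) = cost m p cst x := by
    rw [← cost_neg x]
    refine sum_congr rfl fun a _ => ?_
    congr 2
    refine sum_congr rfl fun i hi => ?_
    simp only [Pi.sub_apply, Pi.neg_apply, h i (mem_range.1 (sub_sub a hi))]
    ring
  rw [e1, e2]; ring

theorem bs_of (h0 : F ∅ = 0) {x : Vec} (hx : IsB (m + 1) (ff m F y) x) :
    (fun i => if i < m then x i + y i else 0) ∈ Bs m F := by
  have e : ∀ S ⊆ range m, sm S (fun i => if i < m then x i + y i else 0) = sm S x + sm S y := by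
    intro S hS
    rw [← sm_add]
    exact sum_congr rfl fun i hi => if_pos (mem_range.1 (hS hi))
  have le : ∀ S ⊆ range m, sm S x + sm S y ≤ F S := fun S hS => by
    have := hx.1 S (BaseX.sub_succ hS)
    rw [ff_of hS] at this
    omega
  refine ⟨fun i hi => if_neg (by omega), fun S hS => by rw [e S hS]; exact le S hS, ?_⟩
  rw [e _ subset_rfl]
  have h1 := le _ subset_rfl
  have h2 := hx.1 {m} (by simp)
  have h3 := hx.2
  have h4 : ({m} : Finset ℕ).filter (· < m) = ∅ := by simp
  rw [ff, h4, h0, if_pos (mem_singleton_self _)] at h2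
  rw [sm, sum_range_succ] at h3
  simp only [sm, sum_singleton, sum_empty] at h1 h2 ⊢
  omega

theorem nu_le' (h0 : F ∅ = 0) {x : Vec} (hx : IsB (m + 1) (ff m F y) x) :
    nu m F p cst ζ y + dot m ζ y ≤ -dot m ζ x + cost m p cst x := by
  have := nu_le (p := p) (cst := cst) (ζ := ζ) (bs_of h0 hx) y
  rw [← val_eq (y := y) (b := fun i => if i < m then x i + y i else 0) fun i hi => if_pos hi]
  omega

theorem exists_nu (hF : Submod m F) (h0 : F ∅ = 0) : ∃ x, IsB (m + 1) (ff m F y) x ∧
    nu m F p cst ζ y + dot m ζ y = -dot m ζ x + cost m p cst x := by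
  obtain ⟨b, hb, e⟩ := exists_nu_eq (p := p) (cst := cst) (ζ := ζ) hF h0 y
  have e1 : ∀ S : Finset ℕ, S ⊆ range (m + 1) →
      sm S (fun i => if i < m then b i - y i else sm (range m) y - F (range m)) =
      sm (S.filter (· < m)) b - sm (S.filter (· < m)) y -
        if m ∈ S then F (range m) - sm (range m) y else 0 := by
    intro S hS
    rw [← sm_sub, sm, ← sum_filter_add_sum_filter_not S (· < m), sub_eq_add_neg _ (ite _ _ _)]
    congr 1
    · exact sum_congr rfl fun i hi => if_pos (mem_filter.1 hi).2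
    · split_ifs with h
      · have : S.filter (fun i => ¬ i < m) = {m} := by
          ext i
          simp only [mem_filter, mem_singleton]
          refine ⟨fun a => by have := mem_range.1 (hS a.1); omega, ?_⟩
          rintro rfl
          exact ⟨h, lt_irrefl _⟩
        rw [this, sum_singleton, if_neg (lt_irrefl _)]
        ring
      · have : S.filter (fun i => ¬ i < m) = ∅ := by
          refine filter_false_of_mem fun i hi c => h ?_
          have := mem_range.1 (hS hi)
          rwa [show m = i by omega]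
        rw [this]; simp
  refine ⟨fun i => if i < m then b i - y i else sm (range m) y - F (range m),
    ⟨fun S hS => ?_, ?_⟩, ?_⟩
  · rw [e1 S hS, ff]
    have := hb.2.1 _ (filt_sub S)
    omega
  · rw [e1 _ subset_rfl, filt_full, if_pos (by simp), hb.2.2]; ring
  · rw [e]
    exact val_eq fun i hi => by simp only [if_pos hi]; ring

theorem GG_ge (hF : Submod m F) (h0 : F ∅ = 0) (hp : Fo p) {x : Vec}
    (hx : IsB (m + 1) (ff m F y) x) (π : Vec) :
    dot m ζ x + ∑ a ∈ range m, ((π a - π (qq m p a)) * sm (sub m p a) x +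
      M * max 0 (|π a - π (qq m p a)| - cst a)) ≤ GG m F p cst ζ y M π := by
  have := dot_le (ff_submod hF) (ff_empty h0) ff_full hx (π + zt m ζ)
  rw [dot_add, dot_zt, abel hp π hx.2] at this
  rw [sum_add_distrib, GG, pen]
  omega

theorem weak (hF : Submod m F) (h0 : F ∅ = 0) (hp : Fo p) {x : Vec}
    (hx : IsB (m + 1) (ff m F y) x) (hM : ∀ a, |sm (sub m p a) x| ≤ M) (π : Vec) :
    -(-dot m ζ x + cost m p cst x) ≤ GG m F p cst ζ y M π := by
  refine le_trans ?_ (GG_ge hF h0 hp hx π)
  rw [neg_add, neg_neg, cost, ← sum_neg_distrib]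
  refine add_le_add le_rfl (sum_le_sum fun a _ => ?_)
  have h1 := hM a
  generalize sm (sub m p a) x = X at h1
  generalize π a - π (qq m p a) = u
  have h2 := neg_abs_le (u * X)
  rw [abs_mul] at h2
  have h3 := abs_nonneg X
  rcases le_total (|u| - cst a) 0 with h | h
  · rw [max_eq_left h]; nlinarith
  · rw [max_eq_right h]; nlinarith

theorem coer (hF : Submod m F) (h0 : F ∅ = 0) (hp : Fo p) {x : Vec}
    (hx : IsB (m + 1) (ff m F y) x) (hM : ∀ a, |sm (sub m p a) x| + 1 ≤ M) (π : Vec) :
    dot m ζ x + ∑ a ∈ range m, |π a - π (qq m p a)| - M * ∑ a ∈ range m, (cst a : ℤ) ≤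
      GG m F p cst ζ y M π := by
  refine le_trans ?_ (GG_ge hF h0 hp hx π)
  rw [add_sub_assoc, mul_sum, ← sum_sub_distrib]
  refine add_le_add le_rfl (sum_le_sum fun a _ => ?_)
  have h1 := hM a
  generalize sm (sub m p a) x = X at h1
  generalize π a - π (qq m p a) = u
  have h2 := neg_abs_le (u * X)
  rw [abs_mul] at h2
  have h3 := abs_nonneg X
  have h4 := abs_nonneg u
  have h5 : M * (|u| - cst a) ≤ M * max 0 (|u| - cst a) :=
    mul_le_mul_of_nonneg_left (le_max_right _ _) (by omega)
  nlinarith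

theorem pen_sub (hp : Fo p) (π : Vec) {a : ℕ} (ha : a < m) (t : ℤ) :
    pen m p cst M (π + ind (sub m p a) t) = pen m p cst M π +
      (M * max 0 (|π a - π (qq m p a) + t| - cst a) - M * max 0 (|π a - π (qq m p a)| - cst a)) := by
  have e : ∀ b < m, (π + ind (sub m p a) t) b - (π + ind (sub m p a) t) (qq m p b) =
      π b - π (qq m p b) + if a = b then t else 0 := by
    intro b hb
    have h1 := hp.sm_sub_bb (a := a) hb
    have hm : m ∉ sub m p a := BaseX.not_mem (sub_sub a)
    rw [bb, sm_sub, sm_ev] at h1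
    simp only [Pi.add_apply, ind, qq]
    by_cases r : p b = b
    · simp only [r, if_true, hm, if_false, sm, Pi.zero_apply, sum_const_zero] at h1 ⊢
      split_ifs at h1 ⊢ <;> omega
    · simp only [r, if_false, sm_ev] at h1 ⊢
      split_ifs at h1 ⊢ <;> omega
  unfold pen
  rw [← add_sum_erase _ _ (mem_range.2 ha), ← add_sum_erase (range m) _ (mem_range.2 ha),
    e a ha, if_pos rfl, sum_congr rfl fun b hb => by
      rw [e b (mem_range.1 (mem_of_mem_erase hb)), if_neg (mem_erase.1 hb).1.symm, add_zero]]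
  ring

theorem strong (hF : Submod m F) (h0 : F ∅ = 0) (hp : Fo p) (hM : 0 ≤ M) {π : Vec}
    (h : ∀ S ⊆ range (m + 1), GG m F p cst ζ y M π ≤ GG m F p cst ζ y M (π + ind S 1)) :
    ∃ x, IsB (m + 1) (ff m F y) x ∧ GG m F p cst ζ y M π ≤ -(-dot m ζ x + cost m p cst x) := by
  have L := lov_lc (ff_submod (y := y) hF) (ff_empty h0) ff_full
  have P := pen_lc (m := m) (cst := cst) hp hM
  obtain ⟨x, -, hx⟩ := sandwich (m + 1)
    (fun S => lov (m + 1) (ff m F y) (π + zt m ζ + ind S 1) - lov (m + 1) (ff m F y) (π + zt m ζ))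
    (fun S => pen m p cst M π - pen m p cst M (π + ind S 1))
    (fun A hA B hB => by have := L.submod (π + zt m ζ) zero_le_one A hA B hB; simp only at *; omega)
    (fun A hA B hB => by have := P.submod π zero_le_one A hA B hB; simp only at *; omega)
    (by rw [ind_empty, sub_self]) (by rw [ind_empty, sub_self])
    (fun S hS => by
      have := h S hS
      rw [GG, GG, add_right_comm π] at this
      omega)
  have hx0 : sm (range (m + 1)) x = 0 := by
    have := hx _ subset_rfl
    rw [L.tr (π + zt m ζ) (π + zt m ζ + ind (range (m + 1)) 1) 1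
      (fun i hi => by simp [ind, hi]), P.tr π (π + ind (range (m + 1)) 1) 1
      (fun i hi => by simp [ind, hi])] at this
    omega
  obtain ⟨hB, hle⟩ := subgrad (ff_submod hF) (ff_empty h0) ff_full (fun S hS => (hx S hS).2) hx0
  refine ⟨x, hB, ?_⟩
  rw [dot_add, dot_zt, abel hp π hx0] at hle
  have key : ∑ a ∈ range m, ((π a - π (qq m p a)) * sm (sub m p a) x +
      M * max 0 (|π a - π (qq m p a)| - cst a) + cst a * |sm (sub m p a) x|) ≤ 0 := by
    refine sum_nonpos fun a ha => ?_
    have ha' := mem_range.1 ha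
    have hs := BaseX.sub_succ (sub_sub (m := m) (p := p) a)
    have h1 := (hx _ hs).1
    have h2 := (hx (range (m + 1) \ sub m p a) sdiff_subset).1
    rw [P.tr (π + ind (sub m p a) (-1)) (π + ind (range (m + 1) \ sub m p a) 1) 1
      (fun i hi => by
        simp only [Pi.add_apply, ind, mem_sdiff, mem_range, hi, true_and]
        split_ifs <;> ring)] at h2
    rw [pen_sub hp π ha'] at h1 h2
    have h3 := BaseX.sm_compl hs x
    rw [hx0] at h3
    rw [show sm (range (m + 1) \ sub m p a) x = -sm (sub m p a) x by omega] at h2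
    generalize sm (sub m p a) x = X at h1 h2
    generalize π a - π (qq m p a) = u at h1 h2
    have hc : (0 : ℤ) ≤ cst a := Int.natCast_nonneg _
    generalize (cst a : ℤ) = c at h1 h2 hc
    rcases lt_trichotomy u c with a1 | a1 | a1
    · rcases lt_trichotomy u (-c) with a2 | a2 | a2
      · rw [show max 0 (|u + 1| - c) = -u - c - 1 by rw [abs_eq_max_neg]; omega,
          show max 0 (|u| - c) = -u - c by rw [abs_eq_max_neg]; omega] at h1
        rw [show max 0 (|u + -1| - c) = -u - c + 1 by rw [abs_eq_max_neg]; omega,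
          show max 0 (|u| - c) = -u - c by rw [abs_eq_max_neg]; omega] at h2
        have : X = M := by linarith
        rw [this, abs_of_nonneg hM, show max 0 (|u| - c) = -u - c by rw [abs_eq_max_neg]; omega]
        linarith
      · rw [show max 0 (|u + 1| - c) = 0 by rw [abs_eq_max_neg]; omega,
          show max 0 (|u| - c) = 0 by rw [abs_eq_max_neg]; omega] at h1
        rw [abs_of_nonneg (by linarith : 0 ≤ X),
          show max 0 (|u| - c) = 0 by rw [abs_eq_max_neg]; omega, a2]
        linarith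
      · rw [show max 0 (|u + 1| - c) = 0 by rw [abs_eq_max_neg]; omega,
          show max 0 (|u| - c) = 0 by rw [abs_eq_max_neg]; omega] at h1
        rw [show max 0 (|u + -1| - c) = 0 by rw [abs_eq_max_neg]; omega,
          show max 0 (|u| - c) = 0 by rw [abs_eq_max_neg]; omega] at h2
        have : X = 0 := by linarith
        rw [this, show max 0 (|u| - c) = 0 by rw [abs_eq_max_neg]; omega]
        simp
    · rcases eq_or_lt_of_le hc with a2 | a2
      · rw [a1, ← a2]; simp
      · rw [show max 0 (|u + -1| - c) = 0 by rw [abs_eq_max_neg]; omega,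
          show max 0 (|u| - c) = 0 by rw [abs_eq_max_neg]; omega] at h2
        rw [abs_of_nonpos (by linarith : X ≤ 0),
          show max 0 (|u| - c) = 0 by rw [abs_eq_max_neg]; omega, a1]
        linarith
    · rw [show max 0 (|u + 1| - c) = u - c + 1 by rw [abs_eq_max_neg]; omega,
        show max 0 (|u| - c) = u - c by rw [abs_eq_max_neg]; omega] at h1
      rw [show max 0 (|u + -1| - c) = u - c - 1 by rw [abs_eq_max_neg]; omega,
        show max 0 (|u| - c) = u - c by rw [abs_eq_max_neg]; omega] at h2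
      have : X = -M := by linarith
      rw [this, abs_neg, abs_of_nonneg hM,
        show max 0 (|u| - c) = u - c by rw [abs_eq_max_neg]; omega]
      linarith
  rw [sum_add_distrib, sum_add_distrib] at key
  rw [GG, pen, cost]
  omega

theorem big_lt (m B : ℕ) :
    4 * (3 * ((m : ℤ) * 2 ^ B * ((m + 2) * 2 ^ B + 1))) < 2 ^ (2 * m + 2 * B + 6) := by
  have h1 : (m : ℤ) < 2 ^ m := by exact_mod_cast Nat.lt_two_pow_self
  have h2 : (1 : ℤ) ≤ 2 ^ B := one_le_pow₀ (by norm_num)
  have h0 : (0 : ℤ) ≤ m := Int.natCast_nonneg _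
  have h3 : ((m : ℤ) + 2) * 2 ^ B + 1 ≤ 4 * 2 ^ m * 2 ^ B := by nlinarith
  have e : (2 : ℤ) ^ (2 * m + 2 * B + 6) = 16 * (2 ^ m * 2 ^ B * (4 * 2 ^ m * 2 ^ B)) := by ring
  have h4 : (m : ℤ) * 2 ^ B * ((m + 2) * 2 ^ B + 1) ≤ 2 ^ m * 2 ^ B * (4 * 2 ^ m * 2 ^ B) := by
    gcongr
  have h5 : (0 : ℤ) < 2 ^ m * 2 ^ B * (4 * 2 ^ m * 2 ^ B) := by positivity
  rw [e]
  linarith

/-- the descent computes the soft energy -/
theorem conv (hF : Submod m F) (h0 : F ∅ = 0) (hp : Fo p) {B : ℕ}
    (hB : ∀ S ⊆ range m, |F S| < 2 ^ B)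
    (hc : ∀ i < m, cst i < 2 ^ B ∧ |ζ i| < 2 ^ B ∧ |y i| < 2 ^ B)
    (hM : M = (m + 2) * 2 ^ B + 1) {K : ℕ} (hK : K = 2 * m + 2 * B + 6) (π : ℕ → Vec)
    (hπ0 : π 0 = 0)
    (hπ : ∀ t, ∀ j < K, ∀ S ⊆ range (m + 1),
      GG m F p cst ζ y M (π (t + 1)) ≤ GG m F p cst ζ y M (π t + ind S (2 ^ j))) :
    -GG m F p cst ζ y M (π ((m + 1) * K * K)) - dot m ζ y = nu m F p cst ζ y := by
  have hM0 : 0 ≤ M := by rw [hM]; positivity
  have L := GG_lc (cst := cst) (ζ := ζ) (y := y) hF h0 hp hM0
  have bd : ∀ x, IsB (m + 1) (ff m F y) x → ∀ S ⊆ range m, |sm S x| + 1 ≤ M := by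
    intro x hx S hS
    have h1 := Bs_bound (fun S hS => (hB S hS).le) (bs_of h0 hx) hS
    have e : sm S (fun i => if i < m then x i + y i else 0) = sm S x + sm S y := by
      rw [← sm_add]
      exact sum_congr rfl fun i hi => if_pos (mem_range.1 (hS hi))
    have h2 : |sm S y| ≤ m * 2 ^ B := by
      refine (abs_sum_le_sum_abs _ _).trans ((sum_le_card_nsmul _ _ (2 ^ B) fun i hi =>
        (hc i (mem_range.1 (hS hi))).2.2.le).trans ?_)
      rw [nsmul_eq_mul]
      have : (S.card : ℤ) ≤ m := by exact_mod_cast (card_le_card hS).trans_eq (card_range m)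
      gcongr
    rw [e] at h1
    rw [abs_le] at h1 h2
    have : |sm S x| ≤ (m + 2) * 2 ^ B := abs_le.2 ⟨by linarith, by linarith⟩
    omega
  have bdot : ∀ x, IsB (m + 1) (ff m F y) x → |dot m ζ x| ≤ m * 2 ^ B * M := by
    intro x hx
    refine (abs_sum_le_sum_abs _ _).trans ((sum_le_card_nsmul _ _ (2 ^ B * M) fun i hi => ?_).trans
      (by rw [nsmul_eq_mul, card_range, mul_assoc]))
    have h1 := bd x hx {i} (singleton_subset_iff.2 hi)
    rw [sm, sum_singleton] at h1
    rw [abs_mul]
    exact mul_le_mul (hc i (mem_range.1 hi)).2.1.le (by omega) (abs_nonneg _) (by positivity)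
  obtain ⟨x, hx, ex⟩ := exists_nu (p := p) (cst := cst) (ζ := ζ) (y := y) hF h0
  have wk : ∀ u, -(nu m F p cst ζ y + dot m ζ y) ≤ GG m F p cst ζ y M u := fun u => by
    rw [ex]
    exact weak hF h0 hp hx (fun a => by have := bd x hx _ (sub_sub (p := p) a); omega) u
  obtain ⟨_, ⟨q, rfl⟩, hq⟩ := Int.exists_least_of_bdd (P := fun z => ∃ u, GG m F p cst ζ y M u = z)
    ⟨_, by rintro _ ⟨u, rfl⟩; exact wk u⟩ ⟨_, 0, rfl⟩
  have hq' : ∀ u, GG m F p cst ζ y M q ≤ GG m F p cst ζ y M u := fun u => hq _ ⟨u, rfl⟩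
  have eq : GG m F p cst ζ y M q = -(nu m F p cst ζ y + dot m ζ y) := by
    obtain ⟨x', hx', h'⟩ := strong hF h0 hp hM0 fun S _ => hq' (q + ind S 1)
    have := nu_le' (p := p) (cst := cst) (ζ := ζ) h0 hx'
    have := wk q
    omega
  have G0 : GG m F p cst ζ y M 0 ≤ m * 2 ^ B * M := by
    have h1 : pen m p cst M 0 = 0 := sum_eq_zero fun a _ => by simp
    rw [GG, h1, zero_add, add_zero, lov, dot_zt]
    exact (le_abs_self _).trans (bdot _ (gq_isB (ff_submod hF) (ff_empty h0) ff_full _))
  have cs : M * ∑ a ∈ range m, (cst a : ℤ) ≤ m * 2 ^ B * M := by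
    rw [mul_comm]
    refine mul_le_mul_of_nonneg_right ((sum_le_card_nsmul _ _ (2 ^ B) fun i hi => ?_).trans
      (by rw [nsmul_eq_mul, card_range])) hM0
    exact_mod_cast (hc i (mem_range.1 hi)).1.le
  have co : ∀ u, ∑ a ∈ range m, |u a - u (qq m p a)| - 2 * (m * 2 ^ B * M) ≤
      GG m F p cst ζ y M u := fun u => by
    have h1 := coer (cst := cst) (ζ := ζ) hF h0 hp hx (fun a => bd x hx _ (sub_sub a)) u
    have h2 := (abs_le.1 (bdot x hx)).1
    omega
  have rg : ∀ u, GG m F p cst ζ y M u ≤ GG m F p cst ζ y M 0 → ∀ i < m + 1,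
      |u i - u m| ≤ 3 * (m * 2 ^ B * M) := by
    intro u hu i hi
    have h1 := co u
    rcases Nat.lt_succ_iff_lt_or_eq.1 hi with h | rfl
    · have h2 : |u i - u m| ≤ ∑ a ∈ range m, |u a - u (qq m p a)| := by
        rw [tele hp u h]
        exact (abs_sum_le_sum_abs _ _).trans (sum_le_sum_of_subset_of_nonneg (filter_subset _ _)
          fun _ _ _ => abs_nonneg _)
      omega
    · rw [sub_self, abs_zero]; positivity
  have big : 4 * (3 * (m * 2 ^ B * M)) < 2 ^ K := by rw [hM, hK]; exact big_lt m B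
  have hK0 : 0 < K := by omega
  have dec : ∀ t, GG m F p cst ζ y M (π (t + 1)) ≤ GG m F p cst ζ y M (π t) := fun t => by
    have := hπ t 0 hK0 ∅ (empty_subset _)
    rwa [ind_empty] at this
  have le0 : ∀ t, GG m F p cst ζ y M (π t) ≤ GG m F p cst ζ y M 0 := fun t => by
    induction t with
    | zero => rw [hπ0]
    | succ t ih => exact (dec t).trans ih
  have fin := halving (fun t => GG m F p cst ζ y M (π t) - GG m F p cst ζ y M q)
    (D := (m + 1) * K) (by positivity) (fun t => sub_nonneg.2 (hq' _)) (fun t => by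
      have := L.progress (Nat.succ_pos m) (π t) q
        (η := GG m F p cst ζ y M (π t) - GG m F p cst ζ y M (π (t + 1))) (sub_nonneg.2 (dec t)) K
        (fun j hj S hS => by have := hπ t j hj S hS; omega)
        (fun i hi j hj => by
          have a1 := abs_le.1 (rg _ (le0 t) i hi)
          have a2 := abs_le.1 (rg _ (le0 t) j hj)
          have a3 := abs_le.1 (rg _ (hq' 0) i hi)
          have a4 := abs_le.1 (rg _ (hq' 0) j hj)
          omega)
      push_cast at this ⊢
      linarith) K (by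
      have h1 := co q
      have h2 : 0 ≤ ∑ a ∈ range m, |q a - q (qq m p a)| := sum_nonneg fun _ _ => abs_nonneg _
      have h3 : 0 ≤ m * 2 ^ B * M := by positivity
      simp only [hπ0]
      omega)
  omega

end Crest.Agent.R302.NuX
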