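import Crest.Agent.R302.SfmM

/-! Row 302: submodular function minimisation in oracle polynomial time. -/

set_option autoImplicit false

namespace Crest.Agent.R302

open Crest.Agent.PT Crest.Agent.R309 Finset

namespace SfmX

/-- the relation written by a word -/
def RR (n : ℕ) (r : Word) (v : ℕ) : Finset ℕ :=
  (range n).filter fun w => r.getD (v * n + w) false = true

/-- the word of a relation -/
def wdR (n : ℕ) (R : ℕ → Finset ℕ) : Word :=
  (List.range (n * n)).map fun i => decide (i % n ∈ R (i / n))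

theorem mem_RR {n v w : ℕ} {r : Word} :
    w ∈ RR n r v ↔ w < n ∧ r.getD (v * n + w) false = true := by simp [RR]

theorem RR_sub (n : ℕ) (r : Word) (v : ℕ) : RR n r v ⊆ range n := filter_subset _ _

theorem RR_wdR {n v : ℕ} {R : ℕ → Finset ℕ} (hv : v < n) (h : R v ⊆ range n) :
    RR n (wdR n R) v = R v := by
  ext w
  rw [mem_RR, wdR]
  by_cases hw : w < n
  · have h1 : v * n + w < n * n := by nlinarith
    have h2 : (v * n + w) % n = w := by rw [Nat.mul_add_mod_of_lt hw]
    have h3 : (v * n + w) / n = v := by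
      rw [add_comm, Nat.add_mul_div_right _ _ (by omega), Nat.div_eq_of_lt hw, zero_add]
    rw [getD_rangeMap_of_lt _ h1, h2, h3]
    simp [hw]
  · exact ⟨fun a => absurd a.1 hw, fun a => absurd (mem_range.1 (h a)) hw⟩

/-- the new state -/
def upd (n : ℕ) (s : Word × Word) (u : ℕ) (η : ℤ) (w : ℕ) : Word × Word :=
  if η ≤ 0 then s else if w < n then
    (s.1, wdR n fun v => if u ∈ RR n s.2 v then RR n s.2 v ∪ RR n s.2 w else RR n s.2 v)
  else (wd n ((st n s.1).filter fun v => u ∉ RR n s.2 v), s.2)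

theorem upd_len {n : ℕ} {s : Word × Word} (h : s.1.length = n ∧ s.2.length = n * n) (u : ℕ)
    (η : ℤ) (w : ℕ) : (upd n s u η w).1.length = n ∧ (upd n s u η w).2.length = n * n := by
  unfold upd
  split_ifs
  · exact h
  · exact ⟨h.1, by simp [wdR]⟩
  · exact ⟨by simp [wd], h.2⟩

theorem upd_spec {n : ℕ} {f : Finset ℕ → ℤ} (hf : Submod n f) {s : Word × Word} {u w : ℕ}
    (I : Inv n f (st n s.1) (RR n s.2))
    (hu : ∀ v < n, ell f (st n s.1) (RR n s.2) v ≤ ell f (st n s.1) (RR n s.2) u)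
    (hw : Submod n (gg f (st n s.1) (RR n s.2) u) → gg f (st n s.1) (RR n s.2) u ∅ = 0 →
      0 < ell f (st n s.1) (RR n s.2) u →
      (∀ S ⊆ range n, ∀ v < n, gg f (st n s.1) (RR n s.2) u (insert v S) ≤
        gg f (st n s.1) (RR n s.2) u S + ell f (st n s.1) (RR n s.2) u) →
      (w < n ∧ ∀ S, IsMin n (gg f (st n s.1) (RR n s.2) u) S → w ∈ S) ∨
        (n ≤ w ∧ ∀ S ⊆ range n, -ell f (st n s.1) (RR n s.2) u < gg f (st n s.1) (RR n s.2) u S))
    {s' : Word × Word} (hs : s' = upd n s u (ell f (st n s.1) (RR n s.2) u) w) :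
    (s' = s ∧ IsMin n f (st n s.1)) ∨ (Inv n f (st n s'.1) (RR n s'.2) ∧
      pot n (st n s'.1) (RR n s'.2) < pot n (st n s.1) (RR n s.2)) := by
  by_cases h0 : ell f (st n s.1) (RR n s.2) u ≤ 0
  · exact Or.inl ⟨by rw [hs, upd, if_pos h0], I.isMin hf fun v hv => (hu v hv).trans h0⟩
  right
  have h1 := not_le.1 h0
  rw [upd, if_neg h0] at hs
  rcases hw (I.gg_submod hf h1 hu) (I.gg_empty (mem_of_pos h1)) h1
    (fun S _ v _ => I.gg_insert hf h1 hu S v) with ⟨a, b⟩ | ⟨a, b⟩
  · rw [hs, if_pos a]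
    dsimp only
    refine I.arc h1 b fun v hv => ?_
    rw [RR_wdR hv]
    split_ifs
    · exact union_subset (RR_sub _ _ _) (RR_sub _ _ _)
    · exact RR_sub _ _ _
  · rw [hs, if_neg (not_lt.2 a), st_wd ((filter_subset _ _).trans (st_subset _ _))]
    exact I.del h1 b

section
variable {β : Type} [Rp β]

theorem pt_st {n j : β → ℕ} {q : β → Word} (hn : PTime n) (hj : PTime j)
    (hq : PTime q) : PTime fun b => j b ∈ st (n b) (q b) := by
  simp only [mem_st]; fun_prop

theorem pt_wd {n : β → ℕ} (hn : PU n) {X : β → Finset ℕ}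
    (hX : PTime fun p : β × Un => p.2.val ∈ X p.1) : PTime fun b => wd (n b) (X b) :=
  PTime.rangeMap (g := fun b j => decide (j ∈ X b)) hn hX.decide

theorem pt_card {n : β → ℕ} (hn : PU n) {X : β → Finset ℕ} (h : ∀ b, X b ⊆ range (n b))
    (hX : PTime fun p : β × Un => p.2.val ∈ X p.1) : PTime fun b => ((X b).card : ℤ) :=
  (PTime.card_filter (c := fun b j => j ∈ X b) hn hX).natCast.congr fun b => by
    rw [filter_mem_eq_inter, inter_eq_right.2 (h b)]

theorem pt_dn {n u j : β → ℕ} {t r q : β → Word} (hn : PU n) (hu : PTime u) (hj : PTime j)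
    (ht : PTime t) (hr : PTime r) (hq : PTime q) :
    PTime fun b => j b ∈ dn (st (n b) (t b)) (RR (n b) (r b)) (u b) (st (n b) (q b)) := by
  have hn' := hn.ptime
  have h := PTime.forall_lt (c := fun b i => i ∈ RR (n b) (r b) (j b) →
    i ∈ RR (n b) (r b) (u b) ∨ i ∈ st (n b) (q b)) hn
    (by simp only [mem_st, mem_RR]; fun_prop)
  refine ((pt_st hn' hj ht).and h).congr fun b => propext ?_
  simp only [dn, mem_filter, subset_iff, mem_union]
  exact and_congr_right fun _ => ⟨fun a i _ c => a c, fun a i c => a i (mem_RR.1 c).1 c⟩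

theorem pt_upd {n u w : β → ℕ} {s : β → Word × Word} {η : β → ℤ} (hn : PU n) (hs : PTime s)
    (hu : PTime u) (hη : PTime η) (hw : PTime w) :
    PTime fun b => upd (n b) (s b) (u b) (η b) (w b) := by
  have hn' := hn.ptime
  have h1 : PTime fun b => wdR (n b) fun v => if u b ∈ RR (n b) (s b).2 v then
      RR (n b) (s b).2 v ∪ RR (n b) (s b).2 (w b) else RR (n b) (s b).2 v := by
    refine PTime.rangeMap (hn.mul hn) (PTime.decide (PTime.congr (f := fun p : β × Un =>
      p.2.val % n p.1 ∈ RR (n p.1) (s p.1).2 (p.2.val / n p.1) ∨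
        (u p.1 ∈ RR (n p.1) (s p.1).2 (p.2.val / n p.1) ∧
          p.2.val % n p.1 ∈ RR (n p.1) (s p.1).2 (w p.1)))
      (by simp only [mem_RR]; fun_prop) fun p => propext ?_))
    beta_reduce
    split_ifs with c <;> simp [c]
  have h2 : PTime fun b => wd (n b) ((st (n b) (s b).1).filter fun v => u b ∉ RR (n b) (s b).2 v) :=
    pt_wd hn (by simp only [mem_filter, mem_st, mem_RR]; fun_prop)
  exact PTime.ite (by fun_prop) hs (PTime.ite (by fun_prop) (hs.fst.pair h1) (h2.pair hs.snd))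

end

end SfmX

open SfmX

theorem exists_sfm {α : Type} [Rp α] [HasO α] (m : α → ℕ) (hm : PU m) (f : α → Finset ℕ → ℤ)
    (hf : OT fun p : α × Word => f p.1 (st (m p.1) p.2)) :
    ∃ g : α → Word, OT g ∧ ∀ a, (g a).length = m a ∧
      (Submod (m a) (f a) → IsMin (m a) (f a) (st (m a) (g a))) := by
  have hm' := hm.ptime
  have F : ∀ {β : Type} [Rp β] [HasO β] (π : β → α) (X : β → Finset ℕ), PTime π →
      (∀ b, orc (π b) = orc b) → (∀ b, X b ⊆ range (m (π b))) →
      (PTime fun p : β × Un => p.2.val ∈ X p.1) → OT fun b => f (π b) (X b) :=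
    fun π X hπ ho hX hp => (hf.pre (f := fun b => (π b, wd (m (π b)) (X b)))
      (hπ.pair (pt_wd (hm.comp hπ) hp)) ho).congr fun b => by rw [st_wd (hX b)]
  -- the values `ell`
  have hR := F (β := (α × Word × Word) × Un) (fun p => p.1.1)
    (fun p => RR (m p.1.1) p.1.2.2 p.2.val) (by fun_prop) (fun _ => rfl) (fun _ => RR_sub _ _ _)
    (by simp only [mem_RR]; fun_prop)
  have hL := F (β := (α × Word × Word) × Un) (fun p => p.1.1)
    (fun p => low (RR (m p.1.1) p.1.2.2) p.2.val) (by fun_prop) (fun _ => rfl)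
    (fun _ => (filter_subset _ _).trans (RR_sub _ _ _))
    (by simp only [low, mem_filter, mem_RR]; fun_prop)
  have hE0 := OT.map (E := fun q : ((α × Word × Word) × Un) × ℤ × ℤ =>
    if q.1.2.val ∈ st (m q.1.1.1) q.1.1.2.1 then q.2.1 - q.2.2 else 0)
    (PTime.ite (pt_st (by fun_prop) (by fun_prop) (by fun_prop)) (by fun_prop) (by fun_prop))
    (hR.pair hL)
  have hE : OT fun p : (α × Word × Word) × Un =>
      ell (f p.1.1) (st (m p.1.1) p.1.2.1) (RR (m p.1.1) p.1.2.2) p.2.val :=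
    hE0.congr fun _ => by simp only [ell]
  obtain ⟨u, hu, hu'⟩ := OT.exists_argmax (α := α × Word × Word) (n := fun p => m p.1)
    (g := fun p v => ell (f p.1) (st (m p.1) p.2.1) (RR (m p.1) p.2.2) v) (by fun_prop) hE
  -- the auxiliary function
  have hdn : PTime fun q : (((α × Word × Word) × Un) × Word) × Un =>
      q.2.val ∈ dn (st (m q.1.1.1.1) q.1.1.1.2.1) (RR (m q.1.1.1.1) q.1.1.1.2.2) q.1.1.2.val
        (st (m q.1.1.1.1) q.1.2) :=
    pt_dn (by fun_prop) (by fun_prop) (by fun_prop) (by fun_prop) (by fun_prop) (by fun_prop)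
  have hD := F (β := ((α × Word × Word) × Un) × Word) (fun p => p.1.1.1)
    (fun p => dn (st (m p.1.1.1) p.1.1.2.1) (RR (m p.1.1.1) p.1.1.2.2) p.1.2.val
      (st (m p.1.1.1) p.2)) (by fun_prop) (fun _ => rfl)
    (fun _ => (dn_sub _).trans (st_subset _ _)) hdn
  have c1 := pt_card (β := ((α × Word × Word) × Un) × Word) (n := fun p => m p.1.1.1) (by fun_prop)
    (X := fun p => RR (m p.1.1.1) p.1.1.2.2 p.1.2.val) (fun _ => RR_sub _ _ _)
    (by simp only [mem_RR]; fun_prop)
  have c2 := pt_card (β := ((α × Word × Word) × Un) × Word) (n := fun p => m p.1.1.1) (by fun_prop)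
    (X := fun p => st (m p.1.1.1) p.2) (fun _ => st_subset _ _)
    (by simp only [mem_st]; fun_prop)
  have c3 := pt_card (β := ((α × Word × Word) × Un) × Word) (n := fun p => m p.1.1.1) (by fun_prop)
    (X := fun p => dn (st (m p.1.1.1) p.1.1.2.1) (RR (m p.1.1.1) p.1.1.2.2) p.1.2.val
      (st (m p.1.1.1) p.2)) (fun _ => (dn_sub _).trans (st_subset _ _)) hdn
  have hP := (hR.pair hE).pre (α := ((α × Word × Word) × Un) × Word) (f := fun p => p.1)
    PTime.fst' fun _ => rfl
  have hG0 := OT.pcomp (g := fun q : (ℤ × ℤ × ℤ) × ℤ => q.1.1 - q.1.2.1 + q.1.2.2 * q.2)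
    (by fun_prop) ((hD.pair hP).pair (OT.of_ptime ((c1.iadd c2).isub c3)))
  have hG : OT fun p : ((α × Word × Word) × Un) × Word =>
      gg (f p.1.1.1) (st (m p.1.1.1) p.1.1.2.1) (RR (m p.1.1.1) p.1.1.2.2) p.1.2.val
        (st (m p.1.1.1) p.2) := hG0.congr fun _ => by simp only [gg]
  obtain ⟨fx, hx, hx'⟩ := exists_fix (α := (α × Word × Word) × Un) (fun p => m p.1.1) (by fun_prop)
    (fun p => gg (f p.1.1) (st (m p.1.1) p.1.2.1) (RR (m p.1.1) p.1.2.2) p.2.val)
    (fun p => ell (f p.1.1) (st (m p.1.1) p.1.2.1) (RR (m p.1.1) p.1.2.2) p.2.val) hG hE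
  -- one round
  have hS0 := OT.map (E := fun q : ((α × Word × Word) × Un) × ℤ × Un =>
    upd (m q.1.1.1) q.1.1.2 q.1.2.val q.2.1 q.2.2.val)
    (pt_upd (by fun_prop) (by fun_prop) (by fun_prop) (by fun_prop) (by fun_prop)) (hE.pair hx)
  obtain ⟨G, hS, hG'⟩ : ∃ G : α × Word × Word → Word × Word, OT G ∧ ∀ p, G p = upd (m p.1) p.2 (u p)
      (ell (f p.1) (st (m p.1) p.2.1) (RR (m p.1) p.2.2) (u p)) (fx (p, Un.mk (u p))) :=
    ⟨_, OT.bind hS0 hu, fun _ => by dsimp only⟩
  obtain ⟨init, hi, hi'⟩ : ∃ init : α → Word × Word, PTime init ∧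
      ∀ a, init a = (wd (m a) (range (m a)), wdR (m a) fun v => {v}) :=
    ⟨_, (pt_wd hm (by simp only [mem_range]; fun_prop)).pair
      (PTime.rangeMap (hm.mul hm) (by simp only [mem_singleton]; fun_prop)), fun _ => rfl⟩
  have hlen : ∀ a k, ((fun s => G (a, s))^[k] (init a)).1.length = m a ∧
      ((fun s => G (a, s))^[k] (init a)).2.length = m a * m a := fun a k => by
    induction k with
    | zero => simp [hi', wd, wdR]
    | succ k ih => rw [Function.iterate_succ_apply', hG']; exact upd_len ih _ _ _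
  have hI := OT.iter (step := fun a s => G (a, s)) (init := init)
    (n := fun a => m a + m a * m a + 1) hS
    (OT.of_ptime hi) (by fun_prop) (hm.pb.add (hm.pb.mul hm.pb)) fun a k _ => by
      rw [← Prod.mk.eta (p := (fun s => G (a, s))^[k] _), sz_prod, sz_word, sz_word, (hlen a k).1,
        (hlen a k).2]
  refine ⟨_, hI.fst, fun a => ⟨(hlen a (m a + m a * m a + 1)).1, fun hs => ?_⟩⟩
  have h0 : Inv (m a) (f a) (st (m a) (init a).1) (RR (m a) (init a).2) := by
    simp only [hi', st_wd Subset.rfl]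
    exact inv_init fun v hv => RR_wdR hv (singleton_subset_iff.2 (mem_range.2 hv))
  have h1 := iter_done (step := fun s => G (a, s))
    (P := fun s => Inv (m a) (f a) (st (m a) s.1) (RR (m a) s.2))
    (D := fun s => IsMin (m a) (f a) (st (m a) s.1))
    (Φ := fun s => pot (m a) (st (m a) s.1) (RR (m a) s.2)) (fun s I => by
      have h2 := hx' ((a, s), Un.mk (u (a, s)))
      have h3 := (hu' (a, s)).2
      have h4 := hG' (a, s)
      dsimp only at h2 h3 h4 I ⊢
      exact upd_spec hs I h3 h2 h4) h0 (Nat.lt_succ_of_le (pot_le (st_subset _ _)))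
  exact h1

end Crest.Agent.R302
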