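import Crest.Agent.R302.Geo
import Crest.Agent.R302.Base
import Crest.Agent.R302.Sfm
import Crest.Agent.R302.NuB

/-! Row 302: computing the soft energy. -/

set_option autoImplicit false

namespace Crest.Agent.R302

open Crest.Agent.PT Crest.Agent.R309 Finset

namespace NuX

open SfmAX SfmX

theorem lov_congr {n : ℕ} {f : Finset ℕ → ℤ} {w w' : Vec} (h : ∀ i < n, w i = w' i) :
    lov n f w = lov n f w' := by
  unfold lov dot
  refine sum_congr rfl fun i hi => ?_
  have e : pre n (-w) i = pre n (-w') i := filter_congr fun v hv => by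
    simp only [bef, Pi.neg_apply, h v (mem_range.1 hv), h i (mem_range.1 hi)]
  rw [h i (mem_range.1 hi), gq, gq, e]

/-- a list as a vector -/
def vl (l : List ℤ) : Vec := fun i => l.getD i 0

theorem vl_map {n : ℕ} (g : ℕ → ℤ) {i : ℕ} (hi : i < n) : vl ((List.range n).map g) i = g i := by
  simp [vl, List.getD_eq_getElem?_getD, hi]

theorem vl_map' {n : ℕ} (g : ℕ → ℤ) {i : ℕ} (hi : ¬ i < n) :
    vl ((List.range n).map g) i = 0 := by
  simp [vl, List.getD_eq_getElem?_getD, hi]

/-- one move -/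
def nl (n : ℕ) (l : List ℤ) (S : Finset ℕ) (t : ℤ) : List ℤ :=
  (List.range n).map fun i => l.getD i 0 + ind S t i

section
variable {α : Type} [Rp α] [HasO α]

theorem ot_lov {n : α → ℕ} (hn : PU n) {G : α → Finset ℕ → ℤ}
    (hG : OT fun p : α × Word => G p.1 (st (n p.1) p.2)) {w : α → List ℤ} (hw : PTime w) :
    OT fun a => lov (n a) (G a) (vl (w a)) := by
  have hn' : PU fun r : α × Un => n r.1 := hn.comp PTime.fst'
  have w1 : PTime fun r : α × Un => (List.range (n r.1)).map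
      fun v => decide (bef (-vl (w r.1)) v r.2.val) :=
    PTime.rangeMap hn' (by simp only [bef, vl, Pi.neg_apply]; fun_prop)
  have w2 : PTime fun r : α × Un => (List.range (n r.1)).map
      fun v => decide (v = r.2.val ∨ bef (-vl (w r.1)) v r.2.val) :=
    PTime.rangeMap hn' (by simp only [bef, vl, Pi.neg_apply]; fun_prop)
  have a1 := hG.pre (f := fun r : α × Un => (r.1, _)) (PTime.pair PTime.fst' w1) fun _ => rfl
  have a2 := hG.pre (f := fun r : α × Un => (r.1, _)) (PTime.pair PTime.fst' w2) fun _ => rfl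
  have hp : PTime fun q : (α × Un) × ℤ × ℤ => (w q.1.1).getD q.1.2.val 0 * (q.2.1 - q.2.2) := by
    fun_prop
  have h := OT.isum_range (g := fun a i => (w a).getD i 0 *
    (G a (st (n a) ((List.range (n a)).map fun v => decide (v = i ∨ bef (-vl (w a)) v i))) -
      G a (st (n a) ((List.range (n a)).map fun v => decide (bef (-vl (w a)) v i))))) hn
    (OT.map hp (a2.pair a1))
  refine h.congr fun a => ?_
  unfold lov dot
  refine sum_congr rfl fun i hi => ?_
  simp only [st_map]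
  rw [gq, pre, filter_or, filter_eq', if_pos hi, ← insert_eq]
  rfl

theorem ot_ff {m : α → ℕ} (hm : PU m) {F : α → Finset ℕ → ℤ}
    (hF : OT fun p : α × Word => F p.1 (st (m p.1) p.2)) {y : α → List ℤ} (hy : PTime y) :
    OT fun q : α × Word => ff (m q.1) (F q.1) (vl (y q.1)) (st (m q.1 + 1) q.2) := by
  have hm' : PU fun r : α × Word => m r.1 := hm.comp PTime.fst'
  have hm'' := hm'.ptime
  have a1 := hF.pre (f := fun r : α × Word => (r.1, wd (m r.1) (range (m r.1))))
    (PTime.pair PTime.fst' (pt_wd hm' (by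
      have := hm.ptime
      simp only [mem_range]; fun_prop))) fun _ => rfl
  have s1 : PTime fun r : α × Word => ∑ i ∈ range (m r.1),
      if r.2.getD i false = true then (y r.1).getD i 0 else 0 :=
    PTime.isum_range (g := fun (r : α × Word) i =>
      if r.2.getD i false = true then (y r.1).getD i 0 else 0) hm' (by fun_prop)
  have s2 : PTime fun r : α × Word => ∑ i ∈ range (m r.1), (y r.1).getD i 0 :=
    PTime.isum_range (g := fun (r : α × Word) i => (y r.1).getD i 0) hm' (by fun_prop)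
  have s3 : PTime fun r : α × Word => r.2.getD (m r.1) false = true := by fun_prop
  have hp : PTime fun q : (ℤ × ℤ) × ℤ × ℤ × Bool =>
      q.1.1 - q.2.1 - if q.2.2.2 = true then q.1.2 - q.2.2.1 else 0 := by fun_prop
  have h := OT.pcomp hp ((hF.pair a1).pair (OT.of_ptime (s1.pair (s2.pair s3.decide))))
  refine h.congr fun q => ?_
  have e : (st (m q.1 + 1) q.2).filter (· < m q.1) = st (m q.1) q.2 := by
    ext i
    simp only [mem_filter, mem_st]
    exact ⟨fun h => ⟨h.2, h.1.2⟩, fun h => ⟨⟨by omega, h.2⟩, h.1⟩⟩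
  simp only [ff, e, st_wd subset_rfl, mem_st, Nat.lt_succ_self, true_and, decide_eq_true_eq]
  rw [sm, st, sum_filter]
  rfl

theorem pt_pen {β : Type} [Rp β] {m : β → ℕ} (hm : PU m) {p cst : β → List ℕ} {l : β → List ℤ}
    {M : β → ℤ} (hp : PTime p) (hc : PTime cst) (hl : PTime l) (hM : PTime M) :
    PTime fun b => pen (m b) (pf (p b)) (fun i => (cst b).getD i 0) (M b) (vl (l b)) := by
  have hm' := hm.ptime
  have hq : PTime fun r : β × Un => qq (m r.1) (pf (p r.1)) r.2.val := by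
    have h1 : PTime fun r : β × Un => pf (p r.1) r.2.val := by
      have : PTime fun r : β × Un => (p r.1).length := (lengthN (hp.comp PTime.fst')).ptime
      unfold pf
      exact PTime.ite (PTime.lt (by fun_prop) this) (by fun_prop) (by fun_prop)
    unfold qq
    exact PTime.ite (PTime.eq h1 (by fun_prop)) (by fun_prop) h1
  have h2 : PTime fun r : β × Un => (l r.1).getD r.2.val 0 -
      (l r.1).getD (qq (m r.1) (pf (p r.1)) r.2.val) 0 :=
    PTime.isub (by fun_prop) (getDZ (hl.comp PTime.fst') hq)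
  have h3 : PTime fun r : β × Un => M r.1 * (((((l r.1).getD r.2.val 0 -
      (l r.1).getD (qq (m r.1) (pf (p r.1)) r.2.val) 0).natAbs : ℤ) -
        ((cst r.1).getD r.2.val 0 : ℕ)).toNat : ℕ) :=
    PTime.imul (hM.comp PTime.fst') (PTime.isub h2.natAbs.natCast (by fun_prop)).toNat.natCast
  refine (PTime.isum_range (g := fun b i => M b * (((((l b).getD i 0 -
      (l b).getD (qq (m b) (pf (p b)) i) 0).natAbs : ℤ) -
        ((cst b).getD i 0 : ℕ)).toNat : ℕ)) hm h3).congr fun b => sum_congr rfl fun i _ => ?_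
  rw [Int.natCast_natAbs, Int.toNat_eq_max, max_comm]
  rfl

theorem pt_nl {β : Type} [Rp β] {n : β → ℕ} (hn : PU n) {l : β → List ℤ} {q : β → Word}
    {t : β → ℤ} (hl : PTime l) (hq : PTime q) (ht : PTime t) :
    PTime fun b => nl (n b) (l b) (st (n b) (q b)) (t b) := by
  have hn' := hn.ptime
  refine rangeMapZ (g := fun b i => (l b).getD i 0 + ind (st (n b) (q b)) (t b) i) hn ?_
  simp only [ind, mem_st]
  fun_prop

theorem core (m B : α → ℕ) (hm : PU m) (hB : PU B)
    (F : α → Finset ℕ → ℤ) (hF : OT fun p : α × Word => F p.1 (st (m p.1) p.2))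
    (p cst : α → List ℕ) (ζ y : α → List ℤ) (hp : PTime p) (hc : PTime cst) (hζ : PTime ζ)
    (hy : PTime y) :
    ∃ v : α → ℤ, OT v ∧ ∀ a, Submod (m a) (F a) → F a ∅ = 0 → Fo (pf (p a)) →
      (∀ S ⊆ range (m a), |F a S| < 2 ^ B a) →
      (∀ i < m a, (cst a).getD i 0 < 2 ^ B a ∧ |(ζ a).getD i 0| < 2 ^ B a ∧
        |(y a).getD i 0| < 2 ^ B a) →
      v a = nu (m a) (F a) (pf (p a)) (fun i => (cst a).getD i 0) (vl (ζ a)) (vl (y a)) := by
  have hm' := hm.ptime
  obtain ⟨M, hM, eM⟩ : ∃ M : α → ℤ, PTime M ∧ ∀ a, M a = (m a + 2) * 2 ^ B a + 1 :=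
    ⟨_, by fun_prop, fun _ => rfl⟩
  obtain ⟨K, hK, eK⟩ : ∃ K : α → ℕ, PU K ∧ ∀ a, K a = 2 * m a + 2 * B a + 6 :=
    ⟨_, by fun_prop, fun _ => rfl⟩
  obtain ⟨G, hG, eG⟩ : ∃ G : α × List ℤ → ℤ, OT G ∧ ∀ q, G q = GG (m q.1) (F q.1) (pf (p q.1))
      (fun i => (cst q.1).getD i 0) (vl (ζ q.1)) (vl (y q.1)) (M q.1) (vl q.2) := by
    have h1 : PU fun q : α × List ℤ => m q.1 + 1 := by fun_prop
    have h2 := (ot_ff hm hF hy).pre (α := (α × List ℤ) × Word) (f := fun r => (r.1.1, r.2))
      (by fun_prop) fun _ => rfl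
    have h3 : PTime fun q : α × List ℤ => (List.range (m q.1 + 1)).map
        fun i => q.2.getD i 0 + if i < m q.1 then (ζ q.1).getD i 0 else 0 :=
      rangeMapZ (g := fun (q : α × List ℤ) i =>
        q.2.getD i 0 + if i < m q.1 then (ζ q.1).getD i 0 else 0) h1 (by fun_prop)
    have h4 := ot_lov (G := fun q : α × List ℤ => ff (m q.1) (F q.1) (vl (y q.1))) h1 h2 h3
    have h5 := pt_pen (β := α × List ℤ) (hm.comp PTime.fst') (hp.comp PTime.fst')
      (hc.comp PTime.fst') PTime.snd' (hM.comp PTime.fst')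
    have h6 := OT.pcomp (g := fun z : ℤ × ℤ => z.1 + z.2) (by fun_prop)
      (h4.pair (OT.of_ptime h5))
    refine ⟨_, h6, fun q => ?_⟩
    rw [GG]
    congr 1
    exact lov_congr fun i hi => by rw [vl_map _ hi]; rfl
  have hn1 : PU fun x : (α × List ℤ) × Un => m x.1.1 + 1 := by fun_prop
  have hf := hG.pre (α := ((α × List ℤ) × Un) × Word) (f := fun r => (r.1.1.1,
    nl (m r.1.1.1 + 1) r.1.1.2 (st (m r.1.1.1 + 1) r.2) (2 ^ r.1.2.val)))
    (PTime.pair (by fun_prop) (pt_nl (by fun_prop) (by fun_prop) (by fun_prop) (by fun_prop)))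
    fun _ => rfl
  obtain ⟨g, hg, eg⟩ := exists_sfm (α := (α × List ℤ) × Un) (fun x => m x.1.1 + 1) hn1
    (fun x S => G (x.1.1, nl (m x.1.1 + 1) x.1.2 S (2 ^ x.2.val))) hf
  obtain ⟨N, hN, eN⟩ : ∃ N : (α × List ℤ) × Un → List ℤ, OT N ∧
      ∀ x, N x = nl (m x.1.1 + 1) x.1.2 (st (m x.1.1 + 1) (g x)) (2 ^ x.2.val) :=
    ⟨_, OT.map (E := fun r : ((α × List ℤ) × Un) × Word =>
      nl (m r.1.1.1 + 1) r.1.1.2 (st (m r.1.1.1 + 1) r.2) (2 ^ r.1.2.val))
      (pt_nl (by fun_prop) (by fun_prop) (by fun_prop) (by fun_prop)) hg, fun _ => rfl⟩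
  have hv := OT.pcomp (g := fun z : ℤ => -z) (by fun_prop)
    (hG.comp (f := fun x : (α × List ℤ) × Un => (x.1.1, N x))
      ((OT.of_ptime (by fun_prop)).pair hN) fun _ => rfl)
  obtain ⟨u, hu, eu⟩ := OT.exists_argmax (α := α × List ℤ) (n := fun q => K q.1)
    (g := fun q j => -G (q.1, N (q, Un.mk j))) (hK.comp PTime.fst') hv
  obtain ⟨T, hT, eT⟩ : ∃ T : α × List ℤ → List ℤ, OT T ∧ ∀ q, T q = N (q, Un.mk (u q)) :=
    ⟨_, OT.bind hN hu, fun _ => rfl⟩
  have hlen : ∀ a k, ((fun s => T (a, s))^[k] []).length ≤ m a + 1 ∧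
      ∀ i, |vl ((fun s => T (a, s))^[k] []) i| ≤ k * 2 ^ K a := by
    intro a k
    induction k with
    | zero => simp [vl]
    | succ k ih =>
      rw [Function.iterate_succ_apply', eT, eN]
      refine ⟨by simp [nl], fun i => ?_⟩
      by_cases hi : i < m a + 1
      · rw [nl, vl_map _ hi]
        have h1 := ih.2 i
        have h2 : (2 : ℤ) ^ u (a, (fun s => T (a, s))^[k] []) ≤ 2 ^ K a :=
          pow_le_pow_right₀ (by norm_num) ((eu _).1.trans (Nat.sub_le _ _))
        have h3 : (0 : ℤ) < 2 ^ u (a, (fun s => T (a, s))^[k] []) := by positivity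
        refine (abs_add_le _ _).trans ?_
        push_cast
        rw [add_mul, one_mul]
        refine add_le_add h1 ?_
        unfold ind
        split_ifs
        · rwa [abs_of_pos h3]
        · rw [abs_zero]; positivity
      · rw [nl, vl_map' _ hi, abs_zero]; positivity
  have hI := OT.iter (step := fun a s => T (a, s)) (init := fun _ => ([] : List ℤ))
    (n := fun a => (m a + 1) * K a * K a) hT (OT.of_ptime (PTime.const _)) (by fun_prop)
    (B := fun a => (m a + 1) * (2 * ((m a + 1) * K a * K a + K a) + 3)) (PU.pb (by fun_prop))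
    fun a k hk => by
      refine (szZ_le fun x hx => ?_).trans (Nat.mul_le_mul_right _ (hlen a k).1)
      obtain ⟨i, hi, rfl⟩ := List.getElem_of_mem hx
      have h1 := (hlen a k).2 i
      rw [vl, List.getD_eq_getElem _ _ hi, ← Int.natCast_natAbs] at h1
      have h2 : ((fun s => T (a, s))^[k] [])[i].natAbs ≤ k * 2 ^ K a := by exact_mod_cast h1
      rw [pow_add]
      exact h2.trans_lt (Nat.mul_lt_mul_of_pos_right (hk.trans_lt Nat.lt_two_pow_self)
        (by positivity))
  have s1 : PTime fun a => ∑ i ∈ range (m a), (ζ a).getD i 0 * (y a).getD i 0 :=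
    PTime.isum_range (g := fun a i => (ζ a).getD i 0 * (y a).getD i 0) hm (by fun_prop)
  have hV := OT.pcomp (g := fun z : ℤ × ℤ => -z.1 - z.2) (by fun_prop)
    ((OT.bind hG hI).pair (OT.of_ptime s1))
  refine ⟨_, hV, fun a h1 h2 h3 h4 h5 => ?_⟩
  have hM0 : 0 ≤ M a := by rw [eM]; positivity
  have L := GG_lc (cst := fun i => (cst a).getD i 0) (ζ := vl (ζ a)) (y := vl (y a)) h1 h2 h3 hM0
  have en : ∀ l S t, G (a, nl (m a + 1) l S t) = GG (m a) (F a) (pf (p a))
      (fun i => (cst a).getD i 0) (vl (ζ a)) (vl (y a)) (M a) (vl l + ind S t) := by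
    intro l S t
    rw [eG]
    exact L.tr _ _ 0 fun i hi => by rw [nl, vl_map _ hi, add_zero]; rfl
  have := conv (cst := fun i => (cst a).getD i 0) (ζ := vl (ζ a)) (y := vl (y a))
    h1 h2 h3 h4 h5 (eM a) (eK a) (fun k => vl ((fun s => T (a, s))^[k] []))
    (by funext i; simp [vl]) (fun t j hj S hS => by
      rw [Function.iterate_succ_apply']
      generalize (fun s => T (a, s))^[t] [] = l
      have a1 := (eu (a, l)).2 j hj
      have a2 := ((eg ((a, l), Un.mk j)).2 (by
        simp only [en]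
        exact L.submod _ (by positivity))).2 S hS
      have a3 := eG (a, T (a, l))
      dsimp only at a1 a2 a3
      rw [← en, ← a3, eT]
      simp only [eN] at a1 ⊢
      omega)
  rw [← this, eG]
  rfl

end

end NuX

theorem exists_nu_alg {α : Type} [Rp α] [HasO α] (m B : α → ℕ) (hm : PU m) (hB : PU B)
    (F : α → Finset ℕ → ℤ) (hF : OT fun p : α × Word => F p.1 (st (m p.1) p.2))
    (p cst : α → List ℕ) (ζ y : α → List ℤ) (hp : OT p) (hc : OT cst) (hζ : OT ζ) (hy : OT y) :
    ∃ v : α → ℤ, OT v ∧ ∀ a, Submod (m a) (F a) → F a ∅ = 0 → Fo (pf (p a)) →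
      (∀ S ⊆ range (m a), |F a S| < 2 ^ B a) →
      (∀ i < m a, (cst a).getD i 0 < 2 ^ B a ∧ |(ζ a).getD i 0| < 2 ^ B a ∧
        |(y a).getD i 0| < 2 ^ B a) →
      v a = nu (m a) (F a) (pf (p a)) (fun i => (cst a).getD i 0) (fun i => (ζ a).getD i 0)
        fun i => (y a).getD i 0 := by
  have hF' := hF.pre (α := (α × List ℕ × List ℕ × List ℤ × List ℤ) × Word)
    (f := fun r => (r.1.1, r.2)) (by fun_prop) fun _ => rfl
  obtain ⟨v, hv, ev⟩ := NuX.core (α := α × List ℕ × List ℕ × List ℤ × List ℤ)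
    (fun x => m x.1) (fun x => B x.1) (hm.comp PTime.fst') (hB.comp PTime.fst') (fun x => F x.1) hF'
    (fun x => x.2.1) (fun x => x.2.2.1) (fun x => x.2.2.2.1) (fun x => x.2.2.2.2)
    (by fun_prop) (by fun_prop) (by fun_prop) (by fun_prop)
  exact ⟨_, OT.bind hv (hp.pair (hc.pair (hζ.pair hy))), fun a => ev (a, p a, cst a, ζ a, y a)⟩

end Crest.Agent.R302
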