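import Crest.Agent.R302.Base

/-! Row 302: the Lovász extension and descent for L-convex functions (mathematics of `Nu`). -/

set_option autoImplicit false

namespace Crest.Agent.R302.NuX

open Finset SfmAX

/-- the vector `t` on `S` -/
def ind (S : Finset ℕ) (t : ℤ) : Vec := fun i => if i ∈ S then t else 0

/-- upper level set -/
def up (n : ℕ) (w : Vec) (θ : ℤ) : Finset ℕ := (range n).filter fun i => θ ≤ w i

/-- the Lovász extension -/
def lov (n : ℕ) (f : Finset ℕ → ℤ) (w : Vec) : ℤ := dot n w (gq n f (-w))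

/-- bases -/
def IsB (n : ℕ) (f : Finset ℕ → ℤ) (b : Vec) : Prop :=
  (∀ S ⊆ range n, sm S b ≤ f S) ∧ sm (range n) b = 0

variable {n : ℕ} {f : Finset ℕ → ℤ}

theorem up_sub (n : ℕ) (w : Vec) (θ : ℤ) : up n w θ ⊆ range n := filter_subset _ _

theorem mem_up {w : Vec} {θ : ℤ} {i : ℕ} : i ∈ up n w θ ↔ i < n ∧ θ ≤ w i := by simp [up]

theorem exists_bd (n : ℕ) (w : Vec) : ∃ H : ℤ, ∀ i < n, -H ≤ w i ∧ w i ≤ H :=
  ⟨∑ i ∈ range n, |w i|, fun _ hi => abs_le.1
    (single_le_sum (f := fun i => |w i|) (fun _ _ => abs_nonneg _) (mem_range.2 hi))⟩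

theorem dot_eq {w : Vec} (z : Vec) {lo hi : ℤ} (h : ∀ i < n, lo ≤ w i ∧ w i ≤ hi) :
    dot n w z = lo * sm (range n) z + ∑ θ ∈ Ioc lo hi, sm (up n w θ) z := by
  have e : ∀ i ∈ range n, w i * z i =
      lo * z i + ∑ θ ∈ Ioc lo hi, if θ ≤ w i then z i else 0 := by
    intro i hi'
    obtain ⟨h1, h2⟩ := h i (mem_range.1 hi')
    rw [← sum_filter, sum_const]
    have : (Ioc lo hi).filter (fun θ => θ ≤ w i) = Ioc lo (w i) := by
      ext θ; simp only [mem_filter, mem_Ioc]; omega
    rw [this, Int.card_Ioc, nsmul_eq_mul, Int.toNat_of_nonneg (by omega)]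
    ring
  unfold dot sm up
  rw [sum_congr rfl e, sum_add_distrib, ← mul_sum, sum_comm]
  simp only [sum_filter]

theorem dot_add (u v z : Vec) : dot n (u + v) z = dot n u z + dot n v z := by
  simp [dot, add_mul, sum_add_distrib]

theorem dot_ind {S : Finset ℕ} (hS : S ⊆ range n) (t : ℤ) (z : Vec) :
    dot n (ind S t) z = t * sm S z := by
  unfold dot sm ind
  simp only [ite_mul, zero_mul]
  rw [← sum_filter, filter_mem_eq_inter, inter_eq_right.2 hS, mul_sum]

theorem dot_tr {u v z : Vec} {c : ℤ} (h : ∀ i < n, v i = u i + c) (hz : sm (range n) z = 0) :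
    dot n v z = dot n u z := by
  have : dot n v z = dot n u z + c * sm (range n) z := by
    unfold dot sm
    rw [mul_sum, ← sum_add_distrib]
    exact sum_congr rfl fun i hi => by rw [h i (mem_range.1 hi)]; ring
  rw [this, hz, mul_zero, add_zero]

theorem gq_up (h0 : f ∅ = 0) {Y w : Vec} (h : ∀ v < n, ∀ u < n, bef Y v u → w u ≤ w v) (θ : ℤ) :
    sm (up n w θ) (gq n f Y) = f (up n w θ) :=
  sum_gq_eq h0 Y _ (up_sub _ _ _) fun u hu v hv hb =>
    mem_up.2 ⟨hv, (mem_up.1 hu).2.trans (h v hv u (mem_up.1 hu).1 hb)⟩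

theorem anti_self (w : Vec) : ∀ v < n, ∀ u < n, bef (-w) v u → w u ≤ w v := by
  intro v _ u _ h
  simp only [bef, Pi.neg_apply] at h
  omega

theorem gq_isB (hf : Submod n f) (h0 : f ∅ = 0) (h1 : f (range n) = 0) (Y : Vec) :
    IsB n f (gq n f Y) :=
  ⟨fun S hS => sum_gq_le hf h0 Y S hS,
    (sum_gq_eq h0 Y _ subset_rfl fun _ _ _ hv _ => mem_range.2 hv).trans h1⟩

theorem dot_gq (hf : Submod n f) (h0 : f ∅ = 0) (h1 : f (range n) = 0) {Y w : Vec}
    (h : ∀ v < n, ∀ u < n, bef Y v u → w u ≤ w v) {lo hi : ℤ}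
    (hb : ∀ i < n, lo ≤ w i ∧ w i ≤ hi) :
    dot n w (gq n f Y) = ∑ θ ∈ Ioc lo hi, f (up n w θ) := by
  rw [dot_eq _ hb, (gq_isB hf h0 h1 Y).2, mul_zero, zero_add]
  exact sum_congr rfl fun θ _ => gq_up h0 h θ

theorem lov_eq (hf : Submod n f) (h0 : f ∅ = 0) (h1 : f (range n) = 0) {w : Vec} {lo hi : ℤ}
    (hb : ∀ i < n, lo ≤ w i ∧ w i ≤ hi) : lov n f w = ∑ θ ∈ Ioc lo hi, f (up n w θ) :=
  dot_gq hf h0 h1 (anti_self w) hb

theorem dot_le (hf : Submod n f) (h0 : f ∅ = 0) (h1 : f (range n) = 0) {b : Vec}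
    (hb : IsB n f b) (w : Vec) : dot n w b ≤ lov n f w := by
  obtain ⟨H, hH⟩ := exists_bd n w
  rw [lov_eq hf h0 h1 hH, dot_eq _ hH, hb.2, mul_zero, zero_add]
  exact sum_le_sum fun θ _ => hb.1 _ (up_sub _ _ _)

/-- L-convex functions of the first `n` coordinates -/
structure LC (n : ℕ) (g : Vec → ℤ) : Prop where
  sub : ∀ p q, g (p ⊔ q) + g (p ⊓ q) ≤ g p + g q
  tr : ∀ p q c, (∀ i < n, q i = p i + c) → g q = g p

theorem lov_lc (hf : Submod n f) (h0 : f ∅ = 0) (h1 : f (range n) = 0) : LC n (lov n f) := by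
  constructor
  · intro p q
    obtain ⟨H, hH⟩ := exists_bd n p
    obtain ⟨H', hH'⟩ := exists_bd n q
    have b1 : ∀ i < n, min (-H) (-H') ≤ p i ∧ p i ≤ max H H' := fun i hi => by
      have := hH i hi; omega
    have b2 : ∀ i < n, min (-H) (-H') ≤ q i ∧ q i ≤ max H H' := fun i hi => by
      have := hH' i hi; omega
    have b3 : ∀ i < n, min (-H) (-H') ≤ (p ⊔ q) i ∧ (p ⊔ q) i ≤ max H H' := fun i hi => by
      have := b1 i hi; have := b2 i hi
      simp only [Pi.sup_apply]; omega
    have b4 : ∀ i < n, min (-H) (-H') ≤ (p ⊓ q) i ∧ (p ⊓ q) i ≤ max H H' := fun i hi => by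
      have := b1 i hi; have := b2 i hi
      simp only [Pi.inf_apply]; omega
    rw [lov_eq hf h0 h1 b1, lov_eq hf h0 h1 b2, lov_eq hf h0 h1 b3, lov_eq hf h0 h1 b4,
      ← sum_add_distrib, ← sum_add_distrib]
    refine sum_le_sum fun θ _ => ?_
    have e1 : up n (p ⊔ q) θ = up n p θ ∪ up n q θ := by
      ext i; simp only [mem_up, mem_union, Pi.sup_apply]; omega
    have e2 : up n (p ⊓ q) θ = up n p θ ∩ up n q θ := by
      ext i; simp only [mem_up, mem_inter, Pi.inf_apply]; omega
    rw [e1, e2]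
    exact hf _ (up_sub _ _ _) _ (up_sub _ _ _)
  · intro p q c h
    apply le_antisymm
    · exact (dot_tr h (gq_isB hf h0 h1 _).2).trans_le (dot_le hf h0 h1 (gq_isB hf h0 h1 _) p)
    · have h' : ∀ i < n, p i = q i + -c := fun i hi => by rw [h i hi]; ring
      exact (dot_tr h' (gq_isB hf h0 h1 _).2).trans_le (dot_le hf h0 h1 (gq_isB hf h0 h1 _) q)

/-- a subgradient of the Lovász extension is an optimal base -/
theorem subgrad (hf : Submod n f) (h0 : f ∅ = 0) (h1 : f (range n) = 0) {w x : Vec}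
    (hx : ∀ S ⊆ range n, sm S x ≤ lov n f (w + ind S 1) - lov n f w)
    (hx0 : sm (range n) x = 0) : IsB n f x ∧ lov n f w ≤ dot n w x := by
  refine ⟨⟨fun S hS => (hx S hS).trans ?_, hx0⟩, ?_⟩
  · have hb := gq_isB hf h0 h1 (-(w + ind S 1))
    have e : lov n f (w + ind S 1) = dot n w (gq n f (-(w + ind S 1))) +
        1 * sm S (gq n f (-(w + ind S 1))) := by rw [lov, dot_add, dot_ind hS]
    have h2 := dot_le hf h0 h1 hb w
    have h3 := hb.1 S hS
    omega
  · obtain ⟨H, hH⟩ := exists_bd n w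
    rw [lov_eq hf h0 h1 hH, dot_eq _ hH, hx0, mul_zero, zero_add]
    refine sum_le_sum fun θ _ => ?_
    have hD : range n \ up n w θ ⊆ range n := sdiff_subset
    have h2 := hx _ hD
    obtain ⟨H', hH'⟩ := exists_bd n (w + ind (range n \ up n w θ) 1)
    have ha : ∀ v < n, ∀ u < n, bef (-w) v u →
        (w + ind (range n \ up n w θ) 1) u ≤ (w + ind (range n \ up n w θ) 1) v := by
      intro v hv u hu h
      have := anti_self w v hv u hu h
      simp only [Pi.add_apply, ind, mem_sdiff, mem_range, mem_up]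
      split_ifs <;> omega
    have e : lov n f (w + ind (range n \ up n w θ) 1) =
        dot n (w + ind (range n \ up n w θ) 1) (gq n f (-w)) := by
      rw [lov_eq hf h0 h1 hH', dot_gq hf h0 h1 ha hH']
    rw [dot_add, dot_ind hD] at e
    have h3 := BaseX.sm_compl (up_sub n w θ) x
    have h4 := BaseX.sm_compl (up_sub n w θ) (gq n f (-w))
    have h5 := gq_up h0 (anti_self (n := n) w) θ
    have h6 := (gq_isB hf h0 h1 (-w)).2
    have h7 : lov n f w = dot n w (gq n f (-w)) := rfl
    omega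

variable {g : Vec → ℤ}

theorem LC.add {g' : Vec → ℤ} (h : LC n g) (h' : LC n g') : LC n fun p => g p + g' p :=
  ⟨fun p q => by have := h.sub p q; have := h'.sub p q; omega,
    fun p q c e => by rw [h.tr p q c e, h'.tr p q c e]⟩

theorem LC.shift (h : LC n g) (z : Vec) : LC n fun p => g (p + z) :=
  ⟨fun p q => by
    have := h.sub (p + z) (q + z)
    rwa [← sup_add, ← inf_add] at this,
   fun p q c e => h.tr _ _ c fun i hi => by simp only [Pi.add_apply, e i hi]; ring⟩

theorem LC.submod (h : LC n g) (p : Vec) {t : ℤ} (ht : 0 ≤ t) :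
    Submod n fun S => g (p + ind S t) := by
  intro A _ B _
  have := h.sub (p + ind A t) (p + ind B t)
  have e1 : (p + ind A t) ⊔ (p + ind B t) = p + ind (A ∪ B) t := by
    funext i
    simp only [Pi.sup_apply, Pi.add_apply, ind, mem_union]
    by_cases a : i ∈ A <;> by_cases b : i ∈ B <;> simp [a, b, ht]
  have e2 : (p + ind A t) ⊓ (p + ind B t) = p + ind (A ∩ B) t := by
    funext i
    simp only [Pi.inf_apply, Pi.add_apply, ind, mem_inter]
    by_cases a : i ∈ A <;> by_cases b : i ∈ B <;> simp [a, b, ht]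
  rwa [e1, e2] at this

theorem LC.split (h : LC n g) {p x y z : Vec} (α : ℤ)
    (hx : ∀ i < n, x i = min (p i + α) (z i)) (hy : ∀ i < n, y i + α = max (p i + α) (z i)) :
    g x + g y ≤ g p + g z := by
  have h1 := h.sub (fun i => p i + α) z
  rw [h.tr y ((fun i => p i + α) ⊔ z) α (fun i hi => by rw [hy i hi]; rfl),
    h.tr x ((fun i => p i + α) ⊓ z) 0 (fun i hi => by rw [hx i hi, add_zero]; rfl),
    h.tr p (fun i => p i + α) α (fun _ _ => rfl)] at h1
  omega

theorem ind_zero (p : Vec) (S : Finset ℕ) : p + ind S 0 = p := by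
  funext i; simp [ind]

theorem ind_empty (p : Vec) (t : ℤ) : p + ind ∅ t = p := by
  funext i; simp [ind]

theorem LC.bits (h : LC n g) (p : Vec) (S : Finset ℕ) {η : ℤ} (hη : 0 ≤ η) (K : ℕ)
    (hK : ∀ j < K, g p - η ≤ g (p + ind S (2 ^ j))) :
    ∀ c : ℤ, 0 ≤ c → c < 2 ^ K → g p - K * η ≤ g (p + ind S c) := by
  induction K with
  | zero =>
    intro c h0 h1
    obtain rfl : c = 0 := by omega
    rw [ind_zero]; simp
  | succ K ih =>
    intro c h0 h1
    have ih' := ih fun j hj => hK j (by omega)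
    push_cast
    rw [add_mul, one_mul]
    by_cases hc : c < 2 ^ K
    · have := ih' c h0 hc
      omega
    · have hp : (0 : ℤ) < 2 ^ K := by positivity
      rw [pow_succ] at h1
      have h2 := ih' (c - 2 ^ K) (by omega) (by omega)
      have h3 := hK K (by omega)
      have h4 := h.split (p := p) (x := p + ind S (2 ^ K)) (y := p + ind S (c - 2 ^ K))
        (z := p + ind S c) (2 ^ K)
        (fun i _ => by simp only [Pi.add_apply, ind]; split_ifs <;> omega)
        (fun i _ => by simp only [Pi.add_apply, ind]; split_ifs <;> omega)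
      omega

theorem LC.supp (h : LC n g) (p : Vec) {η R : ℤ} (hη : 0 ≤ η)
    (hS : ∀ S ⊆ range n, ∀ c, 0 ≤ c → c < R → g p - η ≤ g (p + ind S c)) (k : ℕ) :
    ∀ (S : Finset ℕ) (d : Vec), S.card ≤ k → S ⊆ range n → (∀ i ∈ S, 0 ≤ d i ∧ d i < R) →
      (∀ i, i ∉ S → d i = 0) → g p - k * η ≤ g (p + d) := by
  have hz : ∀ d : Vec, (∀ i, i ∉ (∅ : Finset ℕ) → d i = 0) → p + d = p := fun d hd => by
    funext i; simp [hd i]
  induction k with
  | zero =>
    intro S d hk _ _ h2
    obtain rfl : S = ∅ := card_eq_zero.1 (by omega)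
    rw [hz d h2]; simp
  | succ k ih =>
    intro S d hk hSn h1 h2
    rcases S.eq_empty_or_nonempty with rfl | hne
    · rw [hz d h2]
      have : (0 : ℤ) ≤ (k + 1 : ℕ) * η := by positivity
      omega
    obtain ⟨j, hj, hmin⟩ := exists_min_image S d hne
    have hj' := h1 j hj
    have h3 := hS S hSn (d j) hj'.1 hj'.2
    have h4 := ih (S.erase j) (fun i => if i ∈ S then d i - d j else 0)
      (by rw [card_erase_of_mem hj]; omega) ((erase_subset _ _).trans hSn)
      (fun i hi => by
        have a := mem_of_mem_erase hi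
        have := h1 i a; have := hmin i a
        simp only [if_pos a]; omega)
      (fun i hi => by
        by_cases a : i ∈ S
        · have : i = j := by by_contra c; exact hi (mem_erase.2 ⟨c, a⟩)
          simp [this]
        · simp [a])
    have h5 := h.split (p := p) (x := p + ind S (d j))
      (y := p + fun i => if i ∈ S then d i - d j else 0) (z := p + d) (d j)
      (fun i _ => by
        simp only [Pi.add_apply, ind]
        split_ifs with a
        · have := hmin i a; omega
        · have := h2 i a; omega)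
      (fun i _ => by
        simp only [Pi.add_apply]
        split_ifs with a
        · have := hmin i a; omega
        · have := h2 i a; omega)
    push_cast
    rw [add_mul, one_mul]
    omega

/-- the best step gains a fixed fraction of the gap -/
theorem LC.progress (h : LC n g) (hn : 0 < n) (p q : Vec) {η : ℤ} (hη : 0 ≤ η) (K : ℕ)
    (hK : ∀ j < K, ∀ S ⊆ range n, g p - η ≤ g (p + ind S (2 ^ j)))
    (hR : ∀ i < n, ∀ j < n, q i - p i - (q j - p j) < 2 ^ K) : g p - n * (K * η) ≤ g q := by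
  obtain ⟨j, hj, hmin⟩ := exists_min_image (range n) (fun i => q i - p i) ⟨0, mem_range.2 hn⟩
  have h1 := h.supp p (η := K * η) (R := 2 ^ K) (by positivity)
    (fun S hS => h.bits p S hη K fun j hj => hK j hj S hS) n (range n)
    (fun i => if i < n then q i - p i - (q j - p j) else 0) (by simp) subset_rfl
    (fun i hi => by
      have a := mem_range.1 hi
      have := hmin i hi
      have := hR i a j (mem_range.1 hj)
      simp only [if_pos a]; omega)
    (fun i hi => by rw [if_neg (fun c => hi (mem_range.2 c))])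
  rwa [h.tr q (p + fun i => if i < n then q i - p i - (q j - p j) else 0) (-(q j - p j))
    (fun i hi => by simp only [Pi.add_apply, if_pos hi]; ring)] at h1

theorem halving (γ : ℕ → ℤ) {D : ℕ} (hD : 0 < D) (h0 : ∀ t, 0 ≤ γ t)
    (h : ∀ t, γ t ≤ D * (γ t - γ (t + 1))) (K : ℕ) (hK : γ 0 < 2 ^ K) : γ (D * K) = 0 := by
  have hD' : (0 : ℤ) < D := by exact_mod_cast hD
  have mono : Antitone γ := antitone_nat_of_succ_le fun t => by
    have h1 := (h0 t).trans (h t)
    have := nonneg_of_mul_nonneg_right h1 hD'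
    omega
  have h2 : ∀ t, 2 * γ (t + D) ≤ γ t := by
    intro t
    have h3 : ∀ s ≤ D, D * γ (t + s) + s * γ (t + D) ≤ D * γ t := by
      intro s
      induction s with
      | zero => simp
      | succ s ih =>
        intro hs
        have a := ih (by omega)
        have b := h (t + s)
        have c := mono (show t + s ≤ t + D by omega)
        push_cast
        rw [← add_assoc]
        linarith
    have := h3 D le_rfl
    refine le_of_mul_le_mul_left ?_ hD'
    linarith
  have h3 : ∀ k, 2 ^ k * γ (D * k) ≤ γ 0 := by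
    intro k
    induction k with
    | zero => simp
    | succ k ih =>
      have := h2 (D * k)
      rw [mul_add, mul_one, pow_succ, mul_assoc]
      exact (mul_le_mul_of_nonneg_left this (by positivity)).trans ih
  have h4 := h3 K
  have h5 := h0 (D * K)
  by_contra hc
  have : 2 ^ K * 1 ≤ 2 ^ K * γ (D * K) := mul_le_mul_of_nonneg_left (by omega) (by positivity)
  omega

end Crest.Agent.R302.NuX
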