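import Crest.Agent.R309.PTL
import Crest.Agent.R309.Prob

/-! Row 302: stack programs with an oracle, and polynomial time relative to an oracle. -/

set_option autoImplicit false

namespace Crest.Agent.R302

open Crest.Agent.PT Crest.Agent.R309 Function

/-- an oracle on words, with answers of at most `b` bits; it is represented by `b` in unary -/
structure Orc where
  f : Word → ℕ
  b : ℕ
  lt : ∀ q, f q < 2 ^ b

instance : Rp Orc := ⟨Unit, fun O _ => List.replicate O.b true⟩

@[simp] theorem sz_orc (O : Orc) : sz O = O.b := by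
  show ∑ _ : Unit, (List.replicate O.b true).length = _; simp

/-- types whose elements carry an oracle -/
class HasO (α : Type) [Rp α] where
  orc : α → Orc
  le : ∀ a, (orc a).b ≤ sz a

instance : HasO Orc := ⟨fun O => O, fun O => (sz_orc O).ge⟩
instance {α β : Type} [Rp α] [Rp β] [HasO α] : HasO (α × β) :=
  ⟨fun p => HasO.orc p.1, fun p => (HasO.le p.1).trans (by
    obtain ⟨a, b⟩ := p
    rw [sz_prod]; exact Nat.le_add_right _ _)⟩

/-- the oracle of an element -/
abbrev orc {α : Type} [Rp α] [HasO α] (a : α) : Orc := HasO.orc a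

/-- stack programs with an oracle instruction -/
inductive OP : Type
  | skip : OP
  | push (r : ℕ) (b : Bool) : OP
  | pop (r : ℕ) : OP
  | ask (r u : ℕ) : OP
  | seq (p q : OP) : OP
  | ite (r : ℕ) (pn pt pf : OP) : OP
  | loop (r : ℕ) (p : OP) : OP

/-- big-step semantics; `ask r u` asks the word in `r` and pushes the reversed bits of the answer
on `u` -/
inductive OExec (O : Word → ℕ) : OP → St → St → ℕ → Prop
  | skip (s : St) : OExec O .skip s s 1
  | push (r : ℕ) (b : Bool) (s : St) : OExec O (.push r b) s (update s r (b :: s r)) 1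
  | pop (r : ℕ) (s : St) : OExec O (.pop r) s (update s r (s r).tail) 1
  | ask (r u : ℕ) (s : St) : OExec O (.ask r u) s
      (update s u ((O (s r)).bits.reverse ++ s u)) ((s r).length + (O (s r)).size + 1)
  | seq {p q : OP} {s s' s'' : St} {t t' : ℕ} :
      OExec O p s s' t → OExec O q s' s'' t' → OExec O (.seq p q) s s'' (t + t')
  | iteN {r : ℕ} {pn pt pf : OP} {s s' : St} {t : ℕ} :
      (s r).head? = none → OExec O pn s s' t → OExec O (.ite r pn pt pf) s s' (t + 1)
  | iteT {r : ℕ} {pn pt pf : OP} {s s' : St} {t : ℕ} :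
      (s r).head? = some true → OExec O pt s s' t → OExec O (.ite r pn pt pf) s s' (t + 1)
  | iteF {r : ℕ} {pn pt pf : OP} {s s' : St} {t : ℕ} :
      (s r).head? = some false → OExec O pf s s' t → OExec O (.ite r pn pt pf) s s' (t + 1)
  | loopN {r : ℕ} {p : OP} {s : St} : s r = [] → OExec O (.loop r p) s s 1
  | loopC {r : ℕ} {p : OP} {s s' s'' : St} {t t' : ℕ} :
      s r ≠ [] → OExec O p s s' t → OExec O (.loop r p) s' s'' t' →
        OExec O (.loop r p) s s'' (t' + t + 1)

/-- runs within `T` steps -/
def ORun (O : Word → ℕ) (p : OP) (s s' : St) (T : ℕ) : Prop := ∃ t ≤ T, OExec O p s s' t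

/-- word-valued functions computable in polynomial time with the oracle of the argument -/
def OTw {α : Type} [Rp α] [HasO α] (f : α → Word) : Prop :=
  ∃ T : α → ℕ, PB T ∧ ∀ (X : Rp.I α → ℕ) (y z : ℕ), (∀ i, X i < z) → y < z → (∀ i, X i ≠ y) →
    ∃ p : OP, ∀ a s, (∀ i, s (X i) = Rp.w a i) → s y = [] → (∀ r, z ≤ r → s r = []) →
      ORun (orc a).f p s (update s y (f a)) (T a)

/-- functions computable in polynomial time with the oracle of the argument -/
def OT {α β : Type} [Rp α] [HasO α] [Rp β] (f : α → β) : Prop :=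
  ∀ j, OTw fun a => Rp.w (f a) j

/-- the subset of `range n` written by a word -/
def st (n : ℕ) (q : Word) : Finset ℕ := (Finset.range n).filter fun j => q.getD j false = true

/-- the word of a set -/
def wd (n : ℕ) (S : Finset ℕ) : Word := (List.range n).map fun j => decide (j ∈ S)

theorem mem_st {n j : ℕ} {q : Word} : j ∈ st n q ↔ j < n ∧ q.getD j false = true := by
  simp [st]

theorem st_subset (n : ℕ) (q : Word) : st n q ⊆ Finset.range n := Finset.filter_subset _ _

theorem st_wd {n : ℕ} {S : Finset ℕ} (h : S ⊆ Finset.range n) : st n (wd n S) = S := by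
  ext j
  rw [mem_st, wd, getD_rangeMap]
  have := @h j
  simp only [Finset.mem_range] at this
  simp only [Bool.and_eq_true, decide_eq_true_eq]
  tauto

/-- a pair of set-function oracles as one oracle on words -/
def oW (n : ℕ) (O : Bool → Finset (Fin n) → ℕ) (q : Word) : ℕ :=
  O q.headI (Finset.univ.filter fun j : Fin n => q.tail.getD j false = true)

end Crest.Agent.R302
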