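import Crest.Agent.R302.ODefs

/-! Row 302: the core closure properties of oracle polynomial time. -/

set_option autoImplicit false

namespace Crest.Agent.R302

open Crest.Agent.PT Crest.Agent.R309 Function

/-! ### Runs -/

section
variable {O : Word → ℕ}

theorem ORun.mono {p : OP} {s s' : St} {T T' : ℕ} (h : ORun O p s s' T) (hT : T ≤ T') :
    ORun O p s s' T' := by
  obtain ⟨t, ht, h⟩ := h; exact ⟨t, ht.trans hT, h⟩

theorem ORun.cast {p : OP} {s s' s'' : St} {T T' : ℕ} (h : ORun O p s s' T) (hT : T ≤ T')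
    (hs : s'' = s') : ORun O p s s'' T' := hs ▸ h.mono hT

theorem ORun.skip (O : Word → ℕ) (s : St) : ORun O .skip s s 1 := ⟨1, le_rfl, .skip s⟩

theorem ORun.push (O : Word → ℕ) (r : ℕ) (b : Bool) (s : St) :
    ORun O (.push r b) s (update s r (b :: s r)) 1 := ⟨1, le_rfl, .push r b s⟩

theorem ORun.pop (O : Word → ℕ) (r : ℕ) (s : St) :
    ORun O (.pop r) s (update s r (s r).tail) 1 := ⟨1, le_rfl, .pop r s⟩

theorem ORun.ask (O : Word → ℕ) (r u : ℕ) (s : St) :
    ORun O (.ask r u) s (update s u ((O (s r)).bits.reverse ++ s u))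
      ((s r).length + (O (s r)).size + 1) := ⟨_, le_rfl, .ask r u s⟩

theorem ORun.seq {p q : OP} {s s' s'' : St} {T T' : ℕ} (h : ORun O p s s' T)
    (h' : ORun O q s' s'' T') : ORun O (.seq p q) s s'' (T + T') := by
  obtain ⟨t, ht, h⟩ := h; obtain ⟨t', ht', h'⟩ := h'
  exact ⟨t + t', Nat.add_le_add ht ht', .seq h h'⟩

theorem ORun.iteN {r : ℕ} {pn pt pf : OP} {s s' : St} {T : ℕ} (hs : (s r).head? = none)
    (h : ORun O pn s s' T) : ORun O (.ite r pn pt pf) s s' (T + 1) := by
  obtain ⟨t, ht, h⟩ := h; exact ⟨t + 1, by omega, .iteN hs h⟩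

theorem ORun.iteT {r : ℕ} {pn pt pf : OP} {s s' : St} {T : ℕ} (hs : (s r).head? = some true)
    (h : ORun O pt s s' T) : ORun O (.ite r pn pt pf) s s' (T + 1) := by
  obtain ⟨t, ht, h⟩ := h; exact ⟨t + 1, by omega, .iteT hs h⟩

theorem ORun.iteF {r : ℕ} {pn pt pf : OP} {s s' : St} {T : ℕ} (hs : (s r).head? = some false)
    (h : ORun O pf s s' T) : ORun O (.ite r pn pt pf) s s' (T + 1) := by
  obtain ⟨t, ht, h⟩ := h; exact ⟨t + 1, by omega, .iteF hs h⟩

theorem ORun.loopN (O : Word → ℕ) {r : ℕ} {p : OP} {s : St} (hs : s r = []) :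
    ORun O (.loop r p) s s 1 := ⟨1, le_rfl, .loopN hs⟩

theorem ORun.loopC {r : ℕ} {p : OP} {s s' s'' : St} {T T' : ℕ} (hs : s r ≠ [])
    (h : ORun O p s s' T) (h' : ORun O (.loop r p) s' s'' T') :
    ORun O (.loop r p) s s'' (T' + T + 1) := by
  obtain ⟨t, ht, h⟩ := h; obtain ⟨t', ht', h'⟩ := h'
  exact ⟨t' + t + 1, by omega, .loopC hs h h'⟩

theorem OExec.length_le {p : OP} {s s' : St} {t : ℕ} (h : OExec O p s s' t) (r : ℕ) :
    (s' r).length ≤ (s r).length + t := by
  induction h with
  | skip s => omega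
  | push r' b s => by_cases hr : r = r' <;> simp [hr]
  | pop r' s => by_cases hr : r = r' <;> simp [hr]; omega
  | ask r' u s =>
      by_cases hr : r = u
      · subst hr; simp [Nat.size_eq_bits_len]; omega
      · simp [hr]
  | seq _ _ ih1 ih2 => omega
  | iteN _ _ ih => omega
  | iteT _ _ ih => omega
  | iteF _ _ ih => omega
  | loopN _ => omega
  | loopC _ _ _ ih1 ih2 => omega

theorem ORun.length_le {p : OP} {s s' : St} {T : ℕ} (h : ORun O p s s' T) (r : ℕ) :
    (s' r).length ≤ (s r).length + T := by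
  obtain ⟨t, ht, h⟩ := h; have := h.length_le r; omega

end

namespace OTX

open Crest.Agent.PT.Rp

/-- deterministic programs as oracle programs -/
def emb : Prog → OP
  | .skip => .skip
  | .push r b => .push r b
  | .pop r => .pop r
  | .seq p q => .seq (emb p) (emb q)
  | .ite r a b c => .ite r (emb a) (emb b) (emb c)
  | .loop r p => .loop r (emb p)

theorem emb_exec (O : Word → ℕ) {p : Prog} {s s' : St} {t : ℕ} (h : Exec p s s' t) :
    OExec O (emb p) s s' t := by
  induction h with
  | skip s => exact .skip _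
  | push r b s => exact .push r b s
  | pop r s => exact .pop r s
  | seq _ _ ih1 ih2 => exact .seq ih1 ih2
  | iteN h _ ih => exact .iteN h ih
  | iteT h _ ih => exact .iteT h ih
  | iteF h _ ih => exact .iteF h ih
  | loopN h => exact .loopN h
  | loopC h _ _ ih1 ih2 => exact .loopC h ih1 ih2

theorem emb_run (O : Word → ℕ) {p : Prog} {s s' : St} {T : ℕ} (h : Run p s s' T) :
    ORun O (emb p) s s' T := by
  obtain ⟨t, ht, h⟩ := h; exact ⟨t, ht, emb_exec O h⟩

theorem clearAll {J : Type} [Fintype J] (Y : J → ℕ) (hY : Injective Y) :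
    ∃ p : OP, ∀ (O : Word → ℕ) (s : St), ∃ s',
      ORun O p s s' (∑ j, (2 * (s (Y j)).length + 1) + 1) ∧
      (∀ j, s' (Y j) = []) ∧ ∀ r, (∀ j, Y j ≠ r) → s' r = s r := by
  obtain ⟨p, hp⟩ := PT.clearAll Y hY
  refine ⟨emb p, fun O s => ?_⟩
  obtain ⟨s', h1, h2⟩ := hp s
  exact ⟨s', emb_run O h1, h2⟩

theorem ptwP {α : Type} [Rp α] {f : α → Word} (hf : PTw f) :
    ∃ T : α → ℕ, PB T ∧ ∀ (X : I α → ℕ) (y z : ℕ), (∀ i, X i < z) → y < z → (∀ i, X i ≠ y) →
    ∃ p : OP, ∀ (O : Word → ℕ) a s, (∀ i, s (X i) = w a i) → s y = [] →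
      (∀ r, z ≤ r → s r = []) → ORun O p s (update s y (f a)) (T a) := by
  obtain ⟨T, hT, h⟩ := hf
  refine ⟨T, hT, fun X y z hX hy hXy => ?_⟩
  obtain ⟨p, hp⟩ := h X y z hX hy hXy
  exact ⟨emb p, fun O a s h1 h2 h3 => emb_run O (hp a s h1 h2 h3)⟩

theorem assignAllP {α β : Type} [Rp α] [Rp β] {f : α → β} (hf : PTime f) :
    ∃ T : α → ℕ, PB T ∧ ∀ (X : I α → ℕ) (Y : I β → ℕ) (z : ℕ), Injective Y → (∀ i, X i < z) →
      (∀ j, Y j < z) → (∀ i j, X i ≠ Y j) →
      ∃ p : OP, ∀ (O : Word → ℕ) a s, (∀ i, s (X i) = w a i) → (∀ j, s (Y j) = []) →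
        (∀ r, z ≤ r → s r = []) →
        ∃ s', ORun O p s s' (T a) ∧ (∀ j, s' (Y j) = w (f a) j) ∧
          ∀ r, (∀ j, Y j ≠ r) → s' r = s r := by
  obtain ⟨T, hT, h⟩ := PT.assignAll hf
  refine ⟨T, hT, fun X Y z hY hX hYz hXY => ?_⟩
  obtain ⟨p, hp⟩ := h X Y z hY hX hYz hXY
  refine ⟨emb p, fun O a s h1 h2 h3 => ?_⟩
  obtain ⟨s', e, r⟩ := hp a s h1 h2 h3
  exact ⟨s', emb_run O e, r⟩

/-- Running one program for every register of a block. -/
theorem seqAll {A J : Type} [Fintype J] (Y : J → ℕ) (hY : Injective Y) (o : A → Word → ℕ)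
    (Pre : A → St → Prop)
    (hPre : ∀ a s s', Pre a s → (∀ r, (∀ j, Y j ≠ r) → s' r = s r) → Pre a s')
    (u v : A → J → Word) (T : A → J → ℕ)
    (h : ∀ j, ∃ p, ∀ a s, Pre a s → s (Y j) = u a j →
      ORun (o a) p s (update s (Y j) (v a j)) (T a j)) :
    ∃ p, ∀ a s, Pre a s → (∀ j, s (Y j) = u a j) →
      ∃ s', ORun (o a) p s s' (∑ j, T a j + 1) ∧ (∀ j, s' (Y j) = v a j) ∧
        ∀ r, (∀ j, Y j ≠ r) → s' r = s r := by
  classical
  have key : ∀ S : Finset J, ∃ p, ∀ a s, Pre a s → (∀ j, s (Y j) = u a j) →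
      ∃ s', ORun (o a) p s s' (∑ j ∈ S, T a j + 1) ∧ (∀ j ∈ S, s' (Y j) = v a j) ∧
        ∀ r, (∀ j ∈ S, Y j ≠ r) → s' r = s r := by
    intro S
    induction S using Finset.induction_on with
    | empty => exact ⟨.skip, fun a s _ _ => ⟨s, by simpa using ORun.skip (o a) s, by simp, by simp⟩⟩
    | insert j S hj ih =>
        obtain ⟨p, hp⟩ := ih
        obtain ⟨q, hq⟩ := h j
        refine ⟨.seq p q, fun a s hs hu => ?_⟩
        obtain ⟨s', h1, h2, h3⟩ := hp a s hs hu
        have hj' : s' (Y j) = u a j := by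
          rw [h3 _ (fun j' hj' e => hj (by rwa [hY e] at hj')), hu]
        have h4 := hq a s' (hPre a s s' hs fun r hr => h3 r fun j' _ => hr j') hj'
        refine ⟨_, (h1.seq h4).mono (by rw [Finset.sum_insert hj]; omega), ?_, ?_⟩
        · intro j' hj'
          rcases Finset.mem_insert.1 hj' with rfl | hj''
          · simp
          · have : Y j' ≠ Y j := fun e => hj (hY e ▸ hj'')
            rw [update_of_ne this, h2 j' hj'']
        · intro r hr
          rw [update_of_ne (hr j (Finset.mem_insert_self _ _)).symm]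
          exact h3 r fun j' hj' => hr j' (Finset.mem_insert_of_mem hj')
  obtain ⟨p, hp⟩ := key Finset.univ
  refine ⟨p, fun a s hs hu => ?_⟩
  obtain ⟨s', h1, h2, h3⟩ := hp a s hs hu
  exact ⟨s', h1, fun j => h2 j (Finset.mem_univ _), fun r hr => h3 r fun j _ => hr j⟩

section
variable {α β γ : Type} [Rp α] [HasO α] [Rp β] [Rp γ]

theorem length {f : α → Word} (hf : OTw f) : PB fun a => (f a).length := by
  obtain ⟨T, hT, h⟩ := hf
  obtain ⟨X, z, hX, hz, hXz⟩ := exists_fresh (I α) 1
  obtain ⟨p, hp⟩ := h X 0 z (fun i => (hXz i).2) (by omega) (fun i => by have := (hXz i).1; omega)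
  refine hT.mono fun a => ?_
  have h0 : ∀ r, (r = 0 ∨ z ≤ r) → extend X (w a) (fun _ => []) r = [] := by
    intro r hr
    rw [extend_apply']
    rintro ⟨i, rfl⟩
    have := hXz i; omega
  have := (hp a (extend X (w a) (fun _ => [])) (fun i => hX.extend_apply _ _ _)
    (h0 0 (Or.inl rfl)) (fun r hr => h0 r (Or.inr hr))).length_le 0
  simpa [h0 0 (Or.inl rfl)] using this

theorem size {f : α → β} (hf : OT f) : PB fun a => PT.sz (f a) :=
  PB.sum (f := fun j a => (w (f a) j).length) _ fun j => length (hf j)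

theorem assignAll {f : α → β} (hf : OT f) :
    ∃ T : α → ℕ, PB T ∧ ∀ (X : I α → ℕ) (Y : I β → ℕ) (z : ℕ), Injective Y → (∀ i, X i < z) →
      (∀ j, Y j < z) → (∀ i j, X i ≠ Y j) →
      ∃ p : OP, ∀ a s, (∀ i, s (X i) = w a i) → (∀ j, s (Y j) = []) → (∀ r, z ≤ r → s r = []) →
        ∃ s', ORun (orc a).f p s s' (T a) ∧ (∀ j, s' (Y j) = w (f a) j) ∧
          ∀ r, (∀ j, Y j ≠ r) → s' r = s r := by
  choose T hT h using hf
  refine ⟨fun a => ∑ j, T j a + 1, (PB.sum _ hT).add (PB.const 1), fun X Y z hY hX hYz hXY => ?_⟩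
  obtain ⟨p, hp⟩ := seqAll (A := α) Y hY (fun a => (orc a).f)
    (fun a s => (∀ i, s (X i) = w a i) ∧ ∀ r, z ≤ r → s r = [])
    (fun a s s' hs hs' => ⟨fun i => by rw [hs' _ fun j => (hXY i j).symm, hs.1],
      fun r hr => by rw [hs' _ fun j => by have := hYz j; omega, hs.2 r hr]⟩)
    (fun _ _ => []) (fun a j => w (f a) j) (fun a j => T j a)
    (fun j => by
      obtain ⟨p, hp⟩ := h j X (Y j) z hX (hYz j) (fun i => hXY i j)
      exact ⟨p, fun a s hs h0 => hp a s hs.1 h0 hs.2⟩)
  exact ⟨p, fun a s hs h0 hz => hp a s ⟨hs, hz⟩ h0⟩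

theorem comp [HasO β] {g : β → Word} (hg : OTw g) {f : α → β} (hf : OT f)
    (ho : ∀ a, orc (f a) = orc a) : OTw fun a => g (f a) := by
  obtain ⟨T, hT, h⟩ := assignAll hf
  obtain ⟨T', hT', h'⟩ := hg
  refine ⟨fun a => T a + T' (f a) + (2 * PT.sz (f a) + (Fintype.card (I β) + 1)),
    (hT.add (hT'.comp' (size hf))).add (((PB.const 2).mul (size hf)).add (PB.const _)),
    fun X y z hX hy hXy => ?_⟩
  obtain ⟨Y, z', hY, hz', hYz⟩ := exists_fresh (I β) z
  obtain ⟨p, hp⟩ := h X Y z' hY (fun i => (hX i).trans_le hz') (fun j => (hYz j).2)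
    (fun i j => by have := hX i; have := hYz j; omega)
  obtain ⟨p', hp'⟩ := h' Y y z' (fun j => (hYz j).2) (by omega)
    (fun j => by have := hYz j; omega)
  obtain ⟨pc, hpc⟩ := clearAll Y hY
  refine ⟨.seq (.seq p p') pc, fun a s hs hy0 hz => ?_⟩
  obtain ⟨s1, e1, a1, b1⟩ := hp a s hs (fun j => hz _ (hYz j).1) (fun r hr => hz r (by omega))
  have e2 := hp' (f a) s1 a1 (by rw [b1 _ fun j => by have := hYz j; omega, hy0])
    (fun r hr => by rw [b1 _ fun j => by have := hYz j; omega, hz r (by omega)])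
  rw [ho a] at e2
  obtain ⟨s3, e3, a3, b3⟩ := hpc (orc a).f (update s1 y (g (f a)))
  have hYy : ∀ j, Y j ≠ y := fun j => by have := hYz j; omega
  refine ((e1.seq e2).seq e3).cast
    (by simp only [update_of_ne (hYy _), a1, sum_clear_le]; exact le_rfl) ?_
  funext k
  by_cases hk : ∃ j, Y j = k
  · obtain ⟨j, rfl⟩ := hk
    rw [a3, update_of_ne (hYy j), hz _ (hYz j).1]
  · push Not at hk
    rw [b3 k hk]
    by_cases hk' : k = y
    · subst hk'; simp
    · rw [update_of_ne hk', update_of_ne hk', b1 k hk]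

theorem pcomp {g : β → Word} (hg : PTw g) {f : α → β} (hf : OT f) :
    OTw fun a => g (f a) := by
  obtain ⟨T, hT, h⟩ := assignAll hf
  obtain ⟨T', hT', h'⟩ := ptwP hg
  refine ⟨fun a => T a + T' (f a) + (2 * PT.sz (f a) + (Fintype.card (I β) + 1)),
    (hT.add (hT'.comp' (size hf))).add (((PB.const 2).mul (size hf)).add (PB.const _)),
    fun X y z hX hy hXy => ?_⟩
  obtain ⟨Y, z', hY, hz', hYz⟩ := exists_fresh (I β) z
  obtain ⟨p, hp⟩ := h X Y z' hY (fun i => (hX i).trans_le hz') (fun j => (hYz j).2)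
    (fun i j => by have := hX i; have := hYz j; omega)
  obtain ⟨p', hp'⟩ := h' Y y z' (fun j => (hYz j).2) (by omega)
    (fun j => by have := hYz j; omega)
  obtain ⟨pc, hpc⟩ := clearAll Y hY
  refine ⟨.seq (.seq p p') pc, fun a s hs hy0 hz => ?_⟩
  obtain ⟨s1, e1, a1, b1⟩ := hp a s hs (fun j => hz _ (hYz j).1) (fun r hr => hz r (by omega))
  have e2 := hp' (orc a).f (f a) s1 a1 (by rw [b1 _ fun j => by have := hYz j; omega, hy0])
    (fun r hr => by rw [b1 _ fun j => by have := hYz j; omega, hz r (by omega)])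
  obtain ⟨s3, e3, a3, b3⟩ := hpc (orc a).f (update s1 y (g (f a)))
  have hYy : ∀ j, Y j ≠ y := fun j => by have := hYz j; omega
  refine ((e1.seq e2).seq e3).cast
    (by simp only [update_of_ne (hYy _), a1, sum_clear_le]; exact le_rfl) ?_
  funext k
  by_cases hk : ∃ j, Y j = k
  · obtain ⟨j, rfl⟩ := hk
    rw [a3, update_of_ne (hYy j), hz _ (hYz j).1]
  · push Not at hk
    rw [b3 k hk]
    by_cases hk' : k = y
    · subst hk'; simp
    · rw [update_of_ne hk', update_of_ne hk', b1 k hk]

theorem size_le (a : α) (q : Word) : ((orc a).f q).size ≤ PT.sz a :=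
  (Nat.size_le.2 ((orc a).lt q)).trans (HasO.le a)

theorem ask {q : α → Word} (hq : OTw q) : OTw fun a => ((orc a).f (q a)).bits := by
  have hl := length hq
  obtain ⟨T, hT, h⟩ := hq
  refine ⟨fun a => T a + ((q a).length + PT.sz a + 1) + (4 * PT.sz a + 1) +
      (2 * (q a).length + 1),
    ((hT.add ((hl.add PB.sz).add (PB.const 1))).add (((PB.const 4).mul PB.sz).add
      (PB.const 1))).add (((PB.const 2).mul hl).add (PB.const 1)), fun X y z hX hy hXy => ?_⟩
  obtain ⟨p, hp⟩ := h X z (z + 1) (fun i => (hX i).trans z.lt_succ_self) z.lt_succ_self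
    (fun i => (hX i).ne)
  refine ⟨.seq (.seq (.seq p (.ask z (z + 1))) (emb (move1 (z + 1) y))) (emb (clearP z)),
    fun a s hs hy0 hz => ?_⟩
  have e1 := hp a s hs (hz z le_rfl) (fun r hr => hz r (by omega))
  have e2 := ORun.ask (orc a).f z (z + 1) (update s z (q a))
  rw [update_self, update_of_ne (by omega), hz (z + 1) (by omega), List.append_nil] at e2
  have e3 := emb_run (orc a).f (run_move1 (r := z + 1) (u := y) (by omega)
    (update (update s z (q a)) (z + 1) ((orc a).f (q a)).bits.reverse))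
  have e4 := ((e1.seq e2).seq e3).seq (emb_run (orc a).f (run_clear z _))
  have hsz := size_le a (q a)
  refine e4.cast ?_ ?_
  · simp [update_of_ne hy.ne', Nat.size_eq_bits_len]
    omega
  · funext k
    by_cases hk : k = z
    · subst hk; simp [update_of_ne hy.ne', hz k le_rfl]
    · by_cases hk' : k = y
      · subst hk'
        simp [update_of_ne hk, update_of_ne (show k ≠ z + 1 by omega), hy0]
      · by_cases hk'' : k = z + 1
        · subst hk''
          simp [update_of_ne hk', hz (z + 1) (by omega)]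
        · simp [update_of_ne hk, update_of_ne hk', update_of_ne hk'']

end

end OTX

section
variable {α β γ : Type} [Rp α] [HasO α] [Rp β] [Rp γ]

theorem OT.congr {f g : α → β} (hf : OT f) (h : ∀ a, g a = f a) : OT g := by
  rwa [show g = f from funext h]

theorem OT.of_ptime {f : α → β} (hf : PTime f) : OT f := by
  intro j
  obtain ⟨T, hT, h⟩ := OTX.ptwP (hf j)
  refine ⟨T, hT, fun X y z hX hy hXy => ?_⟩
  obtain ⟨p, hp⟩ := h X y z hX hy hXy
  exact ⟨p, fun a => hp (orc a).f a⟩

theorem OT.sz {f : α → β} (hf : OT f) : PB fun a => PT.sz (f a) := by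
  exact OTX.size hf

theorem OT.pair {f : α → β} {g : α → γ} (hf : OT f) (hg : OT g) : OT fun a => (f a, g a) := by
  intro j
  rcases j with j | j
  · exact hf j
  · exact hg j

theorem OT.comp [HasO β] {g : β → γ} {f : α → β} (hg : OT g) (hf : OT f)
    (h : ∀ a, orc (f a) = orc a) : OT fun a => g (f a) := by
  exact fun j => OTX.comp (hg j) hf h

theorem OT.pcomp {g : β → γ} {f : α → β} (hg : PTime g) (hf : OT f) : OT fun a => g (f a) := by
  exact fun j => OTX.pcomp (hg j) hf

theorem OT.ask {q : α → Word} (hq : OT q) : OT fun a => (orc a).f (q a) := by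
  exact fun _ => OTX.ask (hq ())

open Crest.Agent.PT.Rp in
theorem OT.foldl {σ : Type} [Rp σ] {l : α → Word} {init : α → σ} {step : α → σ → Bool → σ}
    (hl : OT l) (hi : OT init) (hs : OT fun p : α × σ × Bool => step p.1 p.2.1 p.2.2)
    {B : α → ℕ} (hB : PB B)
    (hb : ∀ a k, PT.sz (((l a).take k).foldl (step a) (init a)) ≤ B a) :
    OT fun a => (l a).foldl (step a) (init a) := by
  intro j0
  have hll := OTX.length (hl ())
  obtain ⟨Tl, hTl, h1⟩ := hl ()
  obtain ⟨Ti, hTi, h2⟩ := OTX.assignAll hi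
  obtain ⟨Ts, ⟨qs, hqs⟩, h3⟩ := OTX.assignAll hs
  obtain ⟨Tc, ⟨qc, hqc⟩, h4⟩ := OTX.assignAllP (PTime.id (α := σ))
  obtain ⟨Tv, ⟨qv, hqv⟩, h5⟩ := OTX.ptwP (PTw.var (α := σ) j0)
  set c0 := Fintype.card (I σ) + 1 with hc0
  let G : α → ℕ := fun a => qs.eval (PT.sz a + (B a + 1)) + qc.eval (B a) + 4 * B a + 2 * c0 + 5
  have hG : PB G := ((((PB.sz.add (hB.add (PB.const 1))).eval qs).add (hB.eval qc)).add
    ((PB.const 4).mul hB)).add (PB.const _) |>.add (PB.const _)
  refine ⟨fun a => Tl a + Ti a + ((l a).length * G a + 1) + qv.eval (B a) + (2 * B a + c0),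
    (((hTl.add hTi).add ((hll.mul hG).add (PB.const 1))).add (hB.eval qv)).add
      (((PB.const 2).mul hB).add (PB.const _)), fun X y z hX hy hXy => ?_⟩
  obtain ⟨S, z1, hS, hz1, hSz⟩ := exists_fresh (I σ) (z + 2)
  obtain ⟨S', z2, hS', hz2, hSz'⟩ := exists_fresh (I σ) z1
  obtain ⟨p1, hp1⟩ := h1 X z z2 (fun i => by have := hX i; omega) (by omega) (fun i => (hX i).ne)
  obtain ⟨p2, hp2⟩ := h2 X S z2 hS (fun i => by have := hX i; omega)
    (fun j => by have := hSz j; omega) (fun i j => by have := hX i; have := hSz j; omega)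
  obtain ⟨p3, hp3⟩ := h3 (Sum.elim X (Sum.elim S fun _ => z + 1)) S' z2 hS'
    (by
      rintro (i | j | u)
      · have := hX i; simp only [Sum.elim_inl]; omega
      · have := hSz j; simp only [Sum.elim_inl, Sum.elim_inr]; omega
      · simp only [Sum.elim_inr]; omega)
    (fun j => (hSz' j).2)
    (by
      rintro (i | j | u) j'
      · have := hX i; have := hSz' j'; simp only [Sum.elim_inl]; omega
      · have := hSz j; have := hSz' j'; simp only [Sum.elim_inl, Sum.elim_inr]; omega
      · have := hSz' j'; simp only [Sum.elim_inr]; omega)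
  obtain ⟨p4, hp4⟩ := h4 S' S z2 hS (fun j => (hSz' j).2) (fun j => by have := hSz j; omega)
    (fun i j => by have := hSz' i; have := hSz j; omega)
  obtain ⟨p5, hp5⟩ := h5 S y z2 (fun j => by have := hSz j; omega) (by omega)
    (fun j => by have := hSz j; omega)
  obtain ⟨pc, hpc⟩ := OTX.clearAll S hS
  obtain ⟨pc', hpc'⟩ := OTX.clearAll S' hS'
  let body : OP := .seq (.seq (.seq (.seq (.seq (.seq
    (.ite z .skip (.push (z + 1) true) (.push (z + 1) false)) (.pop z)) p3) pc) (.pop (z + 1))) p4)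
    pc'
  refine ⟨.seq (.seq (.seq (.seq p1 p2) (.loop z body)) p5) pc, fun a s0 hs0 hy0 hz0 => ?_⟩
  -- the invariant
  let Inv : Word → σ → St → Prop := fun l' st s => s z = l' ∧ (∀ j, s (S j) = w st j) ∧
    ∀ r, r ≠ z → (∀ j, S j ≠ r) → s r = s0 r
  have hbody : ∀ b l' st s, Inv (b :: l') st s → PT.sz st ≤ B a → PT.sz (step a st b) ≤ B a →
      ∃ s', ORun (orc a).f body s s' (G a - 1) ∧ Inv l' (step a st b) s' := by
    rintro b l' st s ⟨i1, i2, i3⟩ hst hst'
    have hz1' : s (z + 1) = [] := by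
      rw [i3 _ (by omega) fun j => by have := hSz j; omega, hz0 _ (by omega)]
    have e1 : ORun (orc a).f (.ite z .skip (.push (z + 1) true) (.push (z + 1) false)) s
        (update s (z + 1) [b]) 2 := by
      cases b
      · exact ORun.iteF (by simp [i1]) (by simpa [hz1'] using ORun.push (orc a).f (z + 1) false s)
      · exact ORun.iteT (by simp [i1]) (by simpa [hz1'] using ORun.push (orc a).f (z + 1) true s)
    have e2 := ORun.pop (orc a).f z (update s (z + 1) [b])
    rw [update_of_ne (by omega), i1, List.tail_cons] at e2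
    set s2 := update (update s (z + 1) [b]) z l' with hs2
    have a2 : ∀ r, r ≠ z → r ≠ z + 1 → s2 r = s r := fun r h h' => by
      rw [hs2, update_of_ne h, update_of_ne h']
    obtain ⟨s3, e3, a3, b3⟩ := hp3 (a, st, b) s2
      (by
        rintro (i | j | u)
        · have := hX i
          show s2 (X i) = w a i
          rw [a2 _ (by omega) (by omega), i3 _ (by omega) fun j => by have := hSz j; omega, hs0]
        · have := hSz j
          show s2 (S j) = w st j
          rw [a2 _ (by omega) (by omega), i2]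
        · show s2 (z + 1) = [b]
          rw [hs2, update_of_ne (by omega), update_self])
      (fun j => by
        have := hSz' j
        rw [a2 _ (by omega) (by omega), i3 _ (by omega) fun j => by have := hSz j; omega,
          hz0 _ (by omega)])
      (fun r hr => by
        rw [a2 _ (by omega) (by omega), i3 _ (by omega) fun j => by have := hSz j; omega,
          hz0 _ (by omega)])
    have e3' : ORun (orc a).f p3 s2 s3 (Ts (a, st, b)) := e3
    obtain ⟨s4, e4, a4, b4⟩ := hpc (orc a).f s3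
    have e5 := ORun.pop (orc a).f (z + 1) s4
    have h41 : s4 (z + 1) = [b] := by
      rw [b4 _ fun j => by have := hSz j; omega, b3 _ fun j => by have := hSz' j; omega, hs2,
        update_of_ne (by omega), update_self]
    rw [h41, List.tail_cons] at e5
    obtain ⟨s6, e6, a6, b6⟩ := hp4 (orc a).f (step a st b) (update s4 (z + 1) [])
      (fun j => by
        have := hSz' j
        rw [update_of_ne (by omega), b4 _ fun j => by have := hSz j; omega, a3])
      (fun j => by have := hSz j; rw [update_of_ne (by omega), a4])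
      (fun r hr => by
        rw [update_of_ne (by omega), b4 _ fun j => by have := hSz j; omega,
          b3 _ fun j => by have := hSz' j; omega,
          a2 _ (by omega) (by omega), i3 _ (by omega) fun j => by have := hSz j; omega,
          hz0 _ (by omega)])
    obtain ⟨s7, e7, a7, b7⟩ := hpc' (orc a).f s6
    refine ⟨s7, ((((((e1.seq e2).seq e3').seq e4).seq e5).seq e6).seq e7).mono ?_, ?_, ?_, ?_⟩
    · have t3 : Ts (a, st, b) ≤ qs.eval (PT.sz a + (B a + 1)) :=
        (hqs _).trans (eval_mono _ (by simp; omega))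
      have t6 : Tc (step a st b) ≤ qc.eval (B a) := (hqc _).trans (eval_mono _ hst')
      have t4 : ∑ j, (2 * (s3 (S j)).length + 1) + 1 = 2 * PT.sz st + c0 := by
        rw [← sum_clear_le]
        congr 1
        refine Finset.sum_congr rfl fun j _ => ?_
        have := hSz j
        rw [b3 _ fun j => by have := hSz' j; omega, a2 _ (by omega) (by omega), i2]
      have t7 : ∑ j, (2 * (s6 (S' j)).length + 1) + 1 = 2 * PT.sz (step a st b) + c0 := by
        rw [← sum_clear_le]
        congr 1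
        refine Finset.sum_congr rfl fun j _ => ?_
        have := hSz' j
        rw [b6 _ fun j => by have := hSz j; omega, update_of_ne (by omega),
          b4 _ fun j => by have := hSz j; omega, a3]
      rw [t4, t7]
      simp only [G]
      omega
    · rw [b7 _ fun j => by have := hSz' j; omega, b6 _ fun j => by have := hSz j; omega,
        update_of_ne (by omega), b4 _ fun j => by have := hSz j; omega,
        b3 _ fun j => by have := hSz' j; omega, hs2, update_self]
    · intro j
      have := hSz j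
      rw [b7 _ fun j => by have := hSz' j; omega, a6]
    · intro r hr hr'
      by_cases h' : ∃ j, S' j = r
      · obtain ⟨j, rfl⟩ := h'
        have := hSz' j
        rw [a7, hz0 _ (by omega)]
      · push Not at h'
        rw [b7 _ h', b6 _ hr']
        by_cases h'' : r = z + 1
        · subst h''; rw [update_self, hz0 _ (by omega)]
        · rw [update_of_ne h'', b4 _ hr', b3 _ h', a2 _ hr h'', i3 _ hr hr']
  have hG1 : 1 ≤ G a := by simp only [G]; omega
  have hloop : ∀ l' st s, Inv l' st s → (∀ k, PT.sz ((l'.take k).foldl (step a) st) ≤ B a) →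
      ∃ s', ORun (orc a).f (.loop z body) s s' (l'.length * G a + 1) ∧ Inv [] (l'.foldl (step a) st) s' := by
    intro l'
    induction l' with
    | nil => intro st s hI _; exact ⟨s, by simpa using ORun.loopN (orc a).f hI.1, hI⟩
    | cons b l' ih =>
        intro st s hI hk
        obtain ⟨s1, e1, I1⟩ := hbody b l' st s hI (by simpa using hk 0) (by simpa using hk 1)
        obtain ⟨s2, e2, I2⟩ := ih _ s1 I1 (fun k => by simpa using hk (k + 1))
        refine ⟨s2, (ORun.loopC (by simp [hI.1]) e1 e2).mono ?_, I2⟩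
        simp only [List.length_cons, add_mul]; omega
  have e1 := hp1 a s0 hs0 (hz0 z le_rfl) (fun r hr => hz0 r (by omega))
  obtain ⟨s2, e2, a2, b2⟩ := hp2 a (update s0 z (w (l a) ()))
    (fun i => by rw [update_of_ne (hX i).ne, hs0])
    (fun j => by have := hSz j; rw [update_of_ne (by omega), hz0 _ (by omega)])
    (fun r hr => by rw [update_of_ne (by omega), hz0 _ (by omega)])
  obtain ⟨s3, e3, i1, i2, i3⟩ := hloop (l a) (init a) s2
    ⟨by rw [b2 _ fun j => by have := hSz j; omega, update_self]; rfl, a2,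
      fun r hr hr' => by rw [b2 _ hr', update_of_ne hr]⟩ (hb a)
  have hfin : PT.sz ((l a).foldl (step a) (init a)) ≤ B a := by
    simpa using hb a (l a).length
  have e4 := hp5 (orc a).f _ s3 i2 (by rw [i3 _ (by omega) fun j => by have := hSz j; omega, hy0])
    (fun r hr => by rw [i3 _ (by omega) fun j => by have := hSz j; omega, hz0 _ (by omega)])
  obtain ⟨s5, e5, a5, b5⟩ := hpc (orc a).f (update s3 y (w ((l a).foldl (step a) (init a)) j0))
  refine ((((e1.seq e2).seq e3).seq e4).seq e5).cast ?_ ?_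
  · have t4 := (hqv ((l a).foldl (step a) (init a))).trans (eval_mono _ hfin)
    have t5 : ∑ j, (2 * (update s3 y (w ((l a).foldl (step a) (init a)) j0) (S j)).length + 1) + 1
        = 2 * PT.sz ((l a).foldl (step a) (init a)) + c0 := by
      rw [← sum_clear_le]
      congr 1
      refine Finset.sum_congr rfl fun j _ => ?_
      have := hSz j
      rw [update_of_ne (by omega), i2]
    rw [t5]
    simp only
    omega
  · funext r
    by_cases h' : ∃ j, S j = r
    · obtain ⟨j, rfl⟩ := h'
      have := hSz j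
      rw [a5, update_of_ne (by omega), hz0 _ (by omega)]
    · push Not at h'
      rw [b5 _ h']
      by_cases h'' : r = y
      · subst h''; simp
      · rw [update_of_ne h'', update_of_ne h'']
        by_cases h3 : r = z
        · subst h3; rw [i1, hz0 _ le_rfl]
        · rw [i3 _ h3 h']

end

end Crest.Agent.R302
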