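import Crest.Agent.R302.OT

/-! Row 302: derived closure properties of oracle polynomial time. -/

set_option autoImplicit false

namespace Crest.Agent.R302

open Crest.Agent.PT Crest.Agent.R309 Function

section
variable {α β γ : Type} [Rp α] [HasO α] [Rp β] [Rp γ]

theorem OT.id : OT fun a : α => a := OT.of_ptime PTime.id

/-- apply a plain polynomial-time function to the input and an oracle-computed value -/
theorem OT.map {E : α × β → γ} {f : α → β} (hE : PTime E) (hf : OT f) : OT fun a => E (a, f a) :=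
  OT.pcomp hE (OT.id.pair hf)

/-- apply an oracle function to the input and an oracle-computed value -/
theorem OT.bind {G : α × β → γ} {f : α → β} (hG : OT G) (hf : OT f) : OT fun a => G (a, f a) :=
  OT.comp hG (OT.id.pair hf) fun _ => rfl

/-- precompose an oracle function with a plain function that keeps the oracle -/
theorem OT.pre [HasO β] {g : β → γ} {f : α → β} (hg : OT g) (hf : PTime f)
    (h : ∀ a, orc (f a) = orc a) : OT fun a => g (f a) := hg.comp (OT.of_ptime hf) h

theorem OT.fst {f : α → β × γ} (hf : OT f) : OT fun a => (f a).1 := OT.pcomp PTime.fst' hf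
theorem OT.snd {f : α → β × γ} (hf : OT f) : OT fun a => (f a).2 := OT.pcomp PTime.snd' hf

theorem OT.ite {c : α → Prop} [∀ a, Decidable (c a)] {f g : α → β} (hc : OT c) (hf : OT f)
    (hg : OT g) : OT fun a => if c a then f a else g a := by
  classical
  refine (OT.pcomp (g := fun p : Prop × β × β => if p.1 then p.2.1 else p.2.2) (by fun_prop)
    (hc.pair (hf.pair hg))).congr fun a => ?_
  by_cases h : c a <;> simp [h]

theorem OT.loop {σ : Type} [Rp σ] (F : α → ℕ → σ) (step : α → σ → ℕ → σ) {n : α → ℕ}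
    (hn : PU n) (h0 : OT fun a => F a 0)
    (hs : OT fun p : α × σ × Un => step p.1 p.2.1 p.2.2.val)
    (hF : ∀ a k, k < n a → F a (k + 1) = step a (F a k) k)
    {B : α → ℕ} (hB : PB B) (hb : ∀ a k, k ≤ n a → PT.sz (F a k) ≤ B a) :
    OT fun a => F a (n a) := by
  have key : ∀ a k, k ≤ n a → (List.replicate k true).foldl
      (fun (s : σ × Un) (_ : Bool) => (step a s.1 s.2.val, Un.mk (s.2.val + 1))) (F a 0, Un.mk 0)
      = (F a k, Un.mk k) := by
    intro a k
    induction k with
    | zero => intro _; rfl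
    | succ k ih =>
        intro hk
        rw [List.replicate_succ', List.foldl_append, ih (by omega), hF a k (by omega)]
        rfl
  have := OT.foldl (σ := σ × Un) (l := fun a => List.replicate (n a) true)
    (init := fun a => (F a 0, Un.mk 0))
    (step := fun a s _ => (step a s.1 s.2.val, Un.mk (s.2.val + 1)))
    (OT.of_ptime (PU.word_iff.1 hn)) (h0.pair (OT.of_ptime (PTime.const _)))
    (OT.pair
      (hs.pre (f := fun p : α × (σ × Un) × Bool => (p.1, p.2.1.1, p.2.1.2)) (by fun_prop)
        fun _ => rfl)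
      (OT.of_ptime (by fun_prop)))
    (hB.add hn.pb) (fun a k => by
      rw [List.take_replicate, key a _ (min_le_right _ _), sz_prod, sz_un]
      exact Nat.add_le_add (hb a _ (min_le_right _ _)) (min_le_right _ _))
  exact this.fst.congr fun a => by rw [key a _ le_rfl]

theorem OT.iter {σ : Type} [Rp σ] {step : α → σ → σ} {init : α → σ} {n : α → ℕ}
    (hs : OT fun p : α × σ => step p.1 p.2) (hi : OT init) (hn : PU n)
    {B : α → ℕ} (hB : PB B) (hb : ∀ a k, k ≤ n a → PT.sz ((step a)^[k] (init a)) ≤ B a) :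
    OT fun a => (step a)^[n a] (init a) := by
  exact OT.loop (fun a k => (step a)^[k] (init a)) (fun a s _ => step a s) hn hi
    (hs.pre (f := fun p : α × σ × Un => (p.1, p.2.1)) (by fun_prop) fun _ => rfl)
    (fun a k _ => iterate_succ_apply' _ _ _) hB hb

theorem OT.bound_range {σ : Type} [Rp σ] {n : α → ℕ} {g : α → ℕ → σ} (hn : PU n)
    (hg : OT fun p : α × Un => g p.1 p.2.val) :
    ∃ B : α → ℕ, PB B ∧ ∀ a k, k ≤ n a → PT.sz (g a k) ≤ B a := by
  obtain ⟨q, hq⟩ := hg.sz
  exact ⟨_, (PB.sz.add hn.pb).eval q, fun a k hk => (hq (a, Un.mk k)).trans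
    (eval_mono q (by simpa using hk))⟩

theorem OT.flatRange {n : α → ℕ} {g : α → ℕ → Word} (hn : PU n)
    (hg : OT fun p : α × Un => g p.1 p.2.val) :
    OT fun a => ((List.range (n a)).map (g a)).flatten := by
  obtain ⟨B, hB, hb⟩ := OT.bound_range hn hg
  refine OT.loop (fun a k => ((List.range k).map (g a)).flatten) (fun a s k => s ++ g a k) hn
    (OT.of_ptime (by simpa using PTime.const _))
    (OT.map (E := fun q : (α × Word × Un) × Word => q.1.2.1 ++ q.2) (by fun_prop)
      (hg.pre (f := fun p : α × Word × Un => (p.1, p.2.2)) (by fun_prop) fun _ => rfl))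
    (fun a k _ => by simp [List.range_succ])
    (hn.pb.mul hB) (fun a k hk => le_trans ?_ (Nat.mul_le_mul_right _ hk))
  induction k with
  | zero => simp
  | succ k ih =>
      have h1 := ih (by omega)
      have h2 := hb a k (by omega)
      simp only [List.range_succ, List.map_append, List.flatten_append, sz_word,
        List.length_append, add_mul, List.map_cons, List.map_nil, List.flatten_cons,
        List.flatten_nil, List.length_nil] at h1 h2 ⊢
      omega

theorem OT.rangeMap {n : α → ℕ} {g : α → ℕ → Bool} (hn : PU n)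
    (hg : OT fun p : α × Un => g p.1 p.2.val) : OT fun a => (List.range (n a)).map (g a) := by
  exact (OT.flatRange (g := fun a i => [g a i]) hn
    (OT.pcomp (g := fun b : Bool => ([b] : Word)) (by fun_prop) hg)).congr fun a => by
      rw [← List.flatMap_def, ← List.map_eq_flatMap]

theorem OT.rangeMapN {n : α → ℕ} {g : α → ℕ → ℕ} (hn : PU n)
    (hg : OT fun p : α × Un => g p.1 p.2.val) : OT fun a => (List.range (n a)).map (g a) := by
  have h := (OT.flatRange (g := fun a i => Crest.Enc.natCode (g a i)) hn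
    (OT.pcomp (g := fun b : ℕ => Crest.Enc.natCode b) (by fun_prop) hg)).congr
    (g := fun a => (((List.range (n a)).map (g a)).map Crest.Enc.natCode).flatten) fun a => by
      rw [List.map_map]; rfl
  exact fun _ => h ()

theorem OT.rangeMapZ {n : α → ℕ} {g : α → ℕ → ℤ} (hn : PU n)
    (hg : OT fun p : α × Un => g p.1 p.2.val) : OT fun a => (List.range (n a)).map (g a) := by
  have h := (OT.flatRange (g := fun a i => Crest.Enc.intCode (g a i)) hn
    (OT.pcomp (g := fun b : ℤ => Crest.Enc.intCode b) (by fun_prop) hg)).congr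
    (g := fun a => (((List.range (n a)).map (g a)).map Crest.Enc.intCode).flatten) fun a => by
      rw [List.map_map]; rfl
  exact fun _ => h ()

theorem OT.sum_range {n : α → ℕ} {g : α → ℕ → ℕ} (hn : PU n)
    (hg : OT fun p : α × Un => g p.1 p.2.val) :
    OT fun a => ∑ i ∈ Finset.range (n a), g a i := by
  refine (OT.map (E := fun q : α × List ℕ => ∑ i ∈ Finset.range (n q.1), q.2.getD i 0)
    (PTime.sum_range (g := fun (q : α × List ℕ) i => q.2.getD i 0) (hn.comp PTime.fst')
      (by fun_prop)) (OT.rangeMapN hn hg)).congr fun a => Finset.sum_congr rfl fun i hi => ?_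
  simp [List.getD_eq_getElem?_getD, Finset.mem_range.1 hi]

theorem OT.isum_range {n : α → ℕ} {g : α → ℕ → ℤ} (hn : PU n)
    (hg : OT fun p : α × Un => g p.1 p.2.val) :
    OT fun a => ∑ i ∈ Finset.range (n a), g a i := by
  refine (OT.map (E := fun q : α × List ℤ => ∑ i ∈ Finset.range (n q.1), q.2.getD i 0)
    (PTime.isum_range (g := fun (q : α × List ℤ) i => q.2.getD i 0) (hn.comp PTime.fst')
      (by fun_prop)) (OT.rangeMapZ hn hg)).congr fun a => Finset.sum_congr rfl fun i hi => ?_
  simp [List.getD_eq_getElem?_getD, Finset.mem_range.1 hi]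

theorem OT.exists_lt {n : α → ℕ} {c : α → ℕ → Prop} (hn : PU n)
    (hc : OT fun p : α × Un => c p.1 p.2.val) : OT fun a => ∃ i < n a, c a i := by
  refine OT.loop (fun a k => ∃ i < k, c a i) (fun a s k => s ∨ c a k) hn
    (OT.of_ptime ((PTime.const False).congr fun a => by simp))
    (OT.map (E := fun q : (α × Prop × Un) × Prop => q.1.2.1 ∨ q.2) (by fun_prop)
      (hc.pre (f := fun p : α × Prop × Un => (p.1, p.2.2)) (by fun_prop) fun _ => rfl))
    (fun a k _ => propext Nat.exists_lt_succ_right) (PB.const 1) (fun a k _ => le_of_eq ?_)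
  show ∑ _ : Unit, 1 = 1
  simp

theorem OT.forall_lt {n : α → ℕ} {c : α → ℕ → Prop} (hn : PU n)
    (hc : OT fun p : α × Un => c p.1 p.2.val) : OT fun a => ∀ i < n a, c a i := by
  have hnot : PTime fun b : Prop => ¬ b := PTime.not PTime.id
  exact (OT.pcomp hnot (OT.exists_lt (c := fun a i => ¬ c a i) hn (OT.pcomp hnot hc))).congr
    fun a => by simp

theorem OT.iterR {σ : Type} [Rp σ] {L n : α → ℕ} {step : α → σ → Word → σ} {init : α → σ}
    {ω : α → Word} (hL : PU L) (hn : PU n)
    (hs : OT fun p : α × σ × Word => step p.1 p.2.1 p.2.2) (hi : OT init) (hω : PTime ω)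
    {B : α → ℕ} (hB : PB B)
    (hb : ∀ a k, k ≤ n a → PT.sz (iterR (L a) (step a) k (init a) (ω a)) ≤ B a) :
    OT fun a => iterR (L a) (step a) (n a) (init a) (ω a) := by
  exact OT.loop (fun a k => R309.iterR (L a) (step a) k (init a) (ω a))
    (fun a s k => step a s (blk (L a) k (ω a))) hn hi
    (hs.pre (f := fun p : α × σ × Un => (p.1, p.2.1, blk (L p.1) p.2.2.val (ω p.1))) (by fun_prop)
      fun _ => rfl) (fun _ _ _ => rfl) hB hb

theorem OT.repZ {L n : α → ℕ} {f : α → Word → ℤ} {ω : α → Word} (hL : PU L) (hn : PU n)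
    (hf : OT fun p : α × Word => f p.1 p.2) (hω : PTime ω) :
    OT fun a => repZ (L a) (f a) (n a) (ω a) := by
  exact OT.isum_range (g := fun a i => f a (blk (L a) i (ω a))) hn
    (hf.pre (f := fun p : α × Un => (p.1, blk (L p.1) p.2.val (ω p.1))) (by fun_prop) fun _ => rfl)

/-- an index `i < n a` maximising `g a i` (the value `0` if `n a = 0`) -/
theorem OT.exists_argmax {n : α → ℕ} {g : α → ℕ → ℤ} (hn : PU n)
    (hg : OT fun p : α × Un => g p.1 p.2.val) :
    ∃ m : α → ℕ, (OT fun a => Un.mk (m a)) ∧ ∀ a, m a ≤ n a - 1 ∧ ∀ i < n a, g a i ≤ g a (m a) := by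
  have hn' : PU fun q : α × List ℤ => n q.1 := hn.comp PTime.fst'
  obtain ⟨f, hf, hf'⟩ := PU.find_lt (n := fun q : α × List ℤ => n q.1)
    (c := fun q i => ∀ j < n q.1, q.2.getD j 0 ≤ q.2.getD i 0) hn'
    (PTime.forall_lt (c := fun (r : (α × List ℤ) × Un) j => r.1.2.getD j 0 ≤ r.1.2.getD r.2.val 0)
      (hn'.comp PTime.fst') (by fun_prop))
  refine ⟨fun a => f (a, (List.range (n a)).map (g a)),
    OT.map (E := fun q => Un.mk (f q)) hf (OT.rangeMapZ hn hg), fun a => ?_⟩
  obtain ⟨h1, h2, h3⟩ := hf' (a, (List.range (n a)).map (g a))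
  have e : ∀ i < n a, ((List.range (n a)).map (g a)).getD i 0 = g a i := fun i hi => by
    simp [List.getD_eq_getElem?_getD, hi]
  simp only at h1 h2 h3 ⊢
  rcases Nat.eq_zero_or_pos (n a) with h0 | h0
  · exact ⟨by omega, fun i hi => by omega⟩
  obtain ⟨i, hi, hmax⟩ := Finset.exists_max_image (Finset.range (n a)) (g a)
    ⟨0, Finset.mem_range.2 h0⟩
  have hi' := Finset.mem_range.1 hi
  have h4 : f (a, (List.range (n a)).map (g a)) < n a := by
    by_contra hc
    refine h2 i (by omega) fun j hj => ?_
    rw [e j hj, e i hi']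
    exact hmax j (Finset.mem_range.2 hj)
  refine ⟨by omega, fun j hj => ?_⟩
  have := h3 h4 j hj
  rwa [e j hj, e _ h4] at this

end

end Crest.Agent.R302
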