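import Crest.Agent.R302.Mod

/-! Row 302: the parameters of the model. -/

set_option autoImplicit false

namespace Crest.Agent.R302

open Crest.Agent.PT Crest.Agent.R309 Finset

namespace Mod

variable {S : Mod}

theorem Q_pos : 0 < S.Q := by
  exact Nat.two_pow_pos _

theorem D_pos : 0 < S.D := by
  exact Nat.two_pow_pos _

theorem tau_pos (e : ℕ) : 0 < S.tau e := by
  exact Nat.two_pow_pos _

theorem tauP_pos : 0 < S.tauP := by
  exact prod_pos fun e _ => tau_pos e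

theorem two_g : 2 ^ S.g = S.Q ^ 150 := by
  unfold g Q; rw [← pow_mul, mul_comm]

theorem M_eq : S.M = S.Q ^ 144 := by
  unfold M Q; rw [← pow_mul, mul_comm]

theorem T_eq : S.T = S.Q ^ 311 := by
  unfold T Q g; rw [← pow_mul]; congr 1; ring

theorem rH_eq : S.rH = (S.q + 1) * S.Q ^ 307 := by
  unfold rH Q g; rw [← pow_mul]; congr 2; ring

theorem KW_mul : S.KW * S.Q ^ 307 = S.D := by
  unfold KW Q D; rw [← pow_mul, ← pow_add]; congr 1
  unfold dd g; omega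

theorem D_ge : S.Q ^ 7000 ≤ S.D := by
  unfold Q D; rw [← pow_mul]
  exact Nat.pow_le_pow_right (by norm_num) (by unfold dd; omega)

theorem eps_pos (a : ℕ) : 0 < S.eps a := by
  have : (0 : ℝ) < S.Q := by exact_mod_cast Q_pos
  unfold eps; positivity

theorem tau_dvd (e : ℕ) : S.tau e ∣ 2 ^ S.J := by
  exact pow_dvd_pow _ (by omega)

theorem cst_root {a : ℕ} (h : S.p a = a) : S.cst a = 2 * S.q * S.D := by
  unfold cst; rw [if_pos h]

theorem rho_getD_f {e : ℕ} (h : e < S.b.nf) : S.rho.getD e 0 = S.M := by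
  unfold rho rf
  rw [List.getD_append _ _ _ _ (by simpa using h)]
  simp [h]

theorem rho_getD_t {i : ℕ} (h : i < S.b.nt) : S.rho.getD (S.b.nf + i) 0 = 2 * S.T := by
  unfold rho rf rt
  rw [List.getD_append_right _ _ _ _ (by simp)]
  simp [h]

theorem KW_rH : (S.KW : ℤ) * S.rH = (S.q + 1) * S.D := by
  have := KW_mul (S := S)
  rw [rH_eq, ← this]; push_cast; ring

/-- the normalised Huber function -/
def hb (r u : ℤ) : ℤ := if |u| ≤ r then u ^ 2 else 2 * r * |u| - r ^ 2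

theorem Hub_eq (u : ℤ) : S.Hub u = S.KW * hb S.rH u := by
  unfold Hub hb; split_ifs <;> rfl

theorem hb_step (r : ℤ) (hr : 0 ≤ r) (u : ℤ) : |hb r (u + 1) - hb r u| ≤ 2 * r := by
  unfold hb
  rw [abs_le]
  rcases abs_cases u with h1 | h1 <;> rcases abs_cases (u + 1) with h2 | h2 <;>
    rw [h1.1, h2.1] <;> split_ifs <;> constructor <;> nlinarith [h1.2, h2.2]

theorem hb_d (r : ℤ) (hr : 0 ≤ r) (u : ℤ) :
    hb r (u + 1) - hb r u = if r ≤ u then 2 * r else if u < -r then -2 * r else 2 * u + 1 := by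
  unfold hb
  rcases abs_cases u with h1 | h1 <;> rcases abs_cases (u + 1) with h2 | h2 <;>
    rw [h1.1, h2.1] <;> split_ifs <;> first | omega | nlinarith [h1.2, h2.2]

theorem hb_conv (r : ℤ) (hr : 0 ≤ r) (u : ℤ) : 0 ≤ hb r (u + 2) + hb r u - 2 * hb r (u + 1) ∧
    hb r (u + 2) + hb r u - 2 * hb r (u + 1) ≤ 2 := by
  have h1 := hb_d r hr u
  have h2 := hb_d r hr (u + 1)
  rw [show u + 1 + 1 = u + 2 by ring] at h2
  split_ifs at h1 h2 <;> omega

theorem Hub_nonneg (u : ℤ) : 0 ≤ S.Hub u := by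
  have h1 : (0 : ℤ) ≤ S.KW := Int.natCast_nonneg _
  have h2 : (0 : ℤ) ≤ S.rH := Int.natCast_nonneg _
  unfold Hub; split_ifs with h
  · positivity
  · exact mul_nonneg h1 (by nlinarith [not_le.1 h])

theorem Hub_ge (u : ℤ) : S.KW * (2 * S.rH * |u| - (S.rH : ℤ) ^ 2) ≤ S.Hub u := by
  have h1 : (0 : ℤ) ≤ S.KW := Int.natCast_nonneg _
  unfold Hub; split_ifs with h
  · refine mul_le_mul_of_nonneg_left ?_ h1
    nlinarith [sq_nonneg (|u| - S.rH), sq_abs u]
  · exact le_rfl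

theorem Hub_le (u : ℤ) : S.Hub u ≤ 2 * (S.q + 1) * S.D * |u| := by
  have h1 : (0 : ℤ) ≤ S.KW := Int.natCast_nonneg _
  have h2 : (0 : ℤ) ≤ S.rH := Int.natCast_nonneg _
  have e : 2 * ((S.q : ℤ) + 1) * S.D * |u| = S.KW * (2 * S.rH * |u|) := by
    rw [mul_assoc 2, ← KW_rH]; ring
  rw [e]
  unfold Hub; split_ifs with h
  · refine mul_le_mul_of_nonneg_left ?_ h1
    nlinarith [abs_nonneg u, sq_abs u]
  · refine mul_le_mul_of_nonneg_left ?_ h1
    nlinarith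

theorem Hub_le_sq (u : ℤ) : S.Hub u ≤ S.KW * u ^ 2 := by
  have h1 : (0 : ℤ) ≤ S.KW := Int.natCast_nonneg _
  unfold Hub; split_ifs with h
  · exact le_rfl
  · refine mul_le_mul_of_nonneg_left ?_ h1
    nlinarith [sq_nonneg (|u| - S.rH), sq_abs u]

theorem Hub_step (u : ℤ) : |S.Hub (u + 1) - S.Hub u| ≤ 2 * (S.q + 1) * S.D := by
  have h1 : (0 : ℤ) ≤ S.KW := Int.natCast_nonneg _
  have e : 2 * ((S.q : ℤ) + 1) * S.D = S.KW * (2 * S.rH) := by
    rw [mul_assoc 2, ← KW_rH]; ring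
  rw [e, Hub_eq, Hub_eq, ← mul_sub, abs_mul, abs_of_nonneg h1]
  exact mul_le_mul_of_nonneg_left (hb_step _ (Int.natCast_nonneg _) u) h1

theorem Hub_conv (u : ℤ) : 0 ≤ S.Hub (u + 2) + S.Hub u - 2 * S.Hub (u + 1) ∧
    S.Hub (u + 2) + S.Hub u - 2 * S.Hub (u + 1) ≤ 2 * S.KW := by
  have h1 : (0 : ℤ) ≤ S.KW := Int.natCast_nonneg _
  have := hb_conv S.rH (Int.natCast_nonneg _) u
  simp only [Hub_eq]
  constructor <;> nlinarith [this.1, this.2]

theorem Mar_nonneg (Y : Vec) : 0 ≤ S.Mar Y := by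
  refine sum_nonneg fun a _ => ?_
  unfold mar; split_ifs
  · exact Hub_nonneg _
  · positivity

theorem w_pos (ζ : ℕ → ℤ) (Y : Vec) : 0 < S.w ζ Y := by
  unfold w; positivity

theorem X_add (a : ℕ) (Y Z : Vec) : S.X a (Y + Z) = S.X a Y + S.X a Z := by
  exact sm_add _ _ _

theorem X_sub (a : ℕ) (Y Z : Vec) : S.X a (Y - Z) = S.X a Y - S.X a Z := by
  exact sm_sub _ _ _

theorem X_smul (a : ℕ) (t : ℤ) (Y : Vec) : S.X a (t • Y) = t * S.X a Y := by
  exact sm_smul _ _ _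

theorem X_sum {ι : Type} (a : ℕ) (A : Finset ι) (Y : ι → Vec) :
    S.X a (∑ i ∈ A, Y i) = ∑ i ∈ A, S.X a (Y i) := by
  exact sm_sum _ _ _

theorem X_ev (a i : ℕ) : 0 ≤ S.X a (ev i) ∧ S.X a (ev i) ≤ 1 := by
  unfold X; rw [sm_ev]; split_ifs <;> simp

theorem Om.mono {r r' : ℕ} {Y : Vec} (h : S.Om r Y) (hr : r ≤ r') : S.Om r' Y := by
  intro a ha
  exact (h a ha).trans (mul_le_mul_of_nonneg_right (by exact_mod_cast hr) (by positivity))

theorem Om.add {r r' : ℕ} {Y v : Vec} (h : S.Om r Y)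
    (hv : ∀ a < 2 * S.n, |S.X a v| ≤ (r' : ℤ) * 2 ^ S.j a) : S.Om (r + r') (Y + v) := by
  intro a ha
  have h1 := h a ha
  have h2 := hv a ha
  rw [X_add, add_sub_right_comm]
  refine (abs_add_le _ _).trans ?_
  push_cast; linarith


namespace OK

theorem q_ge (h : S.OK) : 12 ≤ S.q := by
  have h1 := h.BQ; have h2 := h.nB; have h3 := h.n_pos
  by_contra hc
  have : 2 ^ S.q ≤ 2 ^ 11 := Nat.pow_le_pow_right (by norm_num) (by omega)
  omega

theorem Q_ge (h : S.OK) : 4096 ≤ S.Q := by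
  have h1 := h.BQ; have h2 := h.nB; have h3 := h.n_pos
  unfold Q; omega

theorem nQ (h : S.OK) : 2048 * S.n ≤ S.Q := by
  have h1 := h.BQ; have h2 := h.nB
  unfold Q; omega

theorem BQ' (h : S.OK) : 1024 * S.B ≤ S.Q := by
  exact h.BQ

theorem qQ (h : S.OK) : (S.q + 1) ^ 2 ≤ S.Q := by
  have key : ∀ k, 12 ≤ k → (k + 1) ^ 2 ≤ 2 ^ k := fun k hk => by
    induction k, hk using Nat.le_induction with
    | base => norm_num
    | succ k hk ih => rw [pow_succ 2 k]; nlinarith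
  exact key _ h.q_ge

theorem qQ' (h : S.OK) : 300 * S.q ≤ S.Q := by
  have key : ∀ k, 12 ≤ k → 300 * k ≤ 2 ^ k := fun k hk => by
    induction k, hk using Nat.le_induction with
    | base => norm_num
    | succ k hk ih => rw [pow_succ 2 k]; omega
  exact key _ h.q_ge

theorem JQ (h : S.OK) : S.J ≤ S.Q := by
  have h1 := h.qQ'; have h2 := h.BQ'; have h3 := h.Q_ge
  unfold J g; omega

theorem fo (h : S.OK) : Fo S.p := by
  exact fo_pp h.fo1 h.fo2

theorem submod (h : S.OK) : Submod (2 * S.n) S.F := by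
  exact h.pair.submod

theorem F_empty (h : S.OK) : S.F ∅ = 0 := by
  exact h.pair.dsum_empty

theorem F_bd (h : S.OK) {A : Finset ℕ} : |S.F A| < 2 ^ (S.B + 1) := by
  unfold F dsum
  have h1 := (h.bd _ (filter_subset (fun i => i ∈ A) _)).1
  have h2 := (h.bd _ (filter_subset (fun i => S.n + i ∈ A) _)).2
  refine (abs_add_le _ _).trans_lt ?_
  rw [pow_succ]; linarith

theorem N_pos (h : S.OK) : 1 ≤ S.N := by
  exact (Set.ncard_pos (PS_finite _ _ _)).2 h.ne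

theorem cst_mul (h : S.OK) {a : ℕ} (ha : a < 2 * S.n) (hp : S.p a ≠ a) :
    S.cst a * 2 ^ S.j a = S.D * S.Q ^ 12 := by
  have := h.jle a ha
  unfold cst D Q; rw [if_neg hp, ← pow_mul, ← pow_add, ← pow_add]; congr 1
  unfold dd at *; omega

theorem Ka_mul (h : S.OK) {a : ℕ} (ha : a < 2 * S.n) :
    S.Ka a * (S.Q ^ 300 * (2 ^ S.j a) ^ 2) = S.D * S.Q ^ 43 := by
  have := h.jle a ha
  unfold Ka D Q; rw [← pow_mul, ← pow_mul, ← pow_mul, ← pow_add, ← pow_add, ← pow_add]; congr 1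
  unfold dd J g at *; omega

theorem two_j (h : S.OK) {a : ℕ} (ha : a < 2 * S.n) : S.Q ^ 150 ≤ 2 ^ S.j a := by
  rw [← two_g]; exact Nat.pow_le_pow_right (by norm_num) (h.jge a ha)

theorem tau_mul (h : S.OK) {e : ℕ} (he : e < S.b.nf) : S.tau e * S.Q ^ 138 = 2 ^ S.b.je e := by
  have h1 := h.bas.je_ge e he
  have h2 := h.bas.je_le e he
  unfold tau Q; rw [← pow_mul, ← pow_add, min_eq_left h2]; congr 1
  unfold g at h1; omega

theorem g0_eq (h : S.OK) (e : ℕ) : 2 * S.g0 e = 2 * S.gc e - S.tau e * S.M := by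
  have := h.q_ge
  have e1 : (S.M : ℤ) = 2 ^ (144 * S.q - 1) * 2 := by
    unfold M; push_cast; rw [← pow_succ]; congr 1; omega
  unfold g0; rw [e1]; ring

theorem eps_le (h : S.OK) {a : ℕ} (ha : a < 2 * S.n) : S.eps a * (S.Q : ℝ) ^ 136 ≤ 1 := by
  have h1 : ((S.Q : ℝ)) ^ 150 ≤ 2 ^ S.j a := by exact_mod_cast h.two_j ha
  unfold eps
  rw [div_mul_eq_mul_div, div_le_one (by positivity), ← pow_add]
  exact h1

theorem eps_ge (h : S.OK) {a : ℕ} (ha : a < 2 * S.n) : 1 ≤ S.eps a * 2 ^ S.Q := by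
  have h1 : (2 : ℝ) ^ S.j a ≤ 2 ^ S.Q :=
    pow_le_pow_right₀ (by norm_num) ((h.jle a ha).trans h.JQ)
  have h2 : (1 : ℝ) ≤ (S.Q : ℝ) ^ 14 := one_le_pow₀ (by exact_mod_cast Q_pos)
  unfold eps
  rw [div_mul_eq_mul_div, le_div_iff₀ (by positivity)]
  nlinarith [pow_pos (two_pos (α := ℝ)) S.Q]

theorem X_bb (h : S.OK) {a c : ℕ} (hc : c < 2 * S.n) :
    S.X a (bb S.p c) = if a = c then 1 else 0 := by
  exact h.fo.sm_sub_bb hc

theorem X_gv (h : S.OK) (a : ℕ) {i : ℕ} (hi : i < S.b.nt) : |S.X a (S.gv i)| ≤ 1 := by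
  unfold gv
  rw [dg_ev (h.bas.el_lt i hi), X_sub]
  have h1 := X_ev (S := S) a (S.b.el i)
  have h2 := X_ev (S := S) a (S.n + S.b.el i)
  rw [abs_le]; omega

theorem isB_gv (h : S.OK) {i : ℕ} (hi : i < S.b.nt) :
    S.gv i = ev (S.b.el i) - ev (S.n + S.b.el i) := by
  exact dg_ev (h.bas.el_lt i hi)

/-- fields on the labels do not see the diagonal -/
theorem dot_dg (h : S.OK) (ζ : ℕ → ℤ) (x : Vec) :
    dot (2 * S.n) (fun a => ζ (S.b.lab a)) (dg S.n x) = 0 := by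
  unfold dot
  rw [two_mul, sum_range_add, ← sum_add_distrib]
  refine sum_eq_zero fun i hi => ?_
  have hi := mem_range.1 hi
  have e1 : dg S.n x i = x i := by unfold dg; rw [if_pos hi]
  have e2 : dg S.n x (S.n + i) = -x i := by
    unfold dg; rw [if_neg (by omega), if_pos (by omega), Nat.add_sub_cancel_left]
  simp only [e1, e2, h.bas.lab_gl i hi]; ring

theorem nz_le (h : S.OK) (ζ : ℕ → ℤ) {x : Vec} (hx : x ∈ PS S.n S.f1 S.f2) (Y : Vec) :
    S.nz ζ Y ≤ cost (2 * S.n) S.p S.cst (Y - dg S.n x) := by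
  have := nu_le (p := S.p) (cst := S.cst) (ζ := fun a => ζ (S.b.lab a))
    ((h.pair.mem_PS hx.1).1 hx) Y
  rw [h.dot_dg] at this
  simpa [nz, F] using this

theorem om_PS (h : S.OK) {x : Vec} (hx : x ∈ PS S.n S.f1 S.f2) :
    S.Om (4 * S.n ^ 3) (dg S.n x) := by
  intro a ha
  have := h.thin x hx a ha
  rw [abs_le]; push_cast
  have : (0 : ℤ) ≤ 4 * (S.n : ℤ) ^ 3 * 2 ^ S.j a := by positivity
  constructor <;> linarith

theorem om_ev (h : S.OK) {r : ℕ} {Y : Vec} (hY : S.Om r Y) (i : ℕ) : S.Om (r + 1) (Y + ev i) := by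
  refine hY.add fun a _ => ?_
  have h1 := X_ev (S := S) a i
  have : (1 : ℤ) ≤ 2 ^ S.j a := one_le_pow₀ (by norm_num)
  rw [abs_le]; push_cast; omega


end OK

end Mod

end Crest.Agent.R302
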