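import Crest.Agent.R302.ODefs
import Crest.Prelude.Def_OracleRAM
import Crest.Prelude.Def_Polymatroid

/-! Row 302: arithmetic for the word-RAM driver. -/

set_option autoImplicit false

namespace Crest.Agent.R302.RN

open Crest.Agent.PT Crest.Agent.R309 Crest.Polymatroid Crest.OracleRAM

/-- the size parameter, computed from the input words and a padding -/
def Sf (x : List ℕ) (pad : ℕ) : ℕ :=
  min pad (x.getD 0 0) + (x.getD 1 0 + 1).size + (x.getD 2 0 + 1).size + (x.getD 3 0 + 1).size +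
    (x.getD 4 0 + 1).size + (x.getD 5 0 + 1).size +
    min (pad + 1) ((x.getD 3 0 + x.getD 2 0 - 1) / x.getD 2 0)

/-- the output words (after a dummy first word) of the rational `v.1 / (v.2 + 1)` -/
def outL (v : ℕ × ℕ) (W : ℕ) : List ℕ :=
  1 :: v.1.size :: (enum W v.1.size v.1 ++ enum W (v.2 + 1).size (v.2 + 1))

/-- the sum of the input words, plus two -/
abbrev NN (n R : ℕ) (ε δ : ℚ) : ℕ := n + R + ε.num.natAbs + ε.den + δ.num.natAbs + δ.den + 2

theorem clog_eq_size (v : ℕ) : Nat.clog 2 (v + 2) = (v + 1).size := by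
  refine eq_of_forall_ge_iff fun k => ?_
  rw [Nat.clog_le_iff_le_pow (by norm_num), Nat.size_le]
  omega

theorem size_le_self' (v : ℕ) : v.size ≤ v := Nat.size_le.2 Nat.lt_two_pow_self

theorem natAbs_pos {ε : ℚ} (hε : 0 < ε) : 0 < ε.num.natAbs :=
  Int.natAbs_pos.2 (Rat.num_pos.2 hε).ne'

theorem ceil_inv_eq {ε : ℚ} (hε : 0 < ε) :
    ⌈ε⁻¹⌉₊ = (ε.den + ε.num.natAbs - 1) / ε.num.natAbs := by
  have ha := natAbs_pos hε
  have e : ε⁻¹ = (ε.den : ℚ) / (ε.num.natAbs : ℚ) := by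
    have h1 : ((ε.num.natAbs : ℕ) : ℚ) = (ε.num : ℚ) := by
      rw [← Int.cast_natCast, Int.natAbs_of_nonneg (Rat.num_pos.2 hε).le]
    rw [h1]
    conv_lhs => rw [← Rat.num_div_den ε]
    rw [inv_div]
  refine eq_of_forall_ge_iff fun k => ?_
  rw [Nat.ceil_le, e, div_le_iff₀ (by exact_mod_cast ha), ← Nat.lt_succ_iff,
    Nat.div_lt_iff_lt_mul ha, Nat.succ_mul]
  have : ((ε.den : ℚ) ≤ (k : ℚ) * (ε.num.natAbs : ℚ)) ↔ ε.den ≤ k * ε.num.natAbs := by
    exact_mod_cast Iff.rfl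
  rw [this]
  omega

theorem enum_succ' (W n i : ℕ) : enum W (n + 1) i = (i % 2 ^ W) :: enum W n (i / 2 ^ W) := by
  unfold enum
  rw [List.range_succ_eq_map, List.map_cons, List.map_map]
  congr 1
  · simp
  · refine List.map_congr_left fun j _ => ?_
    simp only [Function.comp, Nat.succ_eq_add_one]
    rw [Nat.div_div_eq_div_mul, ← pow_add]
    congr 3
    ring

theorem wordsVal_enum (W n i : ℕ) : wordsVal W (enum W n i) = i % 2 ^ (W * n) := by
  induction n generalizing i with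
  | zero => simp [enum, wordsVal, Nat.mod_one]
  | succ n ih =>
    rw [enum_succ', wordsVal, ih, Nat.mul_succ, add_comm (W * n), pow_add, Nat.mod_mul]

theorem wordsVal_enum_size {W : ℕ} (hW : 1 ≤ W) (i : ℕ) : wordsVal W (enum W i.size i) = i := by
  rw [wordsVal_enum]
  refine Nat.mod_eq_of_lt ((Nat.lt_size_self i).trans_le (Nat.pow_le_pow_right (by omega) ?_))
  exact Nat.le_mul_of_pos_left _ hW

theorem length_enum (W n i : ℕ) : (enum W n i).length = n := by simp [enum]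

theorem pu_Sf : PU fun p : List ℕ × Un => Sf p.1 p.2.val := by
  unfold Sf
  have h : ∀ i : ℕ, PTime fun p : List ℕ × Un => p.1.getD i 0 := fun i =>
    getDN PTime.fst' (PTime.const i)
  have hp : PU fun p : List ℕ × Un => p.2.val := PU.val PTime.snd'
  have hs : ∀ i : ℕ, PU fun p : List ℕ × Un => (p.1.getD i 0 + 1).size := fun i =>
    PU.size ((h i).add (PTime.const 1))
  exact ((((((PU.min_left hp (h 0)).add (hs 1)).add (hs 2)).add (hs 3)).add (hs 4)).add
    (hs 5)).add (PU.min_left (hp.add (PU.const 1))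
      ((((h 3).add (h 2)).sub (PTime.const 1)).div (h 2)))

theorem ptime_outL : PTime fun p : (ℕ × ℕ) × Un => outL p.1 p.2.val := by
  unfold outL
  have h1 : PTime fun p : (ℕ × ℕ) × Un => p.1.1 := PTime.fst PTime.fst'
  have h2 : PTime fun p : (ℕ × ℕ) × Un => p.1.2 + 1 := (PTime.snd PTime.fst').add (PTime.const 1)
  have hp : PU fun p : (ℕ × ℕ) × Un => p.2.val := PU.val PTime.snd'
  exact consN (PTime.const 1) (consN (PU.size h1).ptime
    (appendN (ptime_enum hp (PU.size h1) h1) (ptime_enum hp (PU.size h2) h2)))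

/-- `Nat.clog 2 (v + 2) = Nat.size (v + 1)`, `⌈ε⁻¹⌉₊ = (den + num - 1) / num`. -/
theorem Sf_eq (n R : ℕ) {ε : ℚ} (δ : ℚ) (hε : 0 < ε) :
    Sf (countInput n R ε δ) (n + ε.den / ε.num.natAbs) = sizeParam n R ε δ := by
  have ha := natAbs_pos hε
  have h1 : (ε.den + ε.num.natAbs - 1) / ε.num.natAbs ≤ ε.den / ε.num.natAbs + 1 := by
    rw [← Nat.add_div_right _ ha]
    exact Nat.div_le_div_right (by omega)
  unfold Sf sizeParam countInput
  simp only [List.getD_cons_zero, List.getD_cons_succ, clog_eq_size, ceil_inv_eq hε]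
  rw [min_eq_right (Nat.le_add_right _ _), min_eq_right (by omega)]

theorem pad_le (n R : ℕ) {ε : ℚ} (δ : ℚ) (hε : 0 < ε) :
    n + ε.den / ε.num.natAbs ≤ sizeParam n R ε δ := by
  have ha := natAbs_pos hε
  have h1 : ε.den / ε.num.natAbs ≤ (ε.den + ε.num.natAbs - 1) / ε.num.natAbs :=
    Nat.div_le_div_right (by omega)
  unfold sizeParam
  rw [ceil_inv_eq hε]
  omega

/-- `sz` of a list of numbers is the sum of `2 * size + 2` (`PTLX.szN`, `length_natCode`). -/
theorem sz_countInput (n R : ℕ) (ε δ : ℚ) :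
    sz (countInput n R ε δ) ≤ 2 * sizeParam n R ε δ + 12 := by
  have h : ∀ v : ℕ, v.size ≤ (v + 1).size := fun v => Nat.size_le_size (Nat.le_succ v)
  have h0 := size_le_self' n
  have h1 := h R
  have h2 := h ε.num.natAbs
  have h3 := h ε.den
  have h4 := h δ.num.natAbs
  have h5 := h δ.den
  rw [PTLX.szN]
  unfold sizeParam countInput PTLX.code
  simp only [clog_eq_size, List.map_cons, List.map_nil, List.flatten_cons, List.flatten_nil,
    List.length_append, length_natCode, List.length_nil]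
  omega

theorem size_le_NN (n R : ℕ) {ε : ℚ} (δ : ℚ) (hε : 0 < ε) :
    sizeParam n R ε δ + 1 ≤ 8 * NN n R ε δ := by
  have h1 := size_le_self' (R + 1)
  have h2 := size_le_self' (ε.num.natAbs + 1)
  have h3 := size_le_self' (ε.den + 1)
  have h4 := size_le_self' (δ.num.natAbs + 1)
  have h5 := size_le_self' (δ.den + 1)
  have h6 : (ε.den + ε.num.natAbs - 1) / ε.num.natAbs ≤ ε.den + ε.num.natAbs - 1 :=
    Nat.div_le_self _ _
  unfold sizeParam NN
  simp only [clog_eq_size, ceil_inv_eq hε]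
  omega

theorem clog_NN_le (n R : ℕ) (ε δ : ℚ) : Nat.clog 2 (NN n R ε δ) ≤ sizeParam n R ε δ + 3 := by
  rw [Nat.clog_le_iff_le_pow (by norm_num)]
  have h : ∀ v : ℕ, Nat.clog 2 (v + 2) ≤ sizeParam n R ε δ → v + 2 ≤ 2 ^ sizeParam n R ε δ :=
    fun v hv => (Nat.clog_le_iff_le_pow (by norm_num)).1 hv
  have h0 : n ≤ 2 ^ sizeParam n R ε δ :=
    Nat.lt_two_pow_self.le.trans (Nat.pow_le_pow_right (by omega) (by unfold sizeParam; omega))
  have h1 := h R (by unfold sizeParam; omega)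
  have h2 := h ε.num.natAbs (by unfold sizeParam; omega)
  have h3 := h ε.den (by unfold sizeParam; omega)
  have h4 := h δ.num.natAbs (by unfold sizeParam; omega)
  have h5 := h δ.den (by unfold sizeParam; omega)
  rw [pow_add]
  unfold NN
  omega

/-- `S + c₀ ℓ + 1 ≤ (8 + c₀) 2 ^ ℓ`; take `c₀` with `c (8 + c₀) ^ c < 2 ^ (c₀ - c)`, `c₀ ≥ c + 2`. -/
theorem exists_c0 (c : ℕ) : ∃ c₀ : ℕ, 2 ≤ c₀ ∧ ∀ ℓ S : ℕ, 1 ≤ ℓ → S + 1 ≤ 8 * 2 ^ ℓ →
    c * (S + c₀ * ℓ + 1) ^ c < 2 ^ (c₀ * ℓ) := by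
  have ht := tendsto_pow_const_div_const_pow_of_one_lt c (r := 2) (by norm_num)
  have hpos : (0 : ℝ) < 1 / ((c + 1) * 2 ^ (8 + c)) := by positivity
  obtain ⟨m, hm⟩ := Filter.eventually_atTop.1 (ht.eventually (gt_mem_nhds hpos))
  have h1 := hm (8 + (c + (m + 2))) (by omega)
  have h2 : c * (8 + (c + (m + 2))) ^ c < 2 ^ (m + 2) := by
    rw [div_lt_div_iff₀ (by positivity) (by positivity), one_mul] at h1
    have h3 : (8 + (c + (m + 2))) ^ c * ((c + 1) * 2 ^ (8 + c)) < 2 ^ (8 + (c + (m + 2))) := by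
      exact_mod_cast h1
    rw [← add_assoc 8 c (m + 2), pow_add 2 (8 + c) (m + 2), ← mul_assoc,
      mul_comm (2 ^ (8 + c))] at h3
    have h4 := Nat.lt_of_mul_lt_mul_right h3
    rw [← add_assoc 8 c (m + 2)]
    calc c * (8 + c + (m + 2)) ^ c ≤ (c + 1) * (8 + c + (m + 2)) ^ c :=
          Nat.mul_le_mul_right _ (by omega)
      _ = (8 + c + (m + 2)) ^ c * (c + 1) := mul_comm _ _
      _ < _ := h4
  refine ⟨c + (m + 2), by omega, fun ℓ S hℓ hS => ?_⟩
  have h5 : S + (c + (m + 2)) * ℓ + 1 ≤ (8 + (c + (m + 2))) * 2 ^ ℓ := by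
    have : (c + (m + 2)) * ℓ ≤ (c + (m + 2)) * 2 ^ ℓ :=
      Nat.mul_le_mul_left _ Nat.lt_two_pow_self.le
    rw [add_mul 8]
    omega
  calc c * (S + (c + (m + 2)) * ℓ + 1) ^ c ≤ c * ((8 + (c + (m + 2))) * 2 ^ ℓ) ^ c :=
        Nat.mul_le_mul_left _ (Nat.pow_le_pow_left h5 _)
    _ = c * (8 + (c + (m + 2))) ^ c * 2 ^ (c * ℓ) := by
        rw [mul_pow, ← pow_mul, mul_comm ℓ c, mul_assoc]
    _ < 2 ^ (m + 2) * 2 ^ (c * ℓ) := Nat.mul_lt_mul_of_pos_right h2 (by positivity)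
    _ ≤ 2 ^ ((c + (m + 2)) * ℓ) := by
        rw [← pow_add]
        refine Nat.pow_le_pow_right (by omega) ?_
        have : m + 2 ≤ (m + 2) * ℓ := Nat.le_mul_of_pos_right _ hℓ
        rw [add_mul c]
        omega

theorem decode_outL (v : ℕ × ℕ) {W : ℕ} (hW : 1 ≤ W) :
    decodeRat W (outL v W).tail = some ((v.1 : ℚ) / ((v.2 : ℚ) + 1)) := by
  unfold outL
  rw [List.tail_cons, decodeRat, List.take_left' (length_enum _ _ _),
    List.drop_left' (length_enum _ _ _), wordsVal_enum_size hW, wordsVal_enum_size hW,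
    if_neg (Nat.succ_ne_zero _)]
  push_cast
  rfl

theorem outL_lt (v : ℕ × ℕ) {W : ℕ} (h : (outL v W).length ≤ 2 ^ W) :
    ∀ a ∈ outL v W, a < 2 ^ W := by
  have he : ∀ n i : ℕ, ∀ a ∈ enum W n i, a < 2 ^ W := fun n i a ha => by
    unfold enum at ha
    obtain ⟨j, -, rfl⟩ := List.mem_map.1 ha
    exact Nat.mod_lt _ (by positivity)
  unfold outL at h ⊢
  simp only [List.length_cons, List.length_append, length_enum] at h
  intro a ha
  simp only [List.mem_cons, List.mem_append] at ha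
  rcases ha with rfl | rfl | ha | ha
  · omega
  · omega
  · exact he _ _ a ha
  · exact he _ _ a ha

end Crest.Agent.R302.RN
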