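import Crest.Agent.R302.RamS
import Crest.Agent.R309.RamB

/-! Row 302: the prologue of the oracle word-RAM driver and the whole run. -/

set_option autoImplicit false
set_option linter.unusedSimpArgs false

namespace Crest.Agent.R302.RO

open Crest.Agent.PT Crest.Agent.R309 Crest.Agent.R309.RW Crest.Agent.R309.RB Function

/-- the prologue: input code on stack `0`, padding on stack `2`, word length on stack `3` -/
def pre (R : ℕ) : W := .seq (.ops [.const 13 2, .load 15 13, .const 13 3, .load 16 13,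
    .quot 15 16 15, .load 14 12, .add 15 15 14, .const 17 1])
  (.seq (pro R) (.seq (.ops [.add 9 9 14, .copy 20 8, .copy 3 9])
    (.seq (ploop 15 2 (.const 5 1) (.sub 15 15 6)) (ploop 17 3 (.const 5 1) (.add 17 17 17)))))

theorem pre_ok {R N : ℕ} (hR : 11 ≤ R) (h : R + 20 ≤ N) : (pre R).ok N := by
  refine ⟨?_, pro_ok h, ?_, ?_, ?_⟩ <;> simp [W.ok, ploop, pushB, Op.mx] <;> omega

theorem nw_pro (R : ℕ) {d : ℕ} (hd : 14 ≤ d ∧ d < 20) : nw d (pro R) := by
  simp only [pro, pout, pin, emit, nw, List.mem_map, List.mem_range, forall_exists_index, and_imp]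
  simp [opnw]
  refine ⟨by omega, by omega, by omega, fun o j => by omega⟩

theorem pre_we {w : ℕ} {ρ : ℕ → ℕ} {R : ℕ} (hR : 11 ≤ R) (hw2 : 2 ≤ w) (n r a b c d : ℕ)
    (hx : ∀ v ∈ [n, r, a, b, c, d], v < 2 ^ w)
    (hw : 2 * (7 + (codeN [n, r, a, b, c, d]).length + n + (n + b / a) + w) < 2 ^ w) :
    ∃ s', WE w ρ (pre R) (s0 w [n, r, a, b, c, d]) s'
        (8 * (codeN [n, r, a, b, c, d]).length + R + 9 * (n + b / a) + 9 * w + 21) ∧
      Inv R (6 + (codeN [n, r, a, b, c, d]).length) (6 + (codeN [n, r, a, b, c, d]).length + 1 + n)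
        (codeN [n, r, a, b, c, d]) s' (stL [codeN [n, r, a, b, c, d], [],
          List.replicate (n + b / a) true, List.replicate w true, [], [], [], [], [], [], []]) ∧
      s'.k = 0 ∧ s'.R 3 = 7 + (codeN [n, r, a, b, c, d]).length + n + (n + b / a) + w := by
  generalize he : b / a = e at *
  have h4 : 4 ≤ 2 ^ w := (Nat.pow_le_pow_right (by omega) hw2 : 2 ^ 2 ≤ 2 ^ w)
  have m1 : 1 % 2 ^ w = 1 := Nat.mod_eq_of_lt (by omega)
  have m2 : 2 % 2 ^ w = 2 := Nat.mod_eq_of_lt (by omega)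
  have m3 : 3 % 2 ^ w = 3 := Nat.mod_eq_of_lt (by omega)
  have m6 : 6 % 2 ^ w = 6 := Nat.mod_eq_of_lt (by omega)
  have mn : n % 2 ^ w = n := Nat.mod_eq_of_lt (hx _ (by simp))
  have ma : a % 2 ^ w = a := Nat.mod_eq_of_lt (hx _ (by simp))
  have mb : b % 2 ^ w = b := Nat.mod_eq_of_lt (hx _ (by simp))
  have mp : (e + n) % 2 ^ w = n + e := by rw [Nat.mod_eq_of_lt (by omega)]; omega
  generalize hxx : [n, r, a, b, c, d] = x at *
  have hl : x.length = 6 := by rw [← hxx]; rfl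
  generalize hs1 : effs w ρ [.const 13 2, .load 15 13, .const 13 3, .load 16 13,
    .quot 15 16 15, .load 14 12, .add 15 15 14, .const 17 1] (s0 w x) = s1
  have f0 : s1.R 0 = x.length ∧ s1.R 10 = 0 ∧ s1.R 12 = 0 ∧ s1.R 14 = n ∧ s1.R 15 = n + e ∧
      s1.R 17 = 1 := by
    rw [← hs1, ← hxx]
    simp [effs, Op.eff, s0, m1, m2, m3, m6, mn, ma, mb, he, mp]
  have f1 : s1.M = (s0 w x).M := by rw [← hs1]; rfl
  have f2 : s1.k = 0 := by rw [← hs1]; rfl
  obtain ⟨s2, a1, a2, a3⟩ := pro_we (ρ := ρ) (x := x) hw2 (by omega) R (s := s1) f0.1 f0.2.1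
    f0.2.2.1 (fun i hi => by
      rw [f1]
      simp only [s0, List.getD_eq_getElem?_getD, List.getElem?_eq_getElem hi, Option.getD_some]
      exact Nat.mod_eq_of_lt (hx _ (List.getElem_mem hi))) f2
  have g14 : s2.R 14 = n := (frame a1 (nw_pro R (by omega))).trans f0.2.2.2.1
  have g15 : s2.R 15 = n + e := (frame a1 (nw_pro R (by omega))).trans f0.2.2.2.2.1
  have g17 : s2.R 17 = 1 := (frame a1 (nw_pro R (by omega))).trans f0.2.2.2.2.2
  rw [hl] at a2
  have m7 : (6 + (codeN x).length + 1 + n) % 2 ^ w = 6 + (codeN x).length + 1 + n :=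
    Nat.mod_eq_of_lt (by omega)
  generalize hs3 : effs w ρ [.add 9 9 14, .copy 20 8, .copy 3 9] s2 = s3
  have b3 : s3.R 3 = 6 + (codeN x).length + 1 + n := by
    rw [← hs3]; simp [effs, Op.eff, a2.base, g14, m7]
  have b15 : s3.R 15 = n + e := by rw [← hs3]; simp [effs, Op.eff, g15]
  have b17 : s3.R 17 = 1 := by rw [← hs3]; simp [effs, Op.eff, g17]
  have bk : s3.k = 0 := by rw [← hs3]; exact a3
  have b1 : Inv R (6 + (codeN x).length) (6 + (codeN x).length + 1 + n) (codeN x) s3 (st0 x) := by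
    have hk : Rep s2.M (6 + (codeN x).length) (6 + (codeN x).length + 1 + n) (s2.R 8) (codeN x) :=
      a2.keep.mono (by omega) fun _ _ => rfl
    rw [← hs3]
    refine ⟨?_, ?_, ?_, ?_, ?_, by omega, ?_, ?_, fun j hj => ?_⟩
    · simp [effs, Op.eff, a2.one]
    · simp [effs, Op.eff, a2.two]
    · simp [effs, Op.eff, a2.zero]
    · simp [effs, Op.eff, a2.nil]
    · simp [effs, Op.eff, a2.base, g14, m7]
    · simp [effs, Op.eff, a2.base, g14, m7]
    · simpa [effs, Op.eff] using hk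
    · by_cases e' : j = 0
      · subst e'
        simpa [effs, Op.eff, a2.base, g14, m7, st0] using hk
      · have := a2.rep j hj
        simpa [effs, Op.eff, st0, e', RW.Rep] using this
  obtain ⟨s4, c1, c2, c3, c4⟩ := ploop_we (w := w) (ρ := ρ) (c := 15) (r := 2) (o1 := .const 5 1)
    (o2 := .sub 15 15 6) (β := fun _ => true) (g := fun v => v - 1) (by omega) (by omega)
    (fun s _ _ => by simp [Op.eff, m1]) (fun s h6 _ => by simp [Op.eff, h6]) (n + e) _ _ b1
    (by rw [b15]; exact stops_pred _) (by omega)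
  have c17 : s4.R 17 = 1 :=
    (frame c1 (by simp [ploop, pushB, nw, opnw])).trans b17
  obtain ⟨s5, d1, d2, d3, d4⟩ := ploop_we (w := w) (ρ := ρ) (c := 17) (r := 3) (o1 := .const 5 1)
    (o2 := .add 17 17 17) (β := fun _ => true) (g := fun v => (v + v) % 2 ^ w) (by omega)
    (by omega) (fun s _ _ => by simp [Op.eff, m1]) (fun s _ _ => by simp [Op.eff]) w _ _ c2
    (by have := stops_dbl w w 0 (by omega); rwa [pow_zero, m1, ← c17] at this) (by omega)
  refine ⟨s5, ((WE.ops _ _).seq (hs1 ▸ a1.seq ((WE.ops _ _).seq (hs3 ▸ c1.seq d1)))).mono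
    (by simp; omega), ?_, by rw [d3, c3, bk], by omega⟩
  rw [orb_true, orb_true, st0_eq, upd_stL (by simp), upd_stL (by simp)] at d2
  simpa [stL] using d2

/-- the whole program -/
def whole (R : ℕ) (rp : RP) (q : OP) : V :=
  .seq (.base (pre R)) (.seq (.base (trn rp)) (.seq (tro q) (.base epi)))

theorem whole_ok {R N : ℕ} {rp : RP} {q : OP} (hR : 11 ≤ R) (h1 : mxs rp < R) (h2 : mxo q < R)
    (h : R + 20 ≤ N) : (whole R rp q).ok N :=
  ⟨pre_ok hR h, trn_ok rp (by omega), tro_ok q (by omega), epi_ok (by omega)⟩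

theorem whole_ve {w : ℕ} {ρ : ℕ → ℕ} {R : ℕ} {rp : RP} {q : OP} (hR : 11 ≤ R) (h1 : mxs rp < R)
    (h2 : mxo q < R) (hw2 : 2 ≤ w) {n r a b c d : ℕ} {O : Bool → Finset (Fin n) → ℕ}
    (hO : ∀ b A, O b A < 2 ^ w) (hx : ∀ v ∈ [n, r, a, b, c, d], v < 2 ^ w)
    {σ σ' : St} {k t t' : ℕ} {out : List ℕ}
    (e1 : RExec (fun i => (ρ i).bodd) rp (stL [codeN [n, r, a, b, c, d], [],
      List.replicate (n + b / a) true, List.replicate w true, [], [], [], [], [], [], []], 0)
      (σ, k) t)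
    (e2 : OExec (oW n O) q σ σ' t') (h0 : σ 1 = []) (hσ : σ' 1 = codeN out)
    (hv : out.length ≤ 2 ^ w → ∀ v ∈ out, v < 2 ^ w)
    (hw : 2 * (8 + (codeN [n, r, a, b, c, d]).length + 2 * n + (n + b / a) + w + t + 2 * t') <
      2 ^ w) :
    ∃ s', VE n O w ρ (whole R rp q) (s0 w [n, r, a, b, c, d]) s'
        (8 * (codeN [n, r, a, b, c, d]).length + R + 9 * (n + b / a) + 9 * w + 24 + 7 * t +
          (9 * n + 23) * t') ∧
      ((List.range (s'.R 0)).map fun i => s'.M (s'.R 1 + i)) = out.tail := by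
  obtain ⟨s1, a1, a2, a3, a4⟩ := pre_we (ρ := ρ) hR hw2 n r a b c d hx (by omega)
  obtain ⟨s2, b1, b2, -, b4⟩ := sim hw2 e1 s1 h1 a2 a3 (by omega)
  obtain ⟨s3, c1, c2, -, c4⟩ := sim2 (ρ := ρ) hw2 hO le_rfl e2 s2 h2 b2 (by omega)
  have hl := oexec_length_le e2 1
  rw [h0, hσ, List.length_nil, zero_add] at hl
  have hl2 := two_length_le out
  obtain ⟨s4, d1, d2⟩ := epi_we (ρ := ρ) c2 (by omega) hσ (hv (by omega)) (by omega)
  refine ⟨s4, ((VE.base a1).seq ((VE.base b1).seq (c1.seq (VE.base d1)))).mono ?_, d2⟩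
  rw [show 9 * n + 23 = 9 * n + 16 + 7 by omega, add_mul (9 * n + 16)]
  omega

end Crest.Agent.R302.RO
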