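import Crest.Agent.R302.OTL
import Crest.Agent.R302.RamP
import Crest.Agent.R302.RamNum
import Crest.Agent.R309.RamCAux
import Crest.Prelude.Def_OracleRAM
import Crest.Prelude.Def_Polymatroid

/-! Row 302: oracle polynomial time on the oracle word RAM. -/

set_option autoImplicit false

namespace Crest.Agent.R302

open Crest.Agent.PT Crest.Agent.R309 Crest.Polymatroid Crest.OracleRAM

namespace RO

open Crest.Agent.R309.RW Crest.Agent.R309.RB Crest.Agent.R302.RN Function

/-- the run as a function of the low bits of the random words -/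
theorem ram_run (F : Orc × List ℕ × Un × Word → ℕ × ℕ) (hF : OT F) (L : ℕ → ℕ)
    (hL : PU fun u : Un => L u.val) :
    ∃ (P : OProgram) (c : ℕ), ∀ (n r a b c' d S w T : ℕ) (O : Bool → Finset (Fin n) → ℕ) (o : Orc),
      2 ≤ w → (∀ b A, O b A < 2 ^ w) → (∀ v ∈ [n, r, a, b, c', d], v < 2 ^ w) → o.f = oW n O →
      o.b = S → Sf [n, r, a, b, c', d] (n + b / a) = S → n + b / a ≤ S →
      sz [n, r, a, b, c', d] ≤ 2 * S + 12 → c * (S + w + 1) ^ c < 2 ^ w →
      c * (S + w + 1) ^ c ≤ T → L S ≤ T ∧ ∀ ρ : ℕ → ℕ,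
        (orun P n O w ρ [n, r, a, b, c', d] T).cfg.halted = true ∧
        (orun P n O w ρ [n, r, a, b, c', d] T).cfg.output =
          (outL (F (o, [n, r, a, b, c', d], ⟨S⟩, bitsAt (fun i => (ρ i).bodd) 0 (L S))) w).tail := by
  have hG : OT fun a : (Orc × List ℕ × Un × Word) × Un => outL (F a.1) a.2.val :=
    OT.map (E := fun p : ((Orc × List ℕ × Un × Word) × Un) × (ℕ × ℕ) => outL p.2 p.1.2.val)
      (ptime_outL.comp (f := fun p : ((Orc × List ℕ × Un × Word) × Un) × (ℕ × ℕ) => (p.2, p.1.2))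
        (by fun_prop)) (hF.pre PTime.fst' fun _ => rfl)
  obtain ⟨T1, ⟨q1, hq1⟩, h1⟩ := PU.word_iff.1 pu_Sf ()
  obtain ⟨T2, ⟨q2, hq2⟩, h2⟩ := PU.word_iff.1 hL ()
  obtain ⟨T3, ⟨q3, hq3⟩, h3⟩ := hG ()
  obtain ⟨qL, hqL⟩ := hL.pb
  obtain ⟨p1, hp1⟩ := h1 (Sum.elim (fun _ => 0) (fun _ => 2)) 4 11
    (by rintro (i | i) <;> simp) (by simp) (by rintro (i | i) <;> simp)
  obtain ⟨p2, hp2⟩ := h2 (fun _ => 4) 5 11 (by simp) (by simp) (by simp)
  obtain ⟨p3, hp3⟩ := h3 (Sum.elim (Sum.elim (fun _ => 4) (Sum.elim (fun _ => 0)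
    (Sum.elim (fun _ => 4) (fun _ => 7)))) (fun _ => 3)) 1 11
    (by rintro ((i | i | i | i) | i) <;> simp) (by simp) (by rintro ((i | i | i | i) | i) <;> simp)
  obtain ⟨rp, hrp⟩ : ∃ rp : RP, rp = .seq (emb p1) (.seq (emb p2) (.seq (drawP 5 6)
    (emb (move1 6 7)))) := ⟨_, rfl⟩
  obtain ⟨R, hR⟩ : ∃ R, R = mxs rp + mxo p3 + 11 := ⟨_, rfl⟩
  have hH : PB fun u : Un => q1.eval (3 * sz u + 12) + q2.eval (sz u) + qL.eval (sz u) +
      q3.eval (5 * sz u + 12 + qL.eval (sz u)) + sz u + (R + 20) :=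
    (((((((PB.const 3).mul PB.sz).add (PB.const 12)).eval q1).add (PB.sz.eval q2)).add
      (PB.sz.eval qL)).add (((((PB.const 5).mul PB.sz).add (PB.const 12)).add
        (PB.sz.eval qL)).eval q3)).add PB.sz |>.add (PB.const _)
  obtain ⟨c, hc⟩ := pb_le ((((PB.const 23).mul PB.sz).add (PB.const 123)).mul hH)
  refine ⟨prog (R + 20) (whole R rp p3), c,
    fun n r a b c' d S w T O o hw2 hO hx hof hob hS hpad hsz hw hT => ?_⟩
  have hc' := hc ⟨S + w⟩
  simp only [sz_un] at hc'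
  have hLS : L S ≤ qL.eval (S + w) := (hqL ⟨S⟩).trans (eval_mono qL (by simp))
  have hcx : (codeN [n, r, a, b, c', d]).length ≤ 2 * S + 12 := by
    have : sz [n, r, a, b, c', d] = (codeN [n, r, a, b, c', d]).length := by
      show ∑ _ : Unit, (codeN [n, r, a, b, c', d]).length = _
      simp
    rwa [this] at hsz
  have ht1 : T1 ([n, r, a, b, c', d], ⟨n + b / a⟩) ≤ q1.eval (3 * (S + w) + 12) :=
    (hq1 _).trans (eval_mono q1 (by rw [sz_prod, sz_un]; simp only; omega))
  have ht2 : T2 ⟨S⟩ ≤ q2.eval (S + w) := (hq2 _).trans (eval_mono q2 (by simp))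
  have ht3 : ∀ ω : Word, ω.length = L S → T3 ((o, [n, r, a, b, c', d], ⟨S⟩, ω), ⟨w⟩) ≤
      q3.eval (5 * (S + w) + 12 + qL.eval (S + w)) := fun ω hω =>
    (hq3 _).trans (eval_mono q3 (by
      rw [sz_prod, sz_prod, sz_prod, sz_prod, sz_orc, sz_un, sz_un, sz_word]; simp only; omega))
  generalize q1.eval (3 * (S + w) + 12) = B1 at *
  generalize q2.eval (S + w) = B2 at *
  generalize q3.eval (5 * (S + w) + 12 + qL.eval (S + w)) = B3 at *
  generalize qL.eval (S + w) = BL at *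
  have hsplit : (23 * (S + w) + 123) * (B1 + B2 + BL + B3 + (S + w) + (R + 20)) =
      (23 * (S + w) + 23) * (B1 + B2 + BL + B3 + (S + w) + (R + 20)) +
        100 * (B1 + B2 + BL + B3 + (S + w) + (R + 20)) := by ring
  refine ⟨by omega, fun ρ => ?_⟩
  generalize hω : bitsAt (fun i => (ρ i).bodd) 0 (L S) = ω
  have hωl : ω.length = L S := by rw [← hω]; exact RB.length_bitsAt _ _ _
  generalize hxx : [n, r, a, b, c', d] = x at hS ht1 ht3 hsz
  have hge : ∀ l : List Word, l.length = 11 → ∀ r, 11 ≤ r → stL l r = [] :=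
    fun l hl r hr => stL_ge (by omega)
  obtain ⟨t1, ht1', e1⟩ := hp1 (x, ⟨n + b / a⟩) (stL [codeN x, [], List.replicate (n + b / a) true,
    List.replicate w true, [], [], [], [], [], [], []]) (by rintro (i | i) <;> rfl) rfl (hge _ rfl)
  rw [upd_stL (by simp)] at e1
  simp only [hS, List.set_cons_succ, List.set_cons_zero] at e1
  obtain ⟨t2, ht2', e2⟩ := hp2 ⟨S⟩ (stL [codeN x, [], List.replicate (n + b / a) true,
    List.replicate w true, List.replicate S true, [], [], [], [], [], []]) (fun _ => rfl) rfl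
    (hge _ rfl)
  rw [upd_stL (by simp)] at e2
  have e3 : RExec (fun i => (ρ i).bodd) (drawP 5 6)
      (stL [codeN x, [], List.replicate (n + b / a) true, List.replicate w true,
        List.replicate S true, List.replicate (L S) true, [], [], [], [], []], 0)
      (stL [codeN x, [], List.replicate (n + b / a) true, List.replicate w true,
        List.replicate S true, [], ω.reverse, [], [], [], []], L S) (3 * L S + 1) := by
    have := draw_exec (fun i => (ρ i).bodd) (r := 5) (u := 6) (by omega)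
      (stL [codeN x, [], List.replicate (n + b / a) true, List.replicate w true,
        List.replicate S true, List.replicate (L S) true, [], [], [], [], []]) 0
    rw [upd_stL (by simp), upd_stL (by simp)] at this
    simpa [stL, hω] using this
  obtain ⟨t4, ht4, e4⟩ : Run (move1 6 7) (stL [codeN x, [], List.replicate (n + b / a) true,
      List.replicate w true, List.replicate S true, [], ω.reverse, [], [], [], []])
      (stL [codeN x, [], List.replicate (n + b / a) true, List.replicate w true,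
        List.replicate S true, [], [], ω, [], [], []]) (4 * L S + 1) := by
    have := run_move1 (r := 6) (u := 7) (by omega) (stL [codeN x, [],
      List.replicate (n + b / a) true, List.replicate w true, List.replicate S true, [], ω.reverse,
      [], [], [], []])
    rw [upd_stL (by simp), upd_stL (by simp)] at this
    simpa [stL, hωl] using this
  obtain ⟨t5, ht5, e5⟩ := hp3 ((o, x, ⟨S⟩, ω), ⟨w⟩) (stL [codeN x, [],
    List.replicate (n + b / a) true, List.replicate w true, List.replicate S true, [], [], ω, [], [],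
    []]) (by
      rintro ((i | i | i | i) | i)
      · exact congrArg (fun k => List.replicate k true) hob.symm
      all_goals rfl) rfl (hge _ rfl)
  have e5' : OExec (oW n O) p3 _ _ t5 := hof ▸ e5
  have e6 := (emb_exec (fun i => (ρ i).bodd) 0 e1).seq ((emb_exec _ 0 e2).seq
    (e3.seq (emb_exec _ _ e4)))
  rw [← hrp] at e6
  have ht5' := ht5.trans (ht3 ω hωl)
  subst hxx
  have hn : n ≤ S := le_trans (Nat.le_add_right _ _) hpad
  have hK : (9 * n + 23) * t5 ≤ (23 * (S + w) + 23) * (B1 + B2 + BL + B3 + (S + w) + (R + 20)) :=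
    Nat.mul_le_mul (by omega) (by omega)
  obtain ⟨s', f1, f2⟩ := whole_ve (R := R) (by omega) (by omega) (by omega) hw2 hO hx e6 e5' rfl
    (out := outL (F (o, [n, r, a, b, c', d], ⟨S⟩, ω)) w) (update_self _ _ _) (outL_lt _)
    (by omega)
  rw [← f2]
  exact orun_of_ve f1 (whole_ok (by omega) (by omega) (by omega) le_rfl) (by omega) (by omega)

end RO

open RO RN in
theorem ram_main (F : Orc × List ℕ × Un × Word → ℕ × ℕ) (hF : OT F) (L : ℕ → ℕ)
    (hL : PU fun u : Un => L u.val) :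
    ∃ (P : OProgram) (c₀ C d : ℕ), ∀ (n R : ℕ) (ε δ : ℚ) (O : Bool → Finset (Fin n) → ℕ) (o : Orc)
      (z : Word → ℚ), 0 < ε → 0 < δ → (∀ b A, O b A ≤ R + 1) → o.f = oW n O →
      o.b = sizeParam n R ε δ →
      (∀ ω, z ω = ((F (o, countInput n R ε δ, ⟨sizeParam n R ε δ⟩, ω)).1 : ℚ) /
        (((F (o, countInput n R ε δ, ⟨sizeParam n R ε δ⟩, ω)).2 : ℚ) + 1)) →
      (∀ ρ : ℕ → ℕ, (orun P n O
          (c₀ * Nat.clog 2 (n + R + ε.num.natAbs + ε.den + δ.num.natAbs + δ.den + 2)) ρ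
          (countInput n R ε δ) (C * (sizeParam n R ε δ + 1) ^ d)).cfg.halted = true ∧
        ∃ ω : Word, decodeRat
          (c₀ * Nat.clog 2 (n + R + ε.num.natAbs + ε.den + δ.num.natAbs + δ.den + 2))
          (orun P n O
            (c₀ * Nat.clog 2 (n + R + ε.num.natAbs + ε.den + δ.num.natAbs + δ.den + 2)) ρ
            (countInput n R ε δ) (C * (sizeParam n R ε δ + 1) ^ d)).cfg.output = some (z ω)) ∧
      ∀ E : ℚ → Prop, oprobAfter P n O
          (c₀ * Nat.clog 2 (n + R + ε.num.natAbs + ε.den + δ.num.natAbs + δ.den + 2))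
          (countInput n R ε δ) (C * (sizeParam n R ε δ + 1) ^ d)
          (fun c => ∃ y : ℚ, decodeRat
            (c₀ * Nat.clog 2 (n + R + ε.num.natAbs + ε.den + δ.num.natAbs + δ.den + 2))
            c.cfg.output = some y ∧ E y) =
        Pr (L (sizeParam n R ε δ)) fun ω => E (z ω) := by
  classical
  obtain ⟨P, c, hP⟩ := ram_run F hF L hL
  obtain ⟨c₀, hc₀, hc⟩ := exists_c0 c
  refine ⟨P, c₀, c * (1 + 3 * c₀) ^ c, c, fun n R ε δ O o z hε hδ hO hof hob hz => ?_⟩
  have hN : NN n R ε δ ≤ 2 ^ Nat.clog 2 (NN n R ε δ) := Nat.le_pow_clog (by omega) _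
  have hℓ : 1 ≤ Nat.clog 2 (NN n R ε δ) := Nat.clog_pos (by omega) (by unfold NN; omega)
  have hS := size_le_NN n R δ hε
  have hℓS := clog_NN_le n R ε δ
  have hw := hc _ (sizeParam n R ε δ) hℓ (by omega)
  have hden := ε.den_pos
  unfold NN at hN hℓ hS hℓS hw
  generalize Nat.clog 2 (n + R + ε.num.natAbs + ε.den + δ.num.natAbs + δ.den + 2) = ℓ at *
  have hℓw : ℓ ≤ c₀ * ℓ := Nat.le_mul_of_pos_left _ (by omega)
  have hw2 : 2 ≤ c₀ * ℓ := hc₀.trans (Nat.le_mul_of_pos_right _ hℓ)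
  have hpow : 2 ^ ℓ ≤ 2 ^ (c₀ * ℓ) := Nat.pow_le_pow_right (by omega) hℓw
  have hT : c * (sizeParam n R ε δ + c₀ * ℓ + 1) ^ c ≤
      c * (1 + 3 * c₀) ^ c * (sizeParam n R ε δ + 1) ^ c := by
    rw [mul_assoc, ← mul_pow]
    refine Nat.mul_le_mul_left _ (Nat.pow_le_pow_left ?_ _)
    have := Nat.mul_le_mul_left c₀ hℓS
    nlinarith [Nat.zero_le (c₀ * sizeParam n R ε δ)]
  obtain ⟨hLT, hrun⟩ := hP n R ε.num.natAbs ε.den δ.num.natAbs δ.den (sizeParam n R ε δ) (c₀ * ℓ)
    _ O o hw2 (fun b A => by have := hO b A; omega)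
    (fun v hv => by simp only [List.mem_cons, List.not_mem_nil, or_false] at hv; omega) hof hob
    (Sf_eq n R δ hε) (pad_le n R δ hε) (sz_countInput n R ε δ) hw hT
  have hdec : ∀ ρ : ℕ → ℕ, decodeRat (c₀ * ℓ) (orun P n O (c₀ * ℓ) ρ (countInput n R ε δ)
      (c * (1 + 3 * c₀) ^ c * (sizeParam n R ε δ + 1) ^ c)).cfg.output =
      some (z (bitsAt (fun i => (ρ i).bodd) 0 (L (sizeParam n R ε δ)))) := fun ρ => by
    rw [hz]
    exact (congrArg _ (hrun ρ).2).trans (decode_outL _ (by omega))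
  refine ⟨fun ρ => ⟨(hrun ρ).1, _, hdec ρ⟩, fun E => ?_⟩
  have h1 := RamC.EW_bits (w := c₀ * ℓ) (by omega) (L (sizeParam n R ε δ))
    fun ω => if E (z ω) then 1 else 0
  rw [← RamC.EW_ext _ _ _ _ hLT fun ρ ρ' h => by
    have : bitsAt (fun i => (ρ i).bodd) 0 (L (sizeParam n R ε δ)) =
        bitsAt (fun i => (ρ' i).bodd) 0 (L (sizeParam n R ε δ)) :=
      List.map_congr_left fun i hi => congrArg Nat.bodd (h _ (by simpa using hi))
    rw [this]] at h1
  refine Eq.trans ?_ h1
  unfold oprobAfter Crest.FinProb.uniformProb RamC.EW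
  simp only [hdec, Option.some.injEq, exists_eq_left', Fintype.card_fun, Fintype.card_fin,
    Finset.sum_boole, Set.mem_ofPred_eq]
  push_cast
  congr

end Crest.Agent.R302
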