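import Crest.Agent.R302.RamW
import Crest.Agent.R302.ODefs
import Crest.Agent.R309.RamP

/-! Row 302: oracle stack programs simulated by structured word programs with queries. -/

set_option autoImplicit false
set_option linter.unusedSimpArgs false

namespace Crest.Agent.R302.RO

open Crest.Agent.PT Crest.Agent.R309 Crest.Agent.R309.RW Function

section
variable {w : ℕ} {ρ : ℕ → ℕ} {R nl h0 : ℕ} {cx : Word}

theorem inv_of {s s' : S} {σ : St} (h : Inv R nl h0 cx s σ)
    (e : ∀ i, (i = 2 ∨ i = 3 ∨ i = 6 ∨ i = 7 ∨ i = 8 ∨ i = 9 ∨ i = 12 ∨ 20 ≤ i) → s'.R i = s.R i)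
    (hM : ∀ a < s.R 3, s'.M a = s.M a) : Inv R nl h0 cx s' σ := by
  refine ⟨?_, ?_, ?_, ?_, ?_, h.lt, ?_, ?_, fun j hj => ?_⟩
  · rw [e _ (by omega)]; exact h.one
  · rw [e _ (by omega)]; exact h.two
  · rw [e _ (by omega)]; exact h.zero
  · rw [e _ (by omega)]; exact h.nil
  · rw [e _ (by omega)]; exact h.base
  · rw [e _ (by omega)]; exact h.le
  · rw [e _ (by omega)]; exact h.keep.mono le_rfl fun a ha => hM a (ha.trans_le h.le)
  · rw [e 3 (by omega), e (j + 20) (by omega)]; exact (h.rep j hj).mono le_rfl hM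

end

/-- the bits read along an orbit -/
def orb (β : ℕ → Bool) (g : ℕ → ℕ) : ℕ → ℕ → Word
  | 0, _ => []
  | m + 1, v => β v :: orb β g m (g v)

/-- the orbit reaches `0` after exactly `m` steps -/
def Stops (g : ℕ → ℕ) : ℕ → ℕ → Prop
  | 0, v => v = 0
  | m + 1, v => v ≠ 0 ∧ Stops g m (g v)

theorem orb_true (g : ℕ → ℕ) : ∀ m v, orb (fun _ => true) g m v = List.replicate m true
  | 0, _ => rfl
  | m + 1, v => by rw [orb, orb_true g m, List.replicate_succ]

theorem stops_pred : ∀ m : ℕ, Stops (fun v => v - 1) m m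
  | 0 => rfl
  | m + 1 => ⟨by omega, stops_pred m⟩

theorem stops_dbl (w : ℕ) : ∀ m i : ℕ, i + m = w → Stops (fun v => (v + v) % 2 ^ w) m (2 ^ i % 2 ^ w)
  | 0, i, h => by
    rw [show i = w by omega]; exact Nat.mod_self _
  | m + 1, i, h => by
    have h1 : 2 ^ i % 2 ^ w = 2 ^ i := Nat.mod_eq_of_lt (Nat.pow_lt_pow_right (by omega) (by omega))
    refine ⟨by rw [h1]; positivity, ?_⟩
    have := stops_dbl w m (i + 1) (by omega)
    rw [h1]
    show Stops _ m ((2 ^ i + 2 ^ i) % 2 ^ w)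
    rwa [← two_mul, ← pow_succ']

theorem bits_pos {v : ℕ} (h : v ≠ 0) : v.bits = v.bodd :: (v / 2).bits := by
  conv_lhs => rw [← Nat.bit_bodd_div2 v]
  rw [Nat.bits_append_bit, Nat.div2_val]
  intro h0
  have h1 := Nat.bodd_add_div2 v
  rw [h0] at h1
  cases hb : v.bodd
  · rw [hb] at h1; simp at h1; omega
  · rfl

theorem orb_bits (v : ℕ) : Stops (fun v => v / 2) v.bits.length v ∧
    orb Nat.bodd (fun v => v / 2) v.bits.length v = v.bits := by
  induction v using Nat.strong_induction_on with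
  | _ v ih =>
  by_cases h : v = 0
  · subst h; exact ⟨rfl, rfl⟩
  · obtain ⟨h1, h2⟩ := ih (v / 2) (by omega)
    rw [bits_pos h, List.length_cons]
    exact ⟨⟨h, h1⟩, by rw [orb, h2]⟩

/-- push one bit on stack `r` for every value of register `c` along its orbit -/
def ploop (c r : ℕ) (o1 o2 : Op) : W := .whileNe c 12 (.ops (o1 :: (pushB r ++ [o2])))

/-- read one bit of the list at register `10` into register `5` -/
def pk : W := .ifEq 10 2 (.ops [.const 5 0]) (.ops [.load 4 10, .rem 5 4 7, .quot 10 4 7])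

/-- write the bits of the list at register `10` into the cells from `R 13` to `R 14` -/
def fill : W := .whileNe 13 14 (.seq pk (.ops [.store 5 13, .add 13 13 6]))

/-- prepare a query -/
def prep (r : ℕ) : W := .seq (.ops [.copy 10 (r + 20)]) (.seq pk
  (.seq (.ops [.copy 11 5, .copy 13 3, .sub 14 9 2, .sub 14 14 6, .add 14 14 3]) fill))

/-- the oracle instruction -/
def askV (r u : ℕ) : V := .seq (.base (prep r)) (.seq
  (.ifEq 11 12 (.query false 3 11) (.query true 3 11))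
  (.base (ploop 11 u (.rem 5 11 7) (.quot 11 11 7))))

/-- translation of oracle stack programs -/
def tro : OP → V
  | .skip => .base (.ops [])
  | .push r b => .base (trn (.push r b))
  | .pop r => .base (trn (.pop r))
  | .ask r u => askV r u
  | .seq p q => .seq (tro p) (tro q)
  | .ite r pn pt pf => .ifEq (r + 20) 2 (tro pn)
      (.seq (.base (.ops [.load 4 (r + 20), .rem 4 4 7])) (.ifEq 4 6 (tro pt) (tro pf)))
  | .loop r p => .whileNe (r + 20) 2 (tro p)

/-- the largest stack used -/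
def mxo : OP → ℕ
  | .skip => 0
  | .push r _ => r
  | .pop r => r
  | .ask r u => max r u
  | .seq p q => max (mxo p) (mxo q)
  | .ite r pn pt pf => max r (max (mxo pn) (max (mxo pt) (mxo pf)))
  | .loop r p => max r (mxo p)

theorem tro_ok {N : ℕ} (q : OP) (h : mxo q + 20 ≤ N) : (tro q).ok N := by
  induction q with
  | skip => simp [tro, V.ok, W.ok]
  | push r b => exact trn_ok (.push r b) h
  | pop r => exact trn_ok (.pop r) h
  | ask r u =>
    simp only [mxo] at h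
    simp [tro, askV, prep, fill, pk, ploop, pushB, V.ok, W.ok, Op.mx]; omega
  | seq p q ihp ihq =>
    simp only [mxo] at h
    exact ⟨ihp (by omega), ihq (by omega)⟩
  | ite r pn pt pf h1 h2 h3 =>
    simp only [mxo] at h
    refine ⟨by omega, by omega, h1 (by omega), ?_, by omega, by omega, h2 (by omega), h3 (by omega)⟩
    simp [V.ok, W.ok, Op.mx]; omega
  | loop r p ih =>
    simp only [mxo] at h
    exact ⟨by omega, by omega, ih (by omega)⟩

section
variable {w : ℕ} {ρ : ℕ → ℕ} {R nl h0 : ℕ} {cx : Word}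

theorem ploop_we {c r : ℕ} {o1 o2 : Op} {β : ℕ → Bool} {g : ℕ → ℕ}
    (hc : 10 ≤ c ∧ c < 20 ∧ c ≠ 12) (hr : r < R)
    (h1 : ∀ s : S, s.R 6 = 1 → s.R 7 = 2 →
      o1.eff w ρ s = ⟨update s.R 5 (β (s.R c)).toNat, s.M, s.k⟩)
    (h2 : ∀ s : S, s.R 6 = 1 → s.R 7 = 2 → o2.eff w ρ s = ⟨update s.R c (g (s.R c)), s.M, s.k⟩)
    (m : ℕ) : ∀ (s : S) (σ : St), Inv R nl h0 cx s σ → Stops g m (s.R c) →
      2 * (s.R 3 + m) < 2 ^ w →
      ∃ s', WE w ρ (ploop c r o1 o2) s s' (9 * m + 1) ∧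
        Inv R nl h0 cx s' (update σ r ((orb β g m (s.R c)).reverse ++ σ r)) ∧ s'.k = s.k ∧
        s'.R 3 = s.R 3 + m := by
  induction m with
  | zero =>
    intro s σ hI hS _
    exact ⟨s, WE.whT (hS.trans hI.zero.symm), by simpa [orb] using hI, rfl, rfl⟩
  | succ m ih =>
    intro s σ hI hS hw
    have a1 := hI.scr (Or.inr rfl) (β (s.R c)).toNat s.k
    obtain ⟨a2, a3, a4⟩ := push_inv (w := w) (ρ := ρ) a1 hr (b := β (s.R c)) (by simp)
      (by simp; omega)
    have a5 : (effs w ρ (pushB r) ⟨update s.R 5 (β (s.R c)).toNat, s.M, s.k⟩).R c = s.R c := by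
      rw [effs_frame _ _ (by simp [pushB, opnw]; omega)]
      exact update_of_ne (by omega) _ _
    generalize hs2 : effs w ρ (pushB r) ⟨update s.R 5 (β (s.R c)).toNat, s.M, s.k⟩ = s2 at *
    have e : effs w ρ (o1 :: (pushB r ++ [o2])) s = ⟨update s2.R c (g (s.R c)), s2.M, s2.k⟩ := by
      rw [effs, h1 s hI.one hI.two, effs_append, hs2, effs, effs, h2 s2 a2.one a2.two, a5]
    have a6 : Inv R nl h0 cx ⟨update s2.R c (g (s.R c)), s2.M, s2.k⟩
        (update σ r (β (s.R c) :: σ r)) :=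
      inv_of a2 (fun i hi => update_of_ne (by omega) _ _) (fun _ _ => rfl)
    have a7 : update s2.R c (g (s.R c)) 3 = s.R 3 + 1 := by
      rw [update_of_ne (by omega), a3]; simp
    obtain ⟨s3, b1, b2, b3, b4⟩ := ih _ _ a6 (by simpa using hS.2) (by simp only [a7]; omega)
    refine ⟨s3, (WE.whF (by rw [hI.zero]; exact hS.1) (WE.ops _ s) (e ▸ b1)).mono
      (by simp [pushB]; omega), ?_, b3.trans a4, by simp only [a7] at b4; omega⟩
    simpa [orb] using b2

theorem pk_we {s : S} {h : ℕ} {l : Word} (h2 : s.R 2 = nl) (h7 : s.R 7 = 2)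
    (hl : Rep s.M nl h (s.R 10) l) :
    ∃ s', WE w ρ pk s s' 5 ∧ s'.M = s.M ∧ s'.k = s.k ∧ s'.R 5 = l.headI.toNat ∧
      Rep s.M nl h (s'.R 10) l.tail ∧ ∀ i, i ≠ 4 → i ≠ 5 → i ≠ 10 → s'.R i = s.R i := by
  cases l with
  | nil =>
    refine ⟨_, (WE.ifT (hl.trans h2.symm) (WE.ops _ s)).mono (by simp), rfl, rfl, ?_, ?_, ?_⟩
    · simp [effs, Op.eff]
    · simpa [effs, Op.eff] using hl
    · intro i _ h5 _; simp [effs, Op.eff, h5]
  | cons b l =>
    refine ⟨_, (WE.ifF (by rw [h2]; exact hl.1) (WE.ops _ s)).mono (by simp), rfl, rfl, ?_, ?_, ?_⟩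
    · simpa [effs, Op.eff, h7] using hl.2.2.1
    · simpa [effs, Op.eff, h7] using hl.2.2.2
    · intro i h4 h5 h10; simp [effs, Op.eff, h4, h5, h10]

theorem fill_we {h : ℕ} (m : ℕ) : ∀ (s : S) (l : Word), s.R 2 = nl → s.R 6 = 1 → s.R 7 = 2 →
    Rep s.M nl h (s.R 10) l → h ≤ s.R 13 → s.R 14 = s.R 13 + m → s.R 14 < 2 ^ w →
    ∃ s', WE w ρ fill s s' (9 * m + 1) ∧ s'.k = s.k ∧ (∀ a < s.R 13, s'.M a = s.M a) ∧
      (∀ j < m, s'.M (s.R 13 + j) = (l.getD j false).toNat) ∧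
      ∀ i, i ≠ 4 → i ≠ 5 → i ≠ 10 → i ≠ 13 → s'.R i = s.R i := by
  induction m with
  | zero =>
    intro s l _ _ _ _ _ h14 _
    exact ⟨s, WE.whT h14.symm, rfl, fun _ _ => rfl, fun j hj => by omega, fun _ _ _ _ _ => rfl⟩
  | succ m ih =>
    intro s l h2 h6 h7 hl h13 h14 hw
    obtain ⟨s1, a1, a2, a3, a4, a5, a6⟩ := pk_we (w := w) (ρ := ρ) h2 h7 hl
    have e13 := a6 13 (by omega) (by omega) (by omega)
    have e : effs w ρ [.store 5 13, .add 13 13 6] s1 = ⟨update s1.R 13 (s.R 13 + 1),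
        update s.M (s.R 13) l.headI.toNat, s.k⟩ := by
      simp [effs, Op.eff, a2, a3, a4, e13, a6 6 (by omega) (by omega) (by omega), h6,
        Nat.mod_eq_of_lt (show s.R 13 + 1 < 2 ^ w by omega)]
    obtain ⟨s2, b1, b2, b3, b4, b5⟩ := ih ⟨update s1.R 13 (s.R 13 + 1),
        update s.M (s.R 13) l.headI.toNat, s.k⟩ l.tail
      (by simp [a6 2 (by omega) (by omega) (by omega), h2])
      (by simp [a6 6 (by omega) (by omega) (by omega), h6])
      (by simp [a6 7 (by omega) (by omega) (by omega), h7])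
      (by
        have : Rep (update s.M (s.R 13) l.headI.toNat) nl h (s1.R 10) l.tail :=
          a5.mono le_rfl fun a ha => update_of_ne (by omega) _ _
        simpa using this)
      (by simp; omega) (by simp [a6 14 (by omega) (by omega) (by omega), h14]; omega)
      (by simp [a6 14 (by omega) (by omega) (by omega), hw])
    simp only [update_self] at b3 b4
    refine ⟨s2, (WE.whF (by omega) (a1.seq (WE.ops _ s1)) (e ▸ b1)).mono (by simp; omega), b2,
      fun a ha => ?_, fun j hj => ?_, fun i h4 h5 h10 h13 => ?_⟩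
    · rw [b3 a (by omega), update_of_ne (by omega)]
    · cases j with
      | zero => rw [add_zero, b3 _ (by omega), update_self]; cases l <;> rfl
      | succ j =>
        rw [show s.R 13 + (j + 1) = s.R 13 + 1 + j by omega, b4 j (by omega)]
        cases l <;> simp
    · rw [b5 i h4 h5 h10 h13]
      simp only
      rw [update_of_ne h13, a6 i h4 h5 h10]

theorem prep_we {n r : ℕ} {s : S} {σ : St} (hI : Inv R nl (nl + 1 + n) cx s σ) (hr : r < R)
    (hw : s.R 3 + n < 2 ^ w) :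
    ∃ s', WE w ρ (prep r) s s' (9 * n + 12) ∧ Inv R nl (nl + 1 + n) cx s' σ ∧ s'.k = s.k ∧
      s'.R 3 = s.R 3 ∧ s'.R 11 = (σ r).headI.toNat ∧
      qset n s'.M (s'.R 3) = Finset.univ.filter fun j : Fin n => (σ r).tail.getD j false = true := by
  obtain ⟨s1, a1, a2, a3, a4, a5, a6⟩ := pk_we (w := w) (ρ := ρ) (nl := nl) (h := s.R 3) (l := σ r)
    (s := effs w ρ [.copy 10 (r + 20)] s) (by simp [effs, Op.eff, hI.nil])
    (by simp [effs, Op.eff, hI.two]) (by simpa [effs, Op.eff] using hI.rep r hr)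
  have a7 : ∀ i, i ≠ 4 → i ≠ 5 → i ≠ 10 → s1.R i = s.R i := fun i h4 h5 h10 => by
    rw [a6 i h4 h5 h10]; simp [effs, Op.eff, h10]
  have a8 : s1.M = s.M := a2
  have e : effs w ρ [.copy 11 5, .copy 13 3, .sub 14 9 2, .sub 14 14 6, .add 14 14 3] s1 =
      ⟨update (update (update s1.R 11 (σ r).headI.toNat) 13 (s.R 3)) 14 (s.R 3 + n), s.M, s.k⟩ := by
    have c1 : (nl + 1 + n - nl - 1 + s.R 3) % 2 ^ w = s.R 3 + n := by
      rw [Nat.mod_eq_of_lt (by omega)]; omega
    have c2 : s1.k = s.k := a3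
    simp [effs, Op.eff, a4, a8, c2, a7 3 (by omega) (by omega) (by omega),
      a7 9 (by omega) (by omega) (by omega), a7 2 (by omega) (by omega) (by omega),
      a7 6 (by omega) (by omega) (by omega), hI.base, hI.nil, hI.one, c1]
  obtain ⟨s2, b1, b2, b3, b4, b5⟩ := fill_we (w := w) (ρ := ρ) (nl := nl) (h := s.R 3) n
    ⟨update (update (update s1.R 11 (σ r).headI.toNat) 13 (s.R 3)) 14 (s.R 3 + n), s.M, s.k⟩
    (σ r).tail (by simp [a7 2 (by omega) (by omega) (by omega), hI.nil])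
    (by simp [a7 6 (by omega) (by omega) (by omega), hI.one])
    (by simp [a7 7 (by omega) (by omega) (by omega), hI.two]) (by simpa [effs, Op.eff] using a5) (by simp)
    (by simp) (by simpa using hw)
  simp only [ne_eq, Nat.reduceEqDiff, not_false_eq_true, update_of_ne, update_self] at b3 b4
  have b6 : ∀ i, i ≠ 4 → i ≠ 5 → i ≠ 10 → i ≠ 11 → i ≠ 13 → i ≠ 14 → s2.R i = s.R i :=
    fun i h4 h5 h10 h11 h13 h14 => by
      rw [b5 i h4 h5 h10 h13]; simp [h11, h13, h14, a7 i h4 h5 h10]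
  have b7 := b6 3 (by omega) (by omega) (by omega) (by omega) (by omega) (by omega)
  refine ⟨s2, ((WE.ops _ s).seq (a1.seq ((WE.ops _ s1).seq (e ▸ b1)))).mono (by simp; omega),
    inv_of hI (fun i hi => b6 i (by omega) (by omega) (by omega) (by omega) (by omega) (by omega))
      b3, b2, b7, ?_, ?_⟩
  · rw [b5 11 (by omega) (by omega) (by omega) (by omega)]; simp
  · unfold qset
    refine Finset.filter_congr fun j _ => ?_
    rw [b7, b4 j j.2]
    cases (σ r).tail.getD j false <;> simp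

variable {n : ℕ} {O : Bool → Finset (Fin n) → ℕ}

theorem ask_ve (hO : ∀ b A, O b A < 2 ^ w) {r u : ℕ} {s : S} {σ : St}
    (hI : Inv R nl (nl + 1 + n) cx s σ) (hr : r < R) (hu : u < R)
    (hw : 2 * (s.R 3 + (oW n O (σ r)).size + n) < 2 ^ w) :
    ∃ s', VE n O w ρ (askV r u) s s' (9 * n + 16 + 9 * (oW n O (σ r)).size) ∧
      Inv R nl (nl + 1 + n) cx s' (update σ u ((oW n O (σ r)).bits.reverse ++ σ u)) ∧
      s'.k = s.k ∧ s'.R 3 = s.R 3 + (oW n O (σ r)).size := by
  obtain ⟨s1, a1, a2, a3, a4, a5, a6⟩ := prep_we (w := w) (ρ := ρ) hI hr (by omega)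
  have b1 : VE n O w ρ (.ifEq 11 12 (.query false 3 11) (.query true 3 11)) s1
      ⟨update s1.R 11 (oW n O (σ r)), s1.M, s1.k⟩ 3 := by
    have e : oW n O (σ r) = O (σ r).headI (qset n s1.M (s1.R 3)) % 2 ^ w := by
      rw [Nat.mod_eq_of_lt (hO _ _), a6]; rfl
    rw [e]
    cases hb : (σ r).headI
    · exact VE.ifT (by rw [a5, hb, a2.zero]; rfl) (VE.query _ _ _ _)
    · exact VE.ifF (by rw [a5, hb, a2.zero]; simp) (VE.query _ _ _ _)
  have b2 : Inv R nl (nl + 1 + n) cx ⟨update s1.R 11 (oW n O (σ r)), s1.M, s1.k⟩ σ :=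
    inv_of a2 (fun i hi => update_of_ne (by omega) _ _) (fun _ _ => rfl)
  obtain ⟨c1, c2⟩ := orb_bits (oW n O (σ r))
  rw [Nat.size_eq_bits_len] at c1 c2
  obtain ⟨s2, d1, d2, d3, d4⟩ := ploop_we (w := w) (ρ := ρ) (c := 11) (o1 := .rem 5 11 7)
    (o2 := .quot 11 11 7) (β := Nat.bodd) (g := fun v => v / 2) (by omega) hu
    (fun s _ h7 => by simp [Op.eff, h7, Nat.mod_two_of_bodd])
    (fun s _ h7 => by simp [Op.eff, h7]) (oW n O (σ r)).size _ _ b2 (by simpa using c1)
    (by simp [a4]; omega)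
  refine ⟨s2, ((VE.base a1).seq (b1.seq (VE.base d1))).mono (by omega), ?_, d3.trans a3,
    by simpa [a4] using d4⟩
  simpa [c2] using d2

theorem sim2 (hw2 : 2 ≤ w) (hO : ∀ b A, O b A < 2 ^ w) {K : ℕ} (hK : 9 * n + 16 ≤ K) {q : OP}
    {a b : St} {t : ℕ} (h : OExec (oW n O) q a b t) : ∀ s : S, mxo q < R →
    Inv R nl (nl + 1 + n) cx s a → 2 * (s.R 3 + t + n) < 2 ^ w →
    ∃ s', VE n O w ρ (tro q) s s' (K * t) ∧ Inv R nl (nl + 1 + n) cx s' b ∧ s'.k = s.k ∧
      s'.R 3 ≤ s.R 3 + t := by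
  induction h with
  | skip a => intro s _ hI _; exact ⟨s, (VE.base (WE.ops [] s)).mono (by simp), hI, rfl, by omega⟩
  | push r b σ =>
    intro s hr hI hw
    obtain ⟨s1, a1, a2, a3, a4⟩ := sim (ρ := ρ) hw2 (RExec.push r b σ s.k) s hr hI rfl (by omega)
    exact ⟨s1, (VE.base a1).mono (by omega), a2, a3, a4⟩
  | pop r σ =>
    intro s hr hI hw
    obtain ⟨s1, a1, a2, a3, a4⟩ := sim (ρ := ρ) hw2 (RExec.pop r σ s.k) s hr hI rfl (by omega)
    exact ⟨s1, (VE.base a1).mono (by omega), a2, a3, a4⟩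
  | ask r u σ =>
    intro s hr hI hw
    simp only [mxo, max_lt_iff] at hr
    obtain ⟨s1, a1, a2, a3, a4⟩ := ask_ve (ρ := ρ) hO hI hr.1 hr.2 (by omega)
    refine ⟨s1, a1.mono ?_, a2, a3, by omega⟩
    have := Nat.mul_le_mul_right (oW n O (σ r)).size (show 9 ≤ K by omega)
    rw [mul_add, mul_add]; omega
  | seq _ _ ih1 ih2 =>
    intro s hr hI hw
    simp only [mxo, max_lt_iff] at hr
    obtain ⟨s1, a1, a2, a3, a4⟩ := ih1 s hr.1 hI (by omega)
    obtain ⟨s2, b1, b2, b3, b4⟩ := ih2 s1 hr.2 a2 (by omega)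
    exact ⟨s2, (a1.seq b1).mono (by rw [mul_add]), b2, b3.trans a3, by omega⟩
  | @iteN r pn pt pf a b t hh _ ih =>
    intro s hr hI hw
    simp only [mxo, max_lt_iff] at hr
    obtain ⟨s1, a1, a2, a3, a4⟩ := ih s hr.2.1 hI (by omega)
    have e : s.R (r + 20) = s.R 2 :=
      ((hI.rep r hr.1).eq_nil.2 (List.head?_eq_none_iff.1 hh)).trans hI.nil.symm
    exact ⟨s1, (VE.ifT e a1).mono (by rw [mul_add]; omega), a2, a3, by omega⟩
  | @iteT r pn pt pf a b t hh _ ih =>
    intro s hr hI hw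
    simp only [mxo, max_lt_iff] at hr
    obtain ⟨l, hl⟩ : ∃ l, a r = true :: l := List.head?_eq_some_iff.1 hh
    have h1 := hI.rep r hr.1
    rw [hl] at h1
    have e : s.R (r + 20) ≠ s.R 2 := by rw [hI.nil]; exact h1.1
    have h2 := (hI.scr (Or.inl rfl) (s.M (s.R (r + 20))) s.k).scr (Or.inl rfl)
      (s.M (s.R (r + 20)) % 2) s.k
    obtain ⟨s1, a1, a2, a3, a4⟩ := ih _ hr.2.2.1 h2 (by simp; omega)
    have e2 : effs w ρ [.load 4 (r + 20), .rem 4 4 7] s = ⟨update (update s.R 4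
        (s.M (s.R (r + 20)))) 4 (s.M (s.R (r + 20)) % 2), s.M, s.k⟩ := by
      simp [effs, Op.eff, hI.two]
    refine ⟨s1, (VE.ifF e ((VE.base (WE.ops _ s)).seq (e2 ▸ VE.ifT ?_ a1))).mono
      (by rw [mul_add]; simp; omega), a2, a3, a4.trans (by simp)⟩
    simp [hI.one, h1.2.2.1]
  | @iteF r pn pt pf a b t hh _ ih =>
    intro s hr hI hw
    simp only [mxo, max_lt_iff] at hr
    obtain ⟨l, hl⟩ : ∃ l, a r = false :: l := List.head?_eq_some_iff.1 hh
    have h1 := hI.rep r hr.1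
    rw [hl] at h1
    have e : s.R (r + 20) ≠ s.R 2 := by rw [hI.nil]; exact h1.1
    have h2 := (hI.scr (Or.inl rfl) (s.M (s.R (r + 20))) s.k).scr (Or.inl rfl)
      (s.M (s.R (r + 20)) % 2) s.k
    obtain ⟨s1, a1, a2, a3, a4⟩ := ih _ hr.2.2.2 h2 (by simp; omega)
    have e2 : effs w ρ [.load 4 (r + 20), .rem 4 4 7] s = ⟨update (update s.R 4
        (s.M (s.R (r + 20)))) 4 (s.M (s.R (r + 20)) % 2), s.M, s.k⟩ := by
      simp [effs, Op.eff, hI.two]
    refine ⟨s1, (VE.ifF e ((VE.base (WE.ops _ s)).seq (e2 ▸ VE.ifF ?_ a1))).mono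
      (by rw [mul_add]; simp; omega), a2, a3, a4.trans (by simp)⟩
    simp [hI.one, h1.2.2.1]
  | @loopN r p a hh =>
    intro s hr hI hw
    simp only [mxo, max_lt_iff] at hr
    have e : s.R (r + 20) = s.R 2 := ((hI.rep r hr.1).eq_nil.2 hh).trans hI.nil.symm
    exact ⟨s, (VE.whT e).mono (by omega), hI, rfl, by omega⟩
  | @loopC r p a b c t t' hh _ _ ih1 ih2 =>
    intro s hr hI hw
    have hr' := hr
    simp only [mxo, max_lt_iff] at hr
    have e : s.R (r + 20) ≠ s.R 2 := fun e => hh ((hI.rep r hr.1).eq_nil.1 (e.trans hI.nil))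
    obtain ⟨s1, a1, a2, a3, a4⟩ := ih1 s hr.2 hI (by omega)
    obtain ⟨s2, b1, b2, b3, b4⟩ := ih2 s1 hr' a2 (by omega)
    exact ⟨s2, (VE.whF e a1 b1).mono (by rw [mul_add, mul_add]; omega), b2, b3.trans a3, by omega⟩

end

theorem oexec_length_le {O : Word → ℕ} {q : OP} {a b : St} {t : ℕ} (h : OExec O q a b t)
    (j : ℕ) : (b j).length ≤ (a j).length + t := by
  induction h with
  | skip s => omega
  | push r b s =>
    by_cases e : j = r
    · subst e; simp
    · simp [update_of_ne e]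
  | pop r s =>
    by_cases e : j = r
    · subst e; simp; omega
    · simp [update_of_ne e]
  | ask r u s =>
    by_cases e : j = u
    · subst e; simp [Nat.size_eq_bits_len]; omega
    · simp [update_of_ne e]
  | seq _ _ ih1 ih2 => omega
  | iteN _ _ ih => omega
  | iteT _ _ ih => omega
  | iteF _ _ ih => omega
  | loopN _ => omega
  | loopC _ _ _ ih1 ih2 => omega

end Crest.Agent.R302.RO
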