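import Crest.Agent.R309.RamW
import Crest.Prelude.Def_OracleRAM

/-! Row 302: structured word programs with oracle queries, compiled to the oracle word RAM. -/

set_option autoImplicit false

namespace Crest.Agent.R302.RO

open Crest.WordRAM Crest.OracleRAM Crest.Agent.R309.RW Function

/-- structured programs with queries -/
inductive V : Type
  | base (p : W)
  | query (b : Bool) (a d : ℕ)
  | seq (p q : V)
  | ifEq (a b : ℕ) (p q : V)
  | whileNe (a b : ℕ) (p : V)

/-- the set read by a query -/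
def qset (n : ℕ) (M : ℕ → ℕ) (a : ℕ) : Finset (Fin n) :=
  Finset.univ.filter fun j : Fin n => M (a + j.val) ≠ 0

/-- big-step semantics with a bound on the number of instructions -/
inductive VE (n : ℕ) (O : Bool → Finset (Fin n) → ℕ) (w : ℕ) (ρ : ℕ → ℕ) : V → S → S → ℕ → Prop
  | base {p : W} {s s' : S} {t : ℕ} : WE w ρ p s s' t → VE n O w ρ (.base p) s s' t
  | query (b : Bool) (a d : ℕ) (s : S) : VE n O w ρ (.query b a d) s
      ⟨update s.R d (O b (qset n s.M (s.R a)) % 2 ^ w), s.M, s.k⟩ 1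
  | seq {p q : V} {s s' s'' : S} {t t' : ℕ} :
      VE n O w ρ p s s' t → VE n O w ρ q s' s'' t' → VE n O w ρ (.seq p q) s s'' (t + t')
  | ifT {a b : ℕ} {p q : V} {s s' : S} {t : ℕ} :
      s.R a = s.R b → VE n O w ρ p s s' t → VE n O w ρ (.ifEq a b p q) s s' (t + 2)
  | ifF {a b : ℕ} {p q : V} {s s' : S} {t : ℕ} :
      s.R a ≠ s.R b → VE n O w ρ q s s' t → VE n O w ρ (.ifEq a b p q) s s' (t + 2)
  | whT {a b : ℕ} {p : V} {s : S} : s.R a = s.R b → VE n O w ρ (.whileNe a b p) s s 1
  | whF {a b : ℕ} {p : V} {s s' s'' : S} {t t' : ℕ} :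
      s.R a ≠ s.R b → VE n O w ρ p s s' t → VE n O w ρ (.whileNe a b p) s' s'' t' →
        VE n O w ρ (.whileNe a b p) s s'' (t + t' + 2)
  | mono {p : V} {s s' : S} {t t' : ℕ} : VE n O w ρ p s s' t → t ≤ t' → VE n O w ρ p s s' t'

/-- length of the code -/
def V.len : V → ℕ
  | .base p => p.len
  | .query _ _ _ => 1
  | .seq p q => p.len + q.len
  | .ifEq _ _ p q => p.len + q.len + 2
  | .whileNe _ _ p => p.len + 2

/-- all registers used are at most `N` -/
def V.ok (N : ℕ) : V → Prop
  | .base p => p.ok N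
  | .query _ a d => a ≤ N ∧ d ≤ N
  | .seq p q => p.ok N ∧ q.ok N
  | .ifEq a b p q => a ≤ N ∧ b ≤ N ∧ p.ok N ∧ q.ok N
  | .whileNe a b p => a ≤ N ∧ b ≤ N ∧ p.ok N

/-- the code placed at offset `o` -/
def V.comp (N : ℕ) : V → ℕ → List (OInstr (N + 1))
  | .base p, o => (p.comp N o).map .base
  | .query b a d, _ => [.query b (rg N a) (rg N d)]
  | .seq p q, o => p.comp N o ++ q.comp N (o + p.len)
  | .ifEq a b p q, o => .base (.jumpIfEq (rg N a) (rg N b) (o + q.len + 2)) ::
      (q.comp N (o + 1) ++ .base (.jump (o + (p.len + q.len + 2))) :: p.comp N (o + q.len + 2))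
  | .whileNe a b p, o => .base (.jumpIfEq (rg N a) (rg N b) (o + (p.len + 2))) ::
      (p.comp N (o + 1) ++ [.base (.jump o)])

theorem V.length_comp (N : ℕ) (p : V) : ∀ o, (p.comp N o).length = p.len := by
  induction p with
  | base p => intro o; simp [V.comp, V.len, W.length_comp]
  | query b a d => intro o; rfl
  | seq p q ihp ihq => intro o; simp [V.comp, V.len, ihp, ihq]
  | ifEq a b p q ihp ihq => intro o; simp [V.comp, V.len, ihp, ihq]; omega
  | whileNe a b p ih => intro o; simp [V.comp, V.len, ih]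

/-- the step on the underlying configurations -/
def ost (P : OProgram) (n : ℕ) (O : Bool → Finset (Fin n) → ℕ) (w : ℕ) (ρ : ℕ → ℕ)
    (c : Cfg P.numRegs) : Cfg P.numRegs := (ostep P n O w ρ ⟨c, 0⟩).cfg

section
variable {P : OProgram} {n : ℕ} {O : Bool → Finset (Fin n) → ℕ} {w : ℕ} {ρ : ℕ → ℕ}

theorem ostep_cfg (c : OCfg P.numRegs) : (ostep P n O w ρ c).cfg = ost P n O w ρ c.cfg := by
  unfold ost ostep
  dsimp only
  split_ifs
  · rfl
  · split <;> rfl

theorem iter_cfg (T : ℕ) : ∀ c : OCfg P.numRegs,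
    ((ostep P n O w ρ)^[T] c).cfg = (ost P n O w ρ)^[T] c.cfg := by
  induction T with
  | zero => intro c; rfl
  | succ T ih => intro c; rw [iterate_succ_apply, iterate_succ_apply, ih, ostep_cfg]

theorem ost_halted {c : Cfg P.numRegs} (h : c.halted = true) : ost P n O w ρ c = c := by
  unfold ost ostep
  rw [if_pos h]

theorem ost_base {c : Cfg P.numRegs} {i : Instr P.numRegs} (h : P.code[c.pc]? = some (.base i)) :
    ost P n O w ρ c = step (baseProgram P) w ρ c := by
  by_cases hh : c.halted = true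
  · rw [ost_halted hh]; unfold step; rw [if_pos hh]
  · unfold ost ostep
    rw [if_neg hh]
    simp only [h]

theorem step_halted_of {c : Cfg P.numRegs} (h : ∀ i, P.code[c.pc]? ≠ some (.base i)) :
    (step (baseProgram P) w ρ c).halted = true := by
  unfold step
  split_ifs with hh
  · exact hh
  · have e : (baseProgram P).code[c.pc]? = (P.code[c.pc]?).map OInstr.toBase := List.getElem?_map
    rcases hc : P.code[c.pc]? with _ | (i | ⟨b, a, d⟩)
    · rw [hc] at e
      simp only [Option.map_none] at e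
      simp only [e]
    · exact absurd hc (h i)
    · rw [hc] at e
      simp only [Option.map_some, OInstr.toBase] at e
      simp only [e]

theorem iter_of_base (T : ℕ) : ∀ c : Cfg P.numRegs,
    ((step (baseProgram P) w ρ)^[T] c).halted = false →
      (ost P n O w ρ)^[T] c = (step (baseProgram P) w ρ)^[T] c := by
  induction T with
  | zero => intro c _; rfl
  | succ T ih =>
    intro c h
    rw [iterate_succ_apply] at h
    rw [iterate_succ_apply, iterate_succ_apply]
    by_cases hb : ∃ i, P.code[c.pc]? = some (.base i)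
    · obtain ⟨i, hi⟩ := hb
      rw [ost_base hi, ih _ h]
    · have h1 := step_halted_of (w := w) (ρ := ρ) (c := c) (fun i hi => hb ⟨i, hi⟩)
      have h2 : step (baseProgram P) w ρ (step (baseProgram P) w ρ c) =
          step (baseProgram P) w ρ c := by
        conv_lhs => unfold step
        exact if_pos h1
      rw [iterate_fixed h2, h1] at h
      cases h

end

/-- reachable within `t` steps -/
def OReach {N : ℕ} (code : List (OInstr (N + 1))) (n : ℕ) (O : Bool → Finset (Fin n) → ℕ) (w : ℕ)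
    (ρ : ℕ → ℕ) (c c' : Cfg (N + 1)) (t : ℕ) : Prop :=
  ∃ T ≤ t, (ost ⟨N + 1, code⟩ n O w ρ)^[T] c = c'

section
variable {N : ℕ} {code : List (OInstr (N + 1))} {n : ℕ} {O : Bool → Finset (Fin n) → ℕ} {w : ℕ}
  {ρ : ℕ → ℕ}

theorem OReach.trans {c c' c'' : Cfg (N + 1)} {t t' : ℕ} (h : OReach code n O w ρ c c' t)
    (h' : OReach code n O w ρ c' c'' t') : OReach code n O w ρ c c'' (t + t') := by
  obtain ⟨T, h1, h2⟩ := h
  obtain ⟨T', h3, h4⟩ := h'
  exact ⟨T' + T, by omega, by rw [iterate_add_apply, h2, h4]⟩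

theorem OReach.mono {c c' : Cfg (N + 1)} {t t' : ℕ} (h : OReach code n O w ρ c c' t)
    (ht : t ≤ t') : OReach code n O w ρ c c' t' := by
  obtain ⟨T, h1, h2⟩ := h
  exact ⟨T, h1.trans ht, h2⟩

theorem OReach.of_base {pc t : ℕ} {c : Cfg (N + 1)} {s : S}
    (h : Reach (code.map OInstr.toBase) w ρ c (cfg N pc s) t) :
    OReach code n O w ρ c (cfg N pc s) t := by
  obtain ⟨T, h1, h2⟩ := h
  refine ⟨T, h1, ?_⟩
  have h3 : (step (baseProgram ⟨N + 1, code⟩) w ρ)^[T] c = cfg N pc s := h2
  rw [iter_of_base (P := ⟨N + 1, code⟩) T c (by rw [h3]; rfl), h3]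

theorem base_at {pc : ℕ} {i : Instr (N + 1)} (h : code[pc]? = some (.base i)) :
    (code.map OInstr.toBase)[pc]? = some i := by
  rw [List.getElem?_map, h]; rfl

theorem placed_base {o : ℕ} {l : List (Instr (N + 1))} (h : Placed code o (l.map .base)) :
    Placed (code.map OInstr.toBase) o l := fun i hi => by
  rw [List.getElem?_map, h i (by simpa using hi), List.getElem?_map, Option.map_map]
  cases l[i]? <;> rfl

theorem o_jeq {a b l pc : ℕ} (h : code[pc]? = some (.base (.jumpIfEq (rg N a) (rg N b) l)))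
    (ha : a ≤ N) (hb : b ≤ N) (s : S) :
    OReach code n O w ρ (cfg N pc s) (cfg N (if s.R a = s.R b then l else pc + 1) s) 1 :=
  OReach.of_base (Reach.one (step_jeq (base_at h) ha hb s))

theorem o_jump {l pc : ℕ} (h : code[pc]? = some (.base (.jump l))) (s : S) :
    OReach code n O w ρ (cfg N pc s) (cfg N l s) 1 :=
  OReach.of_base (Reach.one (step_jump (base_at h) s))

theorem o_halt {pc : ℕ} (h : code[pc]? = some (.base .halt)) (s : S) :
    ost ⟨N + 1, code⟩ n O w ρ (cfg N pc s) = { cfg N pc s with halted := true } :=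
  (ost_base (P := ⟨N + 1, code⟩) (c := cfg N pc s) h).trans (step_halt (base_at h) s)

theorem o_query {b : Bool} {a d pc : ℕ} (h : code[pc]? = some (.query b (rg N a) (rg N d)))
    (ha : a ≤ N) (hd : d ≤ N) (s : S) :
    OReach code n O w ρ (cfg N pc s)
      (cfg N (pc + 1) ⟨update s.R d (O b (qset n s.M (s.R a)) % 2 ^ w), s.M, s.k⟩) 1 := by
  refine ⟨1, le_rfl, ?_⟩
  show ost ⟨N + 1, code⟩ n O w ρ (cfg N pc s) = _
  simp only [ost, ostep, cfg, h, Bool.false_eq_true, if_false, write_rg hd, rg_val ha, qset]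

theorem oreach_of_ve {p : V} {s s' : S} {t : ℕ} (h : VE n O w ρ p s s' t) : ∀ o,
    Placed code o (p.comp N o) → p.ok N →
    OReach code n O w ρ (cfg N o s) (cfg N (o + p.len) s') t := by
  induction h with
  | base h => intro o hp hk; exact OReach.of_base (reach_of_we h o (placed_base hp) hk)
  | query b a d s => intro o hp hk; exact o_query hp.head hk.1 hk.2 s
  | seq _ _ ih1 ih2 =>
    intro o hp hk
    have h1 := ih1 o hp.left hk.1
    have h2 := ih2 _ (hp.right (by rw [V.length_comp])) hk.2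
    rw [V.len, ← add_assoc]
    exact h1.trans h2
  | @ifT a b p q s s' t e _ ih =>
    intro o hp hk
    have h1 := o_jeq (O := O) (w := w) (ρ := ρ) hp.head hk.1 hk.2.1 s
    rw [if_pos e] at h1
    have hp' : Placed code (o + q.len + 2) (p.comp N (o + q.len + 2)) := by
      have := (hp.tail.right (o' := o + 1 + q.len) (by rw [V.length_comp])).tail
      rwa [show o + 1 + q.len + 1 = o + q.len + 2 by omega] at this
    have h2 := ih _ hp' hk.2.2.1
    rw [V.len, show o + (p.len + q.len + 2) = o + q.len + 2 + p.len by omega]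
    exact (h1.trans h2).mono (by omega)
  | @ifF a b p q s s' t e _ ih =>
    intro o hp hk
    have h1 := o_jeq (O := O) (w := w) (ρ := ρ) hp.head hk.1 hk.2.1 s
    rw [if_neg e] at h1
    have h2 := ih _ hp.tail.left hk.2.2.2
    have h3 := o_jump (O := O) (w := w) (ρ := ρ)
      (hp.tail.right (o' := o + 1 + q.len) (by rw [V.length_comp])).head s'
    exact ((h1.trans h2).trans h3).mono (by omega)
  | @whT a b p s e =>
    intro o hp hk
    have h1 := o_jeq (O := O) (w := w) (ρ := ρ) hp.head hk.1 hk.2.1 s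
    rwa [if_pos e] at h1
  | @whF a b p s s' s'' t t' e _ _ ih1 ih2 =>
    intro o hp hk
    have h1 := o_jeq (O := O) (w := w) (ρ := ρ) hp.head hk.1 hk.2.1 s
    rw [if_neg e] at h1
    have h2 := ih1 _ hp.tail.left hk.2.2
    have h3 := o_jump (O := O) (w := w) (ρ := ρ)
      (hp.tail.right (o' := o + 1 + p.len) (by rw [V.length_comp])).head s'
    have h4 := ih2 o hp hk
    exact (((h1.trans h2).trans h3).trans h4).mono (by omega)
  | mono _ ht ih => intro o hp hk; exact (ih o hp hk).mono ht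

end

/-- the whole program: the code of `p`, then `halt` -/
def prog (N : ℕ) (p : V) : OProgram := ⟨N + 1, p.comp N 0 ++ [.base .halt]⟩

/-- the initial state -/
def s0 (w : ℕ) (x : List ℕ) : S :=
  ⟨fun j => if j = 0 then x.length % 2 ^ w else 0, fun i => x[i]?.getD 0 % 2 ^ w, 0⟩

theorem orun_of_ve {N n : ℕ} {O : Bool → Finset (Fin n) → ℕ} {w : ℕ} {ρ : ℕ → ℕ} {p : V}
    {x : List ℕ} {s' : S} {t T : ℕ} (h : VE n O w ρ p (s0 w x) s' t) (hk : p.ok N) (hN : 1 ≤ N)
    (hT : t + 1 ≤ T) : (orun (prog N p) n O w ρ x T).cfg.halted = true ∧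
      (orun (prog N p) n O w ρ x T).cfg.output =
        (List.range (s'.R 0)).map fun i => s'.M (s'.R 1 + i) := by
  have P0 : Placed (p.comp N 0 ++ [.base .halt]) 0 (p.comp N 0 ++ [.base .halt]) := placed_self _
  obtain ⟨T1, h1, h2⟩ := oreach_of_ve h 0 P0.left hk
  have h3 := o_halt (O := O) (w := w) (ρ := ρ)
    (P0.right (o' := 0 + p.len) (by rw [V.length_comp])).head s'
  obtain ⟨d, rfl⟩ : ∃ d, T = d + (T1 + 1) := ⟨T - (T1 + 1), by omega⟩
  have h4 : (orun (prog N p) n O w ρ x (d + (T1 + 1))).cfg =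
      { cfg N (0 + p.len) s' with halted := true } := by
    unfold orun
    rw [iter_cfg, iterate_add_apply, iterate_succ_apply']
    have h5 : (ost (prog N p) n O w ρ)^[T1] (init ⟨(prog N p).numRegs, []⟩ w x) =
        cfg N (0 + p.len) s' := h2
    rw [h5]
    exact (congrArg _ h3).trans (iterate_fixed (ost_halted rfl) d)
  rw [h4]
  refine ⟨rfl, ?_⟩
  simp [Cfg.output, Cfg.reg, cfg, prog, show 1 < N + 1 by omega]

/-! ### Registers that are never written -/

/-- the operation does not write register `d` -/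
def opnw (d : ℕ) : Op → Prop
  | .const e _ => e ≠ d | .copy e _ => e ≠ d | .add e _ _ => e ≠ d | .sub e _ _ => e ≠ d
  | .mul e _ _ => e ≠ d | .quot e _ _ => e ≠ d | .rem e _ _ => e ≠ d | .load e _ => e ≠ d
  | .store _ _ => True | .rand e => e ≠ d

/-- the program does not write register `d` -/
def nw (d : ℕ) : W → Prop
  | .ops l => ∀ o ∈ l, opnw d o
  | .seq p q => nw d p ∧ nw d q
  | .ifEq _ _ p q => nw d p ∧ nw d q
  | .whileNe _ _ p => nw d p

theorem effs_frame {w : ℕ} {ρ : ℕ → ℕ} {d : ℕ} (l : List Op) : ∀ s : S, (∀ o ∈ l, opnw d o) →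
    (effs w ρ l s).R d = s.R d := by
  induction l with
  | nil => intro s _; rfl
  | cons o l ih =>
    intro s h
    rw [effs, ih _ fun o' ho' => h o' (by simp [ho'])]
    have h1 := h o (by simp)
    cases o <;> first | rfl | exact update_of_ne (Ne.symm h1) _ _

theorem frame {w : ℕ} {ρ : ℕ → ℕ} {d : ℕ} {p : W} {s s' : S} {t : ℕ} (h : WE w ρ p s s' t) :
    nw d p → s'.R d = s.R d := by
  induction h with
  | ops l s => exact effs_frame l s
  | seq _ _ ih1 ih2 => intro h; rw [ih2 h.2, ih1 h.1]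
  | ifT _ _ ih => intro h; exact ih h.1
  | ifF _ _ ih => intro h; exact ih h.2
  | whT _ => intro _; rfl
  | whF _ _ _ ih1 ih2 => intro h; rw [ih2 h, ih1 h]
  | mono _ _ ih => exact ih

end Crest.Agent.R302.RO
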