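import Crest.Agent.R302.Par

/-! Row 302: regions, first half. -/

set_option autoImplicit false

namespace Crest.Agent.R302.RegA

open Crest.Agent.PT Crest.Agent.R309 Finset Mod

variable {S : Mod}

theorem abs_sum_le {m M : ℕ} (hm : m ≤ M) (f : ℕ → ℤ) {c : ℤ} (hc : 0 ≤ c)
    (h : ∀ i < m, |f i| ≤ c) : |∑ i ∈ range m, f i| ≤ M * c := by
  refine (abs_sum_le_sum_abs _ _).trans ?_
  refine (sum_le_card_nsmul _ _ c fun i hi => h i (mem_range.1 hi)).trans ?_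
  rw [card_range, nsmul_eq_mul]
  exact mul_le_mul_of_nonneg_right (by exact_mod_cast hm) hc

theorem pt_supp (h : S.OK) (γ θ : ℕ → ℤ) {i : ℕ} (hi : S.n ≤ i) : S.b.pt S.n γ θ i = 0 := by
  unfold Bas.pt
  simp only [Pi.add_apply, Finset.sum_apply, Pi.smul_apply, smul_eq_mul]
  rw [sum_eq_zero, sum_eq_zero, add_zero]
  · intro c hc
    have := h.bas.el_lt c (mem_range.1 hc)
    rw [ev_apply, if_neg (by omega), mul_zero]
  · intro e _
    unfold Bas.z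
    rw [if_neg (by omega), mul_zero]

theorem coord_PS (h : S.OK) {x : Vec} (hx : x ∈ PS S.n S.f1 S.f2) : ∃ γ θ : ℕ → ℤ,
    x = S.b.pt S.n γ θ ∧ (∀ e < S.b.nf, |γ e - S.gc e| ≤ 8 * (S.n : ℤ) ^ 5 * 2 ^ S.b.je e) ∧
      ∀ i < S.b.nt, |θ i - S.th0 i| ≤ 8 * (S.n : ℤ) ^ 4 * 2 ^ S.g := by
  refine ⟨_, _, h.bas.coord x hx.1, fun e he => ?_, fun i hi => ?_⟩
  · unfold gc
    rw [← sum_sub_distrib]
    refine (abs_sum_le le_rfl _ (c := S.n * (4 * (S.n : ℤ) ^ 3 * 2 ^ S.b.je e)) (by positivity)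
      fun a ha => ?_).trans (le_of_eq (by push_cast; ring))
    rw [← mul_sub, abs_mul]
    by_cases h0 : S.b.Mf S.n e a = 0
    · rw [h0, abs_zero, zero_mul]; positivity
    · obtain ⟨h1, h2⟩ := h.bas.Mf_bd e he a ha
      have h3 := h.om_PS hx a ha
      have h4 : (2 : ℤ) ^ S.j a ≤ 2 ^ S.b.je e := pow_le_pow_right₀ (by norm_num) (h2 h0)
      refine mul_le_mul h1 (le_trans h3 ?_) (abs_nonneg _) (by positivity)
      push_cast
      exact mul_le_mul_of_nonneg_left h4 (by positivity)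
  · unfold th0
    rw [← sum_sub_distrib]
    refine (abs_sum_le le_rfl _ (c := 1 * (4 * (S.n : ℤ) ^ 3 * 2 ^ S.g)) (by positivity)
      fun a ha => ?_).trans (le_of_eq (by push_cast; ring))
    rw [← mul_sub, abs_mul]
    by_cases h0 : S.b.Mt S.n i a = 0
    · rw [h0, abs_zero, zero_mul]; positivity
    · obtain ⟨h1, h2⟩ := h.bas.Mt_bd i hi a ha
      have h3 := h.om_PS hx a ha
      rw [h.jroot a ha (h2 h0)] at h3
      refine mul_le_mul h1 (le_trans h3 ?_) (abs_nonneg _) (by positivity)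
      push_cast
      exact le_rfl

theorem pt_diff (γ θ γ' θ' : ℕ → ℤ) : S.b.pt S.n γ θ = S.b.pt S.n γ' θ' +
    (∑ e ∈ range S.b.nf, (γ e - γ' e) • S.b.z S.n e +
      ∑ i ∈ range S.b.nt, (θ i - θ' i) • ev (S.b.el i)) := by
  unfold Bas.pt
  simp only [sub_smul, sum_sub_distrib]
  abel

theorem dg_pt_diff (γ θ γ' θ' : ℕ → ℤ) : dg S.n (S.b.pt S.n γ θ) = dg S.n (S.b.pt S.n γ' θ') +
    (∑ e ∈ range S.b.nf, (γ e - γ' e) • dg S.n (S.b.z S.n e) +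
      ∑ i ∈ range S.b.nt, (θ i - θ' i) • S.gv i) := by
  rw [pt_diff γ θ γ' θ', dg_add, dg_add, dg_sum, dg_sum]
  simp only [dg_smul, gv]

theorem om_pt (h : S.OK) (γ θ : ℕ → ℤ) (r1 r2 : ℕ)
    (h1 : ∀ e < S.b.nf, |γ e - S.gc e| ≤ (r1 : ℤ) * 2 ^ S.b.je e)
    (h2 : ∀ i < S.b.nt, |θ i - S.th0 i| ≤ (r2 : ℤ) * 2 ^ S.g) :
    S.Om (S.Q ^ 6 + S.Q * (r1 + r2)) (dg S.n (S.b.pt S.n γ θ)) := by
  obtain ⟨x, hx⟩ := h.ne
  obtain ⟨γ', θ', e, g1, g2⟩ := coord_PS h hx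
  rw [dg_pt_diff γ θ γ' θ', ← e]
  refine ((h.om_PS hx).add (r' := 2 * S.n * (r1 + 8 * S.n ^ 5) + S.n * (r2 + 8 * S.n ^ 4))
    fun a ha => ?_).mono ?_
  · rw [X_add, X_sum, X_sum]
    have a1 := abs_sum_le h.bas.nf_le (fun e => S.X a ((γ e - γ' e) • dg S.n (S.b.z S.n e)))
      (c := ((r1 : ℤ) + 8 * (S.n : ℤ) ^ 5) * 2 ^ S.j a) (by positivity) fun e he => by
        rw [X_smul, abs_mul]
        obtain ⟨c1, c2⟩ := h.bas.cyc e he a ha
        by_cases h0 : S.X a (dg S.n (S.b.z S.n e)) = 0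
        · rw [h0, abs_zero, mul_zero]; positivity
        · have h4 : (2 : ℤ) ^ S.b.je e ≤ 2 ^ S.j a := pow_le_pow_right₀ (by norm_num) (c2 h0).2.1
          have h5 : |γ e - γ' e| ≤ ((r1 : ℤ) + 8 * (S.n : ℤ) ^ 5) * 2 ^ S.b.je e := by
            have b1 := abs_le.1 (h1 e he)
            have b2 := abs_le.1 (g1 e he)
            rw [abs_le]; constructor <;> linarith [b1.1, b1.2, b2.1, b2.2]
          calc _ ≤ |γ e - γ' e| * 1 := mul_le_mul_of_nonneg_left c1 (abs_nonneg _)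
            _ ≤ _ := by
              rw [mul_one]
              exact h5.trans (mul_le_mul_of_nonneg_left h4 (by positivity))
    have a2 := abs_sum_le h.bas.nt_le (fun i => S.X a ((θ i - θ' i) • S.gv i))
      (c := ((r2 : ℤ) + 8 * (S.n : ℤ) ^ 4) * 2 ^ S.j a) (by positivity) fun i hi => by
        rw [X_smul, abs_mul]
        have h4 : (2 : ℤ) ^ S.g ≤ 2 ^ S.j a := pow_le_pow_right₀ (by norm_num) (h.jge a ha)
        have h5 : |θ i - θ' i| ≤ ((r2 : ℤ) + 8 * (S.n : ℤ) ^ 4) * 2 ^ S.g := by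
          have b1 := abs_le.1 (h2 i hi)
          have b2 := abs_le.1 (g2 i hi)
          rw [abs_le]; constructor <;> linarith [b1.1, b1.2, b2.1, b2.2]
        calc _ ≤ |θ i - θ' i| * 1 := mul_le_mul_of_nonneg_left (h.X_gv a hi) (abs_nonneg _)
          _ ≤ _ := by
            rw [mul_one]
            exact h5.trans (mul_le_mul_of_nonneg_left h4 (by positivity))
    refine (abs_add_le _ _).trans ((add_le_add a1 a2).trans (le_of_eq ?_))
    push_cast; ring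
  · have hn := h.nQ
    have h0 := h.n_pos
    generalize S.n = n at *
    generalize S.Q = Q at *
    have b1 : (2048 * n) ^ 6 ≤ Q ^ 6 := Nat.pow_le_pow_left hn 6
    have b2 : n ^ 3 ≤ n ^ 6 := Nat.pow_le_pow_right h0 (by norm_num)
    have b3 : n ^ 5 ≤ n ^ 6 := Nat.pow_le_pow_right h0 (by norm_num)
    have b4 : 2 * n * r1 ≤ Q * r1 := Nat.mul_le_mul_right _ (by omega)
    have b5 : n * r2 ≤ Q * r2 := Nat.mul_le_mul_right _ (by omega)
    rw [mul_pow] at b1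
    have e1 : 4 * n ^ 3 + (2 * n * (r1 + 8 * n ^ 5) + n * (r2 + 8 * n ^ 4)) =
        4 * n ^ 3 + 16 * n ^ 6 + 8 * n ^ 5 + 2 * n * r1 + n * r2 := by ring
    rw [e1, mul_add]
    norm_num at b1
    omega

theorem Q300 (h : S.OK) : S.Q ^ 300 ≤ 2 ^ S.Q := by
  have := h.qQ'
  calc S.Q ^ 300 = 2 ^ (300 * S.q) := by unfold Q; rw [← pow_mul, mul_comm]
    _ ≤ _ := Nat.pow_le_pow_right (by norm_num) this

theorem arith_pt {n Q R : ℤ} (h0 : 1 ≤ n) (hn : 2048 * n ≤ Q) (hR : Q ^ 300 ≤ R) :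
    R + (2 * n * ((Q ^ 7 + 8 * n ^ 5) * R * n) + n * (2 * Q ^ 311 + 8 * n ^ 4 * Q ^ 150)) ≤
      R * R := by
  have hQ : 1 ≤ Q := by linarith
  have hQ0 : 0 ≤ Q := by linarith
  have hn0 : 0 ≤ n := by linarith
  have hnQ : n ≤ Q := by linarith
  have hR0 : 0 ≤ R := le_trans (by positivity) hR
  have p (a b : ℕ) (hab : a ≤ b) : Q ^ a ≤ Q ^ b := pow_le_pow_right₀ hQ hab
  have a1 : 2 * n * ((Q ^ 7 + 8 * n ^ 5) * R * n) ≤ 18 * Q ^ 12 * R := by
    have : n ^ 5 ≤ Q ^ 7 := (pow_le_pow_left₀ hn0 hnQ 5).trans (p 5 7 (by norm_num))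
    calc 2 * n * ((Q ^ 7 + 8 * n ^ 5) * R * n) ≤ 2 * Q * ((Q ^ 7 + 8 * Q ^ 7) * R * Q) := by
          gcongr
      _ = 18 * Q ^ 9 * R := by ring
      _ ≤ _ := by have := p 9 12 (by norm_num); gcongr
  have a2 : n * (2 * Q ^ 311 + 8 * n ^ 4 * Q ^ 150) ≤ 10 * Q ^ 12 * R := by
    calc n * (2 * Q ^ 311 + 8 * n ^ 4 * Q ^ 150) ≤ Q * (2 * Q ^ 311 + 8 * Q ^ 4 * Q ^ 150) := by
          gcongr
      _ = 2 * Q ^ 312 + 8 * Q ^ 155 := by ring
      _ ≤ 2 * Q ^ 312 + 8 * Q ^ 312 := by have := p 155 312 (by norm_num); linarith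
      _ = 10 * Q ^ 12 * Q ^ 300 := by ring
      _ ≤ _ := by gcongr
  have a3 : R ≤ Q ^ 12 * R := le_mul_of_one_le_left hR0 (one_le_pow₀ hQ)
  have a4 : 29 * Q ^ 12 * R ≤ R * R := by
    refine mul_le_mul_of_nonneg_right (le_trans ?_ hR) hR0
    calc 29 * Q ^ 12 ≤ Q * Q ^ 12 := mul_le_mul_of_nonneg_right (by linarith) (by positivity)
      _ = Q ^ 13 := by ring
      _ ≤ _ := p 13 300 (by norm_num)
  linarith

theorem pt_bd (h : S.OK) (γ θ : ℕ → ℤ)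
    (h1 : ∀ e < S.b.nf, |γ e - S.gc e| ≤ (S.Q : ℤ) ^ 7 * 2 ^ S.b.je e)
    (h2 : ∀ i < S.b.nt, |θ i - S.th0 i| ≤ 2 * S.T) (i : ℕ) :
    |S.b.pt S.n γ θ i| ≤ 2 ^ (2 * S.Q) := by
  by_cases hi : i < S.n
  swap
  · rw [pt_supp h γ θ (not_lt.1 hi), abs_zero]; positivity
  obtain ⟨x, hx⟩ := h.ne
  obtain ⟨γ', θ', e, g1, g2⟩ := coord_PS h hx
  rw [pt_diff γ θ γ' θ', ← e]
  simp only [Pi.add_apply, Finset.sum_apply, Pi.smul_apply, smul_eq_mul]
  have hB : (2 : ℤ) ^ S.B ≤ 2 ^ S.Q :=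
    pow_le_pow_right₀ (by norm_num) (by have := h.BQ'; omega)
  have a0 : |x i| ≤ 2 ^ S.Q := by
    have hs : ({i} : Finset ℕ) ⊆ range S.n := by simpa using hi
    have b1 := hx.2 _ hs
    have b2 := h.bd _ hs
    have b3 : sm {i} x = x i := sum_singleton _ _
    have b4 := abs_lt.1 b2.1
    have b5 := abs_lt.1 b2.2
    rw [abs_le]; constructor <;> linarith [b1.1, b1.2, b4.2, b5.2]
  have a1 := abs_sum_le h.bas.nf_le (fun e => (γ e - γ' e) * S.b.z S.n e i)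
    (c := ((S.Q : ℤ) ^ 7 + 8 * (S.n : ℤ) ^ 5) * 2 ^ S.Q * S.n) (by positivity) fun e he => by
      rw [abs_mul]
      have h4 : (2 : ℤ) ^ S.b.je e ≤ 2 ^ S.Q :=
        pow_le_pow_right₀ (by norm_num) ((h.bas.je_le e he).trans h.JQ)
      have h5 : |γ e - γ' e| ≤ ((S.Q : ℤ) ^ 7 + 8 * (S.n : ℤ) ^ 5) * 2 ^ S.b.je e := by
        have b1 := abs_le.1 (h1 e he)
        have b2 := abs_le.1 (g1 e he)
        rw [abs_le]; constructor <;> linarith [b1.1, b1.2, b2.1, b2.2]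
      exact mul_le_mul (h5.trans (mul_le_mul_of_nonneg_left h4 (by positivity)))
        (h.bas.z_bd e he i) (abs_nonneg _) (by positivity)
  have a2 := abs_sum_le h.bas.nt_le (fun c => (θ c - θ' c) * ev (S.b.el c) i)
    (c := 2 * (S.Q : ℤ) ^ 311 + 8 * (S.n : ℤ) ^ 4 * (S.Q : ℤ) ^ 150) (by positivity) fun c hc => by
      rw [abs_mul]
      have e1 : (S.T : ℤ) = (S.Q : ℤ) ^ 311 := by exact_mod_cast T_eq
      have e2 : (2 : ℤ) ^ S.g = (S.Q : ℤ) ^ 150 := by exact_mod_cast two_g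
      have h5 : |θ c - θ' c| ≤ 2 * (S.Q : ℤ) ^ 311 + 8 * (S.n : ℤ) ^ 4 * (S.Q : ℤ) ^ 150 := by
        have b1 := abs_le.1 (h2 c hc)
        have b2 := abs_le.1 (g2 c hc)
        rw [e1] at b1
        rw [e2] at b2
        rw [abs_le]; constructor <;> linarith [b1.1, b1.2, b2.1, b2.2]
      have h6 : |ev (S.b.el c) i| ≤ 1 := by
        rw [ev_apply]; split_ifs <;> simp
      calc _ ≤ |θ c - θ' c| * 1 := mul_le_mul_of_nonneg_left h6 (abs_nonneg _)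
        _ ≤ _ := by rw [mul_one]; exact h5
  refine (abs_add_le _ _).trans ((add_le_add a0 ((abs_add_le _ _).trans (add_le_add a1 a2))).trans ?_)
  rw [two_mul S.Q, pow_add]
  push_cast
  exact arith_pt (by exact_mod_cast h.n_pos) (by exact_mod_cast h.nQ) (by exact_mod_cast Q300 h)

theorem fat_bd (h : S.OK) {e : ℕ} (he : e < S.b.nf) {c : ℕ} (hc : c ≤ S.M) :
    |S.g0 e + S.tau e * (c : ℤ) - S.gc e| ≤ ((S.Q ^ 6 : ℕ) : ℤ) * 2 ^ S.b.je e := by
  have e1 := h.g0_eq e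
  have e2 : (S.tau e : ℤ) * (S.Q : ℤ) ^ 138 = 2 ^ S.b.je e := by exact_mod_cast h.tau_mul he
  have e3 : (S.M : ℤ) = (S.Q : ℤ) ^ 144 := by exact_mod_cast M_eq
  have e4 : ((S.Q ^ 6 : ℕ) : ℤ) * 2 ^ S.b.je e = S.tau e * S.M := by
    rw [← e2, e3]; push_cast; ring
  have b1 : (S.tau e : ℤ) * c ≤ S.tau e * S.M :=
    mul_le_mul_of_nonneg_left (by exact_mod_cast hc) (Int.natCast_nonneg _)
  have b2 : (0 : ℤ) ≤ S.tau e * c := by positivity
  rw [e4, abs_le]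
  constructor <;> linarith

theorem om_y (h : S.OK) {k : List ℕ} (hk : ∀ e < S.E, k.getD e 0 ≤ S.rho.getD e 0) :
    S.Om (S.Q ^ 163) (dg S.n (S.y k)) := by
  refine (om_pt h _ _ (S.Q ^ 6) (S.Q ^ 161) (fun e he => fat_bd h he ?_) fun i hi => ?_).mono ?_
  · rw [← rho_getD_f he]
    exact hk e (by unfold E; omega)
  · have b1 := hk (S.b.nf + i) (by unfold E; omega)
    rw [rho_getD_t hi] at b1
    have e1 : ((S.Q ^ 161 : ℕ) : ℤ) * 2 ^ S.g = S.T := by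
      have e2 : (2 : ℤ) ^ S.g = (S.Q : ℤ) ^ 150 := by exact_mod_cast two_g
      rw [e2, T_eq]; push_cast; ring
    rw [e1, abs_le]
    constructor <;> omega
  · have hQ := h.Q_ge
    generalize S.Q = Q at *
    have b1 : Q ^ 6 ≤ Q ^ 162 := Nat.pow_le_pow_right (by omega) (by norm_num)
    have b2 : Q ^ 7 ≤ Q ^ 162 := Nat.pow_le_pow_right (by omega) (by norm_num)
    have b3 : 3 * Q ^ 162 ≤ Q * Q ^ 162 := Nat.mul_le_mul_right _ (by omega)
    have e1 : Q * (Q ^ 6 + Q ^ 161) = Q ^ 7 + Q ^ 162 := by ring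
    have e2 : Q ^ 163 = Q * Q ^ 162 := by ring
    rw [e1, e2]
    omega

theorem om_yc (h : S.OK) {k : List ℕ} (hk : ∀ e < S.b.nf, k.getD e 0 ≤ S.M) :
    S.Om (S.Q ^ 8) (dg S.n (S.yc k)) := by
  refine (om_pt h _ _ (S.Q ^ 6) 0 (fun e he => fat_bd h he (hk e he)) fun i _ => ?_).mono ?_
  · simp
  · have hQ := h.Q_ge
    generalize S.Q = Q at *
    have b1 : Q ^ 6 ≤ Q ^ 7 := Nat.pow_le_pow_right (by omega) (by norm_num)
    have b3 : 2 * Q ^ 7 ≤ Q * Q ^ 7 := Nat.mul_le_mul_right _ (by omega)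
    have e1 : Q * (Q ^ 6 + 0) = Q ^ 7 := by ring
    have e2 : Q ^ 8 = Q * Q ^ 7 := by ring
    rw [e1, e2]
    omega

theorem y_append {k : List ℕ} (hk : k.length = S.b.nf) (a : List ℕ) :
    dg S.n (S.y (k ++ a)) =
      dg S.n (S.yc k) + ∑ i ∈ range S.b.nt, ((a.getD i 0 : ℤ) - S.T) • S.gv i := by
  unfold y yc
  rw [dg_pt_diff _ _ (fun e => S.g0 e + S.tau e * k.getD e 0) S.th0, sum_eq_zero, zero_add]
  · congr 1
    refine sum_congr rfl fun i _ => ?_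
    rw [List.getD_append_right _ _ _ _ (by omega), hk, Nat.add_sub_cancel_left]
    congr 1
    ring
  · intro e he
    rw [List.getD_append _ _ _ _ (by rw [hk]; exact mem_range.1 he), sub_self, zero_smul]

theorem yc_inc {k : List ℕ} (hk : k.length = S.b.nf) {e : ℕ} (he : e < S.b.nf) :
    dg S.n (S.yc (inc k e)) = dg S.n (S.yc k) + (S.tau e : ℤ) • dg S.n (S.b.z S.n e) := by
  have key (i : ℕ) : (inc k e).getD i 0 = if i = e then k.getD e 0 + 1 else k.getD i 0 := by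
    have he' : e < k.length := by omega
    unfold inc
    split_ifs with h
    · subst h
      simp [List.getD_eq_getElem?_getD, he']
    · simp [List.getD_eq_getElem?_getD, Ne.symm h]
  unfold yc
  rw [dg_pt_diff _ _ (fun e => S.g0 e + S.tau e * k.getD e 0) S.th0, sum_eq_single e]
  · simp only [sub_self, zero_smul, sum_const_zero, add_zero]
    rw [key, if_pos rfl]
    congr 2
    push_cast; ring
  · intro c _ hc
    rw [key, if_neg hc, sub_self, zero_smul]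
  · intro hh
    exact absurd (mem_range.2 he) hh

theorem arith_en {D A C a b : ℤ} (hD : 0 < D) (hA : 0 ≤ A) (hC : 0 ≤ C) (h1 : |a - b| ≤ A * D)
    (h2 : a ≤ A * D) : |a / D - min 0 (b / D + C)| ≤ A + C + 1 := by
  have h3 := abs_le.1 h1
  have u1 : a / D ≤ b / D + A := by
    rw [← Int.add_mul_ediv_right _ _ hD.ne']
    exact Int.ediv_le_ediv hD (by linarith [h3.2])
  have u2 : b / D ≤ a / D + A := by
    rw [← Int.add_mul_ediv_right _ _ hD.ne']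
    exact Int.ediv_le_ediv hD (by linarith [h3.1])
  have u3 : a / D ≤ A := by
    have := Int.ediv_le_ediv hD h2
    rwa [Int.mul_ediv_cancel _ hD.ne'] at this
  rw [abs_le]
  omega

theorem en_bd (h : S.OK) (ζ : List ℤ) {k : List ℕ} (hk : k ∈ bx S.E [] S.rho)
    (hd : ∀ (ζ : ℕ → ℤ) {Y Y' : Vec}, S.Om (S.Q ^ 163) Y → S.Om (S.Q ^ 163) Y' →
      |S.En ζ Y - S.En ζ Y'| ≤ (S.Q : ℤ) ^ 320 * S.D)
    (hl : ∀ (ζ : ℕ → ℤ) {Y : Vec}, S.Om (S.Q ^ 163) Y → S.En ζ Y ≤ (S.Q : ℤ) ^ 320 * S.D) :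
    (S.en ζ k).natAbs ≤ S.Q ^ 322 := by
  have o1 := om_y h fun e he => ((mem_bx.1 hk).2 e he).2
  have o2 := om_y h (k := []) fun e _ => by simp
  have key := arith_en (C := (S.Q : ℤ) ^ 3) (by exact_mod_cast D_pos) (by positivity)
    (by positivity) (hd (fun p => ζ.getD p 0) o1 o2) (hl _ o1)
  have hQ : (4096 : ℤ) ≤ S.Q := by exact_mod_cast h.Q_ge
  have fin : (S.Q : ℤ) ^ 320 + (S.Q : ℤ) ^ 3 + 1 ≤ (S.Q : ℤ) ^ 322 := by
    generalize (S.Q : ℤ) = Q at *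
    have hQ1 : 1 ≤ Q := by linarith
    have b1 : Q ^ 3 ≤ Q ^ 320 := pow_le_pow_right₀ hQ1 (by norm_num)
    have b2 : 1 ≤ Q ^ 320 := one_le_pow₀ hQ1
    have b3 : 3 * Q ^ 320 ≤ Q * Q ^ 320 := mul_le_mul_of_nonneg_right (by linarith) (by positivity)
    have b4 : Q ^ 321 ≤ Q ^ 322 := pow_le_pow_right₀ hQ1 (by norm_num)
    have e2 : Q ^ 321 = Q * Q ^ 320 := by ring
    linarith
  have : ((S.en ζ k).natAbs : ℤ) ≤ ((S.Q ^ 322 : ℕ) : ℤ) := by
    rw [Int.natCast_natAbs]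
    push_cast
    exact le_trans key fin
  exact_mod_cast this

theorem arith_wt {D : ℕ} (hD : 0 < D) (a o : ℤ) :
    (2 : ℝ) ^ o * (2 : ℝ) ^ (-(a : ℝ) / D) ≤ (2 : ℝ) ^ (-(a / D - o)) ∧
      (2 : ℝ) ^ (-(a / D - o)) ≤ 2 * ((2 : ℝ) ^ o * (2 : ℝ) ^ (-(a : ℝ) / D)) := by
  have hD' : (0 : ℤ) < D := by exact_mod_cast hD
  have hD'' : (0 : ℝ) < D := by exact_mod_cast hD
  have h1 : ((a / D : ℤ) : ℝ) ≤ (a : ℝ) / D := by
    rw [le_div_iff₀ hD'']
    exact_mod_cast Int.ediv_mul_le a hD'.ne'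
  have h2 : (a : ℝ) / D ≤ ((a / D : ℤ) : ℝ) + 1 := by
    rw [div_le_iff₀ hD'']
    exact_mod_cast (Int.lt_ediv_add_one_mul_self a hD').le
  rw [← Real.rpow_intCast, ← Real.rpow_intCast, ← Real.rpow_add two_pos]
  constructor
  · refine Real.rpow_le_rpow_of_exponent_le one_le_two ?_
    rw [neg_div, Int.cast_neg, Int.cast_sub]
    linarith
  · rw [mul_comm, ← Real.rpow_add_one two_ne_zero]
    refine Real.rpow_le_rpow_of_exponent_le one_le_two ?_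
    rw [neg_div, Int.cast_neg, Int.cast_sub]
    linarith

theorem wt_en (ζ : List ℤ) (k : List ℕ) :
    (2 : ℝ) ^ S.off (fun p => ζ.getD p 0) * S.W (fun p => ζ.getD p 0) k ≤ wt (S.en ζ) k ∧
      wt (S.en ζ) k ≤ 2 * ((2 : ℝ) ^ S.off (fun p => ζ.getD p 0) * S.W (fun p => ζ.getD p 0) k) :=
  arith_wt D_pos _ _

end Crest.Agent.R302.RegA
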