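import Crest.Agent.R302.Par

/-! Row 302: elementary bounds on the energy (proofs for `Reg.lean`, second half). -/

set_option autoImplicit false

namespace Crest.Agent.R302.RegB

open Crest.Agent.PT Crest.Agent.R309 Finset Crest.Agent.R302.Mod

variable {S : Mod}

/-! ### Arithmetic -/

theorem pw_le {Q : ℤ} (hQ : 4096 ≤ Q) {k l : ℕ} (h : k + 1 ≤ l) : 4096 * Q ^ k ≤ Q ^ l := by
  have h1 : (1 : ℤ) ≤ Q := by linarith
  calc 4096 * Q ^ k ≤ Q * Q ^ k := mul_le_mul_of_nonneg_right hQ (by positivity)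
    _ = Q ^ (k + 1) := by ring
    _ ≤ Q ^ l := pow_le_pow_right₀ h1 h

theorem ar_nr {Q P D c K U d : ℤ} (hQ : 4096 ≤ Q) (hP : 0 ≤ P) (hc : 0 ≤ c) (hK : 0 ≤ K)
    (hU : 0 ≤ U) (hd : 0 ≤ d) (h1 : c * P = D * Q ^ 12) (h2 : K * (Q ^ 300 * P ^ 2) = D * Q ^ 43)
    (h3 : U ≤ Q ^ 200 * P) (h4 : d * Q ^ 138 ≤ P) :
    (c * d + K * (d * (2 * U + d))) * Q ^ 2 ≤ D := by
  have hQ0 : 0 < Q := by linarith
  have hQ1 : (1 : ℤ) ≤ Q := by linarith
  have s1 : c * d * Q ^ 126 ≤ D := by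
    refine le_of_mul_le_mul_right (a := Q ^ 12) ?_ (by positivity)
    calc c * d * Q ^ 126 * Q ^ 12 = c * (d * Q ^ 138) := by ring
      _ ≤ c * P := mul_le_mul_of_nonneg_left h4 hc
      _ = D * Q ^ 12 := h1
  have s2 : d ≤ Q ^ 200 * P := by
    calc d ≤ d * Q ^ 138 := le_mul_of_one_le_right hd (one_le_pow₀ hQ1)
      _ ≤ P := h4
      _ ≤ Q ^ 200 * P := le_mul_of_one_le_left hP (one_le_pow₀ hQ1)
  have s3 : K * (d * (2 * U + d)) * Q ^ 195 ≤ 3 * D := by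
    refine le_of_mul_le_mul_right (a := Q ^ 43) ?_ (by positivity)
    have e : 2 * U + d ≤ 3 * (Q ^ 200 * P) := by linarith
    calc K * (d * (2 * U + d)) * Q ^ 195 * Q ^ 43
        = K * Q ^ 100 * ((d * Q ^ 138) * (2 * U + d)) := by ring
      _ ≤ K * Q ^ 100 * (P * (3 * (Q ^ 200 * P))) :=
        mul_le_mul_of_nonneg_left (mul_le_mul h4 e (by positivity) hP) (by positivity)
      _ = 3 * (K * (Q ^ 300 * P ^ 2)) := by ring
      _ = 3 * D * Q ^ 43 := by rw [h2]; ring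
  have t1 : c * d * (4096 * Q ^ 2) ≤ c * d * Q ^ 126 :=
    mul_le_mul_of_nonneg_left (pw_le hQ (by norm_num)) (by positivity)
  have t2 : K * (d * (2 * U + d)) * (4096 * Q ^ 2) ≤ K * (d * (2 * U + d)) * Q ^ 195 :=
    mul_le_mul_of_nonneg_left (pw_le hQ (by norm_num)) (by positivity)
  have p1 : 0 ≤ c * d * Q ^ 2 := by positivity
  have p2 : 0 ≤ K * (d * (2 * U + d)) * Q ^ 2 := by positivity
  have e1 : c * d * (4096 * Q ^ 2) = 4096 * (c * d * Q ^ 2) := by ring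
  have e2 : K * (d * (2 * U + d)) * (4096 * Q ^ 2) = 4096 * (K * (d * (2 * U + d)) * Q ^ 2) := by
    ring
  rw [add_mul]
  rw [e1] at t1
  rw [e2] at t2
  generalize c * d * Q ^ 2 = x at *
  generalize K * (d * (2 * U + d)) * Q ^ 2 = y at *
  generalize c * d * Q ^ 126 = x' at *
  generalize K * (d * (2 * U + d)) * Q ^ 195 = y' at *
  linarith

theorem Qz (h : S.OK) : (4096 : ℤ) ≤ S.Q := by exact_mod_cast h.Q_ge

theorem cstz (h : S.OK) {a : ℕ} (ha : a < 2 * S.n) (hp : S.p a ≠ a) :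
    (S.cst a : ℤ) * 2 ^ S.j a = S.D * (S.Q : ℤ) ^ 12 := by exact_mod_cast h.cst_mul ha hp

theorem Kaz (h : S.OK) {a : ℕ} (ha : a < 2 * S.n) :
    (S.Ka a : ℤ) * ((S.Q : ℤ) ^ 300 * (2 ^ S.j a) ^ 2) = S.D * (S.Q : ℤ) ^ 43 := by
  exact_mod_cast h.Ka_mul ha

theorem jz (h : S.OK) {a : ℕ} (ha : a < 2 * S.n) : (S.Q : ℤ) ^ 150 ≤ 2 ^ S.j a := by
  exact_mod_cast h.two_j ha

theorem jroot (h : S.OK) {a : ℕ} (ha : a < 2 * S.n) (hp : S.p a = a) :
    (2 : ℤ) ^ S.j a = (S.Q : ℤ) ^ 150 := by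
  rw [h.jroot a ha hp]; exact_mod_cast two_g (S := S)

theorem cstr {a : ℕ} (hp : S.p a = a) : (S.cst a : ℤ) = 2 * S.q * S.D := by
  exact_mod_cast cst_root hp

/-- the change of the energy along one edge -/
def dE (S : Mod) (a : ℕ) (Y v : Vec) : ℤ :=
  S.mar a (S.X a Y - S.lo a + S.X a v) - S.mar a (S.X a Y - S.lo a)

theorem Mar_add (Y v : Vec) : S.Mar (Y + v) - S.Mar Y = ∑ a ∈ range (2 * S.n), dE S a Y v := by
  unfold Mar dE
  rw [← sum_sub_distrib]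
  refine sum_congr rfl fun a _ => ?_
  rw [X_add, add_sub_right_comm]

theorem nz_add (h : S.OK) (ζ : ℕ → ℤ) (Y v : Vec) :
    |S.nz ζ (Y + v) - S.nz ζ Y| ≤ ∑ a ∈ range (2 * S.n), (S.cst a : ℤ) * |S.X a v| := by
  have h1 := nu_add_le (p := S.p) (cst := S.cst) (ζ := fun a => ζ (S.b.lab a)) h.submod
    h.F_empty Y v
  have h2 := nu_add_le (p := S.p) (cst := S.cst) (ζ := fun a => ζ (S.b.lab a)) h.submod
    h.F_empty (Y + v) (-v)
  rw [cost_neg, add_neg_cancel_right] at h2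
  have e : cost (2 * S.n) S.p S.cst v = ∑ a ∈ range (2 * S.n), (S.cst a : ℤ) * |S.X a v| := rfl
  rw [← e, abs_le]
  unfold nz
  constructor <;> linarith

theorem En_add (h : S.OK) (ζ : ℕ → ℤ) (Y v : Vec) :
    |S.En ζ (Y + v) - S.En ζ Y| ≤
      ∑ a ∈ range (2 * S.n), ((S.cst a : ℤ) * |S.X a v| + |dE S a Y v|) := by
  have h1 := nz_add h ζ Y v
  have h2 := Mar_add (S := S) Y v
  have h3 := abs_sum_le_sum_abs (fun a => dE S a Y v) (range (2 * S.n))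
  rw [← h2] at h3
  have e : S.En ζ (Y + v) - S.En ζ Y =
      (S.nz ζ (Y + v) - S.nz ζ Y) + (S.Mar (Y + v) - S.Mar Y) := by unfold En; ring
  rw [e, sum_add_distrib]
  exact (abs_add_le _ _).trans (add_le_add h1 h3)

theorem En_add_ge (h : S.OK) (ζ : ℕ → ℤ) (Y v : Vec) :
    ∑ a ∈ range (2 * S.n), (dE S a Y v - (S.cst a : ℤ) * |S.X a v|) ≤
      S.En ζ (Y + v) - S.En ζ Y := by
  have h1 := (abs_le.1 (nz_add h ζ Y v)).1
  have h2 := Mar_add (S := S) Y v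
  rw [sum_sub_distrib, ← h2]
  unfold En
  linarith

/-- a small displacement along a non-root edge -/
theorem nr_bd (h : S.OK) {Y v : Vec} (hY : S.Om (S.Q ^ 200) Y) {a : ℕ} (ha : a < 2 * S.n)
    (hp : S.p a ≠ a) (hv : |S.X a v| * (S.Q : ℤ) ^ 138 ≤ 2 ^ S.j a) :
    ((S.cst a : ℤ) * |S.X a v| + |dE S a Y v|) * (S.Q : ℤ) ^ 2 ≤ S.D := by
  have h3 := hY a ha
  push_cast at h3
  have key := ar_nr (Qz h) (by positivity) (Int.natCast_nonneg (S.cst a))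
    (Int.natCast_nonneg (S.Ka a)) (abs_nonneg (S.X a Y - S.lo a)) (abs_nonneg (S.X a v))
    (cstz h ha hp) (Kaz h ha) h3 hv
  refine le_trans (mul_le_mul_of_nonneg_right (add_le_add le_rfl ?_) (by positivity)) key
  unfold dE mar
  rw [if_neg hp, if_neg hp, ← mul_sub, abs_mul, abs_of_nonneg (Int.natCast_nonneg (S.Ka a))]
  refine mul_le_mul_of_nonneg_left ?_ (Int.natCast_nonneg _)
  generalize S.X a Y - S.lo a = u
  generalize S.X a v = d
  rw [show (u + d) ^ 2 - u ^ 2 = d * (2 * u + d) by ring, abs_mul]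
  refine mul_le_mul_of_nonneg_left ((abs_add_le _ _).trans (le_of_eq ?_)) (abs_nonneg _)
  rw [abs_mul]; rfl

theorem zero_bd {Y v : Vec} {a : ℕ} (hv : S.X a v = 0) :
    (S.cst a : ℤ) * |S.X a v| + |dE S a Y v| = 0 := by
  unfold dE
  rw [hv]; simp

theorem En_step (h : S.OK) (ζ : ℕ → ℤ) {Y : Vec} (hY : S.Om (S.Q ^ 200) Y) {e : ℕ}
    (he : e < S.b.nf) :
    4 * |S.En ζ (Y + (S.tau e : ℤ) • dg S.n (S.b.z S.n e)) - S.En ζ Y| ≤ S.D := by
  have hQ := Qz h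
  have hD : (0 : ℤ) < S.D := by exact_mod_cast D_pos
  have hn : 2048 * (S.n : ℤ) ≤ S.Q := by exact_mod_cast h.nQ
  set v : Vec := (S.tau e : ℤ) • dg S.n (S.b.z S.n e) with hv
  have h1 := En_add h ζ Y v
  have h2 : (∑ a ∈ range (2 * S.n), ((S.cst a : ℤ) * |S.X a v| + |dE S a Y v|)) * (S.Q : ℤ) ^ 2
      ≤ ∑ _a ∈ range (2 * S.n), (S.D : ℤ) := by
    rw [sum_mul]
    refine sum_le_sum fun a ha => ?_
    have ha := mem_range.1 ha
    have hc := h.bas.cyc e he a ha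
    by_cases h0 : S.X a (dg S.n (S.b.z S.n e)) = 0
    · rw [zero_bd (by rw [hv, X_smul, h0, mul_zero]), zero_mul]; exact hD.le
    · obtain ⟨hp, hj, -⟩ := hc.2 h0
      refine nr_bd h hY ha hp ?_
      have t1 : (S.tau e : ℤ) * (S.Q : ℤ) ^ 138 = 2 ^ S.b.je e := by exact_mod_cast h.tau_mul he
      have t2 : (2 : ℤ) ^ S.b.je e ≤ 2 ^ S.j a := pow_le_pow_right₀ (by norm_num) hj
      have t3 : |S.X a v| ≤ S.tau e := by
        rw [hv, X_smul, abs_mul, abs_of_nonneg (Int.natCast_nonneg (S.tau e))]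
        exact mul_le_of_le_one_right (Int.natCast_nonneg _) hc.1
      calc |S.X a v| * (S.Q : ℤ) ^ 138 ≤ S.tau e * (S.Q : ℤ) ^ 138 :=
            mul_le_mul_of_nonneg_right t3 (by positivity)
        _ ≤ _ := t1 ▸ t2
  rw [sum_const, card_range, nsmul_eq_mul] at h2
  push_cast at h2
  generalize |S.En ζ (Y + v) - S.En ζ Y| = x at *
  generalize (∑ a ∈ range (2 * S.n), ((S.cst a : ℤ) * |S.X a v| + |dE S a Y v|)) = y at *
  generalize (S.Q : ℤ) = Q at *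
  generalize (S.D : ℤ) = D at *
  generalize (S.n : ℤ) = n at *
  refine le_of_mul_le_mul_right (a := Q ^ 2) ?_ (by positivity)
  have t1 : x * Q ^ 2 ≤ y * Q ^ 2 := mul_le_mul_of_nonneg_right h1 (by positivity)
  have t2 : 8 * n ≤ Q ^ 2 := by nlinarith
  have t3 : 8 * n * D ≤ Q ^ 2 * D := mul_le_mul_of_nonneg_right t2 hD.le
  linarith

theorem En_ev (h : S.OK) (ζ : ℕ → ℤ) {Y : Vec} (hY : S.Om (S.Q ^ 200) Y) (i : ℕ) :
    |S.En ζ (Y + ev i) - S.En ζ Y| ≤ (4 * S.q + 4) * S.D := by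
  have hQ := Qz h
  have hD : (0 : ℤ) < S.D := by exact_mod_cast D_pos
  have hn : 2048 * (S.n : ℤ) ≤ S.Q := by exact_mod_cast h.nQ
  obtain ⟨r, -, -, hr⟩ := h.fo.exists_root i
  have h1 := En_add h ζ Y (ev i)
  have h2 : (∑ a ∈ range (2 * S.n), ((S.cst a : ℤ) * |S.X a (ev i)| + |dE S a Y (ev i)|)) *
      (S.Q : ℤ) ^ 2 ≤ ∑ a ∈ range (2 * S.n),
        ((if a = r then (4 * S.q + 2) * S.D * (S.Q : ℤ) ^ 2 else 0) + (S.D : ℤ)) := by
    rw [sum_mul]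
    refine sum_le_sum fun a ha => ?_
    have ha := mem_range.1 ha
    have p0 : (0 : ℤ) ≤ if a = r then (4 * S.q + 2) * S.D * (S.Q : ℤ) ^ 2 else 0 := by
      split_ifs <;> positivity
    by_cases h0 : S.X a (ev i) = 0
    · rw [zero_bd h0, zero_mul]; linarith
    · have h1 : S.X a (ev i) = 1 := by
        have := X_ev (S := S) a i
        omega
      by_cases hp : S.p a = a
      · have ha' : anc S.p a i := by
          by_contra hc
          refine h0 ?_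
          unfold X
          rw [sm_ev, if_neg fun hh => hc (mem_sub.1 hh).2]
        rw [if_pos (hr a hp ha')]
        have : (S.cst a : ℤ) * |S.X a (ev i)| + |dE S a Y (ev i)| ≤ (4 * S.q + 2) * S.D := by
          unfold dE mar
          rw [h1, if_pos hp, if_pos hp, cstr hp, abs_one]
          have := Hub_step (S := S) (S.X a Y - S.lo a)
          linarith
        have := mul_le_mul_of_nonneg_right this (by positivity : (0 : ℤ) ≤ (S.Q : ℤ) ^ 2)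
        linarith
      · have := nr_bd h hY (v := ev i) ha hp (by
          rw [h1, abs_one, one_mul]
          exact (pow_le_pow_right₀ (by linarith) (by norm_num)).trans (jz h ha))
        linarith
  rw [sum_add_distrib (g := fun _ => (S.D : ℤ)), sum_const, card_range, nsmul_eq_mul,
    sum_ite_eq'] at h2
  have h3 : (if r ∈ range (2 * S.n) then (4 * (S.q : ℤ) + 2) * S.D * (S.Q : ℤ) ^ 2 else 0) ≤
      (4 * S.q + 2) * S.D * (S.Q : ℤ) ^ 2 := by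
    split_ifs
    · exact le_rfl
    · positivity
  push_cast at h2
  generalize (if r ∈ range (2 * S.n) then (4 * (S.q : ℤ) + 2) * S.D * (S.Q : ℤ) ^ 2 else 0) = z at *
  generalize |S.En ζ (Y + ev i) - S.En ζ Y| = x at *
  generalize (∑ a ∈ range (2 * S.n), ((S.cst a : ℤ) * |S.X a (ev i)| + |dE S a Y (ev i)|)) = y at *
  generalize (S.Q : ℤ) = Q at *
  generalize (S.D : ℤ) = D at *
  generalize (S.n : ℤ) = n at *
  generalize (S.q : ℤ) = q at *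
  refine le_of_mul_le_mul_right (a := Q ^ 2) ?_ (by positivity)
  have t1 : x * Q ^ 2 ≤ y * Q ^ 2 := mul_le_mul_of_nonneg_right h1 (by positivity)
  have t2 : 2 * n ≤ 2 * Q ^ 2 := by nlinarith
  have t3 : 2 * n * D ≤ 2 * Q ^ 2 * D := mul_le_mul_of_nonneg_right t2 hD.le
  linarith

theorem w_le (ζ : ℕ → ℤ) {Y Y' : Vec} {θ : ℝ} (h : (S.En ζ Y : ℝ) - S.En ζ Y' ≤ θ * S.D) :
    S.w ζ Y' ≤ (2 : ℝ) ^ θ * S.w ζ Y := by
  have hD : (0 : ℝ) < S.D := by exact_mod_cast D_pos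
  unfold w
  rw [← Real.rpow_add (by norm_num)]
  refine Real.rpow_le_rpow_of_exponent_le (by norm_num) ?_
  rw [div_le_iff₀ hD, add_mul, div_mul_cancel₀ _ hD.ne']
  linarith

theorem w_ratio (h : S.OK) (ζ : ℕ → ℤ) {Y : Vec} (hY : S.Om (S.Q ^ 200) Y) (i : ℕ) :
    S.w ζ (Y + ev i) ≤ 16 * (S.Q : ℝ) ^ 4 * S.w ζ Y ∧
      S.w ζ Y ≤ 16 * (S.Q : ℝ) ^ 4 * S.w ζ (Y + ev i) := by
  have h1 := abs_le.1 (En_ev h ζ hY i)
  have e : (2 : ℝ) ^ (((4 * S.q + 4 : ℕ) : ℝ)) = 16 * (S.Q : ℝ) ^ 4 := by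
    rw [Real.rpow_natCast]
    unfold Q
    push_cast
    rw [← pow_mul, pow_add, mul_comm, mul_comm 4]
    norm_num
  have h2 : -(((4 * S.q + 4 : ℕ) : ℝ) * S.D) ≤ (S.En ζ (Y + ev i) : ℝ) - S.En ζ Y := by
    exact_mod_cast h1.1
  have h3 : (S.En ζ (Y + ev i) : ℝ) - S.En ζ Y ≤ ((4 * S.q + 4 : ℕ) : ℝ) * S.D := by
    exact_mod_cast h1.2
  rw [← e]
  exact ⟨w_le ζ (by linarith), w_le ζ h3⟩

/-! ### Tails along the glue vectors -/

/-- the constant of the tail bound along one edge -/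
def tc (S : Mod) (a : ℕ) (Y : Vec) : ℤ :=
  if S.p a = a then (S.q + 1) * S.D * S.rH + 4 * (S.q + 1) * S.D * |S.X a Y - S.lo a|
  else S.Ka a * (S.X a Y - S.lo a) ^ 2

theorem root_ge {a : ℕ} (hp : S.p a = a) (Y v : Vec) :
    2 * S.D * |S.X a v| - tc S a Y ≤ dE S a Y v - (S.cst a : ℤ) * |S.X a v| := by
  unfold tc dE mar
  rw [if_pos hp, if_pos hp, if_pos hp, cstr hp]
  generalize S.X a Y - S.lo a = u
  generalize S.X a v = d
  have h1 := Hub_ge (S := S) (u + d)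
  have h2 := Hub_le (S := S) u
  have h3 := KW_rH (S := S)
  have h4 : |d| - |u| ≤ |u + d| := by
    have := abs_sub_abs_le_abs_sub d (-u)
    rwa [abs_neg, sub_neg_eq_add, add_comm] at this
  have e : (S.KW : ℤ) * (2 * S.rH * |u + d| - (S.rH : ℤ) ^ 2) =
      2 * ((S.q + 1) * S.D) * |u + d| - (S.q + 1) * S.D * S.rH := by
    rw [← h3]; ring
  have h5 : 2 * (((S.q : ℤ) + 1) * S.D) * (|d| - |u|) ≤ 2 * ((S.q + 1) * S.D) * |u + d| :=
    mul_le_mul_of_nonneg_left h4 (by positivity)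
  rw [e] at h1
  linarith

theorem nr_ge {a : ℕ} (hp : S.p a ≠ a) (Y v : Vec) : -tc S a Y ≤ dE S a Y v := by
  unfold tc dE mar
  rw [if_neg hp, if_neg hp, if_neg hp]
  have : (0 : ℤ) ≤ S.Ka a * (S.X a Y - S.lo a + S.X a v) ^ 2 := by positivity
  linarith

theorem t_le (h : S.OK) (t : Fin S.b.nt → ℤ) (i : Fin S.b.nt) :
    |t i| ≤ ∑ a ∈ range (2 * S.n),
      if S.p a = a then |S.X a (∑ i : Fin S.b.nt, t i • S.gv i)| else 0 := by
  let θ : ℕ → ℤ := fun k => if hk : k < S.b.nt then t ⟨k, hk⟩ else 0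
  have e : dg S.n (S.b.pt S.n 0 θ) = ∑ i : Fin S.b.nt, t i • S.gv i := by
    unfold Bas.pt
    rw [sum_eq_zero (fun e _ => by simp), zero_add, dg_sum, sum_range]
    refine sum_congr rfl fun k _ => ?_
    rw [dg_smul]
    simp only [θ, k.2, dif_pos]
    rfl
  have h1 := h.bas.uniqt 0 θ i i.2
  have e2 : θ i = t i := by simp only [θ, i.2, dif_pos]
  rw [e, e2] at h1
  rw [← h1]
  refine (abs_sum_le_sum_abs _ _).trans (sum_le_sum fun a ha => ?_)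
  have h2 := h.bas.Mt_bd i i.2 a (mem_range.1 ha)
  by_cases h0 : S.b.Mt S.n i a = 0
  · rw [h0, zero_mul, abs_zero]
    split_ifs
    · exact abs_nonneg _
    · exact le_rfl
  · rw [if_pos (h2.2 h0), abs_mul]
    exact mul_le_of_le_one_left (abs_nonneg _) h2.1

theorem tail_int (h : S.OK) (ζ : ℕ → ℤ) (Y : Vec) (t : Fin S.b.nt → ℤ) :
    S.D * ∑ i, |t i| - 2 * S.n * ∑ a ∈ range (2 * S.n), tc S a Y ≤
      2 * S.n * (S.En ζ (Y + ∑ i : Fin S.b.nt, t i • S.gv i) - S.En ζ Y) := by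
  have hQ := Qz h
  have hD : (0 : ℤ) < S.D := by exact_mod_cast D_pos
  have hn : 2048 * (S.n : ℤ) ≤ S.Q := by exact_mod_cast h.nQ
  have hn0 : (0 : ℤ) ≤ S.n := Int.natCast_nonneg _
  have ht := t_le h t
  have hX : ∀ a, |S.X a (∑ i : Fin S.b.nt, t i • S.gv i)| ≤ ∑ i, |t i| := by
    intro a
    rw [X_sum]
    refine (abs_sum_le_sum_abs _ _).trans (sum_le_sum fun i _ => ?_)
    rw [X_smul, abs_mul]
    exact mul_le_of_le_one_right (abs_nonneg _) (h.X_gv a i.2)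
  have hT0 : 0 ≤ ∑ i, |t i| := sum_nonneg fun i _ => abs_nonneg _
  have h1 := En_add_ge h ζ Y (∑ i : Fin S.b.nt, t i • S.gv i)
  generalize (∑ i : Fin S.b.nt, t i • S.gv i) = v at *
  set R : ℤ := ∑ a ∈ range (2 * S.n), if S.p a = a then |S.X a v| else 0 with hR
  have hR0 : 0 ≤ R := sum_nonneg fun a _ => by
    split_ifs
    · exact abs_nonneg _
    · exact le_rfl
  have hT : ∑ i, |t i| ≤ S.n * R := by
    have := sum_le_card_nsmul univ (fun i => |t i|) R fun i _ => ht i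
    rw [card_univ, Fintype.card_fin, nsmul_eq_mul] at this
    exact this.trans (mul_le_mul_of_nonneg_right (by exact_mod_cast h.bas.nt_le) hR0)
  generalize ∑ i, |t i| = T at *
  have h2 : ∑ a ∈ range (2 * S.n), ((2 * S.D * (if S.p a = a then |S.X a v| else 0) - tc S a Y) *
      (S.Q : ℤ) ^ 2 - S.D * T) ≤
      (∑ a ∈ range (2 * S.n), (dE S a Y v - (S.cst a : ℤ) * |S.X a v|)) * (S.Q : ℤ) ^ 2 := by
    rw [sum_mul]
    refine sum_le_sum fun a ha => ?_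
    have ha := mem_range.1 ha
    have p0 : 0 ≤ S.D * T := by positivity
    by_cases hp : S.p a = a
    · rw [if_pos hp]
      have := mul_le_mul_of_nonneg_right (root_ge hp Y v) (by positivity : (0 : ℤ) ≤ (S.Q : ℤ) ^ 2)
      linarith
    · rw [if_neg hp]
      have t1 := mul_le_mul_of_nonneg_right (nr_ge hp Y v) (by positivity : (0 : ℤ) ≤ (S.Q : ℤ) ^ 2)
      have t2 : (S.cst a : ℤ) * (S.Q : ℤ) ^ 2 ≤ S.D := by
        refine le_of_mul_le_mul_right (a := (S.Q : ℤ) ^ 12) ?_ (by positivity)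
        rw [← cstz h ha hp, mul_assoc, ← pow_add]
        exact mul_le_mul_of_nonneg_left
          ((pow_le_pow_right₀ (by linarith) (by norm_num)).trans (jz h ha)) (by positivity)
      have t3 : (S.cst a : ℤ) * (S.Q : ℤ) ^ 2 * |S.X a v| ≤ S.D * T :=
        mul_le_mul t2 (hX a) (abs_nonneg _) hD.le
      linarith
  rw [sum_sub_distrib, ← sum_mul, sum_sub_distrib, ← mul_sum, ← hR, sum_const, card_range,
    nsmul_eq_mul] at h2
  push_cast at h2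
  generalize (∑ a ∈ range (2 * S.n), (dE S a Y v - (S.cst a : ℤ) * |S.X a v|)) = y at *
  generalize (∑ a ∈ range (2 * S.n), tc S a Y) = C at *
  generalize S.En ζ (Y + v) - S.En ζ Y = x at *
  clear_value R
  generalize (S.Q : ℤ) = Q at *
  generalize (S.D : ℤ) = D at *
  generalize (S.n : ℤ) = n at *
  refine le_of_mul_le_mul_right (a := Q ^ 2) ?_ (by positivity)
  have t1 : 2 * n * y * Q ^ 2 ≤ 2 * n * x * Q ^ 2 :=
    mul_le_mul_of_nonneg_right (mul_le_mul_of_nonneg_left h1 (by positivity)) (by positivity)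
  have t2 := mul_le_mul_of_nonneg_left h2 (by positivity : 0 ≤ 2 * n)
  have t3 : 4 * D * Q ^ 2 * T ≤ 4 * D * Q ^ 2 * (n * R) :=
    mul_le_mul_of_nonneg_left hT (by positivity)
  have t4 : (2 * n) ^ 2 ≤ Q ^ 2 := pow_le_pow_left₀ (by positivity) (by linarith) 2
  have t5 : (2 * n) ^ 2 * (D * T) ≤ Q ^ 2 * (D * T) :=
    mul_le_mul_of_nonneg_right t4 (by positivity)
  have t6 : 0 ≤ Q ^ 2 * (D * T) := by positivity
  linarith

theorem w_tail_of (h : S.OK) (ζ : ℕ → ℤ) (Y : Vec) {Θ : ℝ}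
    (hΘ : ((∑ a ∈ range (2 * S.n), tc S a Y : ℤ) : ℝ) ≤ Θ * S.D) (t : Fin S.b.nt → ℤ) :
    S.w ζ (Y + ∑ i : Fin S.b.nt, t i • S.gv i) ≤
      (2 : ℝ) ^ (Θ - (∑ i, |(t i : ℝ)|) / (2 * S.n)) * S.w ζ Y := by
  refine w_le ζ ?_
  have h1 := tail_int h ζ Y t
  have hn : (0 : ℝ) < 2 * S.n := by
    have : (1 : ℝ) ≤ S.n := by exact_mod_cast h.n_pos
    linarith
  generalize (∑ a ∈ range (2 * S.n), tc S a Y) = C at *
  have h2 : (S.D : ℝ) * ∑ i, |(t i : ℝ)| - 2 * S.n * C ≤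
      2 * S.n * ((S.En ζ (Y + ∑ i : Fin S.b.nt, t i • S.gv i) : ℝ) - S.En ζ Y) := by
    exact_mod_cast h1
  generalize ∑ i, |(t i : ℝ)| = T at *
  refine le_of_mul_le_mul_left (a := 2 * (S.n : ℝ)) ?_ hn
  have e : 2 * (S.n : ℝ) * ((Θ - T / (2 * S.n)) * S.D) = 2 * S.n * (Θ * S.D) - S.D * T := by
    generalize 2 * (S.n : ℝ) = m at hn
    field_simp
  have h3 := mul_le_mul_of_nonneg_left hΘ hn.le
  rw [e]
  linarith

theorem w_tail_gen (h : S.OK) (ζ : ℕ → ℤ) (Y : Vec) : ∃ Θ : ℝ, ∀ t : Fin S.b.nt → ℤ,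
    S.w ζ (Y + ∑ i : Fin S.b.nt, t i • S.gv i) ≤
      (2 : ℝ) ^ (Θ - (∑ i, |(t i : ℝ)|) / (2 * S.n)) * S.w ζ Y := by
  have hD : (0 : ℝ) < S.D := by exact_mod_cast D_pos
  exact ⟨((∑ a ∈ range (2 * S.n), tc S a Y : ℤ) : ℝ) / S.D,
    w_tail_of h ζ Y (div_mul_cancel₀ _ hD.ne').ge⟩

/-- sums of `2 n` terms -/
theorem sum_bd (h : S.OK) {f : ℕ → ℤ} {k : ℕ}
    (hf : ∀ a < 2 * S.n, f a ≤ 2 * ((S.Q : ℤ) ^ k * S.D)) :
    ∑ a ∈ range (2 * S.n), f a ≤ (S.Q : ℤ) ^ (k + 1) * S.D := by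
  have hn : 2048 * (S.n : ℤ) ≤ S.Q := by exact_mod_cast h.nQ
  have hn0 : (0 : ℤ) ≤ S.n := Int.natCast_nonneg _
  have := sum_le_card_nsmul (range (2 * S.n)) f _ fun a ha => hf a (mem_range.1 ha)
  rw [card_range, nsmul_eq_mul] at this
  push_cast at this
  have t : 4 * (S.n : ℤ) * ((S.Q : ℤ) ^ k * S.D) ≤ S.Q * ((S.Q : ℤ) ^ k * S.D) :=
    mul_le_mul_of_nonneg_right (by linarith) (by positivity)
  rw [pow_succ]
  linarith

/-- the quadratic margin in a region -/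
theorem Ka_sq (h : S.OK) {a : ℕ} (ha : a < 2 * S.n) {u : ℤ}
    (hu : |u| ≤ (S.Q : ℤ) ^ 163 * 2 ^ S.j a) : S.Ka a * u ^ 2 ≤ (S.Q : ℤ) ^ 69 * S.D := by
  have h1 : u ^ 2 ≤ ((S.Q : ℤ) ^ 163 * 2 ^ S.j a) ^ 2 := by
    rw [← sq_abs u]
    exact pow_le_pow_left₀ (abs_nonneg _) hu 2
  have h2 := Kaz h ha
  generalize (2 : ℤ) ^ S.j a = P at *
  calc (S.Ka a : ℤ) * u ^ 2 ≤ S.Ka a * ((S.Q : ℤ) ^ 163 * P) ^ 2 :=
        mul_le_mul_of_nonneg_left h1 (Int.natCast_nonneg _)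
    _ = (S.Q : ℤ) ^ 26 * (S.Ka a * ((S.Q : ℤ) ^ 300 * P ^ 2)) := by ring
    _ = _ := by rw [h2]; ring

theorem pw_D (h : S.OK) {k l : ℕ} (hk : k ≤ l) : (S.Q : ℤ) ^ k * S.D ≤ (S.Q : ℤ) ^ l * S.D :=
  mul_le_mul_of_nonneg_right (pow_le_pow_right₀ (by linarith [Qz h]) hk) (Int.natCast_nonneg _)

theorem q4 (h : S.OK) : 4 * ((S.q : ℤ) + 1) ≤ S.Q := by
  have h1 : 300 * (S.q : ℤ) ≤ S.Q := by exact_mod_cast h.qQ'
  have h2 : (12 : ℤ) ≤ S.q := by exact_mod_cast h.q_ge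
  linarith

theorem w_tail (h : S.OK) (ζ : ℕ → ℤ) {Y : Vec} (hY : S.Om (S.Q ^ 12) Y) (t : Fin S.b.nt → ℤ) :
    S.w ζ (Y + ∑ i : Fin S.b.nt, t i • S.gv i) ≤
      (2 : ℝ) ^ ((S.Q : ℝ) ^ 309 - (∑ i, |(t i : ℝ)|) / (2 * S.n)) * S.w ζ Y := by
  refine w_tail_of h ζ Y ?_ t
  have hQ := Qz h
  have key : ∑ a ∈ range (2 * S.n), tc S a Y ≤ (S.Q : ℤ) ^ (308 + 1) * S.D := by
    refine sum_bd h fun a ha => ?_
    have p0 : 0 ≤ (S.Q : ℤ) ^ 308 * S.D :=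
      mul_nonneg (pow_nonneg (Int.natCast_nonneg _) _) (Int.natCast_nonneg _)
    have h1 := hY a ha
    push_cast at h1
    unfold tc
    split_ifs with hp
    · rw [jroot h ha hp] at h1
      have e : (S.rH : ℤ) = (S.q + 1) * (S.Q : ℤ) ^ 307 := by
        rw [rH_eq, Nat.cast_mul, Nat.cast_pow, Nat.cast_add, Nat.cast_one]
      have hq : ((S.q : ℤ) + 1) ^ 2 ≤ S.Q := by exact_mod_cast h.qQ
      have t1 : ((S.q : ℤ) + 1) * S.D * S.rH ≤ (S.Q : ℤ) ^ 308 * S.D := by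
        calc ((S.q : ℤ) + 1) * S.D * S.rH = ((S.q : ℤ) + 1) ^ 2 * ((S.Q : ℤ) ^ 307 * S.D) := by
              rw [e]; ring
          _ ≤ S.Q * ((S.Q : ℤ) ^ 307 * S.D) := mul_le_mul_of_nonneg_right hq
              (mul_nonneg (pow_nonneg (Int.natCast_nonneg _) _) (Int.natCast_nonneg _))
          _ = _ := by ring
      have t2 : 4 * ((S.q : ℤ) + 1) * S.D * |S.X a Y - S.lo a| ≤ (S.Q : ℤ) ^ 308 * S.D := by
        calc 4 * ((S.q : ℤ) + 1) * S.D * |S.X a Y - S.lo a|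
            ≤ S.Q * S.D * ((S.Q : ℤ) ^ 12 * (S.Q : ℤ) ^ 150) :=
              mul_le_mul (mul_le_mul_of_nonneg_right (q4 h) (by positivity)) h1 (abs_nonneg _)
                (by positivity)
          _ = (S.Q : ℤ) ^ 163 * S.D := by ring
          _ ≤ _ := pw_D h (by norm_num)
      linarith
    · have t1 := Ka_sq h ha (h1.trans (mul_le_mul_of_nonneg_right
        (pow_le_pow_right₀ (by linarith) (by norm_num : 12 ≤ 163)) (by positivity)))
      have t2 := pw_D h (by norm_num : 69 ≤ 308)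
      linarith
  exact_mod_cast key

theorem cost_le (h : S.OK) {Y Y' : Vec} (hY : S.Om (S.Q ^ 163) Y) (hY' : S.Om (S.Q ^ 163) Y') :
    ∑ a ∈ range (2 * S.n), (S.cst a : ℤ) * |S.X a (Y - Y')| ≤ (S.Q : ℤ) ^ (314 + 1) * S.D := by
  have hQ := Qz h
  refine sum_bd h fun a ha => ?_
  have h1 := hY a ha
  have h2 := hY' a ha
  push_cast at h1 h2
  have h3 : |S.X a (Y - Y')| ≤ 2 * ((S.Q : ℤ) ^ 163 * 2 ^ S.j a) := by
    rw [X_sub, show S.X a Y - S.X a Y' = (S.X a Y - S.lo a) - (S.X a Y' - S.lo a) by ring]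
    refine (abs_sub _ _).trans ?_
    linarith
  refine (mul_le_mul_of_nonneg_left h3 (Int.natCast_nonneg _)).trans ?_
  by_cases hp : S.p a = a
  · rw [jroot h ha hp, cstr hp]
    have hq : 2 * (S.q : ℤ) ≤ S.Q := by linarith [q4 h, Int.natCast_nonneg S.q]
    calc 2 * (S.q : ℤ) * S.D * (2 * ((S.Q : ℤ) ^ 163 * (S.Q : ℤ) ^ 150))
        ≤ S.Q * S.D * (2 * ((S.Q : ℤ) ^ 163 * (S.Q : ℤ) ^ 150)) :=
          mul_le_mul_of_nonneg_right (mul_le_mul_of_nonneg_right hq (by positivity))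
            (by positivity)
      _ = _ := by ring
  · have t1 := cstz h ha hp
    have t2 := pw_D h (by norm_num : 175 ≤ 314)
    generalize (2 : ℤ) ^ S.j a = P at *
    calc (S.cst a : ℤ) * (2 * ((S.Q : ℤ) ^ 163 * P))
        = 2 * (S.Q : ℤ) ^ 163 * (S.cst a * P) := by ring
      _ = 2 * ((S.Q : ℤ) ^ 175 * S.D) := by rw [t1]; ring
      _ ≤ _ := by linarith

theorem Mar_le (h : S.OK) {Y : Vec} (hY : S.Om (S.Q ^ 163) Y) :
    S.Mar Y ≤ (S.Q : ℤ) ^ (314 + 1) * S.D := by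
  refine sum_bd h fun a ha => ?_
  have p0 : 0 ≤ (S.Q : ℤ) ^ 314 * S.D :=
    mul_nonneg (pow_nonneg (Int.natCast_nonneg _) _) (Int.natCast_nonneg _)
  have h1 := hY a ha
  push_cast at h1
  unfold mar
  split_ifs with hp
  · rw [jroot h ha hp] at h1
    have hq : 2 * ((S.q : ℤ) + 1) ≤ S.Q := by linarith [q4 h, Int.natCast_nonneg S.q]
    have t1 : S.Hub (S.X a Y - S.lo a) ≤ (S.Q : ℤ) ^ 314 * S.D := by
      calc S.Hub (S.X a Y - S.lo a) ≤ 2 * (S.q + 1) * S.D * |S.X a Y - S.lo a| := Hub_le _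
        _ ≤ S.Q * S.D * ((S.Q : ℤ) ^ 163 * (S.Q : ℤ) ^ 150) :=
          mul_le_mul (mul_le_mul_of_nonneg_right hq (by positivity)) h1 (abs_nonneg _)
            (by positivity)
        _ = _ := by ring
    linarith
  · have t1 := Ka_sq h ha h1
    have t2 := pw_D h (by norm_num : 69 ≤ 314)
    linarith

theorem three (h : S.OK) : 3 * ((S.Q : ℤ) ^ (314 + 1) * S.D) ≤ (S.Q : ℤ) ^ 320 * S.D := by
  have h1 := mul_le_mul_of_nonneg_right (pw_le (Qz h) (by norm_num : 314 + 1 + 1 ≤ 320))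
    (Int.natCast_nonneg S.D)
  have p0 : 0 ≤ (S.Q : ℤ) ^ (314 + 1) * S.D :=
    mul_nonneg (pow_nonneg (Int.natCast_nonneg _) _) (Int.natCast_nonneg _)
  linarith

theorem En_diff (h : S.OK) (ζ : ℕ → ℤ) {Y Y' : Vec} (hY : S.Om (S.Q ^ 163) Y)
    (hY' : S.Om (S.Q ^ 163) Y') : |S.En ζ Y - S.En ζ Y'| ≤ (S.Q : ℤ) ^ 320 * S.D := by
  have h1 := nz_add h ζ Y' (Y - Y')
  rw [add_sub_cancel] at h1
  have h2 := abs_le.1 (h1.trans (cost_le h hY hY'))
  have h3 := Mar_le h hY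
  have h4 := Mar_le h hY'
  have h5 := Mar_nonneg (S := S) Y
  have h6 := Mar_nonneg (S := S) Y'
  have h7 := three h
  have p0 : 0 ≤ (S.Q : ℤ) ^ (314 + 1) * S.D :=
    mul_nonneg (pow_nonneg (Int.natCast_nonneg _) _) (Int.natCast_nonneg _)
  unfold En
  generalize (S.Q : ℤ) ^ (314 + 1) * S.D = x at *
  generalize (S.Q : ℤ) ^ 320 * S.D = y at *
  rw [abs_le]
  constructor <;> linarith [h2.1, h2.2]

theorem En_le (h : S.OK) (ζ : ℕ → ℤ) {Y : Vec} (hY : S.Om (S.Q ^ 163) Y) :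
    S.En ζ Y ≤ (S.Q : ℤ) ^ 320 * S.D := by
  obtain ⟨x, hx⟩ := h.ne
  have hn : 4 * S.n ^ 3 ≤ S.Q ^ 163 := by
    have h1 := h.nQ
    calc 4 * S.n ^ 3 ≤ (2048 * S.n) ^ 3 := by rw [mul_pow]; exact Nat.mul_le_mul_right _ (by norm_num)
      _ ≤ S.Q ^ 3 := Nat.pow_le_pow_left h1 3
      _ ≤ S.Q ^ 163 := Nat.pow_le_pow_right Q_pos (by norm_num)
  have h1 := h.nz_le ζ hx Y
  have h2 : cost (2 * S.n) S.p S.cst (Y - dg S.n x) ≤ _ := cost_le h hY ((h.om_PS hx).mono hn)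
  have h3 := Mar_le h hY
  have h7 := three h
  have p0 : 0 ≤ (S.Q : ℤ) ^ (314 + 1) * S.D :=
    mul_nonneg (pow_nonneg (Int.natCast_nonneg _) _) (Int.natCast_nonneg _)
  unfold En
  generalize (S.Q : ℤ) ^ (314 + 1) * S.D = x at *
  generalize (S.Q : ℤ) ^ 320 * S.D = y at *
  linarith

end Crest.Agent.R302.RegB
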