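import Crest.Agent.R302.Par
import Crest.Agent.R302.RegA
import Crest.Agent.R302.RegB

/-! Row 302: regions and elementary bounds on the energy. -/

set_option autoImplicit false

namespace Crest.Agent.R302

open Crest.Agent.PT Crest.Agent.R309 Finset

namespace Mod.OK

variable {S : Mod}

theorem om_pt (h : S.OK) (γ θ : ℕ → ℤ) (r1 r2 : ℕ)
    (h1 : ∀ e < S.b.nf, |γ e - S.gc e| ≤ (r1 : ℤ) * 2 ^ S.b.je e)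
    (h2 : ∀ i < S.b.nt, |θ i - S.th0 i| ≤ (r2 : ℤ) * 2 ^ S.g) :
    S.Om (S.Q ^ 6 + S.Q * (r1 + r2)) (dg S.n (S.b.pt S.n γ θ)) := by
  exact RegA.om_pt h γ θ r1 r2 h1 h2

theorem pt_supp (h : S.OK) (γ θ : ℕ → ℤ) {i : ℕ} (hi : S.n ≤ i) : S.b.pt S.n γ θ i = 0 := by
  exact RegA.pt_supp h γ θ hi

theorem pt_bd (h : S.OK) (γ θ : ℕ → ℤ)
    (h1 : ∀ e < S.b.nf, |γ e - S.gc e| ≤ (S.Q : ℤ) ^ 7 * 2 ^ S.b.je e)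
    (h2 : ∀ i < S.b.nt, |θ i - S.th0 i| ≤ 2 * S.T) (i : ℕ) :
    |S.b.pt S.n γ θ i| ≤ 2 ^ (2 * S.Q) := by
  exact RegA.pt_bd h γ θ h1 h2 i

/-- the coordinates of the points of the polytope -/
theorem coord_PS (h : S.OK) {x : Vec} (hx : x ∈ PS S.n S.f1 S.f2) : ∃ γ θ : ℕ → ℤ,
    x = S.b.pt S.n γ θ ∧ (∀ e < S.b.nf, |γ e - S.gc e| ≤ 8 * (S.n : ℤ) ^ 5 * 2 ^ S.b.je e) ∧
      ∀ i < S.b.nt, |θ i - S.th0 i| ≤ 8 * (S.n : ℤ) ^ 4 * 2 ^ S.g := by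
  exact RegA.coord_PS h hx

theorem om_y (h : S.OK) {k : List ℕ} (hk : ∀ e < S.E, k.getD e 0 ≤ S.rho.getD e 0) :
    S.Om (S.Q ^ 163) (dg S.n (S.y k)) := by
  exact RegA.om_y h hk

theorem om_yc (h : S.OK) {k : List ℕ} (hk : ∀ e < S.b.nf, k.getD e 0 ≤ S.M) :
    S.Om (S.Q ^ 8) (dg S.n (S.yc k)) := by
  exact RegA.om_yc h hk

theorem y_append (h : S.OK) {k : List ℕ} (hk : k.length = S.b.nf) (a : List ℕ) :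
    dg S.n (S.y (k ++ a)) =
      dg S.n (S.yc k) + ∑ i ∈ range S.b.nt, ((a.getD i 0 : ℤ) - S.T) • S.gv i := by
  exact RegA.y_append hk a

theorem yc_inc (h : S.OK) {k : List ℕ} (hk : k.length = S.b.nf) {e : ℕ} (he : e < S.b.nf) :
    dg S.n (S.yc (inc k e)) = dg S.n (S.yc k) + (S.tau e : ℤ) • dg S.n (S.b.z S.n e) := by
  exact RegA.yc_inc hk he

theorem w_ratio (h : S.OK) (ζ : ℕ → ℤ) {Y : Vec} (hY : S.Om (S.Q ^ 200) Y) {i : ℕ}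
    (hi : i < 2 * S.n) : S.w ζ (Y + ev i) ≤ 16 * (S.Q : ℝ) ^ 4 * S.w ζ Y ∧
      S.w ζ Y ≤ 16 * (S.Q : ℝ) ^ 4 * S.w ζ (Y + ev i) := by
  exact RegB.w_ratio h ζ hY i

/-- one step of a fat coordinate changes the energy by at most `D / 4` -/
theorem En_step (h : S.OK) (ζ : ℕ → ℤ) {Y : Vec} (hY : S.Om (S.Q ^ 200) Y) {e : ℕ}
    (he : e < S.b.nf) :
    4 * |S.En ζ (Y + (S.tau e : ℤ) • dg S.n (S.b.z S.n e)) - S.En ζ Y| ≤ S.D := by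
  exact RegB.En_step h ζ hY he

theorem w_tail (h : S.OK) (ζ : ℕ → ℤ) {Y : Vec} (hY : S.Om (S.Q ^ 12) Y) (t : Fin S.b.nt → ℤ) :
    S.w ζ (Y + ∑ i : Fin S.b.nt, t i • S.gv i) ≤
      (2 : ℝ) ^ ((S.Q : ℝ) ^ 309 - (∑ i, |(t i : ℝ)|) / (2 * S.n)) * S.w ζ Y := by
  exact RegB.w_tail h ζ hY t

theorem w_tail_gen (h : S.OK) (ζ : ℕ → ℤ) (Y : Vec) : ∃ Θ : ℝ, ∀ t : Fin S.b.nt → ℤ,
    S.w ζ (Y + ∑ i : Fin S.b.nt, t i • S.gv i) ≤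
      (2 : ℝ) ^ (Θ - (∑ i, |(t i : ℝ)|) / (2 * S.n)) * S.w ζ Y := by
  exact RegB.w_tail_gen h ζ Y

theorem En_diff (h : S.OK) (ζ : ℕ → ℤ) {Y Y' : Vec} (hY : S.Om (S.Q ^ 163) Y)
    (hY' : S.Om (S.Q ^ 163) Y') : |S.En ζ Y - S.En ζ Y'| ≤ (S.Q : ℤ) ^ 320 * S.D := by
  exact RegB.En_diff h ζ hY hY'

theorem En_le (h : S.OK) (ζ : ℕ → ℤ) {Y : Vec} (hY : S.Om (S.Q ^ 163) Y) :
    S.En ζ Y ≤ (S.Q : ℤ) ^ 320 * S.D := by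
  exact RegB.En_le h ζ hY

theorem en_bd (h : S.OK) (ζ : List ℤ) {k : List ℕ} (hk : k ∈ bx S.E [] S.rho) :
    (S.en ζ k).natAbs ≤ S.Q ^ 322 := by
  exact RegA.en_bd h ζ hk (fun ζ _ _ h1 h2 => h.En_diff ζ h1 h2) fun ζ _ h1 => h.En_le ζ h1

theorem wt_en (ζ : List ℤ) (k : List ℕ) :
    (2 : ℝ) ^ S.off (fun p => ζ.getD p 0) * S.W (fun p => ζ.getD p 0) k ≤ wt (S.en ζ) k ∧
      wt (S.en ζ) k ≤ 2 * ((2 : ℝ) ^ S.off (fun p => ζ.getD p 0) * S.W (fun p => ζ.getD p 0) k) := by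
  exact RegA.wt_en ζ k

end Mod.OK

end Crest.Agent.R302
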