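import Crest.Agent.R302.Nice
import Crest.Agent.R309.Chain
import Crest.Agent.R309.ModelPT

/-! Row 302: the Metropolis sampler of a nice energy. -/

set_option autoImplicit false

namespace Crest.Agent.R302

open Crest.Agent.PT Crest.Agent.R309 Finset

namespace SampX

open Crest.Agent.R309.StepX Crest.Agent.R309.ChainX

/-- allowed moves inside the box -/
def ok (E : ℕ) (lo hi a : List ℕ) (e : ℕ) (up : Bool) : Prop :=
  e < E ∧ if up then a.getD e 0 < hi.getD e 0 else lo.getD e 0 < a.getD e 0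

instance (E : ℕ) (lo hi a : List ℕ) (e : ℕ) (up : Bool) : Decidable (ok E lo hi a e up) := by
  unfold ok; infer_instance

/-- the proposed state -/
def prp (P : ℕ) (a : List ℕ) (r : Word) : List ℕ :=
  Dat.mv a (ofB (r.take (Nat.size P))) (r.getD (Nat.size P) false)

/-- one step, given the energy difference -/
def stp (P E : ℕ) (lo hi a : List ℕ) (r : Word) (d : ℤ) : List ℕ :=
  if r.getD (Nat.size P + 1) false = true ∧
      ok E lo hi a (ofB (r.take (Nat.size P))) (r.getD (Nat.size P) false) ∧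
      ofB (r.drop (Nat.size P + 2)) < 2 ^ (2 * P - d.toNat)
    then prp P a r else a

/-- one step of the lazy Metropolis chain -/
def step (P E : ℕ) (lo hi : List ℕ) (en : List ℕ → ℤ) (a : List ℕ) (r : Word) : List ℕ :=
  stp P E lo hi a r (en (prp P a r) - en a)

/-- the starting state -/
def st0 (E : ℕ) (lo : List ℕ) : List ℕ := (List.range E).map fun e => lo.getD e 0

def sL (P : ℕ) : ℕ := Nat.size P + 2 + 2 * P
def sC (P : ℕ) : ℕ := 4 * P * 2 ^ Nat.size P
def sT (P : ℕ) : ℕ := 4 * sC P * (P + (2 * P + P * Nat.size P))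

/-- a sample -/
def smp (P E : ℕ) (lo hi : List ℕ) (en : List ℕ → ℤ) (ω : Word) : List ℕ :=
  iterR (sL P) (step P E lo hi en) (sT P) (st0 E lo) ω

section chain

variable {P E : ℕ} {ρ lo hi : List ℕ} {en : List ℕ → ℤ}

theorem mv_mem {a : List ℕ} (ha : a ∈ bx E lo hi) {e : ℕ} {up : Bool} (hm : ok E lo hi a e up) :
    Dat.mv a e up ∈ bx E lo hi := by
  obtain ⟨hl, ha⟩ := mem_bx.1 ha
  obtain ⟨he, hm⟩ := hm
  refine mem_bx.2 ⟨by rw [length_mv, hl], fun i hi => ?_⟩
  rw [getD_mv (hl ▸ he)]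
  have := ha i hi
  split_ifs with h1 h2
  · subst h1; simp only [h2, if_true] at hm; omega
  · subst h1; simp only [h2] at hm; simp only [Bool.false_eq_true, if_false] at hm; omega
  · exact this

theorem mv_ne {a : List ℕ} (ha : a ∈ bx E lo hi) {e : ℕ} {up : Bool} (hm : ok E lo hi a e up) :
    a ≠ Dat.mv a e up := by
  obtain ⟨hl, -⟩ := mem_bx.1 ha
  obtain ⟨he, hm⟩ := hm
  intro h
  have := congrArg (fun l => l.getD e 0) h
  simp only [getD_mv (hl ▸ he), if_true] at this
  cases up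
  · simp only [Bool.false_eq_true, if_false] at this hm; omega
  · simp only [if_true] at this; omega

theorem mv_inj {a : List ℕ} (ha : a ∈ bx E lo hi) {e e' : ℕ} {up up' : Bool}
    (hm : ok E lo hi a e up) (hm' : ok E lo hi a e' up') (h : Dat.mv a e' up' = Dat.mv a e up) :
    e' = e ∧ up' = up := by
  obtain ⟨hl, -⟩ := mem_bx.1 ha
  obtain ⟨he, hm⟩ := hm
  obtain ⟨he', hm'⟩ := hm'
  have := congrArg (fun l => l.getD e 0) h
  simp only [getD_mv (hl ▸ he), getD_mv (hl ▸ he'), if_true] at this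
  by_cases h1 : e = e'
  · subst h1
    refine ⟨rfl, ?_⟩
    cases up <;> cases up' <;>
      simp only [Bool.false_eq_true, if_false, if_true] at this hm hm' ⊢ <;> omega
  · exfalso
    rw [if_neg h1] at this
    cases up <;> simp only [Bool.false_eq_true, if_false, if_true] at this hm <;> omega

theorem mv_rev {a : List ℕ} (ha : a ∈ bx E lo hi) {e : ℕ} {up : Bool} (hm : ok E lo hi a e up) :
    ok E lo hi (Dat.mv a e up) e (!up) ∧ Dat.mv (Dat.mv a e up) e (!up) = a := by
  obtain ⟨hl, ha⟩ := mem_bx.1 ha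
  obtain ⟨he, hm⟩ := hm
  have h0 := ha e he
  have he1 : e < a.length := hl ▸ he
  have he2 : e < (Dat.mv a e up).length := by rwa [length_mv]
  constructor
  · refine ⟨he, ?_⟩
    rw [getD_mv he1, if_pos rfl]
    cases up <;> simp only [Bool.false_eq_true, if_false, if_true, Bool.not_true,
      Bool.not_false] at hm ⊢ <;> omega
  · refine ext_getD (by rw [length_mv, length_mv]) fun i => ?_
    rw [getD_mv he2, getD_mv he1, getD_mv he1, if_pos rfl]
    by_cases hi : i = e
    · subst hi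
      cases up <;> simp only [Bool.false_eq_true, if_false, if_true, Bool.not_true,
        Bool.not_false] at hm ⊢ <;> omega
    · simp only [if_neg hi]

theorem step_cases (a : List ℕ) (r : Word) : step P E lo hi en a r = a ∨
    ∃ e up, ok E lo hi a e up ∧ step P E lo hi en a r = Dat.mv a e up := by
  unfold step stp
  split_ifs with h
  · exact Or.inr ⟨_, _, h.2.1, rfl⟩
  · exact Or.inl rfl

theorem step_mem {a : List ℕ} (ha : a ∈ bx E lo hi) (r : Word) :
    step P E lo hi en a r ∈ bx E lo hi := by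
  rcases step_cases (P := P) (E := E) (lo := lo) (hi := hi) (en := en) a r with h | ⟨e, up, hm, h⟩
  · rwa [h]
  · rw [h]; exact mv_mem ha hm

theorem getD_st0 {e : ℕ} (he : e < E) : (st0 E lo).getD e 0 = lo.getD e 0 := by
  simp [st0, List.getD_eq_getElem?_getD, he]

theorem st0_mem (h : Sub E ρ lo hi) : st0 E lo ∈ bx E lo hi :=
  mem_bx.2 ⟨by simp [st0], fun e he => by rw [getD_st0 he]; exact ⟨le_rfl, (h e he).1⟩⟩

theorem smp_mem (h : Sub E ρ lo hi) (ω : Word) : smp P E lo hi en ω ∈ bx E lo hi :=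
  iterR_inv _ _ (fun _ s => s ∈ bx E lo hi) (fun _ _ r hs => step_mem hs r) _ (st0_mem h) _ _

theorem mem_big (h : Sub E ρ lo hi) {a : List ℕ} (ha : a ∈ bx E lo hi) : a ∈ bx E [] ρ := by
  obtain ⟨hl, ha⟩ := mem_bx.1 ha
  exact mem_bx.2 ⟨hl, fun e he => ⟨by simp, (ha e he).2.trans (h e he).2⟩⟩

theorem step_lazy (a : List ℕ) : 1 / 2 ≤ Pr (sL P) fun r => step P E lo hi en a r = a := by
  have h := Pr_parts (Nat.size P) (2 * P) fun _ _ b _ => b = false
  rw [Pr_true (A := fun _ => false = false) _ fun _ _ => rfl,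
    Pr_false (A := fun _ => true = false) _ fun _ _ => by simp, Ex_const] at h
  refine le_trans (le_of_eq (Eq.trans (by norm_num) h.symm)) (Pr_mono fun r _ hr => ?_)
  unfold step stp
  rw [if_neg fun h' => by rw [hr] at h'; exact absurd h'.1 (by simp)]

/-- the probability of an allowed move -/
theorem step_mv (hE : E ≤ P) (hen : ∀ k ∈ bx E lo hi, (en k).natAbs ≤ P) {a : List ℕ}
    (ha : a ∈ bx E lo hi) {e : ℕ} {up : Bool} (hm : ok E lo hi a e up) :
    wt en a * Pr (sL P) (fun r => step P E lo hi en a r = Dat.mv a e up) =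
      min (wt en a) (wt en (Dat.mv a e up)) / (4 * 2 ^ Nat.size P) := by
  have hb := mv_mem ha hm
  obtain ⟨d, hd⟩ : ∃ d, d = (en (Dat.mv a e up) - en a).toNat := ⟨_, rfl⟩
  have hdX : d ≤ 2 * P := by
    have h1 := hen _ ha
    have h2 := hen _ hb
    omega
  have he : e < 2 ^ Nat.size P := lt_of_lt_of_le hm.1 (hE.trans (Nat.lt_size_self _).le)
  have h1 : Pr (sL P) (fun r => step P E lo hi en a r = Dat.mv a e up)
      = Pr (Nat.size P + 2 + 2 * P) fun r => (fun (u : Word) (b1 b2 : Bool) (v : Word) =>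
        ofB u = e ∧ b1 = up ∧ b2 = true ∧ ofB v < 2 ^ (2 * P - d)) (r.take (Nat.size P))
          (r.getD (Nat.size P) false) (r.getD (Nat.size P + 1) false)
          (r.drop (Nat.size P + 2)) := by
    refine Pr_congr fun r _ => ?_
    unfold step stp prp
    constructor
    · intro hr
      split_ifs at hr with hc
      · obtain ⟨e1, e2⟩ := mv_inj ha hm hc.2.1 hr
        refine ⟨e1, e2, hc.1, ?_⟩
        have := hc.2.2
        rwa [e1, e2, ← hd] at this
      · exact absurd hr (mv_ne ha hm)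
    · rintro ⟨e1, e2, e3, e4⟩
      rw [e1, e2, if_pos ⟨e3, hm, by rwa [← hd]⟩]
  have hq : Pr (2 * P) (fun v => ofB v < 2 ^ (2 * P - d)) = 1 / 2 ^ d := by
    rw [Pr_ofB_lt (Nat.pow_le_pow_right (by norm_num) (Nat.sub_le _ _))]
    obtain ⟨m, hm⟩ := Nat.exists_eq_add_of_le hdX
    rw [hm, Nat.add_sub_cancel_left, pow_add]
    push_cast
    field_simp
  have h2 : ∀ (u : Word) (b1 b2 : Bool), Pr (2 * P)
      (fun v => ofB u = e ∧ b1 = up ∧ b2 = true ∧ ofB v < 2 ^ (2 * P - d))
      = if b1 = up ∧ b2 = true then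
          1 / 2 ^ d * @ite ℝ (ofB u = e) (Classical.propDecidable _) 1 0 else 0 := by
    intro u b1 b2
    by_cases c1 : b1 = up ∧ b2 = true
    · rw [if_pos c1]
      by_cases c2 : ofB u = e
      · rw [if_pos c2, mul_one, ← hq]
        exact Pr_congr fun v _ => by simp only [c1.1, c1.2, c2, true_and]
      · rw [if_neg c2, mul_zero]
        exact Pr_false _ fun v _ hv => c2 hv.1
    · rw [if_neg c1]
      exact Pr_false _ fun v _ hv => c1 ⟨hv.2.1, hv.2.2.1⟩
  have h3 : Pr (sL P) (fun r => step P E lo hi en a r = Dat.mv a e up)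
      = 1 / 2 ^ d / 4 * (1 / 2 ^ Nat.size P) := by
    rw [h1, ← Pr_ofB_eq he]
    refine (Pr_parts (Nat.size P) (2 * P) fun (u : Word) (b1 b2 : Bool) (v : Word) =>
        ofB u = e ∧ b1 = up ∧ b2 = true ∧ ofB v < 2 ^ (2 * P - d)).trans ?_
    refine Eq.trans (Ex_congr fun u _ => ?_) (Ex_mul_left _ _ _)
    rw [h2, h2, h2, h2]
    generalize @ite ℝ (ofB u = e) (Classical.propDecidable _) 1 0 = z
    cases up <;> simp <;> ring
  have h4 : wt en a * (1 / 2 ^ d) = min (wt en a) (wt en (Dat.mv a e up)) := by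
    unfold wt
    rcases le_total (en a) (en (Dat.mv a e up)) with c | c
    · rw [min_eq_right (zpow_le_zpow_right₀ (by norm_num) (by omega)), one_div, ← zpow_natCast,
        ← zpow_neg, ← zpow_add₀ (by norm_num)]
      congr 1
      omega
    · rw [min_eq_left (zpow_le_zpow_right₀ (by norm_num) (by omega))]
      have : d = 0 := by omega
      rw [this]; simp
  rw [h3, ← h4]
  ring

theorem step_rev (hE : E ≤ P) (hen : ∀ k ∈ bx E lo hi, (en k).natAbs ≤ P) {a b : List ℕ}
    (ha : a ∈ bx E lo hi) (hb : b ∈ bx E lo hi) :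
    wt en a * Pr (sL P) (fun r => step P E lo hi en a r = b) =
      wt en b * Pr (sL P) fun r => step P E lo hi en b r = a := by
  have main : ∀ {a b : List ℕ}, a ∈ bx E lo hi → ∀ e up, ok E lo hi a e up → b = Dat.mv a e up →
      wt en a * Pr (sL P) (fun r => step P E lo hi en a r = b) =
        wt en b * Pr (sL P) fun r => step P E lo hi en b r = a := by
    intro a b ha e up hm hb
    subst hb
    obtain ⟨r1, r2⟩ := mv_rev ha hm
    have := step_mv hE hen (mv_mem ha hm) r1
    rw [r2] at this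
    rw [this, step_mv hE hen ha hm, min_comm]
  by_cases hab : a = b
  · subst hab; rfl
  by_cases c1 : ∃ e up, ok E lo hi a e up ∧ b = Dat.mv a e up
  · obtain ⟨e, up, hm, hb'⟩ := c1
    exact main ha e up hm hb'
  by_cases c2 : ∃ e up, ok E lo hi b e up ∧ a = Dat.mv b e up
  · obtain ⟨e, up, hm, ha'⟩ := c2
    exact (main hb e up hm ha').symm
  rw [Pr_false, Pr_false, mul_zero, mul_zero]
  · intro r _ hr
    rcases step_cases (P := P) (E := E) (lo := lo) (hi := hi) (en := en) b r with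
      h' | ⟨e, up, hm, h'⟩
    · exact hab (hr.symm.trans h')
    · exact c2 ⟨e, up, hm, hr.symm.trans h'⟩
  · intro r _ hr
    rcases step_cases (P := P) (E := E) (lo := lo) (hi := hi) (en := en) a r with
      h' | ⟨e, up, hm, h'⟩
    · exact hab (h'.symm.trans hr)
    · exact c1 ⟨e, up, hm, hr.symm.trans h'⟩

theorem poincare (hPin : Pin E ρ lo hi) (h : Nice E ρ P en) (f : List ℕ → ℝ) :
    (∑ a ∈ bx E lo hi, wt en a) * (∑ a ∈ bx E lo hi, wt en a * f a ^ 2)
        - (∑ a ∈ bx E lo hi, wt en a * f a) ^ 2 ≤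
      (sC P : ℝ) * (∑ a ∈ bx E lo hi, wt en a) * ∑ a ∈ bx E lo hi, ∑ b ∈ bx E lo hi,
        wt en a * Pr (sL P) (fun r => step P E lo hi en a r = b) * (f a - f b) ^ 2 := by
  have hS := hPin.sub
  obtain ⟨hE, hP2, hρ, hen', hPoi⟩ := h
  have hen : ∀ k ∈ bx E lo hi, (en k).natAbs ≤ P := fun k hk => hen' k (mem_big hS hk)
  have hP := hPoi lo hi hPin f
  set Ω := bx E lo hi with hΩ
  set Q := ∑ a ∈ Ω, ∑ b ∈ Ω,
    wt en a * Pr (sL P) (fun r => step P E lo hi en a r = b) * (f a - f b) ^ 2 with hQ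
  have t0 : ∀ a b, 0 ≤ wt en a * Pr (sL P) (fun r => step P E lo hi en a r = b) * (f a - f b) ^ 2 :=
    fun a b => mul_nonneg (mul_nonneg (wt_pos en a).le (Pr_nonneg _ _)) (sq_nonneg _)
  have Q0 : 0 ≤ Q := sum_nonneg fun a _ => sum_nonneg fun b _ => t0 a b
  have h2 : ∑ e ∈ range E, ∑ a ∈ Ω.filter (fun a => a.getD e 0 < hi.getD e 0),
      min (wt en a) (wt en (inc a e)) * (f (inc a e) - f a) ^ 2 ≤ (4 * 2 ^ Nat.size P) * Q := by
    simp only [sum_filter]
    rw [sum_comm, hQ, mul_sum]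
    refine sum_le_sum fun a ha => ?_
    have hl := (mem_bx.1 ha).1
    rw [← sum_filter]
    set A := (range E).filter fun e => a.getD e 0 < hi.getD e 0 with hA
    have hA' : ∀ e ∈ A, ok E lo hi a e true := fun e he => by
      obtain ⟨a1, a2⟩ := mem_filter.1 he
      exact ⟨mem_range.1 a1, by simpa using a2⟩
    have inj : Set.InjOn (inc a) A := by
      intro e he e' he' hee
      exact (mv_inj ha (hA' e' he') (hA' e he) hee).1
    calc ∑ e ∈ A, min (wt en a) (wt en (inc a e)) * (f (inc a e) - f a) ^ 2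
        ≤ ∑ e ∈ A, (4 * 2 ^ Nat.size P) * (wt en a
          * Pr (sL P) (fun r => step P E lo hi en a r = inc a e) * (f a - f (inc a e)) ^ 2) := by
          refine sum_le_sum fun e he => ?_
          have b1 := step_mv hE hen ha (hA' e he)
          have e1 : Dat.mv a e true = inc a e := rfl
          rw [e1] at b1
          rw [b1]
          refine le_of_eq ?_
          field_simp
          ring
      _ = (4 * 2 ^ Nat.size P) * ∑ b ∈ A.image (inc a), wt en a
          * Pr (sL P) (fun r => step P E lo hi en a r = b) * (f a - f b) ^ 2 := by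
          rw [sum_image inj, mul_sum]
      _ ≤ _ := by
          refine mul_le_mul_of_nonneg_left (sum_le_sum_of_subset_of_nonneg ?_ fun b _ _ => t0 a b)
            (by positivity)
          intro b hb
          obtain ⟨e, he, rfl⟩ := mem_image.1 hb
          exact mv_mem ha (hA' e he)
  have h30 : 0 ≤ ∑ a ∈ Ω, wt en a := sum_nonneg fun a _ => (wt_pos en a).le
  refine hP.trans ((mul_le_mul_of_nonneg_left h2 (by positivity)).trans (le_of_eq ?_))
  unfold sC; push_cast; ring

theorem card_le (hS : Sub E ρ lo hi) (h : Nice E ρ P en) :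
    (bx E lo hi).card ≤ 2 ^ (P * Nat.size P) := by
  obtain ⟨hE, hP2, hρ, -⟩ := h
  unfold bx
  refine card_image_le.trans ?_
  rw [Fintype.card_piFinset]
  refine (prod_le_pow_card _ _ (2 ^ Nat.size P) fun i _ => ?_).trans ?_
  · rw [Nat.card_Icc]
    have := hρ i i.2
    have := hS i i.2
    have := Nat.lt_size_self P
    omega
  · rw [← pow_mul, card_univ, Fintype.card_fin, mul_comm]
    exact Nat.pow_le_pow_right (by omega) (Nat.mul_le_mul_right _ hE)

theorem wt_bounds {a : List ℕ} (h1 : (en a).natAbs ≤ P) :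
    (2 : ℝ)⁻¹ ^ P ≤ wt en a ∧ wt en a ≤ 2 ^ P := by
  unfold wt
  constructor
  · rw [inv_pow, ← zpow_natCast, ← zpow_neg]
    exact zpow_le_zpow_right₀ (by norm_num) (by omega)
  · rw [← zpow_natCast]
    exact zpow_le_zpow_right₀ (by norm_num) (by omega)

theorem smp_mix (hPin : Pin E ρ lo hi) (h : Nice E ρ P en) {b : List ℕ} (hb : b ∈ bx E lo hi) :
    |Pr (sT P * sL P) (fun ω => smp P E lo hi en ω = b) - wt en b / Zb E lo hi en| ≤
      (2 : ℝ)⁻¹ ^ P * (wt en b / Zb E lo hi en) := by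
  have hS := hPin.sub
  have hen : ∀ k ∈ bx E lo hi, (en k).natAbs ≤ P := fun k hk => h.2.2.2.1 k (mem_big hS hk)
  have hC : (1 : ℝ) ≤ (sC P : ℝ) := by
    have := h.2.1
    have : 0 < sC P := by unfold sC; positivity
    exact_mod_cast this
  have hw : ∀ a ∈ bx E lo hi, (2 : ℝ)⁻¹ ^ (2 * P + P * Nat.size P) * ∑ b ∈ bx E lo hi, wt en b
      ≤ wt en a := by
    intro a ha
    have h1 : ∑ b ∈ bx E lo hi, wt en b ≤ 2 ^ (P * Nat.size P) * 2 ^ P := by
      refine (sum_le_card_nsmul _ _ _ fun b hb => (wt_bounds (hen b hb)).2).trans ?_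
      rw [nsmul_eq_mul]
      have : ((bx E lo hi).card : ℝ) ≤ 2 ^ (P * Nat.size P) := by exact_mod_cast card_le hS h
      gcongr
    refine (mul_le_mul_of_nonneg_left h1 (by positivity)).trans
      (le_trans (le_of_eq ?_) (wt_bounds (hen a ha)).1)
    simp only [inv_pow, pow_add, two_mul]
    field_simp
  have hm := mixing (bx E lo hi) (wt en) (sL P) (step P E lo hi en) (sC P) _ (by positivity) hC hw
    (fun a _ => wt_pos en a) (fun a ha r => step_mem ha r)
    (fun a ha b hb => step_rev h.1 hen ha hb)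
    (fun a _ => step_lazy a) (poincare hPin h) (sT P) (st0_mem hS) hb
  refine le_trans hm (mul_le_mul_of_nonneg_right ?_
    (div_nonneg (wt_pos en b).le (sum_nonneg fun a _ => (wt_pos en a).le)))
  have e : ((sT P : ℕ) : ℝ) / (4 * (sC P : ℝ)) = ((P + (2 * P + P * Nat.size P) : ℕ) : ℝ) := by
    unfold sT; push_cast; field_simp
  rw [e, div_le_iff₀ (by positivity), ← pow_add]
  exact exp_neg_le _

theorem iter_bound (L n : ℕ) (ω : Word) :
    (iterR L (step P E lo hi en) n (st0 E lo) ω).length = E ∧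
      ∀ y ∈ iterR L (step P E lo hi en) n (st0 E lo) ω, y ≤ 2 ^ sz lo + n := by
  induction n with
  | zero =>
    refine ⟨by simp [iterR, st0], fun y hy => ?_⟩
    simp only [iterR, st0, List.mem_map] at hy
    obtain ⟨e, -, rfl⟩ := hy
    exact (getD_lt_szN lo e).le
  | succ n ih =>
    rw [iterR, step, stp]
    split_ifs
    · exact ⟨(Dat.mv_bound ih.2 _ _).1.trans ih.1, (Dat.mv_bound ih.2 _ _).2⟩
    · exact ⟨ih.1, fun y hy => (ih.2 y hy).trans (by omega)⟩

end chain

section pt

variable {β : Type} [Rp β] {P E : β → ℕ} {lo hi x : β → List ℕ} {ω : β → Word} {d : β → ℤ}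

theorem pu_sL (h : PU P) : PU fun a => sL (P a) :=
  ((PU.size h.ptime).add (PU.const 2)).add ((PU.const 2).mul h)

theorem pu_sC (h : PU P) : PU fun a => sC (P a) :=
  ((PU.const 4).mul h).mul (PU.two_pow_size h)

theorem pu_sT (h : PU P) : PU fun a => sT (P a) :=
  ((PU.const 4).mul (pu_sC h)).mul (h.add (((PU.const 2).mul h).add (h.mul (PU.size h.ptime))))

theorem ptime_prp (hP : PU P) (hx : PTime x) (hω : PTime ω) :
    PTime fun a => prp (P a) (x a) (ω a) := by
  have hs : PU fun a => Nat.size (P a) := PU.size hP.ptime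
  exact Dat.ptime_mv hx (PTime.take hs.ptime hω).ofB (hω.getD hs.ptime (PTime.const false))

theorem ptime_stp (hP : PU P) (hE : PU E) (hlo : PTime lo) (hhi : PTime hi) (hx : PTime x)
    (hω : PTime ω) (hd : PTime d) :
    PTime fun a => stp (P a) (E a) (lo a) (hi a) (x a) (ω a) (d a) := by
  have hs : PU fun a => Nat.size (P a) := PU.size hP.ptime
  have he : PTime fun a => ofB ((ω a).take (Nat.size (P a))) := (PTime.take hs.ptime hω).ofB
  have hu : PTime fun a => (ω a).getD (Nat.size (P a)) false :=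
    hω.getD hs.ptime (PTime.const false)
  have hok : PTime fun a => ok (E a) (lo a) (hi a) (x a) (ofB ((ω a).take (Nat.size (P a))))
      ((ω a).getD (Nat.size (P a)) false) :=
    (he.lt hE.ptime).and (PTime.ite (hu.beq (PTime.const true))
      ((getDN hx he).lt (getDN hhi he)) ((getDN hlo he).lt (getDN hx he)))
  exact PTime.ite (((hω.getD (hs.add (PU.const 1)).ptime (PTime.const false)).beq
    (PTime.const true)).and (hok.and
      ((PTime.drop (hs.add (PU.const 2)) hω).ofB.lt ((PTime.const 2).pow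
        (((PU.const 2).mul hP).sub' hd.toNat))))) (ptime_prp hP hx hω) hx

theorem ptime_st0 (hE : PU E) (hlo : PTime lo) : PTime fun a => st0 (E a) (lo a) :=
  rangeMapN (g := fun a e => (lo a).getD e 0) hE (by fun_prop)

end pt

end SampX

open SampX

theorem exists_smp {α : Type} [Rp α] [HasO α] (P E : α → ℕ) (hP : PU P) (hE : PU E)
    (en : α → List ℕ → ℤ) (hen : OT fun p : α × List ℕ => en p.1 p.2) :
    ∃ (L : ℕ → ℕ) (smp : α × List ℕ × List ℕ × Word → List ℕ),
      (PU fun u : Un => L u.val) ∧ OT smp ∧ ∀ a ρ lo hi, Pin (E a) ρ lo hi →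
        (∀ ω, smp (a, lo, hi, ω) ∈ bx (E a) lo hi) ∧
        (Nice (E a) ρ (P a) (en a) → ∀ k ∈ bx (E a) lo hi,
          |Pr (L (P a)) (fun ω => smp (a, lo, hi, ω) = k) - wt (en a) k / Zb (E a) lo hi (en a)| ≤
            (2 : ℝ)⁻¹ ^ P a * (wt (en a) k / Zb (E a) lo hi (en a))) := by
  have hu : PU fun u : Un => u.val := PTime.id
  refine ⟨fun p => sT p * sL p,
    fun q => SampX.smp (P q.1) (E q.1) q.2.1 q.2.2.1 (en q.1) q.2.2.2,
    (pu_sT hu).mul (pu_sL hu), ?_, fun a ρ lo hi hS => ⟨fun ω => smp_mem hS.sub ω,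
      fun h k hk => smp_mix hS h hk⟩⟩
  have hP' : PU fun q : α × List ℕ × List ℕ × Word => P q.1 := hP.comp PTime.fst'
  have hE' : PU fun q : α × List ℕ × List ℕ × Word => E q.1 := hE.comp PTime.fst'
  have hlo : PTime fun q : α × List ℕ × List ℕ × Word => q.2.1 := PTime.snd'.fst
  have hT := pu_sT hP'
  refine OT.iterR (step := fun q : α × List ℕ × List ℕ × Word =>
      step (P q.1) (E q.1) q.2.1 q.2.2.1 (en q.1)) (pu_sL hP') hT ?_
    (OT.of_ptime (ptime_st0 hE' hlo)) PTime.snd'.snd.snd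
    (hE'.pb.mul (((PB.const 2).mul ((hlo.sz.add hT.pb).add (PB.const 1))).add (PB.const 2)))
    fun q n hn => ?_
  · have hP2 : PU fun p : (α × List ℕ × List ℕ × Word) × List ℕ × Word => P p.1.1 :=
      hP'.comp PTime.fst'
    have h1 : OT fun p : (α × List ℕ × List ℕ × Word) × List ℕ × Word =>
        en p.1.1 (prp (P p.1.1) p.2.1 p.2.2) :=
      hen.pre (f := fun p : (α × List ℕ × List ℕ × Word) × List ℕ × Word =>
        (p.1.1, prp (P p.1.1) p.2.1 p.2.2))
        (PTime.fst'.fst.pair (ptime_prp hP2 PTime.snd'.fst PTime.snd'.snd)) fun _ => rfl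
    have h2 : OT fun p : (α × List ℕ × List ℕ × Word) × List ℕ × Word => en p.1.1 p.2.1 :=
      hen.pre (f := fun p : (α × List ℕ × List ℕ × Word) × List ℕ × Word => (p.1.1, p.2.1))
        (PTime.fst'.fst.pair PTime.snd'.fst) fun _ => rfl
    exact OT.map (E := fun z : ((α × List ℕ × List ℕ × Word) × List ℕ × Word) × ℤ × ℤ =>
        stp (P z.1.1.1) (E z.1.1.1) z.1.1.2.1 z.1.1.2.2.1 z.1.2.1 z.1.2.2 (z.2.1 - z.2.2))
      (ptime_stp (hP2.comp PTime.fst') ((hE'.comp PTime.fst').comp PTime.fst')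
        PTime.fst'.fst.snd.fst PTime.fst'.fst.snd.snd.fst PTime.fst'.snd.fst PTime.fst'.snd.snd
        (PTime.snd'.fst.isub PTime.snd'.snd)) (h1.pair h2)
  · obtain ⟨h1, h2⟩ := iter_bound (P := P q.1) (E := E q.1) (lo := q.2.1) (hi := q.2.2.1)
      (en := en q.1) (sL (P q.1)) n q.2.2.2
    have h3 := szN_le (b := sz q.2.1 + sT (P q.1) + 1) fun y hy => (h2 y hy).trans_lt (by
      have a1 : n < 2 ^ sT (P q.1) := hn.trans_lt Nat.lt_two_pow_self
      have a2 : 2 ^ sz q.2.1 ≤ 2 ^ (sz q.2.1 + sT (P q.1)) :=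
        Nat.pow_le_pow_right (by omega) (by omega)
      have a3 : 2 ^ sT (P q.1) ≤ 2 ^ (sz q.2.1 + sT (P q.1)) :=
        Nat.pow_le_pow_right (by omega) (by omega)
      rw [pow_succ]
      omega)
    rwa [h1] at h3

end Crest.Agent.R302
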