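import Crest.Agent.R302.OTL

/-! Row 302: approximate submodular minimisation by clipped subgradient steps. -/

set_option autoImplicit false

namespace Crest.Agent.R302

open Crest.Agent.PT Crest.Agent.R309 Finset

/-- submodular on the subsets of `range n` -/
def Submod (n : ℕ) (f : Finset ℕ → ℤ) : Prop :=
  ∀ A ⊆ range n, ∀ B ⊆ range n, f (A ∪ B) + f (A ∩ B) ≤ f A + f B

/-- `S` minimises `f` among the subsets of `range n` -/
def IsMin (n : ℕ) (f : Finset ℕ → ℤ) (S : Finset ℕ) : Prop :=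
  S ⊆ range n ∧ ∀ A ⊆ range n, f S ≤ f A

namespace SfmAX

/-- `v` comes before `w` in the order of increasing `Y` -/
def bef (Y : ℕ → ℤ) (v w : ℕ) : Prop := Y v < Y w ∨ (Y v = Y w ∧ v < w)

instance (Y : ℕ → ℤ) (v w : ℕ) : Decidable (bef Y v w) := by unfold bef; infer_instance

/-- the elements before `w` -/
def pre (n : ℕ) (Y : ℕ → ℤ) (w : ℕ) : Finset ℕ := (range n).filter fun v => bef Y v w

/-- the greedy vector -/
def gq (n : ℕ) (g : Finset ℕ → ℤ) (Y : ℕ → ℤ) (w : ℕ) : ℤ :=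
  g (insert w (pre n Y w)) - g (pre n Y w)

def key (Y : ℕ → ℤ) (v : ℕ) : ℤ ×ₗ ℕ := toLex (Y v, v)

theorem bef_iff (Y : ℕ → ℤ) (v w : ℕ) : bef Y v w ↔ key Y v < key Y w := by
  simp [bef, key, Prod.Lex.toLex_lt_toLex]

theorem key_inj (Y : ℕ → ℤ) {v w : ℕ} (h : key Y v = key Y w) : v = w := by
  have := congrArg (fun p => (ofLex p).2) h
  simpa [key] using this

theorem pre_sub (n : ℕ) (Y : ℕ → ℤ) (w : ℕ) : pre n Y w ⊆ range n := filter_subset _ _

theorem not_mem_pre (n : ℕ) (Y : ℕ → ℤ) (w : ℕ) : w ∉ pre n Y w := by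
  simp [pre, bef]

variable {n : ℕ} {g : Finset ℕ → ℤ}

theorem dimin (hg : Submod n g) {A B : Finset ℕ} (hAB : A ⊆ B) (hB : B ⊆ range n) {w : ℕ}
    (hw : w < n) (hwB : w ∉ B) : g (insert w B) - g B ≤ g (insert w A) - g A := by
  have h := hg (insert w A) (insert_subset (mem_range.2 hw) (hAB.trans hB)) B hB
  have e1 : insert w A ∪ B = insert w B := by
    rw [insert_union, union_eq_right.2 hAB]
  have e2 : insert w A ∩ B = A := by
    rw [insert_inter_of_notMem hwB, inter_eq_left.2 hAB]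
  rw [e1, e2] at h
  linarith

theorem sub_pre {Y : ℕ → ℤ} {S : Finset ℕ} {w : ℕ} (hS : S ⊆ range n) (hw : w ∉ S)
    (h : ∀ v ∈ S, key Y v ≤ key Y w) : S ⊆ pre n Y w := by
  intro v hv
  refine mem_filter.2 ⟨hS hv, (bef_iff Y v w).2 (lt_of_le_of_ne (h v hv) fun e => hw ?_)⟩
  rwa [← key_inj Y e]

theorem sum_gq_le (hg : Submod n g) (h0 : g ∅ = 0) (Y : ℕ → ℤ) (S : Finset ℕ) :
    S ⊆ range n → ∑ w ∈ S, gq n g Y w ≤ g S := by
  refine Finset.induction_on_max_value (key Y) S (fun _ => by simp [h0]) ?_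
  intro w S hw hmax ih hS
  have hS' : S ⊆ range n := (subset_insert _ _).trans hS
  have hwn : w < n := mem_range.1 (hS (mem_insert_self _ _))
  rw [sum_insert hw]
  have := dimin hg (sub_pre hS' hw hmax) (pre_sub n Y w) hwn (not_mem_pre n Y w)
  have := ih hS'
  unfold gq at *
  linarith

theorem sum_gq_eq (h0 : g ∅ = 0) (Y : ℕ → ℤ) (L : Finset ℕ) :
    L ⊆ range n → (∀ w ∈ L, ∀ v < n, bef Y v w → v ∈ L) → ∑ w ∈ L, gq n g Y w = g L := by
  refine Finset.induction_on_max_value (key Y) L (fun _ _ => by simp [h0]) ?_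
  intro w S hw hmax ih hS hL
  have hS' : S ⊆ range n := (subset_insert _ _).trans hS
  have e : pre n Y w = S := by
    refine Subset.antisymm (fun v hv => ?_) (sub_pre hS' hw hmax)
    obtain ⟨hv1, hv2⟩ := mem_filter.1 hv
    rcases mem_insert.1 (hL w (mem_insert_self _ _) v (mem_range.1 hv1) hv2) with rfl | h
    · exact absurd hv (not_mem_pre n Y v)
    · exact h
  have ih' := ih hS' fun u hu v hv hvu => by
    rcases mem_insert.1 (hL u (mem_insert_of_mem hu) v hv hvu) with rfl | h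
    · exact absurd ((bef_iff Y v u).1 hvu) (not_lt.2 (hmax u hu))
    · exact h
  rw [sum_insert hw, ih', gq, e]
  ring

/-- `-y` clipped to `[0, H]` -/
def clip (H y : ℤ) : ℤ := max 0 (min H (-y))

theorem clip_eq_sum (H : ℤ) (hH : 0 ≤ H) (y : ℤ) :
    clip H y = ∑ θ ∈ Icc 1 H, if y ≤ -θ then 1 else 0 := by
  rw [← sum_filter]
  have : (Icc 1 H).filter (fun θ => y ≤ -θ) = Icc 1 (min H (-y)) := by
    ext θ
    simp only [mem_filter, mem_Icc, le_min_iff]
    omega
  rw [this, sum_const, Int.card_Icc]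
  simp only [clip, nsmul_eq_mul, mul_one]
  omega

theorem sum_clip_ge (h0 : g ∅ = 0) (Y : ℕ → ℤ) {H μ : ℤ} (hH : 0 ≤ H)
    (hμ : ∀ S ⊆ range n, μ ≤ g S) : H * μ ≤ ∑ w ∈ range n, gq n g Y w * clip H (Y w) := by
  have e : ∑ w ∈ range n, gq n g Y w * clip H (Y w) =
      ∑ θ ∈ Icc 1 H, g ((range n).filter fun w => Y w ≤ -θ) := by
    simp only [clip_eq_sum H hH, mul_sum]
    rw [sum_comm]
    refine sum_congr rfl fun θ _ => ?_
    rw [← sum_gq_eq (n := n) h0 Y _ (filter_subset _ _), sum_filter]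
    · exact sum_congr rfl fun w _ => by split_ifs <;> simp
    · intro w hw v hv hvw
      refine mem_filter.2 ⟨mem_range.2 hv, ?_⟩
      have := (mem_filter.1 hw).2
      rcases hvw with h | h <;> omega
  rw [e]
  calc H * μ = ∑ _θ ∈ Icc (1 : ℤ) H, μ := by
        rw [sum_const, Int.card_Icc, nsmul_eq_mul]
        congr 1
        omega
    _ ≤ _ := sum_le_sum fun θ _ => hμ _ (filter_subset _ _)

theorem union_le {η : ℤ} (hm : ∀ S ⊆ range n, ∀ v < n, g (insert v S) ≤ g S + η)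
    {S : Finset ℕ} (hS : S ⊆ range n) (P : Finset ℕ) :
    P ⊆ range n → g (P ∪ S) ≤ g S + P.card * η := by
  refine Finset.induction_on P (fun _ => by simp) ?_
  intro v P hv ih hP
  have hP' : P ⊆ range n := (subset_insert _ _).trans hP
  have h1 := hm (P ∪ S) (union_subset hP' hS) v (mem_range.1 (hP (mem_insert_self _ _)))
  have h2 := ih hP'
  rw [insert_union, card_insert_of_notMem hv]
  push_cast
  linarith

theorem mem_of_low (hg : Submod n g) {η : ℤ} (hη : 0 ≤ η)
    (hm : ∀ S ⊆ range n, ∀ v < n, g (insert v S) ≤ g S + η) (Y : ℕ → ℤ) {w : ℕ} (hw : w < n)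
    (hq : gq n g Y w < -(n * η)) {S : Finset ℕ} (hS : IsMin n g S) : w ∈ S := by
  by_contra hwS
  have hU : pre n Y w ∪ S ⊆ range n := union_subset (pre_sub n Y w) hS.1
  have h1 := dimin hg (subset_union_left (s₂ := S)) hU hw
    (by simp [hwS, not_mem_pre n Y w])
  have h2 := union_le hm hS.1 _ (pre_sub n Y w)
  have h3 := hS.2 (insert w (pre n Y w ∪ S)) (insert_subset (mem_range.2 hw) hU)
  have h4 : ((pre n Y w).card : ℤ) ≤ n := by
    have := card_le_card (pre_sub n Y w)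
    rw [card_range] at this
    exact_mod_cast this
  have h5 := mul_le_mul_of_nonneg_right h4 hη
  unfold gq at hq
  linarith

/-- twice the value of the regularised leader -/
def phi (H y : ℤ) : ℤ := 2 * y * clip H y + clip H y ^ 2

theorem phi_step {H : ℤ} (hH : 0 ≤ H) (y q : ℤ) :
    phi H y + 2 * q * clip H y - q ^ 2 ≤ phi H (y + q) := by
  have h0 : 0 ≤ clip H (y + q) := le_max_left _ _
  have h1 : clip H (y + q) ≤ H := max_le hH (min_le_left _ _)
  unfold phi
  generalize clip H (y + q) = c at h0 h1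
  have hc : (clip H y = 0 ∧ 0 ≤ y) ∨ clip H y = -y ∨ (clip H y = H ∧ y ≤ -H) := by
    unfold clip; omega
  rcases hc with ⟨e, h⟩ | e | ⟨e, h⟩ <;> rw [e]
  · nlinarith [sq_nonneg (c + q), mul_nonneg h0 h]
  · nlinarith [sq_nonneg (c + q + y)]
  · nlinarith [sq_nonneg (c - H + q), mul_nonneg (sub_nonneg.2 h1) (show 0 ≤ -H - y by omega)]

theorem phi_le {H : ℤ} (hH : 0 ≤ H) (y : ℤ) : phi H y ≤ 2 * H * min y 0 + H ^ 2 := by
  have hc : (clip H y = 0 ∧ min y 0 = 0) ∨ (clip H y = -y ∧ min y 0 = y) ∨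
      (clip H y = H ∧ min y 0 = y) := by
    unfold clip; omega
  unfold phi
  rcases hc with ⟨e, h⟩ | ⟨e, h⟩ | ⟨e, h⟩ <;> rw [e, h]
  · nlinarith [sq_nonneg H]
  · nlinarith [sq_nonneg (y + H)]
  · nlinarith

theorem regret {H b : ℤ} (hH : 0 ≤ H) (y q : ℕ → ℤ) (h0 : y 0 = 0) (T : ℕ)
    (hs : ∀ t < T, y (t + 1) = y t + q t) (hb : ∀ t < T, q t ^ 2 ≤ b) :
    2 * ∑ t ∈ range T, q t * clip H (y t) ≤ phi H (y T) + T * b := by
  induction T with
  | zero => simp [h0, phi, clip, hH]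
  | succ T ih =>
      have h1 := ih (fun t ht => hs t (by omega)) (fun t ht => hb t (by omega))
      have h2 := phi_step hH (y T) (q T)
      have h3 := hb T (by omega)
      rw [sum_range_succ, hs T (by omega)]
      push_cast
      linarith

/-- the clamped step -/
def qh (n : ℕ) (η q : ℤ) : ℤ :=
  if q < -(n * η) then -(2 * n ^ 6 * (n + 2) * η) else if q ≤ η then q else η

theorem main (hg : Submod n g) (h0 : g ∅ = 0) {η : ℤ} (hη : 0 < η)
    (hm : ∀ S ⊆ range n, ∀ v < n, g (insert v S) ≤ g S + η) (Y : ℕ → ℕ → ℤ)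
    (hY0 : ∀ w, Y 0 w = 0) (hY : ∀ t, ∀ w < n, Y (t + 1) w = Y t w + qh n η (gq n g (Y t) w))
    (hn : 0 < n) {w : ℕ} (hw : w < n) (hmin : ∀ v < n, Y (2 * n ^ 6) w ≤ Y (2 * n ^ 6) v) :
    (2 * Y (2 * n ^ 6) w < -(3 * n ^ 5 * η) → ∀ S, IsMin n g S → w ∈ S) ∧
      (¬ 2 * Y (2 * n ^ 6) w < -(3 * n ^ 5 * η) → ∀ S ⊆ range n, -η < g S) := by
  set T := 2 * n ^ 6 with hT
  have hTz : (T : ℤ) = 2 * (n : ℤ) ^ 6 := by rw [hT]; push_cast; ring
  have hn1 : (1 : ℤ) ≤ n := by exact_mod_cast hn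
  have hq : ∀ t, ∀ v < n, gq n g (Y t) v ≤ η := fun t v hv => by
    have := hm _ (pre_sub n (Y t) v) v hv
    unfold gq; linarith
  have hbig : 0 ≤ 2 * (n : ℤ) ^ 6 * (n + 2) * η := by positivity
  have hqh : ∀ q, qh n η q ≤ η := fun q => by
    unfold qh; split_ifs <;> linarith
  -- upper bound for all coordinates, better for flagged ones
  have hup : ∀ v < n, ∀ t : ℕ, Y t v ≤ t * η := fun v hv t => by
    induction t with
    | zero => simp [hY0]
    | succ t ih => rw [hY t v hv]; have := hqh (gq n g (Y t) v); push_cast; linarith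
  have hfl : ∀ v < n, ∀ t : ℕ, (∃ s < t, gq n g (Y s) v < -(n * η)) →
      Y t v ≤ t * η - 2 * n ^ 6 * (n + 2) * η := fun v hv t => by
    induction t with
    | zero => simp
    | succ t ih =>
        rintro ⟨s, hs, hs'⟩
        rw [hY t v hv]
        by_cases h : gq n g (Y t) v < -(n * η)
        · have := hup v hv t
          rw [qh, if_pos h]; push_cast; linarith
        · have hst : s < t := by
            rcases Nat.lt_succ_iff_lt_or_eq.1 hs with h' | rfl
            · exact h'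
            · exact absurd hs' h
          have := ih ⟨s, hst, hs'⟩
          have := hqh (gq n g (Y t) v); push_cast; linarith
  have hnf : ∀ v < n, ∀ t : ℕ, (∀ s < t, ¬ gq n g (Y s) v < -(n * η)) →
      Y t v = ∑ s ∈ range t, gq n g (Y s) v ∧ -(t * (n * η)) ≤ Y t v := fun v hv t => by
    induction t with
    | zero => simp [hY0]
    | succ t ih =>
        intro h
        obtain ⟨h1, h2⟩ := ih fun s hs => h s (by omega)
        have h3 := h t (by omega)
        rw [hY t v hv, qh, if_neg h3, if_pos (hq t v hv), sum_range_succ, ← h1]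
        push_cast
        exact ⟨rfl, by linarith⟩
  by_cases hF : ∃ v < n, ∃ s < T, gq n g (Y s) v < -(n * η)
  · obtain ⟨v, hv, hvs⟩ := hF
    have h1 := (hmin v hv).trans (hfl v hv T hvs)
    rw [hTz] at h1
    have h6 : 0 < (n : ℤ) ^ 6 * η := by positivity
    have h5 : 0 < (n : ℤ) ^ 5 * η := by positivity
    refine ⟨fun _ S hS => ?_, fun h => absurd ?_ h⟩
    · by_cases hwF : ∃ s < T, gq n g (Y s) w < -(n * η)
      · obtain ⟨s, _, hs⟩ := hwF
        exact mem_of_low hg hη.le hm (Y s) hw hs hS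
      · have h2 := (hnf w hw T fun s hs h => hwF ⟨s, hs, h⟩).2
        rw [hTz] at h2
        nlinarith
    · have : (n : ℤ) ^ 5 * η ≤ n ^ 6 * η := by nlinarith
      nlinarith
  · have hF' : ∀ v < n, ∀ s < T, ¬ gq n g (Y s) v < -(n * η) := fun v hv s hs h =>
      hF ⟨v, hv, s, hs, h⟩
    have hsum : ∀ S ⊆ range n, ∑ v ∈ S, Y T v ≤ T * g S := fun S hS => by
      rw [sum_congr rfl fun v hv => (hnf v (mem_range.1 (hS hv)) T
        (hF' v (mem_range.1 (hS hv)))).1, sum_comm]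
      calc _ ≤ ∑ _s ∈ range T, g S := sum_le_sum fun s _ => sum_gq_le hg h0 _ S hS
        _ = _ := by simp
    refine ⟨fun hlow S hS => ?_, fun hlow S hS => ?_⟩
    · by_contra hwS
      have hH : (0 : ℤ) ≤ 2 * n ^ 4 * η := by positivity
      have h1 : ∀ v ∈ range n, 2 * ∑ t ∈ range T, gq n g (Y t) v * clip (2 * n ^ 4 * η) (Y t v) ≤
          2 * (2 * n ^ 4 * η) * min (Y T v) 0 + (2 * n ^ 4 * η) ^ 2 + T * (n * η) ^ 2 := by
        intro v hv
        have hv' := mem_range.1 hv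
        refine (regret (b := (n * η) ^ 2) hH (fun t => Y t v) (fun t => gq n g (Y t) v) (hY0 v) T
          (fun t ht => ?_) (fun t ht => ?_)).trans (by linarith [phi_le hH (Y T v)])
        · rw [hY t v hv', qh, if_neg (hF' v hv' t ht), if_pos (hq t v hv')]
        · have := hF' v hv' t ht
          have := hq t v hv'
          exact sq_le_sq' (by linarith) (by nlinarith)
      have h2 := sum_le_sum h1
      rw [← mul_sum, sum_comm] at h2
      have h3 : ∑ _t ∈ range T, 2 * n ^ 4 * η * g S ≤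
          ∑ t ∈ range T, ∑ v ∈ range n, gq n g (Y t) v * clip (2 * n ^ 4 * η) (Y t v) :=
        sum_le_sum fun t _ => sum_clip_ge h0 (Y t) hH hS.2
      simp only [sum_add_distrib, ← mul_sum, sum_const, card_range, nsmul_eq_mul] at h2 h3
      have h4 : ∑ v ∈ range n, min (Y T v) 0 ≤ Y T w + ∑ v ∈ S, Y T v := by
        rw [← sum_insert hwS]
        calc _ ≤ ∑ v ∈ insert w S, min (Y T v) 0 :=
              sum_le_sum_of_subset_of_nonpos' (insert_subset (mem_range.2 hw) hS.1)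
                fun _ _ _ => min_le_right _ _
          _ ≤ _ := sum_le_sum fun _ _ => min_le_left _ _
      have h5 := hsum S hS.1
      have hH' : (0 : ℤ) < 2 * n ^ 4 * η := by positivity
      generalize ∑ v ∈ range n, min (Y T v) 0 = A at h2 h4
      generalize ∑ v ∈ S, Y T v = B at h4 h5
      generalize ∑ t ∈ range T, ∑ v ∈ range n, gq n g (Y t) v * clip (2 * n ^ 4 * η) (Y t v) = C
        at h2 h3
      have h6 : 2 * A < 2 * (T * g S) - 3 * n ^ 5 * η := by linarith
      have h7 := mul_lt_mul_of_pos_left h6 hH'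
      rw [hTz] at h2 h3 h7
      nlinarith
    · have h1 := hsum S hS
      have h2 : ∑ _v ∈ S, -(3 * n ^ 5 * η) ≤ ∑ v ∈ S, 2 * Y T v :=
        sum_le_sum fun v hv => by
          have := hmin v (mem_range.1 (hS hv))
          linarith
      rw [← mul_sum, sum_const, nsmul_eq_mul] at h2
      have h4 : (S.card : ℤ) ≤ n := by
        have := card_le_card hS
        rw [card_range] at this
        exact_mod_cast this
      have h5 : (0 : ℤ) ≤ 3 * n ^ 5 * η := by positivity
      have h6 := mul_le_mul_of_nonneg_right h4 h5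
      rw [hTz] at h1
      by_contra hc
      have h7 : (0 : ℤ) < n ^ 6 := by positivity
      have h8 := mul_le_mul_of_nonneg_left (not_lt.1 hc) h7.le
      nlinarith

/-- one round of the algorithm -/
def stepL (n : ℕ) (g : Finset ℕ → ℤ) (η : ℤ) (l : List ℤ) : List ℤ :=
  (List.range n).map fun w => l.getD w 0 + qh n η (gq n g (fun v => l.getD v 0) w)

theorem getD_stepL (η : ℤ) (l : List ℤ) {w : ℕ} (hw : w < n) :
    (stepL n g η l).getD w 0 = l.getD w 0 + qh n η (gq n g (fun v => l.getD v 0) w) := by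
  simp [stepL, List.getD_eq_getElem?_getD, hw]

theorem qh_abs (n : ℕ) (η q : ℤ) : (qh n η q).natAbs ≤ (2 * n ^ 6 * (n + 2) + n + 1) * η.natAbs := by
  have h1 : (2 * (n : ℤ) ^ 6 * (n + 2) * η).natAbs = 2 * n ^ 6 * (n + 2) * η.natAbs := by
    rw [Int.natAbs_mul]
    congr 1
  have h2 : ((n : ℤ) * η).natAbs = n * η.natAbs := by rw [Int.natAbs_mul]; rfl
  rw [add_mul, add_mul, one_mul, ← h1, ← h2]
  unfold qh
  split_ifs <;> omega

theorem iter_abs (η : ℤ) (k : ℕ) : ((stepL n g η)^[k] []).length ≤ n ∧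
    ∀ x ∈ (stepL n g η)^[k] [], x.natAbs ≤ k * ((2 * n ^ 6 * (n + 2) + n + 1) * η.natAbs) := by
  induction k with
  | zero => simp
  | succ k ih =>
      rw [Function.iterate_succ_apply']
      refine ⟨by simp [stepL], fun x hx => ?_⟩
      obtain ⟨w, _, rfl⟩ := List.mem_map.1 hx
      have h1 := qh_abs n η (gq n g (fun v => ((stepL n g η)^[k] []).getD v 0) w)
      have h2 : (((stepL n g η)^[k] []).getD w 0).natAbs ≤
          k * ((2 * n ^ 6 * (n + 2) + n + 1) * η.natAbs) := by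
        by_cases hw : w < ((stepL n g η)^[k] []).length
        · rw [List.getD_eq_getElem _ _ hw]; exact ih.2 _ (List.getElem_mem hw)
        · rw [List.getD_eq_default _ _ (by omega)]; simp
      rw [add_mul, one_mul]
      exact (Int.natAbs_add_le _ _).trans (Nat.add_le_add h2 h1)

theorem natAbs_lt (z : ℤ) : z.natAbs < 2 ^ PT.sz z := by
  have e : PT.sz z = PT.sz (z.toNat, (-z).toNat) := rfl
  rw [e, sz_prod, pow_add]
  have h1 := lt_two_pow_sz z.toNat
  have h2 := lt_two_pow_sz (-z).toNat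
  have h3 : 0 < 2 ^ PT.sz z.toNat := by positivity
  have h4 : 0 < 2 ^ PT.sz (-z).toNat := by positivity
  rcases le_total 0 z with h | h
  · calc z.natAbs = z.toNat := by omega
      _ < _ := h1.trans_le (Nat.le_mul_of_pos_right _ h4)
  · calc z.natAbs = (-z).toNat := by omega
      _ < _ := h2.trans_le (Nat.le_mul_of_pos_left _ h3)

theorem st_map (c : ℕ → Prop) [DecidablePred c] :
    st n ((List.range n).map fun v => decide (c v)) = (range n).filter c := by
  ext j
  rw [mem_st, getD_rangeMap]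
  simp

section
variable {α : Type} [Rp α] [HasO α] {m : α → ℕ} {G : α → Finset ℕ → ℤ}

theorem ot_gq (hm : PU m) (hg : OT fun p : α × Word => G p.1 (st (m p.1) p.2)) :
    OT fun r : ((α × ℤ) × List ℤ) × Un =>
      if r.2.val < m r.1.1.1 then gq (m r.1.1.1) (G r.1.1.1) (fun v => r.1.2.getD v 0) r.2.val
      else 0 := by
  have hm' : PU fun r : ((α × ℤ) × List ℤ) × Un => m r.1.1.1 := hm.comp (by fun_prop)
  have w1 : PTime fun r : ((α × ℤ) × List ℤ) × Un => (List.range (m r.1.1.1)).map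
      fun v => decide (bef (fun v => r.1.2.getD v 0) v r.2.val) :=
    PTime.rangeMap hm' (by unfold bef; fun_prop)
  have w2 : PTime fun r : ((α × ℤ) × List ℤ) × Un => (List.range (m r.1.1.1)).map
      fun v => decide (v = r.2.val ∨ bef (fun v => r.1.2.getD v 0) v r.2.val) :=
    PTime.rangeMap hm' (by unfold bef; fun_prop)
  have a1 := hg.pre (f := fun r : ((α × ℤ) × List ℤ) × Un => (r.1.1.1, _))
    (PTime.pair (by fun_prop) w1) fun _ => rfl
  have a2 := hg.pre (f := fun r : ((α × ℤ) × List ℤ) × Un => (r.1.1.1, _))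
    (PTime.pair (by fun_prop) w2) fun _ => rfl
  have hp : PTime fun q : (((α × ℤ) × List ℤ) × Un) × ℤ × ℤ =>
      if q.1.2.val < m q.1.1.1.1 then q.2.1 - q.2.2 else 0 :=
    PTime.ite (PTime.lt (by fun_prop) (hm'.ptime.comp PTime.fst')) (by fun_prop) (by fun_prop)
  refine (OT.map hp (a2.pair a1)).congr fun r => ?_
  simp only [st_map]
  split_ifs with h
  · rw [gq, pre, filter_or, filter_eq', if_pos (mem_range.2 h), ← insert_eq]
  · rfl

theorem ot_step (hm : PU m) (hg : OT fun p : α × Word => G p.1 (st (m p.1) p.2)) :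
    OT fun p : (α × ℤ) × List ℤ => stepL (m p.1.1) (G p.1.1) p.1.2 p.2 := by
  have hm' : PU fun r : (α × ℤ) × List ℤ => m r.1.1 := hm.comp (by fun_prop)
  have hp : PTime fun q : (((α × ℤ) × List ℤ) × Un) × ℤ =>
      q.1.1.2.getD q.1.2.val 0 + qh (m q.1.1.1.1) q.1.1.1.2 q.2 := by
    have h1 : PTime fun q : (((α × ℤ) × List ℤ) × Un) × ℤ => (m q.1.1.1.1 : ℤ) :=
      PTime.natCast (hm.ptime.comp (by fun_prop))
    unfold qh
    fun_prop
  have h := OT.rangeMapZ (g := fun (p : (α × ℤ) × List ℤ) w => p.2.getD w 0 + qh (m p.1.1) p.1.2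
    (if w < m p.1.1 then gq (m p.1.1) (G p.1.1) (fun v => p.2.getD v 0) w else 0)) hm'
    (OT.map hp (ot_gq hm hg))
  refine h.congr fun p => List.map_congr_left fun w hw => ?_
  rw [if_pos (List.mem_range.1 hw)]

theorem ot_run (hm : PU m) (hg : OT fun p : α × Word => G p.1 (st (m p.1) p.2)) :
    OT fun p : α × ℤ => (stepL (m p.1) (G p.1) p.2)^[2 * m p.1 ^ 6] [] := by
  have hm' : PU fun r : α × ℤ => m r.1 := hm.comp (by fun_prop)
  have hc : PB fun r : α × ℤ =>
      2 * m r.1 ^ 6 * (2 * m r.1 ^ 6 * (m r.1 + 2) + m r.1 + 1) + PT.sz r :=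
    (PU.pb (by fun_prop)).add PB.sz
  refine OT.iter (step := fun p : α × ℤ => stepL (m p.1) (G p.1) p.2) (ot_step hm hg)
    (OT.of_ptime (PTime.const _)) (by fun_prop)
    (hm'.pb.mul (((PB.const 2).mul hc).add (PB.const 3))) fun p k hk => ?_
  obtain ⟨h1, h2⟩ := iter_abs (n := m p.1) (g := G p.1) p.2 k
  refine (szZ_le fun x hx => (h2 x hx).trans_lt ?_).trans (Nat.mul_le_mul_right _ h1)
  have h3 := natAbs_lt p.2
  have h4 : PT.sz p.2 ≤ PT.sz p := by
    obtain ⟨a, b⟩ := p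
    rw [sz_prod]; exact Nat.le_add_left _ _
  have h5 : p.2.natAbs < 2 ^ PT.sz p := h3.trans_le (Nat.pow_le_pow_right (by omega) h4)
  generalize 2 * m p.1 ^ 6 * (m p.1 + 2) + m p.1 + 1 = c
  rw [← mul_assoc, pow_add]
  have h6 : k * c < 2 ^ (2 * m p.1 ^ 6 * c) :=
    (Nat.mul_le_mul_right c hk).trans_lt Nat.lt_two_pow_self
  exact Nat.mul_lt_mul'' h6 h5

end

end SfmAX

/-- either an element of all minimisers, or a proof that the minimum is `> -η` -/
theorem exists_fix {α : Type} [Rp α] [HasO α] (m : α → ℕ) (hm : PU m) (g : α → Finset ℕ → ℤ)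
    (η : α → ℤ) (hg : OT fun p : α × Word => g p.1 (st (m p.1) p.2)) (hη : OT η) :
    ∃ fx : α → ℕ, (OT fun a => Un.mk (fx a)) ∧ ∀ a, Submod (m a) (g a) → g a ∅ = 0 → 0 < η a →
      (∀ S ⊆ range (m a), ∀ v < m a, g a (insert v S) ≤ g a S + η a) →
      (fx a < m a ∧ ∀ S, IsMin (m a) (g a) S → fx a ∈ S) ∨
        (m a ≤ fx a ∧ ∀ S ⊆ range (m a), -η a < g a S) := by
  have hm' : PU fun r : (α × ℤ) × List ℤ => m r.1.1 := hm.comp (by fun_prop)
  obtain ⟨am, ham, ham'⟩ := OT.exists_argmax (n := fun r : (α × ℤ) × List ℤ => m r.1.1)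
    (g := fun r w => -r.2.getD w 0) hm' (OT.of_ptime (by fun_prop))
  have hp : PTime fun q : ((α × ℤ) × List ℤ) × Un => Un.mk
      (if q.2.val < m q.1.1.1 ∧ 2 * q.1.2.getD q.2.val 0 < -(3 * (m q.1.1.1 : ℤ) ^ 5 * q.1.1.2)
        then q.2.val else m q.1.1.1) := by
    have h0 : PU fun q : ((α × ℤ) × List ℤ) × Un => m q.1.1.1 := hm.comp (by fun_prop)
    have h1 : PTime fun q : ((α × ℤ) × List ℤ) × Un => m q.1.1.1 := h0.ptime
    have h2 : PTime fun q : ((α × ℤ) × List ℤ) × Un => (m q.1.1.1 : ℤ) := PTime.natCast h1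
    exact PU.ite (by fun_prop) (by fun_prop) h0
  have h := OT.bind (OT.bind (OT.map hp ham) (SfmAX.ot_run hm hg)) hη
  refine ⟨_, h, fun a hs h0 hη0 hmar => ?_⟩
  simp only
  obtain ⟨h1, h2⟩ := ham' ((a, η a), (SfmAX.stepL (m a) (g a) (η a))^[2 * m a ^ 6] [])
  simp only at h1 h2
  generalize am ((a, η a), (SfmAX.stepL (m a) (g a) (η a))^[2 * m a ^ 6] []) = w at h1 h2
  rcases Nat.eq_zero_or_pos (m a) with hn | hn
  · refine Or.inr ⟨by rw [if_neg fun h => by omega], fun S hS => ?_⟩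
    rw [hn, range_zero, subset_empty] at hS
    rw [hS, h0]; linarith
  have hw : w < m a := by omega
  obtain ⟨k1, k2⟩ := SfmAX.main hs h0 hη0 hmar
    (fun t v => ((SfmAX.stepL (m a) (g a) (η a))^[t] []).getD v 0) (fun _ => by simp)
    (fun t v hv => by rw [Function.iterate_succ_apply', SfmAX.getD_stepL _ _ hv]) hn hw
    (fun v hv => by have := h2 v hv; linarith)
  by_cases hc : 2 * ((SfmAX.stepL (m a) (g a) (η a))^[2 * m a ^ 6] []).getD w 0 <
      -(3 * (m a : ℤ) ^ 5 * η a)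
  · rw [if_pos ⟨hw, hc⟩]
    exact Or.inl ⟨hw, k1 hc⟩
  · rw [if_neg fun h => hc h.2]
    exact Or.inr ⟨le_rfl, k2 hc⟩

end Crest.Agent.R302
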