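import Crest.Agent.R302.SfmA

/-! Row 302: ring families of minimisers of a submodular function (the mathematics of `Sfm`). -/

set_option autoImplicit false

namespace Crest.Agent.R302.SfmX

open Finset

variable {n : ℕ} {f : Finset ℕ → ℤ} {T : Finset ℕ} {R : ℕ → Finset ℕ}

theorem exists_isMin (n : ℕ) (f : Finset ℕ → ℤ) : ∃ S, IsMin n f S := by
  obtain ⟨S, hS, h⟩ := exists_min_image (range n).powerset f ⟨∅, by simp⟩
  exact ⟨S, mem_powerset.1 hS, fun A hA => h A (mem_powerset.2 hA)⟩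

/-- closed under the implications `R` -/
def Cl (R : ℕ → Finset ℕ) (Z : Finset ℕ) : Prop := ∀ v ∈ Z, R v ⊆ Z

/-- the invariant of the algorithm -/
structure Inv (n : ℕ) (f : Finset ℕ → ℤ) (T : Finset ℕ) (R : ℕ → Finset ℕ) : Prop where
  sub : T ⊆ range n
  refl : ∀ v < n, v ∈ R v
  rsub : ∀ v < n, R v ⊆ range n
  trans : ∀ v < n, Cl R (R v)
  clT : Cl R T
  min : ∀ S, IsMin n f S → S ⊆ T ∧ Cl R S

/-- the part of `R v` strictly below `v` -/
def low (R : ℕ → Finset ℕ) (v : ℕ) : Finset ℕ := (R v).filter fun w => v ∉ R w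

/-- the upper bound for the marginal value of the class of `v` -/
def ell (f : Finset ℕ → ℤ) (T : Finset ℕ) (R : ℕ → Finset ℕ) (v : ℕ) : ℤ :=
  if v ∈ T then f (R v) - f (low R v) else 0

/-- the largest closed subset of `T` inside `R u ∪ X` -/
def dn (T : Finset ℕ) (R : ℕ → Finset ℕ) (u : ℕ) (X : Finset ℕ) : Finset ℕ :=
  T.filter fun v => R v ⊆ R u ∪ X

/-- the auxiliary function -/
def gg (f : Finset ℕ → ℤ) (T : Finset ℕ) (R : ℕ → Finset ℕ) (u : ℕ) (X : Finset ℕ) : ℤ :=
  f (dn T R u X) - f (R u) +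
    ell f T R u * (((R u).card : ℤ) + (X.card : ℤ) - ((dn T R u X).card : ℤ))

/-- the potential -/
def pot (n : ℕ) (T : Finset ℕ) (R : ℕ → Finset ℕ) : ℕ :=
  T.card + ∑ v ∈ range n, (range n \ R v).card

theorem Inv.lt (I : Inv n f T R) {v : ℕ} (hv : v ∈ T) : v < n := mem_range.1 (I.sub hv)

theorem Inv.anti (I : Inv n f T R) (hf : Submod n f) {η : ℤ} (h0 : 0 ≤ η)
    (hη : ∀ v < n, ell f T R v ≤ η) {Z₂ : Finset ℕ} (h2 : Cl R Z₂) (hT : Z₂ ⊆ T) :
    ∀ (k : ℕ) (Z : Finset ℕ), (Z₂ \ Z).card ≤ k → Cl R Z → Z ⊆ Z₂ →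
      f Z₂ - η * Z₂.card ≤ f Z - η * Z.card := by
  intro k
  induction k with
  | zero =>
    intro Z hk _ hZ
    have : Z = Z₂ := Subset.antisymm hZ (sdiff_eq_empty_iff_subset.1 (card_eq_zero.1 (by omega)))
    rw [this]
  | succ k ih =>
    intro Z hk hc hZ
    rcases (Z₂ \ Z).eq_empty_or_nonempty with h | h
    · rw [Subset.antisymm hZ (sdiff_eq_empty_iff_subset.1 h)]
    obtain ⟨v, hv, hmin⟩ := exists_min_image (Z₂ \ Z) (fun v => (R v).card) h
    obtain ⟨hv2, hvZ⟩ := mem_sdiff.1 hv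
    have hvn := I.lt (hT hv2)
    have e : Z ∩ R v = low R v := by
      ext w
      simp only [mem_inter, low, mem_filter]
      refine ⟨fun ⟨a, b⟩ => ⟨b, fun c => hvZ (hc w a c)⟩, fun ⟨a, b⟩ => ⟨?_, a⟩⟩
      by_contra c
      have h1 := hmin w (mem_sdiff.2 ⟨h2 v hv2 a, c⟩)
      have h3 : R w ⊂ R v := (ssubset_iff_of_subset (I.trans v hvn w a)).2 ⟨v, I.refl v hvn, b⟩
      exact absurd (card_lt_card h3) (not_lt.2 h1)
    have hsub : Z ∪ R v ⊆ Z₂ := union_subset hZ (h2 v hv2)
    have hss : Z ⊂ Z ∪ R v := (ssubset_iff_of_subset subset_union_left).2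
      ⟨v, mem_union_right _ (I.refl v hvn), hvZ⟩
    have hlt := card_lt_card hss
    have h3 := ih (Z ∪ R v) (by
      have a := card_sdiff_of_subset hsub
      have b := card_sdiff_of_subset hZ
      have c := card_le_card hsub
      omega) (fun w hw => by
      rcases mem_union.1 hw with a | a
      · exact (hc w a).trans subset_union_left
      · exact (I.trans v hvn w a).trans subset_union_right) hsub
    have h4 := hf Z (hZ.trans (hT.trans I.sub)) (R v) (I.rsub v hvn)
    have h5 := hη v hvn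
    rw [ell, if_pos (hT hv2)] at h5
    rw [e] at h4
    have h6 : η * ((Z.card : ℤ) + 1) ≤ η * (Z ∪ R v).card :=
      mul_le_mul_of_nonneg_left (by exact_mod_cast hlt) h0
    linarith

theorem Inv.isMin (I : Inv n f T R) (hf : Submod n f) (hη : ∀ v < n, ell f T R v ≤ 0) :
    IsMin n f T := by
  obtain ⟨S, hS⟩ := exists_isMin n f
  have := I.anti hf le_rfl hη I.clT Subset.rfl _ S le_rfl (I.min S hS).2 (I.min S hS).1
  exact ⟨I.sub, fun A hA => by have := hS.2 A hA; linarith⟩

variable {u : ℕ}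

theorem mem_of_pos (h : 0 < ell f T R u) : u ∈ T := by
  by_contra c
  simp [ell, c] at h

theorem dn_sub (X : Finset ℕ) : dn T R u X ⊆ T := filter_subset _ _

theorem Inv.dn_cl (I : Inv n f T R) (X : Finset ℕ) : Cl R (dn T R u X) := fun v hv w hw => by
  obtain ⟨a, b⟩ := mem_filter.1 hv
  exact mem_filter.2 ⟨I.clT v a hw, (I.trans v (I.lt a) w hw).trans b⟩

theorem dn_mono {X Y : Finset ℕ} (h : X ⊆ Y) : dn T R u X ⊆ dn T R u Y := fun _ hv =>
  mem_filter.2 ⟨(mem_filter.1 hv).1, (mem_filter.1 hv).2.trans (union_subset_union_right h)⟩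

theorem dn_inter (X Y : Finset ℕ) : dn T R u (X ∩ Y) = dn T R u X ∩ dn T R u Y := by
  ext v
  simp only [dn, mem_filter, mem_inter, union_inter_distrib_left, subset_inter_iff]
  tauto

theorem Inv.dn_le (I : Inv n f T R) (X : Finset ℕ) : dn T R u X ⊆ R u ∪ X := fun v hv =>
  (mem_filter.1 hv).2 (I.refl v (I.lt (mem_filter.1 hv).1))

theorem Inv.dn_eq (I : Inv n f T R) {X S : Finset ℕ} (hS : S ⊆ T) (hc : Cl R S)
    (h : R u ∪ X = S) : dn T R u X = S :=
  Subset.antisymm (h ▸ I.dn_le X) fun v hv => mem_filter.2 ⟨hS hv, h ▸ hc v hv⟩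

theorem Inv.gg_empty (I : Inv n f T R) (hu : u ∈ T) : gg f T R u ∅ = 0 := by
  rw [gg, I.dn_eq (I.clT u hu) (I.trans u (I.lt hu)) (union_empty _)]
  simp

theorem Inv.gg_submod (I : Inv n f T R) (hf : Submod n f) (h0 : 0 < ell f T R u)
    (hη : ∀ v < n, ell f T R v ≤ ell f T R u) : Submod n (gg f T R u) := by
  intro X _ Y _
  have h1 := I.anti hf h0.le hη (I.dn_cl (u := u) (X ∪ Y)) (dn_sub _) _
    (dn T R u X ∪ dn T R u Y) le_rfl (fun w hw => by
      rcases mem_union.1 hw with a | a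
      · exact (I.dn_cl X w a).trans subset_union_left
      · exact (I.dn_cl Y w a).trans subset_union_right)
    (union_subset (dn_mono subset_union_left) (dn_mono subset_union_right))
  have h2 := hf _ ((dn_sub (R := R) (u := u) X).trans I.sub) _ ((dn_sub (R := R) (u := u) Y).trans I.sub)
  have h3 : ((X ∪ Y).card : ℤ) = X.card + Y.card - (X ∩ Y).card := by
    have := card_union_add_card_inter X Y; omega
  have h4 : ((dn T R u X ∪ dn T R u Y).card : ℤ) =
      (dn T R u X).card + (dn T R u Y).card - (dn T R u X ∩ dn T R u Y).card := by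
    have := card_union_add_card_inter (dn T R u X) (dn T R u Y); omega
  simp only [gg, dn_inter]
  rw [h4] at h1
  rw [h3]
  linarith

theorem Inv.gg_insert (I : Inv n f T R) (hf : Submod n f) (h0 : 0 < ell f T R u)
    (hη : ∀ v < n, ell f T R v ≤ ell f T R u) (S : Finset ℕ) (v : ℕ) :
    gg f T R u (insert v S) ≤ gg f T R u S + ell f T R u := by
  have h1 := I.anti hf h0.le hη (I.dn_cl (u := u) (insert v S)) (dn_sub _) _
    (dn T R u S) le_rfl (I.dn_cl S) (dn_mono (subset_insert _ _))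
  have h2 : ell f T R u * ((insert v S).card : ℤ) ≤ ell f T R u * ((S.card : ℤ) + 1) :=
    mul_le_mul_of_nonneg_left (by exact_mod_cast card_insert_le v S) h0.le
  simp only [gg]
  linarith

theorem Inv.gg_min (I : Inv n f T R) (h0 : 0 < ell f T R u) {S : Finset ℕ} (hS : IsMin n f S)
    (hu : u ∈ S) : IsMin n (gg f T R u) (S \ R u) ∧ gg f T R u (S \ R u) ≤ -ell f T R u := by
  obtain ⟨h1, h2⟩ := I.min S hS
  have h3 := h2 u hu
  have e : gg f T R u (S \ R u) = f S - f (R u) := by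
    rw [gg, I.dn_eq h1 h2 (union_sdiff_of_subset h3)]
    have a := card_sdiff_add_card_eq_card h3
    have b : ((R u).card : ℤ) + (S \ R u).card - S.card = 0 := by omega
    rw [b]; simp
  refine ⟨⟨sdiff_subset.trans hS.1, fun X _ => ?_⟩, ?_⟩
  · have a := hS.2 _ ((dn_sub (R := R) (u := u) X).trans I.sub)
    have b := (card_le_card (I.dn_le (u := u) X)).trans (card_union_le _ _)
    have c : 0 ≤ ell f T R u * (((R u).card : ℤ) + (X.card : ℤ) - ((dn T R u X).card : ℤ)) :=
      mul_nonneg h0.le (by omega)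
    rw [e, gg]
    linarith
  · have a := hS.2 (low R u) ((filter_subset _ _).trans (I.rsub u (I.lt (h1 hu))))
    rw [e, ell, if_pos (h1 hu)]
    linarith

theorem Inv.fix_mem (I : Inv n f T R) (h0 : 0 < ell f T R u) {w : ℕ}
    (hw : ∀ S, IsMin n (gg f T R u) S → w ∈ S) : w ∈ T ∧ w ∉ R u := by
  obtain ⟨X, hX⟩ := exists_isMin n (gg f T R u)
  have e : dn T R u (X ∩ (T \ R u)) = dn T R u X := by
    refine Subset.antisymm (dn_mono inter_subset_left) fun v hv => ?_
    obtain ⟨a, b⟩ := mem_filter.1 hv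
    refine mem_filter.2 ⟨a, fun x hx => ?_⟩
    have c := b hx
    have d := I.clT v a hx
    simp only [mem_union, mem_inter, mem_sdiff] at c ⊢
    tauto
  have h1 : gg f T R u (X ∩ (T \ R u)) ≤ gg f T R u X := by
    have : ell f T R u * ((X ∩ (T \ R u)).card : ℤ) ≤ ell f T R u * (X.card : ℤ) :=
      mul_le_mul_of_nonneg_left (by exact_mod_cast card_le_card inter_subset_left) h0.le
    simp only [gg, e]
    linarith
  have := hw _ ⟨inter_subset_left.trans hX.1, fun A hA => h1.trans (hX.2 A hA)⟩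
  exact mem_sdiff.1 (mem_inter.1 this).2

/-- adding an arc -/
theorem Inv.arc (I : Inv n f T R) (h0 : 0 < ell f T R u) {w : ℕ}
    (hw : ∀ S, IsMin n (gg f T R u) S → w ∈ S) {R' : ℕ → Finset ℕ}
    (hR : ∀ v < n, R' v = if u ∈ R v then R v ∪ R w else R v) :
    Inv n f T R' ∧ pot n T R' < pot n T R := by
  obtain ⟨hwT, hwu⟩ := I.fix_mem h0 hw
  have hun := I.lt (mem_of_pos h0)
  have hwn := I.lt hwT
  have h1 : ∀ v < n, R v ⊆ R' v := fun v hv => by
    rw [hR v hv]; split_ifs
    · exact subset_union_left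
    · exact Subset.rfl
  have h2 : ∀ Z : Finset ℕ, Z ⊆ range n → Cl R Z → (u ∈ Z → w ∈ Z) → Cl R' Z :=
    fun Z hZ hc h v hv => by
      rw [hR v (mem_range.1 (hZ hv))]; split_ifs with c
      · exact union_subset (hc v hv) (hc w (h (hc v hv c)))
      · exact hc v hv
  have h3 : ∀ v < n, R' v ⊆ range n := fun v hv => by
    rw [hR v hv]; split_ifs
    · exact union_subset (I.rsub v hv) (I.rsub w hwn)
    · exact I.rsub v hv
  refine ⟨⟨I.sub, fun v hv => h1 v hv (I.refl v hv), h3, fun v hv => h2 _ (h3 v hv) ?_ ?_,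
    h2 T I.sub I.clT fun _ => hwT, fun S hS => ⟨(I.min S hS).1, h2 S hS.1 (I.min S hS).2
      fun hu => (mem_sdiff.1 (hw _ (I.gg_min h0 hS hu).1)).1⟩⟩, ?_⟩
  · rw [hR v hv]; split_ifs
    · intro x hx
      rcases mem_union.1 hx with a | a
      · exact (I.trans v hv x a).trans subset_union_left
      · exact (I.trans w hwn x a).trans subset_union_right
    · exact I.trans v hv
  · rw [hR v hv]; split_ifs with c
    · exact fun _ => mem_union_right _ (I.refl w hwn)
    · exact fun a => absurd a c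
  · refine Nat.add_lt_add_left (sum_lt_sum (fun v hv => card_le_card
      (sdiff_subset_sdiff Subset.rfl (h1 v (mem_range.1 hv)))) ⟨u, mem_range.2 hun, card_lt_card ?_⟩) _
    refine (ssubset_iff_of_subset (sdiff_subset_sdiff Subset.rfl (h1 u hun))).2
      ⟨w, mem_sdiff.2 ⟨mem_range.2 hwn, hwu⟩, fun a => (mem_sdiff.1 a).2 ?_⟩
    rw [hR u hun, if_pos (I.refl u hun)]
    exact mem_union_right _ (I.refl w hwn)

/-- deleting the elements above `u` -/
theorem Inv.del (I : Inv n f T R) (h0 : 0 < ell f T R u)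
    (hw : ∀ S ⊆ range n, -ell f T R u < gg f T R u S) :
    Inv n f (T.filter fun v => u ∉ R v) R ∧ pot n (T.filter fun v => u ∉ R v) R < pot n T R := by
  have huT := mem_of_pos h0
  refine ⟨⟨(filter_subset _ _).trans I.sub, I.refl, I.rsub, I.trans, fun v hv x hx => ?_,
    fun S hS => ⟨fun v hv => ?_, (I.min S hS).2⟩⟩, Nat.add_lt_add_right (card_lt_card ?_) _⟩
  · obtain ⟨a, b⟩ := mem_filter.1 hv
    exact mem_filter.2 ⟨I.clT v a hx, fun c => b (I.trans v (I.lt a) x hx c)⟩
  · refine mem_filter.2 ⟨(I.min S hS).1 hv, fun c => ?_⟩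
    obtain ⟨a, b⟩ := I.gg_min h0 hS ((I.min S hS).2 v hv c)
    exact absurd (hw _ a.1) (not_lt.2 b)
  · exact (ssubset_iff_of_subset (filter_subset _ _)).2
      ⟨u, huT, fun a => (mem_filter.1 a).2 (I.refl u (I.lt huT))⟩

theorem inv_init (hR : ∀ v < n, R v = {v}) : Inv n f (range n) R := by
  have h : ∀ Z : Finset ℕ, Z ⊆ range n → Cl R Z := fun Z hZ v hv => by
    rw [hR v (mem_range.1 (hZ hv))]; exact singleton_subset_iff.2 hv
  have h3 : ∀ v < n, R v ⊆ range n := fun v hv => by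
    rw [hR v hv]; exact singleton_subset_iff.2 (mem_range.2 hv)
  exact ⟨Subset.rfl, fun v hv => by simp [hR v hv], h3, fun v hv => h _ (h3 v hv),
    h _ Subset.rfl, fun S hS => ⟨hS.1, h S hS.1⟩⟩

theorem pot_le (hT : T ⊆ range n) : pot n T R ≤ n + n * n := by
  have h1 := card_le_card hT
  have h2 : ∑ v ∈ range n, (range n \ R v).card ≤ (range n).card • n :=
    sum_le_card_nsmul _ _ _ fun v _ => (card_le_card sdiff_subset).trans (card_range n).le
  rw [card_range] at h1 h2
  exact Nat.add_le_add h1 h2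

theorem iter_done {σ : Type} {step : σ → σ} {P D : σ → Prop} {Φ : σ → ℕ}
    (h : ∀ s, P s → (step s = s ∧ D s) ∨ (P (step s) ∧ Φ (step s) < Φ s)) {s : σ} (hs : P s)
    {k : ℕ} (hk : Φ s < k) : D (step^[k] s) := by
  have key : ∀ k, (step (step^[k] s) = step^[k] s ∧ D (step^[k] s)) ∨
      (P (step^[k] s) ∧ Φ (step^[k] s) + k ≤ Φ s) := by
    intro k
    induction k with
    | zero => exact Or.inr ⟨hs, le_rfl⟩
    | succ k ih =>
      rw [Function.iterate_succ_apply']
      rcases ih with a | a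
      · rw [a.1]; exact Or.inl a
      · rcases h _ a.1 with b | b
        · rw [b.1]; exact Or.inl b
        · exact Or.inr ⟨b.1, by omega⟩
  rcases key k with a | a
  · exact a.2
  · omega

end Crest.Agent.R302.SfmX
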