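import Crest.Agent.R302.MDefs
import Crest.Prelude.Def_Polymatroid

/-! Row 302: a pair of polymatroid rank functions as a normalised pair. -/

set_option autoImplicit false

namespace Crest.Agent.R302

open Crest.Polymatroid Finset

/-- the trace of a set of numbers on `Fin n` -/
def fn (n : ℕ) (S : Finset ℕ) : Finset (Fin n) := univ.filter fun j => (j : ℕ) ∈ S

@[simp] theorem mem_fn {n : ℕ} {S : Finset ℕ} {j : Fin n} : j ∈ fn n S ↔ (j : ℕ) ∈ S := by
  simp [fn]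

theorem fn_empty (n : ℕ) : fn n ∅ = ∅ := by ext j; simp

theorem fn_range (n : ℕ) : fn n (range n) = univ := by ext j; simp

theorem fn_union (n : ℕ) (A B : Finset ℕ) : fn n (A ∪ B) = fn n A ∪ fn n B := by ext j; simp

theorem fn_inter (n : ℕ) (A B : Finset ℕ) : fn n (A ∩ B) = fn n A ∩ fn n B := by ext j; simp

theorem fn_compl (n : ℕ) (A : Finset ℕ) : fn n (range n \ A) = (fn n A)ᶜ := by ext j; simp

theorem fn_surj {n : ℕ} (A : Finset (Fin n)) : ∃ S ⊆ range n, fn n S = A := by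
  refine ⟨A.map Fin.valEmbedding, fun i hi => ?_, ?_⟩
  · obtain ⟨j, -, rfl⟩ := mem_map.1 hi
    exact mem_range.2 j.2
  · ext j
    rw [mem_fn]
    exact mem_map' Fin.valEmbedding

theorem map_fn {n : ℕ} {S : Finset ℕ} (h : S ⊆ range n) : (fn n S).map Fin.valEmbedding = S := by
  ext i
  rw [mem_map]
  constructor
  · rintro ⟨j, hj, rfl⟩
    exact mem_fn.1 hj
  · intro hi
    exact ⟨⟨i, mem_range.1 (h hi)⟩, mem_fn.2 hi, rfl⟩

theorem sm_fn {n : ℕ} {S : Finset ℕ} (h : S ⊆ range n) (x : Vec) :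
    sm S x = ∑ j ∈ fn n S, x j := by
  conv_lhs => rw [← map_fn h]
  rw [sm, sum_map]
  rfl

theorem card_fn {n : ℕ} {S : Finset ℕ} (h : S ⊆ range n) : (fn n S).card = S.card := by
  conv_rhs => rw [← map_fn h, card_map]

section
variable {n R : ℕ} {r₁ r₂ : Finset (Fin n) → ℕ} {f1 f2 : Finset ℕ → ℤ}

theorem pair_of (h1 : IsPolymatroidRank r₁) (h2 : IsPolymatroidRank r₂) (e1 : r₁ univ = R)
    (e2 : r₂ univ = R) (hf1 : ∀ S ⊆ range n, f1 S = r₁ (fn n S))
    (hf2 : ∀ S ⊆ range n, f2 S = r₂ (fn n S)ᶜ - R) : Pair n f1 f2 := by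
  refine ⟨fun A hA B hB => ?_, fun A hA B hB => ?_, ?_, ?_, ?_⟩
  · rw [hf1 _ hA, hf1 _ hB, hf1 _ (union_subset hA hB), hf1 _ (inter_subset_left.trans hA),
      fn_union, fn_inter]
    exact_mod_cast h1.2.2 _ _
  · rw [hf2 _ hA, hf2 _ hB, hf2 _ (union_subset hA hB), hf2 _ (inter_subset_left.trans hA),
      fn_union, fn_inter, compl_union, compl_inter]
    have := h2.2.2 (fn n A)ᶜ (fn n B)ᶜ
    omega
  · rw [hf1 _ (empty_subset _), fn_empty, h1.1]; rfl
  · rw [hf2 _ (empty_subset _), fn_empty, compl_empty, e2, sub_self]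
  · rw [hf1 _ Subset.rfl, hf2 _ Subset.rfl, fn_range, compl_univ, e1, h2.1]; simp

theorem mem_PS_iff (hf1 : ∀ S ⊆ range n, f1 S = r₁ (fn n S))
    (hf2 : ∀ S ⊆ range n, f2 S = r₂ (fn n S)ᶜ - R) {x : Vec} :
    x ∈ PS n f1 f2 ↔ (∀ i, n ≤ i → x i = 0) ∧ ∀ A : Finset (Fin n),
      ∑ j ∈ A, x j ≤ r₁ A ∧ -∑ j ∈ A, x j ≤ r₂ Aᶜ - R := by
  refine and_congr_right fun _ => ⟨fun h A => ?_, fun h S hS => ?_⟩
  · obtain ⟨S, hS, rfl⟩ := fn_surj A
    rw [← hf1 S hS, ← hf2 S hS, ← sm_fn hS]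
    exact h S hS
  · rw [hf1 S hS, hf2 S hS, sm_fn hS]
    exact h _

theorem ncard_PS (h1 : IsPolymatroidRank r₁) (h2 : IsPolymatroidRank r₂) (e1 : r₁ univ = R)
    (hf1 : ∀ S ⊆ range n, f1 S = r₁ (fn n S))
    (hf2 : ∀ S ⊆ range n, f2 S = r₂ (fn n S)ᶜ - R) :
    (PS n f1 f2).Finite ∧ (PS n f1 f2).ncard = numCommonIntBases R r₁ r₂ := by
  let g : (Fin n → Fin (R + 1)) → Vec := fun y i => if h : i < n then ((y ⟨i, h⟩ : ℕ) : ℤ) else 0
  have hg : ∀ y (j : Fin n), g y j = ((y j : ℕ) : ℤ) := fun y j => dif_pos j.2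
  have hinj : Function.Injective g := fun y y' h => funext fun j => Fin.ext (by
    have := congrFun h j
    rw [hg, hg] at this
    exact_mod_cast this)
  suffices h : PS n f1 f2 = g '' ↑(univ.filter fun x : Fin n → Fin (R + 1) =>
      (∑ j, (x j : ℕ)) = R ∧
        ∀ A : Finset (Fin n), (∑ j ∈ A, (x j : ℕ)) ≤ r₁ A ∧ (∑ j ∈ A, (x j : ℕ)) ≤ r₂ A) by
    rw [h, Set.ncard_image_of_injective _ hinj, Set.ncard_coe_finset]
    exact ⟨(finite_toSet _).image _, rfl⟩
  ext x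
  rw [mem_PS_iff hf1 hf2]
  simp only [Set.mem_image, coe_filter, mem_univ, true_and, Set.mem_ofPred_eq]
  constructor
  · rintro ⟨h0, h⟩
    have htot : ∑ j : Fin n, x j = R := by
      have := h univ
      rw [compl_univ, h2.1, e1] at this
      omega
    have hle : ∀ A, r₁ A ≤ R := fun A => e1 ▸ h1.2.1 _ _ (subset_univ _)
    have hx : ∀ j : Fin n, 0 ≤ x j ∧ x j ≤ R := fun j => by
      have a1 := (h {j}).1
      have a2 := (h {j}ᶜ).1
      have a3 := sum_add_sum_compl {j} fun j : Fin n => x j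
      have := hle {j}
      have := hle {j}ᶜ
      rw [sum_singleton] at a1 a3
      omega
    have hy : ∀ j : Fin n, (((x j).toNat : ℕ) : ℤ) = x j := fun j => Int.toNat_of_nonneg (hx j).1
    refine ⟨fun j => ⟨(x j).toNat, by have := hx j; omega⟩, ⟨?_, fun A => ?_⟩, ?_⟩
    · zify
      simp only [hy, htot]
    · zify
      simp only [hy]
      have a1 := (h Aᶜ).2
      have a3 := sum_add_sum_compl A fun j : Fin n => x j
      rw [compl_compl] at a1
      exact ⟨(h A).1, by omega⟩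
    · funext i
      by_cases hi : i < n
      · exact (dif_pos hi).trans (hy ⟨i, hi⟩)
      · rw [h0 i (by omega)]
        exact dif_neg hi
  · rintro ⟨y, ⟨ht, h⟩, rfl⟩
    refine ⟨fun i hi => dif_neg (by omega), fun A => ?_⟩
    simp only [hg]
    have a1 := (h A).1
    have a2 := (h Aᶜ).2
    have a3 := sum_add_sum_compl A fun j : Fin n => (y j : ℕ)
    rw [ht] at a3
    rw [← Nat.cast_sum]
    omega

end

end Crest.Agent.R302
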