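import Crest.Agent.R302.Ram
import Crest.Agent.R302.Fpras
import Crest.Agent.R302.Sfm
import Crest.Agent.R302.TopA

/-! Row 302: from oracle-computable rank functions to the word-RAM approximation scheme. -/

set_option autoImplicit false

namespace Crest.Agent.R302

open Crest.Agent.PT Crest.Agent.R309 Crest.Polymatroid Crest.OracleRAM Finset

/-- oracle, input words, size in unary -/
abbrev AA : Type := Orc × List ℕ × Un

/-- the size of the ground set -/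
def nA (a : AA) : ℕ := min (a.2.1.getD 0 0) a.2.2.val

theorem pu_nA : PU nA := PU.min_right (by fun_prop) (by fun_prop)

theorem oW_wd {n : ℕ} (O : Bool → Finset (Fin n) → ℕ) (b : Bool) (S : Finset ℕ) :
    oW n O (b :: wd n S) = O b (fn n S) := by
  unfold oW fn
  congr 1
  refine filter_congr fun j _ => ?_
  simp [wd, List.getD_eq_getElem?_getD]

theorem ot_direct (b : Bool) :
    OT fun p : AA × Word => p.1.1.f (b :: wd (nA p.1) (st (nA p.1) p.2)) := by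
  have hn1 : PU fun p : AA × Word => nA p.1 := pu_nA.comp PTime.fst'
  have hw : PTime fun p : AA × Word => wd (nA p.1) (st (nA p.1) p.2) :=
    SfmX.pt_wd hn1 (SfmX.pt_st (hn1.comp PTime.fst').ptime (by fun_prop) (by fun_prop))
  exact (OT.ask (OT.of_ptime (PTime.cons (PTime.const b) hw))).congr fun _ => rfl

theorem R_lt (n R : ℕ) (ε δ : ℚ) : R + 1 < 2 ^ sizeParam n R ε δ := by
  have h1 : R + 2 ≤ 2 ^ Nat.clog 2 (R + 2) := Nat.le_pow_clog (by omega) _
  have h2 : 2 ^ Nat.clog 2 (R + 2) ≤ 2 ^ sizeParam n R ε δ :=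
    Nat.pow_le_pow_right (by omega) (by unfold sizeParam; omega)
  omega

theorem eps_le (n R : ℕ) {ε : ℚ} (δ : ℚ) (hε : 0 < ε) :
    1 ≤ (ε : ℝ) * (2 * sizeParam n R ε δ + 4 : ℕ) := by
  have h1 : ε⁻¹ ≤ (⌈ε⁻¹⌉₊ : ℚ) := Nat.le_ceil _
  have h2 : ((⌈ε⁻¹⌉₊ : ℕ) : ℚ) ≤ (2 * sizeParam n R ε δ + 4 : ℕ) := by
    exact_mod_cast (show ⌈ε⁻¹⌉₊ ≤ 2 * sizeParam n R ε δ + 4 by unfold sizeParam; omega)
  have h3 : 1 ≤ ε * (2 * sizeParam n R ε δ + 4 : ℕ) := by
    rw [← mul_inv_cancel₀ hε.ne']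
    exact mul_le_mul_of_nonneg_left (h1.trans h2) hε.le
  exact_mod_cast h3

theorem del_le (n R : ℕ) (ε : ℚ) {δ : ℚ} (hδ : 0 < δ) :
    (2 : ℝ)⁻¹ ^ (2 * sizeParam n R ε δ + 4) ≤ δ := by
  have h1 : δ.den + 2 ≤ 2 ^ Nat.clog 2 (δ.den + 2) := Nat.le_pow_clog (by omega) _
  have h2 : 2 ^ Nat.clog 2 (δ.den + 2) ≤ 2 ^ (2 * sizeParam n R ε δ + 4) :=
    Nat.pow_le_pow_right (by omega) (by unfold sizeParam; omega)
  have h3 : (δ.den : ℝ) ≤ 2 ^ (2 * sizeParam n R ε δ + 4) := by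
    exact_mod_cast (show δ.den ≤ 2 ^ (2 * sizeParam n R ε δ + 4) by omega)
  have h4 : (1 : ℝ) ≤ δ.num := by exact_mod_cast Rat.num_pos.2 hδ
  have h5 : (0 : ℝ) < δ.den := by exact_mod_cast δ.den_pos
  rw [inv_pow, Rat.cast_def, le_div_iff₀ h5, inv_mul_le_iff₀ (by positivity)]
  exact h3.trans (le_mul_of_one_le_right (by positivity) h4)

theorem top_of_rank (rk : AA → Bool → Finset ℕ → ℕ)
    (hrk : ∀ b, OT fun p : AA × Word => rk p.1 b (st (nA p.1) p.2)) :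
    ∃ (P : OProgram) (c₀ C d : ℕ), ∀ (n R : ℕ) (O : Bool → Finset (Fin n) → ℕ)
      (r₁ r₂ : Finset (Fin n) → ℕ) (N : ℕ) (ε δ : ℚ),
      IsPolymatroidRank r₁ → IsPolymatroidRank r₂ → r₁ univ = R → r₂ univ = R → 0 < ε → 0 < δ →
      (∀ b A, O b A ≤ R + 1) → N = numCommonIntBases R r₁ r₂ →
      (∀ a : AA, a.1.f = oW n O → nA a = n → ∀ S ⊆ range n,
        rk a false S = r₁ (fn n S) ∧ rk a true S = r₂ (fn n S)) →
      (∀ ρ : ℕ → ℕ, (orun P n O
          (c₀ * Nat.clog 2 (n + R + ε.num.natAbs + ε.den + δ.num.natAbs + δ.den + 2)) ρ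
          (countInput n R ε δ) (C * (sizeParam n R ε δ + 1) ^ d)).cfg.halted = true) ∧
      (∀ ρ : ℕ → ℕ, ∃ z : ℚ, 0 ≤ z ∧ decodeRat
          (c₀ * Nat.clog 2 (n + R + ε.num.natAbs + ε.den + δ.num.natAbs + δ.den + 2))
          (orun P n O
            (c₀ * Nat.clog 2 (n + R + ε.num.natAbs + ε.den + δ.num.natAbs + δ.den + 2)) ρ
            (countInput n R ε δ) (C * (sizeParam n R ε δ + 1) ^ d)).cfg.output = some z) ∧
      (N = 0 → ∀ ρ : ℕ → ℕ, decodeRat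
          (c₀ * Nat.clog 2 (n + R + ε.num.natAbs + ε.den + δ.num.natAbs + δ.den + 2))
          (orun P n O
            (c₀ * Nat.clog 2 (n + R + ε.num.natAbs + ε.den + δ.num.natAbs + δ.den + 2)) ρ
            (countInput n R ε δ) (C * (sizeParam n R ε δ + 1) ^ d)).cfg.output = some 0) ∧
      1 - (δ : ℝ) ≤ oprobAfter P n O
          (c₀ * Nat.clog 2 (n + R + ε.num.natAbs + ε.den + δ.num.natAbs + δ.den + 2))
          (countInput n R ε δ) (C * (sizeParam n R ε δ + 1) ^ d)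
          (fun c => ∃ z : ℚ, decodeRat
              (c₀ * Nat.clog 2 (n + R + ε.num.natAbs + ε.den + δ.num.natAbs + δ.den + 2))
              c.cfg.output = some z ∧ (1 - ε) * N ≤ z ∧ z ≤ (1 + ε) * N) := by
  classical
  have hn1 : PU fun p : AA × Word => nA p.1 := pu_nA.comp PTime.fst'
  have h1 : OT fun p : AA × Word => (rk p.1 false (st (nA p.1) p.2) : ℤ) :=
    OT.pcomp (g := fun v : ℕ => (v : ℤ)) (by fun_prop) (hrk false)
  have hw : PTime fun p : AA × Word => wd (nA p.1) (range (nA p.1) \ st (nA p.1) p.2) := by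
    refine SfmX.pt_wd hn1 ?_
    have hn2 : PTime fun p : (AA × Word) × Un => nA p.1.1 := (hn1.comp PTime.fst').ptime
    simp only [mem_sdiff, mem_range, mem_st]
    fun_prop
  have h2' : OT fun p : AA × Word => rk p.1 true (range (nA p.1) \ st (nA p.1) p.2) :=
    ((hrk true).pre (PTime.fst'.pair hw) fun _ => rfl).congr fun p => by
      rw [st_wd sdiff_subset]
  have h2 : OT fun p : AA × Word =>
      (rk p.1 true (range (nA p.1) \ st (nA p.1) p.2) : ℤ) - (p.1.2.1.getD 1 0 : ℕ) :=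
    (OT.map (E := fun q : (AA × Word) × ℕ => (q.2 : ℤ) - (q.1.1.2.1.getD 1 0 : ℕ))
      (by fun_prop) h2').congr fun _ => rfl
  obtain ⟨L, est, hL, hest, H⟩ := exists_fpras nA (fun a => 2 * a.2.2.val + 4) pu_nA (by fun_prop)
    (fun a S => (rk a false S : ℤ))
    (fun a S => (rk a true (range (nA a) \ S) : ℤ) - (a.2.1.getD 1 0 : ℕ)) h1 h2
  have hre : PTime fun p : Orc × List ℕ × Un × Word => (((p.1, p.2.1, p.2.2.1), p.2.2.2) : AA × Word) := by
    fun_prop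
  have hF : OT fun p : AA × Word => if nA p.1 = 0 then ((1, 0) : ℕ × ℕ) else est p :=
    OT.ite (OT.of_ptime (PTime.eq hn1.ptime (PTime.const _))) (OT.of_ptime (PTime.const _)) hest
  obtain ⟨P, c₀, C, d, hP⟩ := ram_main _ (hF.pre hre fun _ => rfl) (fun S => L (2 * S + 4))
    (hL.comp (f := fun u : Un => Un.mk (2 * u.val + 4)) (show PU fun u : Un => 2 * u.val + 4 by
      fun_prop))
  refine ⟨P, c₀, C, d, fun n R O r₁ r₂ N ε δ p1 p2 e1 e2 hε hδ hO hN hr => ?_⟩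
  have hR := R_lt n R ε δ
  let o : Orc := ⟨oW n O, sizeParam n R ε δ, fun q => (hO _ _).trans_lt hR⟩
  obtain ⟨a, ha⟩ : ∃ a : AA, a = (o, countInput n R ε δ, ⟨sizeParam n R ε δ⟩) := ⟨_, rfl⟩
  have hnS : n ≤ sizeParam n R ε δ := by unfold sizeParam; omega
  have hna : nA a = n := by rw [ha]; exact min_eq_left hnS
  have hRa : a.2.1.getD 1 0 = R := by rw [ha]; rfl
  have hSa : a.2.2.val = sizeParam n R ε δ := by rw [ha]
  have hr' := hr a (by rw [ha]) hna
  have hf1 : ∀ S ⊆ range n, (rk a false S : ℤ) = r₁ (fn n S) := fun S hS => by rw [(hr' S hS).1]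
  have hf2 : ∀ S ⊆ range n, (rk a true (range n \ S) : ℤ) - R = r₂ (fn n S)ᶜ - R := fun S _ => by
    rw [(hr' _ sdiff_subset).2, fn_compl]
  obtain ⟨hfin, hc⟩ := ncard_PS p1 p2 e1 hf1 hf2
  rw [← hN] at hc
  have H' := H a
  simp only [hna, hRa, hSa] at H'
  obtain ⟨v, hv⟩ : ∃ v : Word → ℕ × ℕ, v = fun ω => if n = 0 then (1, 0) else est (a, ω) := ⟨_, rfl⟩
  obtain ⟨h3, h4⟩ := hP n R ε δ O o (fun ω => ((v ω).1 : ℚ) / (((v ω).2 : ℚ) + 1)) hε hδ hO rfl rfl
    fun ω => by rw [← ha, hna, hv]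
  have key : (N = 0 → ∀ ω, (v ω).1 = 0) ∧ 1 - (δ : ℝ) ≤ Pr (L (2 * sizeParam n R ε δ + 4)) fun ω =>
      (1 - ε) * N ≤ ((v ω).1 : ℚ) / (((v ω).2 : ℚ) + 1) ∧
        ((v ω).1 : ℚ) / (((v ω).2 : ℚ) + 1) ≤ (1 + ε) * N := by
    have hδ' : (0 : ℝ) < δ := by exact_mod_cast hδ
    rcases Nat.eq_zero_or_pos n with h0 | h0
    · subst h0
      have hR0 : R = 0 := e1.symm.trans p1.1
      have hN1 : N = 1 := by
        rw [hN, numCommonIntBases, filter_true_of_mem fun x _ => ⟨by simp [hR0], fun A => by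
          simp [Subsingleton.elim A ∅]⟩]
        simp
      refine ⟨fun h => by omega, ?_⟩
      rw [Pr_true _ fun ω _ => by rw [hv, hN1]; simp [hε.le]]
      linarith
    · have hv' : ∀ ω, v ω = est (a, ω) := fun ω => by rw [hv]; exact if_neg h0.ne'
      have hb : ∀ A, r₁ A ≤ R ∧ r₂ A ≤ R := fun A =>
        ⟨e1 ▸ p1.2.1 _ _ (subset_univ _), e2 ▸ p2.2.1 _ _ (subset_univ _)⟩
      have hpow : (R : ℤ) < 2 ^ (2 * sizeParam n R ε δ + 4) := by
        have : 2 ^ sizeParam n R ε δ ≤ 2 ^ (2 * sizeParam n R ε δ + 4) :=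
          Nat.pow_le_pow_right (by omega) (by omega)
        exact_mod_cast (show R < 2 ^ (2 * sizeParam n R ε δ + 4) by omega)
      obtain ⟨h5, h6⟩ := H' (pair_of p1 p2 e1 e2 hf1 hf2) h0 (by omega) fun S hS => by
        rw [hf1 S hS, hf2 S hS, abs_lt, abs_lt]
        have := hb (fn n S)
        have := hb (fn n S)ᶜ
        omega
      have h7 : N = 0 → ∀ ω, (v ω).1 = 0 := fun h ω => by
        rw [hv']
        exact h5 ((Set.ncard_eq_zero hfin).1 (hc.trans h)) ω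
      refine ⟨h7, ?_⟩
      rcases Nat.eq_zero_or_pos N with hN0 | hN0
      · rw [Pr_true _ fun ω _ => by rw [h7 hN0, hN0]; simp]
        linarith
      have h8 := h6 (Set.nonempty_of_ncard_ne_zero (hc ▸ hN0.ne'))
      rw [hc] at h8
      refine (sub_le_sub_left (del_le n R ε hδ) 1).trans (h8.trans (Pr_mono fun ω _ h => ?_))
      have h9 : (N : ℝ) / (2 * sizeParam n R ε δ + 4 : ℕ) ≤ ε * N := by
        rw [div_le_iff₀ (by positivity)]
        have := mul_le_mul_of_nonneg_left (eps_le n R δ hε) (Nat.cast_nonneg (α := ℝ) N)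
        linarith
      obtain ⟨b1, b2⟩ := abs_le.1 (h.trans h9)
      rw [← hv', qv] at b1 b2
      constructor
      · rw [← Rat.cast_le (K := ℝ)]
        push_cast
        linarith
      · rw [← Rat.cast_le (K := ℝ)]
        push_cast
        linarith
  refine ⟨fun ρ => (h3 ρ).1, fun ρ => ?_, fun h ρ => ?_, ?_⟩
  · obtain ⟨ω, hω⟩ := (h3 ρ).2
    exact ⟨_, by positivity, hω⟩
  · obtain ⟨ω, hω⟩ := (h3 ρ).2
    rw [hω, key.1 h]
    simp
  · rw [h4 fun z => (1 - ε) * N ≤ z ∧ z ≤ (1 + ε) * N]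
    exact key.2

end Crest.Agent.R302
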