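import Crest.Agent.R302.Top

/-! Row 302: matroid rank by the greedy algorithm, and common bases as integer bases. -/

set_option autoImplicit false

namespace Crest.Agent.R302

open Crest.Agent.PT Crest.Agent.R309 Crest.Polymatroid Finset

section
variable {n r : ℕ}

/-- the rank as a number -/
noncomputable def mr (M : Matroid (Fin n)) (A : Finset (Fin n)) : ℕ := (M.eRk A).toNat

theorem mr_cast (M : Matroid (Fin n)) (A : Finset (Fin n)) : (mr M A : ℕ∞) = M.eRk A :=
  ENat.natCast_toNat (ne_top_of_le_ne_top A.finite_toSet.encard_lt_top.ne (M.eRk_le_encard _))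

theorem mr_poly (M : Matroid (Fin n)) : IsPolymatroidRank (mr M) := by
  refine ⟨by simp [mr], fun A B h => ?_, fun A B => ?_⟩
  · rw [← Nat.cast_le (α := ℕ∞), mr_cast, mr_cast]
    exact M.eRk_mono (coe_subset.2 h)
  · rw [← Nat.cast_le (α := ℕ∞), Nat.cast_add, Nat.cast_add, mr_cast, mr_cast, mr_cast, mr_cast,
      coe_union, coe_inter, add_comm]
    exact M.eRk_inter_add_eRk_union_le _ _

theorem mr_univ {M : Matroid (Fin n)} (h : M.eRank = r) : mr M univ = r := by
  rw [← Nat.cast_inj (R := ℕ∞), mr_cast, coe_univ, M.eRk_univ_eq, h]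

theorem base_iff {M : Matroid (Fin n)} (h : M.eRank = r) (B : Finset (Fin n)) :
    M.IsBase B ↔ B.card = r ∧ ∀ A, (A ∩ B).card ≤ mr M A := by
  constructor
  · intro hB
    refine ⟨?_, fun A => ?_⟩
    · rw [← Nat.cast_inj (R := ℕ∞), ← h, ← hB.encard_eq_eRank, Set.encard_coe_eq_coe_finsetCard]
    · rw [← Nat.cast_le (α := ℕ∞), mr_cast, ← Set.encard_coe_eq_coe_finsetCard]
      exact (hB.indep.subset (coe_subset.2 inter_subset_right)).encard_le_eRk_of_subset
        (coe_subset.2 inter_subset_left)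
  · rintro ⟨h1, h2⟩
    have h3 := h2 B
    rw [inter_self, ← Nat.cast_le (α := ℕ∞), mr_cast, ← Set.encard_coe_eq_coe_finsetCard] at h3
    refine ((Matroid.indep_iff_eRk_eq_encard_of_finite B.finite_toSet).2
      (le_antisymm (M.eRk_le_encard _) h3)).isBase_of_eRk_ge B.finite_toSet ?_
    rwa [h, ← h1, ← Set.encard_coe_eq_coe_finsetCard]

theorem num_eq {M₁ M₂ : Matroid (Fin n)} (h1 : M₁.eRank = r) (h2 : M₂.eRank = r) :
    numCommonBases M₁ M₂ = numCommonIntBases r (mr M₁) (mr M₂) := by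
  classical
  have hs : ∀ x : Fin n → Fin (r + 1), (∀ j, (x j : ℕ) ≤ 1) → ∀ A : Finset (Fin n),
      ∑ j ∈ A, (x j : ℕ) = (A ∩ univ.filter fun j => (x j : ℕ) = 1).card := fun x hx A => by
    rw [inter_filter, inter_univ, card_filter]
    refine sum_congr rfl fun j _ => ?_
    have := hx j
    split_ifs <;> omega
  have hx1 : ∀ x : Fin n → Fin (r + 1), (∀ A : Finset (Fin n), ∑ j ∈ A, (x j : ℕ) ≤ mr M₁ A ∧
      ∑ j ∈ A, (x j : ℕ) ≤ mr M₂ A) → ∀ j, (x j : ℕ) ≤ 1 := fun x hx j => by
    have := (hx {j}).1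
    rw [sum_singleton] at this
    refine this.trans ?_
    rw [← Nat.cast_le (α := ℕ∞), mr_cast, coe_singleton]
    exact M₁.eRk_singleton_le j
  symm
  refine card_bij (fun x _ => univ.filter fun j => (x j : ℕ) = 1) (fun x hx => ?_)
    (fun x hx y hy h => ?_) fun B hB => ?_
  · obtain ⟨a1, a2⟩ := (mem_filter.1 hx).2
    have a3 := hs x (hx1 x a2)
    simp only [a3, univ_inter] at a1 a2
    rw [mem_filter, base_iff h1, base_iff h2]
    exact ⟨mem_univ _, ⟨a1, fun A => (a2 A).1⟩, a1, fun A => (a2 A).2⟩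
  · funext j
    have a1 := hx1 x (mem_filter.1 hx).2.2 j
    have a2 := hx1 y (mem_filter.1 hy).2.2 j
    have a3 := Finset.ext_iff.1 h j
    simp only [mem_filter, mem_univ, true_and] at a3
    exact Fin.ext (by omega)
  · obtain ⟨b1, b2⟩ := (mem_filter.1 hB).2
    rw [base_iff h1] at b1
    rw [base_iff h2] at b2
    let x : Fin n → Fin (r + 1) := fun j => ⟨if j ∈ B then 1 else 0, by
      split_ifs with h
      · have := card_pos.2 ⟨j, h⟩
        omega
      · omega⟩
    have e : (univ.filter fun j => (x j : ℕ) = 1) = B := by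
      ext j
      simp [x]
    have a3 := hs x fun j => by simp only [x]; split_ifs <;> omega
    refine ⟨x, mem_filter.2 ⟨mem_univ _, ?_⟩, e⟩
    simp only [a3, e, univ_inter]
    exact ⟨b1.1, fun A => ⟨b1.2 A, b2.2 A⟩⟩

end

/-- the greedy independent set -/
def gr (O : Word → ℕ) (n : ℕ) (b : Bool) (S : Finset ℕ) : ℕ → Finset ℕ
  | 0 => ∅
  | k + 1 => if k ∈ S ∧ O (b :: wd n (insert k (gr O n b S k))) = 1 then insert k (gr O n b S k)
      else gr O n b S k

theorem gr_sub (O : Word → ℕ) (n : ℕ) (b : Bool) (S : Finset ℕ) :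
    ∀ k, ∀ j ∈ gr O n b S k, j < k ∧ j ∈ S
  | 0 => by simp [gr]
  | k + 1 => fun j hj => by
      have := gr_sub O n b S k j
      rw [gr] at hj
      split_ifs at hj with h
      · rcases mem_insert.1 hj with rfl | hj
        · exact ⟨by omega, h.1⟩
        · exact ⟨by have := (this hj).1; omega, (this hj).2⟩
      · exact ⟨by have := (this hj).1; omega, (this hj).2⟩

theorem gr_spec {n : ℕ} {O : Word → ℕ} {b : Bool} {M : Matroid (Fin n)}
    (hO : ∀ S, O (b :: wd n S) = 1 ↔ M.Indep (fn n S)) (S : Finset ℕ) (k : ℕ) :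
    M.Indep (fn n (gr O n b S k)) ∧ ∀ j < k, j ∈ S → j ∉ gr O n b S k →
      ¬ M.Indep (fn n (insert j (gr O n b S k))) := by
  have mono : ∀ {A B : Finset ℕ}, A ⊆ B → M.Indep (fn n B) → M.Indep (fn n A) := fun h hB =>
    hB.subset fun j hj => by
      rw [mem_coe, mem_fn] at hj ⊢
      exact h hj
  induction k with
  | zero => exact ⟨by rw [gr, fn_empty, coe_empty]; exact M.empty_indep, by omega⟩
  | succ k ih =>
      rw [gr]
      split_ifs with h
      · refine ⟨(hO _).1 h.2, fun j hj hS hn hI => ?_⟩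
        rw [mem_insert, not_or] at hn
        exact ih.2 j (by omega) hS hn.2 (mono (insert_subset_insert _ (subset_insert _ _)) hI)
      · refine ⟨ih.1, fun j hj hS hn hI => ?_⟩
        rcases Nat.lt_succ_iff_lt_or_eq.1 hj with hj | rfl
        · exact ih.2 j hj hS hn hI
        · exact h ⟨hS, (hO _).2 hI⟩

theorem gr_card {n : ℕ} {O : Word → ℕ} {b : Bool} {M : Matroid (Fin n)} (hE : M.E = Set.univ)
    (hO : ∀ S, O (b :: wd n S) = 1 ↔ M.Indep (fn n S)) (S : Finset ℕ) :
    (gr O n b S n).card = mr M (fn n S) := by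
  obtain ⟨h1, h2⟩ := gr_spec hO S n
  have hs := gr_sub O n b S n
  have hB : M.IsBasis (fn n (gr O n b S n)) (fn n S) := by
    refine h1.isBasis_of_forall_insert (fun j hj => ?_) fun j hj => ?_
    · rw [mem_coe, mem_fn] at hj ⊢
      exact (hs j hj).2
    · rw [Set.mem_sdiff, mem_coe, mem_coe, mem_fn, mem_fn] at hj
      refine ⟨fun hI => h2 j j.2 hj.1 hj.2 ?_, hE ▸ Set.subset_univ _⟩
      convert hI using 1
      ext i
      simp [Fin.ext_iff]
  rw [← Nat.cast_inj (R := ℕ∞), mr_cast, hB.eRk_eq_encard, Set.encard_coe_eq_coe_finsetCard,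
    card_fn fun j hj => mem_range.2 (hs j hj).1]

theorem ot_gr (b : Bool) :
    OT fun p : AA × Word => (gr p.1.1.f (nA p.1) b (st (nA p.1) p.2) (nA p.1)).card := by
  have hn1 : PU fun p : AA × Word => nA p.1 := pu_nA.comp PTime.fst'
  have hn2 : PU fun q : (AA × Word) × Word × Un => nA q.1.1 := hn1.comp PTime.fst'
  have hw : PTime fun q : (AA × Word) × Word × Un =>
      wd (nA q.1.1) (insert q.2.2.val (st (nA q.1.1) q.2.1)) := by
    refine SfmX.pt_wd hn2 ?_
    have hn3 : PTime fun p : ((AA × Word) × Word × Un) × Un => nA p.1.1.1 :=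
      (hn2.comp PTime.fst').ptime
    simp only [mem_insert, mem_st]
    fun_prop
  have hq : OT fun q : (AA × Word) × Word × Un =>
      q.1.1.1.f (b :: wd (nA q.1.1) (insert q.2.2.val (st (nA q.1.1) q.2.1))) :=
    (OT.ask (OT.of_ptime (PTime.cons (PTime.const b) hw))).congr fun _ => rfl
  have hm : PTime fun q : (AA × Word) × Word × Un => q.2.2.val ∈ st (nA q.1.1) q.1.2 :=
    SfmX.pt_st hn2.ptime (by fun_prop) (by fun_prop)
  have hc : OT fun q : (AA × Word) × Word × Un => q.2.2.val ∈ st (nA q.1.1) q.1.2 ∧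
      q.1.1.1.f (b :: wd (nA q.1.1) (insert q.2.2.val (st (nA q.1.1) q.2.1))) = 1 :=
    (OT.pcomp (g := fun v : Prop × ℕ => v.1 ∧ v.2 = 1) (by fun_prop)
      ((OT.of_ptime hm).pair hq)).congr fun _ => rfl
  have hl := OT.loop (fun (p : AA × Word) k =>
      wd (nA p.1) (gr p.1.1.f (nA p.1) b (st (nA p.1) p.2) k))
    (fun p s k => if k ∈ st (nA p.1) p.2 ∧ p.1.1.f (b :: wd (nA p.1) (insert k (st (nA p.1) s))) = 1
      then wd (nA p.1) (insert k (st (nA p.1) s)) else s) hn1
    (OT.of_ptime (SfmX.pt_wd (X := fun _ => ∅) hn1 ((PTime.const False).congr fun _ => by simp)))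
    (OT.ite hc (OT.of_ptime hw) (OT.of_ptime (by fun_prop)))
    (fun p k hk => by
      rw [gr, st_wd fun j hj => mem_range.2 ((gr_sub _ _ _ _ _ j hj).1.trans hk), apply_ite (wd _)])
    hn1.pb (fun p k _ => by simp [wd])
  have hn4 : PU fun q : (AA × Word) × Word => nA q.1.1 := hn1.comp PTime.fst'
  refine (OT.map (E := fun q : (AA × Word) × Word => (st (nA q.1.1) q.2).card)
    (PTime.card_filter (c := fun (q : (AA × Word) × Word) j => q.2.getD j false = true) hn4
      (by fun_prop)) hl).congr fun p => ?_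
  rw [st_wd fun j hj => mem_range.2 (gr_sub _ _ _ _ _ j hj).1]

end Crest.Agent.R302
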