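import Crest.Agent.R302.TreeC
import Crest.Agent.R302.Sfm

/-! Row 302: computing the thin separating sets. -/

set_option autoImplicit false

namespace Crest.Agent.R302

open Crest.Agent.PT Crest.Agent.R309 Finset SfmX

namespace TreeX

theorem qry {α : Type} [Rp α] [HasO α] {n : α → ℕ} (hn : PU n) {f : α → Finset ℕ → ℤ}
    (hf : OT fun p : α × Word => f p.1 (st (n p.1) p.2)) {β : Type} [Rp β] [HasO β] (π : β → α)
    (X : β → Finset ℕ) (hπ : PTime π) (ho : ∀ b, orc (π b) = orc b)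
    (hX : ∀ b, X b ⊆ range (n (π b))) (hp : PTime fun p : β × Un => p.2.val ∈ X p.1) :
    OT fun b => f (π b) (X b) :=
  (hf.pre (f := fun b => (π b, wd (n (π b)) (X b)))
    (hπ.pair (pt_wd (hn.comp hπ) hp)) ho).congr fun b => by rw [st_wd (hX b)]

theorem ot_add {α : Type} [Rp α] [HasO α] {f g : α → ℤ} (hf : OT f) (hg : OT g) :
    OT fun a => f a + g a :=
  OT.pcomp (g := fun q : ℤ × ℤ => q.1 + q.2) (by fun_prop) (hf.pair hg)

/-- the relation read from the table of minimal cuts -/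
def Arc (n : ℕ) (C : List ℤ) (t u v : ℕ) : Prop := u = v ∨ 2 ^ t ≤ C.getD (u * n + v) 0

instance (n : ℕ) (C : List ℤ) (t : ℕ) : DecidableRel (Arc n C t) := fun u v => by
  unfold Arc; infer_instance

theorem idx {n u v N : ℕ} (hu : u < N) (hv : v < n) :
    u * n + v < N * n ∧ (u * n + v) / n = u ∧ (u * n + v) % n = v := by
  refine ⟨by nlinarith, ?_, by rw [Nat.mul_add_mod_of_lt hv]⟩
  rw [add_comm, Nat.add_mul_div_right _ _ (by omega), Nat.div_eq_of_lt hv, zero_add]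

theorem getD_mapZ {N k : ℕ} (g : ℕ → ℤ) (h : k < N) : ((List.range N).map g).getD k 0 = g k := by
  simp [List.getD_eq_getElem?_getD, h]

theorem getD_mapN {N k : ℕ} (g : ℕ → ℕ) (h : k < N) : ((List.range N).map g).getD k 0 = g k := by
  simp [List.getD_eq_getElem?_getD, h]

theorem RR_tab {n N c : ℕ} {A : ℕ → Finset ℕ} (hc : c < N) (h : A c ⊆ range n) :
    RR n ((List.range (N * n)).map fun k => decide (k % n ∈ A (k / n))) c = A c := by
  ext w
  rw [mem_RR]
  by_cases hw : w < n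
  · obtain ⟨h1, h2, h3⟩ := idx hc hw
    rw [getD_rangeMap_of_lt _ h1, h2, h3]
    simp [hw]
  · exact ⟨fun a => absurd a.1 hw, fun a => absurd (mem_range.1 (h a)) hw⟩

theorem exists_arc {α : Type} [Rp α] [HasO α] (n : α → ℕ) (hn : PU n)
    (f1 f2 : α → Finset ℕ → ℤ) (h1 : OT fun p : α × Word => f1 p.1 (st (n p.1) p.2))
    (h2 : OT fun p : α × Word => f2 p.1 (st (n p.1) p.2)) :
    ∃ C : α → List ℤ, OT C ∧ ∀ a, Submod (n a) (f1 a) → Submod (n a) (f2 a) →
      ∀ t, ∀ u < n a, ∀ v < n a, Arc (n a) (C a) t u v ↔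
        ∀ X ⊆ range (n a), f1 a X + f2 a X < 2 ^ t → u ∈ X → v ∈ X := by
  have hn' := hn.ptime
  have hp : PTime fun p : ((α × Un) × Word) × Un => p.2.val ∈ hh (n p.1.1.1)
      (p.1.1.2.val / n p.1.1.1) (p.1.1.2.val % n p.1.1.1) (st (n p.1.1.1) p.1.2) := by
    simp only [hh, mem_filter, mem_range, mem_st]; fun_prop
  have hG := ot_add
    (qry hn h1 (β := (α × Un) × Word) (fun p => p.1.1)
      (fun p => hh (n p.1.1) (p.1.2.val / n p.1.1) (p.1.2.val % n p.1.1) (st (n p.1.1) p.2))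
      (by fun_prop) (fun _ => rfl) (fun _ => hh_sub _ _ _ _) hp)
    (qry hn h2 (β := (α × Un) × Word) (fun p => p.1.1)
      (fun p => hh (n p.1.1) (p.1.2.val / n p.1.1) (p.1.2.val % n p.1.1) (st (n p.1.1) p.2))
      (by fun_prop) (fun _ => rfl) (fun _ => hh_sub _ _ _ _) hp)
  obtain ⟨g, hg, hg'⟩ := exists_sfm (α := α × Un) (fun p => n p.1) (by fun_prop)
    (fun p S => f1 p.1 (hh (n p.1) (p.2.val / n p.1) (p.2.val % n p.1) S) +
      f2 p.1 (hh (n p.1) (p.2.val / n p.1) (p.2.val % n p.1) S)) hG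
  have hV := OT.bind hG hg
  refine ⟨_, OT.rangeMapZ (n := fun a => n a * n a) (g := fun a k =>
    f1 a (hh (n a) (k / n a) (k % n a) (st (n a) (g (a, Un.mk k)))) +
      f2 a (hh (n a) (k / n a) (k % n a) (st (n a) (g (a, Un.mk k))))) (hn.mul hn) hV,
    fun a s1 s2 t u hu v hv => ?_⟩
  obtain ⟨e1, e2, e3⟩ := idx hu hv
  have h3 := (hg' (a, Un.mk (u * n a + v))).2
  simp only [e2, e3] at h3
  rw [Arc, getD_mapZ _ e1, e2, e3]
  exact arc_iff (G := fun X => f1 a X + f2 a X) hu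
    (h3 (submod_add (submod_hh s1 u v) (submod_hh s2 u v))) _

section
variable {β : Type} [Rp β] {n t i j w : β → ℕ} {C : β → List ℤ} {q : β → Word}

theorem pt_AA (hn : PTime n) (ht : PU t) (hi : PTime i) (hj : PTime j) (hw : PTime w)
    (hC : PTime C) (hq : PTime q) :
    PTime fun b => w b ∈ AA (n b) (Arc (n b) (C b) (t b)) (i b) (j b) (st (n b) (q b)) := by
  simp only [AA, mem_filter, mem_range, Arc, mem_st]; fun_prop

theorem pt_AB (hn : PTime n) (ht : PU t) (hi : PTime i) (hj : PTime j) (hw : PTime w)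
    (hC : PTime C) (hq : PTime q) :
    PTime fun b => w b ∈ AB (n b) (Arc (n b) (C b) (t b)) (i b) (j b) (st (n b) (q b)) := by
  simp only [AB, mem_filter, mem_range, Arc, mem_st]; fun_prop

end

/-- the first set of the candidate number `c` -/
def CA (n : ℕ) (C : List ℤ) (c : ℕ) (S : Finset ℕ) : Finset ℕ :=
  AA n (Arc n C (c / n / n)) (c / n % n) (c % n) S

/-- the second set of the candidate number `c` -/
def CB (n : ℕ) (C : List ℤ) (c : ℕ) (S : Finset ℕ) : Finset ℕ :=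
  AB n (Arc n C (c / n / n)) (c / n % n) (c % n) S

theorem exists_cand {α : Type} [Rp α] [HasO α] (n B : α → ℕ) (hn : PU n) (hB : PU B)
    (f1 f2 : α → Finset ℕ → ℤ) (h1 : OT fun p : α × Word => f1 p.1 (st (n p.1) p.2))
    (h2 : OT fun p : α × Word => f2 p.1 (st (n p.1) p.2)) :
    ∃ D : α → Word × List ℤ, OT D ∧ ∀ a, Pair (n a) (f1 a) (f2 a) →
      (PS (n a) (f1 a) (f2 a)).Nonempty →
      (∀ S ⊆ range (n a), |f1 a S| < 2 ^ B a ∧ |f2 a S| < 2 ^ B a) →
      Cand (n a) (f1 a) (f2 a) (B a) ((B a + 3) * n a * n a) (RR (n a) (D a).1)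
        fun c => (D a).2.getD c 0 := by
  have hn' := hn.ptime
  obtain ⟨C, hC, hC'⟩ := exists_arc n hn f1 f2 h1 h2
  have pA : PTime fun p : (((α × List ℤ) × Un) × Word) × Un =>
      p.2.val ∈ CA (n p.1.1.1.1) p.1.1.1.2 p.1.1.2.val (st (n p.1.1.1.1) p.1.2) :=
    pt_AA (by fun_prop) (by fun_prop) (by fun_prop) (by fun_prop) (by fun_prop) (by fun_prop)
      (by fun_prop)
  have pB : PTime fun p : (((α × List ℤ) × Un) × Word) × Un =>
      p.2.val ∈ CB (n p.1.1.1.1) p.1.1.1.2 p.1.1.2.val (st (n p.1.1.1.1) p.1.2) :=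
    pt_AB (by fun_prop) (by fun_prop) (by fun_prop) (by fun_prop) (by fun_prop) (by fun_prop)
      (by fun_prop)
  have hF := ot_add
    (qry hn h1 (β := ((α × List ℤ) × Un) × Word) (fun p => p.1.1.1)
      (fun p => CA (n p.1.1.1) p.1.1.2 p.1.2.val (st (n p.1.1.1) p.2))
      (by fun_prop) (fun _ => rfl) (fun _ => AA_sub _ _ _ _ _) pA)
    (qry hn h1 (β := ((α × List ℤ) × Un) × Word) (fun p => p.1.1.1)
      (fun p => CB (n p.1.1.1) p.1.1.2 p.1.2.val (st (n p.1.1.1) p.2))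
      (by fun_prop) (fun _ => rfl) (fun _ => AB_sub _ _ _ _ _) pB)
  have hU := qry hn h2 (β := ((α × List ℤ) × Un) × Word) (fun p => p.1.1.1)
    (fun p => CA (n p.1.1.1) p.1.1.2 p.1.2.val (st (n p.1.1.1) p.2) ∪
      CB (n p.1.1.1) p.1.1.2 p.1.2.val (st (n p.1.1.1) p.2))
    (by fun_prop) (fun _ => rfl) (fun _ => union_subset (AA_sub _ _ _ _ _) (AB_sub _ _ _ _ _))
    ((pA.or pB).congr fun _ => propext mem_union)
  have hI := qry hn h2 (β := ((α × List ℤ) × Un) × Word) (fun p => p.1.1.1)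
    (fun p => CA (n p.1.1.1) p.1.1.2 p.1.2.val (st (n p.1.1.1) p.2) ∩
      CB (n p.1.1.1) p.1.1.2 p.1.2.val (st (n p.1.1.1) p.2))
    (by fun_prop) (fun _ => rfl) (fun _ => inter_subset_left.trans (AA_sub _ _ _ _ _))
    ((pA.and pB).congr fun _ => propext mem_inter)
  obtain ⟨g, hg, hg'⟩ := exists_sfm (α := (α × List ℤ) × Un) (fun p => n p.1.1) (by fun_prop)
    (fun p S => f1 p.1.1 (CA (n p.1.1) p.1.2 p.2.val S) + f1 p.1.1 (CB (n p.1.1) p.1.2 p.2.val S))
    hF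
  have hL0 := OT.bind (ot_add (ot_add hF hU) hI) hg
  have hL := OT.rangeMapZ (α := α × List ℤ) (n := fun p => (B p.1 + 3) * n p.1 * n p.1)
    (g := fun p c => Phi (f1 p.1) (f2 p.1) (CA (n p.1) p.2 c (st (n p.1) (g (p, Un.mk c))))
      (CB (n p.1) p.2 c (st (n p.1) (g (p, Un.mk c))))) (by fun_prop) hL0
  have hW1 := hg.pre (α := (α × List ℤ) × Un)
    (f := fun p => (p.1, Un.mk (p.2.val / n p.1.1))) (by fun_prop) fun _ => rfl
  have hW2 : PTime fun r : ((α × List ℤ) × Un) × Word => decide (r.1.2.val % n r.1.1.1 ∈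
      CA (n r.1.1.1) r.1.1.2 (r.1.2.val / n r.1.1.1) (st (n r.1.1.1) r.2)) :=
    PTime.decide (pt_AA (by fun_prop) (by fun_prop) (by fun_prop) (by fun_prop) (by fun_prop)
      (by fun_prop) (by fun_prop))
  have hW0 := OT.map hW2 hW1
  have hW := OT.rangeMap (α := α × List ℤ) (n := fun p => (B p.1 + 3) * n p.1 * n p.1 * n p.1)
    (g := fun p k => decide (k % n p.1 ∈
      CA (n p.1) p.2 (k / n p.1) (st (n p.1) (g (p, Un.mk (k / n p.1)))))) (by fun_prop) hW0
  refine ⟨_, OT.bind (hW.pair hL) hC, fun a hP hx hb => ?_⟩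
  refine (cand_of_min hP hx hb (R := Arc (n a) (C a)) (hC' a hP.s1 hP.s2)
    (tt := fun c => c / n a / n a) (ii := fun c => c / n a % n a) (jj := fun c => c % n a)
    (S := fun c => st (n a) (g ((a, C a), Un.mk c))) (fun t ht i hi j hj => ?_)
    fun c _ => (hg' ((a, C a), Un.mk c)).2 (submod_FF _ _ _ hP.s1)).congr (fun c hc => ?_)
    fun c hc => ?_
  · obtain ⟨e1, e2, e3⟩ := idx ht hi
    obtain ⟨e4, e5, e6⟩ := idx e1 hj
    exact ⟨_, e4, by rw [e5, e2], by rw [e5, e3], e6⟩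
  · exact RR_tab (A := fun c => CA (n a) (C a) c (st (n a) (g ((a, C a), Un.mk c)))) hc
      (AA_sub _ _ _ _ _)
  · exact getD_mapZ _ hc

end TreeX

end Crest.Agent.R302
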