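import Crest.Agent.R302.TreeM

/-! Row 302: thin separating sets from submodular minimisation. -/

set_option autoImplicit false

namespace Crest.Agent.R302

open Finset

namespace TreeX

variable {n : ℕ} {f f1 f2 : Finset ℕ → ℤ}

/-- force `u` in and `v` out -/
def hh (n u v : ℕ) (S : Finset ℕ) : Finset ℕ :=
  (range n).filter fun w => (w = u ∨ w ∈ S) ∧ w ≠ v

theorem hh_sub (n u v : ℕ) (S : Finset ℕ) : hh n u v S ⊆ range n := filter_subset _ _

theorem submod_hom (hf : Submod n f) {φ : Finset ℕ → Finset ℕ} (h0 : ∀ S, φ S ⊆ range n)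
    (h1 : ∀ S T, φ (S ∪ T) = φ S ∪ φ T) (h2 : ∀ S T, φ (S ∩ T) = φ S ∩ φ T) :
    Submod n fun S => f (φ S) := fun S _ T _ => by
  beta_reduce
  rw [h1, h2]
  exact hf _ (h0 S) _ (h0 T)

theorem submod_anti (hf : Submod n f) {φ : Finset ℕ → Finset ℕ} (h0 : ∀ S, φ S ⊆ range n)
    (h1 : ∀ S T, φ (S ∪ T) = φ S ∩ φ T) (h2 : ∀ S T, φ (S ∩ T) = φ S ∪ φ T) :
    Submod n fun S => f (φ S) := fun S _ T _ => by
  beta_reduce
  rw [h1, h2, add_comm]
  exact hf _ (h0 S) _ (h0 T)

theorem submod_add {f g : Finset ℕ → ℤ} (hf : Submod n f) (hg : Submod n g) :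
    Submod n fun S => f S + g S := fun S hS T hT => by
  have h1 := hf S hS T hT
  have h2 := hg S hS T hT
  beta_reduce
  omega

theorem submod_hh (hf : Submod n f) (u v : ℕ) : Submod n fun S => f (hh n u v S) :=
  submod_hom hf (hh_sub n u v)
    (fun S T => by ext w; simp only [hh, mem_filter, mem_union]; tauto)
    (fun S T => by ext w; simp only [hh, mem_filter, mem_inter]; tauto)

/-- the relation read from minimal cuts -/
theorem arc_iff {G : Finset ℕ → ℤ} {u v : ℕ} (hu : u < n) {S : Finset ℕ}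
    (hS : IsMin n (fun S => G (hh n u v S)) S) (θ : ℤ) :
    (u = v ∨ θ ≤ G (hh n u v S)) ↔ ∀ X ⊆ range n, G X < θ → u ∈ X → v ∈ X := by
  constructor
  · rintro (rfl | h) X hX h1 h2
    · exact h2
    · by_contra h3
      have h4 := hS.2 X hX
      have e : hh n u v X = X := by
        ext w
        simp only [hh, mem_filter]
        constructor
        · rintro ⟨_, rfl | h5, _⟩
          · exact h2
          · exact h5
        · exact fun h5 => ⟨hX h5, Or.inr h5, fun h6 => h3 (h6 ▸ h5)⟩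
      beta_reduce at h4
      rw [e] at h4
      omega
  · intro h
    by_contra h1
    rw [not_or, not_le] at h1
    have h2 := h _ (hh_sub n u v S) h1.2 (by simp [hh, hu, h1.1])
    simp [hh] at h2

section
variable (n) (R : ℕ → ℕ → Prop) [DecidableRel R] (i j : ℕ)

/-- the first set of a candidate pair -/
def AA (S : Finset ℕ) : Finset ℕ :=
  (range n).filter fun w => R i w ∧ (R w i → (w = i ∨ w ∈ S) ∧ w ≠ j)

/-- the second set of a candidate pair -/
def AB (S : Finset ℕ) : Finset ℕ :=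
  (range n).filter fun w => R i w ∧ (R w i → ¬ ((w = i ∨ w ∈ S) ∧ w ≠ j))

theorem AA_sub (S : Finset ℕ) : AA n R i j S ⊆ range n := filter_subset _ _
theorem AB_sub (S : Finset ℕ) : AB n R i j S ⊆ range n := filter_subset _ _

variable {n}

theorem submod_FF (hf : Submod n f) :
    Submod n fun S => f (AA n R i j S) + f (AB n R i j S) :=
  submod_add
    (submod_hom hf (AA_sub n R i j)
      (fun S T => by ext w; simp only [AA, mem_filter, mem_union]; tauto)
      (fun S T => by ext w; simp only [AA, mem_filter, mem_inter]; tauto))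
    (submod_anti hf (AB_sub n R i j)
      (fun S T => by ext w; simp only [AB, mem_filter, mem_union, mem_inter]; tauto)
      (fun S T => by ext w; simp only [AB, mem_filter, mem_union, mem_inter]; tauto))

end

theorem closed_le {G : Finset ℕ → ℤ} (hG : SA n G) {θ : ℤ} (hθ : 0 ≤ θ) {R : ℕ → ℕ → Prop}
    (hR : ∀ u < n, ∀ v < n, R u v ↔ ∀ X ⊆ range n, G X < θ → u ∈ X → v ∈ X)
    {W : Finset ℕ} (hW : W ⊆ range n) (hc : ∀ u ∈ W, ∀ v < n, R u v → v ∈ W) :
    G W ≤ (n : ℤ) ^ 2 * θ := by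
  have hex : ∀ u v, ∃ X, u ∈ W → v ∈ range n \ W →
      X ⊆ range n ∧ G X < θ ∧ u ∈ X ∧ v ∉ X := fun u v => by
    by_cases h : u ∈ W ∧ v ∈ range n \ W
    · obtain ⟨hu, hv⟩ := h
      rw [mem_sdiff, mem_range] at hv
      have h1 : ¬ R u v := fun h => hv.2 (hc u hu v hv.1 h)
      rw [hR u (mem_range.1 (hW hu)) v hv.1] at h1
      push Not at h1
      obtain ⟨X, h2⟩ := h1
      exact ⟨X, fun _ _ => h2⟩
    · exact ⟨∅, fun h1 h2 => absurd ⟨h1, h2⟩ h⟩
  choose X hX using hex
  have e : W = W.biUnion fun u => (range n).filter fun w => ∀ v ∈ range n \ W, w ∈ X u v := by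
    ext w
    simp only [mem_biUnion, mem_filter]
    constructor
    · exact fun hw => ⟨w, hw, hW hw, fun v hv => (hX w v hw hv).2.2.1⟩
    · rintro ⟨u, hu, h1, h2⟩
      by_contra h3
      have h4 : w ∈ range n \ W := mem_sdiff.2 ⟨h1, h3⟩
      exact (hX u w hu h4).2.2.2 (h2 w h4)
  have c1 : (W.card : ℤ) ≤ n := by exact_mod_cast (card_le_card hW).trans (card_range n).le
  have c2 : ((range n \ W).card : ℤ) ≤ n := by
    exact_mod_cast (card_le_card sdiff_subset).trans (card_range n).le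
  have h1 := hG.un_le (fun u => (range n).filter fun w => ∀ v ∈ range n \ W, w ∈ X u v)
    (n * θ) W fun u hu => ⟨filter_subset _ _,
      (hG.in_le (X u) θ _ fun v hv => ⟨(hX u v hu hv).1, (hX u v hu hv).2.1.le⟩).trans
        (mul_le_mul_of_nonneg_right c2 hθ)⟩
  rw [← e] at h1
  have h2 : (0 : ℤ) ≤ n * θ := by positivity
  nlinarith

section
variable {R : ℕ → ℕ → Prop} [DecidableRel R] {i j : ℕ} {θ : ℤ} {S : Finset ℕ}

theorem lev_eq (S : Finset ℕ) :
    Phi f1 f2 (AA n R i j S) (AB n R i j S) = f1 (AA n R i j S) + f1 (AB n R i j S) +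
      f2 ((range n).filter fun w => R i w) + f2 ((range n).filter fun w => R i w ∧ ¬ R w i) := by
  have e1 : AA n R i j S ∪ AB n R i j S = (range n).filter fun w => R i w := by
    ext w; simp only [AA, AB, mem_filter, mem_union]; tauto
  have e2 : AA n R i j S ∩ AB n R i j S = (range n).filter fun w => R i w ∧ ¬ R w i := by
    ext w; simp only [AA, AB, mem_filter, mem_inter]; tauto
  rw [Phi, e1, e2]

theorem lev_one (hj : ¬ R i j) (hS : IsMin n (fun S => f1 (AA n R i j S) + f1 (AB n R i j S)) S) :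
    Phi f1 f2 (AA n R i j S) (AB n R i j S) ≤
      (f1 ((range n).filter fun w => R i w) + f2 ((range n).filter fun w => R i w)) +
      (f1 ((range n).filter fun w => R i w ∧ ¬ R w i) +
        f2 ((range n).filter fun w => R i w ∧ ¬ R w i)) := by
  have h := hS.2 (range n) Subset.rfl
  have e1 : AA n R i j (range n) = (range n).filter fun w => R i w := by
    ext w
    simp only [AA, mem_filter]
    exact and_congr_right fun hw => ⟨fun h => h.1, fun h => ⟨h, fun _ =>
      ⟨Or.inr hw, fun e => hj (e ▸ h)⟩⟩⟩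
  have e2 : AB n R i j (range n) = (range n).filter fun w => R i w ∧ ¬ R w i := by
    ext w
    simp only [AB, mem_filter]
    exact and_congr_right fun hw => and_congr_right fun h => ⟨fun h1 h2 => h1 h2
      ⟨Or.inr hw, fun e => hj (e ▸ h)⟩, fun h1 h2 => absurd h2 h1⟩
  beta_reduce at h
  rw [e1, e2] at h
  rw [lev_eq]
  omega

theorem phi_ge (hP : Pair n f1 f2) {x : Vec} (hx : x ∈ PS n f1 f2) {X X' : Finset ℕ}
    (hX : X ⊆ range n) (hX' : X' ⊆ range n) :
    f1 X - sm X x + (f1 X' - sm X' x) ≤ Phi f1 f2 X X' ∧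
      f1 (X ∪ X') + f2 (X ∪ X') + (f1 (X ∩ X') + f2 (X ∩ X')) ≤ Phi f1 f2 X X' := by
  have h1 := (hx.2 _ (union_subset hX hX')).2
  have h2 := (hx.2 _ (inter_subset_left.trans hX : X ∩ X' ⊆ range n)).2
  have h3 := sm_union_inter X X' x
  have h4 := hP.s1 X hX X' hX'
  unfold Phi
  omega

theorem lev_two (hP : Pair n f1 f2) {x : Vec} (hx : x ∈ PS n f1 f2)
    (hR : ∀ u < n, ∀ v < n, R u v ↔ ∀ X ⊆ range n, f1 X + f2 X < θ → u ∈ X → v ∈ X)
    (hi : i < n) (hj : j < n) (hij : R i j)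
    (hS : IsMin n (fun S => f1 (AA n R i j S) + f1 (AB n R i j S)) S)
    {X X' : Finset ℕ} (hX : X ⊆ range n) (hX' : X' ⊆ range n) (h1 : i ∈ X) (h2 : j ∉ X)
    (hθ : Phi f1 f2 X X' < θ) :
    Phi f1 f2 (AA n R i j S) (AB n R i j S) ≤ Phi f1 f2 X X' +
      2 * (f1 ((range n).filter fun w => R i w) + f2 ((range n).filter fun w => R i w)) +
      2 * (f1 ((range n).filter fun w => R i w ∧ ¬ R w i) +
        f2 ((range n).filter fun w => R i w ∧ ¬ R w i)) := by
  have hG := sa_G hP ⟨x, hx⟩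
  have hs := sa_s1 hP hx
  obtain ⟨p1, p2⟩ := phi_ge hP hx hX hX'
  have hu : X ∪ X' ⊆ range n := union_subset hX hX'
  have hn : X ∩ X' ⊆ range n := inter_subset_left.trans hX
  have g1 := hG.nn _ hu
  have g2 := hG.nn _ hn
  beta_reduce at g1 g2
  have c1 : ∀ w < n, R i w → w ∈ X ∪ X' := fun w hw h =>
    (hR i hi w hw).1 h _ hu (by omega) (mem_union_left _ h1)
  have c2 : ∀ w < n, R w i → w ∉ X ∩ X' := fun w hw h h3 =>
    h2 (mem_inter.1 ((hR i hi j hj).1 hij _ hn (by omega)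
      ((hR w hw i hi).1 h _ hn (by omega) h3))).1
  set U := (range n).filter fun w => R i w with hU
  set U' := (range n).filter fun w => R i w ∧ ¬ R w i with hU'
  have sU : U ⊆ range n := filter_subset _ _
  have sU' : U' ⊆ range n := filter_subset _ _
  have e1 : AA n R i j X = (U' ∪ X) ∩ U := by
    ext w
    simp only [AA, hU, hU', mem_filter, mem_union, mem_inter]
    have a1 : w = i → w ∈ X := fun e => e ▸ h1
    have a2 : w = j → w ∉ X := fun e => e ▸ h2
    tauto
  have e2 : AB n R i j X = (U' ∪ X') ∩ U := by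
    ext w
    have a1 : w = i → w ∈ X := fun e => e ▸ h1
    have a2 : w = j → w ∉ X := fun e => e ▸ h2
    have a3 := c1 w
    have a4 := c2 w
    simp only [AB, hU, hU', mem_filter, mem_union, mem_inter, mem_range] at a3 a4 ⊢
    tauto
  have e3 : AA n R i j X ∪ AB n R i j X = U := by
    ext w; simp only [AA, AB, hU, mem_filter, mem_union]; tauto
  have e4 : AA n R i j X ∩ AB n R i j X = U' := by
    ext w; simp only [AA, AB, hU', mem_filter, mem_inter]; tauto
  have e5 := sm_union_inter (AA n R i j X) (AB n R i j X) x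
  rw [e3, e4] at e5
  have b1 := hs.inter_le (union_subset sU' hX) sU
  have b2 := hs.inter_le (union_subset sU' hX') sU
  have b3 := hs.union_le sU' hX
  have b4 := hs.union_le sU' hX'
  rw [← e1] at b1
  rw [← e2] at b2
  have b5 := (hx.2 U sU).2
  have b6 := (hx.2 U' sU').2
  have h := hS.2 X hX
  beta_reduce at h b1 b2 b3 b4
  rw [lev_eq, ← hU, ← hU']
  omega

end

theorem cand_of_min (hP : Pair n f1 f2) (hx : (PS n f1 f2).Nonempty) {B N : ℕ}
    (hB : ∀ S ⊆ range n, |f1 S| < 2 ^ B ∧ |f2 S| < 2 ^ B) {R : ℕ → ℕ → ℕ → Prop}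
    [∀ t, DecidableRel (R t)]
    (hR : ∀ t, ∀ u < n, ∀ v < n, R t u v ↔ ∀ X ⊆ range n, f1 X + f2 X < 2 ^ t → u ∈ X → v ∈ X)
    {tt ii jj : ℕ → ℕ} (hs : ∀ t < B + 3, ∀ i < n, ∀ j < n, ∃ c < N, tt c = t ∧ ii c = i ∧ jj c = j)
    {S : ℕ → Finset ℕ} (hS : ∀ c < N, IsMin n (fun X => f1 (AA n (R (tt c)) (ii c) (jj c) X) +
      f1 (AB n (R (tt c)) (ii c) (jj c) X)) (S c)) :
    Cand n f1 f2 B N (fun c => AA n (R (tt c)) (ii c) (jj c) (S c))
      fun c => Phi f1 f2 (AA n (R (tt c)) (ii c) (jj c) (S c))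
        (AB n (R (tt c)) (ii c) (jj c) (S c)) := by
  have hG := sa_G hP hx
  have hrefl : ∀ t, ∀ u < n, R t u u := fun t u hu => (hR t u hu u hu).2 fun _ _ _ h => h
  have htr : ∀ t, ∀ u < n, ∀ v < n, ∀ w < n, R t u v → R t v w → R t u w :=
    fun t u hu v hv w hw h1 h2 => (hR t u hu w hw).2 fun X hX h3 h4 =>
      (hR t v hv w hw).1 h2 X hX h3 ((hR t u hu v hv).1 h1 X hX h3 h4)
  have hsep : ∀ t, ∀ i < n, ∀ j, i ≠ j → (R t i j → R t j i) → ∀ X,
      ¬ (i ∈ AA n (R t) i j X ↔ j ∈ AA n (R t) i j X) := fun t i hi j hij h X => by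
    have := hrefl t i hi
    simp only [AA, mem_filter, mem_range]
    tauto
  have hU : ∀ t, ∀ i < n, f1 ((range n).filter fun w => R t i w) +
      f2 ((range n).filter fun w => R t i w) ≤ (n : ℤ) ^ 2 * 2 ^ t := fun t i hi =>
    closed_le hG (by positivity) (hR t) (filter_subset _ _) fun u hu v hv h => by
      rw [mem_filter, mem_range] at hu ⊢
      exact ⟨hv, htr t i hi u hu.1 v hv hu.2 h⟩
  have hU' : ∀ t, ∀ i < n, f1 ((range n).filter fun w => R t i w ∧ ¬ R t w i) +
      f2 ((range n).filter fun w => R t i w ∧ ¬ R t w i) ≤ (n : ℤ) ^ 2 * 2 ^ t := fun t i hi =>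
    closed_le hG (by positivity) (hR t) (filter_subset _ _) fun u hu v hv h => by
      rw [mem_filter, mem_range] at hu ⊢
      exact ⟨hv, htr t i hi u hu.1 v hv hu.2.1 h, fun h' => hu.2.2 (htr t u hu.1 v hv i hi h h')⟩
  have hb : ∀ S ⊆ range n, f1 S < 2 ^ B ∧ f2 S < 2 ^ B := fun S hS =>
    ⟨lt_of_abs_lt (hB S hS).1, lt_of_abs_lt (hB S hS).2⟩
  refine ⟨fun c _ => AA_sub _ _ _ _ _, fun x hx c _ => ?_, fun i hi j hj X hX X' hX' h1 h2 => ?_,
    fun i hi j hj hij => ?_⟩
  · have h1 := (phi_ge hP hx (AA_sub n (R (tt c)) (ii c) (jj c) (S c))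
      (AB_sub n (R (tt c)) (ii c) (jj c) (S c))).1
    have h2 := (hx.2 _ (AB_sub n (R (tt c)) (ii c) (jj c) (S c))).1
    omega
  · obtain ⟨x, hx⟩ := hx
    have hij : i ≠ j := fun e => h2 (e ▸ h1)
    have p0 : 0 ≤ Phi f1 f2 X X' := by
      have a1 := (phi_ge hP hx hX hX').1
      have a2 := (hx.2 X hX).1
      have a3 := (hx.2 X' hX').1
      omega
    have p1 : Phi f1 f2 X X' < 2 ^ (B + 2) := by
      have a1 := (hb X hX).1
      have a2 := (hb X' hX').1
      have a3 := (hb _ (union_subset hX hX')).2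
      have a4 := (hb _ (inter_subset_left.trans hX : X ∩ X' ⊆ range n)).2
      unfold Phi
      rw [pow_add]
      omega
    obtain ⟨t, ht, t1, t2⟩ : ∃ t < B + 3, Phi f1 f2 X X' < 2 ^ t ∧
        2 ^ t ≤ 2 * (Phi f1 f2 X X' + 1) := by
      obtain ⟨m, hm⟩ := Int.eq_ofNat_of_zero_le p0
      rw [hm] at p1 ⊢
      refine ⟨m.size, ?_, by exact_mod_cast Nat.lt_size_self m, ?_⟩
      · have : m.size ≤ B + 2 := Nat.size_le.2 (by exact_mod_cast p1)
        omega
      · have : 2 ^ m.size ≤ 2 * (m + 1) := by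
          rcases Nat.eq_zero_or_pos m.size with h | h
          · rw [h]; omega
          · obtain ⟨k, hk⟩ := Nat.exists_eq_add_of_le' h
            have := Nat.lt_size.1 (show k < m.size by omega)
            rw [hk, pow_succ]; omega
        exact_mod_cast this
    have hn1 : (1 : ℤ) ≤ (n : ℤ) ^ 2 := one_le_pow₀ (by exact_mod_cast (by omega : 1 ≤ n))
    have hfin : ∀ y : ℤ, y ≤ Phi f1 f2 X X' + 4 * ((n : ℤ) ^ 2 * 2 ^ t) →
        y ≤ 16 * (n : ℤ) ^ 2 * (Phi f1 f2 X X' + 1) := fun y hy => by nlinarith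
    have hpos : (0 : ℤ) ≤ (n : ℤ) ^ 2 * 2 ^ t := by positivity
    by_cases a1 : R t i j
    · by_cases a2 : R t j i
      · obtain ⟨c, hc, rfl, rfl, rfl⟩ := hs t ht i hi j hj
        refine ⟨c, hc, hsep _ _ hi _ hij (fun _ => a2) _, hfin _ ?_⟩
        have a3 := lev_two hP hx (hR (tt c)) hi hj a1 (hS c hc) hX hX' h1 h2 t1
        have a4 := hU (tt c) _ hi
        have a5 := hU' (tt c) _ hi
        beta_reduce
        omega
      · obtain ⟨c, hc, rfl, rfl, rfl⟩ := hs t ht j hj i hi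
        refine ⟨c, hc, fun h => hsep _ _ hj _ hij.symm (fun h => absurd h a2) _ h.symm, hfin _ ?_⟩
        have a3 := lev_one (f2 := f2) a2 (hS c hc)
        have a4 := hU (tt c) _ hj
        have a5 := hU' (tt c) _ hj
        beta_reduce
        omega
    · obtain ⟨c, hc, rfl, rfl, rfl⟩ := hs t ht i hi j hj
      refine ⟨c, hc, hsep _ _ hi _ hij (fun h => absurd h a1) _, hfin _ ?_⟩
      have a3 := lev_one (f2 := f2) a1 (hS c hc)
      have a4 := hU (tt c) _ hi
      have a5 := hU' (tt c) _ hi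
      beta_reduce
      omega
  · have a1 : ¬ R (B + 1) i j := fun h => by
      have s1 : {i} ⊆ range n := singleton_subset_iff.2 (mem_range.2 hi)
      have a2 := hb _ s1
      have := (hR _ i hi j hj).1 h _ s1 (by rw [pow_succ]; omega) (mem_singleton_self i)
      exact hij (mem_singleton.1 this).symm
    obtain ⟨c, hc, e, rfl, rfl⟩ := hs (B + 1) (by omega) i hi j hj
    rw [← e] at a1
    refine ⟨c, hc, hsep _ _ hi _ hij (fun h => absurd h a1) _, ?_⟩
    have a3 := lev_one (f2 := f2) a1 (hS c hc)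
    have a4 := hb _ (filter_subset (fun w => R (tt c) (ii c) w) (range n))
    have a5 := hb _ (filter_subset (fun w => R (tt c) (ii c) w ∧ ¬ R (tt c) w (ii c)) (range n))
    beta_reduce
    rw [pow_add]
    omega

end TreeX

end Crest.Agent.R302
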