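import Crest.Agent.R302.Geo

/-! Row 302: the scale tree from a family of thin separating sets. -/

set_option autoImplicit false

namespace Crest.Agent.R302

open Finset

namespace TreeX

variable {n : ℕ} {s f1 f2 : Finset ℕ → ℤ}

/-- nonnegative submodular functions that vanish at both ends -/
structure SA (n : ℕ) (s : Finset ℕ → ℤ) : Prop where
  sm : Submod n s
  nn : ∀ S ⊆ range n, 0 ≤ s S
  z : s ∅ = 0
  v : s (range n) = 0

theorem SA.union_le (h : SA n s) {A B : Finset ℕ} (hA : A ⊆ range n) (hB : B ⊆ range n) :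
    s (A ∪ B) ≤ s A + s B := by
  have h1 := h.sm A hA B hB
  have h2 := h.nn (A ∩ B) (inter_subset_left.trans hA)
  omega

theorem SA.inter_le (h : SA n s) {A B : Finset ℕ} (hA : A ⊆ range n) (hB : B ⊆ range n) :
    s (A ∩ B) ≤ s A + s B := by
  have h1 := h.sm A hA B hB
  have h2 := h.nn (A ∪ B) (union_subset hA hB)
  omega

theorem SA.un_le (h : SA n s) (A : ℕ → Finset ℕ) (θ : ℤ) (T : Finset ℕ) :
    (∀ v ∈ T, A v ⊆ range n ∧ s (A v) ≤ θ) → s (T.biUnion A) ≤ T.card * θ := by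
  refine Finset.induction_on T (fun _ => by simp [h.z]) ?_
  intro v T hv ih hA
  have h1 := ih fun w hw => hA w (mem_insert_of_mem hw)
  have h2 := hA v (mem_insert_self _ _)
  have h3 := h.union_le h2.1 (biUnion_subset.2 fun w hw => (hA w (mem_insert_of_mem hw)).1)
  rw [biUnion_insert, card_insert_of_notMem hv]
  push_cast
  linarith [h2.2]

theorem SA.in_le (h : SA n s) (A : ℕ → Finset ℕ) (θ : ℤ) (T : Finset ℕ) :
    (∀ v ∈ T, A v ⊆ range n ∧ s (A v) ≤ θ) →
      s ((range n).filter fun w => ∀ v ∈ T, w ∈ A v) ≤ T.card * θ := by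
  refine Finset.induction_on T (fun _ => by simp [h.v]) ?_
  intro v T hv ih hA
  have h1 := ih fun w hw => hA w (mem_insert_of_mem hw)
  have h2 := hA v (mem_insert_self _ _)
  have h3 := h.inter_le h2.1 (filter_subset (fun w => ∀ v ∈ T, w ∈ A v) (range n))
  have e : ((range n).filter fun w => ∀ u ∈ insert v T, w ∈ A u) =
      A v ∩ (range n).filter fun w => ∀ u ∈ T, w ∈ A u := by
    ext w
    simp only [mem_filter, mem_inter, forall_mem_insert]
    tauto
  rw [e, card_insert_of_notMem hv]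
  push_cast
  linarith [h2.2]

theorem sa_s1 (hP : Pair n f1 f2) {x : Vec} (hx : x ∈ PS n f1 f2) :
    SA n fun S => f1 S - sm S x := by
  refine ⟨fun A hA B hB => ?_, fun S hS => ?_, ?_, ?_⟩
  · have h1 := hP.s1 A hA B hB
    have h2 := sm_union_inter A B x
    omega
  · have := (hx.2 S hS).1
    omega
  · simp [hP.z1, sm]
  · have h1 := hx.2 (range n) Subset.rfl
    have h2 := hP.tot
    omega

theorem sa_G (hP : Pair n f1 f2) (hx : (PS n f1 f2).Nonempty) : SA n fun S => f1 S + f2 S := by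
  obtain ⟨x, hx⟩ := hx
  refine ⟨fun A hA B hB => ?_, fun S hS => ?_, ?_, hP.tot⟩
  · have h1 := hP.s1 A hA B hB
    have h2 := hP.s2 A hA B hB
    omega
  · have := hx.2 S hS
    omega
  · simp [hP.z1, hP.z2]

/-- a family of thin separating sets with their levels -/
structure Cand (n : ℕ) (f1 f2 : Finset ℕ → ℤ) (B N : ℕ) (A : ℕ → Finset ℕ) (L : ℕ → ℤ) :
    Prop where
  sub : ∀ c < N, A c ⊆ range n
  lev : ∀ x ∈ PS n f1 f2, ∀ c < N, f1 (A c) - sm (A c) x ≤ L c
  fat : ∀ i < n, ∀ j < n, ∀ X ⊆ range n, ∀ X' ⊆ range n, i ∈ X → j ∉ X →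
    ∃ c < N, ¬ (i ∈ A c ↔ j ∈ A c) ∧ L c ≤ 16 * (n : ℤ) ^ 2 * (Phi f1 f2 X X' + 1)
  top : ∀ i < n, ∀ j < n, i ≠ j → ∃ c < N, ¬ (i ∈ A c ↔ j ∈ A c) ∧ L c < 2 ^ (B + 2)

theorem Cand.congr {B N : ℕ} {A A' : ℕ → Finset ℕ} {L L' : ℕ → ℤ} (h : Cand n f1 f2 B N A L)
    (hA : ∀ c < N, A' c = A c) (hL : ∀ c < N, L' c = L c) : Cand n f1 f2 B N A' L' := by
  refine ⟨fun c hc => hA c hc ▸ h.sub c hc, fun x hx c hc => ?_,
    fun i hi j hj X hX X' hX' h1 h2 => ?_, fun i hi j hj hij => ?_⟩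
  · rw [hA c hc, hL c hc]; exact h.lev x hx c hc
  · obtain ⟨c, hc, h3⟩ := h.fat i hi j hj X hX X' hX' h1 h2
    exact ⟨c, hc, by rw [hA c hc, hL c hc]; exact h3⟩
  · obtain ⟨c, hc, h3⟩ := h.top i hi j hj hij
    exact ⟨c, hc, by rw [hA c hc, hL c hc]; exact h3⟩

/-- no set of level below `2 ^ t` separates `u` and `v` -/
def EE (N : ℕ) (A : ℕ → Finset ℕ) (L : ℕ → ℤ) (t u v : ℕ) : Prop :=
  ∀ c < N, L c < 2 ^ t → (u ∈ A c ↔ v ∈ A c)

section
variable {N : ℕ} {A : ℕ → Finset ℕ} {L : ℕ → ℤ} {t t' u v w : ℕ}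

theorem EE.refl : EE N A L t u u := fun _ _ _ => Iff.rfl
theorem EE.symm (h : EE N A L t u v) : EE N A L t v u := fun c hc hl => (h c hc hl).symm
theorem EE.trans (h : EE N A L t u v) (h' : EE N A L t v w) : EE N A L t u w :=
  fun c hc hl => (h c hc hl).trans (h' c hc hl)
theorem EE.mono (h : EE N A L t u v) (ht : t' ≤ t) : EE N A L t' u v :=
  fun c hc hl => h c hc (hl.trans_le (pow_le_pow_right₀ (by norm_num) ht))

end

/-- the intersection of the chosen sets that contain `a` -/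
def II (n N : ℕ) (A : ℕ → Finset ℕ) (ch : ℕ → ℕ) (a : ℕ) : Finset ℕ :=
  (range n).filter fun w => ∀ v < n, ch v < N → a ∈ A (ch v) → w ∈ A (ch v)

/-- the part of `II` covered by the chosen sets that miss `a` -/
def JJ (n N : ℕ) (A : ℕ → Finset ℕ) (ch : ℕ → ℕ) (a : ℕ) : Finset ℕ :=
  (II n N A ch a).filter fun w => ∃ v < n, ch v < N ∧ a ∉ A (ch v) ∧ w ∈ A (ch v)

theorem thin_class (hP : Pair n f1 f2) {B N : ℕ} {A : ℕ → Finset ℕ} {L : ℕ → ℤ}
    (hC : Cand n f1 f2 B N A L) {t a : ℕ} {ch : ℕ → ℕ}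
    (hch : ∀ v < n, ch v ≤ N ∧ (∀ c < ch v, ¬ (L c < 2 ^ t ∧ ¬ (a ∈ A c ↔ v ∈ A c))) ∧
      (ch v < N → L (ch v) < 2 ^ t ∧ ¬ (a ∈ A (ch v) ↔ v ∈ A (ch v))))
    {W : Finset ℕ} (hW : ∀ v, v ∈ W ↔ v < n ∧ EE N A L t a v) {x : Vec} (hx : x ∈ PS n f1 f2) :
    f1 (II n N A ch a) - f1 (JJ n N A ch a) - n * 2 ^ t ≤ sm W x ∧
      sm W x ≤ f1 (II n N A ch a) - f1 (JJ n N A ch a) + n * 2 ^ t := by
  have hs := sa_s1 hP hx
  have hI : II n N A ch a ⊆ range n := filter_subset _ _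
  have hJ : JJ n N A ch a ⊆ II n N A ch a := filter_subset _ _
  have e : W = II n N A ch a \ JJ n N A ch a := by
    ext w
    rw [hW]
    simp only [II, JJ, mem_sdiff, mem_filter, mem_range]
    constructor
    · rintro ⟨hw, hE⟩
      refine ⟨⟨hw, fun v hv h1 h2 => (hE _ h1 ((hch v hv).2.2 h1).1).1 h2⟩, ?_⟩
      rintro ⟨_, v, hv, h1, h2, h3⟩
      exact h2 ((hE _ h1 ((hch v hv).2.2 h1).1).2 h3)
    · rintro ⟨⟨hw, h1⟩, h2⟩
      refine ⟨hw, fun c hc hl => ?_⟩
      by_contra hne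
      obtain ⟨h3, h4, h5⟩ := hch w hw
      have h6 : ch w < N := by
        by_contra h7
        exact h4 c (by omega) ⟨hl, hne⟩
      have h8 := (h5 h6).2
      by_cases h9 : a ∈ A (ch w)
      · exact h8 ⟨fun _ => h1 w hw h6 h9, fun _ => h9⟩
      · refine h2 ⟨⟨hw, h1⟩, w, hw, h6, h9, ?_⟩
        by_contra h10
        exact h8 ⟨fun h => absurd h h9, fun h => absurd h h10⟩
  have e2 : sm W x = sm (II n N A ch a) x - sm (JJ n N A ch a) x := by
    rw [e, sm, sm, sm, ← sum_sdiff hJ]; ring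
  set T1 := (range n).filter fun v => ch v < N ∧ a ∈ A (ch v) with hT1
  set T2 := (range n).filter fun v => ch v < N ∧ a ∉ A (ch v) with hT2
  have hb : ∀ v < n, ch v < N → A (ch v) ⊆ range n ∧ f1 (A (ch v)) - sm (A (ch v)) x ≤ 2 ^ t :=
    fun v hv h => ⟨hC.sub _ h, (hC.lev x hx _ h).trans ((hch v hv).2.2 h).1.le⟩
  have h1 := hs.in_le (fun v => A (ch v)) (2 ^ t) T1 fun v hv => by
    rw [hT1, mem_filter, mem_range] at hv
    exact hb v hv.1 hv.2.1
  have hU : T2.biUnion (fun v => A (ch v)) ⊆ range n := biUnion_subset.2 fun v hv => by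
    rw [hT2, mem_filter, mem_range] at hv
    exact (hb v hv.1 hv.2.1).1
  have h2 := hs.un_le (fun v => A (ch v)) (2 ^ t) T2 fun v hv => by
    rw [hT2, mem_filter, mem_range] at hv
    exact hb v hv.1 hv.2.1
  have e3 : ((range n).filter fun w => ∀ v ∈ T1, w ∈ A (ch v)) = II n N A ch a := by
    ext w
    simp only [II, hT1, mem_filter, mem_range, and_imp]
  have e4 : JJ n N A ch a = II n N A ch a ∩ T2.biUnion fun v => A (ch v) := by
    ext w
    simp only [JJ, hT2, mem_filter, mem_range, mem_inter, mem_biUnion, and_assoc]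
  have h3 := hs.inter_le hI hU
  rw [← e4] at h3
  rw [e3] at h1
  have h4 := hs.nn _ hI
  have h5 := hs.nn _ (hJ.trans hI)
  have h6 : T1.card + T2.card ≤ n := by
    rw [← card_union_of_disjoint]
    · exact (card_le_card (union_subset (filter_subset _ _) (filter_subset _ _))).trans
        (card_range n).le
    · rw [hT1, hT2, disjoint_filter]
      tauto
  have h7 : (T1.card : ℤ) * 2 ^ t + T2.card * 2 ^ t ≤ n * 2 ^ t := by
    rw [← add_mul]
    exact mul_le_mul_of_nonneg_right (by exact_mod_cast h6) (by positivity)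
  have h8 : (0 : ℤ) ≤ T2.card * 2 ^ t := by positivity
  beta_reduce at h1 h2 h3 h4 h5
  constructor <;> linarith

theorem tree_of_cand (hP : Pair n f1 f2) {B N : ℕ} {A : ℕ → Finset ℕ} {L : ℕ → ℤ}
    (hC : Cand n f1 f2 B N A L) (g : ℕ) {r q p j : ℕ → ℕ} {ch : ℕ → ℕ → ℕ} {lo : Vec}
    (hr : ∀ a < n, r a ≤ B + 2 ∧ (∀ i < r a, ¬ ∀ k < a, ¬ EE N A L (g + i) a k) ∧
      (r a < B + 2 → ∀ k < a, ¬ EE N A L (g + r a) a k))
    (hq : ∀ a < n, q a ≤ a ∧ (∀ k < q a, ¬ EE N A L (g + (r a - 1)) a k) ∧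
      (q a < a → EE N A L (g + (r a - 1)) a (q a)))
    (hp : ∀ a, p a = if a < n then (if r a = 0 then a else q a) else a)
    (hj : ∀ a < n, j a = g + (r a - 1))
    (hch : ∀ a < n, ∀ v < n, ch a v ≤ N ∧
      (∀ c < ch a v, ¬ (L c < 2 ^ (g + r a) ∧ ¬ (a ∈ A c ↔ v ∈ A c))) ∧
      (ch a v < N → L (ch a v) < 2 ^ (g + r a) ∧ ¬ (a ∈ A (ch a v) ↔ v ∈ A (ch a v))))
    (hlo : ∀ a < n, lo a = f1 (II n N A (ch a) a) - f1 (JJ n N A (ch a) a) - n * 2 ^ (g + r a)) :
    TreeOK n f1 f2 g (g + B + 2) p j lo := by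
  have fo : Fo p := fun i => by
    rw [hp]
    split_ifs with h1 h2
    · exact le_rfl
    · exact (hq i h1).1
    · exact le_rfl
  have hmin : ∀ a < n, ∀ k < a, ¬ EE N A L (g + r a) a k := fun a ha k hk hE => by
    obtain ⟨h1, -, h3⟩ := hr a ha
    by_cases h : r a < B + 2
    · exact h3 h k hk hE
    · obtain ⟨c, hc, h4, h5⟩ := hC.top a ha k (by omega) (by omega)
      exact h4 (hE c hc (h5.trans_le (pow_le_pow_right₀ (by norm_num) (by omega))))
  have hpar : ∀ a < n, r a ≠ 0 → p a < a ∧ EE N A L (g + (r a - 1)) a (p a) ∧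
      ∀ k < p a, ¬ EE N A L (g + (r a - 1)) a k := fun a ha h0 => by
    have e : p a = q a := by rw [hp, if_pos ha, if_neg h0]
    obtain ⟨h1, h2, h3⟩ := hq a ha
    have h4 : q a < a := by
      by_contra h5
      exact (hr a ha).2.1 (r a - 1) (by omega) fun k hk => h2 k (by omega)
    rw [e]
    exact ⟨h4, h3 h4, h2⟩
  have hroot : ∀ a < n, r a = 0 → p a = a := fun a ha h0 => by rw [hp, if_pos ha, if_pos h0]
  have hsub1 : ∀ a < n, ∀ v < n, anc p a v → r a ≤ r v ∧ EE N A L (g + r a) a v := by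
    intro a ha v
    induction v using Nat.strong_induction_on with
    | _ v ih =>
    intro hv h
    rcases fo.anc_iff.1 h with rfl | ⟨h1, h2⟩
    · exact ⟨le_rfl, EE.refl⟩
    · have h0 : r v ≠ 0 := fun h0 => h1 (hroot v hv h0)
      obtain ⟨h3, h4, h5⟩ := hpar v hv h0
      obtain ⟨h6, h7⟩ := ih (p v) h3 (by omega) h2
      have h8 : r (p v) ≤ r v - 1 := by
        by_contra h9
        exact (hr (p v) (by omega)).2.1 (r v - 1) (by omega) fun k hk hE => h5 k hk (h4.trans hE)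
      exact ⟨by omega, h7.trans (h4.symm.mono (by omega))⟩
  have hsub2 : ∀ a < n, ∀ v < n, EE N A L (g + r a) a v → anc p a v := by
    intro a ha v
    induction v using Nat.strong_induction_on with
    | _ v ih =>
    intro hv h
    rcases lt_trichotomy v a with h1 | rfl | h1
    · exact absurd h (hmin a ha v h1)
    · exact anc_refl p v
    · have h2 : r a < r v := by
        by_contra h3
        exact hmin v hv a h1 (h.symm.mono (by omega))
      obtain ⟨h3, h4, -⟩ := hpar v hv (by omega)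
      exact fo.anc_iff.2 (Or.inr ⟨h3.ne, ih (p v) h3 (by omega) (h.trans (h4.mono (by omega)))⟩)
  refine ⟨fo, fun a ha => by rw [hj a ha]; omega, fun a ha => ?_, fun a ha h => ?_,
    fun a ha h X hX X' hX' hS => ?_, fun x hx a ha => ?_⟩
  · have := (hr a ha).1
    rw [hj a ha]; omega
  · have h0 : r a = 0 := by
      by_contra h0
      exact (hpar a ha h0).1.ne h
    rw [hj a ha, h0]; rfl
  · have h0 : r a ≠ 0 := fun h0 => h (hroot a ha h0)
    obtain ⟨h1, h2, -⟩ := hpar a ha h0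
    rw [hj a ha]
    by_cases h3 : a ∈ X
    · obtain ⟨c, hc, h4, h5⟩ := hC.fat a ha (p a) (by omega) X hX X' hX' h3 (hS.1 h3)
      exact (not_lt.1 fun h6 => h4 (h2 c hc h6)).trans h5
    · have h4 : p a ∈ X := by
        by_contra h4
        exact h3 (hS.2 h4)
      obtain ⟨c, hc, h4, h5⟩ := hC.fat (p a) (by omega) a ha X hX X' hX' h4 h3
      exact (not_lt.1 fun h6 => h4 (h2 c hc h6).symm).trans h5
  · have h1 := thin_class hP hC (hch a ha) (W := sub n p a) (fun v => by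
      rw [mem_sub]
      exact and_congr_right fun hv => ⟨fun h => (hsub1 a ha v hv h).2, hsub2 a ha v hv⟩) hx
    rw [hlo a ha, hj a ha]
    refine ⟨h1.1, h1.2.trans ?_⟩
    have h2 : (2 : ℤ) ^ (g + r a) ≤ 2 * 2 ^ (g + (r a - 1)) := by
      rw [← pow_succ']
      exact pow_le_pow_right₀ (by norm_num) (by omega)
    have h3 : (1 : ℤ) ≤ n := by exact_mod_cast (by omega : 1 ≤ n)
    have h4 : (n : ℤ) ≤ (n : ℤ) ^ 3 := le_self_pow₀ h3 (by norm_num)
    have h5 : (0 : ℤ) < 2 ^ (g + (r a - 1)) := by positivity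
    nlinarith

end TreeX

end Crest.Agent.R302
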