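import Crest.Agent.R302.Samp
import Crest.Agent.R309.Count

/-! Row 302: estimating the partition function of a nice energy. -/

set_option autoImplicit false

namespace Crest.Agent.R302

open Crest.Agent.PT Crest.Agent.R309 Finset

namespace ZestX

open CntX (Sta ns gg Sz pot getD_set repZ_bd getD_lt pot_lt tail_le pu_ns pu_gg fin_eq)

abbrev Smp := List ℕ → List ℕ → Word → List ℕ

def ind (S : Smp) (lo hi : List ℕ) (e v : ℕ) (r : Word) : ℤ :=
  if (S lo hi r).getD e 0 = v then 1 else 0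

def cnt (S : Smp) (L Q : ℕ) (lo hi : List ℕ) (e v : ℕ) (ω : Word) : ℕ :=
  (repZ L (ind S lo hi e v) (ns Q) ω).toNat

/-- pin the cell `e` to the value `v` seen `k` times -/
def upd (Q : ℕ) (s : Sta) (e v k : ℕ) : Sta :=
  (s.1.set e v, s.2.1.set e v, s.2.2.1 * ns Q, s.2.2.2 * k)

def stv (fe : List ℕ → List ℕ → ℕ) (E : ℕ) (S : Smp) (L Q : ℕ) (s : Sta) (ω : Word) (v : ℕ) :
    Sta :=
  if fe s.1 s.2.1 < E then upd Q s (fe s.1 s.2.1) v (cnt S L Q s.1 s.2.1 (fe s.1 s.2.1) v ω) else s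

def stp (fe : List ℕ → List ℕ → ℕ) (am : List ℕ → List ℕ → Word → ℕ) (E : ℕ) (S : Smp) (L Q : ℕ)
    (s : Sta) (ω : Word) : Sta :=
  stv fe E S L Q s ω (am s.1 s.2.1 ω)

def init (E : ℕ) (hi : List ℕ) : Sta :=
  (List.replicate E 0, (List.range E).map fun e => hi.getD e 0, 1, 1)

def run (fe : List ℕ → List ℕ → ℕ) (am : List ℕ → List ℕ → Word → ℕ) (E : ℕ) (S : Smp)
    (L P : ℕ) (hi : List ℕ) (ω : Word) : Sta :=
  iterR (ns (P * P) * L) (stp fe am E S L (P * P)) (P * P) (init E hi) ω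

/-- the estimate times the weight `2 ^ (-z)` -/
def out (P : ℕ) (s : Sta) (z : ℤ) : ℕ × ℕ :=
  (s.2.2.1 * 2 ^ min (-z).toNat P, s.2.2.2 * 2 ^ min z.toNat P - 1)

def FeSpec (E : ℕ) (fe : List ℕ → List ℕ → ℕ) : Prop :=
  ∀ lo hi, (∀ i < fe lo hi, ¬ lo.getD i 0 < hi.getD i 0) ∧ fe lo hi ≤ E ∧
    (fe lo hi < E → lo.getD (fe lo hi) 0 < hi.getD (fe lo hi) 0)

def SSpec (E : ℕ) (ρ : List ℕ) (en : List ℕ → ℤ) (S : Smp) (L g : ℕ) : Prop :=
  ∀ lo hi, Pin E ρ lo hi → (∀ ω, S lo hi ω ∈ bx E lo hi) ∧ ∀ k ∈ bx E lo hi,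
    |Pr L (fun ω => S lo hi ω = k) - wt en k / Zb E lo hi en| ≤
      (2 : ℝ)⁻¹ ^ g * (wt en k / Zb E lo hi en)

def AmSpec (fe : List ℕ → List ℕ → ℕ) (S : Smp) (L P : ℕ) (am : List ℕ → List ℕ → Word → ℕ) :
    Prop :=
  ∀ lo hi ω, am lo hi ω ≤ P - 1 ∧ ∀ v < P, cnt S L (P * P) lo hi (fe lo hi) v ω ≤
    cnt S L (P * P) lo hi (fe lo hi) (am lo hi ω) ω

theorem exists_fe {α : Type} [Rp α] {E : α → ℕ} (hE : PU E) :
    ∃ fe : α × List ℕ × List ℕ → ℕ, PU fe ∧ ∀ a, FeSpec (E a) fun lo hi => fe (a, lo, hi) := by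
  obtain ⟨f, hf, hs⟩ := PU.find_lt (α := α × List ℕ × List ℕ) (n := fun a => E a.1)
    (c := fun a i => a.2.1.getD i 0 < a.2.2.getD i 0) (hE.comp PTime.fst')
    ((getDN (PTime.fst'.snd.fst) (PTime.val PTime.snd')).lt
      (getDN (PTime.fst'.snd.snd) (PTime.val PTime.snd')))
  exact ⟨f, hf, fun N lo hi => ⟨(hs (N, lo, hi)).2.1, (hs (N, lo, hi)).1, (hs (N, lo, hi)).2.2⟩⟩

theorem ind_bd (S : Smp) (lo hi : List ℕ) (e v : ℕ) (r : Word) :
    0 ≤ ind S lo hi e v r ∧ ind S lo hi e v r ≤ 1 := by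
  unfold ind; split_ifs <;> simp

theorem cnt_le (S : Smp) (L P : ℕ) (lo hi : List ℕ) (e v : ℕ) (ω : Word) :
    cnt S L P lo hi e v ω ≤ ns P := by
  have := repZ_bd L (ind_bd S lo hi e v) (ns P) ω
  unfold cnt; omega

theorem cnt_cast (S : Smp) (L P : ℕ) (lo hi : List ℕ) (e v : ℕ) (ω : Word) :
    (cnt S L P lo hi e v ω : ℝ) = (repZ L (ind S lo hi e v) (ns P) ω : ℝ) := by
  have := (repZ_bd L (ind_bd S lo hi e v) (ns P) ω).1
  unfold cnt
  exact_mod_cast Int.toNat_of_nonneg this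

/-! ### Polynomial time -/

theorem sz_stv (fe : List ℕ → List ℕ → ℕ) (E : ℕ) (S : Smp) (L P b k : ℕ)
    (s : Sta) (ω : Word) {v : ℕ} (hv : v < 2 ^ b) (h : Sz E b (ns P + 1) k s) :
    Sz E b (ns P + 1) (k + 1) (stv fe E S L P s ω v) := by
  obtain ⟨h1, h2, h3, h4, h5, h6⟩ := h
  have hp : (ns P + 1) ^ k ≤ (ns P + 1) ^ (k + 1) := Nat.pow_le_pow_right (by omega) (by omega)
  unfold stv
  split_ifs with he
  · have hc := cnt_le S L P s.1 s.2.1 (fe s.1 s.2.1) v ω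
    have hn : ∀ y z, y ≤ (ns P + 1) ^ k → z ≤ ns P → y * z ≤ (ns P + 1) ^ (k + 1) :=
      fun y z hy hz => by rw [pow_succ]; exact Nat.mul_le_mul hy (by omega)
    unfold upd
    refine ⟨by simpa using h1, by simpa using h2, fun x hx => ?_, fun x hx => ?_,
      hn _ _ h5 le_rfl, hn _ _ h6 hc⟩
    · rcases List.mem_or_eq_of_mem_set hx with hx | rfl
      · exact h3 x hx
      · exact hv
    · rcases List.mem_or_eq_of_mem_set hx with hx | rfl
      · exact h4 x hx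
      · exact hv
  · exact ⟨h1, h2, h3, h4, h5.trans hp, h6.trans hp⟩

theorem sz_init (E : ℕ) (hi : List ℕ) (M P : ℕ) : Sz E (sz hi + P) M 0 (init E hi) := by
  refine ⟨by simp [init], by simp [init], fun x hx => ?_, fun x hx => ?_, by simp [init],
    by simp [init]⟩
  · rw [List.eq_of_mem_replicate hx]; exact Nat.two_pow_pos _
  · obtain ⟨e, _, rfl⟩ := List.mem_map.1 hx
    exact (getD_lt_szN hi e).trans_le (Nat.pow_le_pow_right (by omega) (by omega))

section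
variable {α β : Type} [Rp α] [HasO α] [Rp β] [HasO β]

theorem ot_cnt {smp : α × List ℕ × List ℕ × Word → List ℕ} (hS : OT smp) {a : β → α}
    (ha : PTime a) (ho : ∀ b, orc (a b) = orc b) {L P : β → ℕ} {lo hi : β → List ℕ} {e v : β → ℕ}
    {ω : β → Word} (hL : PU L) (hP : PU P) (h1 : PTime lo) (h2 : PTime hi) (he : PTime e)
    (hv : PTime v) (hω : PTime ω) :
    OT fun b => cnt (fun lo hi r => smp (a b, lo, hi, r)) (L b) (P b) (lo b) (hi b) (e b) (v b)
      (ω b) := by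
  refine OT.pcomp (g := fun z : ℤ => z.toNat) (PTime.toNat PTime.id)
    (OT.repZ (f := fun b => ind (fun lo hi r => smp (a b, lo, hi, r)) (lo b) (hi b) (e b) (v b))
      hL (pu_ns hP) ?_ hω)
  have g3 : PTime fun q : (β × Word) × List ℕ => e q.1.1 := he.comp PTime.fst'.fst
  have g4 : PTime fun q : (β × Word) × List ℕ => v q.1.1 := hv.comp PTime.fst'.fst
  exact OT.map (E := fun q : (β × Word) × List ℕ =>
      if q.2.getD (e q.1.1) 0 = v q.1.1 then (1 : ℤ) else 0)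
    (PTime.ite ((getDN PTime.snd' g3).eq g4) (PTime.const _) (PTime.const _))
    (hS.pre (f := fun p : β × Word => (a p.1, lo p.1, hi p.1, p.2))
      ((ha.comp PTime.fst').pair ((h1.comp PTime.fst').pair ((h2.comp PTime.fst').pair PTime.snd')))
      fun p => ho p.1)

omit [HasO α] in
theorem ptime_upd {P : α → ℕ} {s : α → Sta} {e v k : α → ℕ} (hP : PU P) (hs : PTime s)
    (he : PTime e) (hv : PTime v) (hk : PTime k) :
    PTime fun a => upd (P a) (s a) (e a) (v a) (k a) :=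
  (setN hs.fst he hv).pair ((setN hs.snd.fst he hv).pair
    ((hs.snd.snd.fst.mul (pu_ns hP).ptime).pair (hs.snd.snd.snd.mul hk)))

theorem ot_stv {fe : α × List ℕ × List ℕ → ℕ} (hf : PU fe)
    {smp : α × List ℕ × List ℕ × Word → List ℕ} (hS : OT smp) {a : β → α}
    (ha : PTime a) (ho : ∀ b, orc (a b) = orc b) {E L P v : β → ℕ} {s : β → Sta} {ω : β → Word}
    (hE : PU E) (hL : PU L) (hP : PU P) (hs : PTime s) (hω : PTime ω) (hv : PTime v) :
    OT fun b => stv (fun lo hi => fe (a b, lo, hi)) (E b) (fun lo hi r => smp (a b, lo, hi, r))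
      (L b) (P b) (s b) (ω b) (v b) := by
  have g1 : PTime fun b => fe (a b, (s b).1, (s b).2.1) :=
    hf.ptime.comp (ha.pair (hs.fst.pair hs.snd.fst))
  have g2 : PTime fun q : β × ℕ => fe (a q.1, (s q.1).1, (s q.1).2.1) := g1.comp PTime.fst'
  have g3 : PTime fun q : β × ℕ => s q.1 := hs.comp PTime.fst'
  exact OT.map (E := fun q : β × ℕ => if fe (a q.1, (s q.1).1, (s q.1).2.1) < E q.1 then
      upd (P q.1) (s q.1) (fe (a q.1, (s q.1).1, (s q.1).2.1)) (v q.1) q.2 else s q.1)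
    (PTime.ite (g2.lt (hE.ptime.comp PTime.fst'))
      (ptime_upd (hP.comp PTime.fst') g3 g2 (hv.comp PTime.fst') PTime.snd') g3)
    (ot_cnt hS ha ho hL hP hs.fst hs.snd.fst g1 hv hω)

theorem ot_stp {fe : α × List ℕ × List ℕ → ℕ} (hf : PU fe)
    {am : α × List ℕ × List ℕ × Word → ℕ} (hm : OT fun q => Un.mk (am q))
    {smp : α × List ℕ × List ℕ × Word → List ℕ} (hS : OT smp) {a : β → α}
    (ha : PTime a) (ho : ∀ b, orc (a b) = orc b) {E L P : β → ℕ} {s : β → Sta} {ω : β → Word}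
    (hE : PU E) (hL : PU L) (hP : PU P) (hs : PTime s) (hω : PTime ω) :
    OT fun b => stp (fun lo hi => fe (a b, lo, hi)) (fun lo hi r => am (a b, lo, hi, r)) (E b)
      (fun lo hi r => smp (a b, lo, hi, r)) (L b) (P b) (s b) (ω b) := by
  have h1 := ot_stv (β := β × Un) hf hS (a := fun q => a q.1) (ha.comp PTime.fst')
    (fun q => ho q.1) (hE.comp PTime.fst') (hL.comp PTime.fst') (hP.comp PTime.fst')
    (hs.comp PTime.fst') (hω.comp PTime.fst') (PTime.val PTime.snd')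
  have h2 := hm.pre (f := fun b => (a b, (s b).1, (s b).2.1, ω b))
    (ha.pair (hs.fst.pair (hs.snd.fst.pair hω))) ho
  exact (OT.bind h1 h2).congr fun _ => rfl

theorem exists_am {fe : α × List ℕ × List ℕ → ℕ} (hf : PU fe)
    {smp : α × List ℕ × List ℕ × Word → List ℕ} (hS : OT smp) {L P : α → ℕ} (hL : PU L)
    (hP : PU P) : ∃ am : α × List ℕ × List ℕ × Word → ℕ, (OT fun q => Un.mk (am q)) ∧
      ∀ a, AmSpec (fun lo hi => fe (a, lo, hi)) (fun lo hi r => smp (a, lo, hi, r)) (L a) (P a)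
        fun lo hi r => am (a, lo, hi, r) := by
  have h1 := ot_cnt (β := (α × List ℕ × List ℕ × Word) × Un) hS (a := fun q => q.1.1)
    PTime.fst'.fst (fun _ => rfl) (hL.comp PTime.fst'.fst) ((hP.mul hP).comp PTime.fst'.fst)
    PTime.fst'.snd.fst PTime.fst'.snd.snd.fst
    (hf.ptime.comp (PTime.fst'.fst.pair (PTime.fst'.snd.fst.pair PTime.fst'.snd.snd.fst)))
    (PTime.val PTime.snd') PTime.fst'.snd.snd.snd
  have h2 := OT.pcomp (g := fun n : ℕ => (n : ℤ)) (PTime.natCast PTime.id) h1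
  obtain ⟨m, hm, hs⟩ := OT.exists_argmax (α := α × List ℕ × List ℕ × Word)
    (n := fun q => P q.1) (g := fun q v => (cnt (fun lo hi r => smp (q.1, lo, hi, r)) (L q.1)
      (P q.1 * P q.1) q.2.1 q.2.2.1 (fe (q.1, q.2.1, q.2.2.1)) v q.2.2.2 : ℤ))
    (hP.comp PTime.fst') h2
  refine ⟨m, hm, fun a lo hi ω => ⟨(hs (a, lo, hi, ω)).1, fun v hv => ?_⟩⟩
  exact_mod_cast (hs (a, lo, hi, ω)).2 v hv

theorem ot_run {E : α → ℕ} (hE : PU E) {fe : α × List ℕ × List ℕ → ℕ} (hf : PU fe)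
    {am : α × List ℕ × List ℕ × Word → ℕ} (hm : OT fun q => Un.mk (am q))
    {smp : α × List ℕ × List ℕ × Word → List ℕ} (hS : OT smp) {L P : α → ℕ} (hL : PU L)
    (hP : PU P) (ham : ∀ q, am q ≤ P q.1 - 1) {ρ : α → List ℕ} (hρ : OT ρ) :
    OT fun p : α × Word => run (fun lo hi => fe (p.1, lo, hi)) (fun lo hi r => am (p.1, lo, hi, r))
      (E p.1) (fun lo hi r => smp (p.1, lo, hi, r)) (L p.1) (P p.1) (ρ p.1) p.2 := by
  have hE' : PU fun p : α × Word => E p.1 := hE.comp PTime.fst'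
  have hL' : PU fun p : α × Word => L p.1 := hL.comp PTime.fst'
  have hP' : PU fun p : α × Word => P p.1 := hP.comp PTime.fst'
  have hQ' : PU fun p : α × Word => P p.1 * P p.1 := hP'.mul hP'
  have hρ' : OT fun p : α × Word => ρ p.1 := hρ.pre PTime.fst' fun _ => rfl
  refine OT.iterR (step := fun p : α × Word => stp (fun lo hi => fe (p.1, lo, hi))
      (fun lo hi r => am (p.1, lo, hi, r)) (E p.1)
      (fun lo hi r => smp (p.1, lo, hi, r)) (L p.1) (P p.1 * P p.1))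
    (init := fun p : α × Word => init (E p.1) (ρ p.1))
    ((pu_ns hQ').mul hL') hQ'
    (ot_stp (a := fun q : (α × Word) × Sta × Word => q.1.1) hf hm hS PTime.fst'.fst (fun _ => rfl)
      (hE'.comp PTime.fst') (hL'.comp PTime.fst') (hQ'.comp PTime.fst') PTime.snd'.fst
      PTime.snd'.snd)
    ?_ PTime.snd'
    (B := fun p => 2 * (E p.1 * (2 * (sz (ρ p.1) + P p.1) + 2)) +
      2 * (P p.1 * P p.1 * (ns (P p.1 * P p.1) + 1) + 1))
    ?_ ?_
  · have g : PU fun q : (α × Word) × List ℕ => E q.1.1 := hE'.comp PTime.fst'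
    exact OT.map (E := fun q : (α × Word) × List ℕ => init (E q.1.1) q.2)
      ((replicateN g (PTime.const _)).pair
        ((rangeMapN (g := fun (q : (α × Word) × List ℕ) e => q.2.getD e 0) g
          (getDN PTime.fst'.snd (PTime.val PTime.snd'))).pair (PTime.const _))) hρ'
  · exact ((PB.const _).mul (hE'.pb.mul (((PB.const _).mul (hρ'.sz.add hP'.pb)).add
      (PB.const _)))).add
      ((PB.const _).mul (((hQ'.mul ((pu_ns hQ').add (PU.const _))).pb).add (PB.const _)))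
  · intro p k hk
    have := (iterR_inv (ns (P p.1 * P p.1) * L p.1) (stp (fun lo hi => fe (p.1, lo, hi))
      (fun lo hi r => am (p.1, lo, hi, r)) (E p.1)
      (fun lo hi r => smp (p.1, lo, hi, r)) (L p.1) (P p.1 * P p.1))
      (Sz (E p.1) (sz (ρ p.1) + P p.1) (ns (P p.1 * P p.1) + 1))
      (fun k s r h => sz_stv _ _ _ _ _ _ k s r (by
        have a1 := ham (p.1, s.1, s.2.1, r)
        have a2 := Nat.lt_two_pow_self (n := P p.1)
        have a3 : 2 ^ P p.1 ≤ 2 ^ (sz (ρ p.1) + P p.1) :=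
          Nat.pow_le_pow_right (by omega) (by omega)
        simp only at a1 ⊢
        omega) h) _ (sz_init (E p.1) (ρ p.1) _ _) k p.2).le
    have h2 : k * (ns (P p.1 * P p.1) + 1) ≤ P p.1 * P p.1 * (ns (P p.1 * P p.1) + 1) :=
      Nat.mul_le_mul_right _ hk
    omega

omit [HasO α] in
theorem ptime_out {P : α → ℕ} {s : α → Sta} {z : α → ℤ} (hP : PU P) (hs : PTime s) (hz : PTime z) :
    PTime fun a => out (P a) (s a) (z a) :=
  (hs.snd.snd.fst.mul ((PTime.const _).pow (PU.min_right hz.toNatNeg hP))).pair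
    ((hs.snd.snd.snd.mul ((PTime.const _).pow (PU.min_right hz.toNat hP))).sub (PTime.const _))

end

/-! ### Correctness -/

theorem bx_pin {E : ℕ} {lo hi : List ℕ} {e v : ℕ} (he : e < E) (hl : lo.length = E)
    (hh : hi.length = E) (h1 : lo.getD e 0 ≤ v) (h2 : v ≤ hi.getD e 0) :
    bx E (lo.set e v) (hi.set e v) = (bx E lo hi).filter fun p => p.getD e 0 = v := by
  ext p
  simp only [Finset.mem_filter, mem_bx, getD_set (hl ▸ he), getD_set (hh ▸ he)]
  constructor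
  · rintro ⟨h1, h2⟩
    refine ⟨⟨h1, fun i hi => ?_⟩, ?_⟩
    · have := h2 i hi
      split_ifs at this with h
      · subst h; omega
      · exact this
    · have := h2 e he
      rw [if_pos rfl, if_pos rfl] at this
      omega
  · rintro ⟨⟨h1, h2⟩, h4⟩
    refine ⟨h1, fun i hi => ?_⟩
    have := h2 i hi
    split_ifs with h
    · subst h; omega
    · exact this

theorem pin_set {E : ℕ} {ρ lo hi : List ℕ} (h : Pin E ρ lo hi) {e v : ℕ} (he : e < E)
    (hl : lo.length = E) (hh : hi.length = E) (h0 : ∀ i < e, ¬ lo.getD i 0 < hi.getD i 0)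
    (hlt : lo.getD e 0 < hi.getD e 0) (h2 : v ≤ hi.getD e 0) :
    Pin E ρ (lo.set e v) (hi.set e v) := by
  have hs := h.sub
  obtain ⟨e0, h⟩ := h
  have he0 : e0 ≤ e := by
    by_contra hc
    have := (h e he).1 (by omega)
    omega
  refine ⟨e + 1, fun i hi => ?_⟩
  simp only [getD_set (hl ▸ he), getD_set (hh ▸ he)]
  have a1 := hs i hi
  constructor
  · intro hie
    split_ifs with h3
    · subst h3; omega
    · have := h0 i (by omega); omega
  · intro hie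
    rw [if_neg (by omega), if_neg (by omega)]
    exact (h i hi).2 (by omega)

theorem ratio {q c c' c0 n k t y p : ℝ} (hn : 0 < n) (hp : 0 < p) (hk : n ≤ 2 * p * k)
    (hc : 0 < c) (hc0 : 0 ≤ c0) (ht : |k / n - c' / c| ≤ t / (4 * p)) (hy : y ≤ 1)
    (h : |q * c - c0| ≤ y * c0) : |q * (n / k) * c' - c0| ≤ (y + t) * c0 := by
  have hk0 : 0 < k := by
    by_contra hc
    have : 2 * p * k ≤ 0 := mul_nonpos_of_nonneg_of_nonpos (by positivity) (not_lt.1 hc)
    linarith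
  have h1 : |n / k * (c' / c) - 1| ≤ t / 2 := by
    have e : n / k * (c' / c) - 1 = n / k * -(k / n - c' / c) := by field_simp; ring
    have h2 : n / k ≤ 2 * p := by rw [div_le_iff₀ hk0]; linarith
    rw [e, abs_mul, abs_neg, abs_of_pos (div_pos hn hk0)]
    calc n / k * |k / n - c' / c| ≤ 2 * p * (t / (4 * p)) :=
          mul_le_mul h2 ht (abs_nonneg _) (by positivity)
      _ = t / 2 := by field_simp; ring
  have h2 : |q * c| ≤ 2 * c0 := by
    have := abs_sub_abs_le_abs_sub (q * c) c0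
    rw [abs_of_nonneg hc0] at this
    nlinarith
  have e : q * (n / k) * c' - c0 = q * c * (n / k * (c' / c) - 1) + (q * c - c0) := by
    field_simp; ring
  rw [e]
  calc |q * c * (n / k * (c' / c) - 1) + (q * c - c0)|
      ≤ |q * c * (n / k * (c' / c) - 1)| + |q * c - c0| := abs_add_le _ _
    _ ≤ 2 * c0 * (t / 2) + y * c0 := by
        rw [abs_mul]
        exact add_le_add (mul_le_mul h2 h1 (abs_nonneg _) (by linarith)) h
    _ = (y + t) * c0 := by ring

theorem Zb_pos {E : ℕ} {ρ lo hi : List ℕ} (h : Sub E ρ lo hi) (en : List ℕ → ℤ) :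
    0 < Zb E lo hi en := by
  refine Finset.sum_pos (fun k _ => wt_pos en k)
    ⟨(List.range E).map fun e => lo.getD e 0, mem_bx.2 ⟨by simp, fun i hi => ?_⟩⟩
  have e : ((List.range E).map fun e => lo.getD e 0).getD i 0 = lo.getD i 0 := by
    simp [List.getD_eq_getElem?_getD, hi]
  rw [e]
  exact ⟨le_rfl, (h i hi).1⟩

theorem bx_one {E : ℕ} {ρ lo hi : List ℕ} (h : pot E lo hi = 0) (hl : lo.length = E)
    (hs : Sub E ρ lo hi) : bx E lo hi = {lo} := by
  have h1 : ∀ e < E, hi.getD e 0 ≤ lo.getD e 0 := fun e he => by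
    have := (Finset.sum_eq_zero_iff.1 h) e (Finset.mem_range.2 he)
    rw [Nat.size_eq_zero] at this
    omega
  refine Finset.eq_singleton_iff_unique_mem.2
    ⟨mem_bx.2 ⟨hl, fun i hi => ⟨le_rfl, (hs i hi).1⟩⟩, fun p hp => ?_⟩
  obtain ⟨hp1, hp2⟩ := mem_bx.1 hp
  refine List.ext_getElem (hp1.trans hl.symm) fun i hi hi' => ?_
  have hiE : i < E := hp1 ▸ hi
  have a1 := hp2 i hiE
  have a3 := h1 i hiE
  rw [List.getD_eq_getElem _ _ hi] at a1
  rw [List.getD_eq_getElem _ _ hi'] at a1 a3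
  omega

theorem bx_init (E : ℕ) (hi : List ℕ) : bx E (init E hi).1 (init E hi).2.1 = bx E [] hi := by
  have h1 : ∀ i < E, (init E hi).1.getD i 0 = ([] : List ℕ).getD i 0 := fun i h => by
    simp [init, List.getD_eq_getElem?_getD, h]
  have h2 : ∀ i < E, (init E hi).2.1.getD i 0 = hi.getD i 0 := fun i h => by
    simp [init, List.getD_eq_getElem?_getD, h]
  ext p
  simp only [mem_bx]
  refine and_congr Iff.rfl (forall₂_congr fun i h => ?_)
  rw [h1 i h, h2 i h]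

/-- the invariant -/
def Inv (E : ℕ) (ρ : List ℕ) (en : List ℕ → ℤ) (P : ℕ) (c0 : ℝ) (k : ℕ) (s : Sta) : Prop :=
  s.1.length = E ∧ s.2.1.length = E ∧ Pin E ρ s.1 s.2.1 ∧ 0 < s.2.2.2 ∧
    (pot E s.1 s.2.1 + k ≤ P * P ∨ pot E s.1 s.2.1 = 0) ∧
    |(s.2.2.1 : ℝ) / s.2.2.2 * Zb E s.1 s.2.1 en - c0| ≤ k / (P : ℝ) ^ 3 * c0

theorem inv_upd {E : ℕ} {ρ : List ℕ} {en : List ℕ → ℤ} {P : ℕ} (hP : 1 ≤ P) {c0 : ℝ}
    (hc0 : 0 ≤ c0) {k : ℕ} (hk : k < P * P) {s : Sta}
    (h : Inv E ρ en P c0 k s) {e : ℕ} (he : e < E) (h0 : ∀ i < e, ¬ s.1.getD i 0 < s.2.1.getD i 0)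
    (hlt : s.1.getD e 0 < s.2.1.getD e 0) {Q v j : ℕ} (hQ : 1 ≤ Q)
    (hj : (ns Q : ℝ) ≤ 2 * P * j)
    (ht : |(j : ℝ) / ns Q - (∑ p ∈ (bx E s.1 s.2.1).filter fun p => p.getD e 0 = v,
      wt en p) / Zb E s.1 s.2.1 en| ≤ 1 / (P : ℝ) ^ 3 / (4 * P)) :
    Inv E ρ en P c0 (k + 1) (upd Q s e v j) := by
  obtain ⟨h1, h2, h3, h4, h5, h6⟩ := h
  have hP1 : (1 : ℝ) ≤ P := by exact_mod_cast hP
  have hn0 : 0 < ns Q := by unfold ns; positivity
  have hn : (0 : ℝ) < ns Q := by exact_mod_cast hn0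
  have hc := Zb_pos h3.sub en
  have hP3 : (1 : ℝ) ≤ (P : ℝ) ^ 3 := one_le_pow₀ hP1
  have hy : (k : ℝ) / (P : ℝ) ^ 3 ≤ 1 := by
    rw [div_le_one (by linarith)]
    have : (k : ℝ) ≤ P * P := by exact_mod_cast hk.le
    nlinarith
  have hpot : ∀ lo' hi', pot E lo' hi' + 1 ≤ pot E s.1 s.2.1 →
      pot E lo' hi' + (k + 1) ≤ P * P ∨ pot E lo' hi' = 0 := fun lo' hi' h => by omega
  have ek : ((k + 1 : ℕ) : ℝ) / (P : ℝ) ^ 3 = k / (P : ℝ) ^ 3 + 1 / (P : ℝ) ^ 3 := by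
    push_cast; ring
  have hj0 : 0 < j := by
    rcases Nat.eq_zero_or_pos j with h | h
    · rw [h] at hj; simp only [Nat.cast_zero, mul_zero] at hj; linarith
    · exact h
  have hne : ((bx E s.1 s.2.1).filter fun p => p.getD e 0 = v).Nonempty := by
    by_contra hc'
    rw [Finset.not_nonempty_iff_eq_empty.1 hc', Finset.sum_empty, zero_div, sub_zero] at ht
    have a1 : 1 / (2 * (P : ℝ)) ≤ (j : ℝ) / ns Q := by
      rw [div_le_div_iff₀ (by positivity) hn]; linarith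
    have a2 : 1 / (P : ℝ) ^ 3 / (4 * P) ≤ 1 / (4 * P) := by
      gcongr
      rw [div_le_one (by linarith)]; exact hP3
    have a3 : 1 / (4 * (P : ℝ)) < 1 / (2 * P) := one_div_lt_one_div_of_lt (by positivity)
      (by linarith)
    linarith [le_abs_self ((j : ℝ) / ns Q)]
  obtain ⟨p, hp⟩ := hne
  obtain ⟨hp1, hp2⟩ := Finset.mem_filter.1 hp
  have hv := (mem_bx.1 hp1).2 e he
  rw [hp2] at hv
  have hF := bx_pin he h1 h2 hv.1 hv.2
  unfold upd
  refine ⟨by simpa using h1, by simpa using h2, pin_set h3 he h1 h2 h0 hlt hv.2,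
    Nat.mul_pos h4 hj0, hpot _ _ ?_, ?_⟩
  · refine pot_lt he (fun i hi => ⟨?_, ?_⟩) hlt ?_
    · simp only [getD_set (h1 ▸ he), if_neg hi]
    · simp only [getD_set (h2 ▸ he), if_neg hi]
    · simp only [getD_set (h1 ▸ he), getD_set (h2 ▸ he), if_true]; omega
  · have := ratio hn (by linarith) hj hc hc0 ht hy h6
    rw [ek, Zb]
    simp only [hF]
    rw [Nat.cast_mul, Nat.cast_mul]
    rwa [mul_div_mul_comm]

theorem bias {E : ℕ} {ρ : List ℕ} {en : List ℕ → ℤ} {S : Smp} {L P : ℕ} (hP : 1 ≤ P)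
    (h : SSpec E ρ en S L (gg P)) {lo hi : List ℕ} (hs : Pin E ρ lo hi) (e v : ℕ) :
    |Ex L (fun r => (ind S lo hi e v r : ℝ)) -
      (∑ p ∈ (bx E lo hi).filter fun p => p.getD e 0 = v, wt en p) / Zb E lo hi en| ≤
      1 / (P : ℝ) ^ 3 / 8 := by
  obtain ⟨h1, h2⟩ := h lo hi hs
  have hP1 : (1 : ℝ) ≤ P := by exact_mod_cast hP
  have hZ := Zb_pos hs.sub en
  have e1 : Ex L (fun r => (ind S lo hi e v r : ℝ)) =
      ∑ p ∈ bx E lo hi, Pr L (fun ω => S lo hi ω = p) *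
        if p.getD e 0 = v then 1 else 0 := by
    rw [← Ex_comp L (bx E lo hi) (fun ω => S lo hi ω)
      (fun ω _ => h1 ω) fun p => if p.getD e 0 = v then (1 : ℝ) else 0]
    refine Ex_congr fun ω _ => ?_
    unfold ind
    split_ifs <;> simp
  have e2 : (∑ p ∈ (bx E lo hi).filter fun p => p.getD e 0 = v, wt en p) /
      Zb E lo hi en = ∑ p ∈ bx E lo hi, wt en p / Zb E lo hi en *
        if p.getD e 0 = v then 1 else 0 := by
    rw [Finset.sum_filter, Finset.sum_div]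
    refine Finset.sum_congr rfl fun p _ => ?_
    split_ifs <;> simp
  rw [e1, e2, ← Finset.sum_sub_distrib]
  refine (Finset.abs_sum_le_sum_abs _ _).trans (le_trans (Finset.sum_le_sum
    (g := fun p => (2 : ℝ)⁻¹ ^ gg P * (wt en p / Zb E lo hi en)) fun p hp => ?_) ?_)
  · rw [← sub_mul, abs_mul]
    refine le_trans (mul_le_of_le_one_right (abs_nonneg _) ?_) (h2 p hp)
    split_ifs <;> simp
  · rw [← Finset.mul_sum, ← Finset.sum_div]
    change _ * (Zb E lo hi en / _) ≤ _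
    rw [div_self hZ.ne', mul_one]
    have h3 : (P : ℝ) ≤ 2 ^ P := by exact_mod_cast (Nat.lt_two_pow_self (n := P)).le
    have h4 : (P : ℝ) ^ 3 ≤ (2 ^ P) ^ 3 := pow_le_pow_left₀ (by linarith) h3 3
    have e3 : (2 : ℝ)⁻¹ ^ gg P = 1 / ((2 : ℝ) ^ P) ^ 3 / 32 := by
      unfold gg
      rw [inv_pow, pow_add, mul_comm 3 P, pow_mul]
      field_simp
      norm_num
    rw [e3]
    gcongr
    norm_num

theorem exists_big {E : ℕ} {ρ lo hi : List ℕ} (en : List ℕ → ℤ) {P : ℕ} (hP : 1 ≤ P)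
    (hs : Sub E ρ lo hi) (hρ : ∀ e < E, ρ.getD e 0 < P) {e : ℕ} (he : e < E) :
    ∃ v < P, 1 / (P : ℝ) ≤
      (∑ p ∈ (bx E lo hi).filter fun p => p.getD e 0 = v, wt en p) / Zb E lo hi en := by
  have hZ := Zb_pos hs en
  have hP0 : (0 : ℝ) < P := by exact_mod_cast hP
  have h1 : ∑ v ∈ range P, ∑ p ∈ (bx E lo hi).filter fun p => p.getD e 0 = v, wt en p
      = Zb E lo hi en := Finset.sum_fiberwise_of_maps_to (fun p hp => by
        have := (mem_bx.1 hp).2 e he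
        have := hs e he
        have := hρ e he
        exact Finset.mem_range.2 (by omega)) _
  obtain ⟨v, hv, h2⟩ := Finset.exists_le_of_sum_le (s := range P) (f := fun _ => 1 / (P : ℝ))
    (g := fun v => (∑ p ∈ (bx E lo hi).filter fun p => p.getD e 0 = v, wt en p) / Zb E lo hi en)
    ⟨0, Finset.mem_range.2 hP⟩ (by
      rw [Finset.sum_const, ← Finset.sum_div, h1, div_self hZ.ne', Finset.card_range,
        nsmul_eq_mul, mul_one_div, div_self hP0.ne'])
  exact ⟨v, Finset.mem_range.1 hv, h2⟩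

theorem round {fe : List ℕ → List ℕ → ℕ} {E : ℕ} (hfe : FeSpec E fe) {ρ : List ℕ}
    {en : List ℕ → ℤ} {S : Smp} {L P : ℕ} (hP : 1 ≤ P) (h : SSpec E ρ en S L (gg (P * P)))
    {am : List ℕ → List ℕ → Word → ℕ} (ham : AmSpec fe S L P am)
    (hρ : ∀ e < E, ρ.getD e 0 < P) {c0 : ℝ}
    (hc0 : 0 ≤ c0) {k : ℕ} (hk : k < P * P) {s : Sta} (hs : Inv E ρ en P c0 k s) :
    1 - (2 : ℝ)⁻¹ ^ P / ((P : ℝ) * P) ≤
      Pr (ns (P * P) * L) fun r => Inv E ρ en P c0 (k + 1) (stp fe am E S L (P * P) s r) := by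
  have hP1 : (1 : ℝ) ≤ P := by exact_mod_cast hP
  obtain ⟨Q, hQ⟩ : ∃ Q, Q = P * P := ⟨_, rfl⟩
  have hPQ : P ≤ Q := by rw [hQ]; exact Nat.le_mul_self P
  have hQ1 : 1 ≤ Q := hP.trans hPQ
  have hQr : (Q : ℝ) = P * P := by rw [hQ]; push_cast; rfl
  unfold AmSpec at ham
  rw [← hQ] at h ham ⊢
  by_cases he : fe s.1 s.2.1 < E
  · have hlt := (hfe s.1 s.2.1).2.2 he
    have h0 := (hfe s.1 s.2.1).1
    have ham' := ham s.1 s.2.1
    set e := fe s.1 s.2.1 with hedef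
    have hH := fun v => hoeffding L (ns Q) (ind S s.1 s.2.1 e v) 0 1 (1 / (Q : ℝ) ^ 3 / 8)
      one_pos (by positivity) fun r _ => by
        have := ind_bd S s.1 s.2.1 e v r
        rw [zero_add]
        exact ⟨by exact_mod_cast this.1, by exact_mod_cast this.2⟩
    have hB := bias hQ1 h hs.2.2.1 e
    have hn : (0 : ℝ) < ns Q := by
      have : 0 < ns Q := by unfold ns; positivity
      exact_mod_cast this
    refine le_trans ?_ (Pr_mono (A := fun ω => ¬ ∃ v ∈ range P, ((ns Q : ℝ) * (1 / (Q : ℝ) ^ 3 / 8) <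
      |(repZ L (ind S s.1 s.2.1 e v) (ns Q) ω : ℝ) -
        ns Q * Ex L fun r => (ind S s.1 s.2.1 e v r : ℝ)|)) fun ω _ hω => ?_)
    · rw [Pr_not]
      refine sub_le_sub_left ((Pr_exists_le _ _ _).trans ((Finset.sum_le_sum fun v _ =>
        (hH v).trans (tail_le hQ1)).trans ?_)) _
      rw [Finset.sum_const, Finset.card_range, nsmul_eq_mul, hQr]
      have a1 : (2 : ℝ)⁻¹ ^ Q ≤ (2 : ℝ)⁻¹ ^ P :=
        pow_le_pow_of_le_one (by norm_num) (by norm_num) hPQ
      calc (P : ℝ) * ((2 : ℝ)⁻¹ ^ Q / (P * P * (P * P))) = (2 : ℝ)⁻¹ ^ Q / (P * P * P) := by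
            field_simp
        _ ≤ (2 : ℝ)⁻¹ ^ P / (P * P * 1) := by gcongr
        _ = _ := by rw [mul_one]
    · have acc : ∀ v < P, |(cnt S L Q s.1 s.2.1 e v ω : ℝ) / ns Q -
          (∑ p ∈ (bx E s.1 s.2.1).filter fun p => p.getD e 0 = v, wt en p) / Zb E s.1 s.2.1 en|
            ≤ 1 / (P : ℝ) ^ 3 / (4 * P) := fun v hv => by
        have hω' := not_lt.1 fun hc => hω ⟨v, Finset.mem_range.2 hv, hc⟩
        rw [← cnt_cast] at hω'
        have h1 : |(cnt S L Q s.1 s.2.1 e v ω : ℝ) / ns Q -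
            Ex L fun r => (ind S s.1 s.2.1 e v r : ℝ)| ≤ 1 / (Q : ℝ) ^ 3 / 8 := by
          have e1 : (cnt S L Q s.1 s.2.1 e v ω : ℝ) / ns Q -
              (Ex L fun r => (ind S s.1 s.2.1 e v r : ℝ)) =
              ((cnt S L Q s.1 s.2.1 e v ω : ℝ) -
                ns Q * Ex L fun r => (ind S s.1 s.2.1 e v r : ℝ)) / ns Q := by
            field_simp
          rw [e1, abs_div, abs_of_pos hn, div_le_iff₀ hn]
          linarith
        have h2 := abs_sub_le ((cnt S L Q s.1 s.2.1 e v ω : ℝ) / ns Q)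
          (Ex L fun r => (ind S s.1 s.2.1 e v r : ℝ))
          ((∑ p ∈ (bx E s.1 s.2.1).filter fun p => p.getD e 0 = v, wt en p) /
            Zb E s.1 s.2.1 en)
        have h3 : 1 / (Q : ℝ) ^ 3 / 4 ≤ 1 / (P : ℝ) ^ 3 / (4 * P) := by
          rw [hQr, div_div, div_div]
          refine one_div_le_one_div_of_le (by positivity) ?_
          have : (1 : ℝ) ≤ (P : ℝ) ^ 2 := one_le_pow₀ hP1
          have h5 : (0 : ℝ) ≤ (P : ℝ) ^ 4 := by positivity
          nlinarith [mul_le_mul_of_nonneg_left this h5]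
        linarith [hB v]
      obtain ⟨v, hv, hbig⟩ := exists_big en hP hs.2.2.1.sub hρ he
      obtain ⟨m1, m2⟩ := ham' ω
      unfold stp stv
      rw [if_pos he]
      refine inv_upd hP hc0 hk hs he h0 hlt hQ1 ?_ (acc _ (by omega))
      have a1 := (abs_le.1 (acc v hv)).1
      have a2 : (cnt S L Q s.1 s.2.1 e v ω : ℝ) ≤ cnt S L Q s.1 s.2.1 e (am s.1 s.2.1 ω) ω := by
        exact_mod_cast m2 v hv
      have a3 : 1 / (P : ℝ) ^ 3 / (4 * P) ≤ 1 / (2 * P) := by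
        have b1 : 1 / (P : ℝ) ^ 3 ≤ 1 := by
          rw [div_le_one (by positivity)]; exact one_le_pow₀ hP1
        gcongr
        norm_num
      have a4 : 1 / (2 * (P : ℝ)) ≤ (cnt S L Q s.1 s.2.1 e v ω : ℝ) / ns Q := by
        have : 1 / (P : ℝ) = 2 * (1 / (2 * P)) := by field_simp
        linarith
      rw [div_le_div_iff₀ (by positivity) hn] at a4
      nlinarith
  · rw [Pr_true]
    · have : 0 ≤ (2 : ℝ)⁻¹ ^ P / ((P : ℝ) * P) := by positivity
      linarith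
    · intro ω _
      unfold stp stv
      rw [if_neg he]
      obtain ⟨h1, h2, h3, h4, _, h6⟩ := hs
      refine ⟨h1, h2, h3, h4, Or.inr (Finset.sum_eq_zero fun i hi => ?_), h6.trans ?_⟩
      · have := (hfe s.1 s.2.1).1 i (by have := Finset.mem_range.1 hi; omega)
        rw [Nat.size_eq_zero]; omega
      · push_cast
        gcongr
        linarith

theorem inv_init {E : ℕ} {ρ : List ℕ} (en : List ℕ → ℤ) {P : ℕ} (hE : E ≤ P)
    (hρ : ∀ e < E, ρ.getD e 0 ≤ P) : Inv E ρ en P (Zb E [] ρ en) 0 (init E ρ) := by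
  have h1 : ∀ i < E, (init E ρ).1.getD i 0 = 0 := fun i h => by
    simp [init, List.getD_eq_getElem?_getD, h]
  have h2 : ∀ i < E, (init E ρ).2.1.getD i 0 = ρ.getD i 0 := fun i h => by
    simp [init, List.getD_eq_getElem?_getD, h]
  refine ⟨by simp [init], by simp [init], ⟨0, fun e he => ⟨fun h => absurd h (Nat.not_lt_zero _),
    fun _ => ⟨h1 e he, h2 e he⟩⟩⟩, by simp [init], Or.inl ?_, ?_⟩
  · rw [add_zero]
    calc pot E (init E ρ).1 (init E ρ).2.1 ≤ ∑ _e ∈ range E, P := by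
          refine Finset.sum_le_sum fun e he => ?_
          have he' := Finset.mem_range.1 he
          have := hρ e he'
          have := Nat.lt_two_pow_self (n := P)
          rw [Nat.size_le, h2 e he']
          omega
      _ = E * P := by simp
      _ ≤ P * P := Nat.mul_le_mul_right _ hE
  · rw [Zb, bx_init, ← Zb]; simp [init]

theorem qv_out {P : ℕ} {s : Sta} {z : ℤ} (hs : 0 < s.2.2.2) (hz : z.natAbs ≤ P) :
    qv (out P s z) = (s.2.2.1 : ℝ) / s.2.2.2 * (2 : ℝ) ^ (-z) := by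
  have h1 : min (-z).toNat P = (-z).toNat := min_eq_left (by omega)
  have h2 : min z.toNat P = z.toNat := min_eq_left (by omega)
  have h3 : 1 ≤ s.2.2.2 * 2 ^ z.toNat := Nat.mul_pos hs (Nat.two_pow_pos _)
  have h4 : (2 : ℝ) ^ (-z) = 2 ^ (-z).toNat / 2 ^ z.toNat := by
    rw [← zpow_natCast, ← zpow_natCast, ← zpow_sub₀ (by norm_num)]
    congr 1
    omega
  have h5 : (0 : ℝ) < s.2.2.2 := by exact_mod_cast hs
  unfold qv out
  simp only [h1, h2]
  rw [Nat.cast_sub h3, h4]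
  push_cast
  field_simp
  ring

end ZestX

open ZestX CntX in
theorem exists_zest {α : Type} [Rp α] [HasO α] (P E : α → ℕ) (hP : PU P) (hE : PU E)
    (ρ : α → List ℕ) (hρ : OT ρ)
    (en : α → List ℕ → ℤ) (hen : OT fun p : α × List ℕ => en p.1 p.2) :
    ∃ (L : ℕ → ℕ) (zs : α × Word → ℕ × ℕ),
      (PU fun u : Un => L u.val) ∧ OT zs ∧ ∀ a, Nice (E a) (ρ a) (P a) (en a) →
        1 - (2 : ℝ)⁻¹ ^ P a ≤ Pr (L (P a)) fun ω =>
          |qv (zs (a, ω)) - Zb (E a) [] (ρ a) (en a)| ≤ Zb (E a) [] (ρ a) (en a) / P a := by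
  have hQ := hP.mul hP
  obtain ⟨L, smp, hL, hS, h⟩ := exists_smp (fun a => gg (P a * P a)) E (pu_gg hQ) hE en hen
  obtain ⟨fe, hf, hfe⟩ := ZestX.exists_fe hE
  have hL' : PU fun a => L (gg (P a * P a)) :=
    hL.comp (f := fun a => Un.mk (gg (P a * P a))) (PTime.unMk (pu_gg hQ))
  obtain ⟨am, hm, ham⟩ := ZestX.exists_am hf hS hL' hP
  obtain ⟨R, hR, hRe⟩ : ∃ R : α × Word → Sta, OT R ∧ ∀ a ω, R (a, ω) =
      ZestX.run (fun lo hi => fe (a, lo, hi)) (fun lo hi r => am (a, lo, hi, r)) (E a)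
        (fun lo hi r => smp (a, lo, hi, r)) (L (gg (P a * P a))) (P a) (ρ a) ω :=
    ⟨_, ot_run hE hf hm hS hL' hP (fun q => (ham q.1 q.2.1 q.2.2.1 q.2.2.2).1) hρ, fun _ _ => rfl⟩
  refine ⟨fun n => n * n * (ns (n * n) * L (gg (n * n))),
    fun p => out (P p.1) (R p) (en p.1 (R p).1), ?_, ?_, fun a hN => ?_⟩
  · have h1 : PU fun u : Un => u.val := PU.val PTime.id
    exact (h1.mul h1).mul ((pu_ns (h1.mul h1)).mul
      (hL.comp (f := fun u : Un => Un.mk (gg (u.val * u.val))) (PTime.unMk (pu_gg (h1.mul h1)))))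
  · have h1 : OT fun p : α × Word => en p.1 (R p).1 :=
      hen.comp (f := fun p : α × Word => (p.1, (R p).1)) ((OT.of_ptime PTime.fst').pair hR.fst)
        fun _ => rfl
    exact OT.map (E := fun q : (α × Word) × Sta × ℤ => out (P q.1.1) q.2.1 q.2.2)
      (ptime_out (hP.comp PTime.fst'.fst) PTime.snd'.fst PTime.snd'.snd) (hR.pair h1)
  · have hg : P a ≤ gg (P a * P a) := by
      have := Nat.le_mul_self (P a)
      unfold gg; omega
    have hSS : SSpec (E a) (ρ a) (en a) (fun lo hi r => smp (a, lo, hi, r)) (L (gg (P a * P a)))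
        (gg (P a * P a)) := fun lo hi hs =>
      ⟨(h a (ρ a) lo hi hs).1, (h a (ρ a) lo hi hs).2 (hN.mono hg)⟩
    obtain ⟨n1, n2, n5, n3, -⟩ := hN
    have hP1 : 1 ≤ P a := by omega
    have hP2 : (1 : ℝ) ≤ P a := by exact_mod_cast hP1
    have hi := ZestX.inv_init (en a) n1 (ρ := ρ a) fun e he => by have := n5 e he; omega
    have hZ : 0 ≤ Zb (E a) [] (ρ a) (en a) := Finset.sum_nonneg fun k _ => (wt_pos _ k).le
    have hI := Pr_iterR_inv (ns (P a * P a) * L (gg (P a * P a)))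
      (ZestX.stp (fun lo hi => fe (a, lo, hi)) (fun lo hi r => am (a, lo, hi, r)) (E a)
        (fun lo hi r => smp (a, lo, hi, r)) (L (gg (P a * P a))) (P a * P a))
      (ZestX.Inv (E a) (ρ a) (en a) (P a) (Zb (E a) [] (ρ a) (en a)))
      ((2 : ℝ)⁻¹ ^ P a / ((P a : ℝ) * P a)) (P a * P a) (by positivity)
      (fun k hk s hs => ZestX.round (hfe a) hP1 hSS (ham a)
        (fun e he => by have := n5 e he; omega) hZ hk hs) _ hi
    rw [Nat.cast_mul, mul_div_cancel₀ _ (by positivity)] at hI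
    refine hI.trans (Pr_mono fun ω _ hω => ?_)
    have hω' : ZestX.Inv (E a) (ρ a) (en a) (P a) (Zb (E a) [] (ρ a) (en a)) (P a * P a)
        (R (a, ω)) := by rw [hRe]; exact hω
    obtain ⟨h1, _, h3', h4, h5, h6⟩ := hω'
    have h3 := h3'.sub
    have h7 : (R (a, ω)).1 ∈ bx (E a) [] (ρ a) := mem_bx.2 ⟨h1, fun i hi =>
      ⟨by simp, (h3 i hi).1.trans (h3 i hi).2⟩⟩
    rw [Zb, bx_one (by omega) h1 h3, Finset.sum_singleton] at h6
    dsimp only
    rw [qv_out h4 (n3 _ h7)]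
    exact h6.trans (fin_eq hP1 _).le

end Crest.Agent.R302
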